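import Vale.Agent.Lib.P329.FlowPoly

/-!
Nilpotent groups of class at most four whose commutator subgroup is abelian: expansion of the value
of a word into flows of polynomials of degree at most three.
-/

namespace Vale.Agent.Lib.P329

section Abstract

open Classical

variable {A G N : Type} [Fintype A] [Group G] [CommGroup N]

/-- The data for the expansion. -/
structure MetaData (G N : Type) [Group G] [CommGroup N] where
  cj : G →* MulAut N
  lev : ℕ → N → Prop
  com : G → G → N
  ι : N →* G
  hO : ∀ g i v, lev i v → lev (i + 1) (cj g v * v⁻¹)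
  hlev1 : ∀ v, lev 1 v
  hlev4 : ∀ i v, 4 ≤ i → lev i v → v = 1
  hcom : ∀ a b h, com (a * b) h = cj a (com b h) * com a h
  hιcj : ∀ g v, ι (cj g v) = g * ι v * g⁻¹
  hιcom : ∀ a b, ι (com a b) = a * b * a⁻¹ * b⁻¹

variable (D : MetaData G N)

namespace MetaData

/-- The operator `g - 1`, in multiplicative form. -/
def O (g : G) (v : N) : N := D.cj g v * v⁻¹

theorem hO' (g : G) (i : ℕ) (v : N) (h : D.lev i v) : D.lev (i + 1) (D.O g v) := D.hO g i v h

theorem cj_eq (g : G) (v : N) : D.cj g v = D.O g v * v := by
  simp [O]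

theorem O_cube (g : G) (v : N) : D.O g (D.O g (D.O g v)) = 1 :=
  D.hlev4 4 _ le_rfl (D.hO g 3 _ (D.hO g 2 _ (D.hO g 1 _ (D.hlev1 v))))

theorem cj_O_O (g : G) (v : N) : D.cj g (D.O g (D.O g v)) = D.O g (D.O g v) := by
  rw [cj_eq, O_cube, one_mul]

theorem cj_pow (g : G) (v : N) (i : ℕ) :
    D.cj (g ^ i) v = v * (D.O g v) ^ i * (D.O g (D.O g v)) ^ (i.choose 2) := by
  induction i with
  | zero => simp
  | succ i ih =>
    rw [pow_succ', map_mul, MulAut.mul_apply, ih, map_mul, map_mul, map_pow, map_pow, cj_O_O,
      cj_eq D g v, cj_eq D g (D.O g v), Nat.choose_succ_succ' i 1, Nat.choose_one_right]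
    simp only [mul_pow, pow_add, pow_succ, mul_assoc, mul_comm, mul_left_comm]

theorem com_one (h : G) : D.com 1 h = 1 := by
  have := D.hcom 1 1 h
  simpa using this

theorem com_pow (g h : G) (i : ℕ) :
    D.com (g ^ i) h = (D.com g h) ^ i * (D.O g (D.com g h)) ^ (i.choose 2) *
      (D.O g (D.O g (D.com g h))) ^ (i.choose 3) := by
  induction i with
  | zero => simp [com_one]
  | succ i ih =>
    rw [pow_succ', D.hcom, ih, map_mul, map_mul, map_pow, map_pow, map_pow, cj_O_O,
      cj_eq D g (D.com g h), cj_eq D g (D.O g (D.com g h)), Nat.choose_succ_succ' i 1,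
      Nat.choose_succ_succ' i 2, Nat.choose_one_right]
    simp only [mul_pow, pow_add, pow_succ, mul_assoc, mul_comm, mul_left_comm]

/-- An entry of an expansion. -/
def evalEnt (k : A → ℕ) (e : N × List (A × ℕ)) : N := e.1 ^ ev e.2 k

/-- Functions of the count vector which are products of powers with binomial exponents, the base
having the level of the exponent. -/
def Rep (T : (A → ℕ) → N) : Prop :=
  ∃ L : List (N × List (A × ℕ)), (∀ e ∈ L, D.lev (wt e.2) e.1) ∧
    ∀ k, T k = (L.map (evalEnt k)).prod

theorem Rep.one : D.Rep (A := A) (fun _ => 1) := ⟨[], by simp, by simp⟩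

variable {D}

theorem Rep.mul {T T' : (A → ℕ) → N} (h : D.Rep T) (h' : D.Rep T') :
    D.Rep (fun k => T k * T' k) := by
  obtain ⟨L, hL, e⟩ := h
  obtain ⟨L', hL', e'⟩ := h'
  refine ⟨L ++ L', ?_, fun k => ?_⟩
  · intro a ha
    rcases List.mem_append.1 ha with ha | ha
    · exact hL a ha
    · exact hL' a ha
  · show T k * T' k = _
    rw [e, e', List.map_append, List.prod_append]

theorem Rep.congr {T T' : (A → ℕ) → N} (h : D.Rep T) (e : ∀ k, T k = T' k) : D.Rep T' := by
  have : T = T' := funext e
  rwa [← this]

theorem wt_cons (y : A) (i : ℕ) (m : List (A × ℕ)) : wt ((y, i) :: m) = i + wt m := by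
  simp [wt]

theorem ev_cons (y : A) (i : ℕ) (m : List (A × ℕ)) (k : A → ℕ) :
    ev ((y, i) :: m) k = (k y).choose i * ev m k := by
  simp [ev]

/-- Conjugation by a power of the count of a letter. -/
theorem Rep.conj (y : A) (g : G) {T : (A → ℕ) → N} (h : D.Rep T) :
    D.Rep (fun k => D.cj (g ^ k y) (T k)) := by
  obtain ⟨L, hL, e⟩ := h
  suffices hs : ∃ L' : List (N × List (A × ℕ)), (∀ e ∈ L', D.lev (wt e.2) e.1) ∧
      ∀ k, D.cj (g ^ k y) ((L.map (evalEnt k)).prod) = (L'.map (evalEnt k)).prod by
    obtain ⟨L', h1, h2⟩ := hs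
    exact ⟨L', h1, fun k => by
      show D.cj (g ^ k y) (T k) = _
      rw [e, h2]⟩
  clear e
  induction L with
  | nil => exact ⟨[], by simp, by simp⟩
  | cons a L ih =>
    obtain ⟨L', h1, h2⟩ := ih (fun e he => hL e (List.mem_cons_of_mem _ he))
    have ha := hL a List.mem_cons_self
    refine ⟨a :: (D.O g a.1, (y, 1) :: a.2) :: (D.O g (D.O g a.1), (y, 2) :: a.2) :: L', ?_, ?_⟩
    · intro e he
      simp only [List.mem_cons] at he
      rcases he with rfl | rfl | rfl | he
      · exact ha
      · have := hO' D g _ _ ha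
        show D.lev (wt ((y, 1) :: a.2)) (D.O g a.1)
        rw [wt_cons, add_comm]
        exact this
      · have := hO' D g _ _ (hO' D g _ _ ha)
        have e2 : wt a.2 + 1 + 1 = 2 + wt a.2 := by omega
        rw [e2] at this
        show D.lev (wt ((y, 2) :: a.2)) (D.O g (D.O g a.1))
        rw [wt_cons]
        exact this
      · exact h1 e he
    · intro k
      have e1 : ((a :: L).map (evalEnt k)).prod = evalEnt k a * (L.map (evalEnt k)).prod := by simp
      rw [e1, map_mul, h2]
      simp only [List.map_cons, List.prod_cons, ← mul_assoc]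
      congr 1
      have e3 : D.cj (g ^ k y) (a.1 ^ ev a.2 k) = (D.cj (g ^ k y) a.1) ^ ev a.2 k := map_pow _ _ _
      simp only [evalEnt, e3, cj_pow, ev_cons, Nat.choose_one_right, mul_pow, pow_mul]

/-- The base case: commutator with a power. -/
theorem Rep.com_pow (y : A) (g h : G) : D.Rep (fun k => D.com (g ^ k y) h) := by
  refine ⟨[(D.com g h, [(y, 1)]), (D.O g (D.com g h), [(y, 2)]),
    (D.O g (D.O g (D.com g h)), [(y, 3)])], ?_, ?_⟩
  · intro e he
    simp only [List.mem_cons, List.not_mem_nil, or_false] at he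
    rcases he with rfl | rfl | rfl
    · simpa [wt] using D.hlev1 _
    · exact hO' D g _ _ (D.hlev1 _)
    · exact hO' D g _ _ (hO' D g _ _ (D.hlev1 _))
  · intro k
    simp [evalEnt, ev, MetaData.com_pow, mul_assoc]

variable (D)

variable (φ : A → G)

/-- The ordered product of powers of the letters. -/
def sig (l : List A) (k : A → ℕ) : G := (l.map fun y => φ y ^ k y).prod

/-- The commutator of the ordered product with a letter. -/
def Aa (l : List A) (x : A) (k : A → ℕ) : N := D.com (sig φ l k) (φ x)

theorem rep_Aa (l : List A) (x : A) : D.Rep (D.Aa φ l x) := by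
  induction l with
  | nil =>
    refine (Rep.one D).congr (fun k => ?_)
    simp [Aa, sig, com_one]
  | cons y l ih =>
    refine (Rep.mul (Rep.conj y (φ y) ih) (Rep.com_pow y (φ y) (φ x))).congr (fun k => ?_)
    simp [Aa, sig, D.hcom]

/-- The correction term for moving a letter into the ordered product. -/
noncomputable def rho (x : A) : List A → (A → ℕ) → N
  | [], _ => 1
  | y :: l, k => if y = x then D.cj (φ x ^ k x) (D.Aa φ l x k) else D.cj (φ y ^ k y) (rho x l k)

theorem rep_rho (x : A) (l : List A) : D.Rep (D.rho φ x l) := by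
  induction l with
  | nil => exact Rep.one D
  | cons y l ih =>
    by_cases h : y = x
    · subst h
      refine (Rep.conj y (φ y) (D.rep_Aa φ l y)).congr (fun k => ?_)
      simp [rho]
    · refine (Rep.conj y (φ y) ih).congr (fun k => ?_)
      simp [rho, h]

theorem sig_bump_of_notMem (x : A) (l : List A) (hx : x ∉ l) (k : A → ℕ) :
    sig φ l (bump k x) = sig φ l k := by
  induction l with
  | nil => rfl
  | cons y l ih =>
    have hy : y ≠ x := fun e => hx (by simp [e])
    have hl : x ∉ l := fun e => hx (List.mem_cons_of_mem _ e)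
    simp only [sig, List.map_cons, List.prod_cons] at ih ⊢
    rw [ih hl]
    simp [bump, hy]

theorem rho_spec (x : A) (l : List A) (hnd : l.Nodup) (hx : x ∈ l) (k : A → ℕ) :
    D.ι (D.rho φ x l k) * sig φ l (bump k x) = sig φ l k * φ x := by
  induction l with
  | nil => simp at hx
  | cons y l ih =>
    have hnd' := List.nodup_cons.1 hnd
    by_cases h : y = x
    · subst h
      have e1 : sig φ (y :: l) (bump k y) = φ y ^ (k y + 1) * sig φ l k := by
        simp only [sig, List.map_cons, List.prod_cons]
        have := sig_bump_of_notMem φ y l hnd'.1 k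
        simp only [sig] at this
        rw [this]
        simp [bump]
      have e2 : sig φ (y :: l) k = φ y ^ k y * sig φ l k := by
        simp [sig]
      rw [e1, e2]
      simp only [rho, if_true, D.hιcj, Aa, D.hιcom]
      group
    · have hx' : x ∈ l := by
        rcases List.mem_cons.1 hx with e | e
        · exact absurd e.symm h
        · exact e
      have e1 : sig φ (y :: l) (bump k x) = φ y ^ k y * sig φ l (bump k x) := by
        simp [sig, bump, h]
      have e2 : sig φ (y :: l) k = φ y ^ k y * sig φ l k := by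
        simp [sig]
      rw [e1, e2]
      simp only [rho, h, if_false, D.hιcj]
      have ih' := ih hnd'.2 hx'
      calc φ y ^ k y * D.ι (D.rho φ x l k) * (φ y ^ k y)⁻¹ * (φ y ^ k y * sig φ l (bump k x))
          = φ y ^ k y * (D.ι (D.rho φ x l k) * sig φ l (bump k x)) := by group
        _ = φ y ^ k y * sig φ l k * φ x := by rw [ih', mul_assoc]

/-! ### Products along the positions of a letter -/

/-- The product of `T` over the positions of `x`, with start vector `k`. -/
noncomputable def fpFrom (x : A) (T : (A → ℕ) → N) : (A → ℕ) → List A → N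
  | _, [] => 1
  | k, a :: w => (if a = x then T k else 1) * fpFrom x T (bump k a) w

/-- The product of `T` over the positions of `x`. -/
noncomputable def fp (x : A) (T : (A → ℕ) → N) (w : List A) : N := fpFrom x T (fun _ => 0) w

theorem fpFrom_snoc (x : A) (T : (A → ℕ) → N) (k : A → ℕ) (w : List A) (a : A) :
    fpFrom x T k (w ++ [a]) = fpFrom x T k w * if a = x then T (kvOf k w) else 1 := by
  induction w generalizing k with
  | nil => simp [fpFrom, kvOf]
  | cons b w ih =>
    simp only [List.cons_append, fpFrom, ih, kvOf, mul_assoc]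

theorem fp_snoc (x : A) (T : (A → ℕ) → N) (w : List A) (a : A) :
    fp x T (w ++ [a]) = fp x T w * if a = x then T (kv w) else 1 := fpFrom_snoc _ _ _ _ _

theorem fpFrom_one (x : A) (k : A → ℕ) (w : List A) :
    fpFrom (N := N) x (fun _ => 1) k w = 1 := by
  induction w generalizing k with
  | nil => rfl
  | cons a w ih =>
    simp [fpFrom, ih]

theorem fpFrom_mul (x : A) (T T' : (A → ℕ) → N) (k : A → ℕ) (w : List A) :
    fpFrom x (fun k => T k * T' k) k w = fpFrom x T k w * fpFrom x T' k w := by
  induction w generalizing k with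
  | nil => simp [fpFrom]
  | cons a w ih =>
    simp only [fpFrom, ih]
    by_cases h : a = x
    · simp only [h, if_true, mul_assoc, mul_comm, mul_left_comm]
    · simp only [h, if_false, one_mul]

theorem fpFrom_pow (x : A) (c : N) (m : List (A × ℕ)) (k : A → ℕ) (w : List A) :
    fpFrom x (fun k => c ^ ev m k) k w = c ^ flowFrom x (fun k => ((ev m k : ℕ) : ℤ)) k w := by
  induction w generalizing k with
  | nil => simp [fpFrom, flowFrom]
  | cons a w ih =>
    simp only [fpFrom, flowFrom, ih, zpow_add]
    by_cases h : a = x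
    · simp [h]
    · simp [h]

variable [Finite N]

theorem good_zpow_of_goodZ {H : Type} [Group H] [Finite H] (c : H) {f : List A → ℤ}
    (hf : GoodZ f) : Good (fun w => c ^ f w) := by
  have hpos : NeZero (Nat.card H) := ⟨Nat.card_pos.ne'⟩
  refine Good.of_factor (hf (Nat.card H)) (fun w w' e => ?_)
  rw [ZMod.intCast_eq_intCast_iff_dvd_sub] at e
  obtain ⟨t, ht⟩ := e
  have : f w' = f w + (Nat.card H : ℤ) * t := by linarith
  rw [this, zpow_add, zpow_mul, zpow_natCast, pow_card_eq_one']
  simp

omit [Finite N] in
theorem fpFrom_list (x : A) (L : List (N × List (A × ℕ))) (k : A → ℕ) (w : List A) :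
    fpFrom x (fun k => (L.map (evalEnt k)).prod) k w =
      (L.map fun e => e.1 ^ flowFrom x (fun k => ((ev e.2 k : ℕ) : ℤ)) k w).prod := by
  induction L with
  | nil => simpa using fpFrom_one x k w
  | cons a L ih =>
    simp only [List.map_cons, List.prod_cons]
    rw [fpFrom_mul, ih]
    congr 1
    exact fpFrom_pow x a.1 a.2 k w

variable {D}

theorem Rep.good_fp {T : (A → ℕ) → N} (h : D.Rep T) (x : A) : Good (fp x T) := by
  obtain ⟨L, hL, e⟩ := h
  have e' : T = fun k => (L.map (evalEnt k)).prod := funext e
  have e2 : fp x T = fun w => (L.map fun e =>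
      e.1 ^ flow x (fun k => ((ev e.2 k : ℕ) : ℤ)) w).prod := by
    funext w
    rw [e', fp, fpFrom_list]
    rfl
  rw [e2]
  clear e e' e2
  induction L with
  | nil => simpa using Good.const (A := A) (1 : N)
  | cons a L ih =>
    simp only [List.map_cons, List.prod_cons]
    refine Good.mul ?_ (ih (fun e he => hL e (List.mem_cons_of_mem _ he)))
    by_cases hw : wt a.2 ≤ 3
    · exact good_zpow_of_goodZ a.1 (gf_ev x a.2 hw)
    · have h1 : a.1 = 1 := D.hlev4 _ _ (by omega) (hL a List.mem_cons_self)
      simp only [h1, one_zpow]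
      exact Good.const _

variable (D)

/-- The element of the abelian part. -/
noncomputable def Psi (l : List A) (w : List A) : N := ∏ x, fp x (D.rho φ x l) w

theorem Psi_snoc (l : List A) (w : List A) (a : A) :
    D.Psi φ l (w ++ [a]) = D.Psi φ l w * D.rho φ a l (kv w) := by
  simp only [Psi, fp_snoc, Finset.prod_mul_distrib]
  congr 1
  rw [Finset.prod_ite_eq]
  simp

theorem Psi_spec (l : List A) (hnd : l.Nodup) (hl : ∀ a, a ∈ l) (w : List A) :
    D.ι (D.Psi φ l w) * sig φ l (kv w) = (w.map φ).prod := by
  induction w using List.reverseRecOn with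
  | nil =>
    have h1 : D.Psi φ l [] = 1 := by
      simp [Psi, fp, fpFrom]
    have h2 : sig φ l (kv []) = 1 := by
      simp [sig, kv, kvOf]
    simp [h1, h2]
  | append_singleton w a ih =>
    rw [Psi_snoc, map_mul, kv_snoc, mul_assoc, rho_spec D φ a l hnd (hl a), ← mul_assoc, ih]
    simp

omit [Finite N] in
theorem good_sig [Finite G] (l : List A) : Good (fun w => sig φ l (kv w)) := by
  induction l with
  | nil => simpa [sig] using Good.const (A := A) (1 : G)
  | cons y l ih =>
    have h1 : Good (fun w : List A => φ y ^ ((w.count y : ℕ) : ℤ)) :=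
      good_zpow_of_goodZ (φ y) (goodZ_count y)
    refine (h1.mul ih).of_factor ?_
    · intro w w' e
      simpa [sig, kv_apply] using e

include D in
/-- The main theorem for the abstract data. -/
theorem good_prod [Finite G] : Good (fun w : List A => (w.map φ).prod) := by
  have hl : ∀ a : A, a ∈ (Finset.univ : Finset A).toList := by simp
  have h1 : Good (fun w => D.ι (D.Psi φ (Finset.univ : Finset A).toList w)) := by
    have h2 : Good (fun w => D.Psi φ (Finset.univ : Finset A).toList w) := by
      unfold Psi
      refine Good.finset_prod _ (fun x _ => ?_)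
      exact Rep.good_fp (D.rep_rho φ x _) x
    exact h2.comp D.ι
  have h3 := h1.mul (good_sig φ (Finset.univ : Finset A).toList)
  have e : (fun w : List A => (w.map φ).prod) = fun w =>
      D.ι (D.Psi φ (Finset.univ : Finset A).toList w) * sig φ (Finset.univ : Finset A).toList (kv w) := by
    funext w
    exact (D.Psi_spec φ _ (Finset.nodup_toList _) hl w).symm
  rw [e]
  exact h3

end MetaData

end Abstract

section Concrete

open scoped commutatorElement

variable {G : Type} [Group G]

/-- The commutator subgroup as a commutative group. -/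
@[reducible] def commOne
    (hN : ∀ x ∈ (⊤ : Subgroup G).lowerCentralSeries 1, ∀ y ∈ (⊤ : Subgroup G).lowerCentralSeries 1,
      x * y = y * x) : CommGroup ((⊤ : Subgroup G).lowerCentralSeries 1) :=
  { (inferInstance : Group ((⊤ : Subgroup G).lowerCentralSeries 1)) with
    mul_comm := fun a b => Subtype.ext (hN a a.2 b b.2) }

theorem com_mem_one (a b : G) : a * b * a⁻¹ * b⁻¹ ∈ (⊤ : Subgroup G).lowerCentralSeries 1 := by
  have h : ⁅a, b⁆ ∈ ⁅(⊤ : Subgroup G), (⊤ : Subgroup G)⁆ :=
    Subgroup.commutator_mem_commutator (Subgroup.mem_top _) (Subgroup.mem_top _)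
  simpa [commutatorElement_def] using h

theorem com_mem_succ (g v : G) {i : ℕ} (hv : v ∈ (⊤ : Subgroup G).lowerCentralSeries i) :
    g * v * g⁻¹ * v⁻¹ ∈ (⊤ : Subgroup G).lowerCentralSeries (i + 1) := by
  have h : ⁅g, v⁆ ∈ ⁅(⊤ : Subgroup G), (⊤ : Subgroup G).lowerCentralSeries i⁆ :=
    Subgroup.commutator_mem_commutator (Subgroup.mem_top _) hv
  rw [Subgroup.commutator_comm] at h
  simpa [commutatorElement_def] using h

/-- The data of a group of class at most four with commuting commutators. -/
noncomputable def metaDataOf (hG : (⊤ : Subgroup G).lowerCentralSeries 4 = ⊥)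
    (hN : ∀ x ∈ (⊤ : Subgroup G).lowerCentralSeries 1, ∀ y ∈ (⊤ : Subgroup G).lowerCentralSeries 1,
      x * y = y * x) :
    @MetaData G ((⊤ : Subgroup G).lowerCentralSeries 1) _ (commOne hN) :=
  letI := commOne hN
  { cj := MulAut.conjNormal
    lev := fun i v => (v : G) ∈ (⊤ : Subgroup G).lowerCentralSeries i
    com := fun a b => ⟨a * b * a⁻¹ * b⁻¹, com_mem_one a b⟩
    ι := ((⊤ : Subgroup G).lowerCentralSeries 1).subtype
    hO := by
      intro g i v hv
      have := com_mem_succ g v hv
      have e : (((MulAut.conjNormal g v : ((⊤ : Subgroup G).lowerCentralSeries 1)) * v⁻¹ :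
          ((⊤ : Subgroup G).lowerCentralSeries 1)) : G) = g * v * g⁻¹ * (v : G)⁻¹ := by
        show ((MulAut.conjNormal g v : ((⊤ : Subgroup G).lowerCentralSeries 1)) : G) * (v : G)⁻¹ = _
        rw [MulAut.conjNormal_apply]
      show (((MulAut.conjNormal g v : ((⊤ : Subgroup G).lowerCentralSeries 1)) * v⁻¹ :
          ((⊤ : Subgroup G).lowerCentralSeries 1)) : G) ∈ _
      rw [e]
      exact this
    hlev1 := fun v => v.2
    hlev4 := by
      intro i v hi hv
      have h4 : (v : G) ∈ (⊤ : Subgroup G).lowerCentralSeries 4 :=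
        Subgroup.lowerCentralSeries_antitone _ hi hv
      rw [hG, Subgroup.mem_bot] at h4
      exact Subtype.ext h4
    hcom := by
      intro a b h
      apply Subtype.ext
      simp only [MulAut.conjNormal_apply, Subgroup.coe_mul]
      group
    hιcj := by
      intro g v
      exact MulAut.conjNormal_apply g v
    hιcom := by
      intro a b
      rfl }

/-- **Metabelian nilpotent groups of class at most four.** -/
theorem heightLE_of_meta_four {A : Type} [Finite A] [Finite G]
    (hG : (⊤ : Subgroup G).lowerCentralSeries 4 = ⊥)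
    (hN : ∀ x ∈ (⊤ : Subgroup G).lowerCentralSeries 1, ∀ y ∈ (⊤ : Subgroup G).lowerCentralSeries 1,
      x * y = y * x) (φ : A → G) (S : Set G) :
    HeightLE 1 {w : List A | (w.map φ).prod ∈ S} := by
  haveI : Fintype A := Fintype.ofFinite A
  letI := commOne hN
  exact (MetaData.good_prod (metaDataOf hG hN) φ).preimage S

end Concrete

end Vale.Agent.Lib.P329
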