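import Vale.Agent.Lib.P329.Deg4
import Vale.Agent.Lib.P329.MetaFour

/-!
Nilpotent groups of class at most four: the value of a word as a product of powers of fixed elements
with flows as exponents and commutators with double flows as exponents.
-/

namespace Vale.Agent.Lib.P329

section C4

/-- The commutator, written out. -/
def co {G : Type} [Group G] (a b : G) : G := a * b * a⁻¹ * b⁻¹

/-- The data of a group of class at most four. -/
structure C4Data (G : Type) [Group G] where
  lev : ℕ → G → Prop
  hO : ∀ g i v, lev i v → lev (i + 1) (co g v)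
  hcom : ∀ a b, lev 1 (co a b)
  htop : ∀ i v, 4 ≤ i → lev i v → v = 1
  hmono : ∀ i v, lev (i + 1) v → lev i v
  hcomm : ∀ u v, lev 1 u → lev 2 v → Commute u v
  hcen : ∀ u v, lev 1 u → lev 1 v → ∀ g, Commute (co u v) g

variable {A G : Type} [Group G] (D : C4Data G)

namespace C4Data

variable {D}

theorem lev_of_le {i j : ℕ} {v : G} (hij : i ≤ j) (h : D.lev j v) : D.lev i v := by
  induction j, hij using Nat.le_induction with
  | base => exact h
  | succ j _ ih => exact ih (D.hmono _ _ h)

theorem co_eq_one_of_three (g : G) {z : G} (hz : D.lev 3 z) : co g z = 1 :=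
  D.htop 4 _ le_rfl (D.hO g 3 z hz)

theorem commute_of_three (g : G) {z : G} (hz : D.lev 3 z) : Commute z g := by
  have h := co_eq_one_of_three (D := D) g hz
  unfold co at h
  have h2 : g * z = z * g := by
    have h3 : g * z * g⁻¹ = z := by
      have := mul_eq_one_iff_eq_inv.1 h
      simpa using this
    calc g * z = g * z * g⁻¹ * g := by group
      _ = z * g := by rw [h3]
  exact h2.symm

theorem conj_eq (g v : G) : g * v * g⁻¹ = co g v * v := by
  simp [co]

/-- Conjugation by a power. -/
theorem cj_pow (g c : G) (hc : D.lev 1 c) (n : ℕ) :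
    g ^ n * c * (g ^ n)⁻¹ = c * (co g c) ^ n * (co g (co g c)) ^ (n.choose 2) := by
  set y := co g c with hy
  set z := co g y with hz
  have hly : D.lev 2 y := D.hO g 1 c hc
  have hlz : D.lev 3 z := D.hO g 2 y hly
  have hcy : Commute y c := (D.hcomm c y hc hly).symm
  have hzy : Commute z y := commute_of_three y hlz
  have hzg : g * z * g⁻¹ = z := by
    have := (commute_of_three (D := D) g hlz).eq
    rw [← this]
    group
  induction n with
  | zero => simp
  | succ n ih =>
    have e : g ^ (n + 1) * c * (g ^ (n + 1))⁻¹ = g * (g ^ n * c * (g ^ n)⁻¹) * g⁻¹ := by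
      rw [pow_succ']
      group
    rw [e, ih, Nat.choose_succ_succ' n 1, Nat.choose_one_right]
    have e2 : g * (c * y ^ n * z ^ n.choose 2) * g⁻¹ =
        (g * c * g⁻¹) * (g * y * g⁻¹) ^ n * (g * z * g⁻¹) ^ n.choose 2 := by
      simp only [conj_pow]
      group
    rw [e2, hzg, conj_eq g c, conj_eq g y, ← hy, ← hz, hzy.mul_pow, hcy.eq, (hzy.pow_pow n n).eq]
    simp only [pow_succ', pow_add, mul_assoc]

/-- The commutator of a power. -/
theorem co_pow (D : C4Data G) (g h : G) (n : ℕ) :
    co (g ^ n) h = (co g h) ^ n * (co g (co g h)) ^ (n.choose 2) *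
      (co g (co g (co g h))) ^ (n.choose 3) := by
  set v := co g h with hv
  set y := co g v with hy
  set z := co g y with hz
  have hlv : D.lev 1 v := D.hcom g h
  have hly : D.lev 2 y := D.hO g 1 v hlv
  have hlz : D.lev 3 z := D.hO g 2 y hly
  have hvy : Commute y v := (D.hcomm v y hlv hly).symm
  have hzy : Commute z y := commute_of_three y hlz
  have hzv : Commute z v := commute_of_three v hlz
  have hzg : g * z * g⁻¹ = z := by
    have := (commute_of_three (D := D) g hlz).eq
    rw [← this]
    group
  induction n with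
  | zero => simp [co]
  | succ n ih =>
    have e : co (g ^ (n + 1)) h = g * co (g ^ n) h * g⁻¹ * v := by
      rw [pow_succ', hv]
      simp only [co]
      group
    have h2 : (n + 1).choose 2 = n + n.choose 2 := by
      rw [Nat.choose_succ_succ' n 1, Nat.choose_one_right]
    have h3 : (n + 1).choose 3 = n.choose 2 + n.choose 3 := Nat.choose_succ_succ' n 2
    rw [e, ih, h2, h3]
    have e2 : g * (v ^ n * y ^ n.choose 2 * z ^ n.choose 3) * g⁻¹ =
        (g * v * g⁻¹) ^ n * (g * y * g⁻¹) ^ n.choose 2 * (g * z * g⁻¹) ^ n.choose 3 := by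
      simp only [conj_pow]
      group
    rw [e2, hzg, conj_eq g v, conj_eq g y, ← hy, ← hz, hvy.mul_pow, hzy.mul_pow]
    have c1 : Commute (y ^ n) (v ^ n) := hvy.pow_pow n n
    have c2 : Commute (z ^ n.choose 2) (y ^ n.choose 2) := hzy.pow_pow _ _
    have c : Commute (y ^ (n + n.choose 2) * z ^ (n.choose 2 + n.choose 3)) v :=
      (hvy.pow_left _).mul_left (hzv.pow_left _)
    have e3 : y ^ n * v ^ n * (z ^ n.choose 2 * y ^ n.choose 2) * z ^ n.choose 3 * v =
        v ^ n * (y ^ (n + n.choose 2) * z ^ (n.choose 2 + n.choose 3)) * v := by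
      rw [c1.eq, c2.eq, pow_add, pow_add]
      simp only [mul_assoc]
    rw [e3, mul_assoc, c.eq, ← mul_assoc, ← pow_succ, mul_assoc]

/-- An entry of an expansion. -/
def evalE (k : A → ℕ) (e : G × List (A × ℕ)) : G := e.1 ^ ev e.2 k

variable (D) in
/-- Functions of the count vector which are ordered products of powers with binomial exponents, the
base having the level of the exponent and all exponents of positive weight. -/
def Rep (T : (A → ℕ) → G) : Prop :=
  ∃ L : List (G × List (A × ℕ)), (∀ e ∈ L, 1 ≤ wt e.2 ∧ D.lev (wt e.2) e.1) ∧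
    ∀ k, T k = (L.map (evalE k)).prod

theorem Rep.one : Rep D (A := A) (fun _ => 1) := ⟨[], by simp, by simp⟩

theorem Rep.mul {T T' : (A → ℕ) → G} (h : Rep D T) (h' : Rep D T') :
    Rep D (fun k => T k * T' k) := by
  obtain ⟨L, hL, e⟩ := h
  obtain ⟨L', hL', e'⟩ := h'
  refine ⟨L ++ L', ?_, fun k => ?_⟩
  · intro a ha
    rcases List.mem_append.1 ha with ha | ha
    · exact hL a ha
    · exact hL' a ha
  · show T k * T' k = _
    rw [e, e', List.map_append, List.prod_append]

theorem Rep.congr {T T' : (A → ℕ) → G} (h : Rep D T) (e : ∀ k, T k = T' k) : Rep D T' := by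
  have : T = T' := funext e
  rwa [← this]

theorem wt_cons (y : A) (i : ℕ) (m : List (A × ℕ)) : wt ((y, i) :: m) = i + wt m := by
  simp [wt]

theorem ev_cons (y : A) (i : ℕ) (m : List (A × ℕ)) (k : A → ℕ) :
    ev ((y, i) :: m) k = (k y).choose i * ev m k := by
  simp [ev]

/-- Conjugation of one entry. -/
theorem cj_entry (g c : G) (hc : D.lev 1 c) (n e : ℕ) :
    g ^ n * (c ^ e) * (g ^ n)⁻¹ =
      c ^ e * (co g c) ^ (n * e) * (co g (co g c)) ^ (n.choose 2 * e) := by
  have h1 : g ^ n * (c ^ e) * (g ^ n)⁻¹ = (g ^ n * c * (g ^ n)⁻¹) ^ e := (conj_pow).symm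
  rw [h1, cj_pow (D := D) g c hc n]
  have hly : D.lev 2 (co g c) := D.hO g 1 c hc
  have hlz : D.lev 3 (co g (co g c)) := D.hO g 2 _ hly
  have c1 : Commute c ((co g c) ^ n) := (D.hcomm c _ hc hly).pow_right n
  have c2 : Commute (c * (co g c) ^ n) ((co g (co g c)) ^ n.choose 2) :=
    ((commute_of_three _ hlz).pow_left _).symm
  rw [c2.mul_pow, c1.mul_pow, pow_mul, pow_mul]

/-- Conjugation by a power of the count of a letter. -/
theorem Rep.conj [DecidableEq A] (y : A) (g : G) {T : (A → ℕ) → G} (h : Rep D T) :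
    Rep D (fun k => g ^ k y * T k * (g ^ k y)⁻¹) := by
  obtain ⟨L, hL, e⟩ := h
  suffices hs : ∃ L' : List (G × List (A × ℕ)), (∀ e ∈ L', 1 ≤ wt e.2 ∧ D.lev (wt e.2) e.1) ∧
      ∀ k, g ^ k y * (L.map (evalE k)).prod * (g ^ k y)⁻¹ = (L'.map (evalE k)).prod by
    obtain ⟨L', h1, h2⟩ := hs
    exact ⟨L', h1, fun k => by
      show g ^ k y * T k * (g ^ k y)⁻¹ = _
      rw [e, h2]⟩
  clear e
  induction L with
  | nil => exact ⟨[], by simp, by simp⟩
  | cons a L ih =>
    obtain ⟨L', h1, h2⟩ := ih (fun e he => hL e (List.mem_cons_of_mem _ he))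
    have ha := hL a List.mem_cons_self
    refine ⟨a :: (co g a.1, (y, 1) :: a.2) :: (co g (co g a.1), (y, 2) :: a.2) :: L', ?_, ?_⟩
    · intro e he
      simp only [List.mem_cons] at he
      rcases he with rfl | rfl | rfl | he
      · exact ha
      · have := D.hO g _ _ ha.2
        refine ⟨?_, ?_⟩
        · simp only [wt_cons]; omega
        · show D.lev (wt ((y, 1) :: a.2)) (co g a.1)
          rw [wt_cons, add_comm]
          exact this
      · have := D.hO g _ _ (D.hO g _ _ ha.2)
        have e2 : wt a.2 + 1 + 1 = 2 + wt a.2 := by omega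
        rw [e2] at this
        refine ⟨?_, ?_⟩
        · simp only [wt_cons]; omega
        · show D.lev (wt ((y, 2) :: a.2)) (co g (co g a.1))
          rw [wt_cons]
          exact this
      · exact h1 e he
    · intro k
      have e1 : ((a :: L).map (evalE k)).prod = evalE k a * (L.map (evalE k)).prod := by simp
      have e4 : g ^ k y * (evalE k a * (L.map (evalE k)).prod) * (g ^ k y)⁻¹ =
          (g ^ k y * evalE k a * (g ^ k y)⁻¹) * (g ^ k y * (L.map (evalE k)).prod * (g ^ k y)⁻¹) := by
        group
      rw [e1, e4, h2]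
      simp only [List.map_cons, List.prod_cons, ← mul_assoc]
      congr 1
      have hl1 : D.lev 1 a.1 := lev_of_le ha.1 ha.2
      have e5 := cj_entry (D := D) g a.1 hl1 (k y) (ev a.2 k)
      simp only [evalE, e5, ev_cons, Nat.choose_one_right]

/-- The base case: commutator with a power. -/
theorem Rep.com_pow (y : A) (g h : G) : Rep D (fun k => co (g ^ k y) h) := by
  refine ⟨[(co g h, [(y, 1)]), (co g (co g h), [(y, 2)]),
    (co g (co g (co g h)), [(y, 3)])], ?_, ?_⟩
  · intro e he
    simp only [List.mem_cons, List.not_mem_nil, or_false] at he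
    rcases he with rfl | rfl | rfl
    · refine ⟨by simp [wt], ?_⟩
      simpa [wt] using D.hcom g h
    · refine ⟨by simp [wt], ?_⟩
      simpa [wt] using D.hO g 1 _ (D.hcom g h)
    · refine ⟨by simp [wt], ?_⟩
      simpa [wt] using D.hO g 2 _ (D.hO g 1 _ (D.hcom g h))
  · intro k
    simp [evalE, ev, co_pow D, mul_assoc]

variable (φ : A → G)

open MetaData in
/-- The commutator of the ordered product with a letter. -/
def Aa (l : List A) (x : A) (k : A → ℕ) : G := co (sig φ l k) (φ x)

open MetaData in
theorem rep_Aa [DecidableEq A] (l : List A) (x : A) : Rep D (Aa φ l x) := by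
  induction l with
  | nil =>
    refine (Rep.one (D := D)).congr (fun k => ?_)
    simp [Aa, sig, co]
  | cons y l ih =>
    refine (Rep.mul (Rep.conj y (φ y) ih) (Rep.com_pow y (φ y) (φ x))).congr (fun k => ?_)
    simp only [Aa, sig, co, List.map_cons, List.prod_cons]
    group

/-- The correction term for moving a letter into the ordered product. -/
noncomputable def rho [DecidableEq A] (x : A) : List A → (A → ℕ) → G
  | [], _ => 1
  | y :: l, k => if y = x then φ x ^ k x * Aa φ l x k * (φ x ^ k x)⁻¹
      else φ y ^ k y * rho x l k * (φ y ^ k y)⁻¹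

theorem rep_rho [DecidableEq A] (x : A) (l : List A) : Rep D (rho φ x l) := by
  induction l with
  | nil => exact Rep.one
  | cons y l ih =>
    by_cases h : y = x
    · subst h
      refine (Rep.conj y (φ y) (rep_Aa φ l y)).congr (fun k => ?_)
      simp [rho]
    · refine (Rep.conj y (φ y) ih).congr (fun k => ?_)
      simp [rho, h]

open MetaData in
theorem sig_bump' [DecidableEq A] (x : A) (l : List A) (hx : x ∉ l) (k : A → ℕ) :
    sig φ l (bump k x) = sig φ l k := by
  induction l with
  | nil => rfl
  | cons y l ih =>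
    have hy : y ≠ x := fun e => hx (by simp [e])
    have hl : x ∉ l := fun e => hx (List.mem_cons_of_mem _ e)
    simp only [sig, List.map_cons, List.prod_cons] at ih ⊢
    rw [ih hl]
    simp [bump, hy]

open MetaData in
theorem rho_spec [DecidableEq A] (x : A) (l : List A) (hnd : l.Nodup) (hx : x ∈ l) (k : A → ℕ) :
    rho φ x l k * sig φ l (bump k x) = sig φ l k * φ x := by
  induction l with
  | nil => simp at hx
  | cons y l ih =>
    have hnd' := List.nodup_cons.1 hnd
    by_cases h : y = x
    · subst h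
      have e1 : sig φ (y :: l) (bump k y) = φ y ^ (k y + 1) * sig φ l k := by
        simp only [sig, List.map_cons, List.prod_cons]
        have := sig_bump' φ y l hnd'.1 k
        simp only [sig] at this
        rw [this]
        simp [bump]
      have e2 : sig φ (y :: l) k = φ y ^ k y * sig φ l k := by
        simp [sig]
      rw [e1, e2]
      simp only [rho, if_true, Aa, co]
      group
    · have hx' : x ∈ l := by
        rcases List.mem_cons.1 hx with e | e
        · exact absurd e.symm h
        · exact e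
      have e1 : sig φ (y :: l) (bump k x) = φ y ^ k y * sig φ l (bump k x) := by
        simp [sig, bump, h]
      have e2 : sig φ (y :: l) k = φ y ^ k y * sig φ l k := by
        simp [sig]
      rw [e1, e2]
      simp only [rho, h, if_false]
      have ih' := ih hnd'.2 hx'
      calc φ y ^ k y * rho φ x l k * (φ y ^ k y)⁻¹ * (φ y ^ k y * sig φ l (bump k x))
          = φ y ^ k y * (rho φ x l k * sig φ l (bump k x)) := by group
        _ = φ y ^ k y * sig φ l k * φ x := by rw [ih', mul_assoc]

end C4Data

section Collect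

variable {ι G : Type} [Group G] (c : ι → G)

/-- Ordered product of powers. -/
def nf (E : List ι) (n : ι → ℕ) : G := (E.map fun s => c s ^ n s).prod

@[simp] theorem nf_nil (n : ι → ℕ) : nf c [] n = 1 := rfl

@[simp] theorem nf_cons (s : ι) (E : List ι) (n : ι → ℕ) :
    nf c (s :: E) n = c s ^ n s * nf c E n := by simp [nf]

@[simp] theorem nf_append (E E' : List ι) (n : ι → ℕ) :
    nf c (E ++ E') n = nf c E n * nf c E' n := by simp [nf]

theorem nf_zero (E : List ι) (n : ι → ℕ) (h : ∀ s ∈ E, n s = 0) : nf c E n = 1 := by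
  induction E with
  | nil => rfl
  | cons s E ih =>
    rw [nf_cons, h s List.mem_cons_self, ih (fun t ht => h t (List.mem_cons_of_mem _ ht))]
    simp

variable {c}

theorem move_one {a b z : G} (hz : ∀ g, Commute z g) (h : co a b = z) (m : ℕ) :
    a ^ m * b = z ^ m * b * a ^ m := by
  have h1 : a * b = z * b * a := by
    rw [← h]
    simp [co]
  induction m with
  | zero => simp
  | succ m ih =>
    have hzm : Commute (a ^ m) z := (hz (a ^ m)).symm
    calc a ^ (m + 1) * b = a ^ m * (a * b) := by rw [pow_succ, mul_assoc]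
      _ = a ^ m * (z * b * a) := by rw [h1]
      _ = z * (a ^ m * b) * a := by
        rw [← mul_assoc, ← mul_assoc, hzm.eq]
        simp only [mul_assoc]
      _ = z * (z ^ m * b * a ^ m) * a := by rw [ih]
      _ = z ^ (m + 1) * b * a ^ (m + 1) := by
        rw [pow_succ' z, pow_succ a]
        simp only [mul_assoc]

theorem move_pow {a b z : G} (hz : ∀ g, Commute z g) (h : co a b = z) (m n : ℕ) :
    a ^ m * b ^ n = z ^ (m * n) * b ^ n * a ^ m := by
  induction n with
  | zero => simp
  | succ n ih =>
    have hzb : Commute (z ^ m) (b ^ n) := (hz (b ^ n)).pow_left m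
    calc a ^ m * b ^ (n + 1) = (a ^ m * b ^ n) * b := by rw [pow_succ, mul_assoc]
      _ = z ^ (m * n) * b ^ n * (a ^ m * b) := by rw [ih]; simp only [mul_assoc]
      _ = z ^ (m * n) * b ^ n * (z ^ m * b * a ^ m) := by rw [move_one hz h]
      _ = z ^ (m * n) * (b ^ n * z ^ m) * b * a ^ m := by simp only [mul_assoc]
      _ = z ^ (m * n) * (z ^ m * b ^ n) * b * a ^ m := by rw [hzb.eq]
      _ = z ^ (m * (n + 1)) * b ^ (n + 1) * a ^ m := by
        rw [mul_add, mul_one, pow_add, pow_succ b]
        simp only [mul_assoc]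

variable (c)

/-- Commutator pairing valued in the centre. -/
noncomputable def zt (t s : ι) : Subgroup.center G := by
  classical
  exact if h : co (c t) (c s) ∈ Subgroup.center G then ⟨_, h⟩ else 1

/-- The central term for multiplying two normal forms. -/
noncomputable def Zf : List ι → (ι → ℕ) → (ι → ℕ) → Subgroup.center G
  | [], _, _ => 1
  | s :: E, n, n' => (E.map fun t => zt c t s ^ (n t * n' s)).prod * Zf E n n'

variable {c}

theorem zt_coe {t s : ι} (h : co (c t) (c s) ∈ Subgroup.center G) :
    ((zt c t s : Subgroup.center G) : G) = co (c t) (c s) := by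
  simp [zt, h]

theorem center_commute (z : Subgroup.center G) (g : G) : Commute (z : G) g :=
  (Subgroup.mem_center_iff.1 z.2 g).symm

theorem center_mmmc (a b c' d : Subgroup.center G) : a * b * (c' * d) = a * c' * (b * d) := by
  apply Subtype.ext
  simp only [Subgroup.coe_mul]
  have h : (b : G) * c' = c' * b := (center_commute b c').eq
  calc (a : G) * b * (c' * d) = a * (b * c') * d := by simp only [mul_assoc]
    _ = a * (c' * b) * d := by rw [h]
    _ = a * c' * (b * d) := by simp only [mul_assoc]

theorem nf_move (E : List ι) (s : ι) (hE : ∀ t ∈ E, co (c t) (c s) ∈ Subgroup.center G)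
    (n : ι → ℕ) (m : ℕ) :
    nf c E n * c s ^ m =
      (((E.map fun t => zt c t s ^ (n t * m)).prod : Subgroup.center G) : G) * c s ^ m * nf c E n := by
  induction E with
  | nil => simp
  | cons t E ih =>
    have ih' := ih (fun u hu => hE u (List.mem_cons_of_mem _ hu))
    set Y : Subgroup.center G := (E.map fun t => zt c t s ^ (n t * m)).prod with hY
    have hz := zt_coe (hE t List.mem_cons_self)
    have hm := move_pow (a := c t) (b := c s) (z := ((zt c t s : Subgroup.center G) : G))
      (center_commute _) hz.symm (n t) m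
    simp only [nf_cons, List.map_cons, List.prod_cons]
    calc c t ^ n t * nf c E n * c s ^ m = c t ^ n t * (nf c E n * c s ^ m) := by
          simp only [mul_assoc]
      _ = c t ^ n t * ((Y : G) * c s ^ m * nf c E n) := by rw [ih']
      _ = (c t ^ n t * (Y : G)) * c s ^ m * nf c E n := by simp only [mul_assoc]
      _ = ((Y : G) * c t ^ n t) * c s ^ m * nf c E n := by rw [(center_commute Y _).eq]
      _ = (Y : G) * (c t ^ n t * c s ^ m) * nf c E n := by simp only [mul_assoc]
      _ = (Y : G) * (((zt c t s : Subgroup.center G) : G) ^ (n t * m) * c s ^ m * c t ^ n t) *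
            nf c E n := by rw [hm]
      _ = (((zt c t s ^ (n t * m) * Y : Subgroup.center G)) : G) * c s ^ m *
            (c t ^ n t * nf c E n) := by
        have h1 : Commute (Y : G) (((zt c t s : Subgroup.center G) : G) ^ (n t * m)) :=
          center_commute _ _
        simp only [Subgroup.coe_mul, Subgroup.coe_pow]
        rw [← mul_assoc (Y : G), ← mul_assoc (Y : G), h1.eq]
        simp only [mul_assoc]

theorem nf_mul (E : List ι) (hE : ∀ t ∈ E, ∀ s ∈ E, co (c t) (c s) ∈ Subgroup.center G)
    (n n' : ι → ℕ) :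
    nf c E n * nf c E n' = ((Zf c E n n' : Subgroup.center G) : G) * nf c E (fun s => n s + n' s) := by
  induction E with
  | nil => simp [Zf]
  | cons s E ih =>
    have ih' := ih (fun t ht u hu => hE t (List.mem_cons_of_mem _ ht) u (List.mem_cons_of_mem _ hu))
    have hm := nf_move (c := c) E s
      (fun t ht => hE t (List.mem_cons_of_mem _ ht) s List.mem_cons_self) n (n' s)
    simp only [nf_cons, Zf]
    set Y : Subgroup.center G := (E.map fun t => zt c t s ^ (n t * n' s)).prod with hY
    calc c s ^ n s * nf c E n * (c s ^ n' s * nf c E n')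
        = c s ^ n s * (nf c E n * c s ^ n' s) * nf c E n' := by simp only [mul_assoc]
      _ = c s ^ n s * ((Y : G) * c s ^ n' s * nf c E n) * nf c E n' := by rw [hm]
      _ = (c s ^ n s * (Y : G)) * c s ^ n' s * (nf c E n * nf c E n') := by simp only [mul_assoc]
      _ = ((Y : G) * c s ^ n s) * c s ^ n' s * (nf c E n * nf c E n') := by
        rw [(center_commute Y _).eq]
      _ = (Y : G) * c s ^ (n s + n' s) * (((Zf c E n n' : Subgroup.center G) : G) *
            nf c E (fun s => n s + n' s)) := by
        rw [ih', pow_add]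
        simp only [mul_assoc]
      _ = (Y : G) * (c s ^ (n s + n' s) * ((Zf c E n n' : Subgroup.center G) : G)) *
            nf c E (fun s => n s + n' s) := by simp only [mul_assoc]
      _ = (Y : G) * (((Zf c E n n' : Subgroup.center G) : G) * c s ^ (n s + n' s)) *
            nf c E (fun s => n s + n' s) := by
        rw [(center_commute (Zf c E n n') (c s ^ (n s + n' s))).eq]
      _ = _ := by
        simp only [Subgroup.coe_mul, mul_assoc]

/-- Ordered pairs of entries. -/
def prs : List ι → List (ι × ι)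
  | [] => []
  | s :: E => E.map (fun t => (s, t)) ++ prs E

theorem mem_prs {E : List ι} {p : ι × ι} (h : p ∈ prs E) : p.1 ∈ E ∧ p.2 ∈ E := by
  induction E with
  | nil => simp [prs] at h
  | cons s E ih =>
    simp only [prs, List.mem_append, List.mem_map] at h
    rcases h with ⟨t, ht, rfl⟩ | h
    · exact ⟨List.mem_cons_self, List.mem_cons_of_mem _ ht⟩
    · exact ⟨List.mem_cons_of_mem _ (ih h).1, List.mem_cons_of_mem _ (ih h).2⟩

theorem Zf_eq (E : List ι) (n n' : ι → ℕ) :
    Zf c E n n' = ((prs E).map fun p => zt c p.2 p.1 ^ (n p.2 * n' p.1)).prod := by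
  induction E with
  | nil => rfl
  | cons s E ih =>
    simp only [Zf, prs, List.map_append, List.prod_append, List.map_map, ih]
    rfl

end Collect

section Pre

variable {A : Type}

/-- Sum over positions of a function of the prefix and the letter, with a start word. -/
def preFrom (g : List A → A → ℕ) : List A → List A → ℕ
  | _, [] => 0
  | acc, a :: w => g acc a + preFrom g (acc ++ [a]) w

/-- Sum over positions of a function of the prefix and the letter. -/
def pre (g : List A → A → ℕ) (w : List A) : ℕ := preFrom g [] w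

theorem preFrom_snoc (g : List A → A → ℕ) (acc w : List A) (a : A) :
    preFrom g acc (w ++ [a]) = preFrom g acc w + g (acc ++ w) a := by
  induction w generalizing acc with
  | nil => simp [preFrom]
  | cons b w ih =>
    simp only [List.cons_append, preFrom, ih, List.append_assoc, add_assoc]
    simp

theorem pre_snoc (g : List A → A → ℕ) (w : List A) (a : A) :
    pre g (w ++ [a]) = pre g w + g w a := by
  simp [pre, preFrom_snoc]

@[simp] theorem pre_nil (g : List A → A → ℕ) : pre g [] = 0 := rfl

end Pre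

section Word

open MetaData

variable {A G : Type} [DecidableEq A] [Group G]

/-- An entry together with the letter it belongs to. -/
abbrev En (A G : Type) := A × G × List (A × ℕ)

/-- The base of an entry. -/
def cc (s : En A G) : G := s.2.1

/-- The exponent of an entry when the letter `a` is read at the count vector `k`. -/
def ee (a : A) (k : A → ℕ) (s : En A G) : ℕ := if a = s.1 then ev s.2.2 k else 0

/-- All entries. -/
def Ea (l : List A) (L : A → List (G × List (A × ℕ))) : List (En A G) :=
  l.flatMap fun x => (L x).map fun e => (x, e)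

theorem mem_Ea {l : List A} {L : A → List (G × List (A × ℕ))} {s : En A G} (h : s ∈ Ea l L) :
    s.1 ∈ l ∧ s.2 ∈ L s.1 := by
  simp only [Ea, List.mem_flatMap, List.mem_map] at h
  obtain ⟨x, hx, e, he, rfl⟩ := h
  exact ⟨hx, he⟩

theorem nf_single (a : A) (k : A → ℕ) (L : List (G × List (A × ℕ))) :
    nf cc (L.map fun e => (a, e)) (ee a k) = (L.map (C4Data.evalE k)).prod := by
  induction L with
  | nil => rfl
  | cons e L ih =>
    simp only [List.map_cons, nf_cons, List.prod_cons, ih]
    simp [cc, ee, C4Data.evalE]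

theorem nf_Ea (l : List A) (hnd : l.Nodup) (L : A → List (G × List (A × ℕ))) (a : A) (ha : a ∈ l)
    (k : A → ℕ) : nf cc (Ea l L) (ee a k) = ((L a).map (C4Data.evalE k)).prod := by
  induction l with
  | nil => simp at ha
  | cons y l ih =>
    have hnd' := List.nodup_cons.1 hnd
    have e : Ea (y :: l) L = ((L y).map fun e => (y, e)) ++ Ea l L := by
      simp [Ea]
    rw [e, nf_append]
    by_cases h : a = y
    · subst h
      rw [nf_single, nf_zero cc (Ea l L), mul_one]
      intro s hs
      have h1 := (mem_Ea hs).1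
      have h2 : a ≠ s.1 := fun e => hnd'.1 (e ▸ h1)
      simp [ee, h2]
    · have ha' : a ∈ l := by
        rcases List.mem_cons.1 ha with e | e
        · exact absurd e h
        · exact e
      rw [ih hnd'.2 ha', nf_zero cc _ _ ?_, one_mul]
      intro s hs
      simp only [List.mem_map] at hs
      obtain ⟨e, _, rfl⟩ := hs
      simp [ee, h]

/-- The total exponent of an entry. -/
def tn (s : En A G) (w : List A) : ℕ := pre (fun u a => ee a (kv u) s) w

/-- The double flow of a pair of entries. -/
def Bb (p : En A G × En A G) (w : List A) : ℕ := pre (fun u a => tn p.2 u * ee a (kv u) p.1) w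

/-- The central part. -/
noncomputable def Zw (E : List (En A G)) (w : List A) : Subgroup.center G :=
  ((prs E).map fun p => zt cc p.2 p.1 ^ Bb p w).prod

theorem tn_snoc (s : En A G) (w : List A) (a : A) : tn s (w ++ [a]) = tn s w + ee a (kv w) s :=
  pre_snoc _ _ _

theorem Bb_snoc (p : En A G × En A G) (w : List A) (a : A) :
    Bb p (w ++ [a]) = Bb p w + tn p.2 w * ee a (kv w) p.1 := pre_snoc _ _ _

theorem Zw_nil (E : List (En A G)) : Zw E [] = 1 := by
  unfold Zw
  have : ∀ l : List (En A G × En A G), (l.map fun p => zt cc p.2 p.1 ^ Bb p []).prod = 1 := by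
    intro l
    induction l with
    | nil => rfl
    | cons a l ih => simp [Bb]
  exact this _

theorem Zw_snoc (E : List (En A G)) (w : List A) (a : A) :
    Zw E (w ++ [a]) = Zw E w * Zf cc E (fun s => tn s w) (ee a (kv w)) := by
  rw [Zf_eq]
  unfold Zw
  have key : ∀ l : List (En A G × En A G),
      (l.map fun p => zt cc p.2 p.1 ^ Bb p (w ++ [a])).prod =
        (l.map fun p => zt cc p.2 p.1 ^ Bb p w).prod *
          (l.map fun p => zt cc p.2 p.1 ^ (tn p.2 w * ee a (kv w) p.1)).prod := by
    intro l
    induction l with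
    | nil => simp
    | cons p l ih =>
      simp only [List.map_cons, List.prod_cons]
      rw [ih, Bb_snoc, pow_add]
      exact center_mmmc _ _ _ _
  exact key _

theorem prod_eq_c4 (φ : A → G) (l : List A) (hnd : l.Nodup) (hl : ∀ a, a ∈ l)
    (L : A → List (G × List (A × ℕ)))
    (hL : ∀ x k, C4Data.rho φ x l k = ((L x).map (C4Data.evalE k)).prod)
    (hE : ∀ t ∈ Ea l L, ∀ s ∈ Ea l L, co (cc t) (cc s) ∈ Subgroup.center G) (w : List A) :
    (w.map φ).prod =
      ((Zw (Ea l L) w : Subgroup.center G) : G) * nf cc (Ea l L) (fun s => tn s w) * sig φ l (kv w) := by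
  induction w using List.reverseRecOn with
  | nil =>
    have h1 : nf cc (Ea l L) (fun s => tn s ([] : List A)) = 1 := nf_zero _ _ _ (fun s _ => rfl)
    have h2 : sig φ l (kv []) = 1 := by simp [sig, kv, kvOf]
    rw [Zw_nil, h1, h2]
    simp
  | append_singleton w a ih =>
    have h1 : ((w ++ [a]).map φ).prod = (w.map φ).prod * φ a := by simp
    have h2 := C4Data.rho_spec φ a l hnd (hl a) (kv w)
    have h3 : nf cc (Ea l L) (fun s => tn s (w ++ [a])) =
        nf cc (Ea l L) (fun s => tn s w + ee a (kv w) s) := by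
      congr 1
      funext s
      exact tn_snoc s w a
    rw [h1, ih, Zw_snoc, h3, kv_snoc, mul_assoc _ (sig φ l (kv w)), ← h2, hL,
      ← nf_Ea l hnd L a (hl a), ← mul_assoc, mul_assoc _ (nf cc (Ea l L) (fun s => tn s w)),
      nf_mul _ hE]
    simp only [Subgroup.coe_mul, mul_assoc]

end Word

section GoodC4

open MetaData

variable {A G : Type} [DecidableEq A] [Fintype A] [Group G]

theorem goodZ_flow_ev' (x : A) (m : List (A × ℕ)) (hm : wt m ≤ 3) :
    GoodZ (flow x (fun k => ((ev m k : ℕ) : ℤ))) := by
  have h := gf_ev x m hm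
  have hs : (fun a b => Classical.propDecidable (a = b)) = (inferInstance : DecidableEq A) :=
    Subsingleton.elim _ _
  rw [hs] at h
  exact h

theorem good_sig' [Finite G] (φ : A → G) (l : List A) : Good (fun w => sig φ l (kv w)) := by
  have h := good_sig φ l
  have hs : (fun a b => Classical.propDecidable (a = b)) = (inferInstance : DecidableEq A) :=
    Subsingleton.elim _ _
  rw [hs] at h
  exact h

theorem tn_cast (s : En A G) (w : List A) :
    ((tn s w : ℕ) : ℤ) = flow s.1 (fun k => ((ev s.2.2 k : ℕ) : ℤ)) w := by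
  induction w using List.reverseRecOn with
  | nil => rfl
  | append_singleton w a ih =>
    rw [tn_snoc, flow_snoc]
    push_cast
    rw [ih]
    by_cases h : a = s.1
    · simp [ee, h]
    · simp [ee, h]

theorem good_pow_tn [Finite G] (D : C4Data G) (s : En A G) (hs : D.lev (wt s.2.2) (cc s)) :
    Good (fun w => cc s ^ tn s w) := by
  by_cases hw : wt s.2.2 ≤ 3
  · have h := good_zpow_of_goodZ (cc s) (goodZ_flow_ev' s.1 s.2.2 hw)
    refine h.of_factor (fun w w' e => ?_)
    simp only [← tn_cast, zpow_natCast] at e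
    exact e
  · have h1 : cc s = 1 := D.htop _ _ (by omega) hs
    simp only [h1, one_pow]
    exact Good.const _

theorem good_nf [Finite G] (D : C4Data G) (E : List (En A G))
    (hE : ∀ s ∈ E, D.lev (wt s.2.2) (cc s)) : Good (fun w => nf cc E (fun s => tn s w)) := by
  induction E with
  | nil => exact Good.const _
  | cons s E ih =>
    simp only [nf_cons]
    exact (good_pow_tn D s (hE s List.mem_cons_self)).mul
      (ih (fun t ht => hE t (List.mem_cons_of_mem _ ht)))

omit [DecidableEq A] [Fintype A] [Group G] in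
theorem ev_of_wt_zero (m : List (A × ℕ)) (h : wt m = 0) (k : A → ℕ) : ev m k = 1 := by
  induction m with
  | nil => rfl
  | cons a m ih =>
    obtain ⟨y, i⟩ := a
    rw [C4Data.wt_cons] at h
    have hi : i = 0 := by omega
    subst hi
    rw [C4Data.ev_cons, ih (by omega)]
    simp

omit [DecidableEq A] [Fintype A] [Group G] in
theorem ev_of_wt_one (m : List (A × ℕ)) (h : wt m = 1) : ∃ y, ∀ k : A → ℕ, ev m k = k y := by
  induction m with
  | nil => simp [wt] at h
  | cons a m ih =>
    obtain ⟨y, i⟩ := a
    rw [C4Data.wt_cons] at h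
    by_cases hi : i = 0
    · subst hi
      obtain ⟨z, hz⟩ := ih (by omega)
      refine ⟨z, fun k => ?_⟩
      rw [C4Data.ev_cons, hz]
      simp
    · have hi1 : i = 1 := by omega
      subst hi1
      refine ⟨y, fun k => ?_⟩
      rw [C4Data.ev_cons, ev_of_wt_zero m (by omega)]
      simp

omit [Fintype A] in
theorem tn_eq_rc (s : En A G) (y : A) (hy : ∀ k : A → ℕ, ev s.2.2 k = k y) (w : List A) :
    tn s w = rc [s.1, y] w := by
  induction w using List.reverseRecOn with
  | nil => rfl
  | append_singleton w a ih =>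
    rw [tn_snoc, rc_snoc, ih, rc_one, ee, hy, kv_apply]
    by_cases h : a = s.1
    · simp [h]
    · have h' : ¬ s.1 = a := fun e => h e.symm
      simp [h, h']

omit [Fintype A] in
theorem Bb_eq_rs (p : En A G × En A G) (y y' : A) (hy : ∀ k : A → ℕ, ev p.1.2.2 k = k y)
    (hy' : ∀ k : A → ℕ, ev p.2.2.2 k = k y') (w : List A) :
    Bb p w = rs ((infl [p.2.1, y'] [y]).map (p.1.1 :: ·)) w := by
  induction w using List.reverseRecOn with
  | nil => simp [Bb, rs_map_cons_nil]
  | append_singleton w a ih =>
    rw [Bb_snoc, rs_map_cons_snoc, ih, ← rc_mul, rc_one, tn_eq_rc p.2 y' hy', ee, hy, kv_apply]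
    by_cases h : a = p.1.1
    · simp [h]
    · have h' : ¬ p.1.1 = a := fun e => h e.symm
      simp [h, h']

omit [Fintype A] [Group G] in
theorem length_mem_infl (u v s : List A) (h : s ∈ infl u v) : s.length ≤ u.length + v.length := by
  induction u generalizing v s with
  | nil =>
    simp only [infl_nil_left, List.mem_singleton] at h
    subst h
    simp
  | cons a u ihu =>
    induction v generalizing s with
    | nil =>
      simp only [infl_nil_right, List.mem_singleton] at h
      subst h
      simp
    | cons b v ihv =>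
      rw [infl_cons_cons] at h
      simp only [List.mem_append, List.mem_map] at h
      rcases h with (⟨t, ht, rfl⟩ | ⟨t, ht, rfl⟩) | h
      · have := ihu _ _ ht
        simp only [List.length_cons] at this ⊢
        omega
      · have := ihv _ ht
        simp only [List.length_cons] at this ⊢
        omega
      · by_cases hab : a = b
        · simp only [hab, if_true, List.mem_map] at h
          obtain ⟨t, ht, rfl⟩ := h
          have := ihu _ _ ht
          simp only [List.length_cons] at this ⊢
          omega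
        · simp [hab] at h

omit [Group G] in
theorem gi_rz_of_length {m : ℕ} [NeZero m]
    (hm : ∀ u : List A, u.length ≤ 4 → Gi m (fun w => ((rc u w : ℕ) : ℤ))) (l : List (List A))
    (hl : ∀ u ∈ l, u.length ≤ 4) : Gi m (rz l) := by
  induction l with
  | nil =>
    have : rz ([] : List (List A)) = fun _ => 0 := by funext w; exact rz_nil w
    rw [this]
    exact Good.const _
  | cons s l ih =>
    have h1 := hm s (hl s List.mem_cons_self)
    have h2 := ih (fun u hu => hl u (List.mem_cons_of_mem _ hu))
    exact (h1.add h2).congr (fun w => (rz_cons s l w).symm)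

theorem good_zt_pow [Finite G] (D : C4Data G) {m : ℕ} [NeZero m]
    (hm : ∀ u : List A, u.length ≤ 4 → Gi m (fun w => ((rc u w : ℕ) : ℤ)))
    (hexp : ∀ u v, D.lev 1 u → D.lev 1 v → (co u v) ^ m = 1)
    (p : En A G × En A G)
    (h1 : 1 ≤ wt p.1.2.2 ∧ D.lev (wt p.1.2.2) (cc p.1))
    (h2 : 1 ≤ wt p.2.2.2 ∧ D.lev (wt p.2.2.2) (cc p.2)) :
    Good (fun w => zt cc p.2 p.1 ^ Bb p w) := by
  have hs1 : D.lev 1 (cc p.1) := C4Data.lev_of_le h1.1 h1.2
  have ht1 : D.lev 1 (cc p.2) := C4Data.lev_of_le h2.1 h2.2
  have hcen : co (cc p.2) (cc p.1) ∈ Subgroup.center G :=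
    Subgroup.mem_center_iff.2 (fun g => (D.hcen _ _ ht1 hs1 g).symm)
  have hcoe := zt_coe (c := cc) hcen
  have htriv : co (cc p.2) (cc p.1) = 1 → Good (fun w => zt cc p.2 p.1 ^ Bb p w) := by
    intro h
    have : zt cc p.2 p.1 = 1 := Subtype.ext (by rw [hcoe, h]; rfl)
    simp only [this, one_pow]
    exact Good.const _
  by_cases hw1 : 2 ≤ wt p.1.2.2
  · refine htriv ?_
    have := D.hcomm _ _ ht1 (C4Data.lev_of_le hw1 h1.2)
    simp only [co]
    rw [this.eq]
    group
  by_cases hw2 : 2 ≤ wt p.2.2.2
  · refine htriv ?_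
    have := (D.hcomm _ _ hs1 (C4Data.lev_of_le hw2 h2.2)).symm
    simp only [co]
    rw [this.eq]
    group
  obtain ⟨y, hy⟩ := ev_of_wt_one p.1.2.2 (by omega)
  obtain ⟨y', hy'⟩ := ev_of_wt_one p.2.2.2 (by omega)
  have hB : Gi m (rz ((infl [p.2.1, y'] [y]).map (p.1.1 :: ·))) := by
    refine gi_rz_of_length hm _ (fun u hu => ?_)
    simp only [List.mem_map] at hu
    obtain ⟨t, ht, rfl⟩ := hu
    have := length_mem_infl _ _ _ ht
    simp only [List.length_cons, List.length_nil] at this ⊢
    omega
  have hpow : zt cc p.2 p.1 ^ m = 1 := by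
    apply Subtype.ext
    simp only [Subgroup.coe_pow, hcoe]
    exact hexp _ _ ht1 hs1
  refine Good.of_factor hB (fun w w' e => ?_)
  have e1 : Bb p w ≡ Bb p w' [MOD m] := by
    have e2 : ((rs ((infl [p.2.1, y'] [y]).map (p.1.1 :: ·)) w : ℕ) : ZMod m) =
        ((rs ((infl [p.2.1, y'] [y]).map (p.1.1 :: ·)) w' : ℕ) : ZMod m) := by
      have := e
      simp only [rz, Int.cast_natCast] at this
      exact this
    rw [← Bb_eq_rs p y y' hy hy', ← Bb_eq_rs p y y' hy hy', ZMod.natCast_eq_natCast_iff] at e2
    exact e2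
  change zt cc p.2 p.1 ^ Bb p w = zt cc p.2 p.1 ^ Bb p w'
  rw [pow_eq_pow_mod (Bb p w) hpow, pow_eq_pow_mod (Bb p w') hpow, e1]

theorem good_Zw [Finite G] (D : C4Data G) {m : ℕ} [NeZero m]
    (hm : ∀ u : List A, u.length ≤ 4 → Gi m (fun w => ((rc u w : ℕ) : ℤ)))
    (hexp : ∀ u v, D.lev 1 u → D.lev 1 v → (co u v) ^ m = 1)
    (E : List (En A G)) (hE : ∀ s ∈ E, 1 ≤ wt s.2.2 ∧ D.lev (wt s.2.2) (cc s)) :
    Good (fun w => Zw E w) := by
  unfold Zw
  have key : ∀ l : List (En A G × En A G), (∀ p ∈ l, p.1 ∈ E ∧ p.2 ∈ E) →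
      Good (fun w => (l.map fun p => zt cc p.2 p.1 ^ Bb p w).prod) := by
    intro l hl
    induction l with
    | nil => exact Good.const _
    | cons p l ih =>
      simp only [List.map_cons, List.prod_cons]
      have h := hl p List.mem_cons_self
      exact (good_zt_pow D hm hexp p (hE _ h.1) (hE _ h.2)).mul
        (ih (fun q hq => hl q (List.mem_cons_of_mem _ hq)))
  exact key _ (fun p hp => mem_prs hp)

/-- **Main abstract theorem.** -/
theorem good_prod_c4 [Finite G] (D : C4Data G) {m : ℕ} [NeZero m]
    (hm : ∀ u : List A, u.length ≤ 4 → Gi m (fun w => ((rc u w : ℕ) : ℤ)))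
    (hexp : ∀ u v, D.lev 1 u → D.lev 1 v → (co u v) ^ m = 1) (φ : A → G) :
    Good (fun w : List A => (w.map φ).prod) := by
  classical
  have hrep : ∀ x : A, C4Data.Rep D (C4Data.rho φ x (Finset.univ : Finset A).toList) :=
    fun x => C4Data.rep_rho φ x _
  choose L hL1 hL2 using hrep
  set l := (Finset.univ : Finset A).toList with hl
  have hnd : l.Nodup := Finset.nodup_toList _
  have hmem : ∀ a, a ∈ l := by simp [hl]
  have hE1 : ∀ s ∈ Ea l L, 1 ≤ wt s.2.2 ∧ D.lev (wt s.2.2) (cc s) := by
    intro s hs
    exact hL1 s.1 s.2 (mem_Ea hs).2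
  have hcen : ∀ t ∈ Ea l L, ∀ s ∈ Ea l L, co (cc t) (cc s) ∈ Subgroup.center G := by
    intro t ht s hs
    have h1 := hE1 t ht
    have h2 := hE1 s hs
    exact Subgroup.mem_center_iff.2 (fun g =>
      (D.hcen _ _ (C4Data.lev_of_le h1.1 h1.2) (C4Data.lev_of_le h2.1 h2.2) g).symm)
  have e := prod_eq_c4 φ l hnd hmem L hL2 hcen
  have g1 : Good (fun w => ((Zw (Ea l L) w : Subgroup.center G) : G)) :=
    (good_Zw D hm hexp _ hE1).comp _
  have g2 := good_nf D (Ea l L) (fun s hs => (hE1 s hs).2)
  have g3 := good_sig' φ l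
  have h := (g1.mul g2).mul g3
  refine h.of_factor (fun w w' ew => ?_)
  rw [e w, e w']
  exact ew

end GoodC4

section Concrete

open scoped commutatorElement

variable {G : Type} [Group G]

/-- `[γ₂, γ₃] = 1` for class at most four. -/
theorem comm_one_two (hG : (⊤ : Subgroup G).lowerCentralSeries 4 = ⊥) :
    ⁅(⊤ : Subgroup G).lowerCentralSeries 1, (⊤ : Subgroup G).lowerCentralSeries 2⁆ = ⊥ := by
  have h4 : ⁅(⊤ : Subgroup G).lowerCentralSeries 3, (⊤ : Subgroup G)⁆ = ⊥ := by
    rw [← hG]
    rfl
  have h3 : ⁅(⊤ : Subgroup G).lowerCentralSeries 2, (⊤ : Subgroup G)⁆ =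
      (⊤ : Subgroup G).lowerCentralSeries 3 := rfl
  have h1 : (⊤ : Subgroup G).lowerCentralSeries 1 = ⁅(⊤ : Subgroup G), (⊤ : Subgroup G)⁆ := rfl
  have a1 : ⁅⁅(⊤ : Subgroup G), (⊤ : Subgroup G).lowerCentralSeries 2⁆, (⊤ : Subgroup G)⁆ = ⊥ := by
    rw [Subgroup.commutator_comm (⊤ : Subgroup G) ((⊤ : Subgroup G).lowerCentralSeries 2), h3, h4]
  have a2 : ⁅⁅(⊤ : Subgroup G).lowerCentralSeries 2, (⊤ : Subgroup G)⁆, (⊤ : Subgroup G)⁆ = ⊥ := by
    rw [h3, h4]
  rw [h1]
  exact Subgroup.commutator_commutator_eq_bot_of_rotate a1 a2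

/-- `[[γ₂, γ₂], G] = 1` for class at most four. -/
theorem comm_one_one_top (hG : (⊤ : Subgroup G).lowerCentralSeries 4 = ⊥) :
    ⁅⁅(⊤ : Subgroup G).lowerCentralSeries 1, (⊤ : Subgroup G).lowerCentralSeries 1⁆,
      (⊤ : Subgroup G)⁆ = ⊥ := by
  have h2 : ⁅(⊤ : Subgroup G).lowerCentralSeries 1, (⊤ : Subgroup G)⁆ =
      (⊤ : Subgroup G).lowerCentralSeries 2 := rfl
  have h := comm_one_two hG
  have a1 : ⁅⁅(⊤ : Subgroup G).lowerCentralSeries 1, (⊤ : Subgroup G)⁆,
      (⊤ : Subgroup G).lowerCentralSeries 1⁆ = ⊥ := by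
    rw [h2, Subgroup.commutator_comm]
    exact h
  have a2 : ⁅⁅(⊤ : Subgroup G), (⊤ : Subgroup G).lowerCentralSeries 1⁆,
      (⊤ : Subgroup G).lowerCentralSeries 1⁆ = ⊥ := by
    rw [Subgroup.commutator_comm (⊤ : Subgroup G), h2, Subgroup.commutator_comm]
    exact h
  exact Subgroup.commutator_commutator_eq_bot_of_rotate a1 a2

/-- The data of a group of class at most four. -/
def c4DataOf (hG : (⊤ : Subgroup G).lowerCentralSeries 4 = ⊥) : C4Data G where
  lev := fun i v => v ∈ (⊤ : Subgroup G).lowerCentralSeries i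
  hO := fun g _ v hv => com_mem_succ g v hv
  hcom := fun a b => com_mem_one a b
  htop := by
    intro i v hi hv
    have h4 : v ∈ (⊤ : Subgroup G).lowerCentralSeries 4 :=
      Subgroup.lowerCentralSeries_antitone _ hi hv
    rw [hG, Subgroup.mem_bot] at h4
    exact h4
  hmono := fun i v hv => Subgroup.lowerCentralSeries_antitone _ (Nat.le_succ i) hv
  hcomm := by
    intro u v hu hv
    have h : ⁅u, v⁆ ∈ ⁅(⊤ : Subgroup G).lowerCentralSeries 1, (⊤ : Subgroup G).lowerCentralSeries 2⁆ :=
      Subgroup.commutator_mem_commutator hu hv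
    rw [comm_one_two hG, Subgroup.mem_bot] at h
    exact commutatorElement_eq_one_iff_commute.1 h
  hcen := by
    intro u v hu hv g
    have h0 : ⁅u, v⁆ ∈ ⁅(⊤ : Subgroup G).lowerCentralSeries 1, (⊤ : Subgroup G).lowerCentralSeries 1⁆ :=
      Subgroup.commutator_mem_commutator hu hv
    have h : ⁅⁅u, v⁆, g⁆ ∈ ⁅⁅(⊤ : Subgroup G).lowerCentralSeries 1,
        (⊤ : Subgroup G).lowerCentralSeries 1⁆, (⊤ : Subgroup G)⁆ :=
      Subgroup.commutator_mem_commutator h0 (Subgroup.mem_top g)
    rw [comm_one_one_top hG, Subgroup.mem_bot] at h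
    have := commutatorElement_eq_one_iff_commute.1 h
    simpa [co, commutatorElement_def] using this

end Concrete

section Squarefree

variable {A : Type} [DecidableEq A]

theorem Gi.mul_coprime {a b : ℕ} [NeZero a] [NeZero b] (hab : Nat.Coprime a b) {f : List A → ℤ}
    (ha : Gi a f) (hb : Gi b f) : Gi (a * b) f := by
  refine Good.of_factor (ha.pair hb) (fun w w' e => ?_)
  have e1 : ((f w : ℤ) : ZMod a) = (f w' : ℤ) := (Prod.ext_iff.1 e).1
  have e2 : ((f w : ℤ) : ZMod b) = (f w' : ℤ) := (Prod.ext_iff.1 e).2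
  rw [ZMod.intCast_eq_intCast_iff_dvd_sub] at e1 e2 ⊢
  have hc : IsCoprime (a : ℤ) (b : ℤ) := Nat.isCoprime_iff_coprime.2 hab
  have := hc.mul_dvd e1 e2
  exact_mod_cast this

theorem gi_of_primes [Fintype A] (m : ℕ) (hm : Squarefree m) (hodd : Odd m) (u : List A)
    (hu : u.length ≤ 4) : Gi m (fun w => ((rc u w : ℕ) : ℤ)) := by
  have hm0 : m ≠ 0 := hm.ne_zero
  have hne : ∀ s : Finset ℕ, s ⊆ m.primeFactors → (∏ q ∈ s, q) ≠ 0 := by
    intro s hs
    refine Finset.prod_ne_zero_iff.2 (fun q hq => ?_)
    exact (Nat.prime_of_mem_primeFactors (hs hq)).ne_zero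
  have key : ∀ s : Finset ℕ, s ⊆ m.primeFactors →
      Gi (∏ q ∈ s, q) (fun w : List A => ((rc u w : ℕ) : ℤ)) := by
    intro s
    induction s using Finset.induction_on with
    | empty =>
      intro _
      simp only [Finset.prod_empty]
      exact Good.of_factor (Good.const (A := A) (0 : ZMod 1)) (fun w w' _ => Subsingleton.elim _ _)
    | insert q s hq ih =>
      intro hs
      have hq1 : q ∈ m.primeFactors := hs (Finset.mem_insert_self q s)
      have hs1 : s ⊆ m.primeFactors := fun x hx => hs (Finset.mem_insert_of_mem hx)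
      have hqp : q.Prime := Nat.prime_of_mem_primeFactors hq1
      have hq2 : q ≠ 2 := by
        intro e
        subst e
        have hdvd : 2 ∣ m := Nat.dvd_of_mem_primeFactors hq1
        exact (Nat.not_even_iff_odd.2 hodd) (even_iff_two_dvd.2 hdvd)
      haveI : Fact q.Prime := ⟨hqp⟩
      haveI : NeZero q := ⟨hqp.ne_zero⟩
      haveI : NeZero (∏ q ∈ s, q) := ⟨hne s hs1⟩
      rw [Finset.prod_insert hq]
      refine Gi.mul_coprime ?_ (gi_rc_le_four hq2 u hu) (ih hs1)
      refine Nat.Coprime.prod_right (fun x hx => ?_)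
      have hxp := Nat.prime_of_mem_primeFactors (hs1 hx)
      exact (Nat.coprime_primes hqp hxp).2 (fun e => hq (e ▸ hx))
  have := key m.primeFactors (Finset.Subset.refl _)
  rwa [Nat.prod_primeFactors_of_squarefree hm] at this

end Squarefree

/-- **Nilpotent groups of class at most four** with `[G', G']` of odd squarefree exponent. -/
theorem heightLE_of_class_four {A G : Type} [Finite A] [Group G] [Finite G]
    (hG : (⊤ : Subgroup G).lowerCentralSeries 4 = ⊥) (m : ℕ) (hm : Squarefree m) (hodd : Odd m)
    (hexp : ∀ x ∈ ⁅commutator G, commutator G⁆, x ^ m = 1) (φ : A → G) (S : Set G) :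
    HeightLE 1 {w : List A | (w.map φ).prod ∈ S} := by
  classical
  haveI : Fintype A := Fintype.ofFinite A
  haveI : NeZero m := ⟨hm.ne_zero⟩
  have h := good_prod_c4 (A := A) (c4DataOf hG) (m := m)
    (fun u hu => gi_of_primes m hm hodd u hu)
    (by
      intro u v hu hv
      have h1 : u ∈ commutator G := hu
      have h2 : v ∈ commutator G := hv
      have := hexp _ (Subgroup.commutator_mem_commutator h1 h2)
      simpa [co, commutatorElement_def] using this) φ
  exact Good.preimage h S

end C4

end Vale.Agent.Lib.P329
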