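import Vale.Agent.Lib.P329.Deg4

/-!
Products in a ring of characteristic `p` whose letters are unipotent of depth five.
-/

namespace Vale.Agent.Lib.P329

section NilAlg

variable {A R : Type} [Ring R]

/-- Expansion of a product of `1 + x`. -/
theorem prod_eq_sum_sublists (φ : A → R) (w : List A) :
    (w.map φ).prod = (w.sublists.map fun s => (s.map fun a => φ a - 1).prod).sum := by
  induction w using List.reverseRecOn with
  | nil => simp
  | append_singleton w a ih =>
    rw [List.sublists_concat, List.map_append, List.map_append, List.sum_append, List.prod_append,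
      ih, List.map_map]
    have h : ∀ l : List (List A), ((l.map fun s => (s.map fun a => φ a - 1).prod).sum) * (φ a - 1) =
        (l.map ((fun s => (s.map fun a => φ a - 1).prod) ∘ fun x => x ++ [a])).sum := by
      intro l
      induction l with
      | nil => simp
      | cons s l ih =>
        simp only [List.map_cons, List.sum_cons, add_mul, ih, Function.comp, List.map_append,
          List.prod_append, List.map_nil, List.prod_cons, List.prod_nil, mul_one]
    rw [← h]
    simp only [List.map_cons, List.map_nil, List.prod_cons, List.prod_nil, mul_one]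
    noncomm_ring

/-- Long products vanish as soon as products of length `n` vanish. -/
theorem prod_eq_zero_of_le {n : ℕ} (φ : A → R) (h : ∀ s : List A, s.length = n → (s.map φ).prod = 0)
    (s : List A) (hs : n ≤ s.length) : (s.map φ).prod = 0 := by
  have h1 := h (s.take n) (by simp [hs])
  rw [← List.take_append_drop n s, List.map_append, List.prod_append, h1, zero_mul]

theorem good_subCount_tuple {p n : ℕ} [DecidableEq A]
    (hn : ∀ u : List A, u.length ≤ n → Gi p (fun w => ((rc u w : ℕ) : ℤ)))
    (U : Finset (List A)) (hU : ∀ u ∈ U, u.length ≤ n) :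
    Good (fun w : List A => (fun u : U => ((subCount u.1 w : ℕ) : ZMod p))) := by
  intro b
  refine HeightLE.pi (fun u b' => ?_) b
  have h := hn u.1.reverse (by simpa using hU u.1 u.2) b'
  have hset : {w : List A | (((rc u.1.reverse w : ℕ) : ℤ) : ZMod p) = b'} =
      {w : List A | ((subCount u.1 w : ℕ) : ZMod p) = b'} := by
    ext w
    simp [rc]
  change HeightLE 1 {w : List A | (((rc u.1.reverse w : ℕ) : ℤ) : ZMod p) = b'} at h
  rwa [hset] at h

theorem heightLE_of_nilIdeal {p n : ℕ} [NeZero p] [DecidableEq A] [Finite A] [CharP R p]
    (hn : ∀ u : List A, u.length ≤ n → Gi p (fun w => ((rc u w : ℕ) : ℤ))) (φ : A → R)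
    (hφ : ∀ s : List A, s.length = n + 1 → (s.map fun a => φ a - 1).prod = 0) (S : Set R) :
    HeightLE 1 {w : List A | (w.map φ).prod ∈ S} := by
  classical
  have hfin : {u : List A | u.length ≤ n}.Finite := List.finite_length_le A n
  let U : Finset (List A) := hfin.toFinset
  have hU : ∀ u, u ∈ U ↔ u.length ≤ n := fun u => by simp [U]
  let π : List A → R := fun s => (s.map fun a => φ a - 1).prod
  have hπ : ∀ s, s ∉ U → π s = 0 := by
    intro s hs
    rw [hU] at hs
    have := prod_eq_zero_of_le (n := n + 1) (fun a => φ a - 1) hφ s (by omega)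
    exact this
  have hform : ∀ w : List A, (w.map φ).prod = ∑ u ∈ U, ((subCount u w : ℕ) : R) * π u := by
    intro w
    rw [prod_eq_sum_sublists]
    change (w.sublists.map π).sum = _
    rw [Finset.sum_list_map_count]
    have h1 : ∑ m ∈ w.sublists.toFinset, w.sublists.count m • π m =
        ∑ m ∈ w.sublists.toFinset ∪ U, w.sublists.count m • π m := by
      refine Finset.sum_subset Finset.subset_union_left ?_
      intro x _ hx
      rw [List.count_eq_zero_of_not_mem (by simpa using hx), zero_smul]
    have h2 : ∑ u ∈ U, ((subCount u w : ℕ) : R) * π u =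
        ∑ m ∈ w.sublists.toFinset ∪ U, w.sublists.count m • π m := by
      have : ∀ u, ((subCount u w : ℕ) : R) * π u = w.sublists.count u • π u := by
        intro u
        rw [nsmul_eq_mul]
        rfl
      simp_rw [this]
      refine Finset.sum_subset Finset.subset_union_right ?_
      intro x _ hx
      rw [hπ x hx, smul_zero]
    rw [h2]
    have hb : (instBEqOfDecidableEq : BEq (List A)) = List.instBEq := lawful_beq_subsingleton _ _
    rw [hb]
    exact h1
  have hT := good_subCount_tuple hn U (fun u hu => (hU u).1 hu)
  have hg : Good (fun w : List A => (w.map φ).prod ∈ S) := by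
    have hfinT : Finite (U → ZMod p) := by
      infer_instance
    refine hT.of_factor (fun w w' e => ?_)
    have : (w.map φ).prod = (w'.map φ).prod := by
      rw [hform w, hform w']
      refine Finset.sum_congr rfl (fun u hu => ?_)
      have h := congrFun e ⟨u, hu⟩
      simp only at h
      rw [ZMod.natCast_eq_natCast_iff] at h
      rw [(CharP.natCast_eq_natCast R p).2 h]
    rw [this]
  have := hg True
  have hset : {w : List A | (w.map φ).prod ∈ S} = {w : List A | ((w.map φ).prod ∈ S) = True} := by
    ext w
    simp
  rw [hset]
  exact this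

/-- Depth five, odd characteristic. -/
theorem heightLE_depthFive {p : ℕ} [Fact p.Prime] (hp : p ≠ 2) [Finite A] [CharP R p]
    (φ : A → R)
    (hφ : ∀ a b c d e : A,
      (φ a - 1) * (φ b - 1) * (φ c - 1) * (φ d - 1) * (φ e - 1) = 0) (S : Set R) :
    HeightLE 1 {w : List A | (w.map φ).prod ∈ S} := by
  classical
  haveI : Fintype A := Fintype.ofFinite A
  haveI : NeZero p := ⟨(Fact.out (p := p.Prime)).ne_zero⟩
  refine heightLE_of_nilIdeal (n := 4) (p := p) (fun u hu => gi_rc_le_four hp u hu) φ ?_ S
  intro s hs
  match s, hs with
  | [a, b, c, d, e], _ =>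
    have := hφ a b c d e
    simp only [List.map_cons, List.map_nil, List.prod_cons, List.prod_nil, mul_one]
    simpa [mul_assoc] using this

/-- Subsequence counts of length at most four modulo an odd prime. -/
theorem heightLE_subCount_four {p : ℕ} [Fact p.Prime] (hp : p ≠ 2) [Finite A] [DecidableEq A]
    (u : List A) (hu : u.length ≤ 4) (k : ℕ) :
    HeightLE 1 {w : List A | w.sublists.count u % p = k} := by
  classical
  haveI : Fintype A := Fintype.ofFinite A
  have hp0 : 0 < p := (Fact.out (p := p.Prime)).pos
  haveI : NeZero p := ⟨hp0.ne'⟩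
  have hG := good_subCount_tuple (p := p) (n := 4) (fun u hu => gi_rc_le_four hp u hu) {u}
    (by simpa using hu)
  by_cases hk : k < p
  · have h1 := hG.comp (fun f => f ⟨u, by simp⟩)
    have hset : {w : List A | w.sublists.count u % p = k} =
        {w : List A | ((subCount u w : ℕ) : ZMod p) = (k : ZMod p)} := by
      ext w
      change w.sublists.count u % p = k ↔ ((w.sublists.count u : ℕ) : ZMod p) = (k : ZMod p)
      rw [ZMod.natCast_eq_natCast_iff', Nat.mod_eq_of_lt hk]
    rw [hset]
    exact h1 _
  · have hset : {w : List A | w.sublists.count u % p = k} = ∅ := by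
      ext w
      constructor
      · intro h
        have hlt := Nat.mod_lt (w.sublists.count u) hp0
        have h' : w.sublists.count u % p = k := h
        omega
      · intro h; exact absurd h (by simp)
    rw [hset]
    exact HeightLE.empty

end NilAlg

end Vale.Agent.Lib.P329
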