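import Vale.Agent.Lib.P329.Deg4Two
import Vale.Agent.Lib.P329.Class4
import Vale.Agent.Lib.P329.NilAlg

/-!
All subsequence counts of length at most four are good modulo every squarefree number: consequences.
-/

namespace Vale.Agent.Lib.P329

section AllPrimes

variable {A : Type} [DecidableEq A] [Fintype A]

/-- All counts of length at most four modulo a prime. -/
theorem gi_rc_le_four_prime {p : ℕ} [Fact p.Prime] (u : List A) (hu : u.length ≤ 4) :
    Gi p (fun w => ((rc u w : ℕ) : ℤ)) := by
  by_cases hp : p = 2
  · subst hp
    exact gi2_rc_le_four u hu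
  · exact gi_rc_le_four hp u hu

/-- All counts of length at most four modulo a squarefree number. -/
theorem gi_rc_le_four_squarefree (m : ℕ) (hm : Squarefree m) (u : List A) (hu : u.length ≤ 4) :
    Gi m (fun w => ((rc u w : ℕ) : ℤ)) := by
  have hm0 : m ≠ 0 := hm.ne_zero
  have hne : ∀ s : Finset ℕ, s ⊆ m.primeFactors → (∏ q ∈ s, q) ≠ 0 := by
    intro s hs
    refine Finset.prod_ne_zero_iff.2 (fun q hq => ?_)
    exact (Nat.prime_of_mem_primeFactors (hs hq)).ne_zero
  have key : ∀ s : Finset ℕ, s ⊆ m.primeFactors →
      Gi (∏ q ∈ s, q) (fun w : List A => ((rc u w : ℕ) : ℤ)) := by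
    intro s
    induction s using Finset.induction_on with
    | empty =>
      intro _
      simp only [Finset.prod_empty]
      exact Good.of_factor (Good.const (A := A) (0 : ZMod 1)) (fun w w' _ => Subsingleton.elim _ _)
    | insert q s hq ih =>
      intro hs
      have hq1 : q ∈ m.primeFactors := hs (Finset.mem_insert_self q s)
      have hs1 : s ⊆ m.primeFactors := fun x hx => hs (Finset.mem_insert_of_mem hx)
      have hqp : q.Prime := Nat.prime_of_mem_primeFactors hq1
      haveI : Fact q.Prime := ⟨hqp⟩
      haveI : NeZero q := ⟨hqp.ne_zero⟩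
      haveI : NeZero (∏ q ∈ s, q) := ⟨hne s hs1⟩
      rw [Finset.prod_insert hq]
      refine Gi.mul_coprime ?_ (gi_rc_le_four_prime u hu) (ih hs1)
      refine Nat.Coprime.prod_right (fun x hx => ?_)
      have hxp := Nat.prime_of_mem_primeFactors (hs1 hx)
      exact (Nat.coprime_primes hqp hxp).2 (fun e => hq (e ▸ hx))
  have := key m.primeFactors (Finset.Subset.refl _)
  rwa [Nat.prod_primeFactors_of_squarefree hm] at this

end AllPrimes

/-- **Nilpotent groups of class at most four** with `[G', G']` of squarefree exponent. -/
theorem heightLE_of_class_four_sq {A G : Type} [Finite A] [Group G] [Finite G]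
    (hG : (⊤ : Subgroup G).lowerCentralSeries 4 = ⊥) (m : ℕ) (hm : Squarefree m)
    (hexp : ∀ x ∈ ⁅commutator G, commutator G⁆, x ^ m = 1) (φ : A → G) (S : Set G) :
    HeightLE 1 {w : List A | (w.map φ).prod ∈ S} := by
  classical
  haveI : Fintype A := Fintype.ofFinite A
  haveI : NeZero m := ⟨hm.ne_zero⟩
  have h := good_prod_c4 (A := A) (c4DataOf hG) (m := m)
    (fun u hu => gi_rc_le_four_squarefree m hm u hu)
    (by
      intro u v hu hv
      have h1 : u ∈ commutator G := hu
      have h2 : v ∈ commutator G := hv
      have := hexp _ (Subgroup.commutator_mem_commutator h1 h2)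
      simpa [co, commutatorElement_def] using this) φ
  exact Good.preimage h S

section Rings

variable {A R : Type} [Ring R]

/-- Rings of squarefree characteristic with `J ^ 5 = 0`. -/
theorem heightLE_depthFive_sq {m : ℕ} (hm : Squarefree m) [Finite A] [CharP R m]
    (φ : A → R)
    (hφ : ∀ a b c d e : A,
      (φ a - 1) * (φ b - 1) * (φ c - 1) * (φ d - 1) * (φ e - 1) = 0) (S : Set R) :
    HeightLE 1 {w : List A | (w.map φ).prod ∈ S} := by
  classical
  haveI : Fintype A := Fintype.ofFinite A
  haveI : NeZero m := ⟨hm.ne_zero⟩
  refine heightLE_of_nilIdeal (n := 4) (p := m) (fun u hu => gi_rc_le_four_squarefree m hm u hu)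
    φ ?_ S
  intro s hs
  match s, hs with
  | [a, b, c, d, e], _ =>
    have := hφ a b c d e
    simp only [List.map_cons, List.map_nil, List.prod_cons, List.prod_nil, mul_one]
    simpa [mul_assoc] using this

/-- Subsequence counts of length at most four modulo a squarefree number. -/
theorem heightLE_subCount_four_sq {m : ℕ} (hm : Squarefree m) [Finite A] [DecidableEq A]
    (u : List A) (hu : u.length ≤ 4) (k : ℕ) :
    HeightLE 1 {w : List A | w.sublists.count u % m = k} := by
  classical
  haveI : Fintype A := Fintype.ofFinite A
  have hp0 : 0 < m := Nat.pos_of_ne_zero hm.ne_zero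
  haveI : NeZero m := ⟨hp0.ne'⟩
  have hG := good_subCount_tuple (p := m) (n := 4) (fun u hu => gi_rc_le_four_squarefree m hm u hu)
    {u} (by simpa using hu)
  by_cases hk : k < m
  · have h1 := hG.comp (fun f => f ⟨u, by simp⟩)
    have hset : {w : List A | w.sublists.count u % m = k} =
        {w : List A | ((subCount u w : ℕ) : ZMod m) = (k : ZMod m)} := by
      ext w
      change w.sublists.count u % m = k ↔ ((w.sublists.count u : ℕ) : ZMod m) = (k : ZMod m)
      rw [ZMod.natCast_eq_natCast_iff', Nat.mod_eq_of_lt hk]
    rw [hset]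
    exact h1 _
  · have hset : {w : List A | w.sublists.count u % m = k} = ∅ := by
      ext w
      constructor
      · intro h
        have hlt := Nat.mod_lt (w.sublists.count u) hp0
        have h' : w.sublists.count u % m = k := h
        omega
      · intro h; exact absurd h (by simp)
    rw [hset]
    exact HeightLE.empty

end Rings

end Vale.Agent.Lib.P329
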