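import Vale.Agent.Lib.P329.Basic

/-!
Schutzenberger's theorem (one direction): a language recognized by a finite aperiodic monoid is
star-free.  The proof is the local divisor induction.
-/

namespace Vale.Agent.Lib.P329

/-- A monoid is aperiodic if every element satisfies `x ^ n = x ^ (n + 1)` for some `n`. -/
def IsAperiodic (M : Type) [Monoid M] : Prop := ∀ x : M, ∃ n : ℕ, x ^ n = x ^ (n + 1)

/-- The value of a word under a letter assignment. -/
def wval {A M : Type} [Monoid M] (φ : A → M) (w : List A) : M := (w.map φ).prod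

section wval
variable {A M : Type} [Monoid M] (φ : A → M)

@[simp] theorem wval_nil : wval φ [] = 1 := rfl
@[simp] theorem wval_cons (a : A) (w : List A) : wval φ (a :: w) = φ a * wval φ w := by
  simp [wval]
@[simp] theorem wval_append (u v : List A) : wval φ (u ++ v) = wval φ u * wval φ v := by
  simp [wval]
end wval

section LocalDivisor

variable {M : Type} [Monoid M] (c : M)

/-- The carrier of the local divisor at `c`: the set `cM ∩ Mc`. -/
def LD : Type := {x : M // (∃ a, x = c * a) ∧ (∃ b, x = b * c)}

variable {c}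

/-- A left cofactor. -/
noncomputable def LD.lft (x : LD c) : M := Classical.choose x.2.2

theorem LD.lft_spec (x : LD c) : x.1 = LD.lft x * c := Classical.choose_spec x.2.2

theorem LD.mul_aux (x y : LD c) {b : M} (hb : x.1 = b * c) : LD.lft x * y.1 = b * y.1 := by
  obtain ⟨a, ha⟩ := y.2.1
  rw [ha, ← mul_assoc, ← mul_assoc, ← LD.lft_spec, hb]

theorem LD.mul_aux' (x y : LD c) {a : M} (ha : y.1 = c * a) : LD.lft x * y.1 = x.1 * a := by
  rw [ha, ← mul_assoc, ← LD.lft_spec]

/-- Multiplication of the local divisor. -/
noncomputable def LD.mulL (x y : LD c) : LD c := ⟨LD.lft x * y.1, by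
    obtain ⟨a', ha'⟩ := x.2.1
    obtain ⟨a, ha⟩ := y.2.1
    exact ⟨a' * a, by rw [LD.mul_aux' x y ha, ha', mul_assoc]⟩, by
    obtain ⟨b, hb⟩ := y.2.2
    exact ⟨LD.lft x * b, by rw [hb, mul_assoc]⟩⟩

/-- The identity of the local divisor is `c`. -/
def LD.oneL : LD c := ⟨c, ⟨1, (mul_one c).symm⟩, ⟨1, (one_mul c).symm⟩⟩

theorem LD.mulL_val (x y : LD c) : (LD.mulL x y).1 = LD.lft x * y.1 := rfl

theorem LD.mulL_assoc (x y z : LD c) : LD.mulL (LD.mulL x y) z = LD.mulL x (LD.mulL y z) := by
  apply Subtype.ext
  obtain ⟨a, ha⟩ := z.2.1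
  calc (LD.mulL (LD.mulL x y) z).1 = (LD.mulL x y).1 * a := LD.mul_aux' _ z ha
    _ = LD.lft x * y.1 * a := rfl
    _ = LD.lft x * (y.1 * a) := mul_assoc _ _ _
    _ = LD.lft x * (LD.mulL y z).1 := by rw [LD.mulL_val y z, LD.mul_aux' y z ha]
    _ = _ := rfl

theorem LD.oneL_mulL (y : LD c) : LD.mulL LD.oneL y = y := by
  apply Subtype.ext
  rw [LD.mulL_val, LD.mul_aux LD.oneL y (b := 1) (one_mul c).symm, one_mul]

theorem LD.mulL_oneL (x : LD c) : LD.mulL x LD.oneL = x := by
  apply Subtype.ext
  rw [LD.mulL_val]
  exact (LD.lft_spec x).symm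

noncomputable instance LD.instMonoid : Monoid (LD c) where
  mul := LD.mulL
  one := LD.oneL
  mul_assoc := LD.mulL_assoc
  one_mul := LD.oneL_mulL
  mul_one := LD.mulL_oneL

theorem LD.one_val : (1 : LD c).1 = c := rfl

theorem LD.mul_val (x y : LD c) {b : M} (hb : x.1 = b * c) : (x * y).1 = b * y.1 :=
  LD.mul_aux x y hb

theorem LD.mul_val' (x y : LD c) {a : M} (ha : y.1 = c * a) : (x * y).1 = x.1 * a :=
  LD.mul_aux' x y ha

theorem LD.pow_val (x : LD c) {a : M} (ha : x.1 = c * a) (n : ℕ) :
    (x ^ (n + 1)).1 = x.1 * a ^ n := by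
  induction n with
  | zero => simp
  | succ n ih =>
    rw [pow_succ, LD.mul_val' _ x ha, ih, pow_succ, mul_assoc]

theorem LD.aperiodic (h : IsAperiodic M) : IsAperiodic (LD c) := by
  intro x
  obtain ⟨a, ha⟩ := x.2.1
  obtain ⟨n, hn⟩ := h a
  refine ⟨n + 1, Subtype.ext ?_⟩
  rw [LD.pow_val x ha, LD.pow_val x ha, hn]

/-- In an aperiodic monoid a right invertible element is `1`. -/
theorem eq_one_of_mul_eq_one (h : IsAperiodic M) {c a : M} (hca : c * a = 1) : c = 1 := by
  obtain ⟨n, hn⟩ := h c
  have key : ∀ k : ℕ, c ^ k * a ^ k = 1 := by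
    intro k
    induction k with
    | zero => simp
    | succ k ih =>
      rw [pow_succ c, pow_succ' a, mul_assoc, ← mul_assoc c, hca, one_mul, ih]
  have h2 : c ^ (n + 1) * a ^ n = c := by
    rw [pow_succ' c, mul_assoc, key, mul_one]
  rw [← h2, ← hn, key]

theorem LD.card_lt [Finite M] (h : IsAperiodic M) (hc : c ≠ 1) : Nat.card (LD c) < Nat.card M := by
  have hnot : ¬ ((∃ a, (1 : M) = c * a) ∧ (∃ b, (1 : M) = b * c)) := by
    rintro ⟨⟨a, ha⟩, _⟩
    exact hc (eq_one_of_mul_eq_one h ha.symm)
  exact Finite.card_subtype_lt (p := fun x : M => (∃ a, x = c * a) ∧ (∃ b, x = b * c)) hnot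

end LocalDivisor

section Transfer

variable {A T : Type} (K : T → Set (List A))

/-- The words obtained by concatenating one word from `K t` for each letter `t` of `τ`. -/
def blockWords : List T → Set (List A)
  | [] => {[]}
  | t :: τ => cat (K t) (blockWords τ)

/-- All words obtained from words of `L`. -/
def blockLang (L : Set (List T)) : Set (List A) := {w | ∃ τ ∈ L, w ∈ blockWords K τ}

theorem blockWords_append (τ τ' : List T) :
    blockWords K (τ ++ τ') = cat (blockWords K τ) (blockWords K τ') := by
  induction τ with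
  | nil =>
    ext w
    simp only [List.nil_append, blockWords, cat]
    constructor
    · intro h; exact ⟨[], rfl, w, h, rfl⟩
    · rintro ⟨u, hu, v, hv, rfl⟩
      have : u = [] := hu
      subst this; simpa using hv
  | cons t τ ih =>
    ext w
    simp only [List.cons_append, blockWords, ih, cat]
    constructor
    · rintro ⟨u, hu, v, ⟨x, hx, y, hy, rfl⟩, rfl⟩
      exact ⟨u ++ x, ⟨u, hu, x, hx, rfl⟩, y, hy, by simp⟩
    · rintro ⟨v, ⟨u, hu, x, hx, rfl⟩, y, hy, rfl⟩
      exact ⟨u, hu, x ++ y, ⟨x, hx, y, hy, rfl⟩, by simp⟩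

theorem transfer (hK : ∀ t, HeightLE 0 (K t)) {Kst : Set (List A)} (hKst : HeightLE 0 Kst)
    (hcover : ∀ w, w ∈ Kst ↔ ∃ τ, w ∈ blockWords K τ)
    (huniq : ∀ w τ τ', w ∈ blockWords K τ → w ∈ blockWords K τ' → τ = τ')
    (P : GRE T) (hP : P.height = 0) : HeightLE 0 (blockLang K P.lang) := by
  induction P with
  | zero =>
    have : blockLang K (GRE.zero : GRE T).lang = ∅ := by
      ext w; simp [blockLang, GRE.lang]
    rw [this]; exact HeightLE.empty
  | one =>
    have : blockLang K (GRE.one : GRE T).lang = {[]} := by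
      ext w
      simp only [blockLang, GRE.lang]
      constructor
      · rintro ⟨τ, hτ, hw⟩
        have : τ = [] := hτ
        subst this; exact hw
      · intro hw; exact ⟨[], rfl, hw⟩
    rw [this]; exact HeightLE.nil
  | letter t =>
    have : blockLang K (GRE.letter t).lang = K t := by
      ext w
      simp only [blockLang, GRE.lang]
      constructor
      · rintro ⟨τ, hτ, hw⟩
        have : τ = [t] := hτ
        subst this
        obtain ⟨u, hu, v, hv, rfl⟩ := hw
        have : v = [] := hv
        subst this; simpa using hu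
      · intro hw
        exact ⟨[t], rfl, w, hw, [], rfl, by simp⟩
    rw [this]; exact hK t
  | add P Q ihP ihQ =>
    have hP' : P.height = 0 := by simp [GRE.height] at hP; exact hP.1
    have hQ' : Q.height = 0 := by simp [GRE.height] at hP; exact hP.2
    have : blockLang K (GRE.add P Q).lang = blockLang K P.lang ∪ blockLang K Q.lang := by
      ext w
      simp only [blockLang, GRE.lang]
      constructor
      · rintro ⟨τ, hτ | hτ, hw⟩
        · exact Or.inl ⟨τ, hτ, hw⟩
        · exact Or.inr ⟨τ, hτ, hw⟩
      · rintro (⟨τ, hτ, hw⟩ | ⟨τ, hτ, hw⟩)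
        · exact ⟨τ, Or.inl hτ, hw⟩
        · exact ⟨τ, Or.inr hτ, hw⟩
    rw [this]; exact (ihP hP').union (ihQ hQ')
  | mul P Q ihP ihQ =>
    have hP' : P.height = 0 := by simp [GRE.height] at hP; exact hP.1
    have hQ' : Q.height = 0 := by simp [GRE.height] at hP; exact hP.2
    have : blockLang K (GRE.mul P Q).lang = cat (blockLang K P.lang) (blockLang K Q.lang) := by
      ext w
      simp only [blockLang, GRE.lang, cat]
      constructor
      · rintro ⟨τ, ⟨τ₁, h₁, τ₂, h₂, rfl⟩, hw⟩
        rw [blockWords_append] at hw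
        obtain ⟨u, hu, v, hv, rfl⟩ := hw
        exact ⟨u, ⟨τ₁, h₁, hu⟩, v, ⟨τ₂, h₂, hv⟩, rfl⟩
      · rintro ⟨u, ⟨τ₁, h₁, hu⟩, v, ⟨τ₂, h₂, hv⟩, rfl⟩
        refine ⟨τ₁ ++ τ₂, ⟨τ₁, h₁, τ₂, h₂, rfl⟩, ?_⟩
        rw [blockWords_append]
        exact ⟨u, hu, v, hv, rfl⟩
    rw [this]; exact (ihP hP').concat (ihQ hQ')
  | compl P ih =>
    have hP' : P.height = 0 := by simpa [GRE.height] using hP
    have : blockLang K (GRE.compl P).lang = Kst \ blockLang K P.lang := by
      ext w
      simp only [blockLang, GRE.lang]
      constructor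
      · rintro ⟨τ, hτ, hw⟩
        refine ⟨(hcover w).2 ⟨τ, hw⟩, ?_⟩
        rintro ⟨τ', hτ', hw'⟩
        have := huniq w τ τ' hw hw'
        subst this
        exact hτ hτ'
      · rintro ⟨hw, hn⟩
        obtain ⟨τ, hτ⟩ := (hcover w).1 hw
        exact ⟨τ, fun h => hn ⟨τ, h, hτ⟩, hτ⟩
    rw [this]; exact hKst.diff (ih hP')
  | star P _ => simp [GRE.height] at hP

end Transfer

section ListLemmas

variable {A : Type}

theorem exists_first (c : A) : ∀ w : List A, c ∈ w → ∃ u x, w = u ++ c :: x ∧ c ∉ u
  | [], h => by simp at h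
  | y :: w, h => by
    by_cases hy : y = c
    · exact ⟨[], w, by simp [hy], by simp⟩
    · have hw : c ∈ w := by
        rcases List.mem_cons.1 h with h | h
        · exact absurd h.symm hy
        · exact h
      obtain ⟨u, x, rfl, hu⟩ := exists_first c w hw
      refine ⟨y :: u, x, rfl, ?_⟩
      simp [hu, Ne.symm hy]

theorem append_cons_inj {c : A} : ∀ {u u' x x' : List A}, c ∉ u → c ∉ u' →
    u ++ c :: x = u' ++ c :: x' → u = u' ∧ x = x'
  | [], [], _, _, _, _, h => by simpa using h
  | [], y :: u', x, x', _, h', h => by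
    simp only [List.nil_append, List.cons_append, List.cons.injEq] at h
    exact absurd (by rw [h.1]; simp) h'
  | y :: u, [], x, x', h', _, h => by
    simp only [List.nil_append, List.cons_append, List.cons.injEq] at h
    exact absurd (by rw [← h.1]; simp) h'
  | y :: u, z :: u', x, x', h1, h2, h => by
    simp only [List.cons_append, List.cons.injEq] at h
    have h1' : c ∉ u := fun hh => h1 (List.mem_cons_of_mem _ hh)
    have h2' : c ∉ u' := fun hh => h2 (List.mem_cons_of_mem _ hh)
    obtain ⟨rfl, rfl⟩ := append_cons_inj h1' h2' h.2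
    simp [h.1]

end ListLemmas

section Main

variable {A M : Type} [Monoid M] (φ : A → M)

/-- Words whose letters lie in `S` or have value `1`. -/
def WS (S : Set A) : Set (List A) := {w | ∀ x ∈ w, x ∈ S ∨ φ x = 1}

/-- Words in `WS S` with value `p`. -/
def LS (S : Set A) (p : M) : Set (List A) := {w | w ∈ WS φ S ∧ wval φ w = p}

/-- The local morphism. -/
def locMor (c : M) (m : M) : LD c := ⟨c * m * c, ⟨m * c, mul_assoc _ _ _⟩, ⟨c * m, rfl⟩⟩

variable {φ}

theorem WS_append {S : Set A} {u v : List A} (hu : u ∈ WS φ S) (hv : v ∈ WS φ S) :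
    u ++ v ∈ WS φ S := by
  intro x hx
  rcases List.mem_append.1 hx with h | h
  · exact hu x h
  · exact hv x h

theorem wval_eq_one_of_WS_empty {w : List A} (h : w ∈ WS φ ∅) : wval φ w = 1 := by
  induction w with
  | nil => rfl
  | cons a w ih =>
    have h1 : φ a = 1 := by
      rcases h a (by simp) with h | h
      · exact absurd h (by simp)
      · exact h
    have h2 : w ∈ WS φ ∅ := fun x hx => h x (List.mem_cons_of_mem _ hx)
    rw [wval_cons, h1, ih h2, one_mul]

/-- The step of the induction on the set of letters. -/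
theorem LS_insert [Finite A] [Finite M] {S : Set A} {c : A} (hcS : c ∉ S) (hc1 : φ c ≠ 1)
    (hS : ∀ p, HeightLE 0 (LS φ S p))
    (hIH : ∀ q : LD (φ c), HeightLE 0 {τ : List M | wval (locMor (φ c)) τ = q}) (p : M) :
    HeightLE 0 (LS φ (insert c S) p) := by
  classical
  set c' := φ c with hc'
  -- the blocks
  let K : M → Set (List A) := fun m => cat (LS φ S m) {[c]}
  let Kst : Set (List A) := {[]} ∪ cat (WS φ (insert c S)) {[c]}
  have hWS : ∀ S' : Set A, HeightLE 0 (WS φ S') := by
    intro S'
    have : WS φ S' = {w : List A | ∀ x ∈ w, x ∈ {y | y ∈ S' ∨ φ y = 1}} := rfl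
    rw [this]
    exact heightLE_wordsOver 0 _
  have hK : ∀ m, HeightLE 0 (K m) := fun m => (hS m).concat (HeightLE.letter c)
  have hKst : HeightLE 0 Kst := HeightLE.nil.union ((hWS _).concat (HeightLE.letter c))
  -- letters of `WS S` are different from `c`
  have hnot : ∀ {u : List A}, u ∈ WS φ S → c ∉ u := by
    intro u hu hcu
    rcases hu c hcu with h | h
    · exact hcS h
    · exact hc1 h
  have hmem_mono : ∀ {u : List A}, u ∈ WS φ S → u ∈ WS φ (insert c S) := by
    intro u hu x hx
    rcases hu x hx with h | h
    · exact Or.inl (Or.inr h)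
    · exact Or.inr h
  have hback : ∀ {u : List A}, u ∈ WS φ (insert c S) → c ∉ u → u ∈ WS φ S := by
    intro u hu hcu x hx
    rcases hu x hx with h | h
    · rcases h with h | h
      · subst h; exact absurd hx hcu
      · exact Or.inl h
    · exact Or.inr h
  have hcWS : [c] ∈ WS φ (insert c S) := by
    intro x hx
    have : x = c := by simpa using hx
    subst this
    exact Or.inl (Or.inl rfl)
  -- cover, first direction
  have hcover1 : ∀ n : ℕ, ∀ w : List A, w.length ≤ n → w ∈ Kst → ∃ τ, w ∈ blockWords K τ := by
    intro n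
    induction n with
    | zero =>
      intro w hw _
      have : w = [] := List.length_eq_zero_iff.1 (by omega)
      subst this
      exact ⟨[], rfl⟩
    | succ n ih =>
      intro w hw hwK
      rcases hwK with hw0 | ⟨v, hv, y, hy, rfl⟩
      · exact ⟨[], hw0⟩
      · have : y = [c] := hy
        subst this
        by_cases hcv : c ∈ v
        · obtain ⟨u, x, rfl, hu⟩ := exists_first c v hcv
          have hu' : u ∈ WS φ S := by
            refine hback (fun z hz => hv z (by simp [hz])) hu
          have hx' : x ∈ WS φ (insert c S) := fun z hz => hv z (by simp [hz])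
          have hlen : (x ++ [c]).length ≤ n := by
            simp at hw ⊢; omega
          obtain ⟨τ, hτ⟩ := ih (x ++ [c]) hlen (Or.inr ⟨x, hx', [c], rfl, rfl⟩)
          refine ⟨wval φ u :: τ, u ++ [c], ⟨u, ⟨hu', rfl⟩, [c], rfl, rfl⟩, x ++ [c], hτ, by simp⟩
        · have hv' : v ∈ WS φ S := hback hv hcv
          refine ⟨[wval φ v], v ++ [c], ⟨v, ⟨hv', rfl⟩, [c], rfl, rfl⟩, [], rfl, by simp⟩
  have hcover2 : ∀ τ : List M, ∀ w : List A, w ∈ blockWords K τ → w ∈ Kst := by
    intro τ
    induction τ with
    | nil => intro w hw; exact Or.inl hw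
    | cons m τ ih =>
      intro w hw
      obtain ⟨u', ⟨u, hu, y, hy, rfl⟩, x, hx, rfl⟩ := hw
      have : y = [c] := hy
      subst this
      right
      rcases ih x hx with hx0 | ⟨v, hv, z, hz, rfl⟩
      · have : x = [] := hx0
        subst this
        exact ⟨u, hmem_mono hu.1, [c], rfl, by simp⟩
      · have : z = [c] := hz
        subst this
        refine ⟨u ++ [c] ++ v, WS_append (WS_append (hmem_mono hu.1) hcWS) hv, [c], rfl, by simp⟩
  have hcover : ∀ w, w ∈ Kst ↔ ∃ τ, w ∈ blockWords K τ := by
    intro w
    constructor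
    · exact hcover1 w.length w le_rfl
    · rintro ⟨τ, hτ⟩
      exact hcover2 τ w hτ
  -- uniqueness
  have huniq : ∀ τ τ' : List M, ∀ w, w ∈ blockWords K τ → w ∈ blockWords K τ' → τ = τ' := by
    intro τ
    induction τ with
    | nil =>
      intro τ' w hw hw'
      cases τ' with
      | nil => rfl
      | cons m τ' =>
        exfalso
        have hw0 : w = [] := hw
        obtain ⟨u', ⟨u, _, y, hy, rfl⟩, x, _, hwe⟩ := hw'
        have : y = [c] := hy
        subst this
        simp [hw0] at hwe
    | cons m τ ih =>
      intro τ' w hw hw'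
      cases τ' with
      | nil =>
        exfalso
        have hw0 : w = [] := hw'
        obtain ⟨u', ⟨u, _, y, hy, rfl⟩, x, _, hwe⟩ := hw
        have : y = [c] := hy
        subst this
        simp [hw0] at hwe
      | cons m' τ' =>
        obtain ⟨u', ⟨u, hu, y, hy, rfl⟩, x, hx, rfl⟩ := hw
        obtain ⟨u'', ⟨u2, hu2, y2, hy2, rfl⟩, x2, hx2, hwe⟩ := hw'
        have h1 : y = [c] := hy
        have h2 : y2 = [c] := hy2
        subst h1; subst h2
        have heq : u ++ c :: x = u2 ++ c :: x2 := by simpa using hwe
        obtain ⟨rfl, rfl⟩ := append_cons_inj (hnot hu.1) (hnot hu2.1) heq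
        have hm : m = m' := by rw [← hu.2, ← hu2.2]
        subst hm
        rw [ih τ' x hx hx2]
  -- blockLang is star-free
  have hblock : ∀ q : LD c', HeightLE 0 (blockLang K {τ : List M | wval (locMor c') τ = q}) := by
    intro q
    obtain ⟨P, hP, hPl⟩ := hIH q
    have := transfer K hK hKst hcover (fun w τ τ' => huniq τ τ' w) P (Nat.le_zero.1 hP)
    rwa [hPl] at this
  -- the value computation
  have hval : ∀ τ : List M, ∀ w, w ∈ blockWords K τ → c' * wval φ w = (wval (locMor c') τ).1 := by
    intro τ
    induction τ with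
    | nil =>
      intro w hw
      have : w = [] := hw
      subst this
      simp [LD.one_val]
    | cons m τ ih =>
      intro w hw
      obtain ⟨u', ⟨u, hu, y, hy, rfl⟩, x, hx, rfl⟩ := hw
      have : y = [c] := hy
      subst this
      have hm : wval φ u = m := hu.2
      rw [wval_cons, LD.mul_val (locMor c' m) _ (b := c' * m) rfl, ← ih x hx]
      simp only [wval_append, wval_cons, wval_nil, mul_one, hm, ← hc']
      simp only [mul_assoc]
  -- tail splitting
  have htail : ∀ x : List A, x ∈ WS φ (insert c S) →
      ∃ y ∈ Kst, ∃ u' ∈ WS φ S, x = y ++ u' := by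
    intro x
    induction x with
    | nil => intro _; exact ⟨[], Or.inl rfl, [], (fun z hz => by simp at hz), rfl⟩
    | cons z x ih =>
      intro hx
      have hx' : x ∈ WS φ (insert c S) := fun t ht => hx t (List.mem_cons_of_mem _ ht)
      obtain ⟨y, hy, u', hu', rfl⟩ := ih hx'
      have hz : [z] ∈ WS φ (insert c S) := by
        intro t ht
        have : t = z := by simpa using ht
        subst this
        exact hx t (by simp)
      by_cases hzc : z = c
      · subst hzc
        rcases hy with hy0 | ⟨v, hv, t, ht, rfl⟩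
        · have : y = [] := hy0
          subst this
          exact ⟨[z], Or.inr ⟨[], (fun t ht => by simp at ht), [z], rfl, rfl⟩, u', hu', rfl⟩
        · have : t = [z] := ht
          subst this
          refine ⟨z :: (v ++ [z]), Or.inr ⟨z :: v, ?_, [z], rfl, rfl⟩, u', hu', by simp⟩
          exact WS_append hz hv
      · rcases hy with hy0 | ⟨v, hv, t, ht, rfl⟩
        · have : y = [] := hy0
          subst this
          refine ⟨[], Or.inl rfl, z :: u', ?_, rfl⟩
          intro t ht
          rcases List.mem_cons.1 ht with h | h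
          · subst h
            rcases hx t (by simp) with h | h
            · rcases h with h | h
              · exact absurd h hzc
              · exact Or.inl h
            · exact Or.inr h
          · exact hu' t h
        · have : t = [c] := ht
          subst this
          refine ⟨z :: (v ++ [c]), Or.inr ⟨z :: v, WS_append hz hv, [c], rfl, rfl⟩, u', hu', by simp⟩
  -- the formula
  let idx : Set (M × LD c' × M) := {t | t.1 * t.2.1.1 * t.2.2 = p}
  have hformula : LS φ (insert c S) p = LS φ S p ∪
      ⋃ t ∈ idx, cat (cat (cat (LS φ S t.1) {[c]})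
        (blockLang K {τ : List M | wval (locMor c') τ = t.2.1})) (LS φ S t.2.2) := by
    ext w
    constructor
    · rintro ⟨hw, hwp⟩
      by_cases hcw : c ∈ w
      · right
        obtain ⟨u, x, rfl, hu⟩ := exists_first c w hcw
        have hu' : u ∈ WS φ S := hback (fun z hz => hw z (by simp [hz])) hu
        have hx : x ∈ WS φ (insert c S) := fun z hz => hw z (by simp [hz])
        obtain ⟨y, hy, u', hu'', rfl⟩ := htail x hx
        obtain ⟨τ, hτ⟩ := (hcover y).1 hy
        simp only [Set.mem_iUnion]
        refine ⟨(wval φ u, wval (locMor c') τ, wval φ u'), ?_, ?_⟩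
        · change wval φ u * (wval (locMor c') τ).1 * wval φ u' = p
          rw [← hval τ y hτ, ← hwp]
          simp [hc', mul_assoc]
        · refine ⟨u ++ [c] ++ y, ⟨u ++ [c], ⟨u, ⟨hu', rfl⟩, [c], rfl, rfl⟩, y, ⟨τ, rfl, hτ⟩, rfl⟩,
            u', ⟨hu'', rfl⟩, by simp⟩
      · left
        exact ⟨hback hw hcw, hwp⟩
    · rintro (⟨hw, hwp⟩ | hw)
      · exact ⟨hmem_mono hw, hwp⟩
      · simp only [Set.mem_iUnion] at hw
        obtain ⟨t, ht, v1, ⟨v2, ⟨u, hu, z, hz, rfl⟩, y, ⟨τ, hτ, hy⟩, rfl⟩, u', hu', rfl⟩ := hw
        have : z = [c] := hz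
        subst this
        have hyK := hcover2 τ y hy
        have hyWS : y ∈ WS φ (insert c S) := by
          rcases hyK with h0 | ⟨v, hv, z, hz, rfl⟩
          · have : y = [] := h0
            subst this
            intro t ht; simp at ht
          · have : z = [c] := hz
            subst this
            exact WS_append hv hcWS
        refine ⟨WS_append (WS_append (WS_append (hmem_mono hu.1) hcWS) hyWS) (hmem_mono hu'.1), ?_⟩
        have htp : t.1 * t.2.1.1 * t.2.2 = p := ht
        have hτ' : wval (locMor c') τ = t.2.1 := hτ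
        rw [← htp, ← hτ', ← hval τ y hy, ← hu.2, ← hu'.2]
        simp [hc', mul_assoc]
  rw [hformula]
  refine (hS p).union ?_
  have : Finite (LD c') := Subtype.finite
  refine HeightLE.biUnion (fun t _ => ?_)
  exact (((hS t.1).concat (HeightLE.letter c)).concat (hblock t.2.1)).concat (hS t.2.2)

end Main

/-- **Schutzenberger's theorem**: languages recognized by a finite aperiodic monoid are
star-free. -/
theorem starFree_of_aperiodic : ∀ (N : ℕ) (M : Type) [Monoid M] [Finite M], Nat.card M ≤ N →
    IsAperiodic M → ∀ (A : Type) [Finite A] (φ : A → M) (p : M),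
    HeightLE 0 {w : List A | wval φ w = p} := by
  intro N
  induction N with
  | zero =>
    intro M _ _ h
    exfalso
    have : 0 < Nat.card M := Nat.card_pos
    omega
  | succ N ih =>
    intro M _ _ hcard hap A _ φ p
    classical
    -- induction on the set of letters
    have key : ∀ S : Set A, S.Finite → ∀ p, HeightLE 0 (LS φ S p) := by
      intro S hS
      induction S, hS using Set.Finite.induction_on with
      | empty =>
        intro p
        by_cases hp : p = 1
        · have : LS φ ∅ p = WS φ ∅ := by
            ext w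
            constructor
            · exact fun h => h.1
            · exact fun h => ⟨h, by rw [hp]; exact wval_eq_one_of_WS_empty h⟩
          rw [this]
          exact heightLE_wordsOver 0 {y | y ∈ (∅ : Set A) ∨ φ y = 1}
        · have : LS φ ∅ p = ∅ := by
            ext w
            constructor
            · rintro ⟨h, h2⟩
              exact absurd (h2.symm.trans (wval_eq_one_of_WS_empty h)) hp
            · intro h; exact absurd h (by simp)
          rw [this]
          exact HeightLE.empty
      | @insert c S hcS _ hS =>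
        intro p
        by_cases hc1 : φ c = 1
        · have : LS φ (insert c S) p = LS φ S p := by
            ext w
            constructor
            · rintro ⟨h, h2⟩
              refine ⟨fun x hx => ?_, h2⟩
              rcases h x hx with h | h
              · rcases h with h | h
                · subst h; exact Or.inr hc1
                · exact Or.inl h
              · exact Or.inr h
            · rintro ⟨h, h2⟩
              refine ⟨fun x hx => ?_, h2⟩
              rcases h x hx with h | h
              · exact Or.inl (Or.inr h)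
              · exact Or.inr h
          rw [this]
          exact hS p
        · refine LS_insert hcS hc1 hS (fun q => ?_) p
          have : Finite (LD (φ c)) := Subtype.finite
          have hlt := LD.card_lt hap hc1
          exact ih (LD (φ c)) (by omega) (LD.aperiodic hap) M (locMor (φ c)) q
    have := key Set.univ Set.finite_univ p
    have heq : LS φ Set.univ p = {w : List A | wval φ w = p} := by
      ext w
      constructor
      · exact fun h => h.2
      · exact fun h => ⟨fun x _ => Or.inl (Set.mem_univ x), h⟩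
    rwa [heq] at this

/-- Languages recognized by a finite aperiodic monoid are star-free. -/
theorem starFree_of_aperiodic' {M A : Type} [Monoid M] [Finite M] [Finite A]
    (hap : IsAperiodic M) (φ : A → M) (p : M) : HeightLE 0 {w : List A | wval φ w = p} :=
  starFree_of_aperiodic _ M le_rfl hap A φ p

end Vale.Agent.Lib.P329
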