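import Vale.Agent.Lib.P329.Defs

namespace Vale.Agent.Lib.P329

variable {α : Type}

/-- Concatenation of two languages. -/
def cat (K L : Set (List α)) : Set (List α) := {w | ∃ u ∈ K, ∃ v ∈ L, w = u ++ v}

/-- Kleene star of a language. -/
def kstarL (K : Set (List α)) : Set (List α) :=
  {w | ∃ l : List (List α), (∀ u ∈ l, u ∈ K) ∧ w = l.flatten}

namespace HeightLE

variable {n m : ℕ} {K L : Set (List α)}

theorem mono (h : n ≤ m) (hL : HeightLE n L) : HeightLE m L := by
  obtain ⟨P, hP, rfl⟩ := hL
  exact ⟨P, hP.trans h, rfl⟩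

theorem empty : HeightLE n (∅ : Set (List α)) := ⟨GRE.zero, Nat.zero_le _, rfl⟩

theorem nil : HeightLE n ({[]} : Set (List α)) := ⟨GRE.one, Nat.zero_le _, rfl⟩

theorem letter (a : α) : HeightLE n ({[a]} : Set (List α)) := ⟨GRE.letter a, Nat.zero_le _, rfl⟩

theorem union (hK : HeightLE n K) (hL : HeightLE n L) : HeightLE n (K ∪ L) := by
  obtain ⟨P, hP, rfl⟩ := hK
  obtain ⟨Q, hQ, rfl⟩ := hL
  exact ⟨GRE.add P Q, max_le hP hQ, rfl⟩

theorem concat (hK : HeightLE n K) (hL : HeightLE n L) : HeightLE n (cat K L) := by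
  obtain ⟨P, hP, rfl⟩ := hK
  obtain ⟨Q, hQ, rfl⟩ := hL
  exact ⟨GRE.mul P Q, max_le hP hQ, rfl⟩

theorem compl (hL : HeightLE n L) : HeightLE n Lᶜ := by
  obtain ⟨P, hP, rfl⟩ := hL
  exact ⟨GRE.compl P, hP, rfl⟩

theorem star (hL : HeightLE n L) : HeightLE (n + 1) (kstarL L) := by
  obtain ⟨P, hP, rfl⟩ := hL
  exact ⟨GRE.star P, Nat.succ_le_succ hP, rfl⟩

theorem univ : HeightLE n (Set.univ : Set (List α)) := by
  have : (Set.univ : Set (List α)) = (∅ : Set (List α))ᶜ := by simp
  rw [this]; exact empty.compl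

theorem inter (hK : HeightLE n K) (hL : HeightLE n L) : HeightLE n (K ∩ L) := by
  have : K ∩ L = (Kᶜ ∪ Lᶜ)ᶜ := by
    ext w; simp
  rw [this]; exact (hK.compl.union hL.compl).compl

theorem diff (hK : HeightLE n K) (hL : HeightLE n L) : HeightLE n (K \ L) := by
  have : K \ L = K ∩ Lᶜ := rfl
  rw [this]; exact hK.inter hL.compl

/-- Finite unions over a finite index type. -/
theorem iUnion {ι : Type*} [Finite ι] {f : ι → Set (List α)} (h : ∀ i, HeightLE n (f i)) :
    HeightLE n (⋃ i, f i) := by
  classical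
  have key : ∀ s : Set ι, s.Finite → HeightLE n (⋃ i ∈ s, f i) := by
    intro s hs
    induction s, hs using Set.Finite.induction_on with
    | empty => simpa using (empty : HeightLE n (∅ : Set (List α)))
    | @insert a s _ _ ih =>
      rw [Set.biUnion_insert]
      exact (h a).union ih
  have := key Set.univ Set.finite_univ
  simpa using this

/-- Finite intersections over a finite index type. -/
theorem iInter {ι : Type*} [Finite ι] {f : ι → Set (List α)} (h : ∀ i, HeightLE n (f i)) :
    HeightLE n (⋂ i, f i) := by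
  have : (⋂ i, f i) = (⋃ i, (f i)ᶜ)ᶜ := by
    ext w; simp
  rw [this]
  exact (iUnion (fun i => (h i).compl)).compl

/-- A union indexed by a subset of a finite type. -/
theorem biUnion {ι : Type*} [Finite ι] {s : Set ι} {f : ι → Set (List α)}
    (h : ∀ i ∈ s, HeightLE n (f i)) : HeightLE n (⋃ i ∈ s, f i) := by
  classical
  have key : (⋃ i ∈ s, f i) = ⋃ i, (if i ∈ s then f i else ∅) := by
    ext w
    simp only [Set.mem_iUnion, exists_prop]
    constructor
    · rintro ⟨i, hi, hw⟩
      exact ⟨i, by simpa [hi] using hw⟩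
    · rintro ⟨i, hw⟩
      by_cases hi : i ∈ s
      · exact ⟨i, hi, by simpa [hi] using hw⟩
      · simp [hi] at hw
  rw [key]
  refine iUnion (fun i => ?_)
  by_cases hi : i ∈ s
  · simpa [hi] using h i hi
  · simpa [hi] using (empty : HeightLE n (∅ : Set (List α)))

/-- A language whose membership depends only on finitely many languages of height `≤ n`:
if `g : List α → ι` has all its fibres of height `≤ n`, so has every set of the form
`g ⁻¹' s`. -/
theorem preimage {ι : Type*} [Finite ι] {g : List α → ι}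
    (h : ∀ i, HeightLE n {w | g w = i}) (s : Set ι) : HeightLE n {w | g w ∈ s} := by
  have : {w | g w ∈ s} = ⋃ i ∈ s, {w | g w = i} := by
    ext w; simp
  rw [this]
  exact biUnion (fun i _ => h i)

/-- Finite product of height-`≤ n`-fibred functions: the fibres of the tuple have
height `≤ n`. -/
theorem pi {ι : Type*} [Finite ι] {β : ι → Type*} {g : (i : ι) → List α → β i}
    (h : ∀ i (b : β i), HeightLE n {w | g i w = b}) (b : (i : ι) → β i) :
    HeightLE n {w | (fun i => g i w) = b} := by
  have : {w | (fun i => g i w) = b} = ⋂ i, {w | g i w = b i} := by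
    ext w; simp [funext_iff]
  rw [this]
  exact iInter (fun i => h i (b i))

end HeightLE

/-- Words all of whose letters lie in the set `S`. -/
theorem heightLE_wordsOver [Finite α] (n : ℕ) (S : Set α) :
    HeightLE n {w : List α | ∀ x ∈ w, x ∈ S} := by
  classical
  have : {w : List α | ∀ x ∈ w, x ∈ S} =
      (⋃ a ∈ Sᶜ, cat (cat Set.univ {[a]}) Set.univ)ᶜ := by
    ext w
    constructor
    · intro h hw
      simp only [Set.mem_iUnion] at hw
      obtain ⟨a, ha, u, ⟨x, _, y, hy, rfl⟩, v, _, rfl⟩ := hw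
      apply ha
      apply h
      have : y = [a] := hy
      subst this
      simp
    · intro h x hx
      by_contra hxS
      apply h
      simp only [Set.mem_iUnion]
      obtain ⟨x1, x2, rfl⟩ := List.append_of_mem hx
      exact ⟨x, hxS, x1 ++ [x], ⟨x1, Set.mem_univ _, [x], rfl, rfl⟩, x2, Set.mem_univ _, by simp⟩
  rw [this]
  exact (HeightLE.biUnion (fun a _ =>
    (HeightLE.univ.concat (HeightLE.letter a)).concat HeightLE.univ)).compl

end Vale.Agent.Lib.P329
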