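import Vale.Agent.Lib.P329.Charge

/-!
Cascades: an automaton with aperiodic transition monoid, above it a finite commutative group reading
the transitions of the automaton, and above that a second automaton with aperiodic transition monoid
reading the letter together with the states of the lower levels.
-/

namespace Vale.Agent.Lib.P329

section Cascade

open Classical

variable {A Q V C P : Type}

/-- The transition monoid of `δ` is aperiodic: the transformation `f` of every word satisfies
`f^[n] = f^[n + 1]` for some `n`. -/
def AperiodicAut (δ : A → Q → Q) : Prop :=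
  ∀ u : List A, ∃ n : ℕ, (fun x => run δ x u)^[n] = (fun x => run δ x u)^[n + 1]

theorem AperiodicAut.closed {δ : A → Q → Q} (h : AperiodicAut δ) (u : List A) (q : Q) (m : ℕ)
    (hm : 0 < m) (hcl : run δ q (rep u m) = q) : run δ q u = q := by
  obtain ⟨n, hn⟩ := h u
  set f : Q → Q := fun x => run δ x u with hf
  rw [run_rep] at hcl
  have h1 : f^[m * n] q = q := by
    rw [Function.iterate_mul]
    exact Function.iterate_fixed hcl n
  obtain ⟨s, hs⟩ : ∃ s, m * n = s + n := ⟨m * n - n, by
    have : n ≤ m * n := Nat.le_mul_of_pos_left n hm
    omega⟩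
  have h2 : f^[s + (n + 1)] q = f^[s + n] q := by
    rw [Function.iterate_add_apply, Function.iterate_add_apply f s n, ← hn]
  have h3 : f (f^[s + n] q) = f^[s + n] q := by
    rw [← Function.iterate_succ_apply' f (s + n) q]
    exact h2
  rw [← hs, h1] at h3
  exact h3

/-- The sum of the weights `c` along the run of `δ` from `q`. -/
def cost [AddCommMonoid V] (δ : A → Q → Q) (c : A → Q → V) : Q → List A → V
  | _, [] => 0
  | q, a :: w => c a q + cost δ c (δ a q) w

theorem cost_eq_sum [Fintype A] [Fintype Q] [AddCommMonoid V] (δ : A → Q → Q) (c : A → Q → V)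
    (q : Q) (w : List A) :
    cost δ c q w = ∑ t : A × Q, fcc δ (fun a s => a = t.1 ∧ s = t.2) q w • c t.1 t.2 := by
  induction w generalizing q with
  | nil => simp [cost]
  | cons a w ih =>
    have e : ∀ t : A × Q, fcc δ (fun a s => a = t.1 ∧ s = t.2) q (a :: w) • c t.1 t.2 =
        (if a = t.1 ∧ q = t.2 then 1 else 0) • c t.1 t.2 +
          fcc δ (fun a s => a = t.1 ∧ s = t.2) (δ a q) w • c t.1 t.2 := by
      intro t
      rw [fcc_cons, add_smul]
      congr!
    rw [cost, ih, Finset.sum_congr rfl (fun t _ => e t), Finset.sum_add_distrib]
    congr 1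
    rw [Finset.sum_eq_single (a, q)]
    · simp
    · intro t _ ht
      have : ¬ (a = t.1 ∧ q = t.2) := fun h => ht (Prod.ext h.1.symm h.2.symm)
      simp [this]
    · simp

theorem good_run_of_aperiodic [Finite A] [Finite Q] {δ : A → Q → Q} (h : AperiodicAut δ) (q : Q) :
    Good (fun w : List A => run δ q w) :=
  good_run_of_chg (C := fun _ _ => False) (q₀ := q) (fun _ _ hf => hf.elim)
    (fun u r m hm hcl _ => h.closed u r m hm hcl) q

/-- Counts of one transition of an automaton with aperiodic transition monoid have good residues. -/
theorem goodZ_count_transition [Finite A] [Finite Q] {δ : A → Q → Q} (h : AperiodicAut δ) (t : A × Q)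
    (q : Q) : GoodZ (fun w : List A => ((fcc δ (fun a s => a = t.1 ∧ s = t.2) q w : ℕ) : ℤ)) :=
  goodZ_fcc (q₀ := δ t.1 t.2) (fun a s hs => by rw [hs.1, hs.2])
    (fun u r m hm hcl _ => h.closed u r m hm hcl) q

/-- The sum of arbitrary weights in a finite commutative group along the run of an automaton with
aperiodic transition monoid is good. -/
theorem good_cost [Finite A] [Finite Q] [AddCommGroup V] [Finite V] {δ : A → Q → Q}
    (h : AperiodicAut δ) (c : A → Q → V) (q : Q) : Good (fun w : List A => cost δ c q w) := by
  have : Fintype A := Fintype.ofFinite A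
  have : Fintype Q := Fintype.ofFinite Q
  have hpos : NeZero (Nat.card V) := ⟨Nat.card_pos.ne'⟩
  have key : ∀ t : A × Q, Good (fun w : List A =>
      fcc δ (fun a s => a = t.1 ∧ s = t.2) q w • c t.1 t.2) := by
    intro t
    have h1 := (goodZ_count_transition h t q) (Nat.card V)
    refine Good.of_factor h1 (fun w w' e => ?_)
    simp only [Int.cast_natCast] at e
    have e2 := (ZMod.natCast_eq_natCast_iff' _ _ _).1 e
    have hk : ∀ k : ℕ, k • c t.1 t.2 = (k % Nat.card V) • c t.1 t.2 := by
      intro k
      calc k • c t.1 t.2 = (k % Nat.card V + Nat.card V * (k / Nat.card V)) • c t.1 t.2 := by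
            rw [Nat.mod_add_div]
        _ = (k % Nat.card V) • c t.1 t.2 := by
            rw [add_smul, mul_smul, card_nsmul_eq_zero', add_zero]
    rw [hk, hk (fcc δ _ q w'), e2]
  have h2 := Good.finset_sum (β := V) (Finset.univ : Finset (A × Q)) (fun t _ => key t)
  refine Good.of_factor h2 (fun w w' e => ?_)
  rw [cost_eq_sum, cost_eq_sum]
  exact e

/-- The automaton of an aperiodic automaton with a finite commutative group above it. -/
def costStep [AddCommMonoid V] (δ : A → Q → Q) (c : A → Q → V) (a : A) (s : Q × V) : Q × V :=
  (δ a s.1, s.2 + c a s.1)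

theorem run_costStep [AddCommMonoid V] (δ : A → Q → Q) (c : A → Q → V) (q : Q) (v : V)
    (w : List A) :
    run (costStep δ c) (q, v) w = (run δ q w, v + cost δ c q w) := by
  induction w generalizing q v with
  | nil => simp [cost]
  | cons a w ih =>
    rw [run_cons]
    have e : costStep δ c a (q, v) = (δ a q, v + c a q) := rfl
    rw [e, ih]
    simp only [run_cons, cost, add_assoc]

theorem good_costStep [Finite A] [Finite Q] [AddCommGroup V] [Finite V] {δ : A → Q → Q}
    (h : AperiodicAut δ) (c : A → Q → V) (s : Q × V) :
    Good (fun w : List A => run (costStep δ c) s w) := by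
  obtain ⟨q, v⟩ := s
  have := (good_run_of_aperiodic h q).pair ((good_cost h c q).comp (fun x => v + x))
  refine Good.of_factor this (fun w w' e => ?_)
  rw [run_costStep, run_costStep]
  exact e

/-- The word of letters labelled by the states of `γ` before the letter. -/
def lab (γ : A → C → C) : C → List A → List (A × C)
  | _, [] => []
  | c, a :: w => (a, c) :: lab γ (γ a c) w

theorem lab_append (γ : A → C → C) (c : C) (u v : List A) :
    lab γ c (u ++ v) = lab γ c u ++ lab γ (run γ c u) v := by
  induction u generalizing c with
  | nil => rfl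
  | cons a u ih => simp only [List.cons_append, lab, ih, run_cons]

theorem lab_eq_append (γ : A → C → C) (c : C) (w : List A) (x y : List (A × C))
    (h : lab γ c w = x ++ y) :
    ∃ u v, w = u ++ v ∧ lab γ c u = x ∧ lab γ (run γ c u) v = y := by
  induction x generalizing c w with
  | nil => exact ⟨[], w, rfl, rfl, h⟩
  | cons t x ih =>
    cases w with
    | nil => simp [lab] at h
    | cons a w =>
      simp only [lab, List.cons_append, List.cons.injEq] at h
      obtain ⟨h1, h2⟩ := h
      obtain ⟨u, v, rfl, hu, hv⟩ := ih _ _ h2
      exact ⟨a :: u, v, rfl, by simp [lab, hu, h1], hv⟩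

/-- Star-free expressions over the labelled alphabet pull back to star height one. -/
theorem heightLE_lab [Finite A] [Finite C] (γ : A → C → C)
    (hγ : ∀ c c', HeightLE 1 {w : List A | run γ c w = c'}) (E : GRE (A × C)) (hE : E.height = 0)
    (c c' : C) : HeightLE 1 {w : List A | run γ c w = c' ∧ lab γ c w ∈ E.lang} := by
  induction E generalizing c c' with
  | zero =>
    have : {w : List A | run γ c w = c' ∧ lab γ c w ∈ (GRE.zero : GRE (A × C)).lang} = ∅ := by
      ext w; simp [GRE.lang]
    rw [this]; exact HeightLE.empty
  | one =>
    by_cases hc : c = c'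
    · have : {w : List A | run γ c w = c' ∧ lab γ c w ∈ (GRE.one : GRE (A × C)).lang} = {[]} := by
        ext w
        constructor
        · rintro ⟨_, h⟩
          cases w with
          | nil => rfl
          | cons a w => simp [lab, GRE.lang] at h
        · intro h
          have : w = [] := h
          subst this
          exact ⟨hc, rfl⟩
      rw [this]; exact HeightLE.nil
    · have : {w : List A | run γ c w = c' ∧ lab γ c w ∈ (GRE.one : GRE (A × C)).lang} = ∅ := by
        ext w
        constructor
        · rintro ⟨h1, h⟩
          cases w with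
          | nil => exact absurd h1 hc
          | cons a w => simp [lab, GRE.lang] at h
        · intro h; exact absurd h (by simp)
      rw [this]; exact HeightLE.empty
  | letter t =>
    by_cases hc : c = t.2 ∧ γ t.1 c = c'
    · have : {w : List A | run γ c w = c' ∧ lab γ c w ∈ (GRE.letter t : GRE (A × C)).lang}
          = {[t.1]} := by
        ext w
        constructor
        · rintro ⟨_, h⟩
          cases w with
          | nil => simp [lab, GRE.lang] at h
          | cons a w =>
            cases w with
            | nil =>
              have h' : (a, c) = t := by simpa [lab, GRE.lang] using h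
              rw [← h']; rfl
            | cons b w => simp [lab, GRE.lang] at h
        · intro h
          have : w = [t.1] := h
          subst this
          refine ⟨hc.2, ?_⟩
          have ht : (t.1, c) = t := Prod.ext rfl hc.1
          have : lab γ c [t.1] = [t] := by
            simp only [lab, ht]
          rw [this]
          rfl
      rw [this]; exact HeightLE.letter _
    · have : {w : List A | run γ c w = c' ∧ lab γ c w ∈ (GRE.letter t : GRE (A × C)).lang} = ∅ := by
        ext w
        constructor
        · rintro ⟨h1, h⟩
          exfalso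
          cases w with
          | nil => simp [lab, GRE.lang] at h
          | cons a w =>
            cases w with
            | nil =>
              have h' : (a, c) = t := by simpa [lab, GRE.lang] using h
              apply hc
              subst h'
              exact ⟨rfl, h1⟩
            | cons b w => simp [lab, GRE.lang] at h
        · intro h; exact absurd h (by simp)
      rw [this]; exact HeightLE.empty
  | add P R ihP ihR =>
    have hP : P.height = 0 := by
      have : max P.height R.height = 0 := hE
      omega
    have hR : R.height = 0 := by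
      have : max P.height R.height = 0 := hE
      omega
    have : {w : List A | run γ c w = c' ∧ lab γ c w ∈ (GRE.add P R).lang} =
        {w | run γ c w = c' ∧ lab γ c w ∈ P.lang} ∪ {w | run γ c w = c' ∧ lab γ c w ∈ R.lang} := by
      ext w
      simp only [GRE.lang, Set.mem_ofPred_eq, Set.mem_union]
      tauto
    rw [this]
    exact (ihP hP c c').union (ihR hR c c')
  | mul P R ihP ihR =>
    have hP : P.height = 0 := by
      have : max P.height R.height = 0 := hE
      omega
    have hR : R.height = 0 := by
      have : max P.height R.height = 0 := hE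
      omega
    have : {w : List A | run γ c w = c' ∧ lab γ c w ∈ (GRE.mul P R).lang} =
        ⋃ c'' : C, cat {w | run γ c w = c'' ∧ lab γ c w ∈ P.lang}
          {w | run γ c'' w = c' ∧ lab γ c'' w ∈ R.lang} := by
      ext w
      simp only [Set.mem_iUnion]
      constructor
      · rintro ⟨h1, x, hx, y, hy, hxy⟩
        obtain ⟨u, v, rfl, hu, hv⟩ := lab_eq_append γ c w x y hxy
        refine ⟨run γ c u, u, ⟨rfl, hu ▸ hx⟩, v, ⟨?_, hv ▸ hy⟩, rfl⟩
        rw [run_append] at h1
        exact h1
      · rintro ⟨c'', u, ⟨hu1, hu2⟩, v, ⟨hv1, hv2⟩, rfl⟩
        refine ⟨by rw [run_append, hu1, hv1], lab γ c u, hu2, lab γ c'' v, hv2, ?_⟩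
        rw [lab_append, hu1]
    rw [this]
    exact HeightLE.iUnion (fun c'' => (ihP hP c c'').concat (ihR hR c'' c'))
  | compl P ih =>
    have hP : P.height = 0 := hE
    have : {w : List A | run γ c w = c' ∧ lab γ c w ∈ (GRE.compl P).lang} =
        {w | run γ c w = c'} \ {w | run γ c w = c' ∧ lab γ c w ∈ P.lang} := by
      ext w
      simp only [GRE.lang, Set.mem_ofPred_eq, Set.mem_sdiff, Set.mem_compl_iff]
      tauto
    rw [this]
    exact (hγ c c').diff (ih hP c c')
  | star P _ =>
    have : P.height + 1 = 0 := hE
    omega

/-- Paths of an automaton with aperiodic transition monoid are star-free. -/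
theorem aperiodic_path_starFree {B : Type} [Finite B] [Finite P] {ε : B → P → P}
    (h : AperiodicAut ε) (x y : P) : HeightLE 0 {w : List B | run ε x w = y} := by
  have hfin : Finite (TM ε) := Subtype.finite
  have hap : IsAperiodic (TM ε) := by
    intro f
    obtain ⟨u, hu⟩ := f.2
    obtain ⟨n, hn⟩ := h u
    refine ⟨n, Subtype.ext ?_⟩
    rw [TM.pow_val, TM.pow_val, hu]
    exact hn
  have : {w : List B | run ε x w = y} =
      ⋃ f ∈ {f : TM ε | f.1 x = y}, {w : List B | wval (TM.ofLetter ε) w = f} := by
    ext w
    simp only [Set.mem_iUnion]
    constructor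
    · intro hw
      refine ⟨wval (TM.ofLetter ε) w, ?_, rfl⟩
      change (wval (TM.ofLetter ε) w).1 x = y
      rw [TM.wval_val]
      exact hw
    · rintro ⟨f, hf, hw⟩
      have hw' : wval (TM.ofLetter ε) w = f := hw
      have : f.1 x = y := hf
      rw [← hw', TM.wval_val] at this
      exact this
  rw [this]
  exact HeightLE.biUnion (fun f _ => starFree_of_aperiodic' hap _ f)

/-- An automaton with aperiodic transition monoid reading the letters together with the states of
a lower machine. -/
def topStep (γ : A → C → C) (ε : A × C → P → P) (a : A) (s : C × P) : C × P :=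
  (γ a s.1, ε (a, s.1) s.2)

theorem run_topStep (γ : A → C → C) (ε : A × C → P → P) (c : C) (p : P) (w : List A) :
    run (topStep γ ε) (c, p) w = (run γ c w, run ε p (lab γ c w)) := by
  induction w generalizing c p with
  | nil => rfl
  | cons a w ih =>
    rw [run_cons]
    have e : topStep γ ε a (c, p) = (γ a c, ε (a, c) p) := rfl
    rw [e, ih]
    rfl

/-- A top level with aperiodic transition monoid preserves generalized star height at most one. -/
theorem good_topStep [Finite A] [Finite C] [Finite P] (γ : A → C → C)
    (hγ : ∀ c c', HeightLE 1 {w : List A | run γ c w = c'}) {ε : A × C → P → P}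
    (hε : AperiodicAut ε) (s : C × P) : Good (fun w : List A => run (topStep γ ε) s w) := by
  obtain ⟨c, p⟩ := s
  rintro ⟨c', p'⟩
  obtain ⟨E, hE, hL⟩ := aperiodic_path_starFree hε p p'
  have : {w : List A | run (topStep γ ε) (c, p) w = (c', p')} =
      {w | run γ c w = c' ∧ lab γ c w ∈ E.lang} := by
    ext w
    rw [Set.mem_ofPred_eq, run_topStep, Prod.mk.injEq, Set.mem_ofPred_eq, hL, Set.mem_ofPred_eq]
  rw [this]
  exact heightLE_lab γ hγ E (Nat.le_zero.1 hE) c c'

/-- The cascade: aperiodic automaton, finite commutative group, aperiodic automaton. -/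
def cascStep [AddCommMonoid V] (δ : A → Q → Q) (c : A → Q → V) (ε : A × (Q × V) → P → P) :
    A → (Q × V) × P → (Q × V) × P :=
  topStep (costStep δ c) ε

/-- Every language recognized by the transition monoid of a cascade aperiodic, commutative group,
aperiodic has generalized star height at most one. -/
theorem heightLE_cascade [Finite A] [Finite Q] [Finite P] [AddCommGroup V] [Finite V]
    {δ : A → Q → Q} (hδ : AperiodicAut δ) (c : A → Q → V) {ε : A × (Q × V) → P → P}
    (hε : AperiodicAut ε) (S : Set (((Q × V) × P) → ((Q × V) × P))) :
    HeightLE 1 {w : List A | (fun x => run (cascStep δ c ε) x w) ∈ S} := by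
  have hf : Finite (((Q × V) × P) → ((Q × V) × P)) := Pi.finite
  refine HeightLE.preimage (g := fun w : List A => fun x => run (cascStep δ c ε) x w) (fun f => ?_) S
  have : {w : List A | (fun x => run (cascStep δ c ε) x w) = f} =
      ⋂ x, {w : List A | run (cascStep δ c ε) x w = f x} := by
    ext w
    simp [funext_iff]
  rw [this]
  refine HeightLE.iInter (fun x => ?_)
  exact good_topStep (costStep δ c) (fun s s' => good_costStep hδ c s s') hε x (f x)

end Cascade

end Vale.Agent.Lib.P329
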