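import Vale.Agent.Lib.P329.ClockPoly

/-!
Certificates for the subsequence counts of length five modulo a prime at least five: a checker whose
correctness is proved once.  A certificate is a list of integer multiples of generators, namely
products of two shorter counts and the flows of clock machines; it is checked by computing the
coefficients of the words of length five with all the letters of the target.
-/

namespace Vale.Agent.Lib.P329

/-- Generators: words over a fixed small alphabet. -/
inductive GenF : Type
  | prod (u v : List (Fin 6)) : GenF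
  | stat (L : List (Fin 6)) (y : Fin 6) (m : ℕ) (fs : List (Fin 6 × ℕ)) : GenF
  | summ (L : List (Fin 6)) (m : ℕ) (fs : List (Fin 6 × ℕ)) : GenF

namespace GenF

/-- The words of a generator. -/
def toL : GenF → List (List (Fin 6))
  | prod u v => infl u v
  | stat L y m fs => (fK L m fs).map (y :: ·)
  | summ L m fs => L.flatMap fun s => (fK L m fs).map (s :: ·)

/-- The side conditions of a generator. -/
def ok : GenF → Bool
  | prod u v => decide (u.length ≤ 4 ∧ v.length ≤ 4)
  | stat L y _ fs => decide (L.Nodup ∧ L ≠ [] ∧ y ∉ L ∧ (∀ f ∈ fs, f.1 ∈ L) ∧ fs.length ≤ 3)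
  | summ L _ fs => decide (L.Nodup ∧ L ≠ [] ∧ (∀ f ∈ fs, f.1 ∈ L) ∧ fs.length ≤ 3)

end GenF

/-- The terms of a certificate. -/
def termsF (c : List (ℤ × GenF)) : List (ℤ × List (Fin 6)) :=
  c.flatMap fun p => p.2.toL.map fun x => (p.1, x)

/-- The words of length five with `k` different letters. -/
def isTopF (k : ℕ) (x : List (Fin 6)) : Bool := x.length == 5 && x.dedup.length == k

/-- The words already treated. -/
def isLowF (k : ℕ) (x : List (Fin 6)) : Bool :=
  decide (x.length ≤ 4) || (x.length == 5 && decide (x.dedup.length < k))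

/-- Adding a term to a table of coefficients. -/
def addF (c : ℤ) (x : List (Fin 6)) : List (List (Fin 6) × ℤ) → List (List (Fin 6) × ℤ)
  | [] => [(x, c)]
  | e :: l => if x = e.1 then (e.1, e.2 + c) :: l else e :: addF c x l

/-- The table of coefficients of the top words. -/
def tabF (k : ℕ) : List (ℤ × List (Fin 6)) → List (List (Fin 6) × ℤ)
  | [] => []
  | t :: T => if isTopF k t.2 then addF t.1 t.2 (tabF k T) else tabF k T

/-- The checker. -/
def checkF (e : List (Fin 6) × ℤ × List (ℤ × GenF)) : Bool :=
  let k := e.1.dedup.length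
  e.2.2.all (fun p => p.2.ok) &&
  (termsF e.2.2).all (fun t => isTopF k t.2 || isLowF k t.2) &&
  decide (((tabF k (termsF e.2.2)).filter fun t => t.2 ≠ 0) = [(e.1, e.2.1)]) &&
  decide (e.2.1 ∣ 24)

section Check

variable {p : ℕ} [Fact p.Prime]

/-- Value of a list of terms. -/
def evT (T : List (ℤ × List (Fin 6))) (w : List (Fin 6)) : ℤ :=
  (T.map fun t => t.1 * ((rc t.2 w : ℕ) : ℤ)).sum

/-- Value of a table. -/
def evA (A : List (List (Fin 6) × ℤ)) (w : List (Fin 6)) : ℤ :=
  (A.map fun t => t.2 * ((rc t.1 w : ℕ) : ℤ)).sum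

theorem evT_map (a : ℤ) (l : List (List (Fin 6))) (w : List (Fin 6)) :
    evT (l.map fun x => (a, x)) w = a * rz l w := by
  induction l with
  | nil => simp [evT, rz]
  | cons x l ih =>
    have h : evT ((x :: l).map fun x => (a, x)) w =
        a * ((rc x w : ℕ) : ℤ) + evT (l.map fun x => (a, x)) w := by
      simp [evT]
    rw [h, ih, rz_cons]
    ring

theorem evT_append (T T' : List (ℤ × List (Fin 6))) (w : List (Fin 6)) :
    evT (T ++ T') w = evT T w + evT T' w := by
  simp [evT]

theorem evT_terms (c : List (ℤ × GenF)) (w : List (Fin 6)) :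
    evT (termsF c) w = (c.map fun q => q.1 * rz q.2.toL w).sum := by
  induction c with
  | nil => simp [termsF, evT]
  | cons q c ih =>
    have h : termsF (q :: c) = (q.2.toL.map fun x => (q.1, x)) ++ termsF c := by
      simp [termsF]
    rw [h, evT_append, evT_map, ih]
    simp

theorem evA_add (c : ℤ) (x : List (Fin 6)) (A : List (List (Fin 6) × ℤ)) (w : List (Fin 6)) :
    evA (addF c x A) w = c * ((rc x w : ℕ) : ℤ) + evA A w := by
  induction A with
  | nil => simp [addF, evA]
  | cons e l ih =>
    by_cases h : x = e.1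
    · subst h
      simp only [addF, if_true, evA, List.map_cons, List.sum_cons]
      ring
    · simp only [addF, h, if_false]
      have e1 : evA (e :: addF c x l) w = e.2 * ((rc e.1 w : ℕ) : ℤ) + evA (addF c x l) w := by
        simp [evA]
      have e2 : evA (e :: l) w = e.2 * ((rc e.1 w : ℕ) : ℤ) + evA l w := by
        simp [evA]
      rw [e1, e2, ih]
      ring

theorem evA_filter (A : List (List (Fin 6) × ℤ)) (w : List (Fin 6)) :
    evA (A.filter fun t => t.2 ≠ 0) w = evA A w := by
  induction A with
  | nil => rfl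
  | cons e l ih =>
    by_cases h : e.2 = 0
    · have e2 : evA (e :: l) w = e.2 * ((rc e.1 w : ℕ) : ℤ) + evA l w := by
        simp [evA]
      rw [e2, h, zero_mul, zero_add, ← ih, List.filter_cons_of_neg (by simpa using h)]
    · rw [List.filter_cons_of_pos (by simpa using h)]
      have e1 : evA (e :: l.filter fun t => t.2 ≠ 0) w =
          e.2 * ((rc e.1 w : ℕ) : ℤ) + evA (l.filter fun t => t.2 ≠ 0) w := by
        simp [evA]
      have e2 : evA (e :: l) w = e.2 * ((rc e.1 w : ℕ) : ℤ) + evA l w := by
        simp [evA]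
      rw [e1, e2, ih]

theorem evT_split (k : ℕ) (T : List (ℤ × List (Fin 6))) (w : List (Fin 6)) :
    evT T w = evA (tabF k T) w + evT (T.filter fun t => ! isTopF k t.2) w := by
  induction T with
  | nil => simp [evT, evA, tabF]
  | cons t T ih =>
    have e1 : evT (t :: T) w = t.1 * ((rc t.2 w : ℕ) : ℤ) + evT T w := by
      simp [evT]
    by_cases h : isTopF k t.2 = true
    · have e2 : (t :: T).filter (fun t => ! isTopF k t.2) = T.filter fun t => ! isTopF k t.2 := by
        simp [h]
      rw [e1, e2, ih]
      simp only [tabF, h, if_true]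
      rw [evA_add]
      ring
    · have e2 : (t :: T).filter (fun t => ! isTopF k t.2) = t :: T.filter fun t => ! isTopF k t.2 := by
        simp [h]
      have e3 : evT (t :: T.filter fun t => ! isTopF k t.2) w =
          t.1 * ((rc t.2 w : ℕ) : ℤ) + evT (T.filter fun t => ! isTopF k t.2) w := by
        simp [evT]
      have e4 : tabF k (t :: T) = tabF k T := by
        simp [tabF, h]
      rw [e1, e2, e3, e4, ih]
      ring

variable (hp5 : 5 ≤ p)

include hp5

theorem gi_word_le_four (x : List (Fin 6)) (hx : x.length ≤ 4) :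
    Gi p (fun w => ((rc x w : ℕ) : ℤ)) := by
  refine gi_rc_le_four (fun h => ?_) x hx
  omega

theorem gi_gen (g : GenF) (hg : g.ok = true) : Gi p (fun w => rz g.toL w) := by
  cases g with
  | prod u v =>
    have h : u.length ≤ 4 ∧ v.length ≤ 4 := by simpa [GenF.ok] using hg
    refine good_congr (((gi_word_le_four hp5 u h.1).mul (gi_word_le_four hp5 v h.2))) (fun w => ?_)
    simp only [GenF.toL, rz]
    rw [← rc_mul]
    push_cast
    rfl
  | stat L y m fs =>
    have h : L.Nodup ∧ L ≠ [] ∧ y ∉ L ∧ (∀ f ∈ fs, f.1 ∈ L) ∧ fs.length ≤ 3 := by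
      simpa [GenF.ok] using hg
    exact gi_statK hp5 L h.1 h.2.1 y h.2.2.1 m fs h.2.2.2.1 h.2.2.2.2
  | summ L m fs =>
    have h : L.Nodup ∧ L ≠ [] ∧ (∀ f ∈ fs, f.1 ∈ L) ∧ fs.length ≤ 3 := by
      simpa [GenF.ok] using hg
    exact gi_summK hp5 L h.1 h.2.1 m fs h.2.2.1 h.2.2.2

theorem gi_certSum (c : List (ℤ × GenF)) (hc : c.all (fun q => q.2.ok) = true) :
    Gi p (fun w => (c.map fun q => q.1 * rz q.2.toL w).sum) := by
  induction c with
  | nil => exact good_congr (Good.const (0 : ZMod p)) (fun w => by simp)
  | cons q c ih =>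
    have hq : q.2.ok = true := by
      simp only [List.all_cons, Bool.and_eq_true] at hc
      exact hc.1
    have hc' : c.all (fun q => q.2.ok) = true := by
      simp only [List.all_cons, Bool.and_eq_true] at hc
      exact hc.2
    refine good_congr ((Gi.smul q.1 (gi_gen hp5 q.2 hq)).add (ih hc')) (fun w => ?_)
    simp

theorem gi_lowSum (k : ℕ)
    (hlow : ∀ x : List (Fin 6), x.length = 5 → x.dedup.length < k →
      Gi p (fun w => ((rc x w : ℕ) : ℤ)))
    (T : List (ℤ × List (Fin 6))) (hT : ∀ t ∈ T, isLowF k t.2 = true) :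
    Gi p (fun w => evT T w) := by
  induction T with
  | nil => exact good_congr (Good.const (0 : ZMod p)) (fun w => by simp [evT])
  | cons t T ih =>
    have ht := hT t (by simp)
    have hg : Gi p (fun w => ((rc t.2 w : ℕ) : ℤ)) := by
      simp only [isLowF, Bool.or_eq_true, decide_eq_true_eq, Bool.and_eq_true, beq_iff_eq] at ht
      rcases ht with h | h
      · exact gi_word_le_four hp5 _ h
      · exact hlow _ h.1 h.2
    refine good_congr ((Gi.smul t.1 hg).add (ih (fun s hs => hT s (by simp [hs])))) (fun w => ?_)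
    simp [evT]

/-- **Correctness of the checker.** -/
theorem gi_of_checkF (e : List (Fin 6) × ℤ × List (ℤ × GenF)) (he : checkF e = true)
    (hlow : ∀ x : List (Fin 6), x.length = 5 → x.dedup.length < e.1.dedup.length →
      Gi p (fun w => ((rc x w : ℕ) : ℤ))) :
    Gi p (fun w => ((rc e.1 w : ℕ) : ℤ)) := by
  obtain ⟨v, D, c⟩ := e
  simp only [checkF, Bool.and_eq_true, decide_eq_true_eq] at he
  obtain ⟨⟨⟨h1, h2⟩, h3⟩, h4⟩ := he
  simp only at h1 h2 h3 h4 hlow ⊢
  set k := v.dedup.length with hk
  have hA := gi_certSum hp5 c h1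
  have hL := gi_lowSum hp5 k hlow ((termsF c).filter fun t => ! isTopF k t.2) (by
    intro t ht
    rw [List.mem_filter] at ht
    have h := (List.all_eq_true.1 h2) t ht.1
    simp only [Bool.or_eq_true] at h
    rcases h with h | h
    · simp [h] at ht
    · exact h)
  have hD : Gi p (fun w => D * ((rc v w : ℕ) : ℤ)) := by
    refine Gi.congr (Gi.add hA (Gi.smul (-1) hL)) (fun w => ?_)
    have e1 := evT_split k (termsF c) w
    rw [evT_terms] at e1
    have e2 := evA_filter (tabF k (termsF c)) w
    rw [h3] at e2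
    have e3 : evA [(v, D)] w = D * ((rc v w : ℕ) : ℤ) := by
      simp [evA]
    rw [e3] at e2
    rw [e1, ← e2]
    ring
  refine Gi.of_mul ?_ hD
  have hp : p.Prime := Fact.out
  have h24 : IsCoprime (24 : ℤ) (p : ℤ) := by
    have : Nat.Coprime 24 p := by
      have h2 : Nat.Coprime 2 p := (Nat.coprime_primes Nat.prime_two hp).2 (by omega)
      have h3 : Nat.Coprime 3 p := (Nat.coprime_primes Nat.prime_three hp).2 (by omega)
      have e24 : 24 = 2 ^ 3 * 3 := by norm_num
      rw [e24]
      exact Nat.Coprime.mul_left (Nat.Coprime.pow_left 3 h2) h3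
    exact_mod_cast Nat.isCoprime_iff_coprime.2 this
  exact IsCoprime.of_isCoprime_of_dvd_left h24 h4

end Check

end Vale.Agent.Lib.P329
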