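import Vale.Agent.Lib.P329.Good

/-!
Level machines: the odometer on `Fin (N * n)`.  Letters of `X` act as `+1`, letters of `B` act as
`+N` on multiples of `N` and trivially elsewhere.
-/

namespace Vale.Agent.Lib.P329

variable {A : Type} (X B : A → Prop) [DecidablePred X] [DecidablePred B]

/-- Number of letters of the word in `X`. -/
def cntL : List A → ℕ
  | [] => 0
  | a :: w => (if X a then 1 else 0) + cntL w

/-- Sum over the letters of the word in `B` of `g (level)`, the level being the start value `k`
plus the number of preceding letters in `X`. -/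
def lvlSum {R : Type} [AddCommMonoid R] (g : ℕ → R) : ℕ → List A → R
  | _, [] => 0
  | k, a :: w => (if B a then g k else 0) + lvlSum g (if X a then k + 1 else k) w

@[simp] theorem cntL_nil : cntL X ([] : List A) = 0 := rfl
@[simp] theorem cntL_cons (a : A) (w : List A) :
    cntL X (a :: w) = (if X a then 1 else 0) + cntL X w := rfl

theorem cntL_append (u v : List A) : cntL X (u ++ v) = cntL X u + cntL X v := by
  induction u with
  | nil => simp
  | cons a u ih => simp [ih, add_assoc]

section lvl
variable {R : Type} [AddCommMonoid R] (g : ℕ → R)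

theorem lvlSum_append (k : ℕ) (u v : List A) :
    lvlSum X B g k (u ++ v) = lvlSum X B g k u + lvlSum X B g (k + cntL X u) v := by
  induction u generalizing k with
  | nil => simp [lvlSum]
  | cons a u ih =>
    simp only [List.cons_append, lvlSum, cntL_cons, ih, add_assoc]
    by_cases h : X a
    · simp [h, add_comm 1, add_assoc]
    · simp [h]

theorem lvlSum_snoc (k : ℕ) (w : List A) (a : A) :
    lvlSum X B g k (w ++ [a]) = lvlSum X B g k w + (if B a then g (k + cntL X w) else 0) := by
  rw [lvlSum_append]
  simp [lvlSum]

theorem lvlSum_shift (t k : ℕ) (w : List A) :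
    lvlSum X B g (k + t) w = lvlSum X B (fun i => g (i + t)) k w := by
  induction w generalizing k with
  | nil => rfl
  | cons a w ih =>
    simp only [lvlSum]
    by_cases h : X a
    · simp only [h, if_true]
      rw [← ih, show k + t + 1 = k + 1 + t by omega]
    · simp only [h, if_false]
      rw [ih]

theorem lvlSum_periodic {N : ℕ} (hg : ∀ i, g (i + N) = g i) (k : ℕ) (w : List A) :
    lvlSum X B g (k + N) w = lvlSum X B g k w := by
  rw [lvlSum_shift]
  congr 1
  funext i
  exact hg i

end lvl

variable (N n : ℕ)

/-- The transition function of the level machine on `Fin (N * n)`. -/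
def lvlStep (hM : 0 < N * n) (a : A) (z : Fin (N * n)) : Fin (N * n) :=
  if X a then ⟨(z.1 + 1) % (N * n), Nat.mod_lt _ hM⟩
  else if B a ∧ z.1 % N = 0 then ⟨(z.1 + N) % (N * n), Nat.mod_lt _ hM⟩
  else z

variable {N n}

theorem lvlStep_isHub (hM : 0 < N * n) :
    IsHub (lvlStep X B N n hM) (⟨0, hM⟩ : Fin (N * n)) := by
  refine isHub_of_rank (fun z => z.1) (fun x y h => Fin.ext h) ?_
  intro a x hx hax
  have hN : 0 < N := Nat.pos_of_mul_pos_right hM
  unfold lvlStep at hax ⊢
  by_cases hX : X a
  · simp only [hX, if_true] at hax ⊢
    have hlt : x.1 + 1 < N * n := by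
      by_contra hcon
      have : x.1 + 1 = N * n := by have := x.2; omega
      apply hax
      apply Fin.ext
      simp [this]
    rw [Nat.mod_eq_of_lt hlt]
    omega
  · simp only [hX, if_false] at hax ⊢
    by_cases hG : B a ∧ x.1 % N = 0
    · simp only [hG, and_self, if_true] at hax ⊢
      obtain ⟨q, hq⟩ : N ∣ x.1 := Nat.dvd_of_mod_eq_zero hG.2
      have hqn : q < n := by
        have : N * q < N * n := by rw [← hq]; exact x.2
        exact lt_of_mul_lt_mul_left this (Nat.zero_le _)
      have hle : x.1 + N ≤ N * n := by
        rw [hq]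
        calc N * q + N = N * (q + 1) := by ring
          _ ≤ N * n := Nat.mul_le_mul_left _ hqn
      have hlt : x.1 + N < N * n := by
        rcases Nat.lt_or_ge (x.1 + N) (N * n) with h | h
        · exact h
        · exfalso
          have : x.1 + N = N * n := le_antisymm hle h
          apply hax
          apply Fin.ext
          simp [this]
      rw [Nat.mod_eq_of_lt hlt]
      omega
    · simp only [hG, if_false]
      exact le_rfl

/-- The invariant of the level machine. -/
theorem lvlStep_run (hd : ∀ a, X a → ¬ B a) (hN : 0 < N) (hM : 0 < N * n) (w : List A) :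
    ∀ (z : Fin (N * n)) (t : ℕ), t % (N * n) = z.1 →
    (run (lvlStep X B N n hM) z w).1 =
      (t + cntL X w + N * lvlSum X B (fun i => if i % N = 0 then 1 else 0) t w) % (N * n) := by
  induction w with
  | nil =>
    intro z t ht
    simp [lvlSum, ht]
  | cons a w ih =>
    intro z t ht
    rw [run_cons]
    by_cases hX : X a
    · have hB := hd a hX
      have hs : lvlStep X B N n hM a z = ⟨(z.1 + 1) % (N * n), Nat.mod_lt _ hM⟩ := by
        simp [lvlStep, hX]
      rw [hs, ih _ (t + 1) (by rw [← ht]; simp [Nat.add_mod])]
      simp only [cntL_cons, lvlSum, hX, hB, if_true, if_false, zero_add]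
      congr 1
      omega
    · by_cases hG : B a ∧ z.1 % N = 0
      · have hs : lvlStep X B N n hM a z = ⟨(z.1 + N) % (N * n), Nat.mod_lt _ hM⟩ := by
          simp [lvlStep, hX, hG]
        have ht' : t % N = 0 := by
          have : (t % (N * n)) % N = t % N := Nat.mod_mul_right_mod _ _ _
          rw [← this, ht]; exact hG.2
        rw [hs, ih _ (t + N) (by rw [← ht]; simp [Nat.add_mod])]
        simp only [cntL_cons, lvlSum, hX, hG.1, if_true, if_false, zero_add, ht']
        rw [lvlSum_periodic X B _ (fun i => by simp) t w]
        congr 1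
        ring
      · have hs : lvlStep X B N n hM a z = z := by
          simp [lvlStep, hX, hG]
        rw [hs, ih z t ht]
        have hguard : (if B a then (if t % N = 0 then 1 else 0) else 0) = 0 := by
          by_cases hBa : B a
          · have : ¬ z.1 % N = 0 := fun h => hG ⟨hBa, h⟩
            have ht' : t % N ≠ 0 := by
              have h2 : (t % (N * n)) % N = t % N := Nat.mod_mul_right_mod _ _ _
              rw [← h2, ht]; exact this
            simp [hBa, ht']
          · simp [hBa]
        simp only [cntL_cons, lvlSum, hX, if_false, hguard, zero_add]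

/-- The residue of the number of letters in `X` is good. -/
theorem good_cntL [Finite A] {M : ℕ} (hM : 0 < M) : Good (fun w : List A => cntL X w % M) := by
  classical
  have hM' : 0 < M * 1 := by simpa using hM
  have hrun := fun w : List A => lvlStep_run (N := M) (n := 1) X (fun _ => False) (by simp) hM hM' w
    ⟨0, hM'⟩ 0 (by simp)
  have hlvl : ∀ (k : ℕ) (w : List A),
      lvlSum X (fun _ => False) (fun i => if i % M = 0 then 1 else 0) k w = 0 := by
    intro k w
    induction w generalizing k with
    | nil => rfl
    | cons a w ih => simp [lvlSum, ih]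
  have hgood : Good (fun w : List A => run (lvlStep X (fun _ => False) M 1 hM') ⟨0, hM'⟩ w) :=
    fun b => hub_path (lvlStep_isHub X (fun _ => False) hM') _ b
  refine hgood.of_factor (fun w w' e => ?_)
  have h1 := hrun w
  have h2 := hrun w'
  rw [e] at h1
  rw [h1] at h2
  simp only [hlvl, zero_add, mul_zero, add_zero, mul_one] at h2
  exact h2

/-- The number of letters in `B` at level `k` modulo `N`. -/
def lvlCount (N k : ℕ) (w : List A) : ℕ :=
  lvlSum X B (fun i => if i % N = k then 1 else 0) 0 w

/-- The key theorem on level machines: counting the letters of `B` at a prescribed level modulo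
`N`, the level being the number of preceding letters in `X`, is good modulo `n`. -/
theorem good_lvlCount [Finite A] (hd : ∀ a, X a → ¬ B a) (hN : 0 < N) (hn : 0 < n) {k : ℕ}
    (hk : k < N) : Good (fun w : List A => lvlCount X B N k w % n) := by
  classical
  have hM : 0 < N * n := Nat.mul_pos hN hn
  -- the start value
  let t₀ : ℕ := N - k
  have ht₀ : ∀ i, (i + t₀) % N = 0 ↔ i % N = k := by
    intro i
    have hk' : k ≤ N := hk.le
    constructor
    · intro h
      have h1 : (i + (N - k) + k) % N = k % N := by
        rw [Nat.add_mod, h]; simp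
      have h2 : i + (N - k) + k = i + N := by omega
      rw [h2, Nat.add_mod_right, Nat.mod_eq_of_lt hk] at h1
      exact h1
    · intro h
      have h1 : i + (N - k) ≡ k + (N - k) [MOD N] := by
        apply Nat.ModEq.add_right
        change i % N = k % N
        rw [h, Nat.mod_eq_of_lt hk]
      have h2 : k + (N - k) = N := by omega
      rw [h2] at h1
      change (i + (N - k)) % N = N % N at h1
      simpa using h1
  have hlv : ∀ w : List A, lvlCount X B N k w =
      lvlSum X B (fun i => if i % N = 0 then 1 else 0) t₀ w := by
    intro w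
    have := lvlSum_shift X B (fun i => if i % N = 0 then 1 else 0) t₀ 0 w
    rw [zero_add] at this
    rw [this, lvlCount]
    congr 1
    funext i
    simp only [ht₀ i]
  let z₀ : Fin (N * n) := ⟨t₀ % (N * n), Nat.mod_lt _ hM⟩
  have hrun := fun w : List A => lvlStep_run X B hd hN hM w z₀ t₀ rfl
  have hgood : Good (fun w : List A => run (lvlStep X B N n hM) z₀ w) :=
    fun b => hub_path (lvlStep_isHub X B hM) _ b
  have hgoodC : Good (fun w : List A => (⟨cntL X w % (N * n), Nat.mod_lt _ hM⟩ : Fin (N * n))) := by
    intro b
    have : {w : List A | (⟨cntL X w % (N * n), Nat.mod_lt _ hM⟩ : Fin (N * n)) = b} =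
        {w : List A | cntL X w % (N * n) = b.1} := by
      ext w
      exact Fin.ext_iff
    rw [this]
    exact good_cntL X hM _
  have hgood2 := hgood.pair hgoodC
  refine Good.of_factor hgood2 (fun w w' e => ?_)
  have e1 : run (lvlStep X B N n hM) z₀ w = run (lvlStep X B N n hM) z₀ w' := congrArg Prod.fst e
  have e2 : cntL X w % (N * n) = cntL X w' % (N * n) := by
    have := congrArg (fun p => (p.2 : Fin (N * n)).1) e
    exact this
  have h1 := hrun w
  have h2 := hrun w'
  rw [e1] at h1
  rw [h1] at h2
  -- `h2` is a congruence modulo `N * n`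
  rw [← hlv, ← hlv] at h2
  have h3 : (t₀ + cntL X w) ≡ (t₀ + cntL X w') [MOD N * n] := Nat.ModEq.add_left _ e2
  have h4 : N * lvlCount X B N k w ≡ N * lvlCount X B N k w' [MOD N * n] :=
    Nat.ModEq.add_left_cancel h3 h2.symm.symm
  exact Nat.ModEq.mul_left_cancel' (Nat.pos_iff_ne_zero.1 hN) h4

section Sum

/-- Periodic level sums decompose into level counts. -/
theorem lvlSum_eq_sum {R : Type} [Semiring R] {N : ℕ} (hN : 0 < N) (g : ℕ → R)
    (hg : ∀ i, g (i + N) = g i) (k : ℕ) (w : List A) :
    lvlSum X B g k w = ∑ j ∈ Finset.range N,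
      g j * ((lvlSum X B (fun i => if i % N = j then 1 else 0) k w : ℕ) : R) := by
  have hmod : ∀ i, g i = g (i % N) := by
    intro i
    have key : ∀ m r, g (r + N * m) = g r := by
      intro m r
      induction m with
      | zero => simp
      | succ m ih =>
        rw [Nat.mul_succ, ← add_assoc, hg, ih]
    conv_lhs => rw [← Nat.mod_add_div i N]
    exact key _ _
  induction w generalizing k with
  | nil => simp [lvlSum]
  | cons a w ih =>
    simp only [lvlSum]
    rw [ih]
    by_cases hB : B a
    · simp only [hB, if_true, Nat.cast_add, mul_add, Finset.sum_add_distrib]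
      congr 1
      have hkm : k % N ∈ Finset.range N := Finset.mem_range.2 (Nat.mod_lt _ hN)
      rw [Finset.sum_eq_single (k % N)]
      · simp [hmod k]
      · intro b _ hb
        have : ¬ k % N = b := fun h => hb h.symm
        simp [this]
      · intro h; exact absurd hkm h
    · simp only [hB, if_false, zero_add]

/-- **Level theorem**: for disjoint letter sets `X`, `B`, any periodic function `g` of the level
gives a good level sum. -/
theorem good_lvlSum [Finite A] (hd : ∀ a, X a → ¬ B a) {n : ℕ} [NeZero n] {N : ℕ} (hN : 0 < N)
    (g : ℕ → ZMod n) (hg : ∀ i, g (i + N) = g i) : Good (fun w : List A => lvlSum X B g 0 w) := by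
  have hn : 0 < n := Nat.pos_of_ne_zero (NeZero.ne n)
  have : (fun w : List A => lvlSum X B g 0 w) = fun w => ∑ j ∈ Finset.range N,
      g j * ((lvlCount X B N j w % n : ℕ) : ZMod n) := by
    funext w
    rw [lvlSum_eq_sum X B hN g hg]
    refine Finset.sum_congr rfl (fun j _ => ?_)
    rw [ZMod.natCast_mod]
    rfl
  rw [this]
  refine Good.finset_sum _ (fun j hj => ?_)
  have hj' : j < N := Finset.mem_range.1 hj
  have h1 := good_lvlCount X B hd hN hn hj'
  have hfin : Good (fun w : List A => (⟨lvlCount X B N j w % n, Nat.mod_lt _ hn⟩ : Fin n)) := by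
    intro b
    have : {w : List A | (⟨lvlCount X B N j w % n, Nat.mod_lt _ hn⟩ : Fin n) = b} =
        {w : List A | lvlCount X B N j w % n = b.1} := by
      ext w
      exact Fin.ext_iff
    rw [this]
    exact h1 _
  exact hfin.comp (fun b => g j * ((b.1 : ℕ) : ZMod n))

/-- A periodic function of the number of letters in `X` is good. -/
theorem good_fun_cntL [Finite A] {β : Type} {N : ℕ} (hN : 0 < N)
    (g : ℕ → β) (hg : ∀ i, g (i + N) = g i) : Good (fun w : List A => g (cntL X w)) := by
  have hmod : ∀ i, g i = g (i % N) := by
    intro i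
    have key : ∀ m r, g (r + N * m) = g r := by
      intro m r
      induction m with
      | zero => simp
      | succ m ih =>
        rw [Nat.mul_succ, ← add_assoc, hg, ih]
    conv_lhs => rw [← Nat.mod_add_div i N]
    exact key _ _
  have hfin : Good (fun w : List A => (⟨cntL X w % N, Nat.mod_lt _ hN⟩ : Fin N)) := by
    intro b
    have : {w : List A | (⟨cntL X w % N, Nat.mod_lt _ hN⟩ : Fin N) = b} =
        {w : List A | cntL X w % N = b.1} := by
      ext w
      exact Fin.ext_iff
    rw [this]
    exact good_cntL X hN _
  have := hfin.comp (fun b => g b.1)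
  simpa [← hmod] using this

end Sum

end Vale.Agent.Lib.P329
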