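import Vale.Agent.Lib.P329.Vis
import Vale.Agent.Lib.P329.Level

/-!
Flows: for a letter `x` and a function `P` of the count vector, the sum of `P` over the positions
of `x` in a word.  All flows of polynomials of degree at most three have good residues.
-/

namespace Vale.Agent.Lib.P329

section Flow

variable {A : Type} [DecidableEq A]

/-- Add one letter to a count vector. -/
def bump (k : A → ℕ) (a : A) : A → ℕ := fun y => k y + if y = a then 1 else 0

/-- The count vector after reading a word. -/
def kvOf (k : A → ℕ) : List A → (A → ℕ)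
  | [] => k
  | a :: w => kvOf (bump k a) w

/-- The count vector of a word. -/
def kv (w : List A) : A → ℕ := kvOf (fun _ => 0) w

theorem kvOf_snoc (k : A → ℕ) (w : List A) (a : A) : kvOf k (w ++ [a]) = bump (kvOf k w) a := by
  induction w generalizing k with
  | nil => rfl
  | cons b w ih => exact ih _

theorem kv_snoc (w : List A) (a : A) : kv (w ++ [a]) = bump (kv w) a := kvOf_snoc _ _ _

theorem kv_apply (w : List A) (y : A) : kv w y = w.count y := by
  induction w using List.reverseRecOn with
  | nil => rfl
  | append_singleton w a ih =>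
    rw [kv_snoc, List.count_append, List.count_singleton, bump, ih]
    by_cases h : y = a
    · subst h; simp
    · have : a ≠ y := fun e => h e.symm
      simp [h, this]

/-- Sum of `P` over the positions of `x`, with start vector `k`. -/
def flowFrom (x : A) (P : (A → ℕ) → ℤ) : (A → ℕ) → List A → ℤ
  | _, [] => 0
  | k, a :: w => (if a = x then P k else 0) + flowFrom x P (bump k a) w

/-- The flow of `P` through the letter `x`. -/
def flow (x : A) (P : (A → ℕ) → ℤ) (w : List A) : ℤ := flowFrom x P (fun _ => 0) w

theorem flowFrom_snoc (x : A) (P : (A → ℕ) → ℤ) (k : A → ℕ) (w : List A) (a : A) :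
    flowFrom x P k (w ++ [a]) = flowFrom x P k w + if a = x then P (kvOf k w) else 0 := by
  induction w generalizing k with
  | nil => simp [flowFrom, kvOf]
  | cons b w ih =>
    simp only [List.cons_append, flowFrom, ih, kvOf, add_assoc]

theorem flow_snoc (x : A) (P : (A → ℕ) → ℤ) (w : List A) (a : A) :
    flow x P (w ++ [a]) = flow x P w + if a = x then P (kv w) else 0 := flowFrom_snoc _ _ _ _ _

theorem flowFrom_add (x : A) (P Q : (A → ℕ) → ℤ) (k : A → ℕ) (w : List A) :
    flowFrom x (fun k => P k + Q k) k w = flowFrom x P k w + flowFrom x Q k w := by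
  induction w generalizing k with
  | nil => simp [flowFrom]
  | cons a w ih =>
    simp only [flowFrom, ih]
    by_cases h : a = x
    · simp only [h, if_true]; ring
    · simp only [h, if_false]; ring

theorem flowFrom_mul (x : A) (c : ℤ) (P : (A → ℕ) → ℤ) (k : A → ℕ) (w : List A) :
    flowFrom x (fun k => c * P k) k w = c * flowFrom x P k w := by
  induction w generalizing k with
  | nil => simp [flowFrom]
  | cons a w ih =>
    simp only [flowFrom, ih]
    by_cases h : a = x
    · simp only [h, if_true]; ring
    · simp only [h, if_false]; ring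

theorem flow_add (x : A) (P Q : (A → ℕ) → ℤ) (w : List A) :
    flow x (fun k => P k + Q k) w = flow x P w + flow x Q w := flowFrom_add _ _ _ _ _

theorem flow_mul (x : A) (c : ℤ) (P : (A → ℕ) → ℤ) (w : List A) :
    flow x (fun k => c * P k) w = c * flow x P w := flowFrom_mul _ _ _ _ _

theorem flow_sub (x : A) (P Q : (A → ℕ) → ℤ) (w : List A) :
    flow x (fun k => P k - Q k) w = flow x P w - flow x Q w := by
  have h1 : (fun k => P k - Q k) = fun k => P k + (-1) * Q k := by
    funext k; ring
  rw [h1, flow_add, flow_mul]
  ring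

/-- All residues of an integer valued function are good. -/
def GoodZ {A : Type} (f : List A → ℤ) : Prop :=
  ∀ (m : ℕ) [NeZero m], Good (fun w => ((f w : ℤ) : ZMod m))

namespace GoodZ

variable {B : Type} {f g : List B → ℤ}

theorem const (c : ℤ) : GoodZ (fun _ : List B => c) := fun _ _ => Good.const _

theorem add (hf : GoodZ f) (hg : GoodZ g) : GoodZ (fun w => f w + g w) := by
  intro m _
  simpa using (hf m).add (hg m)

theorem sub (hf : GoodZ f) (hg : GoodZ g) : GoodZ (fun w => f w - g w) := by
  intro m _
  simpa using (hf m).sub (hg m)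

theorem mul (hf : GoodZ f) (hg : GoodZ g) : GoodZ (fun w => f w * g w) := by
  intro m _
  simpa using (hf m).mul (hg m)

theorem finset_sum {ι : Type} (s : Finset ι) {F : ι → List B → ℤ} (h : ∀ i ∈ s, GoodZ (F i)) :
    GoodZ (fun w => ∑ i ∈ s, F i w) := by
  intro m _
  simpa using Good.finset_sum s (fun i hi => h i hi m)

theorem congr (hf : GoodZ f) (h : ∀ w, f w = g w) : GoodZ g := by
  have : f = g := funext h
  rwa [← this]

/-- Division by a nonzero constant. -/
theorem of_mul {c : ℤ} (hc : c ≠ 0) (h : GoodZ (fun w => c * f w)) : GoodZ f := by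
  intro m _
  have hm : NeZero (c.natAbs * m) :=
    ⟨Nat.mul_ne_zero (Int.natAbs_ne_zero.2 hc) (NeZero.ne m)⟩
  refine Good.of_factor (h (c.natAbs * m)) (fun w w' e => ?_)
  rw [ZMod.intCast_eq_intCast_iff_dvd_sub] at e ⊢
  have h1 : (c.natAbs * m) ∣ (c * f w' - c * f w).natAbs := Int.natCast_dvd.1 e
  have h2 : (c * f w' - c * f w) = c * (f w' - f w) := by ring
  rw [h2, Int.natAbs_mul] at h1
  have h3 : m ∣ (f w' - f w).natAbs :=
    Nat.dvd_of_mul_dvd_mul_left (Int.natAbs_pos.2 hc) h1
  exact Int.natCast_dvd.2 h3

end GoodZ

theorem cntL_eq_count (y : A) (w : List A) : cntL (· = y) w = w.count y := by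
  induction w with
  | nil => rfl
  | cons a w ih =>
    rw [cntL_cons, ih, List.count_cons]
    by_cases h : a = y
    · subst h; simp; ring
    · have : (a == y) = false := by simpa using h
      simp [h, this]

theorem goodZ_count [Finite A] (y : A) : GoodZ (fun w : List A => (w.count y : ℤ)) := by
  intro m _
  have hm : 0 < m := Nat.pos_of_ne_zero (NeZero.ne m)
  intro b
  have hg := good_cntL (fun a : A => a = y) hm (b.val)
  have e : {w : List A | ((w.count y : ℤ) : ZMod m) = b} =
      {w : List A | cntL (fun a : A => a = y) w % m = b.val} := by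
    ext w
    simp only [Set.mem_setOf_eq, cntL_eq_count, Int.cast_natCast]
    constructor
    · rintro rfl
      rw [ZMod.val_natCast]
    · intro h
      rw [← ZMod.natCast_zmod_val b, ← h, ZMod.natCast_mod]
  rw [e]
  exact hg

/-- The coordinate function of a letter. -/
def K (y : A) (k : A → ℕ) : ℤ := (k y : ℤ)

@[simp] theorem K_bump (y a : A) (k : A → ℕ) : K y (bump k a) = K y k + if y = a then 1 else 0 := by
  simp only [K, bump]
  push_cast
  rfl

theorem goodZ_K [Finite A] (y : A) : GoodZ (fun w : List A => K y (kv w)) := by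
  refine (goodZ_count y).congr (fun w => ?_)
  simp [K, kv_apply]

/-- The flow of `P` through `x` has good residues. -/
def GF (x : A) (P : (A → ℕ) → ℤ) : Prop := GoodZ (flow x P)

namespace GF

variable {x : A} {P Q : (A → ℕ) → ℤ}

theorem congr (h : GF x P) (e : ∀ k, P k = Q k) : GF x Q := by
  have : P = Q := funext e
  rwa [← this]

theorem add (hP : GF x P) (hQ : GF x Q) : GF x (fun k => P k + Q k) :=
  (GoodZ.add hP hQ).congr (fun w => (flow_add x P Q w).symm)

theorem sub (hP : GF x P) (hQ : GF x Q) : GF x (fun k => P k - Q k) :=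
  (GoodZ.sub hP hQ).congr (fun w => (flow_sub x P Q w).symm)

theorem mul (c : ℤ) (hP : GF x P) : GF x (fun k => c * P k) :=
  (GoodZ.mul (GoodZ.const c) hP).congr (fun w => (flow_mul x c P w).symm)

theorem of_mul {c : ℤ} (hc : c ≠ 0) (h : GF x (fun k => c * P k)) : GF x P :=
  GoodZ.of_mul hc (GoodZ.congr h (fun w => flow_mul x c P w))

end GF

theorem flow_one_eq (x : A) (w : List A) : flow x (fun _ => 1) w = (w.count x : ℤ) := by
  induction w using List.reverseRecOn with
  | nil => rfl
  | append_singleton w a ih =>
    rw [flow_snoc, ih, List.count_append, List.count_singleton]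
    by_cases h : a = x
    · subst h; simp
    · simp [h]

theorem gf_one [Finite A] (x : A) : GF x (fun _ => 1) :=
  (goodZ_count x).congr (fun w => (flow_one_eq x w).symm)

section Stokes

variable [Fintype A]

/-- Discrete Stokes formula. -/
theorem stokes (Φ : (A → ℕ) → ℤ) (w : List A) :
    Φ (kv w) - Φ (fun _ => 0) = ∑ a, flow a (fun k => Φ (bump k a) - Φ k) w := by
  induction w using List.reverseRecOn with
  | nil =>
    exact (sub_self _).trans (Finset.sum_eq_zero (fun a _ => rfl)).symm
  | append_singleton w a ih =>
    rw [kv_snoc]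
    simp only [flow_snoc, Finset.sum_add_distrib, ← ih, Finset.sum_ite_eq, Finset.mem_univ, if_true]
    ring

/-- A flow through `x` of an exact form is good when the other flows of the form are. -/
theorem gf_of_stokes (x : A) (Φ : (A → ℕ) → ℤ) (hΦ : GoodZ (fun w : List A => Φ (kv w)))
    (h : ∀ a, a ≠ x → GF a (fun k => Φ (bump k a) - Φ k)) :
    GF x (fun k => Φ (bump k x) - Φ k) := by
  have h1 : GoodZ (fun w : List A => Φ (kv w) - Φ (fun _ => 0)) := hΦ.sub (GoodZ.const _)
  have h2 : GoodZ (fun w : List A => ∑ a ∈ Finset.univ.erase x,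
      flow a (fun k => Φ (bump k a) - Φ k) w) :=
    GoodZ.finset_sum _ (fun a ha => h a (Finset.ne_of_mem_erase ha))
  refine (h1.sub h2).congr (fun w => ?_)
  rw [stokes, ← Finset.add_sum_erase _ _ (Finset.mem_univ x)]
  ring

end Stokes

section Walk

open Classical

variable [Fintype A] (stp : A → ℤ)

/-- The position of the walk for the count vector `k`. -/
def zOf (k : A → ℕ) : ℤ := ∑ y, stp y * (k y : ℤ)

theorem zOf_bump (k : A → ℕ) (a : A) : zOf stp (bump k a) = zOf stp k + stp a := by
  unfold zOf bump
  push_cast
  simp only [mul_add, Finset.sum_add_distrib]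
  congr 1
  simp

theorem vs_pow_eq (B : A → Prop) (m : ℕ) (j : ℕ) (k : A → ℕ) (w : List A) :
    vs stp B (fun r : ZMod m => r ^ j) ((zOf stp k : ℤ) : ZMod m) w =
      ((∑ a, if visArr stp B a then
        flowFrom a (fun k' => (zOf stp k' + stp a) ^ j) k w else 0 : ℤ) : ZMod m) := by
  induction w generalizing k with
  | nil => simp [vs, flowFrom]
  | cons b w ih =>
    simp only [vs, flowFrom]
    have hz : ((zOf stp k : ℤ) : ZMod m) + (stp b : ZMod m) = ((zOf stp (bump k b) : ℤ) : ZMod m) := by
      rw [zOf_bump]; push_cast; rfl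
    rw [hz, ih]
    have hsplit : (∑ a, if visArr stp B a then
        ((if b = a then (zOf stp k + stp a) ^ j else 0) +
          flowFrom a (fun k' => (zOf stp k' + stp a) ^ j) (bump k b) w) else 0 : ℤ) =
        (if visArr stp B b then (zOf stp k + stp b) ^ j else 0) +
          ∑ a, if visArr stp B a then
            flowFrom a (fun k' => (zOf stp k' + stp a) ^ j) (bump k b) w else 0 := by
      have : ∀ a, (if visArr stp B a then
          ((if b = a then (zOf stp k + stp a) ^ j else 0) +
            flowFrom a (fun k' => (zOf stp k' + stp a) ^ j) (bump k b) w) else 0 : ℤ) =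
          (if b = a then (if visArr stp B a then (zOf stp k + stp a) ^ j else 0) else 0) +
            (if visArr stp B a then
              flowFrom a (fun k' => (zOf stp k' + stp a) ^ j) (bump k b) w else 0) := by
        intro a
        by_cases h1 : visArr stp B a <;> by_cases h2 : b = a <;> simp [h1, h2]
      simp only [this, Finset.sum_add_distrib, Finset.sum_ite_eq, Finset.mem_univ, if_true]
    rw [hsplit]
    push_cast
    rw [← hz]

variable {stp}

theorem goodZ_vs (hstp : ∀ a, stp a = 0 ∨ stp a = 1 ∨ stp a = -1) (B : A → Prop) (j : ℕ) :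
    GoodZ (fun w : List A => ∑ a, if visArr stp B a then
      flow a (fun k => (zOf stp k + stp a) ^ j) w else 0) := by
  intro m _
  have h := good_vs (M := m) (n := m) (stp := stp) (B := B) hstp (fun r : ZMod m => r ^ j)
    ((zOf stp (fun _ => 0) : ℤ) : ZMod m)
  have e : (fun w : List A => vs stp B (fun r : ZMod m => r ^ j)
      ((zOf stp (fun _ => 0) : ℤ) : ZMod m) w) = fun w : List A => ((∑ a, if visArr stp B a then
        flow a (fun k => (zOf stp k + stp a) ^ j) w else 0 : ℤ) : ZMod m) := by
    funext w
    exact vs_pow_eq stp B m j (fun _ => 0) w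
  rw [e] at h
  exact h

end Walk

end Flow

end Vale.Agent.Lib.P329
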