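import Vale.Agent.Lib.P329.Jump
import Vale.Agent.Lib.P329.Flow

/-!
Charged machines: a finite automaton `δ`, a set of charged transitions, all of which end in one
state `q₀`, and a counter in `ZMod n` counting the charged transitions.  If every charge free closed
repeated run is closed after one repetition, then `(q₀, 0)` is a hub.
-/

namespace Vale.Agent.Lib.P329

section Charge

open Classical

variable {A Q : Type} (δ : A → Q → Q) (C : A → Q → Prop)

/-- The number of charged transitions along a run. -/
noncomputable def fcc : Q → List A → ℕ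
  | _, [] => 0
  | q, a :: w => (if C a q then 1 else 0) + fcc (δ a q) w

/-- The automaton with the counter. -/
noncomputable def chgStep (n : ℕ) (a : A) (q : Q × ZMod n) : Q × ZMod n :=
  (δ a q.1, if C a q.1 then q.2 + 1 else q.2)

@[simp] theorem fcc_nil (q : Q) : fcc δ C q [] = 0 := rfl

theorem fcc_cons (q : Q) (a : A) (w : List A) :
    fcc δ C q (a :: w) = (if C a q then 1 else 0) + fcc δ C (δ a q) w := rfl

theorem fcc_append (q : Q) (u w : List A) :
    fcc δ C q (u ++ w) = fcc δ C q u + fcc δ C (run δ q u) w := by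
  induction u generalizing q with
  | nil => simp
  | cons a u ih =>
    simp only [List.cons_append, fcc_cons, ih, run_cons, add_assoc]

theorem fcc_snoc (q : Q) (w : List A) (a : A) :
    fcc δ C q (w ++ [a]) = fcc δ C q w + if C a (run δ q w) then 1 else 0 := by
  rw [fcc_append, fcc_cons, fcc_nil, add_zero]

theorem fcc_rep_of_closed (q : Q) (y : List A) (h : run δ q y = q) (j : ℕ) :
    fcc δ C q (rep y j) = j * fcc δ C q y := by
  induction j with
  | zero => simp [rep]
  | succ j ih =>
    rw [rep, fcc_append, h, ih]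
    ring

theorem run_chg (n : ℕ) (q : Q) (s : ZMod n) (w : List A) :
    run (chgStep δ C n) (q, s) w = (run δ q w, s + (fcc δ C q w : ZMod n)) := by
  induction w generalizing q s with
  | nil => simp
  | cons a w ih =>
    rw [run_cons]
    have e : chgStep δ C n a (q, s) = (δ a q, if C a q then s + 1 else s) := rfl
    rw [e, ih]
    simp only [run_cons, fcc_cons]
    apply Prod.ext
    · rfl
    · by_cases hc : C a q
      · simp only [hc, if_true, Nat.cast_add, Nat.cast_one]
        ring
      · simp only [hc, if_false, zero_add]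

variable {δ C}

/-- If the number of charges is large, the run in the sink automaton ends in the hub. -/
theorem run_sink_of_fcc_ge {n : ℕ} {q₀ : Q} (hC : ∀ a q, C a q → δ a q = q₀) (W : List A) (q : Q)
    (s : ZMod n) (k : ℕ) (hk1 : 1 ≤ k) (hk0 : s + (k : ZMod n) = 0) (hk : k ≤ fcc δ C q W) :
    run (sinkAt (chgStep δ C n) (q₀, (0 : ZMod n))) (q, s) W = (q₀, 0) := by
  induction W generalizing q s k with
  | nil => simp at hk; omega
  | cons a W ih =>
    rw [run_cons]
    by_cases hv : (q, s) = (q₀, (0 : ZMod n))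
    · rw [hv]
      have : sinkAt (chgStep δ C n) (q₀, (0 : ZMod n)) a (q₀, (0 : ZMod n)) = (q₀, 0) := by
        simp [sinkAt]
      rw [this]
      exact run_sink_hub W
    · rw [sinkAt_of_ne hv]
      have e : chgStep δ C n a (q, s) = (δ a q, if C a q then s + 1 else s) := rfl
      rw [e]
      rw [fcc_cons] at hk
      by_cases hc : C a q
      · simp only [hc, if_true] at hk ⊢
        by_cases hk1' : k = 1
        · subst hk1'
          have h0 : s + 1 = 0 := by simpa using hk0
          rw [h0, hC a q hc]
          exact run_sink_hub W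
        · obtain ⟨k', rfl⟩ : ∃ k', k = k' + 1 := ⟨k - 1, by omega⟩
          refine ih _ _ k' (by omega) ?_ (by omega)
          rw [← hk0]
          push_cast
          ring
      · simp only [hc, if_false, zero_add] at hk ⊢
        exact ih _ _ k hk1 hk0 hk

/-- **Charged machines have a hub.** -/
theorem chg_isHub [Finite Q] {n : ℕ} [NeZero n] {q₀ : Q} (hC : ∀ a q, C a q → δ a q = q₀)
    (H : ∀ (u : List A) (q : Q) (m : ℕ), 0 < m → run δ q (rep u m) = q →
      fcc δ C q (rep u m) = 0 → run δ q u = q) :
    IsHub (chgStep δ C n) (q₀, (0 : ZMod n)) := by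
  refine isHub_of_closed ?_
  rintro u ⟨r, s⟩ hx m hm hcl
  obtain ⟨m', rfl⟩ : ∃ m', m = m' + 1 := ⟨m - 1, by omega⟩
  set y := rep u (m' + 1) with hy
  have hne : run (sinkAt (chgStep δ C n) (q₀, (0 : ZMod n))) (r, s) y ≠ (q₀, 0) := by
    rw [hcl]; exact hx
  have hrun := run_eq_of_sink_ne y (r, s) hne
  rw [hcl, run_chg] at hrun
  have hr1 : run δ r y = r := congrArg Prod.fst hrun
  have hf0 : fcc δ C r y = 0 := by
    by_contra hpos
    obtain ⟨k, hk1, hkn, hk0⟩ := exists_k_of_zmod s
    have hfc : fcc δ C r (rep y n) = n * fcc δ C r y := fcc_rep_of_closed δ C r y hr1 n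
    have hge : k ≤ fcc δ C r (rep y n) := by
      rw [hfc]
      calc k ≤ n := hkn
        _ = n * 1 := (mul_one n).symm
        _ ≤ n * fcc δ C r y := Nat.mul_le_mul_left _ (Nat.pos_of_ne_zero hpos)
    have hsink := run_sink_of_fcc_ge hC (rep y n) r s k hk1 hk0 hge
    have hiter : run (sinkAt (chgStep δ C n) (q₀, (0 : ZMod n))) (r, s) (rep y n) = (r, s) := by
      rw [run_rep]
      exact Function.iterate_fixed hcl n
    rw [hiter] at hsink
    exact hx hsink
  have hu := H u r (m' + 1) (Nat.succ_pos _) hr1 hf0
  have hyu : y = u ++ rep u m' := rfl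
  have hfu : fcc δ C r u = 0 := by
    have := fcc_append δ C r u (rep u m')
    rw [← hyu, hf0] at this
    omega
  rw [run_chg, hu, hfu]
  simp

/-- All runs of a charged machine, with the counter, are good. -/
theorem good_chg [Finite A] [Finite Q] {n : ℕ} [NeZero n] {q₀ : Q}
    (hC : ∀ a q, C a q → δ a q = q₀)
    (H : ∀ (u : List A) (q : Q) (m : ℕ), 0 < m → run δ q (rep u m) = q →
      fcc δ C q (rep u m) = 0 → run δ q u = q) (q : Q) (s : ZMod n) :
    Good (fun w : List A => run (chgStep δ C n) (q, s) w) :=
  fun b => hub_path (chg_isHub hC H) _ b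

/-- Residues of the number of charges are good. -/
theorem goodZ_fcc [Finite A] [Finite Q] {q₀ : Q} (hC : ∀ a q, C a q → δ a q = q₀)
    (H : ∀ (u : List A) (q : Q) (m : ℕ), 0 < m → run δ q (rep u m) = q →
      fcc δ C q (rep u m) = 0 → run δ q u = q) (q : Q) :
    GoodZ (fun w : List A => ((fcc δ C q w : ℕ) : ℤ)) := by
  intro m _
  have h := (good_chg (n := m) hC H q 0).comp Prod.snd
  refine Good.of_factor h (fun w w' e => ?_)
  simp only [run_chg, zero_add] at e
  simpa using e

theorem good_run_of_chg [Finite A] [Finite Q] {q₀ : Q} (hC : ∀ a q, C a q → δ a q = q₀)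
    (H : ∀ (u : List A) (q : Q) (m : ℕ), 0 < m → run δ q (rep u m) = q →
      fcc δ C q (rep u m) = 0 → run δ q u = q) (q : Q) :
    Good (fun w : List A => run δ q w) := by
  have h := (good_chg (n := 1) hC H q 0).comp Prod.fst
  refine Good.of_factor h (fun w w' e => ?_)
  simpa only [run_chg] using e

theorem fcc_mono {C' : A → Q → Prop} (h : ∀ a q, C' a q → C a q) (q : Q) (w : List A) :
    fcc δ C' q w ≤ fcc δ C q w := by
  induction w generalizing q with
  | nil => simp
  | cons a w ih =>
    rw [fcc_cons, fcc_cons]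
    have h1 := ih (δ a q)
    by_cases hc : C' a q
    · simp only [hc, h a q hc, if_true]; omega
    · simp only [hc, if_false]; omega

theorem rep_mul (u : List A) (m n : ℕ) : rep u (m * n) = rep (rep u m) n := by
  induction n with
  | zero => simp [rep]
  | succ n ih => rw [Nat.mul_succ, Nat.add_comm, rep_add, ih, rep]

/-- Charge free closed repeated runs have no charge in any repetition. -/
theorem fcc_rep_eq_zero {u : List A} {q : Q} {m : ℕ} (hm : 0 < m) (hcl : run δ q (rep u m) = q)
    (h0 : fcc δ C q (rep u m) = 0) (n : ℕ) : fcc δ C q (rep u n) = 0 := by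
  have h1 : fcc δ C q (rep u (m * n)) = 0 := by
    rw [rep_mul, fcc_rep_of_closed δ C q _ hcl, h0, mul_zero]
  obtain ⟨s, hs⟩ : ∃ s, m * n = n + s := ⟨m * n - n, by
    have : n ≤ m * n := Nat.le_mul_of_pos_left n hm
    omega⟩
  rw [hs, rep_add, fcc_append] at h1
  omega

/-- No charged transition occurs in any repetition of a charge free closed repeated run. -/
theorem not_charged_of_rep {u : List A} {q : Q} {m : ℕ} (hm : 0 < m)
    (hcl : run δ q (rep u m) = q) (h0 : fcc δ C q (rep u m) = 0) (k : ℕ) (w₁ w₂ : List A) (b : A)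
    (hu : u = w₁ ++ b :: w₂) : ¬ C b (run δ q (rep u k ++ w₁)) := by
  intro hc
  have h := fcc_rep_eq_zero hm hcl h0 (k + 1)
  rw [rep_add, rep_one] at h
  have e : rep u k ++ u = (rep u k ++ w₁) ++ b :: w₂ := by rw [hu]; simp
  rw [e, fcc_append, fcc_cons] at h
  simp only [hc, if_true] at h
  omega

/-- Semiconjugate automata have the same number of charges. -/
theorem fcc_semiconj {Q' : Type} {δ' : A → Q' → Q'} {C' : A → Q' → Prop} (π : Q → Q')
    (h1 : ∀ a q, π (δ a q) = δ' a (π q)) (h2 : ∀ a q, C a q ↔ C' a (π q)) (q : Q) (w : List A) :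
    fcc δ C q w = fcc δ' C' (π q) w := by
  induction w generalizing q with
  | nil => rfl
  | cons a w ih =>
    rw [fcc_cons, fcc_cons, ih, h1]
    simp only [h2]

end Charge

end Vale.Agent.Lib.P329
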