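import Vale.Agent.Lib.P329.Deg4Z
import Vale.Agent.Lib.P329.Class4
import Vale.Agent.Lib.P329.NilAlg

/-!
All subsequence counts of length at most four are good modulo every positive number: consequences.
-/

namespace Vale.Agent.Lib.P329

/-- **All finite nilpotent groups of class at most four.** -/
theorem heightLE_of_class_four_all {A G : Type} [Finite A] [Group G] [Finite G]
    (hG : (⊤ : Subgroup G).lowerCentralSeries 4 = ⊥) (φ : A → G) (S : Set G) :
    HeightLE 1 {w : List A | (w.map φ).prod ∈ S} := by
  classical
  haveI : Fintype A := Fintype.ofFinite A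
  haveI : NeZero (Nat.card G) := ⟨Nat.card_pos.ne'⟩
  have h := good_prod_c4 (A := A) (c4DataOf hG) (m := Nat.card G)
    (fun u hu => gi_rc_le_four_all u hu)
    (fun u v _ _ => pow_card_eq_one') φ
  exact Good.preimage h S

section Rings

variable {A R : Type} [Ring R]

/-- Rings of positive characteristic with `J ^ 5 = 0`. -/
theorem heightLE_depthFive_all {m : ℕ} [hm : NeZero m] [Finite A] [CharP R m]
    (φ : A → R)
    (hφ : ∀ a b c d e : A,
      (φ a - 1) * (φ b - 1) * (φ c - 1) * (φ d - 1) * (φ e - 1) = 0) (S : Set R) :
    HeightLE 1 {w : List A | (w.map φ).prod ∈ S} := by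
  classical
  haveI : Fintype A := Fintype.ofFinite A
  refine heightLE_of_nilIdeal (n := 4) (p := m) (fun u hu => gi_rc_le_four_all u hu)
    φ ?_ S
  intro s hs
  match s, hs with
  | [a, b, c, d, e], _ =>
    have := hφ a b c d e
    simp only [List.map_cons, List.map_nil, List.prod_cons, List.prod_nil, mul_one]
    simpa [mul_assoc] using this

/-- Subsequence counts of length at most four modulo a positive number. -/
theorem heightLE_subCount_four_all {m : ℕ} (hm : m ≠ 0) [Finite A] [DecidableEq A]
    (u : List A) (hu : u.length ≤ 4) (k : ℕ) :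
    HeightLE 1 {w : List A | w.sublists.count u % m = k} := by
  classical
  haveI : Fintype A := Fintype.ofFinite A
  have hp0 : 0 < m := Nat.pos_of_ne_zero hm
  haveI : NeZero m := ⟨hp0.ne'⟩
  have hG := good_subCount_tuple (p := m) (n := 4) (fun u hu => gi_rc_le_four_all u hu)
    {u} (by simpa using hu)
  by_cases hk : k < m
  · have h1 := hG.comp (fun f => f ⟨u, by simp⟩)
    have hset : {w : List A | w.sublists.count u % m = k} =
        {w : List A | ((subCount u w : ℕ) : ZMod m) = (k : ZMod m)} := by
      ext w
      change w.sublists.count u % m = k ↔ ((w.sublists.count u : ℕ) : ZMod m) = (k : ZMod m)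
      rw [ZMod.natCast_eq_natCast_iff', Nat.mod_eq_of_lt hk]
    rw [hset]
    exact h1 _
  · have hset : {w : List A | w.sublists.count u % m = k} = ∅ := by
      ext w
      constructor
      · intro h
        have hlt := Nat.mod_lt (w.sublists.count u) hp0
        have h' : w.sublists.count u % m = k := h
        omega
      · intro h; exact absurd h (by simp)
    rw [hset]
    exact HeightLE.empty

end Rings

end Vale.Agent.Lib.P329
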