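import Vale.Agent.Lib.P329.SFlowGood

/-!
All subword counts of length at most four have good residues modulo every odd prime.
-/

namespace Vale.Agent.Lib.P329

section TreeFour

open Classical

variable {A : Type} [Fintype A] {p : ℕ} [Fact p.Prime]

theorem Good.congr' {β : Type} {f g : List A → β} (hf : Good f) (h : ∀ w, f w = g w) : Good g := by
  have : g = f := funext fun w => (h w).symm
  rw [this]
  exact hf

variable (p) in
/-- The number of occurrences of a letter, as a residue. -/
noncomputable def cX (a : A) (v : List A) : ZMod p := (v.count a : ZMod p)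

theorem cX_snoc (a : A) (v : List A) (c : A) :
    cX p a (v ++ [c]) = cX p a v + if c = a then 1 else 0 := by
  simp only [cX, List.count_append, List.count_singleton]
  push_cast
  by_cases h : c = a
  · simp [h]
  · simp [h]

theorem cX_eq_pfp (a : A) (v : List A) : cX p a v = pfp a (fun _ => (1 : ZMod p)) v := by
  induction v using List.reverseRecOn with
  | nil => simp [cX]
  | append_singleton v c ih => rw [cX_snoc, pfp_snoc, ih]

theorem cX_mul (a z : A) (v : List A) :
    cX p a v * cX p z v = pfp a (cX p z) v + pfp z (cX p a) v + if a = z then cX p a v else 0 := by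
  have h := prod_pfp a z (fun _ => (1 : ZMod p)) (fun _ => (1 : ZMod p)) v
  have e1 : cX p z = pfp z (fun _ => (1 : ZMod p)) := funext (cX_eq_pfp z)
  have e2 : cX p a = pfp a (fun _ => (1 : ZMod p)) := funext (cX_eq_pfp a)
  simp only [one_mul, mul_one] at h
  rw [e1, e2]
  exact h

theorem cnt_finset (s : Finset A) (v : List A) :
    ((cnt (· ∈ s) v : ℕ) : ZMod p) = ∑ a ∈ s, cX p a v := by
  induction v using List.reverseRecOn with
  | nil => simp [cX]
  | append_singleton v c ih =>
    rw [cnt_append, Nat.cast_add, ih]
    simp only [cX_snoc, Finset.sum_add_distrib]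
    congr 1
    simp only [cnt_cons, cnt_nil, add_zero]
    by_cases hc : c ∈ s
    · simp [hc, Finset.sum_ite_eq]
    · simp [hc, Finset.sum_ite_eq]

/-- Flows of the older file, as sums over positions. -/
theorem flow_cast (x : A) (P : (A → ℕ) → ℤ) (w : List A) :
    ((flow x P w : ℤ) : ZMod p) = pfp x (fun v => ((P (kv v) : ℤ) : ZMod p)) w := by
  induction w using List.reverseRecOn with
  | nil => simp [flow, flowFrom]
  | append_singleton w a ih =>
    rw [flow_snoc, pfp_snoc]
    push_cast
    rw [ih]

theorem cX_eq_K (a : A) (v : List A) : cX p a v = ((K a (kv v) : ℤ) : ZMod p) := by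
  simp [cX, K, kv_apply]

theorem good_cX (a : A) : Good (cX p a) := (goodZ_K a p).congr' fun w => (cX_eq_K a w).symm

theorem good_cor3 (y a b c : A) :
    Good (fun w => pfp y (fun v => cX p a v * cX p b v * cX p c v) w) := by
  refine (gf_mon3 y a b c p).congr' fun w => ?_
  rw [flow_cast]
  congr 1
  funext v
  simp only [cX_eq_K]
  push_cast
  ring

theorem good_cor2 (y a b : A) : Good (fun w => pfp y (fun v => cX p a v * cX p b v) w) := by
  refine (gf_mon2 y a b p).congr' fun w => ?_
  rw [flow_cast]
  congr 1
  funext v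
  simp only [cX_eq_K]
  push_cast
  ring

theorem good_cor1 (y a : A) : Good (fun w => pfp y (cX p a) w) := by
  refine (gf_mon1 y a p).congr' fun w => ?_
  rw [flow_cast]
  congr 1
  funext v
  simp only [cX_eq_K]

theorem etaS_eq_pfp {S : A → Prop} {N : ℕ} {z : A} (hz : S z) (h : ZMod N → ZMod p) (x : ZMod N)
    (w : List A) :
    etaS S (fun a x => if a = z then h x else 0) x w =
      pfp z (fun v => h (x + (cnt S v : ZMod N))) w := by
  induction w generalizing x with
  | nil => simp [etaS]
  | cons a w ih =>
    rw [pfp_cons]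
    by_cases ha : S a
    · simp only [etaS, ha, if_true]
      rw [ih]
      have e : (fun v => h (x + ((cnt S (a :: v) : ℕ) : ZMod N))) =
          fun v => h (x + 1 + ((cnt S v : ℕ) : ZMod N)) := by
        funext v
        rw [cnt_cons]
        simp only [ha, if_true]
        push_cast
        rw [add_assoc]
      rw [e]
      simp
    · have hne : a ≠ z := fun e => ha (e ▸ hz)
      simp only [etaS, ha, if_false, hne, zero_add]
      rw [ih]
      congr 1
      funext v
      rw [cnt_cons]
      simp [ha]

/-- The family of flows given by clock machines. -/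
theorem good_R (hp3 : 3 ≤ p) (s : Finset A) (y z : A) (hy : y ∉ s) (hz : z ∈ s) :
    Good (fun w => pfp y (fun v => (∑ a ∈ s, cX p a v) *
      pfp z (fun u => ∑ a ∈ s, cX p a u) v) w) := by
  have hd : p ∣ p ^ (1 + 1) := dvd_pow_self p (by norm_num)
  let c : ZMod (p ^ (1 + 1)) →+* ZMod p := ZMod.castHom hd (ZMod p)
  have hc : ∀ n : ℕ, c (n : ZMod (p ^ (1 + 1))) = (n : ZMod p) := fun n => map_natCast c n
  have hcp : c (((p ^ 1 : ℕ) : ZMod (p ^ (1 + 1)))) = 0 := by
    rw [hc]
    simp
  have hH : ∀ (a : A) (x : ZMod (p ^ (1 + 1))),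
      (fun (a : A) x => if a = z then c x else 0) a (x + ((p ^ 1 : ℕ) : ZMod (p ^ (1 + 1)))) =
        (fun (a : A) x => if a = z then c x else 0) a x := by
    intro a x
    simp only [map_add, hcp, add_zero]
  have h := good_root_pow (S := (· ∈ s)) (y := y) (e := 1)
    (H := fun (a : A) x => if a = z then c x else 0) hy hH (fun x => c x) 1 (by omega)
  refine h.congr' fun w => ?_
  congr 1
  funext v
  rw [pow_one, etaS_eq_pfp hz, hc, cnt_finset]
  congr 2
  funext u
  rw [zero_add, hc, cnt_finset]

variable (p) in
/-- The tree functional with root `y`, children `b` and `z`, and grandchild `a`. -/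
noncomputable def tE (a z b y : A) (w : List A) : ZMod p :=
  pfp y (fun v => cX p b v * pfp z (cX p a) v) w

theorem R_expand (s : Finset A) (y z : A) (w : List A) :
    pfp y (fun v => (∑ a ∈ s, cX p a v) * pfp z (fun u => ∑ a ∈ s, cX p a u) v) w =
      ∑ b ∈ s, ∑ a ∈ s, tE p a z b y w := by
  simp only [tE]
  simp only [← pfp_sum]
  congr 1
  funext v
  rw [pfp_sum, Finset.sum_mul_sum]

theorem good_R1 (hp3 : 3 ≤ p) (z y : A) (hy : y ≠ z) : Good (tE p z z z y) := by
  have h := good_R hp3 {z} y z (by simpa using hy) (by simp)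
  refine h.congr' fun w => ?_
  rw [R_expand]
  simp

theorem good_R2 (hp3 : 3 ≤ p) (z a y : A) (hza : z ≠ a) (hy : y ≠ z) (hya : y ≠ a) :
    Good (fun w => tE p z z z y w + tE p a z z y w + tE p z z a y w + tE p a z a y w) := by
  have h := good_R hp3 {z, a} y z (by simp [hy, hya]) (by simp)
  refine h.congr' fun w => ?_
  rw [R_expand, Finset.sum_pair hza, Finset.sum_pair hza, Finset.sum_pair hza]
  ring

theorem good_R3 (hp3 : 3 ≤ p) (z a b y : A) (hza : z ≠ a) (hzb : z ≠ b) (hab : a ≠ b)
    (hy : y ≠ z) (hya : y ≠ a) (hyb : y ≠ b) :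
    Good (fun w => tE p z z z y w + tE p a z z y w + tE p b z z y w
      + tE p z z a y w + tE p a z a y w + tE p b z a y w
      + tE p z z b y w + tE p a z b y w + tE p b z b y w) := by
  have h := good_R hp3 {z, a, b} y z (by simp [hy, hya, hyb]) (by simp)
  refine h.congr' fun w => ?_
  rw [R_expand]
  have h1 : z ∉ ({a, b} : Finset A) := by simp [hza, hzb]
  have e : ∀ F : A → ZMod p, ∑ c ∈ ({z, a, b} : Finset A), F c = F z + F a + F b := by
    intro F
    rw [Finset.sum_insert h1, Finset.sum_pair hab]
    ring
  rw [e]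
  simp only [e]
  ring

theorem sig1 (a z b y : A) : Good (fun w => tE p a z b y w + tE p z a b y w) := by
  by_cases haz : a = z
  · subst haz
    have h1 := (good_cor3 (p := p) y b a a).add (((Good.const (-1 : ZMod p)).mul
      (good_cor2 (p := p) y b a)))
    refine h1.congr' fun w => ?_
    simp only [tE]
    rw [← pfp_mul, ← pfp_add, ← pfp_add]
    congr 1
    funext v
    have := cX_mul (p := p) a a v
    simp only [if_true] at this
    linear_combination (cX p b v) * this
  · have h1 := good_cor3 (p := p) y b a z
    refine h1.congr' fun w => ?_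
    simp only [tE]
    rw [← pfp_add]
    congr 1
    funext v
    have := cX_mul (p := p) a z v
    simp only [haz, if_false, add_zero] at this
    linear_combination (cX p b v) * this

theorem sig3 (a z b y : A) : Good (fun w => tE p a z b y w + tE p b y a z w) := by
  have hA : Good (pfp z (cX p a)) := good_cor1 z a
  have hB : Good (pfp y (cX p b)) := good_cor1 y b
  by_cases hzy : z = y
  · subst hzy
    have h1 := (hA.mul hB).add ((Good.const (-1 : ZMod p)).mul (good_cor2 (p := p) z a b))
    refine h1.congr' fun w => ?_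
    have := prod_pfp z z (cX p a) (cX p b) w
    simp only [if_true] at this
    simp only [tE]
    rw [this]
    have e : pfp z (fun v => cX p b v * pfp z (cX p a) v) w =
        pfp z (fun u => pfp z (cX p a) u * cX p b u) w := by
      congr 1
      funext v
      ring
    rw [e]
    ring
  · have h1 := hA.mul hB
    refine h1.congr' fun w => ?_
    have := prod_pfp z y (cX p a) (cX p b) w
    simp only [hzy, if_false, add_zero] at this
    simp only [tE]
    rw [this]
    have e : pfp y (fun v => cX p b v * pfp z (cX p a) v) w =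
        pfp y (fun u => pfp z (cX p a) u * cX p b u) w := by
      congr 1
      funext v
      ring
    rw [e]
    ring

theorem sig2 (a z b y : A) : Good (fun w => tE p a z b y w + tE p a z y b w) :=
  (((sig3 (p := p) a z b y).sub (sig1 (p := p) b y a z)).add (sig3 (p := p) a z y b)).congr'
    fun w => by ring

theorem two_ne (hp3 : 3 ≤ p) : (2 : ZMod p) ≠ 0 := by
  intro h
  have h' : ((2 : ℕ) : ZMod p) = 0 := by simpa using h
  rw [ZMod.natCast_eq_zero_iff] at h'
  have := Nat.le_of_dvd (by norm_num) h'
  omega

theorem good_of_two (hp3 : 3 ≤ p) {f : List A → ZMod p} (h : Good (fun w => f w + f w)) : Good f := by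
  refine Good.of_factor h fun w w' e => ?_
  have h2 := two_ne hp3
  have e' : 2 * f w = 2 * f w' := by linear_combination e
  exact mul_left_cancel₀ h2 e'

/-- The form is zero when a pair repeats a letter. -/
theorem tE_diag_left (hp3 : 3 ≤ p) (a b y : A) : Good (tE p a a b y) :=
  good_of_two hp3 (sig1 a a b y)

theorem tE_diag_right (hp3 : 3 ≤ p) (a z b : A) : Good (tE p a z b b) :=
  good_of_two hp3 (sig2 a z b b)

theorem tE_self (hp3 : 3 ≤ p) (a z : A) : Good (tE p a z a z) :=
  good_of_two hp3 (sig3 a z a z)

theorem tE_self' (hp3 : 3 ≤ p) (a z : A) : Good (tE p a z z a) :=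
  ((sig2 (p := p) a z a z).sub (tE_self hp3 a z)).congr' fun w => by ring

/-- Relation from the clock machines for three letters. -/
theorem rel3 (hp3 : 3 ≤ p) (a z y : A) (haz : a ≠ z) (hay : a ≠ y) (hzy : z ≠ y) :
    Good (fun w => tE p a z z y w + tE p a z a y w) := by
  have h1 := good_R2 hp3 z a y haz.symm hzy.symm hay.symm
  have h2 := tE_diag_left hp3 z a y (p := p)
  have h3 := good_R1 hp3 z y hzy.symm (p := p)
  exact ((h1.sub h3).sub h2).congr' fun w => by ring

/-- Three letters. -/
theorem tE_three (hp3 : 3 ≤ p) (x u v : A) (hxu : x ≠ u) (hxv : x ≠ v) (huv : u ≠ v) :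
    Good (tE p x u x v) := by
  have T1 := rel3 (p := p) hp3 x u v hxu hxv huv
  have s1 := sig1 (p := p) x u u v
  have T2 := rel3 (p := p) hp3 x v u hxv hxu huv.symm
  have s2 := sig3 (p := p) x v x u
  have s3 := sig1 (p := p) x v v u
  have T3 := rel3 (p := p) hp3 u v x huv hxu.symm hxv.symm
  have s4 := sig1 (p := p) u v v x
  have s5 := sig3 (p := p) u v u x
  have s6 := sig3 (p := p) v u v x
  refine good_of_two hp3 ?_
  exact ((((((((T1.sub s1).add s5).sub s6).sub T3).add s4).add s2).sub T2).add s3).congr'
    fun w => by ring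

/-- Relation from the clock machines for four letters. -/
theorem rel4 (hp3 : 3 ≤ p) (a b z y : A) (hza : z ≠ a) (hzb : z ≠ b) (hab : a ≠ b)
    (hy : y ≠ z) (hya : y ≠ a) (hyb : y ≠ b) :
    Good (fun w => tE p a z b y w + tE p b z a y w) := by
  have h3 := good_R3 hp3 z a b y hza hzb hab hy hya hyb (p := p)
  have h21 := good_R2 hp3 z a y hza hy hya (p := p)
  have h22 := good_R2 hp3 z b y hzb hy hyb (p := p)
  have h1 := good_R1 hp3 z y hy (p := p)
  exact (((h3.sub h21).sub h22).add h1).congr' fun w => by ring

/-- Four distinct letters. -/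
theorem tE_four (hp3 : 3 ≤ p) (a b c d : A) (hab : a ≠ b) (hac : a ≠ c) (had : a ≠ d) (hbc : b ≠ c)
    (hbd : b ≠ d) (hcd : c ≠ d) : Good (tE p a b c d) := by
  have r1 := rel4 (p := p) hp3 a c b d hab.symm hbc hac hbd.symm had.symm hcd.symm
  have s1 := sig1 (p := p) c b a d
  have r2 := rel4 (p := p) hp3 b a c d hbc.symm hac.symm hab.symm hcd.symm hbd.symm had.symm
  have s2 := sig2 (p := p) a b c d
  have r3 := rel4 (p := p) hp3 a d b c hab.symm hbd had hbc.symm hac.symm hcd
  have s3 := sig3 (p := p) d b a c
  have s4 := sig2 (p := p) a c b d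
  refine good_of_two hp3 ?_
  exact ((((((r1.sub s1).add r2).add s2).sub r3).add s3).sub s4).congr' fun w => by ring

/-- **All tree functionals are good.** -/
theorem good_tE (hp3 : 3 ≤ p) (a z b y : A) : Good (tE p a z b y) := by
  by_cases haz : a = z
  · subst haz; exact tE_diag_left hp3 a b y
  by_cases hby : b = y
  · subst hby; exact tE_diag_right hp3 a z b
  by_cases h1 : a = b
  · subst h1
    by_cases hzy : z = y
    · subst hzy; exact tE_self hp3 a z
    · exact tE_three hp3 a z y haz hby hzy
  by_cases h2 : a = y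
  · subst h2
    by_cases hzb : z = b
    · subst hzb; exact tE_self' hp3 a z
    · exact ((sig2 (p := p) a z b a).sub (tE_three hp3 a z b haz h1 hzb)).congr' fun w => by ring
  by_cases h3 : z = b
  · subst h3
    exact ((sig1 (p := p) a z z y).sub (tE_three hp3 z a y (Ne.symm haz) hby h2)).congr'
      fun w => by ring
  by_cases h4 : z = y
  · subst h4
    exact (((sig1 (p := p) a z b z).sub (sig2 (p := p) z a b z)).add
      (tE_three hp3 z a b (Ne.symm haz) h3 h1)).congr' fun w => by ring
  exact tE_four hp3 a z b y haz h1 h2 h3 h4 hby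

variable (p) in
/-- The number of occurrences of a word as a subword, as a residue, the word being read backwards. -/
noncomputable def Cw : List A → List A → ZMod p
  | [] => fun _ => 1
  | y :: v => pfp y (Cw v)

theorem Cw_one (a : A) : Cw p [a] = cX p a := by
  funext w
  rw [cX_eq_pfp]
  rfl

/-- Moving the last letter of a subword to the front. -/
theorem pfp_last (y b : A) (g : List A → ZMod p) (w : List A) :
    pfp b (pfp y g) w = pfp y g w * cX p b w - pfp y (fun u => g u * cX p b u) w -
      if y = b then pfp y g w else 0 := by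
  have h := prod_pfp y b g (fun _ => (1 : ZMod p)) w
  rw [← cX_eq_pfp] at h
  have e : (fun u => g u * pfp b (fun _ => (1 : ZMod p)) u) = fun u => g u * cX p b u := by
    funext u
    rw [cX_eq_pfp]
  rw [e] at h
  simp only [mul_one] at h
  rw [h]
  ring

theorem good_Cw2 (z a : A) : Good (pfp z (cX p a)) := good_cor1 z a

theorem good_Cw3 (y z a : A) : Good (pfp y (pfp z (cX p a))) := by
  by_cases h : z = y
  · have h1 := (((good_Cw2 (p := p) z a).mul (good_cX (p := p) y)).sub
      (good_cor2 (p := p) z a y)).sub (good_Cw2 (p := p) z a)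
    refine h1.congr' fun w => ?_
    rw [pfp_last z y]
    simp [h]
  · have h1 := ((good_Cw2 (p := p) z a).mul (good_cX (p := p) y)).sub (good_cor2 (p := p) z a y)
    refine h1.congr' fun w => ?_
    rw [pfp_last z y]
    simp [h]

theorem good_Cw4 (hp3 : 3 ≤ p) (b y z a : A) : Good (pfp b (pfp y (pfp z (cX p a)))) := by
  have e : ∀ w, pfp y (fun u => pfp z (cX p a) u * cX p b u) w = tE p a z b y w := by
    intro w
    simp only [tE]
    congr 1
    funext v
    ring
  by_cases h : y = b
  · have h1 := (((good_Cw3 (p := p) y z a).mul (good_cX (p := p) b)).sub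
      (good_tE hp3 a z b y)).sub (good_Cw3 (p := p) y z a)
    refine h1.congr' fun w => ?_
    rw [pfp_last y b, e]
    simp [h]
  · have h1 := ((good_Cw3 (p := p) y z a).mul (good_cX (p := p) b)).sub (good_tE hp3 a z b y)
    refine h1.congr' fun w => ?_
    rw [pfp_last y b, e]
    simp [h]

/-- **All subword counts of length at most four are good, modulo every odd prime.** -/
theorem good_Cw (hp3 : 3 ≤ p) (v : List A) (hv : v.length ≤ 4) : Good (Cw p v) := by
  match v, hv with
  | [], _ => exact Good.const _
  | [a], _ => rw [Cw_one]; exact good_cX a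
  | [z, a], _ =>
    have : Cw p [z, a] = pfp z (cX p a) := by
      change pfp z (Cw p [a]) = _
      rw [Cw_one]
    rw [this]
    exact good_Cw2 z a
  | [y, z, a], _ =>
    have : Cw p [y, z, a] = pfp y (pfp z (cX p a)) := by
      change pfp y (pfp z (Cw p [a])) = _
      rw [Cw_one]
    rw [this]
    exact good_Cw3 y z a
  | [b, y, z, a], _ =>
    have : Cw p [b, y, z, a] = pfp b (pfp y (pfp z (cX p a))) := by
      change pfp b (pfp y (pfp z (Cw p [a]))) = _
      rw [Cw_one]
    rw [this]
    exact good_Cw4 hp3 b y z a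

end TreeFour

end Vale.Agent.Lib.P329
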