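import Vale.Agent.Lib.P329.SFlowGood
import Vale.Agent.Lib.P329.TreeFour
import Vale.Agent.Lib.P329.NilAlg

/-!
Clock machines: flows of products of up to three inner flows, through a letter outside the clock and
through all letters of the clock together, as sums of subsequence counts.
-/

namespace Vale.Agent.Lib.P329

section SumRoot

open Classical

variable {A : Type} {R : Type} [CommRing R]

theorem good_congr {β : Type} {f g : List A → β} (hf : Good f) (h : ∀ w, f w = g w) : Good g := by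
  have : g = f := funext fun w => (h w).symm
  rw [this]
  exact hf

theorem sum_swap_neg {ι : Type} (K : Finset ι) (L : List A) (P : ι → A → R) :
    - ∑ κ ∈ K, (L.map fun s => P κ s).sum = (L.map fun s => - ∑ κ ∈ K, P κ s).sum := by
  induction L with
  | nil => simp
  | cons t L ih =>
    simp only [List.map_cons, List.sum_cons, Finset.sum_add_distrib, neg_add, ih]

theorem sum_pfp_snoc (L : List A) (hL : L.Nodup) (F : List A → R) (w : List A) (a : A) :
    (L.map fun s => pfp s F (w ++ [a])).sum =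
      (L.map fun s => pfp s F w).sum + if a ∈ L then F w else 0 := by
  induction L with
  | nil => simp
  | cons t L ih =>
    have hL' := List.nodup_cons.1 hL
    rw [List.map_cons, List.sum_cons, ih hL'.2, pfp_snoc, List.map_cons, List.sum_cons]
    by_cases hat : a = t
    · subst hat
      simp only [if_true, hL'.1, if_false, List.mem_cons, true_or]
      ring
    · by_cases haL : a ∈ L
      · simp only [hat, if_false, haL, List.mem_cons, or_true, if_true]
        ring
      · simp only [hat, if_false, haL, List.mem_cons, or_false]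
        ring

variable {Q : Type} [Fintype Q] [DecidableEq Q] {δ : A → Q → Q}

/-- The sum over the letters of a list of the flows of a function of the state of an automaton, all
of whose states are hubs, when exactly the letters of the list move every state. -/
theorem good_sum_run [Finite A] {p : ℕ} [NeZero p] (hall : ∀ q₀ : Q, IsHub δ q₀) (L : List A)
    (hL : L.Nodup) (hmove : ∀ a s, a ∈ L → δ a s ≠ s) (hfix : ∀ a s, a ∉ L → δ a s = s)
    (G : Q → ZMod p) (q : Q) :
    Good (fun w => (L.map fun s => pfp s (fun v => G (run δ q v)) w).sum) := by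
  have h1 : ∀ q₀ ∈ (Finset.univ : Finset Q), Good (fun w : List A =>
      G q₀ * ((fcc δ (arrC δ q₀ (fun _ => False)) q w : ℕ) : ZMod p)) := by
    intro q₀ _
    refine (Good.const (G q₀)).mul ?_
    have := goodZ_arr (hall q₀) (fun _ => False) q p
    simpa using this
  have h2 := Good.finset_sum _ h1
  have h3 : Good (fun w : List A => G (run δ q w)) := by
    have hr : Good (fun w : List A => run δ q w) := by
      intro r
      have := hub_transformation (hall q) {f | f q = r}
      exact this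
    exact hr.comp G
  have h4 := (h2.sub h3).add (Good.const (G q))
  refine good_congr h4 (fun w => ?_)
  induction w using List.reverseRecOn with
  | nil =>
    simp [fcc]
  | append_singleton w a ih =>
    rw [sum_pfp_snoc L hL, ← ih]
    have hA : ∑ q₀ : Q, G q₀ * ((fcc δ (arrC δ q₀ (fun _ => False)) q (w ++ [a]) : ℕ) : ZMod p) =
        ∑ q₀ : Q, G q₀ * ((fcc δ (arrC δ q₀ (fun _ => False)) q w : ℕ) : ZMod p) +
          if a ∈ L then G (run δ q (w ++ [a])) else 0 := by
      have e : ∀ q₀ : Q, G q₀ * ((fcc δ (arrC δ q₀ (fun _ => False)) q (w ++ [a]) : ℕ) : ZMod p) =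
          G q₀ * ((fcc δ (arrC δ q₀ (fun _ => False)) q w : ℕ) : ZMod p) +
            if (a ∈ L ∧ δ a (run δ q w) = q₀) then G q₀ else 0 := by
        intro q₀
        rw [fcc_snoc]
        push_cast
        by_cases haL : a ∈ L
        · by_cases hq : δ a (run δ q w) = q₀
          · have hc : arrC δ q₀ (fun _ => False) a (run δ q w) :=
              ⟨hq, Or.inl (fun h => hmove a _ haL (hq.trans h.symm))⟩
            simp [hc, haL, hq]
            ring
          · have hc : ¬ arrC δ q₀ (fun _ => False) a (run δ q w) := fun h => hq h.1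
            simp [hc, hq]
        · have hc : ¬ arrC δ q₀ (fun _ => False) a (run δ q w) := by
            rintro ⟨h1, h2⟩
            rcases h2 with h2 | h2
            · exact h2 ((hfix a _ haL).symm.trans h1)
            · exact h2
          simp [hc, haL]
      rw [Finset.sum_congr rfl (fun q₀ _ => e q₀), Finset.sum_add_distrib]
      congr 1
      by_cases haL : a ∈ L
      · simp [haL, run_append]
      · simp [haL]
    rw [hA]
    by_cases haL : a ∈ L
    · simp only [haL, if_true]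
      ring
    · have hrun : run δ q (w ++ [a]) = run δ q w := by
        rw [run_append]
        exact hfix a _ haL
      simp only [haL, if_false, hrun]
      ring

/-- The sum over the letters of the clock of the flows of a function of the clock and a power of the
weighted sum. -/
theorem good_sum_root [Finite A] {p e : ℕ} [Fact p.Prime] (L : List A) (hL : L.Nodup)
    {H : A → ZMod (p ^ (e + 1)) → ZMod p}
    (hH : ∀ a x, H a (x + ((p ^ e : ℕ) : ZMod (p ^ (e + 1)))) = H a x)
    (g : ZMod (p ^ (e + 1)) → ZMod p) (r : ℕ) (hrp : r + 2 ≤ p) :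
    Good (fun w => (L.map fun s => pfp s (fun v =>
      g (cnt (· ∈ L) v : ZMod (p ^ (e + 1))) * etaS (· ∈ L) H 0 v ^ r) w).sum) := by
  have hp : p.Prime := Fact.out
  have hN : 1 < p ^ (e + 1) := Nat.one_lt_pow (by omega) hp.one_lt
  have : Fact (1 < p ^ (e + 1)) := ⟨hN⟩
  have h1 : ∀ κ ∈ (Finset.univ : Finset (ZMod p)).erase 0,
      Good (fun w => (L.map fun s => pfp s (fun v => g (cnt (· ∈ L) v : ZMod (p ^ (e + 1))) *
        (κ * (cross (· ∈ L) (0 : ZMod (p ^ (e + 1))) v : ZMod p) + etaS (· ∈ L) H 0 v) ^ r) w).sum) := by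
    intro κ hκ
    have hκ' : κ ≠ 0 := Finset.ne_of_mem_erase hκ
    have hhub := fun q₀ : ZMod (p ^ (e + 1)) × ZMod p =>
      sflow_isHub (· ∈ L) H κ hκ' hH q₀.1 q₀.2
    have h := good_sum_run (p := p) hhub L hL
      (by
        intro a s ha h
        have e1 : sStep (· ∈ L) H κ a s = (s.1 + 1, s.2 + (κ * ((if s.1 + 1 = 0 then 1 else 0 : ℕ) : ZMod p) + H a s.1)) := by
          simp [sStep, ha]
        have := congrArg Prod.fst (e1.symm.trans h)
        simp only [] at this
        have h1 : (1 : ZMod (p ^ (e + 1))) = 0 := by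
          linear_combination this
        exact one_ne_zero h1)
      (by
        intro a s ha
        simp [sStep, ha])
      (fun q => g q.1 * q.2 ^ r) (0, 0)
    refine good_congr h (fun w => ?_)
    congr 1
    refine List.map_congr_left (fun s _ => ?_)
    congr 1
    funext v
    rw [run_sStep]
    simp [tauS]
  have h2 := (Good.finset_sum _ h1).comp (fun c : ZMod p => -c)
  refine good_congr h2 (fun w => ?_)
  have key : ∀ s : A, - ∑ κ ∈ (Finset.univ : Finset (ZMod p)).erase 0,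
      pfp s (fun v => g (cnt (· ∈ L) v : ZMod (p ^ (e + 1))) *
        (κ * (cross (· ∈ L) (0 : ZMod (p ^ (e + 1))) v : ZMod p) + etaS (· ∈ L) H 0 v) ^ r) w =
      pfp s (fun v => g (cnt (· ∈ L) v : ZMod (p ^ (e + 1))) * etaS (· ∈ L) H 0 v ^ r) w := by
    intro s
    rw [← pfp_sum, ← neg_one_mul, ← pfp_mul]
    congr 1
    funext v
    rw [← Finset.mul_sum, sum_erase_pow r hrp]
    ring
  simp only [← key]
  exact sum_swap_neg _ L _

theorem etaS_add {S : A → Prop} {N p : ℕ} (H₁ H₂ : A → ZMod N → ZMod p) (x : ZMod N) (w : List A) :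
    etaS S (fun a x => H₁ a x + H₂ a x) x w = etaS S H₁ x w + etaS S H₂ x w := by
  induction w generalizing x with
  | nil => simp [etaS]
  | cons a w ih =>
    by_cases ha : S a
    · simp only [etaS, ha, if_true, ih]
      ring
    · simp only [etaS, ha, if_false, ih]

/-- Polarisation: a family of functions closed under sums and scalars containing the powers of the
weighted sums contains the products of up to three weighted sums. -/
theorem poly_of_base {p e : ℕ} [Fact p.Prime] (hp5 : 5 ≤ p) {S : A → Prop}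
    (P : (List A → ZMod p) → Prop)
    (hadd : ∀ F G, P F → P G → P (fun v => F v + G v))
    (hsmul : ∀ (c : ZMod p) F, P F → P (fun v => c * F v))
    (g : ZMod (p ^ (e + 1)) → ZMod p)
    (base : ∀ (H : A → ZMod (p ^ (e + 1)) → ZMod p),
      (∀ a x, H a (x + ((p ^ e : ℕ) : ZMod (p ^ (e + 1)))) = H a x) → ∀ r : ℕ, r ≤ 3 →
        P (fun v => g (cnt S v : ZMod (p ^ (e + 1))) * etaS S H 0 v ^ r))
    {H₁ H₂ H₃ : A → ZMod (p ^ (e + 1)) → ZMod p}
    (h₁ : ∀ a x, H₁ a (x + ((p ^ e : ℕ) : ZMod (p ^ (e + 1)))) = H₁ a x)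
    (h₂ : ∀ a x, H₂ a (x + ((p ^ e : ℕ) : ZMod (p ^ (e + 1)))) = H₂ a x)
    (h₃ : ∀ a x, H₃ a (x + ((p ^ e : ℕ) : ZMod (p ^ (e + 1)))) = H₃ a x) :
    P (fun v => g (cnt S v : ZMod (p ^ (e + 1))) * (etaS S H₁ 0 v * etaS S H₂ 0 v * etaS S H₃ 0 v)) ∧
    P (fun v => g (cnt S v : ZMod (p ^ (e + 1))) * (etaS S H₁ 0 v * etaS S H₂ 0 v)) := by
  have hp : p.Prime := Fact.out
  have hc : ∀ n : ℕ, 0 < n → n < p → ((n : ℕ) : ZMod p) ≠ 0 := by
    intro n h0 hn h
    rw [ZMod.natCast_eq_zero_iff] at h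
    have := Nat.le_of_dvd h0 h
    omega
  have h2ne : (2 : ZMod p) ≠ 0 := by
    have := hc 2 (by norm_num) (by omega)
    simpa using this
  have h3ne : (3 : ZMod p) ≠ 0 := by
    have := hc 3 (by norm_num) (by omega)
    simpa using this
  have hsub : ∀ F G, P F → P G → P (fun v => F v - G v) := by
    intro F G hF hG
    have := hadd F _ hF (hsmul (-1) G hG)
    have e : (fun v => F v + -1 * G v) = fun v => F v - G v := by
      funext v
      ring
    rwa [e] at this
  set G : List A → ZMod p := fun v => g (cnt S v : ZMod (p ^ (e + 1))) with hG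
  have bP : ∀ (H H' : A → ZMod (p ^ (e + 1)) → ZMod p) (r : ℕ), r ≤ 3 →
      (∀ a x, H a (x + ((p ^ e : ℕ) : ZMod (p ^ (e + 1)))) = H a x) →
      (∀ a x, H' a (x + ((p ^ e : ℕ) : ZMod (p ^ (e + 1)))) = H' a x) →
      P (fun v => G v * (etaS S H 0 v + etaS S H' 0 v) ^ r) := by
    intro H H' r hr h h'
    have := base (fun a x => H a x + H' a x) (fun a x => by simp only [h, h']) r hr
    simpa only [etaS_add] using this
  have b3 : ∀ (H H' H'' : A → ZMod (p ^ (e + 1)) → ZMod p), 
      (∀ a x, H a (x + ((p ^ e : ℕ) : ZMod (p ^ (e + 1)))) = H a x) →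
      (∀ a x, H' a (x + ((p ^ e : ℕ) : ZMod (p ^ (e + 1)))) = H' a x) →
      (∀ a x, H'' a (x + ((p ^ e : ℕ) : ZMod (p ^ (e + 1)))) = H'' a x) →
      P (fun v => G v * (etaS S H 0 v + etaS S H' 0 v + etaS S H'' 0 v) ^ 3) := by
    intro H H' H'' h h' h''
    have := base (fun a x => H a x + H' a x + H'' a x) (fun a x => by simp only [h, h', h'']) 3 le_rfl
    simpa only [etaS_add] using this
  constructor
  · have key := hsmul (6 : ZMod p)⁻¹ _ (hadd _ _ (hadd _ _ (hadd _ _ (hsub _ _ (hsub _ _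
      (hsub _ _ (b3 H₁ H₂ H₃ h₁ h₂ h₃) (bP H₁ H₂ 3 le_rfl h₁ h₂)) (bP H₁ H₃ 3 le_rfl h₁ h₃))
      (bP H₂ H₃ 3 le_rfl h₂ h₃)) (base H₁ h₁ 3 le_rfl)) (base H₂ h₂ 3 le_rfl)) (base H₃ h₃ 3 le_rfl))
    refine Eq.mp (congrArg P (funext fun v => ?_)) key
    have h6 : (6 : ZMod p) ≠ 0 := by
      have : (6 : ZMod p) = 2 * 3 := by norm_num
      rw [this]
      exact mul_ne_zero h2ne h3ne
    field_simp
    ring
  · have key := hsmul (2 : ZMod p)⁻¹ _ (hsub _ _ (hsub _ _ (bP H₁ H₂ 2 (by norm_num) h₁ h₂)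
      (base H₁ h₁ 2 (by norm_num))) (base H₂ h₂ 2 (by norm_num)))
    refine Eq.mp (congrArg P (funext fun v => ?_)) key
    field_simp
    ring

end SumRoot

section ClockFamily

open Classical

variable {A : Type} {p : ℕ} [Fact p.Prime]

theorem sum_pfp_add (L : List A) (F G : List A → ZMod p) (w : List A) :
    (L.map fun s => pfp s (fun v => F v + G v) w).sum =
      (L.map fun s => pfp s F w).sum + (L.map fun s => pfp s G w).sum := by
  induction L with
  | nil => simp
  | cons t L ih =>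
    rw [List.map_cons, List.sum_cons, ih, List.map_cons, List.sum_cons, List.map_cons, List.sum_cons,
      pfp_add]
    ring

theorem sum_pfp_mul (L : List A) (c : ZMod p) (F : List A → ZMod p) (w : List A) :
    (L.map fun s => pfp s (fun v => c * F v) w).sum = c * (L.map fun s => pfp s F w).sum := by
  induction L with
  | nil => simp
  | cons t L ih =>
    rw [List.map_cons, List.sum_cons, ih, List.map_cons, List.sum_cons, pfp_mul]
    ring

/-- An inner flow: the sum over the occurrences of `t` of a power of the clock. -/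
noncomputable def etaP (S : A → Prop) (t : A) (m : ℕ) (v : List A) : ZMod p :=
  pfp t (fun u => ((cnt S u : ℕ) : ZMod p) ^ m) v

/-- The four families of products of a power of the clock with inner flows. -/
theorem clock_family [Fintype A] (hp5 : 5 ≤ p) {S : A → Prop} (P : (List A → ZMod p) → Prop)
    (hadd : ∀ F G, P F → P G → P (fun v => F v + G v))
    (hsmul : ∀ (c : ZMod p) F, P F → P (fun v => c * F v))
    (base : ∀ (H : A → ZMod (p ^ (1 + 1)) → ZMod p) (g : ZMod (p ^ (1 + 1)) → ZMod p),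
      (∀ a x, H a (x + ((p ^ 1 : ℕ) : ZMod (p ^ (1 + 1)))) = H a x) → ∀ r : ℕ, r ≤ 3 →
        P (fun v => g (cnt S v : ZMod (p ^ (1 + 1))) * etaS S H 0 v ^ r))
    (m : ℕ) (t₁ t₂ t₃ : A) (m₁ m₂ m₃ : ℕ) (h₁ : S t₁) (h₂ : S t₂)
    (h₃ : S t₃) :
    P (fun v => ((cnt S v : ℕ) : ZMod p) ^ m) ∧
    P (fun v => ((cnt S v : ℕ) : ZMod p) ^ m * etaP S t₁ m₁ v) ∧
    P (fun v => ((cnt S v : ℕ) : ZMod p) ^ m * (etaP S t₁ m₁ v * etaP S t₂ m₂ v)) ∧
    P (fun v => ((cnt S v : ℕ) : ZMod p) ^ m * (etaP S t₁ m₁ v * etaP S t₂ m₂ v * etaP S t₃ m₃ v)) := by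
  have hd : p ∣ p ^ (1 + 1) := dvd_pow_self p (by norm_num)
  let c : ZMod (p ^ (1 + 1)) →+* ZMod p := ZMod.castHom hd (ZMod p)
  have hc : ∀ n : ℕ, c (n : ZMod (p ^ (1 + 1))) = (n : ZMod p) := fun n => map_natCast c n
  have hcp : c (((p ^ 1 : ℕ) : ZMod (p ^ (1 + 1)))) = 0 := by
    rw [hc]
    simp
  let Hz : A → ℕ → A → ZMod (p ^ (1 + 1)) → ZMod p := fun t k a x => if a = t then c x ^ k else 0
  have hHz : ∀ t k a x, Hz t k a (x + ((p ^ 1 : ℕ) : ZMod (p ^ (1 + 1)))) = Hz t k a x := by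
    intro t k a x
    simp only [Hz, map_add, hcp, add_zero]
  have hEta : ∀ t k (v : List A), S t → etaS S (Hz t k) 0 v = etaP S t k v := by
    intro t k v ht
    have := etaS_eq_pfp (p := p) (S := S) (N := p ^ (1 + 1)) (z := t) ht (fun x => c x ^ k) 0 v
    simp only [Hz, etaP]
    rw [this]
    congr 1
    funext u
    rw [zero_add, hc]
  let g : ZMod (p ^ (1 + 1)) → ZMod p := fun x => c x ^ m
  have hg : ∀ v : List A, g (cnt S v : ZMod (p ^ (1 + 1))) = ((cnt S v : ℕ) : ZMod p) ^ m := by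
    intro v
    simp only [g, hc]
  have key := poly_of_base (e := 1) hp5 P hadd hsmul g (fun H hH r hr => base H g hH r hr)
    (hHz t₁ m₁) (hHz t₂ m₂) (hHz t₃ m₃)
  refine ⟨?_, ?_, ?_, ?_⟩
  · have := base (Hz t₁ m₁) g (hHz t₁ m₁) 0 (by norm_num)
    simpa only [pow_zero, mul_one, hg] using this
  · have := base (Hz t₁ m₁) g (hHz t₁ m₁) 1 (by norm_num)
    simpa only [pow_one, hg, hEta _ _ _ h₁] using this
  · have := key.2
    simpa only [hg, hEta _ _ _ h₁, hEta _ _ _ h₂] using this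
  · have := key.1
    simpa only [hg, hEta _ _ _ h₁, hEta _ _ _ h₂, hEta _ _ _ h₃] using this

/-- Flows through a letter outside the clock. -/
theorem stat_family (hp5 : 5 ≤ p) [Fintype A] {S : A → Prop} {y : A} (hy : ¬ S y) (m : ℕ)
    (t₁ t₂ t₃ : A) (m₁ m₂ m₃ : ℕ) (h₁ : S t₁) (h₂ : S t₂) (h₃ : S t₃) :
    Good (pfp y (fun v => ((cnt S v : ℕ) : ZMod p) ^ m)) ∧
    Good (pfp y (fun v => ((cnt S v : ℕ) : ZMod p) ^ m * etaP S t₁ m₁ v)) ∧
    Good (pfp y (fun v => ((cnt S v : ℕ) : ZMod p) ^ m * (etaP S t₁ m₁ v * etaP S t₂ m₂ v))) ∧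
    Good (pfp y (fun v => ((cnt S v : ℕ) : ZMod p) ^ m *
      (etaP S t₁ m₁ v * etaP S t₂ m₂ v * etaP S t₃ m₃ v))) := by
  refine clock_family hp5 (S := S) (fun F => Good (pfp y F)) ?_ ?_ ?_ m t₁ t₂ t₃ m₁ m₂ m₃
    h₁ h₂ h₃
  · intro F G hF hG
    have : pfp y (fun v => F v + G v) = fun w => pfp y F w + pfp y G w := by
      funext w
      exact pfp_add y F G w
    show Good (pfp y (fun v => F v + G v))
    rw [this]
    exact hF.add hG
  · intro c F hF
    have : pfp y (fun v => c * F v) = fun w => c * pfp y F w := by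
      funext w
      exact pfp_mul y c F w
    show Good (pfp y (fun v => c * F v))
    rw [this]
    exact (Good.const c).mul hF
  · intro H g hH r hr
    exact good_root_pow hy hH g r (by omega)

/-- Flows through all the letters of the clock together. -/
theorem summ_family (hp5 : 5 ≤ p) [Fintype A] {L : List A} (hL : L.Nodup) (m : ℕ)
    (t₁ t₂ t₃ : A) (m₁ m₂ m₃ : ℕ) (h₁ : t₁ ∈ L) (h₂ : t₂ ∈ L) (h₃ : t₃ ∈ L) :
    let Q := fun F : List A → ZMod p => fun w => (L.map fun s => pfp s F w).sum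
    Good (Q (fun v => ((cnt (· ∈ L) v : ℕ) : ZMod p) ^ m)) ∧
    Good (Q (fun v => ((cnt (· ∈ L) v : ℕ) : ZMod p) ^ m * etaP (· ∈ L) t₁ m₁ v)) ∧
    Good (Q (fun v => ((cnt (· ∈ L) v : ℕ) : ZMod p) ^ m * (etaP (· ∈ L) t₁ m₁ v * etaP (· ∈ L) t₂ m₂ v))) ∧
    Good (Q (fun v => ((cnt (· ∈ L) v : ℕ) : ZMod p) ^ m *
      (etaP (· ∈ L) t₁ m₁ v * etaP (· ∈ L) t₂ m₂ v * etaP (· ∈ L) t₃ m₃ v))) := by
  intro Q
  refine clock_family hp5 (S := (· ∈ L)) (fun F => Good (Q F)) ?_ ?_ ?_ m t₁ t₂ t₃ m₁ m₂ m₃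
    h₁ h₂ h₃
  · intro F G hF hG
    have : Q (fun v => F v + G v) = fun w => Q F w + Q G w := by
      funext w
      exact sum_pfp_add L F G w
    show Good (Q (fun v => F v + G v))
    rw [this]
    exact hF.add hG
  · intro c F hF
    have : Q (fun v => c * F v) = fun w => c * Q F w := by
      funext w
      exact sum_pfp_mul L c F w
    show Good (Q (fun v => c * F v))
    rw [this]
    exact (Good.const c).mul hF
  · intro H g hH r hr
    exact good_sum_root L hL hH g r (by omega)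

end ClockFamily


section Lists

variable {A : Type} [DecidableEq A]

/-- The words of a product of two sums of counts. -/
def mulK (l l' : List (List A)) : List (List A) := l.flatMap (fun u => l'.flatMap (infl u))

theorem rs_flatMap_inflK (u : List A) (l' : List (List A)) (w : List A) :
    rs (l'.flatMap (infl u)) w = rc u w * rs l' w := by
  induction l' with
  | nil => simp
  | cons v l' ih =>
    rw [List.flatMap_cons, rs_append, ih, ← rc_mul, rs_cons]
    ring

theorem rs_mulK (l l' : List (List A)) (w : List A) : rs (mulK l l') w = rs l w * rs l' w := by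
  induction l with
  | nil => simp [mulK]
  | cons u l ih =>
    have e : mulK (u :: l) l' = l'.flatMap (infl u) ++ mulK l l' := by simp [mulK]
    rw [e, rs_append, rs_flatMap_inflK, ih, rs_cons]
    ring

/-- The words of the clock: one letter each. -/
def xK (L : List A) : List (List A) := L.map (fun a => [a])

/-- The words of a power. -/
def powK (l : List (List A)) : ℕ → List (List A)
  | 0 => [[]]
  | m + 1 => mulK (powK l m) l

theorem rs_powK (l : List (List A)) (m : ℕ) (w : List A) : rs (powK l m) w = rs l w ^ m := by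
  induction m with
  | zero => simp [powK]
  | succ m ih => rw [powK, rs_mulK, ih, pow_succ]

/-- The words of an inner flow. -/
def etaK (L : List A) (f : A × ℕ) : List (List A) := (powK (xK L) f.2).map (f.1 :: ·)

/-- The words of a power of the clock times inner flows. -/
def fK (L : List A) (m : ℕ) : List (A × ℕ) → List (List A)
  | [] => powK (xK L) m
  | f :: fs => mulK (etaK L f) (fK L m fs)

theorem rs_xK_snoc (L : List A) (hL : L.Nodup) (w : List A) (t : A) :
    rs (xK L) (w ++ [t]) = rs (xK L) w + if t ∈ L then 1 else 0 := by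
  induction L with
  | nil => simp [xK]
  | cons a L ih =>
    have hL' := List.nodup_cons.1 hL
    have e := ih hL'.2
    simp only [xK, List.map_cons, rs_cons] at e ⊢
    rw [e, rc_snoc]
    simp only [rc_nil_left]
    by_cases hta : t = a
    · subst hta
      simp [hL'.1]
      ring
    · have hat : ¬ a = t := fun h => hta h.symm
      by_cases htL : t ∈ L
      · simp only [hat, if_false, List.mem_cons, hta, htL, or_true, if_true]
        ring
      · simp only [hat, if_false, List.mem_cons, hta, htL, or_false]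
        ring

theorem rs_xK (L : List A) (hL : L.Nodup) (w : List A) : rs (xK L) w = cnt (· ∈ L) w := by
  classical
  induction w using List.reverseRecOn with
  | nil =>
    simp only [cnt_nil]
    induction L with
    | nil => simp [xK]
    | cons a L ih =>
      have := ih (List.nodup_cons.1 hL).2
      simpa [xK, rs] using this
  | append_singleton w t ih =>
    rw [rs_xK_snoc L hL, ih, cnt_append]
    simp only [cnt_cons, cnt_nil, add_zero]
    by_cases ht : t ∈ L
    · simp [ht]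
    · simp [ht]

theorem cast_rs_map_cons {p : ℕ} (t : A) (l : List (List A)) (w : List A) :
    ((rs (l.map (t :: ·)) w : ℕ) : ZMod p) = pfp t (fun v => ((rs l v : ℕ) : ZMod p)) w := by
  induction w using List.reverseRecOn with
  | nil => simp [rs_map_cons_nil]
  | append_singleton w a ih =>
    rw [rs_map_cons_snoc, pfp_snoc, ← ih]
    push_cast
    by_cases h : t = a
    · subst h
      simp
    · have h' : ¬ a = t := fun e => h e.symm
      simp [h, h']

variable {p : ℕ} [Fact p.Prime]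

theorem cast_rs_etaK (L : List A) (hL : L.Nodup) (f : A × ℕ) (w : List A) :
    ((rs (etaK L f) w : ℕ) : ZMod p) = etaP (· ∈ L) f.1 f.2 w := by
  unfold etaK etaP
  rw [cast_rs_map_cons]
  congr 1
  funext v
  rw [rs_powK, rs_xK L hL]
  push_cast
  rfl

variable [Fintype A]

/-- The values of the words of a power of the clock times inner flows. -/
theorem cast_rs_fK (L : List A) (hL : L.Nodup) (m : ℕ) (f₁ f₂ f₃ : A × ℕ) (w : List A) :
    ((rs (fK L m []) w : ℕ) : ZMod p) = ((cnt (· ∈ L) w : ℕ) : ZMod p) ^ m ∧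
    ((rs (fK L m [f₁]) w : ℕ) : ZMod p) =
      ((cnt (· ∈ L) w : ℕ) : ZMod p) ^ m * etaP (· ∈ L) f₁.1 f₁.2 w ∧
    ((rs (fK L m [f₁, f₂]) w : ℕ) : ZMod p) =
      ((cnt (· ∈ L) w : ℕ) : ZMod p) ^ m * (etaP (· ∈ L) f₁.1 f₁.2 w * etaP (· ∈ L) f₂.1 f₂.2 w) ∧
    ((rs (fK L m [f₁, f₂, f₃]) w : ℕ) : ZMod p) =
      ((cnt (· ∈ L) w : ℕ) : ZMod p) ^ m *
        (etaP (· ∈ L) f₁.1 f₁.2 w * etaP (· ∈ L) f₂.1 f₂.2 w * etaP (· ∈ L) f₃.1 f₃.2 w) := by
  have hX : ((rs (powK (xK L) m) w : ℕ) : ZMod p) = ((cnt (· ∈ L) w : ℕ) : ZMod p) ^ m := by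
    rw [rs_powK, rs_xK L hL]
    push_cast
    rfl
  refine ⟨hX, ?_, ?_, ?_⟩
  · simp only [fK, rs_mulK]
    push_cast
    rw [hX, cast_rs_etaK L hL]
    push_cast
    ring
  · simp only [fK, rs_mulK]
    push_cast
    rw [hX, cast_rs_etaK L hL, cast_rs_etaK L hL]
    push_cast
    ring
  · simp only [fK, rs_mulK]
    push_cast
    rw [hX, cast_rs_etaK L hL, cast_rs_etaK L hL, cast_rs_etaK L hL]
    push_cast
    ring

theorem gi_statK (hp5 : 5 ≤ p) (L : List A) (hL : L.Nodup) (hne : L ≠ []) (y : A) (hy : y ∉ L) (m : ℕ)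
    (fs : List (A × ℕ)) (hfs : ∀ f ∈ fs, f.1 ∈ L) (hlen : fs.length ≤ 3) :
    Gi p (fun w => rz ((fK L m fs).map (y :: ·)) w) := by
  have e : ∀ F : List A → ZMod p, (∀ w, ((rs (fK L m fs) w : ℕ) : ZMod p) = F w) →
      Good (pfp y F) → Gi p (fun w => rz ((fK L m fs).map (y :: ·)) w) := by
    intro F hF hG
    refine good_congr hG (fun w => ?_)
    simp only [rz, Int.cast_natCast]
    rw [cast_rs_map_cons]
    congr 1
    funext v
    exact (hF v).symm
  obtain ⟨t₀, ht₀⟩ := List.exists_mem_of_ne_nil L hne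
  have hy' : ¬ (· ∈ L) y := hy
  match fs, hfs, hlen, e with
  | [], _, _, e =>
    exact e _ (fun w => (cast_rs_fK L hL m (t₀, 0) (t₀, 0) (t₀, 0) w).1)
      (stat_family hp5 hy' m t₀ t₀ t₀ 0 0 0 ht₀ ht₀ ht₀).1
  | [f₁], hfs, _, e =>
    have h₁ : f₁.1 ∈ L := hfs f₁ (by simp)
    exact e _ (fun w => (cast_rs_fK L hL m f₁ (t₀, 0) (t₀, 0) w).2.1)
      (stat_family hp5 hy' m f₁.1 t₀ t₀ f₁.2 0 0 h₁ ht₀ ht₀).2.1
  | [f₁, f₂], hfs, _, e =>
    have h₁ : f₁.1 ∈ L := hfs f₁ (by simp)
    have h₂ : f₂.1 ∈ L := hfs f₂ (by simp)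
    exact e _ (fun w => (cast_rs_fK L hL m f₁ f₂ (t₀, 0) w).2.2.1)
      (stat_family hp5 hy' m f₁.1 f₂.1 t₀ f₁.2 f₂.2 0 h₁ h₂ ht₀).2.2.1
  | [f₁, f₂, f₃], hfs, _, e =>
    have h₁ : f₁.1 ∈ L := hfs f₁ (by simp)
    have h₂ : f₂.1 ∈ L := hfs f₂ (by simp)
    have h₃ : f₃.1 ∈ L := hfs f₃ (by simp)
    exact e _ (fun w => (cast_rs_fK L hL m f₁ f₂ f₃ w).2.2.2)
      (stat_family hp5 hy' m f₁.1 f₂.1 f₃.1 f₁.2 f₂.2 f₃.2 h₁ h₂ h₃).2.2.2
  | _ :: _ :: _ :: _ :: _, _, hlen, _ =>
    simp at hlen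
    omega

theorem gi_summK (hp5 : 5 ≤ p) (L : List A) (hL : L.Nodup) (hne : L ≠ []) (m : ℕ)
    (fs : List (A × ℕ)) (hfs : ∀ f ∈ fs, f.1 ∈ L) (hlen : fs.length ≤ 3) :
    Gi p (fun w => rz (L.flatMap fun s => (fK L m fs).map (s :: ·)) w) := by
  have hsum : ∀ (l : List (List A)) (L' : List A) (w : List A),
      ((rs (L'.flatMap fun s => l.map (s :: ·)) w : ℕ) : ZMod p) =
        (L'.map fun s => pfp s (fun v => ((rs l v : ℕ) : ZMod p)) w).sum := by
    intro l L' w
    induction L' with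
    | nil => simp
    | cons t L' ih =>
      rw [List.flatMap_cons, rs_append, Nat.cast_add, ih, cast_rs_map_cons]
      simp
  have e : ∀ F : List A → ZMod p, (∀ w, ((rs (fK L m fs) w : ℕ) : ZMod p) = F w) →
      Good (fun w => (L.map fun s => pfp s F w).sum) →
      Gi p (fun w => rz (L.flatMap fun s => (fK L m fs).map (s :: ·)) w) := by
    intro F hF hG
    refine good_congr hG (fun w => ?_)
    simp only [rz, Int.cast_natCast]
    rw [hsum]
    have : (fun v => ((rs (fK L m fs) v : ℕ) : ZMod p)) = F := funext hF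
    rw [this]
  obtain ⟨t₀, ht₀⟩ := List.exists_mem_of_ne_nil L hne
  match fs, hfs, hlen, e with
  | [], _, _, e =>
    exact e _ (fun w => (cast_rs_fK L hL m (t₀, 0) (t₀, 0) (t₀, 0) w).1)
      (summ_family hp5 hL m t₀ t₀ t₀ 0 0 0 ht₀ ht₀ ht₀).1
  | [f₁], hfs, _, e =>
    have h₁ : f₁.1 ∈ L := hfs f₁ (by simp)
    exact e _ (fun w => (cast_rs_fK L hL m f₁ (t₀, 0) (t₀, 0) w).2.1)
      (summ_family hp5 hL m f₁.1 t₀ t₀ f₁.2 0 0 h₁ ht₀ ht₀).2.1
  | [f₁, f₂], hfs, _, e =>
    have h₁ : f₁.1 ∈ L := hfs f₁ (by simp)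
    have h₂ : f₂.1 ∈ L := hfs f₂ (by simp)
    exact e _ (fun w => (cast_rs_fK L hL m f₁ f₂ (t₀, 0) w).2.2.1)
      (summ_family hp5 hL m f₁.1 f₂.1 t₀ f₁.2 f₂.2 0 h₁ h₂ ht₀).2.2.1
  | [f₁, f₂, f₃], hfs, _, e =>
    have h₁ : f₁.1 ∈ L := hfs f₁ (by simp)
    have h₂ : f₂.1 ∈ L := hfs f₂ (by simp)
    have h₃ : f₃.1 ∈ L := hfs f₃ (by simp)
    exact e _ (fun w => (cast_rs_fK L hL m f₁ f₂ f₃ w).2.2.2)
      (summ_family hp5 hL m f₁.1 f₂.1 f₃.1 f₁.2 f₂.2 f₃.2 h₁ h₂ h₃).2.2.2
  | _ :: _ :: _ :: _ :: _, _, hlen, _ =>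
    simp at hlen
    omega

end Lists

end Vale.Agent.Lib.P329
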