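import Vale.Agent.Lib.P329.Level

/-!
Subsequence counts of length at most three modulo `n` have generalized star height at most one.
-/

namespace Vale.Agent.Lib.P329

variable {A : Type} [DecidableEq A]

/-- Number of occurrences of `u` as a subsequence of `w`. -/
def subCount (u w : List A) : ℕ := w.sublists.count u

theorem subCount_nil_right (u : List A) (hu : u ≠ []) : subCount u [] = 0 := by
  simp [subCount, List.count_cons, hu.symm]

theorem subCount_snoc_gen (u : List A) (w : List A) (a : A) :
    subCount u (w ++ [a]) = subCount u w + (w.sublists.map (fun x => x ++ [a])).count u := by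
  simp [subCount, List.sublists_concat, List.count_append]

theorem subCount_snoc (u : List A) (b : A) (w : List A) (a : A) :
    subCount (u ++ [b]) (w ++ [a]) =
      subCount (u ++ [b]) w + if b = a then subCount u w else 0 := by
  rw [subCount_snoc_gen]
  congr 1
  by_cases h : b = a
  · subst h
    simp only [if_true]
    exact List.count_map_of_injective _ (fun x => x ++ [b]) (List.append_left_injective _) u
  · simp only [h, if_false]
    apply List.count_eq_zero.2
    intro hmem
    obtain ⟨x, _, hx⟩ := List.mem_map.1 hmem
    have := List.append_inj_right' hx rfl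
    simp at this
    exact h this.symm

@[simp] theorem subCount_nil_left (w : List A) : subCount [] w = 1 := by
  induction w using List.reverseRecOn with
  | nil => simp [subCount]
  | append_singleton w a ih =>
    rw [subCount_snoc_gen, ih]
    simp only [add_eq_left]
    apply List.count_eq_zero.2
    intro hmem
    obtain ⟨x, _, hx⟩ := List.mem_map.1 hmem
    simp at hx

theorem subCount_snoc1 (y : A) (w : List A) (a : A) :
    subCount [y] (w ++ [a]) = subCount [y] w + if y = a then 1 else 0 := by
  have := subCount_snoc [] y w a
  simpa using this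

theorem subCount_snoc2 (x y : A) (w : List A) (a : A) :
    subCount [x, y] (w ++ [a]) = subCount [x, y] w + if y = a then subCount [x] w else 0 :=
  subCount_snoc [x] y w a

theorem subCount_snoc3 (x y z : A) (w : List A) (a : A) :
    subCount [x, y, z] (w ++ [a]) =
      subCount [x, y, z] w + if z = a then subCount [x, y] w else 0 :=
  subCount_snoc [x, y] z w a

theorem cntL_snoc (X : A → Prop) [DecidablePred X] (w : List A) (a : A) :
    cntL X (w ++ [a]) = cntL X w + if X a then 1 else 0 := by
  rw [cntL_append]
  simp

/-- The single letter count. -/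
theorem subCount_one (x : A) (w : List A) : subCount [x] w = cntL (· = x) w := by
  induction w using List.reverseRecOn with
  | nil => simp [subCount]
  | append_singleton w a ih =>
    rw [subCount_snoc1, cntL_snoc, ih]
    by_cases h : a = x
    · simp [h]
    · simp [h, Ne.symm h]

section ChooseLemmas

theorem choose_two_add (a b : ℕ) : (a + b).choose 2 = a.choose 2 + a * b + b.choose 2 := by
  induction b with
  | zero => simp
  | succ b ih =>
    rw [← add_assoc, Nat.choose_succ_succ' (a + b) 1, Nat.choose_one_right, ih,
      Nat.choose_succ_succ' b 1, Nat.choose_one_right]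
    ring

theorem choose_three_add (a b : ℕ) :
    (a + b).choose 3 = a.choose 3 + a.choose 2 * b + a * b.choose 2 + b.choose 3 := by
  induction b with
  | zero => simp
  | succ b ih =>
    rw [← add_assoc, Nat.choose_succ_succ' (a + b) 2, choose_two_add, ih,
      Nat.choose_succ_succ' b 2, Nat.choose_succ_succ' b 1, Nat.choose_one_right]
    ring

theorem choose_two_mul (n : ℕ) : (2 * n).choose 2 = n * (2 * n - 1) := by
  have h := Nat.descFactorial_eq_factorial_mul_choose (2 * n) 2
  simp only [Nat.descFactorial, Nat.factorial] at h
  rcases n with _ | m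
  · simp
  · have h2 : 2 * (m + 1) - 1 = 2 * m + 1 := by omega
    have h3 : 2 * (m + 1) - 0 = 2 * (m + 1) := by omega
    simp only [Nat.sub_zero, Nat.mul_one, Nat.one_mul, h2] at h ⊢
    nlinarith

theorem choose_two_six (n : ℕ) : (6 * n).choose 2 = 3 * n * (6 * n - 1) := by
  have := choose_two_mul (3 * n)
  rw [show 2 * (3 * n) = 6 * n by ring] at this
  exact this

theorem choose_three_six (n : ℕ) : (6 * n).choose 3 = n * ((6 * n - 1) * (6 * n - 2)) := by
  have h := Nat.descFactorial_eq_factorial_mul_choose (6 * n) 3
  simp only [Nat.descFactorial, Nat.factorial] at h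
  rcases n with _ | m
  · simp
  · have h2 : 6 * (m + 1) - 1 = 6 * m + 5 := by omega
    have h3 : 6 * (m + 1) - 2 = 6 * m + 4 := by omega
    have h4 : 6 * (m + 1) - 0 = 6 * (m + 1) := by omega
    simp only [Nat.sub_zero, h2, h3] at h ⊢
    nlinarith

variable {n : ℕ}

theorem choose_two_period (k : ℕ) :
    (((k + 2 * n).choose 2 : ℕ) : ZMod n) = ((k.choose 2 : ℕ) : ZMod n) := by
  rw [choose_two_add, choose_two_mul]
  push_cast
  simp

theorem choose_three_period (k : ℕ) :
    (((k + 6 * n).choose 3 : ℕ) : ZMod n) = ((k.choose 3 : ℕ) : ZMod n) := by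
  rw [choose_three_add, choose_two_six, choose_three_six]
  push_cast
  simp

end ChooseLemmas

section Identities

variable {R : Type} [CommRing R]

theorem subCount_two_ne {x y : A} (hxy : x ≠ y) (w : List A) :
    ((subCount [x, y] w : ℕ) : R) = lvlSum (· = x) (· = y) (fun k => (k : R)) 0 w := by
  induction w using List.reverseRecOn with
  | nil => simp [subCount, lvlSum]
  | append_singleton w a ih =>
    rw [subCount_snoc2, lvlSum_snoc, Nat.cast_add, ih, subCount_one]
    by_cases h : a = y
    · simp [h]
    · simp [h, Ne.symm h]

theorem subCount_two_eq (x : A) (w : List A) :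
    subCount [x, x] w = (cntL (· = x) w).choose 2 := by
  induction w using List.reverseRecOn with
  | nil => simp [subCount]
  | append_singleton w a ih =>
    rw [subCount_snoc2, cntL_snoc, ih, subCount_one]
    by_cases h : a = x
    · simp only [h, if_true, Nat.choose_succ_succ' _ 1, Nat.choose_one_right]
      ring
    · simp [h, Ne.symm h]

theorem subCount_three_eq (x : A) (w : List A) :
    subCount [x, x, x] w = (cntL (· = x) w).choose 3 := by
  induction w using List.reverseRecOn with
  | nil => simp [subCount]
  | append_singleton w a ih =>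
    rw [subCount_snoc3, cntL_snoc, ih, subCount_two_eq]
    by_cases h : a = x
    · simp only [h, if_true, Nat.choose_succ_succ' _ 2]
      ring
    · simp [h, Ne.symm h]

theorem subCount_xxz {x z : A} (hxz : x ≠ z) (w : List A) :
    ((subCount [x, x, z] w : ℕ) : R) =
      lvlSum (· = x) (· = z) (fun k => ((k.choose 2 : ℕ) : R)) 0 w := by
  induction w using List.reverseRecOn with
  | nil => simp [subCount, lvlSum]
  | append_singleton w a ih =>
    rw [subCount_snoc3, lvlSum_snoc, Nat.cast_add, ih, subCount_two_eq]
    by_cases h : a = z
    · simp [h]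
    · simp [h, Ne.symm h]

theorem subCount_xyx {x y : A} (hxy : x ≠ y) (w : List A) :
    ((subCount [x, y, x] w : ℕ) : R) =
      ((cntL (· = x) w : ℕ) : R) * lvlSum (· = x) (· = y) (fun k => (k : R)) 0 w -
        lvlSum (· = x) (· = y) (fun k => (k : R) * (k : R)) 0 w := by
  induction w using List.reverseRecOn with
  | nil => simp [subCount, lvlSum]
  | append_singleton w a ih =>
    rw [subCount_snoc3, lvlSum_snoc, lvlSum_snoc, cntL_snoc, Nat.cast_add, ih]
    by_cases h : a = x
    · subst h
      simp only [hxy, if_false, if_true, add_zero, Nat.cast_add, Nat.cast_one,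
        subCount_two_ne hxy w (R := R)]
      ring
    · by_cases h2 : a = y
      · subst h2
        simp only [Ne.symm h, h, if_true, if_false, add_zero, zero_add]
        ring
      · simp [h, h2, Ne.symm h]

/-- Pairs: `C(xy) + C(yx) = #x * #y` for different letters. -/
theorem subCount_pair_add {x y : A} (hxy : x ≠ y) (w : List A) :
    subCount [x, y] w + subCount [y, x] w = cntL (· = x) w * cntL (· = y) w := by
  induction w using List.reverseRecOn with
  | nil => simp [subCount]
  | append_singleton w a ih =>
    rw [subCount_snoc2, subCount_snoc2, cntL_snoc, cntL_snoc, subCount_one, subCount_one]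
    by_cases h : a = x
    · subst h
      simp only [hxy, Ne.symm hxy, if_true, if_false, add_zero]
      nlinarith
    · by_cases h2 : a = y
      · subst h2
        simp only [h, Ne.symm h, if_true, if_false, add_zero]
        nlinarith
      · simp [h, h2, Ne.symm h, Ne.symm h2]
        exact ih

theorem two_mul_choose_two (k : ℕ) : 2 * ((k.choose 2 : ℕ) : R) = (k : R) * k - k := by
  induction k with
  | zero => simp
  | succ k ih =>
    rw [Nat.choose_succ_succ' k 1, Nat.choose_one_right]
    push_cast
    rw [mul_add, ih]
    ring

theorem subCount_xyy {x y : A} (hxy : x ≠ y) (w : List A) :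
    ((subCount [x, y, y] w : ℕ) : R) =
      ((cntL (· = x) w : ℕ) : R) * (((cntL (· = y) w).choose 2 : ℕ) : R) -
        ((cntL (· = y) w : ℕ) : R) * lvlSum (· = y) (· = x) (fun k => (k : R)) 0 w +
        lvlSum (· = y) (· = x) (fun k => (((k + 1).choose 2 : ℕ) : R)) 0 w := by
  induction w using List.reverseRecOn with
  | nil => simp [subCount, lvlSum]
  | append_singleton w a ih =>
    rw [subCount_snoc3, lvlSum_snoc, lvlSum_snoc, cntL_snoc, cntL_snoc, Nat.cast_add, ih]
    by_cases h : a = x
    · subst h
      simp only [Ne.symm hxy, hxy, if_true, if_false, add_zero, zero_add, Nat.cast_add,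
        Nat.cast_one]
      rw [Nat.choose_succ_succ' _ 1, Nat.choose_one_right]
      push_cast
      have := two_mul_choose_two (R := R) (cntL (· = y) w)
      linear_combination -this
    · by_cases h2 : a = y
      · subst h2
        simp only [h, Ne.symm h, if_true, if_false, add_zero, zero_add, Nat.cast_add, Nat.cast_one]
        have hc := congrArg (fun t : ℕ => (t : R)) (subCount_pair_add hxy w)
        simp only [Nat.cast_add, Nat.cast_mul] at hc
        have hc2 := subCount_two_ne (R := R) (Ne.symm hxy) w
        rw [Nat.choose_succ_succ' _ 1, Nat.choose_one_right]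
        push_cast
        rw [hc2] at hc
        linear_combination hc
      · simp [h, h2, Ne.symm h, Ne.symm h2]

theorem cntL_two {x z : A} (hxz : x ≠ z) (w : List A) :
    cntL (fun a => a = x ∨ a = z) w = cntL (· = x) w + cntL (· = z) w := by
  induction w with
  | nil => simp
  | cons a w ih =>
    simp only [cntL_cons, ih]
    by_cases h : a = x
    · subst h
      simp [hxz]
      ring
    · by_cases h2 : a = z
      · subst h2
        simp [h]
        ring
      · simp [h, h2]

/-- The polarization identity for three different letters. -/
theorem subCount_xyz {x y z : A} (hxy : x ≠ y) (hyz : y ≠ z) (hxz : x ≠ z) (w : List A) :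
    ((subCount [x, y, z] w : ℕ) : R) =
      ((cntL (· = z) w : ℕ) : R) * lvlSum (· = x) (· = y) (fun k => (k : R)) 0 w -
        lvlSum (fun a => a = x ∨ a = z) (· = y) (fun k => ((k.choose 2 : ℕ) : R)) 0 w +
        lvlSum (· = x) (· = y) (fun k => ((k.choose 2 : ℕ) : R)) 0 w +
        lvlSum (· = z) (· = y) (fun k => ((k.choose 2 : ℕ) : R)) 0 w := by
  induction w using List.reverseRecOn with
  | nil => simp [subCount, lvlSum]
  | append_singleton w a ih =>
    rw [subCount_snoc3, lvlSum_snoc, lvlSum_snoc, lvlSum_snoc, lvlSum_snoc, cntL_snoc,
      Nat.cast_add, ih]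
    by_cases h : a = y
    · subst h
      simp only [Ne.symm hyz, hyz, if_true, if_false, add_zero, zero_add, Nat.cast_add]
      rw [cntL_two hxz, choose_two_add]
      push_cast
      ring
    · by_cases h2 : a = z
      · subst h2
        simp only [h, if_true, if_false, add_zero, zero_add, Nat.cast_add, Nat.cast_one,
          subCount_two_ne hxy w (R := R)]
        ring
      · simp [h, h2, Ne.symm h2]

end Identities

section GoodCounts

variable [Finite A] {n : ℕ} [NeZero n]

theorem good_lvl_id {x y : A} (hxy : x ≠ y) :
    Good (fun w : List A => lvlSum (· = x) (· = y) (fun k => (k : ZMod n)) 0 w) := by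
  refine good_lvlSum _ _ (fun a h1 h2 => hxy (h1.symm.trans h2)) (N := n)
    (Nat.pos_of_ne_zero (NeZero.ne n)) _ (fun i => ?_)
  simp

theorem good_lvl_sq {x y : A} (hxy : x ≠ y) :
    Good (fun w : List A => lvlSum (· = x) (· = y) (fun k => (k : ZMod n) * (k : ZMod n)) 0 w) := by
  refine good_lvlSum _ _ (fun a h1 h2 => hxy (h1.symm.trans h2)) (N := n)
    (Nat.pos_of_ne_zero (NeZero.ne n)) _ (fun i => ?_)
  simp

theorem good_lvl_choose {X : A → Prop} [DecidablePred X] {y : A} (hX : ∀ a, X a → a ≠ y) :
    Good (fun w : List A => lvlSum X (· = y) (fun k => ((k.choose 2 : ℕ) : ZMod n)) 0 w) := by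
  refine good_lvlSum _ _ (fun a h1 h2 => hX a h1 h2) (N := 2 * n)
    (Nat.mul_pos (by norm_num) (Nat.pos_of_ne_zero (NeZero.ne n))) _ (fun i => ?_)
  exact choose_two_period i

theorem good_lvl_choose' {x y : A} (hxy : x ≠ y) :
    Good (fun w : List A => lvlSum (· = x) (· = y) (fun k => (((k + 1).choose 2 : ℕ) : ZMod n)) 0 w) := by
  refine good_lvlSum _ _ (fun a h1 h2 => hxy (h1.symm.trans h2)) (N := 2 * n)
    (Nat.mul_pos (by norm_num) (Nat.pos_of_ne_zero (NeZero.ne n))) _ (fun i => ?_)
  have := choose_two_period (n := n) (i + 1)
  rwa [show i + 1 + 2 * n = i + 2 * n + 1 by ring] at this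

theorem good_cnt_cast (x : A) : Good (fun w : List A => ((cntL (· = x) w : ℕ) : ZMod n)) := by
  refine good_fun_cntL _ (N := n) (Nat.pos_of_ne_zero (NeZero.ne n)) (fun k => (k : ZMod n))
    (fun i => ?_)
  simp

theorem good_cnt_choose2 (x : A) :
    Good (fun w : List A => (((cntL (· = x) w).choose 2 : ℕ) : ZMod n)) := by
  refine good_fun_cntL _ (N := 2 * n)
    (Nat.mul_pos (by norm_num) (Nat.pos_of_ne_zero (NeZero.ne n))) (fun k => ((k.choose 2 : ℕ) : ZMod n))
    (fun i => ?_)
  exact choose_two_period i

theorem good_cnt_choose3 (x : A) :
    Good (fun w : List A => (((cntL (· = x) w).choose 3 : ℕ) : ZMod n)) := by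
  refine good_fun_cntL _ (N := 6 * n)
    (Nat.mul_pos (by norm_num) (Nat.pos_of_ne_zero (NeZero.ne n))) (fun k => ((k.choose 3 : ℕ) : ZMod n))
    (fun i => ?_)
  exact choose_three_period i

/-- All subsequence counts of length at most `3` are good modulo every `n`. -/
theorem good_subCount (u : List A) (hu : u.length ≤ 3) :
    Good (fun w : List A => ((subCount u w : ℕ) : ZMod n)) := by
  match u, hu with
  | [], _ =>
    simpa using Good.const (A := A) (1 : ZMod n)
  | [x], _ =>
    simpa only [subCount_one] using good_cnt_cast x
  | [x, y], _ =>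
    by_cases hxy : x = y
    · subst hxy
      simpa only [subCount_two_eq] using good_cnt_choose2 x
    · have : (fun w : List A => ((subCount [x, y] w : ℕ) : ZMod n)) =
          fun w => lvlSum (· = x) (· = y) (fun k => (k : ZMod n)) 0 w := by
        funext w; exact subCount_two_ne hxy w
      rw [this]
      exact good_lvl_id hxy
  | [x, y, z], _ =>
    by_cases hxy : x = y
    · subst hxy
      by_cases hxz : x = z
      · subst hxz
        simpa only [subCount_three_eq] using good_cnt_choose3 x
      · have : (fun w : List A => ((subCount [x, x, z] w : ℕ) : ZMod n)) =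
            fun w => lvlSum (· = x) (· = z) (fun k => ((k.choose 2 : ℕ) : ZMod n)) 0 w := by
          funext w; exact subCount_xxz hxz w
        rw [this]
        exact good_lvl_choose (fun a h1 h2 => hxz (h1.symm.trans h2))
    · by_cases hyz : y = z
      · subst hyz
        have : (fun w : List A => ((subCount [x, y, y] w : ℕ) : ZMod n)) =
            fun w => ((cntL (· = x) w : ℕ) : ZMod n) * (((cntL (· = y) w).choose 2 : ℕ) : ZMod n) -
              ((cntL (· = y) w : ℕ) : ZMod n) * lvlSum (· = y) (· = x) (fun k => (k : ZMod n)) 0 w +
              lvlSum (· = y) (· = x) (fun k => (((k + 1).choose 2 : ℕ) : ZMod n)) 0 w := by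
          funext w; exact subCount_xyy hxy w
        rw [this]
        exact (((good_cnt_cast x).mul (good_cnt_choose2 y)).sub
          ((good_cnt_cast y).mul (good_lvl_id (Ne.symm hxy)))).add (good_lvl_choose' (Ne.symm hxy))
      · by_cases hxz : x = z
        · subst hxz
          have : (fun w : List A => ((subCount [x, y, x] w : ℕ) : ZMod n)) =
              fun w => ((cntL (· = x) w : ℕ) : ZMod n) *
                  lvlSum (· = x) (· = y) (fun k => (k : ZMod n)) 0 w -
                lvlSum (· = x) (· = y) (fun k => (k : ZMod n) * (k : ZMod n)) 0 w := by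
            funext w; exact subCount_xyx hxy w
          rw [this]
          exact ((good_cnt_cast x).mul (good_lvl_id hxy)).sub (good_lvl_sq hxy)
        · have : (fun w : List A => ((subCount [x, y, z] w : ℕ) : ZMod n)) =
              fun w => ((cntL (· = z) w : ℕ) : ZMod n) *
                  lvlSum (· = x) (· = y) (fun k => (k : ZMod n)) 0 w -
                lvlSum (fun a => a = x ∨ a = z) (· = y) (fun k => ((k.choose 2 : ℕ) : ZMod n)) 0 w +
                lvlSum (· = x) (· = y) (fun k => ((k.choose 2 : ℕ) : ZMod n)) 0 w +
                lvlSum (· = z) (· = y) (fun k => ((k.choose 2 : ℕ) : ZMod n)) 0 w := by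
            funext w; exact subCount_xyz hxy hyz hxz w
          rw [this]
          refine ((((good_cnt_cast z).mul (good_lvl_id hxy)).sub ?_).add ?_).add ?_
          · refine good_lvl_choose (fun a h h2 => ?_)
            subst h2
            rcases h with h | h
            · exact hxy h.symm
            · exact hyz h
          · exact good_lvl_choose (fun a h h2 => hxy (h.symm.trans h2))
          · exact good_lvl_choose (fun a h h2 => hyz (h2.symm.trans h))

end GoodCounts

/-- **Subsequence counts of length at most three.**  For a finite alphabet, a word `u` of length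
at most `3`, `n > 0` and any residue `k`, the set of words in which `u` occurs as a subsequence a
number of times congruent to `k` modulo `n` has generalized star height at most `1`. -/
theorem heightLE_subCount [Finite A] (u : List A) (hu : u.length ≤ 3) (n : ℕ) (hn : 0 < n) (k : ℕ) :
    HeightLE 1 {w : List A | w.sublists.count u % n = k} := by
  classical
  have : NeZero n := ⟨hn.ne'⟩
  by_cases hk : k < n
  · have : {w : List A | w.sublists.count u % n = k} =
        {w : List A | ((subCount u w : ℕ) : ZMod n) = (k : ZMod n)} := by
      ext w
      change w.sublists.count u % n = k ↔ ((w.sublists.count u : ℕ) : ZMod n) = (k : ZMod n)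
      rw [ZMod.natCast_eq_natCast_iff', Nat.mod_eq_of_lt hk]
    rw [this]
    exact good_subCount u hu _
  · have : {w : List A | w.sublists.count u % n = k} = ∅ := by
      ext w
      constructor
      · intro h
        have hlt := Nat.mod_lt (w.sublists.count u) hn
        have h' : w.sublists.count u % n = k := h
        omega
      · intro h; exact absurd h (by simp)
    rw [this]
    exact HeightLE.empty

end Vale.Agent.Lib.P329
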