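import Mathlib

/-!
Generalized regular expressions and generalized star height (problem P329).
-/

namespace Vale.Agent.Lib.P329

/-- Generalized regular expressions over the alphabet `α`: constants `0`, `1`, letters,
union, concatenation, complement and Kleene star. -/
inductive GRE (α : Type) : Type
  | zero : GRE α
  | one : GRE α
  | letter : α → GRE α
  | add : GRE α → GRE α → GRE α
  | mul : GRE α → GRE α → GRE α
  | compl : GRE α → GRE α
  | star : GRE α → GRE α

namespace GRE

variable {α : Type}

/-- The language denoted by an expression; complement is taken in the set of all words. -/
def lang : GRE α → Set (List α)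
  | zero => ∅
  | one => {[]}
  | letter a => {[a]}
  | add P Q => lang P ∪ lang Q
  | mul P Q => {w | ∃ u ∈ lang P, ∃ v ∈ lang Q, w = u ++ v}
  | compl P => (lang P)ᶜ
  | star P => {w | ∃ l : List (List α), (∀ u ∈ l, u ∈ lang P) ∧ w = l.flatten}

/-- The star height of an expression: only Kleene star increases it. -/
def height : GRE α → ℕ
  | zero => 0
  | one => 0
  | letter _ => 0
  | add P Q => max (height P) (height Q)
  | mul P Q => max (height P) (height Q)
  | compl P => height P
  | star P => height P + 1

end GRE

/-- `HeightLE n L`: the language `L` has generalized star height at most `n`, i.e. it is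
denoted by a generalized regular expression of star height at most `n`. -/
def HeightLE {α : Type} (n : ℕ) (L : Set (List α)) : Prop :=
  ∃ P : GRE α, P.height ≤ n ∧ P.lang = L

end Vale.Agent.Lib.P329
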