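import Vale.Agent.Lib.P329.Rc

/-!
All subsequence counts of length four are good modulo an odd prime: explicit certificates.
-/

namespace Vale.Agent.Lib.P329

section Deg4

variable {A : Type} [DecidableEq A] [Fintype A] {p : ℕ} [Fact p.Prime]

omit [DecidableEq A] [Fintype A] in
theorem coprime_two_of_ne (hp : p ≠ 2) : IsCoprime (2 : ℤ) (p : ℤ) := by
  have h : Nat.Coprime 2 p := (Nat.coprime_primes Nat.prime_two Fact.out).2 (Ne.symm hp)
  exact_mod_cast Nat.isCoprime_iff_coprime.2 h

theorem gi_pat_aaaa (a : A)  :
    Gi p (fun w => ((rc [a, a, a, a] w : ℕ) : ℤ)) := by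
  have h := ((gi_flow (p := p) a [(a, 3)] (by simp [wt])).smul (1))
  refine h.congr (fun w => ?_)
  simp only [List.map_cons, List.map_nil, List.sum_cons, List.sum_nil, List.flatMap_cons, List.flatMap_nil, List.append_nil, List.nil_append, List.cons_append, List.replicate, List.map_append, List.sum_append, if_true, if_false, eq_self, infl_nil_left, infl_nil_right, rc_nil_left, rz, rs, flowL, prodL, phiL, phiG, infl_cons_cons]
  push_cast
  ring

theorem gi_pat_aaab (a b : A) (hab : a ≠ b) :
    Gi p (fun w => ((rc [b, a, a, a] w : ℕ) : ℤ)) := by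
  have h := ((gi_flow (p := p) b [(a, 3)] (by simp [wt])).smul (1))
  refine h.congr (fun w => ?_)
  simp only [List.map_cons, List.map_nil, List.sum_cons, List.sum_nil, List.flatMap_cons, List.flatMap_nil, List.append_nil, List.nil_append, List.cons_append, List.replicate, List.map_append, List.sum_append, if_true, if_false, eq_self, infl_nil_left, infl_nil_right, rc_nil_left, rz, rs, flowL, prodL, phiL, phiG, infl_cons_cons, hab, hab.symm]
  push_cast
  ring

theorem gi_pat_aaba (a b : A) (hab : a ≠ b) :
    Gi p (fun w => ((rc [a, b, a, a] w : ℕ) : ℤ)) := by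
  have h := ((((gi_prod (p := p) [a] [b, a, a] (by simp) (by simp)).smul (1)).add ((gi_flow (p := p) b [(a, 3)] (by simp [wt])).smul (-3))).add ((gi_rc_three (p := p) [b, a, a] (by simp)).smul (-2)))
  refine h.congr (fun w => ?_)
  simp only [List.map_cons, List.map_nil, List.sum_cons, List.sum_nil, List.flatMap_cons, List.flatMap_nil, List.append_nil, List.nil_append, List.cons_append, List.replicate, List.map_append, List.sum_append, if_true, if_false, eq_self, infl_nil_left, infl_nil_right, rc_nil_left, rz, rs, flowL, prodL, phiL, phiG, infl_cons_cons, hab, hab.symm]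
  push_cast
  ring

theorem gi_pat_abaa (hp : p ≠ 2) (a b : A) (hab : a ≠ b) :
    Gi p (fun w => ((rc [a, a, b, a] w : ℕ) : ℤ)) := by
  have h := ((((((gi_prod (p := p) [a] [b, a, a] (by simp) (by simp)).smul (-2)).add ((gi_flow (p := p) b [(a, 3)] (by simp [wt])).smul (6))).add ((gi_rc_three (p := p) [b, a, a] (by simp)).smul (4))).add ((gi_prod (p := p) [a] [a, b, a] (by simp) (by simp)).smul (1))).add ((gi_rc_three (p := p) [a, b, a] (by simp)).smul (-2)))
  have hc : IsCoprime (2 : ℤ) (p : ℤ) := coprime_two_of_ne hp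
  refine Gi.of_mul hc (h.congr (fun w => ?_))
  simp only [List.map_cons, List.map_nil, List.sum_cons, List.sum_nil, List.flatMap_cons, List.flatMap_nil, List.append_nil, List.nil_append, List.cons_append, List.replicate, List.map_append, List.sum_append, if_true, if_false, eq_self, infl_nil_left, infl_nil_right, rc_nil_left, rz, rs, flowL, prodL, phiL, phiG, infl_cons_cons, hab, hab.symm]
  push_cast
  ring

theorem gi_pat_abbb (hp : p ≠ 2) (a b : A) (hab : a ≠ b) :
    Gi p (fun w => ((rc [b, b, b, a] w : ℕ) : ℤ)) := by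
  have h := ((((gi_flow (p := p) b [(a, 1), (b, 2)] (by simp [wt])).smul (2)).add ((gi_prod (p := p) [b] [b, a, b] (by simp) (by simp)).smul (-1))).add ((gi_rc_three (p := p) [b, a, b] (by simp)).smul (2)))
  have hc : IsCoprime (2 : ℤ) (p : ℤ) := coprime_two_of_ne hp
  refine Gi.of_mul hc (h.congr (fun w => ?_))
  simp only [List.map_cons, List.map_nil, List.sum_cons, List.sum_nil, List.flatMap_cons, List.flatMap_nil, List.append_nil, List.nil_append, List.cons_append, List.replicate, List.map_append, List.sum_append, if_true, if_false, eq_self, infl_nil_left, infl_nil_right, rc_nil_left, rz, rs, flowL, prodL, phiL, phiG, infl_cons_cons, hab, hab.symm]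
  push_cast
  ring

theorem gi_pat_aabb (a b : A) (hab : a ≠ b) :
    Gi p (fun w => ((rc [b, b, a, a] w : ℕ) : ℤ)) := by
  have h := (((((((((gi_flow (p := p) b [(a, 2), (b, 1)] (by simp [wt])).smul (-3)).add ((gi_prod (p := p) [a] [b, b, a] (by simp) (by simp)).smul (2))).add ((gi_flow (p := p) a [(a, 1), (b, 2)] (by simp [wt])).smul (-2))).add ((gi_rc_three (p := p) [b, b, a] (by simp)).smul (-2))).add ((gi_prod (p := p) [b] [a, a, b] (by simp) (by simp)).smul (1))).add ((gi_prod (p := p) [a] [b, a, b] (by simp) (by simp)).smul (1))).add ((gi_rc_three (p := p) [b, a, b] (by simp)).smul (-1))).add ((gi_rc_three (p := p) [a, a, b] (by simp)).smul (-1)))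
  refine h.congr (fun w => ?_)
  simp only [List.map_cons, List.map_nil, List.sum_cons, List.sum_nil, List.flatMap_cons, List.flatMap_nil, List.append_nil, List.nil_append, List.cons_append, List.replicate, List.map_append, List.sum_append, if_true, if_false, eq_self, infl_nil_left, infl_nil_right, rc_nil_left, rz, rs, flowL, prodL, phiL, phiG, infl_cons_cons, hab, hab.symm]
  push_cast
  ring

theorem gi_pat_abab (hp : p ≠ 2) (a b : A) (hab : a ≠ b) :
    Gi p (fun w => ((rc [b, a, b, a] w : ℕ) : ℤ)) := by
  have h := ((((((((((((gi_prod (p := p) [a] [b, b, a] (by simp) (by simp)).smul (-8)).add ((gi_flow (p := p) b [(a, 2), (b, 1)] (by simp [wt])).smul (12))).add ((gi_flow (p := p) a [(a, 1), (b, 2)] (by simp [wt])).smul (8))).add ((gi_rc_three (p := p) [b, b, a] (by simp)).smul (6))).add ((gi_prod (p := p) [b] [a, a, b] (by simp) (by simp)).smul (-4))).add ((gi_prod (p := p) [a] [b, a, b] (by simp) (by simp)).smul (-4))).add ((gi_rc_three (p := p) [b, a, b] (by simp)).smul (4))).add ((gi_rc_three (p := p) [a, a, b] (by simp)).smul (4))).add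 ((gi_prod (p := p) [b, a] [b, a] (by simp) (by simp)).smul (1))).add ((gi_rc_three (p := p) [b, a, a] (by simp)).smul (-2))).add ((gi_rc_three (p := p) [b, a] (by simp)).smul (-1)))
  have hc : IsCoprime (2 : ℤ) (p : ℤ) := coprime_two_of_ne hp
  refine Gi.of_mul hc (h.congr (fun w => ?_))
  simp only [List.map_cons, List.map_nil, List.sum_cons, List.sum_nil, List.flatMap_cons, List.flatMap_nil, List.append_nil, List.nil_append, List.cons_append, List.replicate, List.map_append, List.sum_append, if_true, if_false, eq_self, infl_nil_left, infl_nil_right, rc_nil_left, rz, rs, flowL, prodL, phiL, phiG, infl_cons_cons, hab, hab.symm]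
  push_cast
  ring

theorem gi_pat_abba (hp : p ≠ 2) (a b : A) (hab : a ≠ b) :
    Gi p (fun w => ((rc [a, b, b, a] w : ℕ) : ℤ)) := by
  have h := (((((gi_prod (p := p) [b, a] [b, a] (by simp) (by simp)).smul (-1)).add ((gi_prod (p := p) [a] [b, b, a] (by simp) (by simp)).smul (2))).add ((gi_rc_three (p := p) [b, a, a] (by simp)).smul (2))).add ((gi_rc_three (p := p) [b, a] (by simp)).smul (1)))
  have hc : IsCoprime (2 : ℤ) (p : ℤ) := coprime_two_of_ne hp
  refine Gi.of_mul hc (h.congr (fun w => ?_))
  simp only [List.map_cons, List.map_nil, List.sum_cons, List.sum_nil, List.flatMap_cons, List.flatMap_nil, List.append_nil, List.nil_append, List.cons_append, List.replicate, List.map_append, List.sum_append, if_true, if_false, eq_self, infl_nil_left, infl_nil_right, rc_nil_left, rz, rs, flowL, prodL, phiL, phiG, infl_cons_cons, hab, hab.symm]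
  push_cast
  ring

theorem gi_pat_aabc (a b c : A) (hab : a ≠ b) (hac : a ≠ c) (hbc : b ≠ c) :
    Gi p (fun w => ((rc [c, b, a, a] w : ℕ) : ℤ)) := by
  have h := (((gi_prod (p := p) [b, a, a] [c] (by simp) (by simp)).smul (1)).add ((gi_flow (p := p) b [(a, 2), (c, 1)] (by simp [wt])).smul (-1)))
  refine h.congr (fun w => ?_)
  simp only [List.map_cons, List.map_nil, List.sum_cons, List.sum_nil, List.flatMap_cons, List.flatMap_nil, List.append_nil, List.nil_append, List.cons_append, List.replicate, List.map_append, List.sum_append, if_true, if_false, eq_self, infl_nil_left, infl_nil_right, rc_nil_left, rz, rs, flowL, prodL, phiL, phiG, infl_cons_cons, hab, hac, hbc, hab.symm, hac.symm, hbc.symm]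
  push_cast
  ring

theorem gi_pat_abac (hp : p ≠ 2) (a b c : A) (hab : a ≠ b) (hac : a ≠ c) (hbc : b ≠ c) :
    Gi p (fun w => ((rc [c, a, b, a] w : ℕ) : ℤ)) := by
  have h := ((((((((((((((((((((((((((((gi_flow (p := p) c [(a, 2), (b, 1)] (by simp [wt])).smul (3)).add ((gi_rc_three (p := p) [c, b, a] (by simp)).smul (1))).add ((gi_rc_three (p := p) [c, a, b] (by simp)).smul (3))).add ((gi_prod (p := p) [b, a, a] [c] (by simp) (by simp)).smul (-4))).add ((gi_flow (p := p) b [(a, 2), (c, 1)] (by simp [wt])).smul (1))).add ((gi_prod (p := p) [b, a] [c, a] (by simp) (by simp)).smul (1))).add ((gi_rc_three (p := p) [b, c, a] (by simp)).smul (-1))).add ((gi_rc_three (p := p) [b, a, c] (by simp)).smul (-2))).add ((gi_phi (p := p) hp [a, b] (by simp [hab, hac, hbc, hab.symm, hac.symm, hbc.symm]) (z := a) (by simp) (y := c) (by simp [hab, hac, hbc, hab.symm, hac.symm, hbc.symm])).smul (-1))).add ((gi_flow (p := p) c [(a, 3)] (by simp [wt])).smul (3))).add ((gi_prod (p := p) [b, a] [c, b] (by simp) (by simp)).smul (-1))).add ((gi_prod (p := p) [a]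 [b, c, b] (by simp) (by simp)).smul (1))).add ((gi_prod (p := p) [a] [c, b, b] (by simp) (by simp)).smul (2))).add ((gi_flow (p := p) a [(b, 2), (c, 1)] (by simp [wt])).smul (-3))).add ((gi_rc_three (p := p) [c, a, a] (by simp)).smul (2))).add ((gi_phi (p := p) hp [a, c] (by simp [hab, hac, hbc, hab.symm, hac.symm, hbc.symm]) (z := a) (by simp) (y := b) (by simp [hab, hac, hbc, hab.symm, hac.symm, hbc.symm])).smul (1))).add ((gi_flow (p := p) b [(a, 3)] (by simp [wt])).smul (-3))).add ((gi_prod (p := p) [c, a] [c, b] (by simp) (by simp)).smul (-1))).add ((gi_prod (p := p) [a] [c, c, b] (by simp) (by simp)).smul (2))).add ((gi_prod (p := p) [b] [c, a, c] (by simp) (by simp)).smul (-1))).add ((gi_prod (p := p) [a] [c, b, c] (by simp) (by simp)).smul (1))).add ((gi_prod (p := p) [b] [a, c, c] (by simp) (by simp)).smul (-2))).add ((gi_rc_three (p := p) [b, a, a] (by simp)).smul (-2))).add ((gi_phi (p := p) hp [b, c] (by simp [hab, hac, hbc, hab.symm, hac.symm, hbc.symm]) (z := b) (by simp) (y := a) (by simp [hab, hac, hbc, hab.symm, hac.symm,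 hbc.symm])).smul (1))).add ((gi_flow (p := p) a [(b, 3)] (by simp [wt])).smul (-3))).add ((gi_rc_three (p := p) [a, b, b] (by simp)).smul (-2))).add ((gi_rc_three (p := p) [a, b, c] (by simp)).smul (-2)))
  have hc : IsCoprime (2 : ℤ) (p : ℤ) := coprime_two_of_ne hp
  refine Gi.of_mul hc (h.congr (fun w => ?_))
  simp only [List.map_cons, List.map_nil, List.sum_cons, List.sum_nil, List.flatMap_cons, List.flatMap_nil, List.append_nil, List.nil_append, List.cons_append, List.replicate, List.map_append, List.sum_append, if_true, if_false, eq_self, infl_nil_left, infl_nil_right, rc_nil_left, rz, rs, flowL, prodL, phiL, phiG, infl_cons_cons, hab, hac, hbc, hab.symm, hac.symm, hbc.symm]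
  push_cast
  ring

theorem gi_pat_abca (hp : p ≠ 2) (a b c : A) (hab : a ≠ b) (hac : a ≠ c) (hbc : b ≠ c) :
    Gi p (fun w => ((rc [a, c, b, a] w : ℕ) : ℤ)) := by
  have h := ((((((((((((((((((((((((((((gi_prod (p := p) [a] [c, b, a] (by simp) (by simp)).smul (2)).add ((gi_flow (p := p) c [(a, 2), (b, 1)] (by simp [wt])).smul (-3))).add ((gi_rc_three (p := p) [c, b, a] (by simp)).smul (-3))).add ((gi_rc_three (p := p) [c, a, b] (by simp)).smul (-3))).add ((gi_prod (p := p) [b, a] [c, a] (by simp) (by simp)).smul (-1))).add ((gi_flow (p := p) b [(a, 2), (c, 1)] (by simp [wt])).smul (3))).add ((gi_rc_three (p := p) [b, c, a] (by simp)).smul (1))).add ((gi_rc_three (p := p) [b, a, c] (by simp)).smul (2))).add ((gi_phi (p := p) hp [a, b] (by simp [hab, hac, hbc, hab.symm, hac.symm, hbc.symm]) (z := a) (by simp) (y := c) (by simp [hab, hac, hbc, hab.symm, hac.symm, hbc.symm])).smul (1))).add ((gi_flow (p := p) c [(a, 3)] (by simp [wt])).smul (-3))).add ((gi_prod (p := p) [b, a] [c, b] (by simp) (by simp)).smul (1))).add ((gi_prod (p := p) [a]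 [b, c, b] (by simp) (by simp)).smul (-1))).add ((gi_prod (p := p) [a] [c, b, b] (by simp) (by simp)).smul (-2))).add ((gi_flow (p := p) a [(b, 2), (c, 1)] (by simp [wt])).smul (3))).add ((gi_rc_three (p := p) [c, a, a] (by simp)).smul (-2))).add ((gi_phi (p := p) hp [a, c] (by simp [hab, hac, hbc, hab.symm, hac.symm, hbc.symm]) (z := a) (by simp) (y := b) (by simp [hab, hac, hbc, hab.symm, hac.symm, hbc.symm])).smul (-1))).add ((gi_flow (p := p) b [(a, 3)] (by simp [wt])).smul (3))).add ((gi_prod (p := p) [c, a] [c, b] (by simp) (by simp)).smul (1))).add ((gi_prod (p := p) [a] [c, c, b] (by simp) (by simp)).smul (-2))).add ((gi_prod (p := p) [b] [c, a, c] (by simp) (by simp)).smul (1))).add ((gi_prod (p := p) [a] [c, b, c] (by simp) (by simp)).smul (-1))).add ((gi_prod (p := p) [b] [a, c, c] (by simp) (by simp)).smul (2))).add ((gi_rc_three (p := p) [b, a, a] (by simp)).smul (2))).add ((gi_phi (p := p) hp [b, c] (by simp [hab, hac, hbc, hab.symm, hac.symm, hbc.symm]) (z := b) (by simp) (y := a) (by simp [hab, hac, hbc, hab.symm, hac.symm,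 hbc.symm])).smul (-1))).add ((gi_flow (p := p) a [(b, 3)] (by simp [wt])).smul (3))).add ((gi_rc_three (p := p) [a, b, b] (by simp)).smul (2))).add ((gi_rc_three (p := p) [a, b, c] (by simp)).smul (2)))
  have hc : IsCoprime (2 : ℤ) (p : ℤ) := coprime_two_of_ne hp
  refine Gi.of_mul hc (h.congr (fun w => ?_))
  simp only [List.map_cons, List.map_nil, List.sum_cons, List.sum_nil, List.flatMap_cons, List.flatMap_nil, List.append_nil, List.nil_append, List.cons_append, List.replicate, List.map_append, List.sum_append, if_true, if_false, eq_self, infl_nil_left, infl_nil_right, rc_nil_left, rz, rs, flowL, prodL, phiL, phiG, infl_cons_cons, hab, hac, hbc, hab.symm, hac.symm, hbc.symm]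
  push_cast
  ring

theorem gi_pat_abbc (hp : p ≠ 2) (a b c : A) (hab : a ≠ b) (hac : a ≠ c) (hbc : b ≠ c) :
    Gi p (fun w => ((rc [c, b, b, a] w : ℕ) : ℤ)) := by
  have h := ((((((((((((((((((((((((((((((((gi_prod (p := p) [b] [c, a, b] (by simp) (by simp)).smul (2)).add ((gi_rc_three (p := p) [c, a, b] (by simp)).smul (-1))).add ((gi_prod (p := p) [b, a] [c, b] (by simp) (by simp)).smul (1))).add ((gi_flow (p := p) b [(a, 1), (b, 1), (c, 1)] (by simp [wt])).smul (-2))).add ((gi_prod (p := p) [a] [b, c, b] (by simp) (by simp)).smul (-1))).add ((gi_prod (p := p) [a] [c, b, b] (by simp) (by simp)).smul (-2))).add ((gi_flow (p := p) a [(b, 2), (c, 1)] (by simp [wt])).smul (-1))).add ((gi_rc_three (p := p) [c, b, a] (by simp)).smul (-1))).add ((gi_prod (p := p) [b, b, a] [c] (by simp) (by simp)).smul (2))).add ((gi_prod (p := p) [b] [a, c, b] (by simp) (by simp)).smul (2))).add ((gi_rc_three (p := p) [a, c, b] (by simp)).smul (-2))).add ((gi_prod (p := p) [b] [a, b, c] (by simp) (by simp)).smul (2))).add ((gi_phi (p := p) hp [a, c] (by simp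 [hab, hac, hbc, hab.symm, hac.symm, hbc.symm]) (z := a) (by simp) (y := b) (by simp [hab, hac, hbc, hab.symm, hac.symm, hbc.symm])).smul (-1))).add ((gi_flow (p := p) b [(a, 3)] (by simp [wt])).smul (3))).add ((gi_flow (p := p) b [(a, 2), (c, 1)] (by simp [wt])).smul (3))).add ((gi_rc_three (p := p) [b, c, a] (by simp)).smul (1))).add ((gi_flow (p := p) c [(a, 2), (b, 1)] (by simp [wt])).smul (3))).add ((gi_phi (p := p) hp [a, b] (by simp [hab, hac, hbc, hab.symm, hac.symm, hbc.symm]) (z := a) (by simp) (y := c) (by simp [hab, hac, hbc, hab.symm, hac.symm, hbc.symm])).smul (-1))).add ((gi_flow (p := p) c [(a, 3)] (by simp [wt])).smul (3))).add ((gi_prod (p := p) [b, a] [c, a] (by simp) (by simp)).smul (-1))).add ((gi_rc_three (p := p) [b, a, c] (by simp)).smul (2))).add ((gi_rc_three (p := p) [c, a, a] (by simp)).smul (2))).add ((gi_prod (p := p) [c, a] [c, b] (by simp) (by simp)).smul (1))).add ((gi_prod (p := p) [a] [c, c, b] (by simp) (by simp)).smul (-2))).add ((gi_prod (p := p) [b] [c, a, c] (by simp) (by simp)).smul (1))).add ((gi_prod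 (p := p) [a] [c, b, c] (by simp) (by simp)).smul (-1))).add ((gi_prod (p := p) [b] [a, c, c] (by simp) (by simp)).smul (2))).add ((gi_rc_three (p := p) [b, a, a] (by simp)).smul (2))).add ((gi_phi (p := p) hp [b, c] (by simp [hab, hac, hbc, hab.symm, hac.symm, hbc.symm]) (z := b) (by simp) (y := a) (by simp [hab, hac, hbc, hab.symm, hac.symm, hbc.symm])).smul (-1))).add ((gi_flow (p := p) a [(b, 3)] (by simp [wt])).smul (3))).add ((gi_rc_three (p := p) [a, b, b] (by simp)).smul (2)))
  have hc : IsCoprime (2 : ℤ) (p : ℤ) := coprime_two_of_ne hp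
  refine Gi.of_mul hc (h.congr (fun w => ?_))
  simp only [List.map_cons, List.map_nil, List.sum_cons, List.sum_nil, List.flatMap_cons, List.flatMap_nil, List.append_nil, List.nil_append, List.cons_append, List.replicate, List.map_append, List.sum_append, if_true, if_false, eq_self, infl_nil_left, infl_nil_right, rc_nil_left, rz, rs, flowL, prodL, phiL, phiG, infl_cons_cons, hab, hac, hbc, hab.symm, hac.symm, hbc.symm]
  push_cast
  ring

theorem gi_pat_abcb (hp : p ≠ 2) (a b c : A) (hab : a ≠ b) (hac : a ≠ c) (hbc : b ≠ c) :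
    Gi p (fun w => ((rc [b, c, b, a] w : ℕ) : ℤ)) := by
  have h := (((((((((((((((((((((((((((((((gi_prod (p := p) [a] [b, c, b] (by simp) (by simp)).smul (3)).add ((gi_prod (p := p) [a] [c, b, b] (by simp) (by simp)).smul (6))).add ((gi_flow (p := p) c [(a, 1), (b, 2)] (by simp [wt])).smul (-4))).add ((gi_flow (p := p) a [(b, 2), (c, 1)] (by simp [wt])).smul (-3))).add ((gi_prod (p := p) [b, a] [c, b] (by simp) (by simp)).smul (-1))).add ((gi_prod (p := p) [b] [c, a, b] (by simp) (by simp)).smul (-2))).add ((gi_rc_three (p := p) [c, a, b] (by simp)).smul (1))).add ((gi_rc_three (p := p) [c, b, a] (by simp)).smul (1))).add ((gi_prod (p := p) [b] [a, c, b] (by simp) (by simp)).smul (-2))).add ((gi_rc_three (p := p) [a, c, b] (by simp)).smul (2))).add ((gi_phi (p := p) hp [a, c] (by simp [hab, hac, hbc, hab.symm, hac.symm, hbc.symm]) (z := a) (by simp) (y := b) (by simp [hab, hac, hbc, hab.symm, hac.symm, hbc.symm])).smul (1))).add ((gi_flow (p := p) b [(a, 3)] (by simp [wt])).smul (-3))).add ((gi_flow (p := p) b [(a, 2), (c, 1)] (by simp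 [wt])).smul (-3))).add ((gi_rc_three (p := p) [b, c, a] (by simp)).smul (-1))).add ((gi_flow (p := p) c [(a, 2), (b, 1)] (by simp [wt])).smul (-3))).add ((gi_phi (p := p) hp [a, b] (by simp [hab, hac, hbc, hab.symm, hac.symm, hbc.symm]) (z := a) (by simp) (y := c) (by simp [hab, hac, hbc, hab.symm, hac.symm, hbc.symm])).smul (1))).add ((gi_flow (p := p) c [(a, 3)] (by simp [wt])).smul (-3))).add ((gi_prod (p := p) [b, a] [c, a] (by simp) (by simp)).smul (1))).add ((gi_rc_three (p := p) [b, a, c] (by simp)).smul (-2))).add ((gi_rc_three (p := p) [c, a, a] (by simp)).smul (-2))).add ((gi_prod (p := p) [c, a] [c, b] (by simp) (by simp)).smul (-1))).add ((gi_prod (p := p) [a] [c, c, b] (by simp) (by simp)).smul (2))).add ((gi_prod (p := p) [b] [c, a, c] (by simp) (by simp)).smul (-1))).add ((gi_prod (p := p) [a] [c, b, c] (by simp) (by simp)).smul (1))).add ((gi_prod (p := p) [b] [a, c, c] (by simp) (by simp)).smul (-2))).add ((gi_rc_three (p := p) [b, a, a] (by simp)).smul (-2))).add ((gi_phi (p := p) hp [b, c] (by simp [hab, hac, hbc, hab.symm,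 hac.symm, hbc.symm]) (z := b) (by simp) (y := a) (by simp [hab, hac, hbc, hab.symm, hac.symm, hbc.symm])).smul (1))).add ((gi_flow (p := p) a [(b, 3)] (by simp [wt])).smul (-3))).add ((gi_rc_three (p := p) [a, b, b] (by simp)).smul (-2))).add ((gi_rc_three (p := p) [a, b, c] (by simp)).smul (-2)))
  have hc : IsCoprime (2 : ℤ) (p : ℤ) := coprime_two_of_ne hp
  refine Gi.of_mul hc (h.congr (fun w => ?_))
  simp only [List.map_cons, List.map_nil, List.sum_cons, List.sum_nil, List.flatMap_cons, List.flatMap_nil, List.append_nil, List.nil_append, List.cons_append, List.replicate, List.map_append, List.sum_append, if_true, if_false, eq_self, infl_nil_left, infl_nil_right, rc_nil_left, rz, rs, flowL, prodL, phiL, phiG, infl_cons_cons, hab, hac, hbc, hab.symm, hac.symm, hbc.symm]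
  push_cast
  ring

theorem gi_pat_abcc (a b c : A) (hab : a ≠ b) (hac : a ≠ c) (hbc : b ≠ c) :
    Gi p (fun w => ((rc [c, c, b, a] w : ℕ) : ℤ)) := by
  have h := (((((((((gi_flow (p := p) c [(a, 1), (b, 1), (c, 1)] (by simp [wt])).smul (-2)).add ((gi_prod (p := p) [a] [c, c, b] (by simp) (by simp)).smul (2))).add ((gi_flow (p := p) a [(b, 1), (c, 2)] (by simp [wt])).smul (-2))).add ((gi_prod (p := p) [b, a] [c, c] (by simp) (by simp)).smul (1))).add ((gi_flow (p := p) b [(a, 1), (c, 2)] (by simp [wt])).smul (-1))).add ((gi_prod (p := p) [c] [a, b, c] (by simp) (by simp)).smul (1))).add ((gi_prod (p := p) [a] [c, b, c] (by simp) (by simp)).smul (1))).add ((gi_rc_three (p := p) [a, b, c] (by simp)).smul (-1)))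
  refine h.congr (fun w => ?_)
  simp only [List.map_cons, List.map_nil, List.sum_cons, List.sum_nil, List.flatMap_cons, List.flatMap_nil, List.append_nil, List.nil_append, List.cons_append, List.replicate, List.map_append, List.sum_append, if_true, if_false, eq_self, infl_nil_left, infl_nil_right, rc_nil_left, rz, rs, flowL, prodL, phiL, phiG, infl_cons_cons, hab, hac, hbc, hab.symm, hac.symm, hbc.symm]
  push_cast
  ring

theorem gi_pat_abcd (hp : p ≠ 2) (a b c d : A) (hab : a ≠ b) (hac : a ≠ c) (had : a ≠ d) (hbc : b ≠ c) (hbd : b ≠ d) (hcd : c ≠ d) :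
    Gi p (fun w => ((rc [d, c, b, a] w : ℕ) : ℤ)) := by
  have h := ((((((((((((((((((((((gi_flow (p := p) d [(a, 1), (b, 1), (c, 1)] (by simp [wt])).smul (-1)).add ((gi_prod (p := p) [b, a] [d, c] (by simp) (by simp)).smul (-1))).add ((gi_flow (p := p) b [(a, 1), (c, 1), (d, 1)] (by simp [wt])).smul (1))).add ((gi_flow (p := p) c [(a, 1), (b, 1), (d, 1)] (by simp [wt])).smul (-2))).add ((gi_prod (p := p) [c, b, a] [d] (by simp) (by simp)).smul (2))).add ((gi_prod (p := p) [b, a] [c, d] (by simp) (by simp)).smul (-1))).add ((gi_prod (p := p) [d, a] [c, b] (by simp) (by simp)).smul (1))).add ((gi_phi (p := p) hp [a, b, d] (by simp [hab, hac, had, hbc, hbd, hcd, hab.symm, hac.symm, had.symm, hbc.symm, hbd.symm, hcd.symm]) (z := a) (by simp) (y := c) (by simp [hab, hac, had, hbc, hbd, hcd, hab.symm, hac.symm, had.symm, hbc.symm, hbd.symm, hcd.symm])).smul (1))).add ((gi_flow (p := p) c [(a, 3)] (by simp [wt])).smul (3))).add ((gi_phi (p := p) hp [a, b] (by simp [hab, hac, had, hbc, hbd, hcd, hab.symm, hac.symm, had.symm, hbc.symm, hbd.symm,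 hcd.symm]) (z := a) (by simp) (y := c) (by simp [hab, hac, had, hbc, hbd, hcd, hab.symm, hac.symm, had.symm, hbc.symm, hbd.symm, hcd.symm])).smul (-1))).add ((gi_rc_three (p := p) [c, a, a] (by simp)).smul (2))).add ((gi_flow (p := p) d [(a, 3)] (by simp [wt])).smul (-3))).add ((gi_rc_three (p := p) [d, a, a] (by simp)).smul (-2))).add ((gi_phi (p := p) hp [a, b, c] (by simp [hab, hac, had, hbc, hbd, hcd, hab.symm, hac.symm, had.symm, hbc.symm, hbd.symm, hcd.symm]) (z := b) (by simp) (y := d) (by simp [hab, hac, had, hbc, hbd, hcd, hab.symm, hac.symm, had.symm, hbc.symm, hbd.symm, hcd.symm])).smul (1))).add ((gi_flow (p := p) d [(a, 2), (b, 1)] (by simp [wt])).smul (-3))).add ((gi_rc_three (p := p) [d, b, a] (by simp)).smul (-2))).add ((gi_flow (p := p) d [(a, 1), (b, 2)] (by simp [wt])).smul (-3))).add ((gi_rc_three (p := p) [d, a, b] (by simp)).smul (-2))).add ((gi_phi (p := p) hp [a, b] (by simp [hab, hac, had, hbc, hbd, hcd, hab.symm, hac.symm, had.symm, hbc.symm, hbd.symm, hcd.symm]) (z := a) (by simp) (y := d) (by simp [hab, hac, had,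 hbc, hbd, hcd, hab.symm, hac.symm, had.symm, hbc.symm, hbd.symm, hcd.symm])).smul (1))).add ((gi_phi (p := p) hp [b, c] (by simp [hab, hac, had, hbc, hbd, hcd, hab.symm, hac.symm, had.symm, hbc.symm, hbd.symm, hcd.symm]) (z := b) (by simp) (y := d) (by simp [hab, hac, had, hbc, hbd, hcd, hab.symm, hac.symm, had.symm, hbc.symm, hbd.symm, hcd.symm])).smul (-1))).add ((gi_phi (p := p) hp [a, d] (by simp [hab, hac, had, hbc, hbd, hcd, hab.symm, hac.symm, had.symm, hbc.symm, hbd.symm, hcd.symm]) (z := a) (by simp) (y := c) (by simp [hab, hac, had, hbc, hbd, hcd, hab.symm, hac.symm, had.symm, hbc.symm, hbd.symm, hcd.symm])).smul (-1)))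
  have hc : IsCoprime (2 : ℤ) (p : ℤ) := coprime_two_of_ne hp
  refine Gi.of_mul hc (h.congr (fun w => ?_))
  simp only [List.map_cons, List.map_nil, List.sum_cons, List.sum_nil, List.flatMap_cons, List.flatMap_nil, List.append_nil, List.nil_append, List.cons_append, List.replicate, List.map_append, List.sum_append, if_true, if_false, eq_self, infl_nil_left, infl_nil_right, rc_nil_left, rz, rs, flowL, prodL, phiL, phiG, infl_cons_cons, hab, hac, had, hbc, hbd, hcd, hab.symm, hac.symm, had.symm, hbc.symm, hbd.symm, hcd.symm]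
  push_cast
  ring


/-- All counts of length four. -/
theorem gi_rc_four (hp : p ≠ 2) (t z y x : A) : Gi p (fun w => ((rc [t, z, y, x] w : ℕ) : ℤ)) := by
  by_cases hyx : x = y
  · subst hyx
    by_cases hzx : x = z
    · subst hzx
      by_cases htx : x = t
      · subst htx
        exact gi_pat_aaaa _ 
      · exact gi_pat_aaab _ _ (by first | assumption | exact Ne.symm (by assumption))
    · by_cases htx : x = t
      · subst htx
        exact gi_pat_aaba _ _ (by first | assumption | exact Ne.symm (by assumption))
      · by_cases htz : z = t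
        · subst htz
          exact gi_pat_aabb _ _ (by first | assumption | exact Ne.symm (by assumption))
        · exact gi_pat_aabc _ _ _ (by first | assumption | exact Ne.symm (by assumption)) (by first | assumption | exact Ne.symm (by assumption)) (by first | assumption | exact Ne.symm (by assumption))
  · by_cases hzx : x = z
    · subst hzx
      by_cases htx : x = t
      · subst htx
        exact gi_pat_abaa hp _ _ (by first | assumption | exact Ne.symm (by assumption))
      · by_cases hty : y = t
        · subst hty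
          exact gi_pat_abab hp _ _ (by first | assumption | exact Ne.symm (by assumption))
        · exact gi_pat_abac hp _ _ _ (by first | assumption | exact Ne.symm (by assumption)) (by first | assumption | exact Ne.symm (by assumption)) (by first | assumption | exact Ne.symm (by assumption))
    · by_cases hzy : y = z
      · subst hzy
        by_cases htx : x = t
        · subst htx
          exact gi_pat_abba hp _ _ (by first | assumption | exact Ne.symm (by assumption))
        · by_cases hty : y = t
          · subst hty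
            exact gi_pat_abbb hp _ _ (by first | assumption | exact Ne.symm (by assumption))
          · exact gi_pat_abbc hp _ _ _ (by first | assumption | exact Ne.symm (by assumption)) (by first | assumption | exact Ne.symm (by assumption)) (by first | assumption | exact Ne.symm (by assumption))
      · by_cases htx : x = t
        · subst htx
          exact gi_pat_abca hp _ _ _ (by first | assumption | exact Ne.symm (by assumption)) (by first | assumption | exact Ne.symm (by assumption)) (by first | assumption | exact Ne.symm (by assumption))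
        · by_cases hty : y = t
          · subst hty
            exact gi_pat_abcb hp _ _ _ (by first | assumption | exact Ne.symm (by assumption)) (by first | assumption | exact Ne.symm (by assumption)) (by first | assumption | exact Ne.symm (by assumption))
          · by_cases htz : z = t
            · subst htz
              exact gi_pat_abcc _ _ _ (by first | assumption | exact Ne.symm (by assumption)) (by first | assumption | exact Ne.symm (by assumption)) (by first | assumption | exact Ne.symm (by assumption))
            · exact gi_pat_abcd hp _ _ _ _ (by first | assumption | exact Ne.symm (by assumption)) (by first | assumption | exact Ne.symm (by assumption)) (by first | assumption | exact Ne.symm (by assumption)) (by first | assumption | exact Ne.symm (by assumption)) (by first | assumption | exact Ne.symm (by assumption)) (by first | assumption | exact Ne.symm (by assumption))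

theorem gi_rc_le_four (hp : p ≠ 2) (u : List A) (hu : u.length ≤ 4) :
    Gi p (fun w => ((rc u w : ℕ) : ℤ)) := by
  match u, hu with
  | [], _ => exact gi_rc_three _ (by simp)
  | [_], _ => exact gi_rc_three _ (by simp)
  | [_, _], _ => exact gi_rc_three _ (by simp)
  | [_, _, _], _ => exact gi_rc_three _ (by simp)
  | [t, z, y, x], _ => exact gi_rc_four hp t z y x
  | _ :: _ :: _ :: _ :: _ :: l, hu => simp at hu; omega

end Deg4

end Vale.Agent.Lib.P329
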