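import Vale.Agent.Lib.P329.Tower2

/-!
All subsequence counts of length four are good modulo two: explicit certificates.
-/

namespace Vale.Agent.Lib.P329

section Deg4Two

variable {A : Type} [DecidableEq A] [Fintype A]

theorem gi2_pat_aaaa (a : A)  :
    Gi 2 (fun w => ((rc [a, a, a, a] w : ℕ) : ℤ)) := by
  have h := (gi_flow (p := 2) a [(a, 3)] (by simp [wt]))
  refine Gi.of_two h (fun w => 0) (fun w => ?_)
  simp only [List.map_cons, List.map_nil, List.sum_cons, List.sum_nil, List.flatMap_cons, List.flatMap_nil, List.append_nil, List.nil_append, List.cons_append, List.replicate, List.map_append, List.sum_append, if_true, if_false, eq_self, infl_nil_left, infl_nil_right, rc_nil_left, rz, rs, flowL, prodL, infl_cons_cons, mulL, nl, tl, List.flatMap_append, List.append_assoc]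
  push_cast
  ring

theorem gi2_pat_aaab (a b : A) (hab : a ≠ b) :
    Gi 2 (fun w => ((rc [b, a, a, a] w : ℕ) : ℤ)) := by
  have h := (gi_flow (p := 2) b [(a, 3)] (by simp [wt]))
  refine Gi.of_two h (fun w => 0) (fun w => ?_)
  simp only [List.map_cons, List.map_nil, List.sum_cons, List.sum_nil, List.flatMap_cons, List.flatMap_nil, List.append_nil, List.nil_append, List.cons_append, List.replicate, List.map_append, List.sum_append, if_true, if_false, eq_self, infl_nil_left, infl_nil_right, rc_nil_left, rz, rs, flowL, prodL, infl_cons_cons, mulL, nl, tl, List.flatMap_append, List.append_assoc, hab, hab.symm]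
  push_cast
  ring

theorem gi2_pat_aaba (a b : A) (hab : a ≠ b) :
    Gi 2 (fun w => ((rc [a, b, a, a] w : ℕ) : ℤ)) := by
  have h := ((gi_flow (p := 2) b [(a, 3)] (by simp [wt])).add (gi_prod (p := 2) [a] [b, a, a] (by simp) (by simp)))
  refine Gi.of_two h (fun w => (-2) * ((rc [b, a, a, a] w : ℕ) : ℤ) + (-1) * ((rc [b, a, a] w : ℕ) : ℤ)) (fun w => ?_)
  simp only [List.map_cons, List.map_nil, List.sum_cons, List.sum_nil, List.flatMap_cons, List.flatMap_nil, List.append_nil, List.nil_append, List.cons_append, List.replicate, List.map_append, List.sum_append, if_true, if_false, eq_self, infl_nil_left, infl_nil_right, rc_nil_left, rz, rs, flowL, prodL, infl_cons_cons, mulL, nl, tl, List.flatMap_append, List.append_assoc, hab, hab.symm]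
  push_cast
  ring

theorem gi2_pat_abaa (a b : A) (hab : a ≠ b) :
    Gi 2 (fun w => ((rc [a, a, b, a] w : ℕ) : ℤ)) := by
  have h := (((gi_flow (p := 2) b [(a, 3)] (by simp [wt])).add (gi_prod (p := 2) [a, a] [b, a] (by simp) (by simp))).add (gi_rc_three (p := 2) [a, b, a] (by simp)))
  refine Gi.of_two h (fun w => (-2) * ((rc [b, a, a, a] w : ℕ) : ℤ) + (-1) * ((rc [a, b, a, a] w : ℕ) : ℤ) + (-1) * ((rc [a, b, a] w : ℕ) : ℤ) + (-1) * ((rc [b, a, a] w : ℕ) : ℤ)) (fun w => ?_)
  simp only [List.map_cons, List.map_nil, List.sum_cons, List.sum_nil, List.flatMap_cons, List.flatMap_nil, List.append_nil, List.nil_append, List.cons_append, List.replicate, List.map_append, List.sum_append, if_true, if_false, eq_self, infl_nil_left, infl_nil_right, rc_nil_left, rz, rs, flowL, prodL, infl_cons_cons, mulL, nl, tl, List.flatMap_append, List.append_assoc, hab, hab.symm]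
  push_cast
  ring

theorem gi2_pat_abbb (a b : A) (hab : a ≠ b) :
    Gi 2 (fun w => ((rc [b, b, b, a] w : ℕ) : ℤ)) := by
  have h := ((((gi_flow (p := 2) b [(a, 1), (b, 2)] (by simp [wt])).add (gi_prod (p := 2) [b, a] [b, b] (by simp) (by simp))).add (gi_prod (p := 2) [b] [b, b, a] (by simp) (by simp))).add (gi_rc_three (p := 2) [b, a, b] (by simp)))
  refine Gi.of_two h (fun w => (-3) * ((rc [b, b, b, a] w : ℕ) : ℤ) + (-1) * ((rc [b, a, b, b] w : ℕ) : ℤ) + (-2) * ((rc [b, b, a, b] w : ℕ) : ℤ) + (-2) * ((rc [b, b, a] w : ℕ) : ℤ) + (-1) * ((rc [b, a, b] w : ℕ) : ℤ)) (fun w => ?_)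
  simp only [List.map_cons, List.map_nil, List.sum_cons, List.sum_nil, List.flatMap_cons, List.flatMap_nil, List.append_nil, List.nil_append, List.cons_append, List.replicate, List.map_append, List.sum_append, if_true, if_false, eq_self, infl_nil_left, infl_nil_right, rc_nil_left, rz, rs, flowL, prodL, infl_cons_cons, mulL, nl, tl, List.flatMap_append, List.append_assoc, hab, hab.symm]
  push_cast
  ring

theorem gi2_pat_aabb (a b : A) (hab : a ≠ b) :
    Gi 2 (fun w => ((rc [b, b, a, a] w : ℕ) : ℤ)) := by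
  have h := (((gi_flow (p := 2) b [(a, 2), (b, 1)] (by simp [wt])).add (gi_prod (p := 2) [b] [b, a, a] (by simp) (by simp))).add (gi_rc_three (p := 2) [b, a, a] (by simp)))
  refine Gi.of_two h (fun w => (-1) * ((rc [b, b, a, a] w : ℕ) : ℤ) + (-1) * ((rc [b, a, a, b] w : ℕ) : ℤ) + (-1) * ((rc [b, a, b, a] w : ℕ) : ℤ) + (-1) * ((rc [b, a, a] w : ℕ) : ℤ)) (fun w => ?_)
  simp only [List.map_cons, List.map_nil, List.sum_cons, List.sum_nil, List.flatMap_cons, List.flatMap_nil, List.append_nil, List.nil_append, List.cons_append, List.replicate, List.map_append, List.sum_append, if_true, if_false, eq_self, infl_nil_left, infl_nil_right, rc_nil_left, rz, rs, flowL, prodL, infl_cons_cons, mulL, nl, tl, List.flatMap_append, List.append_assoc, hab, hab.symm]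
  push_cast
  ring

theorem gi2_pat_abab (a b : A) (hab : a ≠ b) :
    Gi 2 (fun w => ((rc [b, a, b, a] w : ℕ) : ℤ)) := by
  have h := ((((gi2_EY [a] (by simp [hab, hab.symm]) b (by simp [hab, hab.symm])).add (gi_flow (p := 2) a [(a, 3)] (by simp [wt]))).add (gi_prod (p := 2) [a, a] [b, a] (by simp) (by simp))).add (gi_rc_three (p := 2) [b, b, a] (by simp)))
  refine Gi.of_two h (fun w => (-1) * ((rc [b, b, a, a] w : ℕ) : ℤ) + (-1) * ((rc [b, b, a] w : ℕ) : ℤ) + (-3) * ((rc [b, a, a, a] w : ℕ) : ℤ) + (-2) * ((rc [b, a, a] w : ℕ) : ℤ) + (-1) * ((rc [a, a, b, a] w : ℕ) : ℤ) + (-2) * ((rc [a, b, a, a] w : ℕ) : ℤ) + (-1) * ((rc [a, b, a] w : ℕ) : ℤ) + (-2) * ((rc [a, a, a, a] w : ℕ) : ℤ) + (-1) * ((rc [a, a, a] w : ℕ) : ℤ)) (fun w => ?_)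
  simp only [List.map_cons, List.map_nil, List.sum_cons, List.sum_nil, List.flatMap_cons, List.flatMap_nil, List.append_nil, List.nil_append, List.cons_append, List.replicate, List.map_append, List.sum_append, if_true, if_false, eq_self, infl_nil_left, infl_nil_right, rc_nil_left, rz, rs, flowL, prodL, infl_cons_cons, mulL, nl, tl, List.flatMap_append, List.append_assoc, hab, hab.symm]
  push_cast
  ring

theorem gi2_pat_abba (a b : A) (hab : a ≠ b) :
    Gi 2 (fun w => ((rc [a, b, b, a] w : ℕ) : ℤ)) := by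
  have h := ((((gi2_EY [a] (by simp [hab, hab.symm]) b (by simp [hab, hab.symm])).add (gi_flow (p := 2) a [(a, 3)] (by simp [wt]))).add (gi_prod (p := 2) [a, a] [b, a] (by simp) (by simp))).add (gi_prod (p := 2) [a] [b, b, a] (by simp) (by simp)))
  refine Gi.of_two h (fun w => (-1) * ((rc [b, a, b, a] w : ℕ) : ℤ) + (-2) * ((rc [b, b, a, a] w : ℕ) : ℤ) + (-1) * ((rc [b, b, a] w : ℕ) : ℤ) + (-3) * ((rc [b, a, a, a] w : ℕ) : ℤ) + (-2) * ((rc [b, a, a] w : ℕ) : ℤ) + (-1) * ((rc [a, a, b, a] w : ℕ) : ℤ) + (-2) * ((rc [a, b, a, a] w : ℕ) : ℤ) + (-1) * ((rc [a, b, a] w : ℕ) : ℤ) + (-2) * ((rc [a, a, a, a] w : ℕ) : ℤ) + (-1) * ((rc [a, a, a] w : ℕ) : ℤ)) (fun w => ?_)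
  simp only [List.map_cons, List.map_nil, List.sum_cons, List.sum_nil, List.flatMap_cons, List.flatMap_nil, List.append_nil, List.nil_append, List.cons_append, List.replicate, List.map_append, List.sum_append, if_true, if_false, eq_self, infl_nil_left, infl_nil_right, rc_nil_left, rz, rs, flowL, prodL, infl_cons_cons, mulL, nl, tl, List.flatMap_append, List.append_assoc, hab, hab.symm]
  push_cast
  ring

theorem gi2_pat_aabc (a b c : A) (hab : a ≠ b) (hac : a ≠ c) (hbc : b ≠ c) :
    Gi 2 (fun w => ((rc [c, b, a, a] w : ℕ) : ℤ)) := by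
  have h := ((gi_flow (p := 2) b [(a, 2), (c, 1)] (by simp [wt])).add (gi_prod (p := 2) [c] [b, a, a] (by simp) (by simp)))
  refine Gi.of_two h (fun w => (-1) * ((rc [b, a, a, c] w : ℕ) : ℤ) + (-1) * ((rc [b, a, c, a] w : ℕ) : ℤ) + (-1) * ((rc [b, c, a, a] w : ℕ) : ℤ)) (fun w => ?_)
  simp only [List.map_cons, List.map_nil, List.sum_cons, List.sum_nil, List.flatMap_cons, List.flatMap_nil, List.append_nil, List.nil_append, List.cons_append, List.replicate, List.map_append, List.sum_append, if_true, if_false, eq_self, infl_nil_left, infl_nil_right, rc_nil_left, rz, rs, flowL, prodL, infl_cons_cons, mulL, nl, tl, List.flatMap_append, List.append_assoc, hab, hac, hbc, hab.symm, hac.symm, hbc.symm]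
  push_cast
  ring

theorem gi2_pat_abac (a b c : A) (hab : a ≠ b) (hac : a ≠ c) (hbc : b ≠ c) :
    Gi 2 (fun w => ((rc [c, a, b, a] w : ℕ) : ℤ)) := by
  have h := (((gi2_E [a] (by simp [hab, hac, hbc, hab.symm, hac.symm, hbc.symm]) b (by simp [hab, hac, hbc, hab.symm, hac.symm, hbc.symm]) c (by simp [hab, hac, hbc, hab.symm, hac.symm, hbc.symm])).add (gi_flow (p := 2) c [(a, 3)] (by simp [wt]))).add (gi_rc_three (p := 2) [c, b, a] (by simp)))
  refine Gi.of_two h (fun w => (-1) * ((rc [c, b, a, a] w : ℕ) : ℤ) + (-1) * ((rc [c, b, a] w : ℕ) : ℤ) + (-2) * ((rc [c, a, a, a] w : ℕ) : ℤ) + (-1) * ((rc [c, a, a] w : ℕ) : ℤ)) (fun w => ?_)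
  simp only [List.map_cons, List.map_nil, List.sum_cons, List.sum_nil, List.flatMap_cons, List.flatMap_nil, List.append_nil, List.nil_append, List.cons_append, List.replicate, List.map_append, List.sum_append, if_true, if_false, eq_self, infl_nil_left, infl_nil_right, rc_nil_left, rz, rs, flowL, prodL, infl_cons_cons, mulL, nl, tl, List.flatMap_append, List.append_assoc, hab, hac, hbc, hab.symm, hac.symm, hbc.symm]
  push_cast
  ring

theorem gi2_pat_abca (a b c : A) (hab : a ≠ b) (hac : a ≠ c) (hbc : b ≠ c) :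
    Gi 2 (fun w => ((rc [a, c, b, a] w : ℕ) : ℤ)) := by
  have h := (((gi2_E [a] (by simp [hab, hac, hbc, hab.symm, hac.symm, hbc.symm]) b (by simp [hab, hac, hbc, hab.symm, hac.symm, hbc.symm]) c (by simp [hab, hac, hbc, hab.symm, hac.symm, hbc.symm])).add (gi_flow (p := 2) c [(a, 3)] (by simp [wt]))).add (gi_prod (p := 2) [a] [c, b, a] (by simp) (by simp)))
  refine Gi.of_two h (fun w => (-1) * ((rc [c, a, b, a] w : ℕ) : ℤ) + (-2) * ((rc [c, b, a, a] w : ℕ) : ℤ) + (-1) * ((rc [c, b, a] w : ℕ) : ℤ) + (-2) * ((rc [c, a, a, a] w : ℕ) : ℤ) + (-1) * ((rc [c, a, a] w : ℕ) : ℤ)) (fun w => ?_)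
  simp only [List.map_cons, List.map_nil, List.sum_cons, List.sum_nil, List.flatMap_cons, List.flatMap_nil, List.append_nil, List.nil_append, List.cons_append, List.replicate, List.map_append, List.sum_append, if_true, if_false, eq_self, infl_nil_left, infl_nil_right, rc_nil_left, rz, rs, flowL, prodL, infl_cons_cons, mulL, nl, tl, List.flatMap_append, List.append_assoc, hab, hac, hbc, hab.symm, hac.symm, hbc.symm]
  push_cast
  ring

theorem gi2_pat_abbc (a b c : A) (hab : a ≠ b) (hac : a ≠ c) (hbc : b ≠ c) :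
    Gi 2 (fun w => ((rc [c, b, b, a] w : ℕ) : ℤ)) := by
  have h := (((((((((((gi2_E [b] (by simp [hab, hac, hbc, hab.symm, hac.symm, hbc.symm]) a (by simp [hab, hac, hbc, hab.symm, hac.symm, hbc.symm]) c (by simp [hab, hac, hbc, hab.symm, hac.symm, hbc.symm])).add (gi_flow (p := 2) b [(a, 1), (b, 1), (c, 1)] (by simp [wt]))).add (gi_flow (p := 2) c [(b, 3)] (by simp [wt]))).add (gi_prod (p := 2) [b] [c, b, a] (by simp) (by simp))).add (gi_prod (p := 2) [b] [b, c, a] (by simp) (by simp))).add (gi_prod (p := 2) [b] [b, a, c] (by simp) (by simp))).add (gi_prod (p := 2) [c] [b, b, a] (by simp) (by simp))).add (gi_rc_three (p := 2) [c, b, a] (by simp))).add (gi_rc_three (p := 2) [b, c, a] (by simp))).add (gi_rc_three (p := 2) [c, a, b] (by simp))).add (gi_rc_three (p := 2) [b, a, c] (by simp)))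
  refine Gi.of_two h (fun w => (-1) * ((rc [c, b, b, a] w : ℕ) : ℤ) + (-1) * ((rc [c, b, a, b] w : ℕ) : ℤ) + (-1) * ((rc [c, a, b, b] w : ℕ) : ℤ) + (-1) * ((rc [c, a, b] w : ℕ) : ℤ) + (-2) * ((rc [c, b, b, b] w : ℕ) : ℤ) + (-1) * ((rc [c, b, b] w : ℕ) : ℤ) + (-1) * ((rc [b, a, b, c] w : ℕ) : ℤ) + (-1) * ((rc [b, a, c, b] w : ℕ) : ℤ) + (-1) * ((rc [b, c, a, b] w : ℕ) : ℤ) + (-2) * ((rc [b, b, a, c] w : ℕ) : ℤ) + (-2) * ((rc [b, b, c, a] w : ℕ) : ℤ) + (-2) * ((rc [b, c, b, a] w : ℕ) : ℤ) + (-1) * ((rc [c, b, a] w : ℕ) : ℤ) + (-1) * ((rc [b, c, a] w : ℕ) : ℤ) + (-1) * ((rc [b, a, c] w : ℕ) : ℤ)) (fun w => ?_)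
  simp only [List.map_cons, List.map_nil, List.sum_cons, List.sum_nil, List.flatMap_cons, List.flatMap_nil, List.append_nil, List.nil_append, List.cons_append, List.replicate, List.map_append, List.sum_append, if_true, if_false, eq_self, infl_nil_left, infl_nil_right, rc_nil_left, rz, rs, flowL, prodL, infl_cons_cons, mulL, nl, tl, List.flatMap_append, List.append_assoc, hab, hac, hbc, hab.symm, hac.symm, hbc.symm]
  push_cast
  ring

theorem gi2_pat_abcb (a b c : A) (hab : a ≠ b) (hac : a ≠ c) (hbc : b ≠ c) :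
    Gi 2 (fun w => ((rc [b, c, b, a] w : ℕ) : ℤ)) := by
  have h := (((((gi2_E [b] (by simp [hab, hac, hbc, hab.symm, hac.symm, hbc.symm]) a (by simp [hab, hac, hbc, hab.symm, hac.symm, hbc.symm]) c (by simp [hab, hac, hbc, hab.symm, hac.symm, hbc.symm])).add (gi_flow (p := 2) c [(b, 3)] (by simp [wt]))).add (gi_prod (p := 2) [b] [c, b, a] (by simp) (by simp))).add (gi_rc_three (p := 2) [c, b, a] (by simp))).add (gi_rc_three (p := 2) [c, a, b] (by simp)))
  refine Gi.of_two h (fun w => (-1) * ((rc [c, b, a, b] w : ℕ) : ℤ) + (-1) * ((rc [c, a, b, b] w : ℕ) : ℤ) + (-1) * ((rc [c, a, b] w : ℕ) : ℤ) + (-2) * ((rc [c, b, b, b] w : ℕ) : ℤ) + (-1) * ((rc [c, b, b] w : ℕ) : ℤ) + (-1) * ((rc [c, b, b, a] w : ℕ) : ℤ) + (-1) * ((rc [c, b, a] w : ℕ) : ℤ)) (fun w => ?_)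
  simp only [List.map_cons, List.map_nil, List.sum_cons, List.sum_nil, List.flatMap_cons, List.flatMap_nil, List.append_nil, List.nil_append, List.cons_append, List.replicate, List.map_append, List.sum_append, if_true, if_false, eq_self, infl_nil_left, infl_nil_right, rc_nil_left, rz, rs, flowL, prodL, infl_cons_cons, mulL, nl, tl, List.flatMap_append, List.append_assoc, hab, hac, hbc, hab.symm, hac.symm, hbc.symm]
  push_cast
  ring

theorem gi2_pat_abcc (a b c : A) (hab : a ≠ b) (hac : a ≠ c) (hbc : b ≠ c) :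
    Gi 2 (fun w => ((rc [c, c, b, a] w : ℕ) : ℤ)) := by
  have h := ((((gi_flow (p := 2) b [(a, 1), (c, 2)] (by simp [wt])).add (gi_prod (p := 2) [b, a] [c, c] (by simp) (by simp))).add (gi_prod (p := 2) [c] [c, b, a] (by simp) (by simp))).add (gi_rc_three (p := 2) [c, b, a] (by simp)))
  refine Gi.of_two h (fun w => (-1) * ((rc [c, c, b, a] w : ℕ) : ℤ) + (-1) * ((rc [b, a, c, c] w : ℕ) : ℤ) + (-1) * ((rc [b, c, a, c] w : ℕ) : ℤ) + (-1) * ((rc [b, c, c, a] w : ℕ) : ℤ) + (-1) * ((rc [c, b, a, c] w : ℕ) : ℤ) + (-1) * ((rc [c, b, c, a] w : ℕ) : ℤ) + (-1) * ((rc [c, b, a] w : ℕ) : ℤ)) (fun w => ?_)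
  simp only [List.map_cons, List.map_nil, List.sum_cons, List.sum_nil, List.flatMap_cons, List.flatMap_nil, List.append_nil, List.nil_append, List.cons_append, List.replicate, List.map_append, List.sum_append, if_true, if_false, eq_self, infl_nil_left, infl_nil_right, rc_nil_left, rz, rs, flowL, prodL, infl_cons_cons, mulL, nl, tl, List.flatMap_append, List.append_assoc, hab, hac, hbc, hab.symm, hac.symm, hbc.symm]
  push_cast
  ring

theorem gi2_pat_abcd (a b c d : A) (hab : a ≠ b) (hac : a ≠ c) (had : a ≠ d) (hbc : b ≠ c) (hbd : b ≠ d) (hcd : c ≠ d) :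
    Gi 2 (fun w => ((rc [d, c, b, a] w : ℕ) : ℤ)) := by
  have h := (((((((((((((gi2_E [a, c] (by simp [hab, hac, had, hbc, hbd, hcd, hab.symm, hac.symm, had.symm, hbc.symm, hbd.symm, hcd.symm]) b (by simp [hab, hac, had, hbc, hbd, hcd, hab.symm, hac.symm, had.symm, hbc.symm, hbd.symm, hcd.symm]) d (by simp [hab, hac, had, hbc, hbd, hcd, hab.symm, hac.symm, had.symm, hbc.symm, hbd.symm, hcd.symm])).add (gi2_E [a] (by simp [hab, hac, had, hbc, hbd, hcd, hab.symm, hac.symm, had.symm, hbc.symm, hbd.symm, hcd.symm]) b (by simp [hab, hac, had, hbc, hbd, hcd, hab.symm, hac.symm, had.symm, hbc.symm, hbd.symm, hcd.symm]) d (by simp [hab, hac, had, hbc, hbd, hcd, hab.symm, hac.symm, had.symm, hbc.symm, hbd.symm, hcd.symm]))).add (gi2_E [a] (by simp [hab, hac, had, hbc, hbd, hcd, hab.symm, hac.symm, had.symm, hbc.symm, hbd.symm, hcd.symm]) c (by simp [hab, hac, had, hbc, hbd, hcd, hab.symm, hac.symm, had.symm, hbc.symm, hbd.symm, hcd.symm]) d (by simp [hab, hac, had, hbc, hbd, hcd, hab.symm,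 hac.symm, had.symm, hbc.symm, hbd.symm, hcd.symm]))).add (gi2_E [c] (by simp [hab, hac, had, hbc, hbd, hcd, hab.symm, hac.symm, had.symm, hbc.symm, hbd.symm, hcd.symm]) b (by simp [hab, hac, had, hbc, hbd, hcd, hab.symm, hac.symm, had.symm, hbc.symm, hbd.symm, hcd.symm]) d (by simp [hab, hac, had, hbc, hbd, hcd, hab.symm, hac.symm, had.symm, hbc.symm, hbd.symm, hcd.symm]))).add (gi_flow (p := 2) b [(a, 1), (c, 1), (d, 1)] (by simp [wt]))).add (gi_flow (p := 2) d [(a, 1), (b, 1), (c, 1)] (by simp [wt]))).add (gi_flow (p := 2) d [(a, 2), (c, 1)] (by simp [wt]))).add (gi_flow (p := 2) d [(a, 3)] (by simp [wt]))).add (gi_prod (p := 2) [c] [d, b, a] (by simp) (by simp))).add (gi_prod (p := 2) [c] [b, d, a] (by simp) (by simp))).add (gi_prod (p := 2) [c] [b, a, d] (by simp) (by simp))).add (gi_prod (p := 2) [d] [c, b, a] (by simp) (by simp))).add (gi2_tile hab hac hbc had.symm hbd.symm hcd.symm))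
  refine Gi.of_two h (fun w => (-2) * ((rc [d, c, b, a] w : ℕ) : ℤ) + (-1) * ((rc [d, a, b, a] w : ℕ) : ℤ) + (-2) * ((rc [d, b, a, a] w : ℕ) : ℤ) + (-1) * ((rc [d, b, a] w : ℕ) : ℤ) + (-1) * ((rc [d, a, b, c] w : ℕ) : ℤ) + (-2) * ((rc [d, b, a, c] w : ℕ) : ℤ) + (-2) * ((rc [d, b, c, a] w : ℕ) : ℤ) + (-5) * ((rc [d, a, a, a] w : ℕ) : ℤ) + (-3) * ((rc [d, a, a] w : ℕ) : ℤ) + (-2) * ((rc [d, a, a, c] w : ℕ) : ℤ) + (-3) * ((rc [d, a, c, a] w : ℕ) : ℤ) + (-1) * ((rc [d, a, c] w : ℕ) : ℤ) + (-4) * ((rc [d, c, a, a] w : ℕ) : ℤ) + (-2) * ((rc [d, c, a] w : ℕ) : ℤ) + (-2) * ((rc [d, a, c, c] w : ℕ) : ℤ) + (-2) * ((rc [d, c, a, c] w : ℕ) : ℤ) + (-2) * ((rc [d, c, c, a] w : ℕ) : ℤ) + (-1) * ((rc [d, c, b, c] w : ℕ) : ℤ) + (-2) * ((rc [d, b, c, c] w : ℕ) : ℤ) + (-1) * ((rc [d, b, c] w : ℕ) : ℤ) + (-3) * ((rc [d, c, c, c] w : ℕ) : ℤ) + (-2) * ((rc [d, c, c] w : ℕ) : ℤ) + (-1) * ((rc [b, a, c, d] w : ℕ) : ℤ) + (-1) * ((rc [b, a, d, c] w : ℕ) : ℤ) + (-1) * ((rc [b, d, a, c] w : ℕ) : ℤ) + (-1) *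 ((rc [b, c, a, d] w : ℕ) : ℤ) + (-1) * ((rc [b, c, d, a] w : ℕ) : ℤ) + (-1) * ((rc [b, d, c, a] w : ℕ) : ℤ) + (-1) * ((rc [d, a, c, b] w : ℕ) : ℤ) + (-1) * ((rc [d, c, a, b] w : ℕ) : ℤ) + (-1) * ((rc [c, d, b, a] w : ℕ) : ℤ) + (-1) * ((rc [c, b, d, a] w : ℕ) : ℤ) + (-1) * ((rc [c, b, a, d] w : ℕ) : ℤ)) (fun w => ?_)
  simp only [List.map_cons, List.map_nil, List.sum_cons, List.sum_nil, List.flatMap_cons, List.flatMap_nil, List.append_nil, List.nil_append, List.cons_append, List.replicate, List.map_append, List.sum_append, if_true, if_false, eq_self, infl_nil_left, infl_nil_right, rc_nil_left, rz, rs, flowL, prodL, infl_cons_cons, mulL, nl, tl, List.flatMap_append, List.append_assoc, hab, hac, had, hbc, hbd, hcd, hab.symm, hac.symm, had.symm, hbc.symm, hbd.symm, hcd.symm]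
  push_cast
  ring

/-- All counts of length four modulo two. -/
theorem gi2_rc_four (t z y x : A) : Gi 2 (fun w => ((rc [t, z, y, x] w : ℕ) : ℤ)) := by
  by_cases hyx : x = y
  · subst hyx
    by_cases hzx : x = z
    · subst hzx
      by_cases htx : x = t
      · subst htx
        exact gi2_pat_aaaa _ 
      · exact gi2_pat_aaab _ _ (by first | assumption | exact Ne.symm (by assumption))
    · by_cases htx : x = t
      · subst htx
        exact gi2_pat_aaba _ _ (by first | assumption | exact Ne.symm (by assumption))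
      · by_cases htz : z = t
        · subst htz
          exact gi2_pat_aabb _ _ (by first | assumption | exact Ne.symm (by assumption))
        · exact gi2_pat_aabc _ _ _ (by first | assumption | exact Ne.symm (by assumption)) (by first | assumption | exact Ne.symm (by assumption)) (by first | assumption | exact Ne.symm (by assumption))
  · by_cases hzx : x = z
    · subst hzx
      by_cases htx : x = t
      · subst htx
        exact gi2_pat_abaa _ _ (by first | assumption | exact Ne.symm (by assumption))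
      · by_cases hty : y = t
        · subst hty
          exact gi2_pat_abab _ _ (by first | assumption | exact Ne.symm (by assumption))
        · exact gi2_pat_abac _ _ _ (by first | assumption | exact Ne.symm (by assumption)) (by first | assumption | exact Ne.symm (by assumption)) (by first | assumption | exact Ne.symm (by assumption))
    · by_cases hzy : y = z
      · subst hzy
        by_cases htx : x = t
        · subst htx
          exact gi2_pat_abba _ _ (by first | assumption | exact Ne.symm (by assumption))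
        · by_cases hty : y = t
          · subst hty
            exact gi2_pat_abbb _ _ (by first | assumption | exact Ne.symm (by assumption))
          · exact gi2_pat_abbc _ _ _ (by first | assumption | exact Ne.symm (by assumption)) (by first | assumption | exact Ne.symm (by assumption)) (by first | assumption | exact Ne.symm (by assumption))
      · by_cases htx : x = t
        · subst htx
          exact gi2_pat_abca _ _ _ (by first | assumption | exact Ne.symm (by assumption)) (by first | assumption | exact Ne.symm (by assumption)) (by first | assumption | exact Ne.symm (by assumption))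
        · by_cases hty : y = t
          · subst hty
            exact gi2_pat_abcb _ _ _ (by first | assumption | exact Ne.symm (by assumption)) (by first | assumption | exact Ne.symm (by assumption)) (by first | assumption | exact Ne.symm (by assumption))
          · by_cases htz : z = t
            · subst htz
              exact gi2_pat_abcc _ _ _ (by first | assumption | exact Ne.symm (by assumption)) (by first | assumption | exact Ne.symm (by assumption)) (by first | assumption | exact Ne.symm (by assumption))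
            · exact gi2_pat_abcd _ _ _ _ (by first | assumption | exact Ne.symm (by assumption)) (by first | assumption | exact Ne.symm (by assumption)) (by first | assumption | exact Ne.symm (by assumption)) (by first | assumption | exact Ne.symm (by assumption)) (by first | assumption | exact Ne.symm (by assumption)) (by first | assumption | exact Ne.symm (by assumption))

theorem gi2_rc_le_four (u : List A) (hu : u.length ≤ 4) :
    Gi 2 (fun w => ((rc u w : ℕ) : ℤ)) := by
  match u, hu with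
  | [], _ => exact gi_rc_three _ (by simp)
  | [_], _ => exact gi_rc_three _ (by simp)
  | [_, _], _ => exact gi_rc_three _ (by simp)
  | [_, _, _], _ => exact gi_rc_three _ (by simp)
  | [t, z, y, x], _ => exact gi2_rc_four t z y x
  | _ :: _ :: _ :: _ :: _ :: l, hu => simp at hu; omega

end Deg4Two

end Vale.Agent.Lib.P329
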