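import Vale.Agent.Lib.P329.PhiAll

/-!
All subsequence counts of length four are good modulo every positive number: explicit certificates.
-/

namespace Vale.Agent.Lib.P329

section Deg4Z

variable {A : Type} [DecidableEq A] [Fintype A] {m : ℕ} [hm : NeZero m]

instance neZero_two_mul : NeZero (2 * m) := ⟨by
  have := NeZero.ne m
  omega⟩

omit [Fintype A] in
/-- Division by two. -/
theorem Gi.of_two_mul {f : List A → ℤ} (h : Gi (2 * m) (fun w => 2 * f w)) : Gi m f := by
  refine Good.of_factor h (fun w w' e => ?_)
  rw [ZMod.intCast_eq_intCast_iff_dvd_sub] at e ⊢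
  obtain ⟨c, hc⟩ := e
  refine ⟨c, ?_⟩
  push_cast at hc ⊢
  have h2 : (2 : ℤ) * (f w' - f w) = 2 * ((m : ℤ) * c) := by
    rw [show (2 : ℤ) * (f w' - f w) = 2 * f w' - 2 * f w by ring, hc]
    ring
  exact mul_left_cancel₀ (by norm_num) h2

theorem gz_pat_aaaa (a : A)  :
    Gi m (fun w => ((rc [a, a, a, a] w : ℕ) : ℤ)) := by
  have h := ((gi_flow (p := m) a [(a, 3)] (by simp [wt])).smul (1))
  refine h.congr (fun w => ?_)
  simp only [List.map_cons, List.map_nil, List.sum_cons, List.sum_nil, List.flatMap_cons, List.flatMap_nil, List.append_nil, List.nil_append, List.cons_append, List.replicate, List.map_append, List.sum_append, if_true, if_false, eq_self, infl_nil_left, infl_nil_right, rc_nil_left, rz, rs, flowL, prodL, phiL, phiG, infl_cons_cons]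
  push_cast
  ring

theorem gz_pat_aaab (a b : A) (hab : a ≠ b) :
    Gi m (fun w => ((rc [b, a, a, a] w : ℕ) : ℤ)) := by
  have h := ((gi_flow (p := m) b [(a, 3)] (by simp [wt])).smul (1))
  refine h.congr (fun w => ?_)
  simp only [List.map_cons, List.map_nil, List.sum_cons, List.sum_nil, List.flatMap_cons, List.flatMap_nil, List.append_nil, List.nil_append, List.cons_append, List.replicate, List.map_append, List.sum_append, if_true, if_false, eq_self, infl_nil_left, infl_nil_right, rc_nil_left, rz, rs, flowL, prodL, phiL, phiG, infl_cons_cons, hab, hab.symm]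
  push_cast
  ring

theorem gz_pat_aaba (a b : A) (hab : a ≠ b) :
    Gi m (fun w => ((rc [a, b, a, a] w : ℕ) : ℤ)) := by
  have h := ((((gi_prod (p := m) [a] [b, a, a] (by simp) (by simp)).smul (1)).add ((gi_flow (p := m) b [(a, 3)] (by simp [wt])).smul (-3))).add ((gi_rc_three (p := m) [b, a, a] (by simp)).smul (-2)))
  refine h.congr (fun w => ?_)
  simp only [List.map_cons, List.map_nil, List.sum_cons, List.sum_nil, List.flatMap_cons, List.flatMap_nil, List.append_nil, List.nil_append, List.cons_append, List.replicate, List.map_append, List.sum_append, if_true, if_false, eq_self, infl_nil_left, infl_nil_right, rc_nil_left, rz, rs, flowL, prodL, phiL, phiG, infl_cons_cons, hab, hab.symm]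
  push_cast
  ring

theorem gz_pat_abaa (a b : A) (hab : a ≠ b) :
    Gi m (fun w => ((rc [a, a, b, a] w : ℕ) : ℤ)) := by
  have h := ((((((gi_prod (p := (2 * m)) [a] [b, a, a] (by simp) (by simp)).smul (-2)).add ((gi_flow (p := (2 * m)) b [(a, 3)] (by simp [wt])).smul (6))).add ((gi_rc_three (p := (2 * m)) [b, a, a] (by simp)).smul (4))).add ((gi_prod (p := (2 * m)) [a] [a, b, a] (by simp) (by simp)).smul (1))).add ((gi_rc_three (p := (2 * m)) [a, b, a] (by simp)).smul (-2)))
  refine Gi.of_two_mul (h.congr (fun w => ?_))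
  simp only [List.map_cons, List.map_nil, List.sum_cons, List.sum_nil, List.flatMap_cons, List.flatMap_nil, List.append_nil, List.nil_append, List.cons_append, List.replicate, List.map_append, List.sum_append, if_true, if_false, eq_self, infl_nil_left, infl_nil_right, rc_nil_left, rz, rs, flowL, prodL, phiL, phiG, infl_cons_cons, hab, hab.symm]
  push_cast
  ring

theorem gz_pat_abbb (a b : A) (hab : a ≠ b) :
    Gi m (fun w => ((rc [b, b, b, a] w : ℕ) : ℤ)) := by
  have h := ((((gi_flow (p := (2 * m)) b [(a, 1), (b, 2)] (by simp [wt])).smul (2)).add ((gi_prod (p := (2 * m)) [b] [b, a, b] (by simp) (by simp)).smul (-1))).add ((gi_rc_three (p := (2 * m)) [b, a, b] (by simp)).smul (2)))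
  refine Gi.of_two_mul (h.congr (fun w => ?_))
  simp only [List.map_cons, List.map_nil, List.sum_cons, List.sum_nil, List.flatMap_cons, List.flatMap_nil, List.append_nil, List.nil_append, List.cons_append, List.replicate, List.map_append, List.sum_append, if_true, if_false, eq_self, infl_nil_left, infl_nil_right, rc_nil_left, rz, rs, flowL, prodL, phiL, phiG, infl_cons_cons, hab, hab.symm]
  push_cast
  ring

theorem gz_pat_aabb (a b : A) (hab : a ≠ b) :
    Gi m (fun w => ((rc [b, b, a, a] w : ℕ) : ℤ)) := by
  have h := (((((((((gi_flow (p := m) b [(a, 2), (b, 1)] (by simp [wt])).smul (-3)).add ((gi_prod (p := m) [a] [b, b, a] (by simp) (by simp)).smul (2))).add ((gi_flow (p := m) a [(a, 1), (b, 2)] (by simp [wt])).smul (-2))).add ((gi_rc_three (p := m) [b, b, a] (by simp)).smul (-2))).add ((gi_prod (p := m) [b] [a, a, b] (by simp) (by simp)).smul (1))).add ((gi_prod (p := m) [a] [b, a, b] (by simp) (by simp)).smul (1))).add ((gi_rc_three (p := m) [b, a, b] (by simp)).smul (-1))).add ((gi_rc_three (p := m) [a, a, b] (by simp)).smul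 (-1)))
  refine h.congr (fun w => ?_)
  simp only [List.map_cons, List.map_nil, List.sum_cons, List.sum_nil, List.flatMap_cons, List.flatMap_nil, List.append_nil, List.nil_append, List.cons_append, List.replicate, List.map_append, List.sum_append, if_true, if_false, eq_self, infl_nil_left, infl_nil_right, rc_nil_left, rz, rs, flowL, prodL, phiL, phiG, infl_cons_cons, hab, hab.symm]
  push_cast
  ring

theorem gz_pat_abab (a b : A) (hab : a ≠ b) :
    Gi m (fun w => ((rc [b, a, b, a] w : ℕ) : ℤ)) := by
  have h := ((((((((((((gi_prod (p := (2 * m)) [a] [b, b, a] (by simp) (by simp)).smul (-8)).add ((gi_flow (p := (2 * m)) b [(a, 2), (b, 1)] (by simp [wt])).smul (12))).add ((gi_flow (p := (2 * m)) a [(a, 1), (b, 2)] (by simp [wt])).smul (8))).add ((gi_rc_three (p := (2 * m)) [b, b, a] (by simp)).smul (6))).add ((gi_prod (p := (2 * m)) [b] [a, a, b] (by simp) (by simp)).smul (-4))).add ((gi_prod (p := (2 * m)) [a] [b, a, b] (by simp) (by simp)).smul (-4))).add ((gi_rc_three (p := (2 * m)) [b, a, b] (by simp)).smul (4))).add ((gi_rc_three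 (p := (2 * m)) [a, a, b] (by simp)).smul (4))).add ((gi_prod (p := (2 * m)) [b, a] [b, a] (by simp) (by simp)).smul (1))).add ((gi_rc_three (p := (2 * m)) [b, a, a] (by simp)).smul (-2))).add ((gi_rc_three (p := (2 * m)) [b, a] (by simp)).smul (-1)))
  refine Gi.of_two_mul (h.congr (fun w => ?_))
  simp only [List.map_cons, List.map_nil, List.sum_cons, List.sum_nil, List.flatMap_cons, List.flatMap_nil, List.append_nil, List.nil_append, List.cons_append, List.replicate, List.map_append, List.sum_append, if_true, if_false, eq_self, infl_nil_left, infl_nil_right, rc_nil_left, rz, rs, flowL, prodL, phiL, phiG, infl_cons_cons, hab, hab.symm]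
  push_cast
  ring

theorem gz_pat_abba (a b : A) (hab : a ≠ b) :
    Gi m (fun w => ((rc [a, b, b, a] w : ℕ) : ℤ)) := by
  have h := (((((gi_prod (p := (2 * m)) [b, a] [b, a] (by simp) (by simp)).smul (-1)).add ((gi_prod (p := (2 * m)) [a] [b, b, a] (by simp) (by simp)).smul (2))).add ((gi_rc_three (p := (2 * m)) [b, a, a] (by simp)).smul (2))).add ((gi_rc_three (p := (2 * m)) [b, a] (by simp)).smul (1)))
  refine Gi.of_two_mul (h.congr (fun w => ?_))
  simp only [List.map_cons, List.map_nil, List.sum_cons, List.sum_nil, List.flatMap_cons, List.flatMap_nil, List.append_nil, List.nil_append, List.cons_append, List.replicate, List.map_append, List.sum_append, if_true, if_false, eq_self, infl_nil_left, infl_nil_right, rc_nil_left, rz, rs, flowL, prodL, phiL, phiG, infl_cons_cons, hab, hab.symm]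
  push_cast
  ring

theorem gz_pat_aabc (a b c : A) (hab : a ≠ b) (hac : a ≠ c) (hbc : b ≠ c) :
    Gi m (fun w => ((rc [c, b, a, a] w : ℕ) : ℤ)) := by
  have h := (((gi_prod (p := m) [b, a, a] [c] (by simp) (by simp)).smul (1)).add ((gi_flow (p := m) b [(a, 2), (c, 1)] (by simp [wt])).smul (-1)))
  refine h.congr (fun w => ?_)
  simp only [List.map_cons, List.map_nil, List.sum_cons, List.sum_nil, List.flatMap_cons, List.flatMap_nil, List.append_nil, List.nil_append, List.cons_append, List.replicate, List.map_append, List.sum_append, if_true, if_false, eq_self, infl_nil_left, infl_nil_right, rc_nil_left, rz, rs, flowL, prodL, phiL, phiG, infl_cons_cons, hab, hac, hbc, hab.symm, hac.symm, hbc.symm]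
  push_cast
  ring

theorem gz_pat_abac (a b c : A) (hab : a ≠ b) (hac : a ≠ c) (hbc : b ≠ c) :
    Gi m (fun w => ((rc [c, a, b, a] w : ℕ) : ℤ)) := by
  have h := ((((((((((((((((((((((((((((gi_flow (p := (2 * m)) c [(a, 2), (b, 1)] (by simp [wt])).smul (3)).add ((gi_rc_three (p := (2 * m)) [c, b, a] (by simp)).smul (1))).add ((gi_rc_three (p := (2 * m)) [c, a, b] (by simp)).smul (3))).add ((gi_prod (p := (2 * m)) [b, a, a] [c] (by simp) (by simp)).smul (-4))).add ((gi_flow (p := (2 * m)) b [(a, 2), (c, 1)] (by simp [wt])).smul (1))).add ((gi_prod (p := (2 * m)) [b, a] [c, a] (by simp) (by simp)).smul (1))).add ((gi_rc_three (p := (2 * m)) [b, c, a] (by simp)).smul (-1))).add ((gi_rc_three (p := (2 * m)) [b, a, c] (by simp)).smul (-2))).add ((gi_phi_all (2 * m) [a, b] (by simp [hab, hac, hbc, hab.symm, hac.symm, hbc.symm]) (z := a) (by simp) (y := c) (by simp [hab, hac, hbc, hab.symm, hac.symm, hbc.symm])).smul (-1))).add ((gi_flow (p := (2 * m)) c [(a, 3)] (by simp [wt])).smul (3))).add ((gi_prod (p := (2 * m)) [b, a] [c, b] (by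 simp) (by simp)).smul (-1))).add ((gi_prod (p := (2 * m)) [a] [b, c, b] (by simp) (by simp)).smul (1))).add ((gi_prod (p := (2 * m)) [a] [c, b, b] (by simp) (by simp)).smul (2))).add ((gi_flow (p := (2 * m)) a [(b, 2), (c, 1)] (by simp [wt])).smul (-3))).add ((gi_rc_three (p := (2 * m)) [c, a, a] (by simp)).smul (2))).add ((gi_phi_all (2 * m) [a, c] (by simp [hab, hac, hbc, hab.symm, hac.symm, hbc.symm]) (z := a) (by simp) (y := b) (by simp [hab, hac, hbc, hab.symm, hac.symm, hbc.symm])).smul (1))).add ((gi_flow (p := (2 * m)) b [(a, 3)] (by simp [wt])).smul (-3))).add ((gi_prod (p := (2 * m)) [c, a] [c, b] (by simp) (by simp)).smul (-1))).add ((gi_prod (p := (2 * m)) [a] [c, c, b] (by simp) (by simp)).smul (2))).add ((gi_prod (p := (2 * m)) [b] [c, a, c] (by simp) (by simp)).smul (-1))).add ((gi_prod (p := (2 * m)) [a] [c, b, c] (by simp) (by simp)).smul (1))).add ((gi_prod (p := (2 * m)) [b] [a, c, c] (by simp) (by simp)).smul (-2))).add ((gi_rc_three (p := (2 * m)) [b, a, a] (by simp)).smul (-2))).add ((gi_phi_all (2 * m) [b,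 c] (by simp [hab, hac, hbc, hab.symm, hac.symm, hbc.symm]) (z := b) (by simp) (y := a) (by simp [hab, hac, hbc, hab.symm, hac.symm, hbc.symm])).smul (1))).add ((gi_flow (p := (2 * m)) a [(b, 3)] (by simp [wt])).smul (-3))).add ((gi_rc_three (p := (2 * m)) [a, b, b] (by simp)).smul (-2))).add ((gi_rc_three (p := (2 * m)) [a, b, c] (by simp)).smul (-2)))
  refine Gi.of_two_mul (h.congr (fun w => ?_))
  simp only [List.map_cons, List.map_nil, List.sum_cons, List.sum_nil, List.flatMap_cons, List.flatMap_nil, List.append_nil, List.nil_append, List.cons_append, List.replicate, List.map_append, List.sum_append, if_true, if_false, eq_self, infl_nil_left, infl_nil_right, rc_nil_left, rz, rs, flowL, prodL, phiL, phiG, infl_cons_cons, hab, hac, hbc, hab.symm, hac.symm, hbc.symm]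
  push_cast
  ring

theorem gz_pat_abca (a b c : A) (hab : a ≠ b) (hac : a ≠ c) (hbc : b ≠ c) :
    Gi m (fun w => ((rc [a, c, b, a] w : ℕ) : ℤ)) := by
  have h := ((((((((((((((((((((((((((((gi_prod (p := (2 * m)) [a] [c, b, a] (by simp) (by simp)).smul (2)).add ((gi_flow (p := (2 * m)) c [(a, 2), (b, 1)] (by simp [wt])).smul (-3))).add ((gi_rc_three (p := (2 * m)) [c, b, a] (by simp)).smul (-3))).add ((gi_rc_three (p := (2 * m)) [c, a, b] (by simp)).smul (-3))).add ((gi_prod (p := (2 * m)) [b, a] [c, a] (by simp) (by simp)).smul (-1))).add ((gi_flow (p := (2 * m)) b [(a, 2), (c, 1)] (by simp [wt])).smul (3))).add ((gi_rc_three (p := (2 * m)) [b, c, a] (by simp)).smul (1))).add ((gi_rc_three (p := (2 * m)) [b, a, c] (by simp)).smul (2))).add ((gi_phi_all (2 * m) [a, b] (by simp [hab, hac, hbc, hab.symm, hac.symm, hbc.symm]) (z := a) (by simp) (y := c) (by simp [hab, hac, hbc, hab.symm, hac.symm, hbc.symm])).smul (1))).add ((gi_flow (p := (2 * m)) c [(a, 3)] (by simp [wt])).smul (-3))).add ((gi_prod (p := (2 * m)) [b, a] [c, b] (by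 simp) (by simp)).smul (1))).add ((gi_prod (p := (2 * m)) [a] [b, c, b] (by simp) (by simp)).smul (-1))).add ((gi_prod (p := (2 * m)) [a] [c, b, b] (by simp) (by simp)).smul (-2))).add ((gi_flow (p := (2 * m)) a [(b, 2), (c, 1)] (by simp [wt])).smul (3))).add ((gi_rc_three (p := (2 * m)) [c, a, a] (by simp)).smul (-2))).add ((gi_phi_all (2 * m) [a, c] (by simp [hab, hac, hbc, hab.symm, hac.symm, hbc.symm]) (z := a) (by simp) (y := b) (by simp [hab, hac, hbc, hab.symm, hac.symm, hbc.symm])).smul (-1))).add ((gi_flow (p := (2 * m)) b [(a, 3)] (by simp [wt])).smul (3))).add ((gi_prod (p := (2 * m)) [c, a] [c, b] (by simp) (by simp)).smul (1))).add ((gi_prod (p := (2 * m)) [a] [c, c, b] (by simp) (by simp)).smul (-2))).add ((gi_prod (p := (2 * m)) [b] [c, a, c] (by simp) (by simp)).smul (1))).add ((gi_prod (p := (2 * m)) [a] [c, b, c] (by simp) (by simp)).smul (-1))).add ((gi_prod (p := (2 * m)) [b] [a, c, c] (by simp) (by simp)).smul (2))).add ((gi_rc_three (p := (2 * m)) [b, a, a] (by simp)).smul (2))).add ((gi_phi_all (2 * m) [b, c]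 (by simp [hab, hac, hbc, hab.symm, hac.symm, hbc.symm]) (z := b) (by simp) (y := a) (by simp [hab, hac, hbc, hab.symm, hac.symm, hbc.symm])).smul (-1))).add ((gi_flow (p := (2 * m)) a [(b, 3)] (by simp [wt])).smul (3))).add ((gi_rc_three (p := (2 * m)) [a, b, b] (by simp)).smul (2))).add ((gi_rc_three (p := (2 * m)) [a, b, c] (by simp)).smul (2)))
  refine Gi.of_two_mul (h.congr (fun w => ?_))
  simp only [List.map_cons, List.map_nil, List.sum_cons, List.sum_nil, List.flatMap_cons, List.flatMap_nil, List.append_nil, List.nil_append, List.cons_append, List.replicate, List.map_append, List.sum_append, if_true, if_false, eq_self, infl_nil_left, infl_nil_right, rc_nil_left, rz, rs, flowL, prodL, phiL, phiG, infl_cons_cons, hab, hac, hbc, hab.symm, hac.symm, hbc.symm]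
  push_cast
  ring

theorem gz_pat_abbc (a b c : A) (hab : a ≠ b) (hac : a ≠ c) (hbc : b ≠ c) :
    Gi m (fun w => ((rc [c, b, b, a] w : ℕ) : ℤ)) := by
  have h := ((((((((((((((((((((((((((((((((gi_prod (p := (2 * m)) [b] [c, a, b] (by simp) (by simp)).smul (2)).add ((gi_rc_three (p := (2 * m)) [c, a, b] (by simp)).smul (-1))).add ((gi_prod (p := (2 * m)) [b, a] [c, b] (by simp) (by simp)).smul (1))).add ((gi_flow (p := (2 * m)) b [(a, 1), (b, 1), (c, 1)] (by simp [wt])).smul (-2))).add ((gi_prod (p := (2 * m)) [a] [b, c, b] (by simp) (by simp)).smul (-1))).add ((gi_prod (p := (2 * m)) [a] [c, b, b] (by simp) (by simp)).smul (-2))).add ((gi_flow (p := (2 * m)) a [(b, 2), (c, 1)] (by simp [wt])).smul (-1))).add ((gi_rc_three (p := (2 * m)) [c, b, a] (by simp)).smul (-1))).add ((gi_prod (p := (2 * m)) [b, b, a] [c] (by simp) (by simp)).smul (2))).add ((gi_prod (p := (2 * m)) [b] [a, c, b] (by simp) (by simp)).smul (2))).add ((gi_rc_three (p := (2 * m)) [a, c, b] (by simp)).smul (-2))).add ((gi_prod (p := (2 * m)) [b] [a, b, c] (by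 simp) (by simp)).smul (2))).add ((gi_phi_all (2 * m) [a, c] (by simp [hab, hac, hbc, hab.symm, hac.symm, hbc.symm]) (z := a) (by simp) (y := b) (by simp [hab, hac, hbc, hab.symm, hac.symm, hbc.symm])).smul (-1))).add ((gi_flow (p := (2 * m)) b [(a, 3)] (by simp [wt])).smul (3))).add ((gi_flow (p := (2 * m)) b [(a, 2), (c, 1)] (by simp [wt])).smul (3))).add ((gi_rc_three (p := (2 * m)) [b, c, a] (by simp)).smul (1))).add ((gi_flow (p := (2 * m)) c [(a, 2), (b, 1)] (by simp [wt])).smul (3))).add ((gi_phi_all (2 * m) [a, b] (by simp [hab, hac, hbc, hab.symm, hac.symm, hbc.symm]) (z := a) (by simp) (y := c) (by simp [hab, hac, hbc, hab.symm, hac.symm, hbc.symm])).smul (-1))).add ((gi_flow (p := (2 * m)) c [(a, 3)] (by simp [wt])).smul (3))).add ((gi_prod (p := (2 * m)) [b, a] [c, a] (by simp) (by simp)).smul (-1))).add ((gi_rc_three (p := (2 * m)) [b, a, c] (by simp)).smul (2))).add ((gi_rc_three (p := (2 * m)) [c, a, a] (by simp)).smul (2))).add ((gi_prod (p := (2 * m)) [c, a] [c, b] (by simp) (by simp)).smul (1))).add ((gi_prod (p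 := (2 * m)) [a] [c, c, b] (by simp) (by simp)).smul (-2))).add ((gi_prod (p := (2 * m)) [b] [c, a, c] (by simp) (by simp)).smul (1))).add ((gi_prod (p := (2 * m)) [a] [c, b, c] (by simp) (by simp)).smul (-1))).add ((gi_prod (p := (2 * m)) [b] [a, c, c] (by simp) (by simp)).smul (2))).add ((gi_rc_three (p := (2 * m)) [b, a, a] (by simp)).smul (2))).add ((gi_phi_all (2 * m) [b, c] (by simp [hab, hac, hbc, hab.symm, hac.symm, hbc.symm]) (z := b) (by simp) (y := a) (by simp [hab, hac, hbc, hab.symm, hac.symm, hbc.symm])).smul (-1))).add ((gi_flow (p := (2 * m)) a [(b, 3)] (by simp [wt])).smul (3))).add ((gi_rc_three (p := (2 * m)) [a, b, b] (by simp)).smul (2)))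
  refine Gi.of_two_mul (h.congr (fun w => ?_))
  simp only [List.map_cons, List.map_nil, List.sum_cons, List.sum_nil, List.flatMap_cons, List.flatMap_nil, List.append_nil, List.nil_append, List.cons_append, List.replicate, List.map_append, List.sum_append, if_true, if_false, eq_self, infl_nil_left, infl_nil_right, rc_nil_left, rz, rs, flowL, prodL, phiL, phiG, infl_cons_cons, hab, hac, hbc, hab.symm, hac.symm, hbc.symm]
  push_cast
  ring

theorem gz_pat_abcb (a b c : A) (hab : a ≠ b) (hac : a ≠ c) (hbc : b ≠ c) :
    Gi m (fun w => ((rc [b, c, b, a] w : ℕ) : ℤ)) := by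
  have h := (((((((((((((((((((((((((((((((gi_prod (p := (2 * m)) [a] [b, c, b] (by simp) (by simp)).smul (3)).add ((gi_prod (p := (2 * m)) [a] [c, b, b] (by simp) (by simp)).smul (6))).add ((gi_flow (p := (2 * m)) c [(a, 1), (b, 2)] (by simp [wt])).smul (-4))).add ((gi_flow (p := (2 * m)) a [(b, 2), (c, 1)] (by simp [wt])).smul (-3))).add ((gi_prod (p := (2 * m)) [b, a] [c, b] (by simp) (by simp)).smul (-1))).add ((gi_prod (p := (2 * m)) [b] [c, a, b] (by simp) (by simp)).smul (-2))).add ((gi_rc_three (p := (2 * m)) [c, a, b] (by simp)).smul (1))).add ((gi_rc_three (p := (2 * m)) [c, b, a] (by simp)).smul (1))).add ((gi_prod (p := (2 * m)) [b] [a, c, b] (by simp) (by simp)).smul (-2))).add ((gi_rc_three (p := (2 * m)) [a, c, b] (by simp)).smul (2))).add ((gi_phi_all (2 * m) [a, c] (by simp [hab, hac, hbc, hab.symm, hac.symm, hbc.symm]) (z := a) (by simp) (y := b) (by simp [hab, hac, hbc, hab.symm, hac.symm, hbc.symm])).smul (1))).add ((gi_flow (p := (2 * m)) b [(a, 3)] (by simp [wt])).smul (-3))).add ((gi_flow (p := (2 * m)) b [(a,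 2), (c, 1)] (by simp [wt])).smul (-3))).add ((gi_rc_three (p := (2 * m)) [b, c, a] (by simp)).smul (-1))).add ((gi_flow (p := (2 * m)) c [(a, 2), (b, 1)] (by simp [wt])).smul (-3))).add ((gi_phi_all (2 * m) [a, b] (by simp [hab, hac, hbc, hab.symm, hac.symm, hbc.symm]) (z := a) (by simp) (y := c) (by simp [hab, hac, hbc, hab.symm, hac.symm, hbc.symm])).smul (1))).add ((gi_flow (p := (2 * m)) c [(a, 3)] (by simp [wt])).smul (-3))).add ((gi_prod (p := (2 * m)) [b, a] [c, a] (by simp) (by simp)).smul (1))).add ((gi_rc_three (p := (2 * m)) [b, a, c] (by simp)).smul (-2))).add ((gi_rc_three (p := (2 * m)) [c, a, a] (by simp)).smul (-2))).add ((gi_prod (p := (2 * m)) [c, a] [c, b] (by simp) (by simp)).smul (-1))).add ((gi_prod (p := (2 * m)) [a] [c, c, b] (by simp) (by simp)).smul (2))).add ((gi_prod (p := (2 * m)) [b] [c, a, c] (by simp) (by simp)).smul (-1))).add ((gi_prod (p := (2 * m)) [a] [c, b, c] (by simp) (by simp)).smul (1))).add ((gi_prod (p := (2 * m)) [b] [a, c, c] (by simp) (by simp)).smul (-2))).add ((gi_rc_three (p := (2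 * m)) [b, a, a] (by simp)).smul (-2))).add ((gi_phi_all (2 * m) [b, c] (by simp [hab, hac, hbc, hab.symm, hac.symm, hbc.symm]) (z := b) (by simp) (y := a) (by simp [hab, hac, hbc, hab.symm, hac.symm, hbc.symm])).smul (1))).add ((gi_flow (p := (2 * m)) a [(b, 3)] (by simp [wt])).smul (-3))).add ((gi_rc_three (p := (2 * m)) [a, b, b] (by simp)).smul (-2))).add ((gi_rc_three (p := (2 * m)) [a, b, c] (by simp)).smul (-2)))
  refine Gi.of_two_mul (h.congr (fun w => ?_))
  simp only [List.map_cons, List.map_nil, List.sum_cons, List.sum_nil, List.flatMap_cons, List.flatMap_nil, List.append_nil, List.nil_append, List.cons_append, List.replicate, List.map_append, List.sum_append, if_true, if_false, eq_self, infl_nil_left, infl_nil_right, rc_nil_left, rz, rs, flowL, prodL, phiL, phiG, infl_cons_cons, hab, hac, hbc, hab.symm, hac.symm, hbc.symm]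
  push_cast
  ring

theorem gz_pat_abcc (a b c : A) (hab : a ≠ b) (hac : a ≠ c) (hbc : b ≠ c) :
    Gi m (fun w => ((rc [c, c, b, a] w : ℕ) : ℤ)) := by
  have h := (((((((((gi_flow (p := m) c [(a, 1), (b, 1), (c, 1)] (by simp [wt])).smul (-2)).add ((gi_prod (p := m) [a] [c, c, b] (by simp) (by simp)).smul (2))).add ((gi_flow (p := m) a [(b, 1), (c, 2)] (by simp [wt])).smul (-2))).add ((gi_prod (p := m) [b, a] [c, c] (by simp) (by simp)).smul (1))).add ((gi_flow (p := m) b [(a, 1), (c, 2)] (by simp [wt])).smul (-1))).add ((gi_prod (p := m) [c] [a, b, c] (by simp) (by simp)).smul (1))).add ((gi_prod (p := m) [a] [c, b, c] (by simp) (by simp)).smul (1))).add ((gi_rc_three (p := m) [a, b, c] (by simp)).smul (-1)))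
  refine h.congr (fun w => ?_)
  simp only [List.map_cons, List.map_nil, List.sum_cons, List.sum_nil, List.flatMap_cons, List.flatMap_nil, List.append_nil, List.nil_append, List.cons_append, List.replicate, List.map_append, List.sum_append, if_true, if_false, eq_self, infl_nil_left, infl_nil_right, rc_nil_left, rz, rs, flowL, prodL, phiL, phiG, infl_cons_cons, hab, hac, hbc, hab.symm, hac.symm, hbc.symm]
  push_cast
  ring

theorem gz_pat_abcd (a b c d : A) (hab : a ≠ b) (hac : a ≠ c) (had : a ≠ d) (hbc : b ≠ c) (hbd : b ≠ d) (hcd : c ≠ d) :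
    Gi m (fun w => ((rc [d, c, b, a] w : ℕ) : ℤ)) := by
  have h := ((((((((((((((((((((((gi_flow (p := (2 * m)) d [(a, 1), (b, 1), (c, 1)] (by simp [wt])).smul (-1)).add ((gi_prod (p := (2 * m)) [b, a] [d, c] (by simp) (by simp)).smul (-1))).add ((gi_flow (p := (2 * m)) b [(a, 1), (c, 1), (d, 1)] (by simp [wt])).smul (1))).add ((gi_flow (p := (2 * m)) c [(a, 1), (b, 1), (d, 1)] (by simp [wt])).smul (-2))).add ((gi_prod (p := (2 * m)) [c, b, a] [d] (by simp) (by simp)).smul (2))).add ((gi_prod (p := (2 * m)) [b, a] [c, d] (by simp) (by simp)).smul (-1))).add ((gi_prod (p := (2 * m)) [d, a] [c, b] (by simp) (by simp)).smul (1))).add ((gi_phi_all (2 * m) [a, b, d] (by simp [hab, hac, had, hbc, hbd, hcd, hab.symm, hac.symm, had.symm, hbc.symm, hbd.symm, hcd.symm]) (z := a) (by simp) (y := c) (by simp [hab, hac, had, hbc, hbd, hcd, hab.symm, hac.symm, had.symm, hbc.symm, hbd.symm, hcd.symm])).smul (1))).add ((gi_flow (p := (2 * m)) c [(a, 3)] (by simp [wt])).smul (3))).add ((gi_phi_all (2 * m) [a, b] (by simp [hab, hac, had, hbc, hbd,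 hcd, hab.symm, hac.symm, had.symm, hbc.symm, hbd.symm, hcd.symm]) (z := a) (by simp) (y := c) (by simp [hab, hac, had, hbc, hbd, hcd, hab.symm, hac.symm, had.symm, hbc.symm, hbd.symm, hcd.symm])).smul (-1))).add ((gi_rc_three (p := (2 * m)) [c, a, a] (by simp)).smul (2))).add ((gi_flow (p := (2 * m)) d [(a, 3)] (by simp [wt])).smul (-3))).add ((gi_rc_three (p := (2 * m)) [d, a, a] (by simp)).smul (-2))).add ((gi_phi_all (2 * m) [a, b, c] (by simp [hab, hac, had, hbc, hbd, hcd, hab.symm, hac.symm, had.symm, hbc.symm, hbd.symm, hcd.symm]) (z := b) (by simp) (y := d) (by simp [hab, hac, had, hbc, hbd, hcd, hab.symm, hac.symm, had.symm, hbc.symm, hbd.symm, hcd.symm])).smul (1))).add ((gi_flow (p := (2 * m)) d [(a, 2), (b, 1)] (by simp [wt])).smul (-3))).add ((gi_rc_three (p := (2 * m)) [d, b, a] (by simp)).smul (-2))).add ((gi_flow (p := (2 * m)) d [(a, 1), (b, 2)] (by simp [wt])).smul (-3))).add ((gi_rc_three (p := (2 * m)) [d, a, b] (by simp)).smul (-2))).add ((gi_phi_all (2 * m) [a, b] (by simp [hab, hac, had, hbc, hbd, hcd, hab.symm,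 hac.symm, had.symm, hbc.symm, hbd.symm, hcd.symm]) (z := a) (by simp) (y := d) (by simp [hab, hac, had, hbc, hbd, hcd, hab.symm, hac.symm, had.symm, hbc.symm, hbd.symm, hcd.symm])).smul (1))).add ((gi_phi_all (2 * m) [b, c] (by simp [hab, hac, had, hbc, hbd, hcd, hab.symm, hac.symm, had.symm, hbc.symm, hbd.symm, hcd.symm]) (z := b) (by simp) (y := d) (by simp [hab, hac, had, hbc, hbd, hcd, hab.symm, hac.symm, had.symm, hbc.symm, hbd.symm, hcd.symm])).smul (-1))).add ((gi_phi_all (2 * m) [a, d] (by simp [hab, hac, had, hbc, hbd, hcd, hab.symm, hac.symm, had.symm, hbc.symm, hbd.symm, hcd.symm]) (z := a) (by simp) (y := c) (by simp [hab, hac, had, hbc, hbd, hcd, hab.symm, hac.symm, had.symm, hbc.symm, hbd.symm, hcd.symm])).smul (-1)))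
  refine Gi.of_two_mul (h.congr (fun w => ?_))
  simp only [List.map_cons, List.map_nil, List.sum_cons, List.sum_nil, List.flatMap_cons, List.flatMap_nil, List.append_nil, List.nil_append, List.cons_append, List.replicate, List.map_append, List.sum_append, if_true, if_false, eq_self, infl_nil_left, infl_nil_right, rc_nil_left, rz, rs, flowL, prodL, phiL, phiG, infl_cons_cons, hab, hac, had, hbc, hbd, hcd, hab.symm, hac.symm, had.symm, hbc.symm, hbd.symm, hcd.symm]
  push_cast
  ring

/-- All counts of length four. -/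
theorem gz_rc_four (t z y x : A) : Gi m (fun w => ((rc [t, z, y, x] w : ℕ) : ℤ)) := by
  by_cases hyx : x = y
  · subst hyx
    by_cases hzx : x = z
    · subst hzx
      by_cases htx : x = t
      · subst htx
        exact gz_pat_aaaa _ 
      · exact gz_pat_aaab _ _ (by first | assumption | exact Ne.symm (by assumption))
    · by_cases htx : x = t
      · subst htx
        exact gz_pat_aaba _ _ (by first | assumption | exact Ne.symm (by assumption))
      · by_cases htz : z = t
        · subst htz
          exact gz_pat_aabb _ _ (by first | assumption | exact Ne.symm (by assumption))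
        · exact gz_pat_aabc _ _ _ (by first | assumption | exact Ne.symm (by assumption)) (by first | assumption | exact Ne.symm (by assumption)) (by first | assumption | exact Ne.symm (by assumption))
  · by_cases hzx : x = z
    · subst hzx
      by_cases htx : x = t
      · subst htx
        exact gz_pat_abaa _ _ (by first | assumption | exact Ne.symm (by assumption))
      · by_cases hty : y = t
        · subst hty
          exact gz_pat_abab _ _ (by first | assumption | exact Ne.symm (by assumption))
        · exact gz_pat_abac _ _ _ (by first | assumption | exact Ne.symm (by assumption)) (by first | assumption | exact Ne.symm (by assumption)) (by first | assumption | exact Ne.symm (by assumption))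
    · by_cases hzy : y = z
      · subst hzy
        by_cases htx : x = t
        · subst htx
          exact gz_pat_abba _ _ (by first | assumption | exact Ne.symm (by assumption))
        · by_cases hty : y = t
          · subst hty
            exact gz_pat_abbb _ _ (by first | assumption | exact Ne.symm (by assumption))
          · exact gz_pat_abbc _ _ _ (by first | assumption | exact Ne.symm (by assumption)) (by first | assumption | exact Ne.symm (by assumption)) (by first | assumption | exact Ne.symm (by assumption))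
      · by_cases htx : x = t
        · subst htx
          exact gz_pat_abca _ _ _ (by first | assumption | exact Ne.symm (by assumption)) (by first | assumption | exact Ne.symm (by assumption)) (by first | assumption | exact Ne.symm (by assumption))
        · by_cases hty : y = t
          · subst hty
            exact gz_pat_abcb _ _ _ (by first | assumption | exact Ne.symm (by assumption)) (by first | assumption | exact Ne.symm (by assumption)) (by first | assumption | exact Ne.symm (by assumption))
          · by_cases htz : z = t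
            · subst htz
              exact gz_pat_abcc _ _ _ (by first | assumption | exact Ne.symm (by assumption)) (by first | assumption | exact Ne.symm (by assumption)) (by first | assumption | exact Ne.symm (by assumption))
            · exact gz_pat_abcd _ _ _ _ (by first | assumption | exact Ne.symm (by assumption)) (by first | assumption | exact Ne.symm (by assumption)) (by first | assumption | exact Ne.symm (by assumption)) (by first | assumption | exact Ne.symm (by assumption)) (by first | assumption | exact Ne.symm (by assumption)) (by first | assumption | exact Ne.symm (by assumption))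

/-- **All counts of length at most four, modulo every positive number.** -/
theorem gi_rc_le_four_all (u : List A) (hu : u.length ≤ 4) :
    Gi m (fun w => ((rc u w : ℕ) : ℤ)) := by
  match u, hu with
  | [], _ => exact gi_rc_three _ (by simp)
  | [_], _ => exact gi_rc_three _ (by simp)
  | [_, _], _ => exact gi_rc_three _ (by simp)
  | [_, _, _], _ => exact gi_rc_three _ (by simp)
  | [t, z, y, x], _ => exact gz_rc_four t z y x
  | _ :: _ :: _ :: _ :: _ :: l, hu => simp at hu; omega

end Deg4Z

end Vale.Agent.Lib.P329
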