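import Vale.Agent.Lib.P329.CertFiveData
import Vale.Agent.Lib.P329.Class4

/-!
All subsequence counts of length at most five have good residues modulo every prime at least five.
-/

namespace Vale.Agent.Lib.P329

section Comap

variable {A B : Type}

/-- Inverse images under letter-to-letter maps preserve generalized star height. -/
theorem heightLE_comap [Finite A] (σ : A → B) (P : GRE B) (n : ℕ) (hP : P.height ≤ n) :
    HeightLE n {w : List A | w.map σ ∈ P.lang} := by
  induction P generalizing n with
  | zero =>
    have : {w : List A | w.map σ ∈ (GRE.zero : GRE B).lang} = ∅ := by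
      ext w
      simp [GRE.lang]
    rw [this]
    exact HeightLE.empty
  | one =>
    have : {w : List A | w.map σ ∈ (GRE.one : GRE B).lang} = {[]} := by
      ext w
      simp [GRE.lang]
    rw [this]
    exact HeightLE.nil
  | letter b =>
    have : {w : List A | w.map σ ∈ (GRE.letter b : GRE B).lang} = ⋃ a ∈ {a | σ a = b}, {[a]} := by
      ext w
      simp only [GRE.lang, Set.mem_ofPred_eq, Set.mem_singleton_iff, Set.mem_iUnion, exists_prop]
      constructor
      · intro h
        obtain ⟨a, rfl, ha⟩ := List.map_eq_singleton_iff.1 h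
        exact ⟨a, ha, rfl⟩
      · rintro ⟨a, ha, rfl⟩
        simp [ha]
    rw [this]
    exact HeightLE.biUnion (fun a _ => HeightLE.letter a)
  | add P Q ihP ihQ =>
    have hh : max P.height Q.height ≤ n := hP
    have := (ihP n (le_trans (le_max_left _ _) hh)).union (ihQ n (le_trans (le_max_right _ _) hh))
    exact this
  | mul P Q ihP ihQ =>
    have hh : max P.height Q.height ≤ n := hP
    have key := (ihP n (le_trans (le_max_left _ _) hh)).concat (ihQ n (le_trans (le_max_right _ _) hh))
    have : {w : List A | w.map σ ∈ (GRE.mul P Q).lang} =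
        cat {w : List A | w.map σ ∈ P.lang} {w : List A | w.map σ ∈ Q.lang} := by
      ext w
      simp only [GRE.lang, Set.mem_ofPred_eq, cat]
      constructor
      · rintro ⟨u, hu, v, hv, e⟩
        obtain ⟨u', v', rfl, rfl, rfl⟩ := List.map_eq_append_iff.1 e
        exact ⟨u', hu, v', hv, rfl⟩
      · rintro ⟨u, hu, v, hv, rfl⟩
        exact ⟨u.map σ, hu, v.map σ, hv, by simp⟩
    rw [this]
    exact key
  | compl P ih =>
    exact (ih n hP).compl
  | star P ih =>
    have hh : P.height + 1 ≤ n := hP
    obtain ⟨n', rfl⟩ : ∃ n', n = n' + 1 := ⟨n - 1, by omega⟩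
    have key := (ih n' (by omega)).star
    have : {w : List A | w.map σ ∈ (GRE.star P).lang} =
        kstarL {w : List A | w.map σ ∈ P.lang} := by
      ext w
      simp only [GRE.lang, Set.mem_ofPred_eq, kstarL]
      constructor
      · rintro ⟨l, hl, e⟩
        induction l generalizing w with
        | nil =>
          have : w = [] := by simpa using e
          subst this
          exact ⟨[], by simp, rfl⟩
        | cons u l ih' =>
          rw [List.flatten_cons] at e
          obtain ⟨u', v', rfl, rfl, e2⟩ := List.map_eq_append_iff.1 e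
          obtain ⟨l', hl', rfl⟩ := ih' v' (fun x hx => hl x (List.mem_cons_of_mem _ hx)) e2
          exact ⟨u' :: l', by
            intro x hx
            rcases List.mem_cons.1 hx with rfl | hx
            · exact hl _ List.mem_cons_self
            · exact hl' x hx, by simp⟩
      · rintro ⟨l, hl, rfl⟩
        refine ⟨l.map (List.map σ), ?_, by simp⟩
        intro x hx
        obtain ⟨y, hy, rfl⟩ := List.mem_map.1 hx
        exact hl y hy
    rw [this]
    exact key

theorem good_comap [Finite A] {β : Type} (σ : A → B) {f : List B → β} (hf : Good f) :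
    Good (fun w : List A => f (w.map σ)) := by
  intro b
  obtain ⟨P, hP, hL⟩ := hf b
  have := heightLE_comap σ P 1 hP
  rw [hL] at this
  exact this

end Comap

section Transfer

variable {A : Type} [DecidableEq A]

theorem rc_map_transfer (ρ : Fin 6 → A) (σ : A → Fin 6) (v : List (Fin 6))
    (h : ∀ b ∈ v, ∀ a, ρ b = a ↔ b = σ a) (w : List A) :
    rc (v.map ρ) w = rc v (w.map σ) := by
  induction w using List.reverseRecOn generalizing v with
  | nil =>
    cases v with
    | nil => simp
    | cons b v => simp
  | append_singleton w a ih =>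
    cases v with
    | nil => simp
    | cons b v =>
      have hv : ∀ c ∈ v, ∀ a, ρ c = a ↔ c = σ a := fun c hc => h c (List.mem_cons_of_mem _ hc)
      simp only [List.map_cons, List.map_append, List.map_nil]
      rw [rc_snoc, rc_snoc]
      have e1 := ih (b :: v) h
      simp only [List.map_cons] at e1
      rw [e1, ih v hv]
      by_cases hb : ρ b = a
      · have hb' : b = σ a := (h b List.mem_cons_self a).1 hb
        rw [if_pos hb, if_pos hb']
      · have hb' : ¬ b = σ a := fun e => hb ((h b List.mem_cons_self a).2 e)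
        rw [if_neg hb, if_neg hb']

/-- Transfer of good residues from the small alphabet along a list of different letters. -/
theorem gi_transfer [Finite A] {p : ℕ} (v : List (Fin 6)) (L : List A) (hL : L.Nodup)
    (hlen : L.length ≤ 5) (hb : ∀ b ∈ v, b.val < L.length) (y : A)
    (hv : Gi p (fun w => ((rc v w : ℕ) : ℤ))) :
    Gi p (fun w => ((rc (v.map fun i => L.getD i.val y) w : ℕ) : ℤ)) := by
  have hidx : ∀ a, L.idxOf a < 6 := by
    intro a
    have := List.idxOf_le_length (a := a) (l := L)
    omega
  let σ : A → Fin 6 := fun a => ⟨L.idxOf a, hidx a⟩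
  have h : ∀ b ∈ v, ∀ a, (fun i : Fin 6 => L.getD i.val y) b = a ↔ b = σ a := by
    intro b hbv a
    have hlt := hb b hbv
    simp only [List.getD_eq_getElem _ _ hlt]
    constructor
    · rintro rfl
      apply Fin.ext
      simp only [σ]
      rw [hL.idxOf_getElem]
    · rintro rfl
      have hi : L.idxOf a < L.length := hlt
      simp only [σ]
      exact List.getElem_idxOf hi
  have h1 := good_comap σ hv
  refine good_congr h1 (fun w => ?_)
  show (((rc v (w.map σ) : ℕ) : ℤ) : ZMod p) =
    (((rc (v.map fun i => L.getD i.val y) w : ℕ) : ℤ) : ZMod p)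
  rw [rc_map_transfer _ σ v h w]

/-- The pattern of five letters. -/
theorem canon5 (x1 x2 x3 x4 x5 : A) :
    ∃ v : List (Fin 6), (∃ e ∈ certTable, e.1 = v) ∧ ∃ L : List A, L.Nodup ∧
      L.length = v.dedup.length ∧ [x1, x2, x3, x4, x5] = v.map fun i => L.getD i.val x1 := by
  by_cases h2_0 : x2 = x1
  · skip
    by_cases h3_0 : x3 = x1
    · skip
      by_cases h4_0 : x4 = x1
      · skip
        by_cases h5_0 : x5 = x1
        · skip
          exact ⟨[0, 0, 0, 0, 0], by decide +kernel, [x1], by simp [*], rfl, by rw [h2_0, h3_0, h4_0, h5_0]; rfl⟩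
        · have h5_0' : ¬ x1 = x5 := fun h => h5_0 h.symm
          exact ⟨[0, 0, 0, 0, 1], by decide +kernel, [x1, x5], by simp [*], rfl, by rw [h2_0, h3_0, h4_0]; rfl⟩
      · have h4_0' : ¬ x1 = x4 := fun h => h4_0 h.symm
        by_cases h5_0 : x5 = x1
        · skip
          exact ⟨[0, 0, 0, 1, 0], by decide +kernel, [x1, x4], by simp [*], rfl, by rw [h2_0, h3_0, h5_0]; rfl⟩
        · have h5_0' : ¬ x1 = x5 := fun h => h5_0 h.symm
          by_cases h5_1 : x5 = x4
          · skip
            exact ⟨[0, 0, 0, 1, 1], by decide +kernel, [x1, x4], by simp [*], rfl, by rw [h2_0, h3_0, h5_1]; rfl⟩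
          · have h5_1' : ¬ x4 = x5 := fun h => h5_1 h.symm
            exact ⟨[0, 0, 0, 1, 2], by decide +kernel, [x1, x4, x5], by simp [*], rfl, by rw [h2_0, h3_0]; rfl⟩
    · have h3_0' : ¬ x1 = x3 := fun h => h3_0 h.symm
      by_cases h4_0 : x4 = x1
      · skip
        by_cases h5_0 : x5 = x1
        · skip
          exact ⟨[0, 0, 1, 0, 0], by decide +kernel, [x1, x3], by simp [*], rfl, by rw [h2_0, h4_0, h5_0]; rfl⟩
        · have h5_0' : ¬ x1 = x5 := fun h => h5_0 h.symm
          by_cases h5_1 : x5 = x3
          · skip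
            exact ⟨[0, 0, 1, 0, 1], by decide +kernel, [x1, x3], by simp [*], rfl, by rw [h2_0, h4_0, h5_1]; rfl⟩
          · have h5_1' : ¬ x3 = x5 := fun h => h5_1 h.symm
            exact ⟨[0, 0, 1, 0, 2], by decide +kernel, [x1, x3, x5], by simp [*], rfl, by rw [h2_0, h4_0]; rfl⟩
      · have h4_0' : ¬ x1 = x4 := fun h => h4_0 h.symm
        by_cases h4_1 : x4 = x3
        · skip
          by_cases h5_0 : x5 = x1
          · skip
            exact ⟨[0, 0, 1, 1, 0], by decide +kernel, [x1, x3], by simp [*], rfl, by rw [h2_0, h4_1, h5_0]; rfl⟩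
          · have h5_0' : ¬ x1 = x5 := fun h => h5_0 h.symm
            by_cases h5_1 : x5 = x3
            · skip
              exact ⟨[0, 0, 1, 1, 1], by decide +kernel, [x1, x3], by simp [*], rfl, by rw [h2_0, h4_1, h5_1]; rfl⟩
            · have h5_1' : ¬ x3 = x5 := fun h => h5_1 h.symm
              exact ⟨[0, 0, 1, 1, 2], by decide +kernel, [x1, x3, x5], by simp [*], rfl, by rw [h2_0, h4_1]; rfl⟩
        · have h4_1' : ¬ x3 = x4 := fun h => h4_1 h.symm
          by_cases h5_0 : x5 = x1
          · skip
            exact ⟨[0, 0, 1, 2, 0], by decide +kernel, [x1, x3, x4], by simp [*], rfl, by rw [h2_0, h5_0]; rfl⟩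
          · have h5_0' : ¬ x1 = x5 := fun h => h5_0 h.symm
            by_cases h5_1 : x5 = x3
            · skip
              exact ⟨[0, 0, 1, 2, 1], by decide +kernel, [x1, x3, x4], by simp [*], rfl, by rw [h2_0, h5_1]; rfl⟩
            · have h5_1' : ¬ x3 = x5 := fun h => h5_1 h.symm
              by_cases h5_2 : x5 = x4
              · skip
                exact ⟨[0, 0, 1, 2, 2], by decide +kernel, [x1, x3, x4], by simp [*], rfl, by rw [h2_0, h5_2]; rfl⟩
              · have h5_2' : ¬ x4 = x5 := fun h => h5_2 h.symm
                exact ⟨[0, 0, 1, 2, 3], by decide +kernel, [x1, x3, x4, x5], by simp [*], rfl, by rw [h2_0]; rfl⟩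
  · have h2_0' : ¬ x1 = x2 := fun h => h2_0 h.symm
    by_cases h3_0 : x3 = x1
    · skip
      by_cases h4_0 : x4 = x1
      · skip
        by_cases h5_0 : x5 = x1
        · skip
          exact ⟨[0, 1, 0, 0, 0], by decide +kernel, [x1, x2], by simp [*], rfl, by rw [h3_0, h4_0, h5_0]; rfl⟩
        · have h5_0' : ¬ x1 = x5 := fun h => h5_0 h.symm
          by_cases h5_1 : x5 = x2
          · skip
            exact ⟨[0, 1, 0, 0, 1], by decide +kernel, [x1, x2], by simp [*], rfl, by rw [h3_0, h4_0, h5_1]; rfl⟩
          · have h5_1' : ¬ x2 = x5 := fun h => h5_1 h.symm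
            exact ⟨[0, 1, 0, 0, 2], by decide +kernel, [x1, x2, x5], by simp [*], rfl, by rw [h3_0, h4_0]; rfl⟩
      · have h4_0' : ¬ x1 = x4 := fun h => h4_0 h.symm
        by_cases h4_1 : x4 = x2
        · skip
          by_cases h5_0 : x5 = x1
          · skip
            exact ⟨[0, 1, 0, 1, 0], by decide +kernel, [x1, x2], by simp [*], rfl, by rw [h3_0, h4_1, h5_0]; rfl⟩
          · have h5_0' : ¬ x1 = x5 := fun h => h5_0 h.symm
            by_cases h5_1 : x5 = x2
            · skip
              exact ⟨[0, 1, 0, 1, 1], by decide +kernel, [x1, x2], by simp [*], rfl, by rw [h3_0, h4_1, h5_1]; rfl⟩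
            · have h5_1' : ¬ x2 = x5 := fun h => h5_1 h.symm
              exact ⟨[0, 1, 0, 1, 2], by decide +kernel, [x1, x2, x5], by simp [*], rfl, by rw [h3_0, h4_1]; rfl⟩
        · have h4_1' : ¬ x2 = x4 := fun h => h4_1 h.symm
          by_cases h5_0 : x5 = x1
          · skip
            exact ⟨[0, 1, 0, 2, 0], by decide +kernel, [x1, x2, x4], by simp [*], rfl, by rw [h3_0, h5_0]; rfl⟩
          · have h5_0' : ¬ x1 = x5 := fun h => h5_0 h.symm
            by_cases h5_1 : x5 = x2
            · skip
              exact ⟨[0, 1, 0, 2, 1], by decide +kernel, [x1, x2, x4], by simp [*], rfl, by rw [h3_0, h5_1]; rfl⟩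
            · have h5_1' : ¬ x2 = x5 := fun h => h5_1 h.symm
              by_cases h5_2 : x5 = x4
              · skip
                exact ⟨[0, 1, 0, 2, 2], by decide +kernel, [x1, x2, x4], by simp [*], rfl, by rw [h3_0, h5_2]; rfl⟩
              · have h5_2' : ¬ x4 = x5 := fun h => h5_2 h.symm
                exact ⟨[0, 1, 0, 2, 3], by decide +kernel, [x1, x2, x4, x5], by simp [*], rfl, by rw [h3_0]; rfl⟩
    · have h3_0' : ¬ x1 = x3 := fun h => h3_0 h.symm
      by_cases h3_1 : x3 = x2
      · skip
        by_cases h4_0 : x4 = x1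
        · skip
          by_cases h5_0 : x5 = x1
          · skip
            exact ⟨[0, 1, 1, 0, 0], by decide +kernel, [x1, x2], by simp [*], rfl, by rw [h3_1, h4_0, h5_0]; rfl⟩
          · have h5_0' : ¬ x1 = x5 := fun h => h5_0 h.symm
            by_cases h5_1 : x5 = x2
            · skip
              exact ⟨[0, 1, 1, 0, 1], by decide +kernel, [x1, x2], by simp [*], rfl, by rw [h3_1, h4_0, h5_1]; rfl⟩
            · have h5_1' : ¬ x2 = x5 := fun h => h5_1 h.symm
              exact ⟨[0, 1, 1, 0, 2], by decide +kernel, [x1, x2, x5], by simp [*], rfl, by rw [h3_1, h4_0]; rfl⟩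
        · have h4_0' : ¬ x1 = x4 := fun h => h4_0 h.symm
          by_cases h4_1 : x4 = x2
          · skip
            by_cases h5_0 : x5 = x1
            · skip
              exact ⟨[0, 1, 1, 1, 0], by decide +kernel, [x1, x2], by simp [*], rfl, by rw [h3_1, h4_1, h5_0]; rfl⟩
            · have h5_0' : ¬ x1 = x5 := fun h => h5_0 h.symm
              by_cases h5_1 : x5 = x2
              · skip
                exact ⟨[0, 1, 1, 1, 1], by decide +kernel, [x1, x2], by simp [*], rfl, by rw [h3_1, h4_1, h5_1]; rfl⟩
              · have h5_1' : ¬ x2 = x5 := fun h => h5_1 h.symm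
                exact ⟨[0, 1, 1, 1, 2], by decide +kernel, [x1, x2, x5], by simp [*], rfl, by rw [h3_1, h4_1]; rfl⟩
          · have h4_1' : ¬ x2 = x4 := fun h => h4_1 h.symm
            by_cases h5_0 : x5 = x1
            · skip
              exact ⟨[0, 1, 1, 2, 0], by decide +kernel, [x1, x2, x4], by simp [*], rfl, by rw [h3_1, h5_0]; rfl⟩
            · have h5_0' : ¬ x1 = x5 := fun h => h5_0 h.symm
              by_cases h5_1 : x5 = x2
              · skip
                exact ⟨[0, 1, 1, 2, 1], by decide +kernel, [x1, x2, x4], by simp [*], rfl, by rw [h3_1, h5_1]; rfl⟩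
              · have h5_1' : ¬ x2 = x5 := fun h => h5_1 h.symm
                by_cases h5_2 : x5 = x4
                · skip
                  exact ⟨[0, 1, 1, 2, 2], by decide +kernel, [x1, x2, x4], by simp [*], rfl, by rw [h3_1, h5_2]; rfl⟩
                · have h5_2' : ¬ x4 = x5 := fun h => h5_2 h.symm
                  exact ⟨[0, 1, 1, 2, 3], by decide +kernel, [x1, x2, x4, x5], by simp [*], rfl, by rw [h3_1]; rfl⟩
      · have h3_1' : ¬ x2 = x3 := fun h => h3_1 h.symm
        by_cases h4_0 : x4 = x1
        · skip
          by_cases h5_0 : x5 = x1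
          · skip
            exact ⟨[0, 1, 2, 0, 0], by decide +kernel, [x1, x2, x3], by simp [*], rfl, by rw [h4_0, h5_0]; rfl⟩
          · have h5_0' : ¬ x1 = x5 := fun h => h5_0 h.symm
            by_cases h5_1 : x5 = x2
            · skip
              exact ⟨[0, 1, 2, 0, 1], by decide +kernel, [x1, x2, x3], by simp [*], rfl, by rw [h4_0, h5_1]; rfl⟩
            · have h5_1' : ¬ x2 = x5 := fun h => h5_1 h.symm
              by_cases h5_2 : x5 = x3
              · skip
                exact ⟨[0, 1, 2, 0, 2], by decide +kernel, [x1, x2, x3], by simp [*], rfl, by rw [h4_0, h5_2]; rfl⟩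
              · have h5_2' : ¬ x3 = x5 := fun h => h5_2 h.symm
                exact ⟨[0, 1, 2, 0, 3], by decide +kernel, [x1, x2, x3, x5], by simp [*], rfl, by rw [h4_0]; rfl⟩
        · have h4_0' : ¬ x1 = x4 := fun h => h4_0 h.symm
          by_cases h4_1 : x4 = x2
          · skip
            by_cases h5_0 : x5 = x1
            · skip
              exact ⟨[0, 1, 2, 1, 0], by decide +kernel, [x1, x2, x3], by simp [*], rfl, by rw [h4_1, h5_0]; rfl⟩
            · have h5_0' : ¬ x1 = x5 := fun h => h5_0 h.symm
              by_cases h5_1 : x5 = x2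
              · skip
                exact ⟨[0, 1, 2, 1, 1], by decide +kernel, [x1, x2, x3], by simp [*], rfl, by rw [h4_1, h5_1]; rfl⟩
              · have h5_1' : ¬ x2 = x5 := fun h => h5_1 h.symm
                by_cases h5_2 : x5 = x3
                · skip
                  exact ⟨[0, 1, 2, 1, 2], by decide +kernel, [x1, x2, x3], by simp [*], rfl, by rw [h4_1, h5_2]; rfl⟩
                · have h5_2' : ¬ x3 = x5 := fun h => h5_2 h.symm
                  exact ⟨[0, 1, 2, 1, 3], by decide +kernel, [x1, x2, x3, x5], by simp [*], rfl, by rw [h4_1]; rfl⟩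
          · have h4_1' : ¬ x2 = x4 := fun h => h4_1 h.symm
            by_cases h4_2 : x4 = x3
            · skip
              by_cases h5_0 : x5 = x1
              · skip
                exact ⟨[0, 1, 2, 2, 0], by decide +kernel, [x1, x2, x3], by simp [*], rfl, by rw [h4_2, h5_0]; rfl⟩
              · have h5_0' : ¬ x1 = x5 := fun h => h5_0 h.symm
                by_cases h5_1 : x5 = x2
                · skip
                  exact ⟨[0, 1, 2, 2, 1], by decide +kernel, [x1, x2, x3], by simp [*], rfl, by rw [h4_2, h5_1]; rfl⟩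
                · have h5_1' : ¬ x2 = x5 := fun h => h5_1 h.symm
                  by_cases h5_2 : x5 = x3
                  · skip
                    exact ⟨[0, 1, 2, 2, 2], by decide +kernel, [x1, x2, x3], by simp [*], rfl, by rw [h4_2, h5_2]; rfl⟩
                  · have h5_2' : ¬ x3 = x5 := fun h => h5_2 h.symm
                    exact ⟨[0, 1, 2, 2, 3], by decide +kernel, [x1, x2, x3, x5], by simp [*], rfl, by rw [h4_2]; rfl⟩
            · have h4_2' : ¬ x3 = x4 := fun h => h4_2 h.symm
              by_cases h5_0 : x5 = x1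
              · skip
                exact ⟨[0, 1, 2, 3, 0], by decide +kernel, [x1, x2, x3, x4], by simp [*], rfl, by rw [h5_0]; rfl⟩
              · have h5_0' : ¬ x1 = x5 := fun h => h5_0 h.symm
                by_cases h5_1 : x5 = x2
                · skip
                  exact ⟨[0, 1, 2, 3, 1], by decide +kernel, [x1, x2, x3, x4], by simp [*], rfl, by rw [h5_1]; rfl⟩
                · have h5_1' : ¬ x2 = x5 := fun h => h5_1 h.symm
                  by_cases h5_2 : x5 = x3
                  · skip
                    exact ⟨[0, 1, 2, 3, 2], by decide +kernel, [x1, x2, x3, x4], by simp [*], rfl, by rw [h5_2]; rfl⟩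
                  · have h5_2' : ¬ x3 = x5 := fun h => h5_2 h.symm
                    by_cases h5_3 : x5 = x4
                    · skip
                      exact ⟨[0, 1, 2, 3, 3], by decide +kernel, [x1, x2, x3, x4], by simp [*], rfl, by rw [h5_3]; rfl⟩
                    · have h5_3' : ¬ x4 = x5 := fun h => h5_3 h.symm
                      exact ⟨[0, 1, 2, 3, 4], by decide +kernel, [x1, x2, x3, x4, x5], by simp [*], rfl, by rfl⟩

end Transfer

section Table

/-- Shape of the table. -/
theorem certTable_shape : ∀ e ∈ certTable, e.1.length = 5 ∧ ∀ b ∈ e.1, b.val < e.1.dedup.length := by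
  decide +kernel

theorem dedup_length_map_of_injOn {α β : Type} [DecidableEq α] [DecidableEq β] (f : α → β)
    (v : List α) (h : ∀ a ∈ v, ∀ b ∈ v, f a = f b → a = b) :
    (v.map f).dedup.length = v.dedup.length := by
  have e : (v.map f).toFinset = v.toFinset.image f := by
    ext x
    simp
  rw [← List.card_toFinset, ← List.card_toFinset, e, Finset.card_image_of_injOn]
  intro a ha b hb hab
  exact h a (by simpa using ha) b (by simpa using hb) hab

variable {p : ℕ} [Fact p.Prime] (hp5 : 5 ≤ p)

include hp5

/-- Induction on the number of different letters through the table. -/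
theorem gi_table (k : ℕ) : ∀ e ∈ certTable, e.1.dedup.length ≤ k →
    Gi p (fun w => ((rc e.1 w : ℕ) : ℤ)) := by
  induction k using Nat.strong_induction_on with
  | _ k ih =>
    intro e he hk
    refine gi_of_checkF hp5 e (List.all_eq_true.1 certTable_ok e he) ?_
    intro x hx hlt
    match x, hx with
    | [x1, x2, x3, x4, x5], _ =>
      obtain ⟨v, ⟨e', he', rfl⟩, L, hL, hlen, hxv⟩ := canon5 x1 x2 x3 x4 x5
      obtain ⟨hl5, hb⟩ := certTable_shape e' he'
      have hinj : ∀ a ∈ e'.1, ∀ b ∈ e'.1, (fun i : Fin 6 => L.getD i.val x1) a =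
          (fun i : Fin 6 => L.getD i.val x1) b → a = b := by
        intro a ha b hb' hab
        have h1 := hb a ha
        have h2 := hb b hb'
        rw [← hlen] at h1 h2
        simp only [List.getD_eq_getElem _ _ h1, List.getD_eq_getElem _ _ h2] at hab
        exact Fin.ext ((hL.getElem_inj_iff).1 hab)
      have hlev : [x1, x2, x3, x4, x5].dedup.length = e'.1.dedup.length := by
        rw [hxv]
        exact dedup_length_map_of_injOn _ _ hinj
      have hig := ih e'.1.dedup.length (by omega) e' he' le_rfl
      rw [hxv]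
      have hd : e'.1.dedup.length ≤ e'.1.length := (List.dedup_sublist _).length_le
      exact gi_transfer e'.1 L hL (by omega) (fun b hbv => by rw [hlen]; exact hb b hbv) x1 hig

variable {A : Type} [Fintype A] [DecidableEq A]

/-- All counts of length five. -/
theorem gi_rc_five (x1 x2 x3 x4 x5 : A) :
    Gi p (fun w => ((rc [x1, x2, x3, x4, x5] w : ℕ) : ℤ)) := by
  obtain ⟨v, ⟨e', he', rfl⟩, L, hL, hlen, hxv⟩ := canon5 x1 x2 x3 x4 x5
  obtain ⟨hl5, hb⟩ := certTable_shape e' he'
  have hig := gi_table hp5 _ e' he' le_rfl
  rw [hxv]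
  have hd : e'.1.dedup.length ≤ e'.1.length := (List.dedup_sublist _).length_le
  exact gi_transfer e'.1 L hL (by omega) (fun b hbv => by rw [hlen]; exact hb b hbv) x1 hig

/-- **All counts of length at most five modulo a prime at least five.** -/
theorem gi_rc_le_five (u : List A) (hu : u.length ≤ 5) :
    Gi p (fun w => ((rc u w : ℕ) : ℤ)) := by
  match u, hu with
  | [], _ => exact gi_rc_le_four (by omega) _ (by simp)
  | [_], _ => exact gi_rc_le_four (by omega) _ (by simp)
  | [_, _], _ => exact gi_rc_le_four (by omega) _ (by simp)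
  | [_, _, _], _ => exact gi_rc_le_four (by omega) _ (by simp)
  | [_, _, _, _], _ => exact gi_rc_le_four (by omega) _ (by simp)
  | [x1, x2, x3, x4, x5], _ => exact gi_rc_five hp5 x1 x2 x3 x4 x5
  | _ :: _ :: _ :: _ :: _ :: _ :: l, hu => simp at hu; omega

end Table

section Squarefree

variable {A : Type} [DecidableEq A] [Fintype A]

/-- All counts of length at most five modulo a squarefree number prime to six. -/
theorem gi_rc_le_five_squarefree (m : ℕ) (hm : Squarefree m) (h6 : Nat.Coprime m 6)
    (u : List A) (hu : u.length ≤ 5) :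
    Gi m (fun w => ((rc u w : ℕ) : ℤ)) := by
  have hm0 : m ≠ 0 := hm.ne_zero
  have hne : ∀ s : Finset ℕ, s ⊆ m.primeFactors → (∏ q ∈ s, q) ≠ 0 := by
    intro s hs
    refine Finset.prod_ne_zero_iff.2 (fun q hq => ?_)
    exact (Nat.prime_of_mem_primeFactors (hs hq)).ne_zero
  have hfive : ∀ q ∈ m.primeFactors, 5 ≤ q := by
    intro q hq
    have hqp := Nat.prime_of_mem_primeFactors hq
    have hqd := Nat.dvd_of_mem_primeFactors hq
    have h2 : q ≠ 2 := by
      rintro rfl
      have := Nat.dvd_gcd hqd (by norm_num : 2 ∣ 6)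
      rw [h6] at this
      omega
    have h3 : q ≠ 3 := by
      rintro rfl
      have := Nat.dvd_gcd hqd (by norm_num : 3 ∣ 6)
      rw [h6] at this
      omega
    have h4 : q ≠ 4 := by
      rintro rfl
      revert hqp
      norm_num
    have := hqp.two_le
    omega
  have key : ∀ s : Finset ℕ, s ⊆ m.primeFactors →
      Gi (∏ q ∈ s, q) (fun w : List A => ((rc u w : ℕ) : ℤ)) := by
    intro s
    induction s using Finset.induction_on with
    | empty =>
      intro _
      simp only [Finset.prod_empty]
      exact Good.of_factor (Good.const (A := A) (0 : ZMod 1)) (fun w w' _ => Subsingleton.elim _ _)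
    | insert q s hq ih =>
      intro hs
      have hq1 : q ∈ m.primeFactors := hs (Finset.mem_insert_self q s)
      have hs1 : s ⊆ m.primeFactors := fun x hx => hs (Finset.mem_insert_of_mem hx)
      have hqp : q.Prime := Nat.prime_of_mem_primeFactors hq1
      haveI : Fact q.Prime := ⟨hqp⟩
      haveI : NeZero q := ⟨hqp.ne_zero⟩
      haveI : NeZero (∏ q ∈ s, q) := ⟨hne s hs1⟩
      rw [Finset.prod_insert hq]
      refine Gi.mul_coprime ?_ (gi_rc_le_five (hfive q hq1) u hu) (ih hs1)
      refine Nat.Coprime.prod_right (fun x hx => ?_)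
      have hxp := Nat.prime_of_mem_primeFactors (hs1 hx)
      exact (Nat.coprime_primes hqp hxp).2 (fun e => hq (e ▸ hx))
  have := key m.primeFactors (Finset.Subset.refl _)
  rwa [Nat.prod_primeFactors_of_squarefree hm] at this

end Squarefree

section Final

variable {A R : Type} [Ring R]

/-- Rings of squarefree characteristic prime to six with all products of six vanishing. -/
theorem heightLE_depthSix {m : ℕ} (hm : Squarefree m) (h6 : Nat.Coprime m 6) [Finite A] [CharP R m]
    (φ : A → R)
    (hφ : ∀ a b c d e f : A,
      (φ a - 1) * (φ b - 1) * (φ c - 1) * (φ d - 1) * (φ e - 1) * (φ f - 1) = 0) (S : Set R) :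
    HeightLE 1 {w : List A | (w.map φ).prod ∈ S} := by
  classical
  haveI : Fintype A := Fintype.ofFinite A
  haveI : NeZero m := ⟨hm.ne_zero⟩
  refine heightLE_of_nilIdeal (n := 5) (p := m)
    (fun u hu => gi_rc_le_five_squarefree m hm h6 u hu) φ ?_ S
  intro s hs
  match s, hs with
  | [a, b, c, d, e, f], _ =>
    have := hφ a b c d e f
    simp only [List.map_cons, List.map_nil, List.prod_cons, List.prod_nil, mul_one]
    simpa [mul_assoc] using this

/-- Subsequence counts of length at most five modulo a squarefree number prime to six. -/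
theorem heightLE_subCount_five {m : ℕ} (hm : Squarefree m) (h6 : Nat.Coprime m 6) [Finite A]
    [DecidableEq A] (u : List A) (hu : u.length ≤ 5) (k : ℕ) :
    HeightLE 1 {w : List A | w.sublists.count u % m = k} := by
  classical
  haveI : Fintype A := Fintype.ofFinite A
  have hp0 : 0 < m := Nat.pos_of_ne_zero hm.ne_zero
  haveI : NeZero m := ⟨hp0.ne'⟩
  have hG := good_subCount_tuple (p := m) (n := 5)
    (fun u hu => gi_rc_le_five_squarefree m hm h6 u hu) {u} (by simpa using hu)
  by_cases hk : k < m
  · have h1 := hG.comp (fun f => f ⟨u, by simp⟩)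
    have hset : {w : List A | w.sublists.count u % m = k} =
        {w : List A | ((subCount u w : ℕ) : ZMod m) = (k : ZMod m)} := by
      ext w
      change w.sublists.count u % m = k ↔ ((w.sublists.count u : ℕ) : ZMod m) = (k : ZMod m)
      rw [ZMod.natCast_eq_natCast_iff', Nat.mod_eq_of_lt hk]
    rw [hset]
    exact h1 _
  · have hset : {w : List A | w.sublists.count u % m = k} = ∅ := by
      ext w
      constructor
      · intro h
        have hlt := Nat.mod_lt (w.sublists.count u) hp0
        have h' : w.sublists.count u % m = k := h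
        omega
      · intro h; exact absurd h (by simp)
    rw [hset]
    exact HeightLE.empty

end Final

end Vale.Agent.Lib.P329
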