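import Vale.Agent.Lib.P329.Flow

/-!
Flows of all polynomials of degree at most three in the count vector have good residues.
-/

namespace Vale.Agent.Lib.P329

section FlowPoly

open Classical

variable {A : Type} [Fintype A]

theorem GoodZ.pow {B : Type} {f : List B → ℤ} (hf : GoodZ f) (j : ℕ) :
    GoodZ (fun w => f w ^ j) := by
  induction j with
  | zero => simpa using GoodZ.const (B := B) 1
  | succ j ih => simpa [pow_succ] using ih.mul hf

/-- Closed walks: powers of the position through a letter of step zero. -/
theorem gf_zpow {stp : A → ℤ} (hstp : ∀ a, stp a = 0 ∨ stp a = 1 ∨ stp a = -1) (x : A)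
    (hx : stp x = 0) (j : ℕ) : GF x (fun k => (zOf stp k) ^ j) := by
  have h1 := goodZ_vs hstp (fun a => a = x) j
  have h2 := goodZ_vs hstp (fun _ => False) j
  refine (h1.sub h2).congr (fun w => ?_)
  rw [← Finset.sum_sub_distrib]
  rw [Finset.sum_eq_single x]
  · simp [visArr, hx]
  · intro a _ hax
    simp [visArr, hax]
  · simp

/-- The indicator step of a letter. -/
noncomputable def sg (p : A) (a : A) : ℤ := if a = p then 1 else 0

theorem zOf_sg (p : A) (k : A → ℕ) : zOf (sg p) k = K p k := by
  simp [zOf, sg, K]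

theorem zOf_add (f g : A → ℤ) (k : A → ℕ) :
    zOf (fun a => f a + g a) k = zOf f k + zOf g k := by
  simp [zOf, add_mul, Finset.sum_add_distrib]

theorem zOf_sub (f g : A → ℤ) (k : A → ℕ) :
    zOf (fun a => f a - g a) k = zOf f k - zOf g k := by
  simp [zOf, sub_mul, Finset.sum_sub_distrib]

variable {x p q r : A}

theorem gf_s1 (hp : p ≠ x) (j : ℕ) : GF x (fun k => K p k ^ j) := by
  have h : GF x (fun k => (zOf (sg p) k) ^ j) := by
    refine gf_zpow (fun a => ?_) x ?_ j
    · by_cases h : a = p <;> simp [sg, h]
    · simp [sg, hp.symm]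
  exact h.congr (fun k => by rw [zOf_sg])

theorem gf_s2 (hp : p ≠ x) (hq : q ≠ x) (hpq : p ≠ q) (j : ℕ) :
    GF x (fun k => (K p k + K q k) ^ j) := by
  have h : GF x (fun k => (zOf (fun a => sg p a + sg q a) k) ^ j) := by
    refine gf_zpow (fun a => ?_) x ?_ j
    · by_cases h : a = p
      · subst h; simp [sg, hpq]
      · by_cases h' : a = q
        · subst h'; simp [sg, h]
        · simp [sg, h, h']
    · simp [sg, hp.symm, hq.symm]
  exact h.congr (fun k => by rw [zOf_add, zOf_sg, zOf_sg])

theorem gf_d2 (hp : p ≠ x) (hq : q ≠ x) (hpq : p ≠ q) (j : ℕ) :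
    GF x (fun k => (K p k - K q k) ^ j) := by
  have h : GF x (fun k => (zOf (fun a => sg p a - sg q a) k) ^ j) := by
    refine gf_zpow (fun a => ?_) x ?_ j
    · by_cases h : a = p
      · subst h; simp [sg, hpq]
      · by_cases h' : a = q
        · subst h'; simp [sg, h]
        · simp [sg, h, h']
    · simp [sg, hp.symm, hq.symm]
  exact h.congr (fun k => by rw [zOf_sub, zOf_sg, zOf_sg])

theorem gf_s3 (hp : p ≠ x) (hq : q ≠ x) (hr : r ≠ x) (hpq : p ≠ q) (hpr : p ≠ r) (hqr : q ≠ r)
    (j : ℕ) : GF x (fun k => (K p k + K q k + K r k) ^ j) := by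
  have h : GF x (fun k => (zOf (fun a => (sg p a + sg q a) + sg r a) k) ^ j) := by
    refine gf_zpow (fun a => ?_) x ?_ j
    · by_cases h : a = p
      · subst h; simp [sg, hpq, hpr]
      · by_cases h' : a = q
        · subst h'; simp [sg, h, hqr]
        · by_cases h'' : a = r
          · subst h''; simp [sg, h, h']
          · simp [sg, h, h', h'']
    · simp [sg, hp.symm, hq.symm, hr.symm]
  exact h.congr (fun k => by
    rw [zOf_add (fun a => sg p a + sg q a) (sg r), zOf_add, zOf_sg, zOf_sg, zOf_sg])

theorem gf_one' (x : A) : GF x (fun _ => 1) := gf_one x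

theorem gf_zero (x : A) : GF x (fun _ => 0) :=
  ((gf_one x).mul 0).congr (fun k => by ring)

theorem gf_pq (hp : p ≠ x) (hq : q ≠ x) (hpq : p ≠ q) : GF x (fun k => K p k * K q k) := by
  have h := ((gf_s2 hp hq hpq 2).sub (gf_s1 hp 2)).sub (gf_s1 hq 2)
  refine GF.of_mul (c := 2) (by norm_num) (h.congr (fun k => by ring))

theorem gf_ppq (hp : p ≠ x) (hq : q ≠ x) (hpq : p ≠ q) : GF x (fun k => K p k ^ 2 * K q k) := by
  have h := ((gf_s2 hp hq hpq 3).sub (gf_d2 hp hq hpq 3)).sub ((gf_s1 hq 3).mul 2)
  refine GF.of_mul (c := 6) (by norm_num) (h.congr (fun k => by ring))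

theorem gf_pqr (hp : p ≠ x) (hq : q ≠ x) (hr : r ≠ x) (hpq : p ≠ q) (hpr : p ≠ r) (hqr : q ≠ r) :
    GF x (fun k => K p k * K q k * K r k) := by
  have h0 := ((gf_s3 hp hq hr hpq hpr hqr 3).sub (gf_s1 hp 3)).sub (gf_s1 hq 3)
  have h1 := h0.sub (gf_s1 hr 3)
  have h2 := h1.sub ((gf_ppq hp hq hpq).mul 3)
  have h3 := h2.sub ((gf_ppq hp hr hpr).mul 3)
  have h4 := h3.sub ((gf_ppq hq hp hpq.symm).mul 3)
  have h5 := h4.sub ((gf_ppq hq hr hqr).mul 3)
  have h6 := h5.sub ((gf_ppq hr hp hpr.symm).mul 3)
  have h7 := h6.sub ((gf_ppq hr hq hqr.symm).mul 3)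
  refine GF.of_mul (c := 6) (by norm_num) (h7.congr (fun k => by ring))

/-! ### Powers of the count of the letter itself, by the Stokes formula -/

theorem goodZ_Kpow (y : A) (j : ℕ) : GoodZ (fun w : List A => K y (kv w) ^ j) :=
  (goodZ_K y).pow j

theorem gf_x1 (x : A) : GF x (fun k => K x k) := by
  have h := gf_of_stokes x (fun k => K x k ^ 2) (goodZ_Kpow x 2)
    (fun a ha => (gf_zero a).congr (fun k => by simp [K_bump, ha.symm]))
  refine GF.of_mul (c := 2) (by norm_num) ((h.sub (gf_one x)).congr (fun k => ?_))
  simp only [K_bump, if_true]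
  ring

theorem gf_x2 (x : A) : GF x (fun k => K x k ^ 2) := by
  have h := gf_of_stokes x (fun k => K x k ^ 3) (goodZ_Kpow x 3)
    (fun a ha => (gf_zero a).congr (fun k => by simp [K_bump, ha.symm]))
  refine GF.of_mul (c := 3) (by norm_num)
    (((h.sub ((gf_x1 x).mul 3)).sub (gf_one x)).congr (fun k => ?_))
  simp only [K_bump, if_true]
  ring

theorem gf_x3 (x : A) : GF x (fun k => K x k ^ 3) := by
  have h := gf_of_stokes x (fun k => K x k ^ 4) (goodZ_Kpow x 4)
    (fun a ha => (gf_zero a).congr (fun k => by simp [K_bump, ha.symm]))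
  refine GF.of_mul (c := 4) (by norm_num)
    ((((h.sub ((gf_x2 x).mul 6)).sub ((gf_x1 x).mul 4)).sub (gf_one x)).congr (fun k => ?_))
  simp only [K_bump, if_true]
  ring

theorem gf_xp (hp : p ≠ x) : GF x (fun k => K x k * K p k) := by
  have h := gf_of_stokes x (fun k => K x k ^ 2 * K p k)
    (((goodZ_Kpow x 2).mul (goodZ_K p)))
    (fun a ha => by
      by_cases hap : a = p
      · subst hap
        exact (gf_s1 ha.symm 2).congr (fun k => by simp [K_bump, ha.symm]; ring)
      · exact (gf_zero a).congr (fun k => by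
          have h1 : ¬ x = a := fun e => ha e.symm
          have h2 : ¬ p = a := fun e => hap e.symm
          simp [K_bump, h1, h2]))
  refine GF.of_mul (c := 2) (by norm_num)
    ((h.sub (gf_s1 hp 1)).congr (fun k => ?_))
  simp only [K_bump, if_true, hp, if_false]
  ring

theorem gf_xxp (hp : p ≠ x) : GF x (fun k => K x k ^ 2 * K p k) := by
  have h := gf_of_stokes x (fun k => K x k ^ 3 * K p k)
    (((goodZ_Kpow x 3).mul (goodZ_K p)))
    (fun a ha => by
      by_cases hap : a = p
      · subst hap
        exact (gf_s1 ha.symm 3).congr (fun k => by simp [K_bump, ha.symm]; ring)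
      · exact (gf_zero a).congr (fun k => by
          have h1 : ¬ x = a := fun e => ha e.symm
          have h2 : ¬ p = a := fun e => hap e.symm
          simp [K_bump, h1, h2]))
  refine GF.of_mul (c := 3) (by norm_num)
    (((h.sub ((gf_xp hp).mul 3)).sub (gf_s1 hp 1)).congr (fun k => ?_))
  simp only [K_bump, if_true, hp, if_false]
  ring

theorem gf_xpq (hp : p ≠ x) (hq : q ≠ x) (hpq : p ≠ q) : GF x (fun k => K x k * K p k * K q k) := by
  have h := gf_of_stokes x (fun k => K x k ^ 2 * K p k * K q k)
    (((goodZ_Kpow x 2).mul (goodZ_K p)).mul (goodZ_K q))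
    (fun a ha => by
      by_cases hap : a = p
      · subst hap
        exact (gf_ppq ha.symm hpq.symm hq.symm).congr
          (fun k => by simp [K_bump, ha.symm, hpq.symm]; ring)
      · by_cases haq : a = q
        · subst haq
          exact (gf_ppq ha.symm hpq hp.symm).congr
            (fun k => by simp [K_bump, ha.symm, hpq]; ring)
        · exact (gf_zero a).congr (fun k => by
            have h1 : ¬ x = a := fun e => ha e.symm
            have h2 : ¬ p = a := fun e => hap e.symm
            have h3 : ¬ q = a := fun e => haq e.symm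
            simp [K_bump, h1, h2, h3]))
  refine GF.of_mul (c := 2) (by norm_num)
    ((h.sub (gf_pq hp hq hpq)).congr (fun k => ?_))
  simp only [K_bump, if_true, hp, hq, if_false]
  ring

/-- The second walk: one step up at `p`, one step down at `x`. -/
theorem goodZ_updown (hp : p ≠ x) (j : ℕ) :
    GoodZ (fun w : List A => flow p (fun k => (K p k - K x k + 1) ^ j) w +
      flow x (fun k => (K p k - K x k - 1) ^ j) w) := by
  have hstp : ∀ a, (fun a => sg p a - sg x a) a = 0 ∨ (fun a => sg p a - sg x a) a = 1 ∨
      (fun a => sg p a - sg x a) a = -1 := by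
    intro a
    by_cases h : a = p
    · subst h; simp [sg, hp]
    · by_cases h' : a = x
      · subst h'; simp [sg, h]
      · simp [sg, h, h']
  have h := goodZ_vs hstp (fun _ => False) j
  refine h.congr (fun w => ?_)
  rw [Finset.sum_eq_add p x hp]
  · have e1 : visArr (fun a => sg p a - sg x a) (fun _ => False) p := by
      left; simp [sg, hp]
    have e2 : visArr (fun a => sg p a - sg x a) (fun _ => False) x := by
      left; simp [sg, hp.symm]
    rw [if_pos e1, if_pos e2]
    congr 1
    · congr 1
      funext k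
      rw [zOf_sub, zOf_sg, zOf_sg]
      simp [sg, hp]
    · congr 1
      funext k
      rw [zOf_sub, zOf_sg, zOf_sg]
      simp [sg, hp.symm]
      ring
  · intro c _ hc
    have : ¬ visArr (fun a => sg p a - sg x a) (fun _ => False) c := by
      simp [visArr, sg, hc.1, hc.2]
    rw [if_neg this]
  · simp
  · simp

/-- An exact form supported on two letters. -/
theorem goodZ_exact₂ (Φ : (A → ℕ) → ℤ) (hΦ : GoodZ (fun w : List A => Φ (kv w))) (hp : p ≠ x)
    (h : ∀ a, a ≠ p → a ≠ x → ∀ k, Φ (bump k a) = Φ k) :
    GoodZ (fun w : List A => flow p (fun k => Φ (bump k p) - Φ k) w +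
      flow x (fun k => Φ (bump k x) - Φ k) w) := by
  have h1 : GoodZ (fun w : List A => Φ (kv w) - Φ (fun _ => 0)) := hΦ.sub (GoodZ.const _)
  refine h1.congr (fun w => ?_)
  rw [stokes, Finset.sum_eq_add p x hp]
  · intro c _ hc
    have : (fun k => Φ (bump k c) - Φ k) = fun _ => 0 := by
      funext k
      rw [h c hc.1 hc.2, sub_self]
    rw [this]
    have := flow_mul c 0 (fun _ => 0) w
    simpa using this
  · simp
  · simp

/-- The monomial which needs both walks. -/
theorem gf_xpp (hp : p ≠ x) : GF x (fun k => K x k * K p k ^ 2) := by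
  -- abbreviations for the two goods
  have h3 := goodZ_updown hp 3
  have h4 := goodZ_exact₂ (fun k => (K p k - K x k) ^ 4)
    (((goodZ_K p).sub (goodZ_K x)).pow 4) hp (fun a h1 h2 k => by
      have e1 : ¬ p = a := fun e => h1 e.symm
      have e2 : ¬ x = a := fun e => h2 e.symm
      simp [K_bump, e1, e2])
  have hc : GoodZ (fun w : List A =>
      flow p (fun k => 6 * K p k ^ 2 - 12 * (K p k * K x k) + 6 * K x k ^ 2 + 8 * K p k - 8 * K x k + 3) w +
      flow x (fun k => 8 * (K p k - K x k) ^ 3 - 18 * (K p k - K x k) ^ 2 +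
        16 * (K p k - K x k) - 5) w) := by
    refine (((GoodZ.const 4).mul h3).sub h4).congr (fun w => ?_)
    rw [mul_add, ← flow_mul, ← flow_mul]
    have e : ∀ a b c d : ℤ, a + b - (c + d) = (a - c) + (b - d) := by intros; ring
    rw [e, ← flow_sub, ← flow_sub]
    congr 2
    · funext k
      simp only [K_bump, if_true, hp.symm, if_false]
      ring
    · funext k
      simp only [K_bump, if_true, hp, if_false]
      ring
  -- the flow through `p` has degree two
  have hp2 : GF p (fun k => 6 * K p k ^ 2 - 12 * (K p k * K x k) + 6 * K x k ^ 2 + 8 * K p k -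
      8 * K x k + 3) := by
    refine ((((((gf_x2 p).mul 6).sub ((gf_xp hp.symm).mul 12)).add ((gf_s1 hp.symm 2).mul 6)).add
      ((gf_x1 p).mul 8)).sub ((gf_s1 hp.symm 1).mul 8)).add ((gf_one p).mul 3) |>.congr
        (fun k => by ring)
  have hx3 : GF x (fun k => 8 * (K p k - K x k) ^ 3 - 18 * (K p k - K x k) ^ 2 +
      16 * (K p k - K x k) - 5) := by
    refine (hc.sub hp2).congr (fun w => ?_)
    ring
  -- the degree two parts through `x`
  have hz2 : GF x (fun k => (K p k - K x k) ^ 2) := by
    refine (((gf_s1 hp 2).sub ((gf_xp hp).mul 2)).add (gf_x2 x)).congr (fun k => by ring)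
  have hz1 : GF x (fun k => K p k - K x k) := by
    refine ((gf_s1 hp 1).sub (gf_x1 x)).congr (fun k => by ring)
  have hz3 : GF x (fun k => (K p k - K x k) ^ 3) := by
    refine GF.of_mul (c := 8) (by norm_num)
      ((((hx3.add (hz2.mul 18)).sub (hz1.mul 16)).add ((gf_one x).mul 5)).congr (fun k => by ring))
  -- expansion of the cube
  refine GF.of_mul (c := 3) (by norm_num)
    ((((gf_s1 hp 3).add ((gf_xxp hp).mul 3)).sub (gf_x3 x)).sub hz3 |>.congr (fun k => by ring))

/-! ### All monomials of degree at most three -/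

theorem gf_mon1 (x a : A) : GF x (fun k => K a k) := by
  by_cases ha : a = x
  · subst ha; exact gf_x1 a
  · exact (gf_s1 ha 1).congr (fun k => by ring)

theorem gf_mon2 (x a b : A) : GF x (fun k => K a k * K b k) := by
  by_cases ha : a = x
  · subst ha
    by_cases hb : b = a
    · subst hb; exact (gf_x2 b).congr (fun k => by ring)
    · exact gf_xp hb
  · by_cases hb : b = x
    · subst hb; exact (gf_xp ha).congr (fun k => by ring)
    · by_cases hab : a = b
      · subst hab; exact (gf_s1 ha 2).congr (fun k => by ring)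
      · exact gf_pq ha hb hab

theorem gf_mon3 (x a b c : A) : GF x (fun k => K a k * K b k * K c k) := by
  by_cases hab : a = b
  · subst hab
    by_cases hc : c = a
    · subst hc
      by_cases hx : c = x
      · subst hx; exact (gf_x3 c).congr (fun k => by ring)
      · exact (gf_s1 hx 3).congr (fun k => by ring)
    · by_cases ha : a = x
      · subst ha; exact (gf_xxp hc).congr (fun k => by ring)
      · by_cases hcx : c = x
        · subst hcx; exact (gf_xpp ha).congr (fun k => by ring)
        · exact (gf_ppq ha hcx (Ne.symm hc)).congr (fun k => by ring)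
  · by_cases hac : a = c
    · subst hac
      by_cases ha : a = x
      · subst ha; exact (gf_xxp (Ne.symm hab)).congr (fun k => by ring)
      · by_cases hbx : b = x
        · subst hbx; exact (gf_xpp ha).congr (fun k => by ring)
        · exact (gf_ppq ha hbx hab).congr (fun k => by ring)
    · by_cases hbc : b = c
      · subst hbc
        by_cases hb : b = x
        · subst hb; exact (gf_xxp hab).congr (fun k => by ring)
        · by_cases hax : a = x
          · subst hax; exact (gf_xpp hb).congr (fun k => by ring)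
          · exact (gf_ppq hb hax (Ne.symm hab)).congr (fun k => by ring)
      · -- three different letters
        by_cases ha : a = x
        · subst ha; exact gf_xpq (Ne.symm hab) (Ne.symm hac) hbc
        · by_cases hb : b = x
          · subst hb; exact (gf_xpq ha (Ne.symm hbc) hac).congr (fun k => by ring)
          · by_cases hc : c = x
            · subst hc; exact (gf_xpq ha hb hab).congr (fun k => by ring)
            · exact gf_pqr ha hb hc hab hac hbc

/-- The product of the coordinates along a list of letters. -/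
def mon (l : List A) (k : A → ℕ) : ℤ := (l.map fun y => K y k).prod

theorem gf_mon (x : A) (l : List A) (hl : l.length ≤ 3) : GF x (mon l) := by
  match l, hl with
  | [], _ => exact (gf_one x).congr (fun k => by simp [mon])
  | [a], _ => exact (gf_mon1 x a).congr (fun k => by simp [mon])
  | [a, b], _ => exact (gf_mon2 x a b).congr (fun k => by simp [mon])
  | [a, b, c], _ => exact (gf_mon3 x a b c).congr (fun k => by simp [mon]; ring)

/-- Polynomial functions of degree at most `d`. -/
def Pol (A : Type) (d : ℕ) : Submodule ℤ ((A → ℕ) → ℤ) :=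
  Submodule.span ℤ {f | ∃ l : List A, l.length ≤ d ∧ f = mon l}

theorem mon_mem_Pol (d : ℕ) (l : List A) (hl : l.length ≤ d) : mon l ∈ Pol A d :=
  Submodule.subset_span ⟨l, hl, rfl⟩

theorem Pol_mono {a b : ℕ} (h : a ≤ b) : Pol A a ≤ Pol A b :=
  Submodule.span_mono (fun _ ⟨l, hl, e⟩ => ⟨l, hl.trans h, e⟩)

theorem gf_of_Pol (x : A) {f : (A → ℕ) → ℤ} (hf : f ∈ Pol A 3) : GF x f := by
  induction hf using Submodule.span_induction with
  | mem f hf =>
    obtain ⟨l, hl, rfl⟩ := hf
    exact gf_mon x l hl
  | zero => exact gf_zero x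
  | add f g _ _ hf hg => exact hf.add hg
  | smul c f _ hf => exact (hf.mul c).congr (fun k => by simp)

theorem mon_append (l l' : List A) (k : A → ℕ) : mon (l ++ l') k = mon l k * mon l' k := by
  simp [mon]

theorem Pol_mul {a b : ℕ} {f g : (A → ℕ) → ℤ} (hf : f ∈ Pol A a) (hg : g ∈ Pol A b) :
    (fun k => f k * g k) ∈ Pol A (a + b) := by
  induction hf using Submodule.span_induction with
  | mem f hf =>
    obtain ⟨l, hl, rfl⟩ := hf
    induction hg using Submodule.span_induction with
    | mem g hg =>
      obtain ⟨l', hl', rfl⟩ := hg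
      have : (fun k => mon l k * mon l' k) = mon (l ++ l') := by
        funext k; rw [mon_append]
      rw [this]
      exact mon_mem_Pol _ _ (by simp; omega)
    | zero =>
      have : (fun k => mon l k * (0 : (A → ℕ) → ℤ) k) = 0 := by funext k; simp
      rw [this]; exact Submodule.zero_mem _
    | add g g' _ _ h1 h2 =>
      have : (fun k => mon l k * (g + g') k) =
          (fun k => mon l k * g k) + (fun k => mon l k * g' k) := by
        funext k; simp [mul_add]
      rw [this]; exact Submodule.add_mem _ h1 h2
    | smul c g _ h1 =>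
      have : (fun k => mon l k * (c • g) k) = c • (fun k => mon l k * g k) := by
        funext k; simp; ring
      rw [this]; exact Submodule.smul_mem _ _ h1
  | zero =>
    have : (fun k => (0 : (A → ℕ) → ℤ) k * g k) = 0 := by funext k; simp
    rw [this]; exact Submodule.zero_mem _
  | add f f' _ _ h1 h2 =>
    have : (fun k => (f + f') k * g k) = (fun k => f k * g k) + (fun k => f' k * g k) := by
      funext k; simp [add_mul]
    rw [this]; exact Submodule.add_mem _ h1 h2
  | smul c f _ h1 =>
    have : (fun k => (c • f) k * g k) = c • (fun k => f k * g k) := by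
      funext k; simp; ring
    rw [this]; exact Submodule.smul_mem _ _ h1

theorem const_mem_Pol (d : ℕ) (c : ℤ) : (fun _ : A → ℕ => c) ∈ Pol A d := by
  have h : mon ([] : List A) ∈ Pol A d := mon_mem_Pol _ _ (by simp)
  have e : (fun _ : A → ℕ => c) = c • mon ([] : List A) := by
    funext k; simp [mon]
  rw [e]
  exact Submodule.smul_mem _ _ h

theorem K_mem_Pol (y : A) : K y ∈ Pol A 1 := by
  have h : mon [y] ∈ Pol A 1 := mon_mem_Pol _ _ (by simp)
  have e : K y = mon [y] := by funext k; simp [mon]
  rw [e]; exact h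

/-- Falling factorials are polynomials. -/
theorem desc_mem_Pol (y : A) (i : ℕ) : (fun k : A → ℕ => (((k y).descFactorial i : ℕ) : ℤ)) ∈ Pol A i := by
  induction i with
  | zero =>
    have := const_mem_Pol (A := A) 0 1
    simpa using this
  | succ i ih =>
    have h1 := Pol_mul (K_mem_Pol y) ih
    have h2 := Pol_mono (show i ≤ 1 + i by omega) ih
    have h3 : (fun k : A → ℕ => K y k * (((k y).descFactorial i : ℕ) : ℤ)) -
        (i : ℤ) • (fun k : A → ℕ => (((k y).descFactorial i : ℕ) : ℤ)) ∈ Pol A (1 + i) :=
      Submodule.sub_mem _ h1 (Submodule.smul_mem _ _ h2)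
    have e : (fun k : A → ℕ => (((k y).descFactorial (i + 1) : ℕ) : ℤ)) =
        (fun k : A → ℕ => K y k * (((k y).descFactorial i : ℕ) : ℤ)) -
        (i : ℤ) • (fun k : A → ℕ => (((k y).descFactorial i : ℕ) : ℤ)) := by
      funext k
      simp only [Pi.sub_apply, Pi.smul_apply, smul_eq_mul, K]
      rw [Nat.descFactorial_succ]
      by_cases hle : i ≤ k y
      · push_cast [Nat.cast_sub hle]
        ring
      · have h0 : (k y).descFactorial i = 0 := Nat.descFactorial_eq_zero_iff_lt.2 (by omega)
        simp [h0]
    rw [e, add_comm]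
    exact h3

/-- The product of binomial coefficients of a monomial of binomials. -/
def ev (m : List (A × ℕ)) (k : A → ℕ) : ℕ := (m.map fun e => (k e.1).choose e.2).prod

/-- The weight of a monomial of binomials. -/
def wt (m : List (A × ℕ)) : ℕ := (m.map Prod.snd).sum

/-- The denominator of a monomial of binomials. -/
def denom (m : List (A × ℕ)) : ℕ := (m.map fun e => e.2.factorial).prod

theorem denom_pos (m : List (A × ℕ)) : 0 < denom m := by
  induction m with
  | nil => simp [denom]
  | cons e m ih =>
    simp only [denom, List.map_cons, List.prod_cons]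
    exact Nat.mul_pos (Nat.factorial_pos _) ih

theorem denom_ev_mem_Pol (m : List (A × ℕ)) :
    (fun k : A → ℕ => ((denom m : ℕ) : ℤ) * ((ev m k : ℕ) : ℤ)) ∈ Pol A (wt m) := by
  induction m with
  | nil =>
    have := const_mem_Pol (A := A) 0 1
    simpa [denom, ev, wt] using this
  | cons e m ih =>
    have h1 := Pol_mul (desc_mem_Pol e.1 e.2) ih
    have e1 : (fun k : A → ℕ => ((denom (e :: m) : ℕ) : ℤ) * ((ev (e :: m) k : ℕ) : ℤ)) =
        fun k => (((k e.1).descFactorial e.2 : ℕ) : ℤ) *
          (((denom m : ℕ) : ℤ) * ((ev m k : ℕ) : ℤ)) := by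
      funext k
      rw [Nat.descFactorial_eq_factorial_mul_choose]
      simp only [denom, ev, List.map_cons, List.prod_cons]
      push_cast
      ring
    rw [e1]
    simpa [wt] using h1

/-- The flow of a monomial of binomials of weight at most three is good. -/
theorem gf_ev (x : A) (m : List (A × ℕ)) (hm : wt m ≤ 3) :
    GF x (fun k => ((ev m k : ℕ) : ℤ)) := by
  have h := gf_of_Pol x (Pol_mono hm (denom_ev_mem_Pol m))
  refine GF.of_mul ?_ h
  have := denom_pos m
  positivity

end FlowPoly

end Vale.Agent.Lib.P329
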