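import Vale.Agent.Lib.P329.ThreeState

/-!
Gluing along strongly connected components: if each strongly connected component of an automaton
can be completed to an automaton with languages of generalized star height at most one, the whole
automaton has this property.
-/

namespace Vale.Agent.Lib.P329

variable {A Q : Type}

/-- The states `q` and `r` lie in the same strongly connected component of `δ`: each is reachable
from the other. -/
def SameComp (δ : A → Q → Q) (q r : Q) : Prop :=
  (∃ u : List A, run δ q u = r) ∧ ∃ v : List A, run δ r v = q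

theorem SameComp.refl (δ : A → Q → Q) (q : Q) : SameComp δ q q := ⟨⟨[], rfl⟩, ⟨[], rfl⟩⟩

/-- A state between two states of a component lies in the component. -/
theorem sameComp_of_between {δ : A → Q → Q} {q r : Q} (u v : List A) (hu : run δ q u = r)
    (hv : SameComp δ q (run δ r v)) : SameComp δ q r := by
  obtain ⟨_, w, hw⟩ := hv
  exact ⟨⟨u, hu⟩, ⟨v ++ w, by rw [run_append, hw]⟩⟩

section Comp

variable {δ : A → Q → Q} {q : Q} {δ' : A → {r // SameComp δ q r} → {r // SameComp δ q r}}

/-- While the run stays in the component the completion agrees with `δ`, and the run stays in the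
component as long as no transition of the completion leaves it. -/
theorem run_comp_iff (hext : ∀ a x (hx : SameComp δ q (δ a x.1)), δ' a x = ⟨δ a x.1, hx⟩)
    (w : List A) (x : {r // SameComp δ q r}) :
    (SameComp δ q (run δ x.1 w) ↔
      ∀ u a v, w = u ++ a :: v → SameComp δ q (δ a (run δ' x u).1)) ∧
    (SameComp δ q (run δ x.1 w) → run δ x.1 w = (run δ' x w).1) := by
  induction w generalizing x with
  | nil =>
    refine ⟨⟨fun _ u a v h => ?_, fun _ => x.2⟩, fun _ => rfl⟩
    simp at h
  | cons a w ih =>
    have hstep : SameComp δ q (run δ x.1 (a :: w)) → SameComp δ q (δ a x.1) := by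
      intro h
      obtain ⟨⟨u, hu⟩, _⟩ := x.2
      refine sameComp_of_between (u ++ [a]) w ?_ h
      rw [run_append, hu]
      rfl
    refine ⟨⟨fun h u b v hw => ?_, fun h => ?_⟩, fun h => ?_⟩
    · have hx := hstep h
      have e : δ' a x = ⟨δ a x.1, hx⟩ := hext a x hx
      cases u with
      | nil =>
        have : a = b := by simpa using (List.cons.inj hw).1
        subst this
        exact hx
      | cons c u =>
        have hac : a = c := (List.cons.inj hw).1
        subst hac
        have hw' : w = u ++ b :: v := (List.cons.inj hw).2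
        have := (ih ⟨δ a x.1, hx⟩).1.1 h u b v hw'
        rw [← e] at this
        simpa [run_cons] using this
    · have hx : SameComp δ q (δ a x.1) := h [] a w rfl
      have e : δ' a x = ⟨δ a x.1, hx⟩ := hext a x hx
      refine (ih ⟨δ a x.1, hx⟩).1.2 (fun u b v hw => ?_)
      have := h (a :: u) b v (by rw [hw]; rfl)
      rw [run_cons, e] at this
      exact this
    · have hx := hstep h
      have e : δ' a x = ⟨δ a x.1, hx⟩ := hext a x hx
      rw [run_cons, run_cons, e]
      exact (ih ⟨δ a x.1, hx⟩).2 h

/-- The words whose run from a state of the component ends in the component. -/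
theorem heightLE_stay [Finite A] [Finite Q]
    (hext : ∀ a x (hx : SameComp δ q (δ a x.1)), δ' a x = ⟨δ a x.1, hx⟩)
    (hgood : ∀ x y, HeightLE 1 {w : List A | run δ' x w = y}) (x : {r // SameComp δ q r}) :
    HeightLE 1 {w : List A | SameComp δ q (run δ x.1 w)} := by
  have key : {w : List A | SameComp δ q (run δ x.1 w)} =
      (⋃ p ∈ {p : {r // SameComp δ q r} × A | ¬ SameComp δ q (δ p.2 p.1.1)},
        cat (cat {u : List A | run δ' x u = p.1} {[p.2]}) Set.univ)ᶜ := by
    ext w
    simp only [Set.mem_ofPred_eq, Set.mem_compl_iff, Set.mem_iUnion, not_exists]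
    rw [(run_comp_iff hext w x).1]
    constructor
    · rintro h ⟨s, a⟩ hn ⟨y, ⟨u, hu, z, hz, rfl⟩, v, _, rfl⟩
      have hz' : z = [a] := hz
      subst hz'
      apply hn
      have := h u a v (by simp)
      rw [hu] at this
      exact this
    · intro h u a v hw
      by_contra hn
      refine h (run δ' x u, a) hn ⟨u ++ [a], ⟨u, rfl, [a], rfl, rfl⟩, v, Set.mem_univ _, ?_⟩
      rw [hw]
      simp
  rw [key]
  exact (HeightLE.biUnion (fun p _ => ((hgood x p.1).concat (HeightLE.letter p.2)).concat
    HeightLE.univ)).compl

/-- The words leading from a state of the component to a state of the component. -/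
theorem heightLE_inside [Finite A] [Finite Q]
    (hext : ∀ a x (hx : SameComp δ q (δ a x.1)), δ' a x = ⟨δ a x.1, hx⟩)
    (hgood : ∀ x y, HeightLE 1 {w : List A | run δ' x w = y}) (x y : {r // SameComp δ q r}) :
    HeightLE 1 {w : List A | run δ x.1 w = y.1} := by
  have key : {w : List A | run δ x.1 w = y.1} =
      {w : List A | run δ' x w = y} ∩ {w : List A | SameComp δ q (run δ x.1 w)} := by
    ext w
    simp only [Set.mem_ofPred_eq, Set.mem_inter_iff]
    constructor
    · intro h
      have hs : SameComp δ q (run δ x.1 w) := by rw [h]; exact y.2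
      refine ⟨Subtype.ext ?_, hs⟩
      rw [← (run_comp_iff hext w x).2 hs, h]
    · rintro ⟨h, hs⟩
      rw [(run_comp_iff hext w x).2 hs, h]
  rw [key]
  exact (hgood x y).inter (heightLE_stay hext hgood x)

end Comp

/-- The first exit of a run from a set of states. -/
theorem exit_decomp (δ : A → Q → Q) (C : Set Q) (w : List A) (x : Q) (hx : x ∈ C)
    (hw : run δ x w ∉ C) :
    ∃ u a v, w = u ++ a :: v ∧ run δ x u ∈ C ∧ δ a (run δ x u) ∉ C := by
  induction w generalizing x with
  | nil => exact absurd hx hw
  | cons a w ih =>
    by_cases h : δ a x ∈ C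
    · obtain ⟨u, b, v, rfl, h1, h2⟩ := ih (δ a x) h hw
      exact ⟨a :: u, b, v, rfl, h1, h2⟩
    · exact ⟨[], a, w, rfl, hx, h⟩

/-- **Gluing along strongly connected components.**  If for every state `q` the automaton induced
on the strongly connected component of `q` can be completed (transitions leaving the component are
redirected arbitrarily inside it) to an automaton all of whose languages `{w | x ⟶ y}` have
generalized star height at most one, the same holds for `δ` itself. -/
theorem heightLE_glue_run [Finite A] [Finite Q] (δ : A → Q → Q)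
    (h : ∀ q : Q, ∃ δ' : A → {r // SameComp δ q r} → {r // SameComp δ q r},
      (∀ a x (hx : SameComp δ q (δ a x.1)), δ' a x = ⟨δ a x.1, hx⟩) ∧
      ∀ x y, HeightLE 1 {w : List A | run δ' x w = y}) (x y : Q) :
    HeightLE 1 {w : List A | run δ x w = y} := by
  classical
  have hfin : ∀ s : Set Q, s.Finite := fun s => Set.toFinite s
  induction hn : ({r | ∃ u : List A, run δ x u = r} : Set Q).ncard using Nat.strong_induction_on
    generalizing x y with
  | _ n ih =>
    obtain ⟨δ', hext, hgood⟩ := h x
    have hinside : ∀ s : {r // SameComp δ x r}, HeightLE 1 {w : List A | run δ x w = s.1} :=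
      fun s => heightLE_inside hext hgood ⟨x, SameComp.refl δ x⟩ s
    by_cases hy : SameComp δ x y
    · exact hinside ⟨y, hy⟩
    · have key : {w : List A | run δ x w = y} =
          ⋃ p ∈ {p : {r // SameComp δ x r} × A | ¬ SameComp δ x (δ p.2 p.1.1)},
            cat (cat {u : List A | run δ x u = p.1.1} {[p.2]})
              {v : List A | run δ (δ p.2 p.1.1) v = y} := by
        ext w
        simp only [Set.mem_ofPred_eq, Set.mem_iUnion, exists_prop]
        constructor
        · intro hw
          obtain ⟨u, a, v, rfl, h1, h2⟩ := exit_decomp δ {r | SameComp δ x r} w x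
            (SameComp.refl δ x) (by rw [hw]; exact hy)
          refine ⟨(⟨run δ x u, h1⟩, a), h2, u ++ [a], ⟨u, rfl, [a], rfl, rfl⟩, v, ?_, by simp⟩
          rw [run_append, run_cons] at hw
          exact hw
        · rintro ⟨⟨s, a⟩, _, z, ⟨u, hu, t, ht, rfl⟩, v, hv, rfl⟩
          have ht' : t = [a] := ht
          subst ht'
          have hu' : run δ x u = s.1 := hu
          have hv' : run δ (δ a s.1) v = y := hv
          rw [List.append_assoc, run_append, hu']
          simpa [run_cons] using hv'
      rw [key]
      refine HeightLE.biUnion (fun p hp => ((hinside p.1).concat (HeightLE.letter p.2)).concat ?_)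
      obtain ⟨⟨u, hu⟩, _⟩ := p.1.2
      have hlt : ({r | ∃ v : List A, run δ (δ p.2 p.1.1) v = r} : Set Q).ncard <
          ({r | ∃ u : List A, run δ x u = r} : Set Q).ncard := by
        refine Set.ncard_lt_ncard ?_ (hfin _)
        refine ⟨fun r hr => ?_, fun hsub => ?_⟩
        · obtain ⟨v, rfl⟩ := hr
          refine ⟨u ++ p.2 :: v, ?_⟩
          rw [run_append, hu, run_cons]
        · obtain ⟨v, hv⟩ := hsub (show x ∈ _ from ⟨[], rfl⟩)
          apply (show ¬ SameComp δ x (δ p.2 p.1.1) from hp)
          refine ⟨⟨u ++ [p.2], ?_⟩, ⟨v, hv⟩⟩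
          rw [run_append, hu]
          rfl
      exact ih _ (hn ▸ hlt) (δ p.2 p.1.1) y rfl

/-- Transformation form of the gluing theorem. -/
theorem heightLE_glue [Finite A] [Finite Q] (δ : A → Q → Q)
    (h : ∀ q : Q, ∃ δ' : A → {r // SameComp δ q r} → {r // SameComp δ q r},
      (∀ a x (hx : SameComp δ q (δ a x.1)), δ' a x = ⟨δ a x.1, hx⟩) ∧
      ∀ x y, HeightLE 1 {w : List A | run δ' x w = y}) (S : Set (Q → Q)) :
    HeightLE 1 {w : List A | (fun x => run δ x w) ∈ S} := by
  have hf : Finite (Q → Q) := Pi.finite
  refine HeightLE.preimage (g := fun w : List A => fun x => run δ x w) (fun f => ?_) S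
  have : {w : List A | (fun x => run δ x w) = f} = ⋂ x, {w : List A | run δ x w = f x} := by
    ext w
    simp [funext_iff]
  rw [this]
  exact HeightLE.iInter (fun x => heightLE_glue_run δ h x (f x))

/-- **Automata with small components.**  If every strongly connected component of an automaton has
at most three states, every language recognized by its transition monoid has generalized star
height at most one. -/
theorem heightLE_comp_le_three [Finite A] [Finite Q] (δ : A → Q → Q)
    (h : ∀ q : Q, Nat.card {r // SameComp δ q r} ≤ 3) (S : Set (Q → Q)) :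
    HeightLE 1 {w : List A | (fun x => run δ x w) ∈ S} := by
  classical
  refine heightLE_glue δ (fun q => ?_) S
  refine ⟨fun a x => if hx : SameComp δ q (δ a x.1) then ⟨δ a x.1, hx⟩ else x, ?_, ?_⟩
  · intro a x hx
    simp [hx]
  · intro x y
    have := heightLE_card_le_three (h q)
      (fun a x => if hx : SameComp δ q (δ a x.1) then ⟨δ a x.1, hx⟩ else x)
      {f | f x = y}
    exact this

end Vale.Agent.Lib.P329
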