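import Vale.Agent.Lib.P329.Hub

/-!
Functions on words with finite range whose fibres have generalized star height at most one.
-/

namespace Vale.Agent.Lib.P329

variable {A β γ : Type}

/-- All fibres of `f` have generalized star height at most `1`. -/
def Good (f : List A → β) : Prop := ∀ b, HeightLE 1 {w | f w = b}

namespace Good

theorem const (c : β) : Good (fun _ : List A => c) := by
  classical
  intro b
  by_cases h : c = b
  · have : {w : List A | c = b} = Set.univ := by ext w; simp [h]
    change HeightLE 1 {w : List A | c = b}
    rw [this]; exact HeightLE.univ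
  · have : {w : List A | c = b} = ∅ := by ext w; simp [h]
    change HeightLE 1 {w : List A | c = b}
    rw [this]; exact HeightLE.empty

theorem preimage [Finite β] {f : List A → β} (hf : Good f) (s : Set β) :
    HeightLE 1 {w | f w ∈ s} :=
  HeightLE.preimage hf s

/-- A function of a good function is good. -/
theorem of_factor [Finite β] {f : List A → β} {g : List A → γ} (hf : Good f)
    (hfac : ∀ w w', f w = f w' → g w = g w') : Good g := by
  intro c
  have : {w | g w = c} = {w | f w ∈ {y | ∃ w', f w' = y ∧ g w' = c}} := by
    ext w
    constructor
    · intro h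
      exact ⟨w, rfl, h⟩
    · rintro ⟨w', h1, h2⟩
      exact (hfac w w' h1.symm).trans h2
  rw [this]
  exact hf.preimage _

theorem comp [Finite β] {f : List A → β} (hf : Good f) (h : β → γ) :
    Good (fun w => h (f w)) :=
  of_factor hf (fun w w' e => by simp [e])

theorem pair {f : List A → β} {g : List A → γ} (hf : Good f) (hg : Good g) :
    Good (fun w => (f w, g w)) := by
  intro b
  have : {w | (f w, g w) = b} = {w | f w = b.1} ∩ {w | g w = b.2} := by
    ext w
    constructor
    · rintro rfl; exact ⟨rfl, rfl⟩
    · rintro ⟨h1, h2⟩
      exact Prod.ext h1 h2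
  rw [this]
  exact (hf _).inter (hg _)

theorem map₂ {δ : Type} [Finite β] [Finite γ] {f : List A → β} {g : List A → γ} (hf : Good f)
    (hg : Good g) (h : β → γ → δ) : Good (fun w => h (f w) (g w)) :=
  (hf.pair hg).comp (fun p => h p.1 p.2)

theorem mul [Mul β] [Finite β] {f g : List A → β} (hf : Good f) (hg : Good g) :
    Good (fun w => f w * g w) := hf.map₂ hg (· * ·)

theorem add [Add β] [Finite β] {f g : List A → β} (hf : Good f) (hg : Good g) :
    Good (fun w => f w + g w) := hf.map₂ hg (· + ·)

theorem sub [Sub β] [Finite β] {f g : List A → β} (hf : Good f) (hg : Good g) :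
    Good (fun w => f w - g w) := hf.map₂ hg (· - ·)

theorem finset_sum {ι : Type} [AddCommMonoid β] [Finite β] (s : Finset ι) {f : ι → List A → β}
    (hf : ∀ i ∈ s, Good (f i)) : Good (fun w => ∑ i ∈ s, f i w) := by
  classical
  induction s using Finset.induction_on with
  | empty => simpa using const (A := A) (0 : β)
  | insert a s ha ih =>
    have h1 := hf a (Finset.mem_insert_self a s)
    have h2 := ih (fun i hi => hf i (Finset.mem_insert_of_mem hi))
    simpa [Finset.sum_insert ha] using h1.add h2

theorem finset_prod {ι : Type} [CommMonoid β] [Finite β] (s : Finset ι) {f : ι → List A → β}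
    (hf : ∀ i ∈ s, Good (f i)) : Good (fun w => ∏ i ∈ s, f i w) := by
  classical
  induction s using Finset.induction_on with
  | empty => simpa using const (A := A) (1 : β)
  | insert a s ha ih =>
    have h1 := hf a (Finset.mem_insert_self a s)
    have h2 := ih (fun i hi => hf i (Finset.mem_insert_of_mem hi))
    simpa [Finset.prod_insert ha] using h1.mul h2

end Good

end Vale.Agent.Lib.P329
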