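import Vale.Agent.Lib.P329.Aperiodic

/-!
The hub theorem: if a deterministic automaton has a state `v` such that the partial transition
monoid on the remaining states is aperiodic, every path language has generalized star height
at most one.
-/

namespace Vale.Agent.Lib.P329

variable {A Q : Type}

/-- The run of a complete deterministic automaton with transition function `δ`. -/
def run (δ : A → Q → Q) (q : Q) (w : List A) : Q := w.foldl (fun s a => δ a s) q

@[simp] theorem run_nil (δ : A → Q → Q) (q : Q) : run δ q [] = q := rfl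

@[simp] theorem run_cons (δ : A → Q → Q) (q : Q) (a : A) (w : List A) :
    run δ q (a :: w) = run δ (δ a q) w := rfl

theorem run_append (δ : A → Q → Q) (q : Q) (u v : List A) :
    run δ q (u ++ v) = run δ (run δ q u) v := by
  simp [run, List.foldl_append]

/-- The automaton with the state `v` turned into a sink: this encodes the partial transition
monoid on the states different from `v`. -/
def sinkAt [DecidableEq Q] (δ : A → Q → Q) (v : Q) : A → Q → Q :=
  fun a x => if x = v then v else δ a x

/-- `v` is a hub of `δ`: the transition monoid of the automaton with `v` turned into a sink is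
aperiodic, i.e. the partial transition monoid on the states other than `v` is aperiodic. -/
def IsHub [DecidableEq Q] (δ : A → Q → Q) (v : Q) : Prop :=
  ∀ u : List A, ∃ n : ℕ,
    (fun x => run (sinkAt δ v) x u)^[n] = (fun x => run (sinkAt δ v) x u)^[n + 1]

section TM

variable (τ : A → Q → Q)

/-- The transition monoid of `τ`. -/
def TM : Type := {f : Q → Q // ∃ u : List A, f = fun x => run τ x u}

variable {τ}

instance TM.instMonoid : Monoid (TM τ) where
  mul f g := ⟨g.1 ∘ f.1, by
    obtain ⟨u, hu⟩ := f.2
    obtain ⟨v, hv⟩ := g.2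
    refine ⟨u ++ v, ?_⟩
    funext x
    simp only [Function.comp, run_append]
    rw [hu, hv]⟩
  one := ⟨id, ⟨[], rfl⟩⟩
  mul_assoc _ _ _ := rfl
  one_mul _ := rfl
  mul_one _ := rfl

theorem TM.mul_val (f g : TM τ) : (f * g).1 = g.1 ∘ f.1 := rfl
theorem TM.one_val : (1 : TM τ).1 = id := rfl

theorem TM.pow_val (f : TM τ) (n : ℕ) : (f ^ n).1 = f.1^[n] := by
  induction n with
  | zero => rfl
  | succ n ih =>
    rw [pow_succ, TM.mul_val, ih, Function.iterate_succ']

/-- The letter map. -/
def TM.ofLetter (τ : A → Q → Q) (a : A) : TM τ := ⟨τ a, ⟨[a], rfl⟩⟩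

theorem TM.wval_val (u : List A) : (wval (TM.ofLetter τ) u).1 = fun x => run τ x u := by
  induction u with
  | nil => rfl
  | cons a u ih =>
    rw [wval_cons, TM.mul_val, ih]
    rfl

end TM

section HubTheorem

variable [DecidableEq Q] {δ : A → Q → Q} {v : Q}

theorem run_sink_hub (w : List A) : run (sinkAt δ v) v w = v := by
  induction w with
  | nil => rfl
  | cons a w ih =>
    rw [run_cons]
    simpa [sinkAt] using ih

theorem sinkAt_of_ne {x : Q} (hx : x ≠ v) (a : A) : sinkAt δ v a x = δ a x := by
  simp [sinkAt, hx]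

/-- A run in the sink automaton that does not end in the hub is a genuine run. -/
theorem run_eq_of_sink_ne : ∀ (w : List A) (x : Q), run (sinkAt δ v) x w ≠ v →
    run δ x w = run (sinkAt δ v) x w := by
  intro w
  induction w with
  | nil => intro x _; rfl
  | cons a w ih =>
    intro x hx
    have hxv : x ≠ v := by
      rintro rfl
      exact hx (run_sink_hub _)
    rw [run_cons, run_cons, sinkAt_of_ne hxv] at *
    exact ih _ hx

/-- Words from `x` that reach the hub for the first time at their very end. -/
def firstHit (δ : A → Q → Q) (v x : Q) : Set (List A) :=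
  {w | ∃ w' b y, w = w' ++ [b] ∧ y ≠ v ∧ run (sinkAt δ v) x w' = y ∧ δ b y = v}

/-- First return words at the hub starting with the letter `a`. -/
def firstRetLetter (δ : A → Q → Q) (v : Q) (a : A) : Set (List A) :=
  {w | ∃ t, w = a :: t ∧ ((δ a v = v ∧ t = []) ∨ (δ a v ≠ v ∧ t ∈ firstHit δ v (δ a v)))}

/-- First return words at the hub. -/
def firstRet (δ : A → Q → Q) (v : Q) : Set (List A) := ⋃ a, firstRetLetter δ v a

/-- Words leaving the hub and ending in `r`, never coming back to the hub. -/
def depart (δ : A → Q → Q) (v r : Q) : Set (List A) :=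
  {w | (r = v ∧ w = []) ∨
    (r ≠ v ∧ ∃ a t, w = a :: t ∧ δ a v ≠ v ∧ run (sinkAt δ v) (δ a v) t = r)}

/-- Words from `s` arriving at the hub for the first time at their end. -/
def arrive (δ : A → Q → Q) (v s : Q) : Set (List A) :=
  {w | (s = v ∧ w = []) ∨ (s ≠ v ∧ w ∈ firstHit δ v s)}

/-- Words from `s` to `r` avoiding the hub. -/
def direct (δ : A → Q → Q) (v s r : Q) : Set (List A) :=
  {w | s ≠ v ∧ r ≠ v ∧ run (sinkAt δ v) s w = r}

theorem run_of_firstHit {x : Q} {w : List A} (h : w ∈ firstHit δ v x) : run δ x w = v := by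
  obtain ⟨w', b, y, rfl, hy, hr, hb⟩ := h
  have : run δ x w' = y := by
    rw [run_eq_of_sink_ne w' x (by rw [hr]; exact hy), hr]
  rw [run_append, this]
  simpa [run] using hb

theorem run_of_firstRet {w : List A} (h : w ∈ firstRet δ v) : run δ v w = v := by
  simp only [firstRet, Set.mem_iUnion] at h
  obtain ⟨a, t, rfl, (⟨h1, rfl⟩ | ⟨_, h2⟩)⟩ := h
  · simpa [run] using h1
  · rw [run_cons]; exact run_of_firstHit h2

theorem run_of_kstar {w : List A} (h : w ∈ kstarL (firstRet δ v)) : run δ v w = v := by
  obtain ⟨l, hl, rfl⟩ := h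
  induction l with
  | nil => rfl
  | cons u l ih =>
    rw [List.flatten_cons, run_append, run_of_firstRet (hl u (by simp))]
    exact ih (fun x hx => hl x (List.mem_cons_of_mem _ hx))

theorem run_of_depart {r : Q} {w : List A} (h : w ∈ depart δ v r) : run δ v w = r := by
  rcases h with ⟨rfl, rfl⟩ | ⟨hr, a, t, rfl, _, ht⟩
  · rfl
  · rw [run_cons, run_eq_of_sink_ne t _ (by rw [ht]; exact hr), ht]

theorem run_of_arrive {s : Q} {w : List A} (h : w ∈ arrive δ v s) : run δ s w = v := by
  rcases h with ⟨rfl, rfl⟩ | ⟨_, h⟩
  · rfl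
  · exact run_of_firstHit h

theorem run_of_direct {s r : Q} {w : List A} (h : w ∈ direct δ v s r) : run δ s w = r := by
  obtain ⟨_, hr, hw⟩ := h
  rw [run_eq_of_sink_ne w s (by rw [hw]; exact hr), hw]

/-- Either the run from `x ≠ v` avoids the hub, or a first hit factor splits off. -/
theorem avoid_or_hit : ∀ (w : List A) (x : Q), x ≠ v →
    run (sinkAt δ v) x w ≠ v ∨ ∃ w₁ w₂, w = w₁ ++ w₂ ∧ w₁ ∈ firstHit δ v x ∧ w₁ ≠ [] := by
  intro w
  induction w with
  | nil => intro x hx; exact Or.inl hx
  | cons a w ih =>
    intro x hx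
    by_cases hax : δ a x = v
    · exact Or.inr ⟨[a], w, rfl, ⟨[], a, x, rfl, hx, rfl, hax⟩, by simp⟩
    · rw [run_cons, sinkAt_of_ne hx]
      rcases ih (δ a x) hax with h | ⟨w₁, w₂, rfl, ⟨w', b, y, rfl, hy, hr, hb⟩, _⟩
      · exact Or.inl h
      · refine Or.inr ⟨a :: (w' ++ [b]), w₂, rfl, ⟨a :: w', b, y, rfl, hy, ?_, hb⟩, by simp⟩
        rw [run_cons, sinkAt_of_ne hx, hr]

/-- Every word read from the hub factors through first returns and a final departure. -/
theorem from_hub : ∀ (N : ℕ) (w : List A), w.length ≤ N →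
    w ∈ cat (kstarL (firstRet δ v)) (depart δ v (run δ v w)) := by
  intro N
  induction N with
  | zero =>
    intro w hw
    have : w = [] := List.length_eq_zero_iff.1 (by omega)
    subst this
    exact ⟨[], ⟨[], by simp, rfl⟩, [], Or.inl ⟨rfl, rfl⟩, rfl⟩
  | succ N ih =>
    intro w hw
    cases w with
    | nil => exact ⟨[], ⟨[], by simp, rfl⟩, [], Or.inl ⟨rfl, rfl⟩, rfl⟩
    | cons a w =>
      have hlen : w.length ≤ N := by simpa using hw
      by_cases hav : δ a v = v
      · obtain ⟨f, ⟨l, hl, rfl⟩, d, hd, hfd⟩ := ih w hlen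
        have h1 : [a] ∈ firstRet δ v := by
          simp only [firstRet, Set.mem_iUnion]
          exact ⟨a, [], rfl, Or.inl ⟨hav, rfl⟩⟩
        refine ⟨[a] ++ l.flatten, ⟨[a] :: l, ?_, rfl⟩, d, ?_, ?_⟩
        · intro x hx
          rcases List.mem_cons.1 hx with rfl | hx
          · exact h1
          · exact hl x hx
        · rw [run_cons, hav]; exact hd
        · simp [hfd]
      · rcases avoid_or_hit (δ := δ) (v := v) w (δ a v) hav with h | ⟨w₁, w₂, rfl, h₁, hne⟩
        · refine ⟨[], ⟨[], by simp, rfl⟩, a :: w, ?_, rfl⟩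
          rw [run_cons, run_eq_of_sink_ne w _ h]
          exact Or.inr ⟨h, a, w, rfl, hav, rfl⟩
        · have hlen2 : w₂.length ≤ N := by
            have : 0 < w₁.length := List.length_pos_iff.2 hne
            simp at hw; omega
          obtain ⟨f, ⟨l, hl, rfl⟩, d, hd, hfd⟩ := ih w₂ hlen2
          have h1 : a :: w₁ ∈ firstRet δ v := by
            simp only [firstRet, Set.mem_iUnion]
            exact ⟨a, w₁, rfl, Or.inr ⟨hav, h₁⟩⟩
          refine ⟨(a :: w₁) ++ l.flatten, ⟨(a :: w₁) :: l, ?_, rfl⟩, d, ?_, ?_⟩
          · intro x hx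
            rcases List.mem_cons.1 hx with rfl | hx
            · exact h1
            · exact hl x hx
          · rw [run_cons, run_append, run_of_firstHit h₁]; exact hd
          · simp [hfd]

/-- The decomposition of the path language. -/
theorem path_eq (s r : Q) : {w : List A | run δ s w = r} =
    direct δ v s r ∪ cat (cat (arrive δ v s) (kstarL (firstRet δ v))) (depart δ v r) := by
  ext w
  constructor
  · intro hw
    have hw' : run δ s w = r := hw
    by_cases hs : s = v
    · subst hs
      right
      obtain ⟨f, hf, d, hd, rfl⟩ := from_hub (δ := δ) (v := s) _ w le_rfl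
      rw [hw'] at hd
      exact ⟨f, ⟨[], Or.inl ⟨rfl, rfl⟩, f, hf, rfl⟩, d, hd, rfl⟩
    · rcases avoid_or_hit (δ := δ) (v := v) w s hs with h | ⟨w₁, w₂, rfl, h₁, _⟩
      · left
        have h2 := run_eq_of_sink_ne w s h
        rw [hw'] at h2
        exact ⟨hs, by rw [h2]; exact h, h2.symm⟩
      · right
        obtain ⟨f, hf, d, hd, hfd⟩ := from_hub (δ := δ) (v := v) _ w₂ le_rfl
        rw [run_append, run_of_firstHit h₁] at hw'
        rw [hw'] at hd
        refine ⟨w₁ ++ f, ⟨w₁, Or.inr ⟨hs, h₁⟩, f, hf, rfl⟩, d, hd, ?_⟩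
        rw [hfd, List.append_assoc]
  · rintro (h | ⟨x, ⟨a, ha, f, hf, rfl⟩, d, hd, rfl⟩)
    · exact run_of_direct h
    · change run δ s (a ++ f ++ d) = r
      rw [run_append, run_append, run_of_arrive ha, run_of_kstar hf, run_of_depart hd]

variable [Finite A] [Finite Q]

/-- Under the hub hypothesis, paths in the sink automaton form star-free languages. -/
theorem sink_path_starFree (hv : IsHub δ v) (x y : Q) :
    HeightLE 0 {w : List A | run (sinkAt δ v) x w = y} := by
  have hfin : Finite (TM (sinkAt δ v)) := Subtype.finite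
  have hap : IsAperiodic (TM (sinkAt δ v)) := by
    intro f
    obtain ⟨u, hu⟩ := f.2
    obtain ⟨n, hn⟩ := hv u
    refine ⟨n, Subtype.ext ?_⟩
    rw [TM.pow_val, TM.pow_val, hu]
    exact hn
  have : {w : List A | run (sinkAt δ v) x w = y} =
      ⋃ f ∈ {f : TM (sinkAt δ v) | f.1 x = y},
        {w : List A | wval (TM.ofLetter (sinkAt δ v)) w = f} := by
    ext w
    simp only [Set.mem_iUnion]
    constructor
    · intro h
      refine ⟨wval (TM.ofLetter (sinkAt δ v)) w, ?_, rfl⟩
      change (wval (TM.ofLetter (sinkAt δ v)) w).1 x = y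
      rw [TM.wval_val]
      exact h
    · rintro ⟨f, hf, hw⟩
      have hw' : wval (TM.ofLetter (sinkAt δ v)) w = f := hw
      have : f.1 x = y := hf
      rw [← hw', TM.wval_val] at this
      exact this
  rw [this]
  exact HeightLE.biUnion (fun f _ => starFree_of_aperiodic' hap _ f)

theorem firstHit_starFree (hv : IsHub δ v) (x : Q) : HeightLE 0 (firstHit δ v x) := by
  have : firstHit δ v x = ⋃ t ∈ {t : A × Q | t.2 ≠ v ∧ δ t.1 t.2 = v},
      cat {w : List A | run (sinkAt δ v) x w = t.2} {[t.1]} := by
    ext w
    simp only [Set.mem_iUnion]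
    constructor
    · rintro ⟨w', b, y, rfl, hy, hr, hb⟩
      exact ⟨(b, y), ⟨hy, hb⟩, w', hr, [b], rfl, rfl⟩
    · rintro ⟨t, ⟨h1, h2⟩, w', hr, z, hz, rfl⟩
      have : z = [t.1] := hz
      subst this
      exact ⟨w', t.1, t.2, rfl, h1, hr, h2⟩
  rw [this]
  exact HeightLE.biUnion (fun t _ => (sink_path_starFree hv x t.2).concat (HeightLE.letter t.1))

theorem firstRet_starFree (hv : IsHub δ v) : HeightLE 0 (firstRet δ v) := by
  refine HeightLE.iUnion (fun a => ?_)
  by_cases hav : δ a v = v
  · have : firstRetLetter δ v a = {[a]} := by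
      ext w
      constructor
      · rintro ⟨t, rfl, (⟨_, rfl⟩ | ⟨h, _⟩)⟩
        · rfl
        · exact absurd hav h
      · intro h
        have : w = [a] := h
        subst this
        exact ⟨[], rfl, Or.inl ⟨hav, rfl⟩⟩
    rw [this]; exact HeightLE.letter a
  · have : firstRetLetter δ v a = cat {[a]} (firstHit δ v (δ a v)) := by
      ext w
      constructor
      · rintro ⟨t, rfl, (⟨h, _⟩ | ⟨_, ht⟩)⟩
        · exact absurd h hav
        · exact ⟨[a], rfl, t, ht, rfl⟩
      · rintro ⟨z, hz, t, ht, rfl⟩
        have : z = [a] := hz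
        subst this
        exact ⟨t, rfl, Or.inr ⟨hav, ht⟩⟩
    rw [this]; exact (HeightLE.letter a).concat (firstHit_starFree hv _)

theorem depart_starFree (hv : IsHub δ v) (r : Q) : HeightLE 0 (depart δ v r) := by
  by_cases hr : r = v
  · have : depart δ v r = {[]} := by
      ext w
      constructor
      · rintro (⟨_, rfl⟩ | ⟨h, _⟩)
        · rfl
        · exact absurd hr h
      · intro h
        exact Or.inl ⟨hr, h⟩
    rw [this]; exact HeightLE.nil
  · have : depart δ v r = ⋃ a ∈ {a : A | δ a v ≠ v},
        cat {[a]} {w : List A | run (sinkAt δ v) (δ a v) w = r} := by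
      ext w
      simp only [Set.mem_iUnion]
      constructor
      · rintro (⟨h, _⟩ | ⟨_, a, t, rfl, ha, ht⟩)
        · exact absurd h hr
        · exact ⟨a, ha, [a], rfl, t, ht, rfl⟩
      · rintro ⟨a, ha, z, hz, t, ht, rfl⟩
        have : z = [a] := hz
        subst this
        exact Or.inr ⟨hr, a, t, rfl, ha, ht⟩
    rw [this]
    exact HeightLE.biUnion (fun a _ => (HeightLE.letter a).concat (sink_path_starFree hv _ r))

theorem arrive_starFree (hv : IsHub δ v) (s : Q) : HeightLE 0 (arrive δ v s) := by
  by_cases hs : s = v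
  · have : arrive δ v s = {[]} := by
      ext w
      constructor
      · rintro (⟨_, rfl⟩ | ⟨h, _⟩)
        · rfl
        · exact absurd hs h
      · intro h
        exact Or.inl ⟨hs, h⟩
    rw [this]; exact HeightLE.nil
  · have : arrive δ v s = firstHit δ v s := by
      ext w
      constructor
      · rintro (⟨h, _⟩ | ⟨_, h⟩)
        · exact absurd h hs
        · exact h
      · intro h
        exact Or.inr ⟨hs, h⟩
    rw [this]; exact firstHit_starFree hv s

theorem direct_starFree (hv : IsHub δ v) (s r : Q) : HeightLE 0 (direct δ v s r) := by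
  by_cases h : s ≠ v ∧ r ≠ v
  · have : direct δ v s r = {w : List A | run (sinkAt δ v) s w = r} := by
      ext w
      constructor
      · exact fun hw => hw.2.2
      · exact fun hw => ⟨h.1, h.2, hw⟩
    rw [this]; exact sink_path_starFree hv s r
  · have : direct δ v s r = ∅ := by
      ext w
      constructor
      · rintro ⟨h1, h2, _⟩
        exact absurd ⟨h1, h2⟩ h
      · intro hw; exact absurd hw (by simp)
    rw [this]; exact HeightLE.empty

/-- **The hub theorem.**  If `v` is a hub of the complete deterministic automaton `δ`, then for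
all states `s`, `r` the language of words leading from `s` to `r` has generalized star height at
most `1`. -/
theorem hub_path (hv : IsHub δ v) (s r : Q) : HeightLE 1 {w : List A | run δ s w = r} := by
  rw [path_eq (v := v) s r]
  refine ((direct_starFree hv s r).mono (Nat.zero_le 1)).union ?_
  exact (((arrive_starFree hv s).mono (Nat.zero_le 1)).concat (firstRet_starFree hv).star).concat
    ((depart_starFree hv r).mono (Nat.zero_le 1))

/-- The whole transformation induced by a word has fibres of generalized star height at most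
`1`: every language recognized by the transition monoid of an automaton with a hub has
generalized star height at most one. -/
theorem hub_transformation (hv : IsHub δ v) (S : Set (Q → Q)) :
    HeightLE 1 {w : List A | (fun x => run δ x w) ∈ S} := by
  have hf : Finite (Q → Q) := Pi.finite
  refine HeightLE.preimage (g := fun w : List A => fun x => run δ x w) (fun f => ?_) S
  have : {w : List A | (fun x => run δ x w) = f} = ⋂ x, {w : List A | run δ x w = f x} := by
    ext w
    simp [funext_iff]
  rw [this]
  exact HeightLE.iInter (fun x => hub_path hv x (f x))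

end HubTheorem

/-- A rank criterion for hubs: if the states are linearly ordered by an injective rank and no
transition avoiding the hub decreases the rank, then `v` is a hub. -/
theorem isHub_of_rank [DecidableEq Q] [Finite Q] {δ : A → Q → Q} {v : Q} (rk : Q → ℕ)
    (hinj : Function.Injective rk)
    (hmono : ∀ a x, x ≠ v → δ a x ≠ v → rk x ≤ rk (δ a x)) : IsHub δ v := by
  classical
  obtain ⟨T, hT⟩ : ∃ T : ℕ, ∀ x, rk x < T := by
    have : Fintype Q := Fintype.ofFinite Q
    refine ⟨(Finset.univ.sup rk) + 1, fun x => ?_⟩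
    exact Nat.lt_succ_of_le (Finset.le_sup (f := rk) (Finset.mem_univ x))
  let rk' : Q → ℕ := fun x => if x = v then T else rk x
  have hinj' : Function.Injective rk' := by
    intro x y h
    by_cases hx : x = v <;> by_cases hy : y = v
    · rw [hx, hy]
    · simp only [rk', hx, hy, if_true, if_false] at h
      exact absurd h (by have := hT y; omega)
    · simp only [rk', hx, hy, if_true, if_false] at h
      exact absurd h (by have := hT x; omega)
    · simp only [rk', hx, hy, if_false] at h
      exact hinj h
  have hle : ∀ x, rk' x ≤ T := by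
    intro x
    by_cases hx : x = v
    · simp [rk', hx]
    · simp only [rk', hx, if_false]; exact (hT x).le
  have hstep : ∀ a x, rk' x ≤ rk' (sinkAt δ v a x) := by
    intro a x
    by_cases hx : x = v
    · simp [rk', sinkAt, hx]
    · rw [sinkAt_of_ne hx]
      by_cases hax : δ a x = v
      · rw [hax]; simp only [rk', hx, if_true, if_false]; exact (hT x).le
      · simp only [rk', hx, hax, if_false]; exact hmono a x hx hax
  intro u
  let f : Q → Q := fun x => run (sinkAt δ v) x u
  have hf : ∀ x, rk' x ≤ rk' (f x) := by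
    intro x
    change rk' x ≤ rk' (run (sinkAt δ v) x u)
    induction u generalizing x with
    | nil => exact le_rfl
    | cons a u ih =>
      rw [run_cons]
      exact (hstep a x).trans (ih _)
  -- iterates stabilise
  have hiter : ∀ (x : Q) (k : ℕ), (∃ j ≤ k, f^[j + 1] x = f^[j] x) ∨ k + rk' x ≤ rk' (f^[k] x) := by
    intro x k
    induction k with
    | zero => right; simp
    | succ k ih =>
      rcases ih with ⟨j, hj, h⟩ | h
      · exact Or.inl ⟨j, by omega, h⟩
      · by_cases hk : f^[k + 1] x = f^[k] x
        · exact Or.inl ⟨k, by omega, hk⟩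
        · right
          have h1 : rk' (f^[k] x) ≤ rk' (f^[k + 1] x) := by
            rw [Function.iterate_succ_apply']
            exact hf _
          have h2 : rk' (f^[k] x) ≠ rk' (f^[k + 1] x) := fun he => hk (hinj' he).symm
          omega
  have hfix : ∀ (x : Q) (j m : ℕ), f^[j + 1] x = f^[j] x → f^[j + m] x = f^[j] x := by
    intro x j m h
    induction m with
    | zero => rfl
    | succ m ih =>
      rw [← add_assoc, Function.iterate_succ_apply', ih]
      exact (Function.iterate_succ_apply' f j x).symm.trans h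
  refine ⟨T + 1, ?_⟩
  funext x
  rcases hiter x (T + 1) with ⟨j, hj, h⟩ | h
  · obtain ⟨m, hm⟩ : ∃ m, T + 1 = j + m := ⟨T + 1 - j, by omega⟩
    change f^[T + 1] x = f^[T + 1 + 1] x
    rw [hm, hfix x j m h, show j + m + 1 = j + (m + 1) by omega, hfix x j (m + 1) h]
  · exfalso
    have := hle (f^[T + 1] x)
    omega

end Vale.Agent.Lib.P329
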