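import Vale.Agent.Lib.P329.Jump

/-!
Counting visits of a hub, and walks with steps in `{0, 1}` whose counter may move anywhere.
-/

namespace Vale.Agent.Lib.P329

section Counter

variable {A Q : Type} [DecidableEq Q]

/-- Closed repeated runs off a hub are fixed points. -/
theorem run_eq_of_closed_of_isHub {δ : A → Q → Q} {v : Q} (hv : IsHub δ v) {u : List A} {x : Q}
    (hx : x ≠ v) {m : ℕ} (hm : 0 < m) (hcl : run (sinkAt δ v) x (rep u m) = x) :
    run δ x u = x := by
  obtain ⟨n, hn⟩ := hv u
  set f : Q → Q := fun x => run (sinkAt δ v) x u with hf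
  have hcl' : f^[m] x = x := by
    rw [hf, ← run_rep]; exact hcl
  have h1 : ∀ j, f^[m * j] x = x := by
    intro j
    induction j with
    | zero => rfl
    | succ j ih =>
      rw [Nat.mul_succ, add_comm, Function.iterate_add_apply, ih, hcl']
  have hstable : ∀ j, f^[n + j] = f^[n] := by
    intro j
    induction j with
    | zero => rfl
    | succ j ih =>
      rw [← add_assoc, Function.iterate_succ', ih, ← Function.iterate_succ', hn]
  have hle : n ≤ m * (n + 1) := by
    have : n + 1 ≤ m * (n + 1) := Nat.le_mul_of_pos_left _ hm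
    omega
  obtain ⟨j, hj⟩ : ∃ j, m * (n + 1) = n + j := ⟨m * (n + 1) - n, by omega⟩
  have h2 : f^[n] x = x := by
    have := h1 (n + 1)
    rw [hj, hstable] at this
    exact this
  have h3 : f x = x := by
    have e1 : f^[n + 1] x = x := by rw [← hn]; exact h2
    have e2 : f^[n + 1] x = f^[n] (f x) := Function.iterate_succ_apply f n x
    have e3 : f^[n + 1 + j] x = f x := by
      have : n + 1 + j = 1 + (n + j) := by omega
      rw [this, Function.iterate_add_apply, ← hj, h1 (n + 1)]
      rfl
    have e4 : f^[n + 1 + j] = f^[n] := by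
      rw [show n + 1 + j = n + (1 + j) by omega]
      exact hstable _
    rw [e4] at e3
    rw [← e3]
    exact h2
  have h4 : run (sinkAt δ v) x u ≠ v := by
    have : run (sinkAt δ v) x u = x := h3
    rw [this]; exact hx
  rw [run_eq_of_sink_ne u x h4]
  exact h3

variable (δ : A → Q → Q) (Y : A → Prop) [DecidablePred Y] (q : Q) (n : ℕ)

/-- The number of letters of `Y` read at `q`. -/
def vc (s : Q) : List A → ℕ
  | [] => 0
  | a :: w => (if Y a ∧ s = q then 1 else 0) + vc (δ a s) w

@[simp] theorem vc_nil (s : Q) : vc δ Y q s [] = 0 := rfl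

theorem vc_cons (s : Q) (a : A) (w : List A) :
    vc δ Y q s (a :: w) = (if Y a ∧ s = q then 1 else 0) + vc δ Y q (δ a s) w := rfl

theorem vc_append (s : Q) (u w : List A) :
    vc δ Y q s (u ++ w) = vc δ Y q s u + vc δ Y q (run δ s u) w := by
  induction u generalizing s with
  | nil => simp
  | cons a u ih =>
    rw [List.cons_append, vc_cons, ih, vc_cons, run_cons]
    omega

/-- The transition function of the machine with a counter of the letters of `Y` read at `q`. -/
def cntStep (a : A) (s : Q × ZMod n) : Q × ZMod n :=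
  (δ a s.1, if Y a ∧ s.1 = q then s.2 + 1 else s.2)

theorem run_cnt (s : Q) (U : ZMod n) (w : List A) :
    run (cntStep δ Y q n) (s, U) w = (run δ s w, U + (vc δ Y q s w : ZMod n)) := by
  induction w generalizing s U with
  | nil => simp
  | cons a w ih =>
    rw [run_cons]
    have e : cntStep δ Y q n a (s, U) = (δ a s, if Y a ∧ s = q then U + 1 else U) := rfl
    rw [e, ih, vc_cons, run_cons]
    apply Prod.ext
    · rfl
    · by_cases h : Y a ∧ s = q
      · simp only [h, and_self, if_true]
        push_cast
        ring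
      · simp only [h, if_false]
        push_cast
        ring

variable {δ Y q}

theorem run_stay (hY : ∀ a, ¬ Y a → ∀ s, δ a s = s) (w : List A) (h : vc δ Y q q w = 0) :
    run δ q w = q := by
  induction w with
  | nil => rfl
  | cons a w ih =>
    rw [vc_cons] at h
    have h1 : ¬ Y a := by
      intro hYa
      simp [hYa] at h
    rw [run_cons, hY a h1]
    apply ih
    rw [hY a h1] at h
    simp only [h1, false_and, if_false, zero_add] at h
    exact h

theorem run_sink_of_vc (hY : ∀ a, ¬ Y a → ∀ s, δ a s = s) (w : List A) (s : Q)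
    (h : vc δ Y q s w = 0) : run (sinkAt δ q) s w = run δ s w := by
  induction w generalizing s with
  | nil => rfl
  | cons a w ih =>
    by_cases hs : s = q
    · subst hs
      rw [run_sink_hub, run_stay hY _ h]
    · rw [run_cons, run_cons, sinkAt_of_ne hs]
      rw [vc_cons] at h
      simp only [hs, and_false, if_false, zero_add] at h
      exact ih _ h

theorem exists_prefix_vc (w : List A) (s : Q) (r : ℕ) (h : r < vc δ Y q s w) :
    ∃ w₁ w₂, w = w₁ ++ w₂ ∧ run δ s w₁ = q ∧ vc δ Y q s w₁ = r := by
  induction w generalizing s r with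
  | nil => simp at h
  | cons a w ih =>
    rw [vc_cons] at h
    by_cases hc : Y a ∧ s = q
    · rw [if_pos hc] at h
      rcases r with _ | r
      · exact ⟨[], a :: w, rfl, hc.2, rfl⟩
      · obtain ⟨w₁, w₂, e, h1, h2⟩ := ih (δ a s) r (by omega)
        refine ⟨a :: w₁, w₂, by simp [e], by simpa using h1, ?_⟩
        rw [vc_cons, h2, if_pos hc]
        omega
    · simp only [hc, if_false, zero_add] at h
      obtain ⟨w₁, w₂, e, h1, h2⟩ := ih (δ a s) r h
      refine ⟨a :: w₁, w₂, by simp [e], by simpa using h1, ?_⟩
      rw [vc_cons, h2]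
      simp only [hc, if_false, zero_add]

theorem vc_rep_closed {u : List A} {s : Q} (hs : run δ s u = s) (j : ℕ) :
    vc δ Y q s (rep u j) = j * vc δ Y q s u := by
  have hr : ∀ i, run δ s (rep u i) = s := by
    intro i
    induction i with
    | zero => rfl
    | succ i ih => rw [rep, run_append, hs, ih]
  induction j with
  | zero => simp [rep]
  | succ j ih =>
    rw [rep, vc_append, hs, ih]
    ring

/-- **Counting the visits of a hub.**  If `q` is a hub and the letters outside `Y` act trivially,
a counter of the letters of `Y` read at `q` gives a hub `(q, 0)`, for every modulus. -/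
theorem cnt_isHub [Finite Q] [NeZero n] (hv : IsHub δ q) (hY : ∀ a, ¬ Y a → ∀ s, δ a s = s) :
    IsHub (cntStep δ Y q n) (q, (0 : ZMod n)) := by
  refine isHub_of_closed ?_
  rintro u ⟨s, U⟩ hx m hm hcl
  have hne := run_ne_of_closed hx hm hcl
  have hW : run (cntStep δ Y q n) (s, U) (rep u m) = (s, U) := by
    have h0 := hne m (rep u m) [] (by simp)
    have := run_eq_of_sink_ne (rep u m) (s, U) (by rw [hcl]; exact hx)
    rw [this, hcl]
  rw [run_cnt] at hW
  have hW1 : run δ s (rep u m) = s := congrArg Prod.fst hW
  by_cases hz : vc δ Y q s (rep u m) = 0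
  · obtain ⟨m', rfl⟩ : ∃ m', m = m' + 1 := ⟨m - 1, by omega⟩
    have hz' : vc δ Y q s u = 0 := by
      rw [rep, vc_append] at hz
      omega
    have hbase : run δ s u = s := by
      by_cases hs : s = q
      · subst hs
        exact run_stay hY u hz'
      · refine run_eq_of_closed_of_isHub hv hs (Nat.succ_pos m') ?_
        rw [run_sink_of_vc hY _ _ hz, hW1]
    rw [run_cnt, hbase, hz']
    simp
  · exfalso
    have hclosed : ∀ j, run δ s (rep u (m * j)) = s := by
      intro j
      induction j with
      | zero => rfl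
      | succ j ih => rw [Nat.mul_succ, rep_add, run_append, ih, hW1]
    let r : ℕ := (-U).val
    have hr : U + (r : ZMod n) = 0 := by
      simp [r]
    have hlt : r < vc δ Y q s (rep u (m * (r + 1))) := by
      have hk : 0 < vc δ Y q s (rep u m) := Nat.pos_of_ne_zero hz
      have e : ∀ j, vc δ Y q s (rep u (m * j)) = j * vc δ Y q s (rep u m) := by
        intro j
        induction j with
        | zero => simp [rep]
        | succ j ih =>
          rw [Nat.mul_succ, rep_add, vc_append, hclosed, ih]
          ring
      rw [e]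
      have : (r + 1) * 1 ≤ (r + 1) * vc δ Y q s (rep u m) := Nat.mul_le_mul_left _ hk
      omega
    obtain ⟨w₁, w₂, e, h1, h2⟩ := exists_prefix_vc _ s r hlt
    refine hne (m * (r + 1)) w₁ w₂ e ?_
    rw [run_cnt, h1, h2, hr]

end Counter

section Mono

variable {A : Type} {p : ℕ} [Fact p.Prime] {α : A → ZMod p} {c : A → ZMod p → ZMod p}

/-- The number of letters with step `1`. -/
def mcount (α : A → ZMod p) : List A → ℕ
  | [] => 0
  | a :: w => (if α a = 0 then 0 else 1) + mcount α w

theorem jd_eq_mcount (hα : ∀ a, α a = 0 ∨ α a = 1) (w : List A) :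
    jd α w = (mcount α w : ZMod p) := by
  induction w with
  | nil => simp [mcount]
  | cons a w ih =>
    rw [jd_cons, ih, mcount]
    rcases hα a with h | h
    · simp [h]
    · have h1 : (1 : ZMod p) ≠ 0 := one_ne_zero
      simp [h, h1]

theorem exists_prefix_mcount (w : List A) (j : ℕ) (hj : j ≤ mcount α w) :
    ∃ w₁ w₂, w = w₁ ++ w₂ ∧ mcount α w₁ = j := by
  induction w generalizing j with
  | nil =>
    refine ⟨[], [], rfl, ?_⟩
    simp only [mcount] at hj ⊢
    omega
  | cons a w ih =>
    rcases j with _ | j
    · exact ⟨[], a :: w, rfl, rfl⟩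
    · rw [mcount] at hj
      by_cases h : α a = 0
      · simp only [h, if_true, zero_add] at hj
        obtain ⟨w₁, w₂, e, h1⟩ := ih (j + 1) hj
        refine ⟨a :: w₁, w₂, by simp [e], ?_⟩
        simp [mcount, h, h1]
      · simp only [h, if_false] at hj
        obtain ⟨w₁, w₂, e, h1⟩ := ih j (by omega)
        refine ⟨a :: w₁, w₂, by simp [e], ?_⟩
        simp only [mcount, h, if_false, h1]
        omega

theorem jc_eq_zero_of_mcount (hc : ∀ a z, α a = 0 → c a z = 0) (w : List A) (z : ZMod p)
    (h : mcount α w = 0) : jc α c z w = 0 := by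
  induction w generalizing z with
  | nil => rfl
  | cons a w ih =>
    rw [mcount] at h
    by_cases ha : α a = 0
    · simp only [ha, if_true, zero_add] at h
      rw [jc_cons, hc a z ha, ih _ h, add_zero]
    · simp [ha] at h

/-- A closed walk with nonzero weight passes through every point. -/
theorem exists_prefix_mono (hα : ∀ a, α a = 0 ∨ α a = 1) (hc : ∀ a z, α a = 0 → c a z = 0)
    (k : ZMod p) (u : List A) (z : ZMod p) (hl : jd α u = 0) (h : jc α c z u ≠ 0) :
    ∃ w₁ w₂, u = w₁ ++ w₂ ∧ z + jd α w₁ = k := by
  have hpos : mcount α u ≠ 0 := fun h0 => h (jc_eq_zero_of_mcount hc u z h0)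
  have hdvd : p ∣ mcount α u := by
    rw [jd_eq_mcount hα] at hl
    exact (ZMod.natCast_eq_zero_iff _ _).1 hl
  have hle : p ≤ mcount α u := Nat.le_of_dvd (Nat.pos_of_ne_zero hpos) hdvd
  have hval : (k - z).val < p := ZMod.val_lt _
  obtain ⟨w₁, w₂, e, h1⟩ := exists_prefix_mcount (α := α) u (k - z).val (by omega)
  refine ⟨w₁, w₂, e, ?_⟩
  rw [jd_eq_mcount hα, h1, ZMod.natCast_zmod_val]
  ring

/-- **Walks with steps `0, 1`.**  A counter which moves only at the letters of step `1`, with total
weight `κ ≠ 0` of each such letter: every point of the machine is a hub. -/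
theorem mono_isHub {κ : ZMod p} (hκ : κ ≠ 0) (k t : ZMod p) (hα : ∀ a, α a = 0 ∨ α a = 1)
    (hc : ∀ a z, α a = 0 → c a z = 0) (h2 : ∀ a, ∑ z, c a z = κ * α a) :
    IsHub (jmpStep α c) (k, t) := by
  refine isHub_of_closed ?_
  rintro u ⟨z, T⟩ hx m hm hcl
  have hne := run_ne_of_closed hx hm hcl
  by_cases hl : jd α u = 0
  · by_cases hf : jc α c z u = 0
    · rw [run_jmp, hl, hf]
      simp
    · exfalso
      obtain ⟨w₁, w₂, e, hw⟩ := exists_prefix_mono hα hc k u z hl hf
      let n : ℕ := ((t - T - jc α c z w₁) / jc α c z u).val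
      have hn : (n : ZMod p) = (t - T - jc α c z w₁) / jc α c z u := ZMod.natCast_zmod_val _
      refine hne (n + 1) (rep u n ++ w₁) w₂ ?_ ?_
      · rw [rep_add, rep_one, List.append_assoc, ← e]
      · rw [run_jmp, jd_append, jd_rep, hl, jc_append, jc_rep_closed hl, jd_rep, hl, hn]
        simp only [mul_zero, add_zero, zero_add]
        apply Prod.ext
        · exact hw
        · simp only []
          field_simp
          ring
  · exfalso
    let i₀ : ℕ := ((k - z) / jd α u).val
    have hi : (i₀ : ZMod p) = (k - z) / jd α u := ZMod.natCast_zmod_val _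
    have hz : z + (i₀ : ZMod p) * jd α u = k := by
      rw [hi]
      field_simp
      ring
    have hκl : κ * jd α u ≠ 0 := mul_ne_zero hκ hl
    let j : ℕ := ((t - T - jc α c z (rep u i₀)) / (κ * jd α u)).val
    have hj : (j : ZMod p) = (t - T - jc α c z (rep u i₀)) / (κ * jd α u) :=
      ZMod.natCast_zmod_val _
    refine hne (i₀ + p * j) (rep u (i₀ + p * j)) [] (by simp) ?_
    rw [run_jmp, rep_add, jd_append, jd_rep, jd_rep, jc_append, jd_rep, jc_rep_p_mul h2 u hl, hj]
    have hp0 : ((p * j : ℕ) : ZMod p) = 0 := by simp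
    rw [hp0, zero_mul, add_zero, hz]
    apply Prod.ext
    · rfl
    · simp only []
      field_simp
      ring

end Mono

end Vale.Agent.Lib.P329
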