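import Vale.Agent.Lib.P329.Inner
import Vale.Agent.Lib.P329.FlowPoly
import Vale.Agent.Lib.P329.Counts

/-!
Flows over a letter outside the moving set, of a function of the state of a walk with steps `0, 1`
together with a counter.  The removal of the carry gives double flows.
-/

namespace Vale.Agent.Lib.P329

section TopFlow

variable {A Q R : Type} [DecidableEq A] [DecidableEq Q]

/-- The sum of `g` of the state over the positions of `y`. -/
def tf [AddMonoid R] (δ : A → Q → Q) (y : A) (g : Q → R) (s : Q) : List A → R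
  | [] => 0
  | a :: w => (if a = y then g s else 0) + tf δ y g (δ a s) w

theorem tf_snoc [AddMonoid R] (δ : A → Q → Q) (y : A) (g : Q → R) (s : Q) (w : List A) (a : A) :
    tf δ y g s (w ++ [a]) = tf δ y g s w + (if a = y then g (run δ s w) else 0) := by
  induction w generalizing s with
  | nil => simp [tf]
  | cons b w ih =>
    simp only [List.cons_append, tf, ih, run_cons, add_assoc]

variable [Fintype Q] {n : ℕ} {S : A → Prop} [DecidablePred S]

theorem tf_eq_sum (δ : A → Q → Q) (y : A) (hy : ¬ S y) (g : Q → ZMod n) (s : Q) (w : List A) :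
    tf δ y g s w = ∑ q, g q * (((vc δ (fun a => S a ∨ a = y) q s w : ℕ) : ZMod n) -
      ((vc δ S q s w : ℕ) : ZMod n)) := by
  induction w generalizing s with
  | nil => simp [tf]
  | cons a w ih =>
    rw [tf, ih]
    simp only [vc_cons]
    have key : ∀ q, g q * ((((if (S a ∨ a = y) ∧ s = q then 1 else 0) +
        vc δ (fun a => S a ∨ a = y) q (δ a s) w : ℕ) : ZMod n) -
        (((if S a ∧ s = q then 1 else 0) + vc δ S q (δ a s) w : ℕ) : ZMod n)) =
        (if q = s then (if a = y then g s else 0) else 0) +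
        g q * (((vc δ (fun a => S a ∨ a = y) q (δ a s) w : ℕ) : ZMod n) -
          ((vc δ S q (δ a s) w : ℕ) : ZMod n)) := by
      intro q
      by_cases hq : q = s
      · subst hq
        by_cases ha : a = y
        · subst ha
          simp [hy]
          ring
        · by_cases hS : S a
          · simp [hS, ha]
          · simp [hS, ha]
      · have hq' : ¬ s = q := fun e => hq e.symm
        simp [hq, hq']
    rw [Finset.sum_congr rfl (fun q _ => key q), Finset.sum_add_distrib]
    congr 1
    rw [Finset.sum_ite_eq' Finset.univ s]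
    simp

variable [Finite A]

theorem good_vc [NeZero n] {δ : A → Q → Q} {Y : A → Prop} [DecidablePred Y] {q : Q}
    (hq : IsHub δ q) (hY : ∀ a, ¬ Y a → ∀ s, δ a s = s) (s : Q) :
    Good (fun w => ((vc δ Y q s w : ℕ) : ZMod n)) := by
  have hv := cnt_isHub n hq hY
  have h : Good (fun w : List A => run (cntStep δ Y q n) (s, (0 : ZMod n)) w) :=
    fun b => hub_path hv _ b
  refine Good.of_factor (h.comp Prod.snd) (fun w w' e => ?_)
  simpa [run_cnt] using e

/-- Flows over a letter outside the moving set. -/
theorem good_tf [NeZero n] {δ : A → Q → Q} (hq : ∀ q, IsHub δ q) (hS : ∀ a, ¬ S a → ∀ s, δ a s = s)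
    {y : A} (hy : ¬ S y) (g : Q → ZMod n) (s : Q) : Good (tf δ y g s) := by
  have e : tf δ y g s = fun w => ∑ q, g q * (((vc δ (fun a => S a ∨ a = y) q s w : ℕ) : ZMod n) -
      ((vc δ S q s w : ℕ) : ZMod n)) := by
    funext w
    exact tf_eq_sum δ y hy g s w
  rw [e]
  refine Good.finset_sum _ (fun q _ => ?_)
  refine (Good.const _).mul (Good.sub ?_ ?_)
  · refine good_vc (hq q) (fun a ha s => hS a (fun h => ha (Or.inl h)) s) s
  · exact good_vc (hq q) hS s

end TopFlow

section Machine

variable {A : Type} [DecidableEq A] {p : ℕ} [Fact p.Prime]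

/-- The steps of the walk. -/
def al (L : List A) (a : A) : ZMod p := if a ∈ L then 1 else 0

/-- The weights of the counter: a carry at `0`, and a function of zero sum. -/
def cw (L : List A) (h : A → ZMod p → ZMod p) (a : A) (z : ZMod p) : ZMod p :=
  if a ∈ L then (if z = 0 then 1 else 0) + h a z else 0

theorem sum_cw (L : List A) {h : A → ZMod p → ZMod p} (hh : ∀ a, ∑ z, h a z = 0) (a : A) :
    ∑ z, cw L h a z = 1 * al L a := by
  unfold cw al
  by_cases ha : a ∈ L
  · simp [ha, Finset.sum_add_distrib, hh]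
  · simp [ha]

theorem mach_isHub (L : List A) {h : A → ZMod p → ZMod p} (hh : ∀ a, ∑ z, h a z = 0)
    (q : ZMod p × ZMod p) : IsHub (jmpStep (al L) (cw L h)) q := by
  obtain ⟨k, t⟩ := q
  refine mono_isHub one_ne_zero k t (fun a => ?_) (fun a z ha => ?_) (sum_cw L hh)
  · unfold al
    by_cases h' : a ∈ L
    · right; simp [h']
    · left; simp [h']
  · unfold cw
    unfold al at ha
    by_cases h' : a ∈ L
    · simp [h'] at ha
    · simp [h']

theorem mach_fix (L : List A) (h : A → ZMod p → ZMod p) (a : A) (ha : ¬ a ∈ L)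
    (s : ZMod p × ZMod p) : jmpStep (al L) (cw L h) a s = s := by
  obtain ⟨z, T⟩ := s
  simp [jmpStep, al, cw, ha]

/-- The position of the walk. -/
def xpos (L : List A) (w : List A) : ZMod p := jd (al L) w

/-- The counter of the machine. -/
def tcnt (L : List A) (h : A → ZMod p → ZMod p) (w : List A) : ZMod p := jc (al L) (cw L h) 0 w

theorem run_mach (L : List A) (h : A → ZMod p → ZMod p) (w : List A) :
    run (jmpStep (al L) (cw L h)) ((0 : ZMod p), (0 : ZMod p)) w =
      ((xpos L w : ZMod p), (tcnt L h w : ZMod p)) := by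
  rw [run_jmp]
  simp [xpos, tcnt]

theorem xpos_snoc (L : List A) (w : List A) (a : A) :
    (xpos L (w ++ [a]) : ZMod p) = xpos L w + al L a := by
  simp [xpos, jd_append]

theorem tcnt_snoc (L : List A) (h : A → ZMod p → ZMod p) (w : List A) (a : A) :
    tcnt L h (w ++ [a]) = tcnt L h w + cw L h a (xpos L w) := by
  simp [tcnt, xpos, jc_append]

/-- The inner flow, with the carry removed. -/
def inn (L : List A) (h : A → ZMod p → ZMod p) (w : List A) : ZMod p :=
  tcnt L h w - tcnt L (fun _ _ => 0) w

theorem inn_snoc (L : List A) (h : A → ZMod p → ZMod p) (w : List A) (a : A) :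
    inn L h (w ++ [a]) = inn L h w + if a ∈ L then h a (xpos L w) else 0 := by
  unfold inn
  rw [tcnt_snoc, tcnt_snoc]
  unfold cw
  by_cases ha : a ∈ L
  · simp only [ha, if_true]
    ring
  · simp only [ha, if_false]
    ring

/-- The double flow. -/
def dfl (L : List A) (y : A) (h : A → ZMod p → ZMod p) (Q : ZMod p → ZMod p) (w : List A) :
    ZMod p :=
  tf (jmpStep (al L) (cw L h)) y (fun q => Q q.1 * q.2) ((0 : ZMod p), (0 : ZMod p)) w -
    tf (jmpStep (al L) (cw L (fun _ _ => 0))) y (fun q => Q q.1 * q.2)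
      ((0 : ZMod p), (0 : ZMod p)) w

theorem dfl_snoc (L : List A) (y : A) (h : A → ZMod p → ZMod p) (Q : ZMod p → ZMod p) (w : List A)
    (a : A) : dfl L y h Q (w ++ [a]) =
      dfl L y h Q w + if a = y then Q (xpos L w) * inn L h w else 0 := by
  unfold dfl
  rw [tf_snoc, tf_snoc, run_mach, run_mach]
  by_cases ha : a = y
  · simp only [ha, if_true, inn]
    ring
  · simp only [ha, if_false]
    ring

theorem good_dfl [Finite A] (L : List A) {y : A} (hy : ¬ y ∈ L) {h : A → ZMod p → ZMod p}
    (hh : ∀ a, ∑ z, h a z = 0) (Q : ZMod p → ZMod p) : Good (dfl L y h Q) := by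
  have h0 : ∀ a : A, ∑ z : ZMod p, (fun (_ : A) (_ : ZMod p) => (0 : ZMod p)) a z = 0 := by
    intro a; simp
  refine Good.sub ?_ ?_
  · exact good_tf (S := fun a => a ∈ L) (mach_isHub L hh) (mach_fix L h) hy _ _
  · exact good_tf (S := fun a => a ∈ L) (mach_isHub L h0) (mach_fix L _) hy _ _

end Machine

end Vale.Agent.Lib.P329
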