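import Vale.Agent.Lib.P329.Vis

/-!
Walks on `ZMod p`, `p` prime, with arbitrary steps, and a counter in `ZMod p` which moves only next
to one point `k` of the walk, with total weight proportional to the step of each letter.  Every
point `(k, t)` is a hub of this automaton.
-/

namespace Vale.Agent.Lib.P329

section Prefix

variable {A Q : Type}

theorem rep_add (u : List A) (a b : ℕ) : rep u (a + b) = rep u a ++ rep u b := by
  induction a with
  | zero => simp [rep]
  | succ a ih =>
    rw [Nat.succ_add]
    simp [rep, ih]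

theorem rep_one (u : List A) : rep u 1 = u := by simp [rep]

variable [DecidableEq Q] {δ : A → Q → Q} {v : Q}

/-- A closed repeated run in the sink automaton avoids the hub, also inside its blocks. -/
theorem run_ne_of_closed {u : List A} {x : Q} (hx : x ≠ v) {m : ℕ} (hm : 0 < m)
    (hcl : run (sinkAt δ v) x (rep u m) = x) (n : ℕ) (w₁ w₂ : List A) (h : rep u n = w₁ ++ w₂) :
    run δ x w₁ ≠ v := by
  intro hv
  have h1 : ∀ j, run (sinkAt δ v) x (rep u (m * j)) = x := by
    intro j
    induction j with
    | zero => rfl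
    | succ j ih =>
      rw [Nat.mul_succ, rep_add, run_append, ih, hcl]
  obtain ⟨s, hs⟩ : ∃ s, m * n = n + s := ⟨m * n - n, by
    have : n ≤ m * n := Nat.le_mul_of_pos_left n hm
    omega⟩
  have h2 := h1 n
  rw [hs, rep_add, h, List.append_assoc, run_append] at h2
  have h3 : run (sinkAt δ v) x w₁ = v := by
    by_contra hne
    have := run_eq_of_sink_ne w₁ x hne
    rw [hv] at this
    exact hne this.symm
  rw [h3, run_sink_hub] at h2
  exact hx h2.symm

end Prefix

section Jump

variable {A : Type} {p : ℕ} [Fact p.Prime] (α : A → ZMod p) (c : A → ZMod p → ZMod p)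

/-- The transition function of the jump machine. -/
def jmpStep (a : A) (q : ZMod p × ZMod p) : ZMod p × ZMod p := (q.1 + α a, q.2 + c a q.1)

/-- The displacement of a word. -/
def jd (w : List A) : ZMod p := (w.map α).sum

/-- The sum of the weights along a word. -/
def jc : ZMod p → List A → ZMod p
  | _, [] => 0
  | z, a :: w => c a z + jc (z + α a) w

@[simp] theorem jd_nil : jd α ([] : List A) = 0 := rfl
@[simp] theorem jd_cons (a : A) (w : List A) : jd α (a :: w) = α a + jd α w := by simp [jd]
@[simp] theorem jc_nil (z : ZMod p) : jc α c z [] = 0 := rfl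
@[simp] theorem jc_cons (z : ZMod p) (a : A) (w : List A) :
    jc α c z (a :: w) = c a z + jc α c (z + α a) w := rfl

theorem run_jmp (z T : ZMod p) (w : List A) :
    run (jmpStep α c) (z, T) w = (z + jd α w, T + jc α c z w) := by
  induction w generalizing z T with
  | nil => simp
  | cons a w ih =>
    rw [run_cons]
    have e : jmpStep α c a (z, T) = (z + α a, T + c a z) := rfl
    rw [e, ih]
    simp only [jd_cons, jc_cons]
    apply Prod.ext
    · simp only []; ring
    · simp only []; ring

theorem jd_append (u w : List A) : jd α (u ++ w) = jd α u + jd α w := by simp [jd]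

theorem jc_append (z : ZMod p) (u w : List A) :
    jc α c z (u ++ w) = jc α c z u + jc α c (z + jd α u) w := by
  induction u generalizing z with
  | nil => simp
  | cons a u ih =>
    simp only [List.cons_append, jc_cons, ih, jd_cons, add_assoc]

theorem jd_rep (u : List A) (n : ℕ) : jd α (rep u n) = (n : ZMod p) * jd α u := by
  induction n with
  | zero => simp [rep]
  | succ n ih =>
    rw [rep, jd_append, ih]
    push_cast
    ring

theorem jc_rep_sum (z : ZMod p) (u : List A) (n : ℕ) :
    jc α c z (rep u n) = ∑ i ∈ Finset.range n, jc α c (z + (i : ZMod p) * jd α u) u := by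
  induction n with
  | zero => simp [rep]
  | succ n ih =>
    rw [rep_add, rep_one, jc_append, ih, jd_rep, Finset.sum_range_succ]

variable {α c}

theorem sum_jc {κ : ZMod p} (h2 : ∀ a, ∑ z, c a z = κ * α a) (u : List A) :
    ∑ z, jc α c z u = κ * jd α u := by
  induction u with
  | nil => simp
  | cons a u ih =>
    simp only [jc_cons, Finset.sum_add_distrib, h2, jd_cons]
    have := Equiv.sum_comp (Equiv.addRight (α a)) (fun y => jc α c y u)
    simp only [Equiv.coe_addRight] at this
    rw [this, ih]
    ring

theorem cast_injOn_range {i j : ℕ} (hi : i < p) (hj : j < p)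
    (h : (i : ZMod p) = (j : ZMod p)) : i = j := by
  rw [ZMod.natCast_eq_natCast_iff'] at h
  rwa [Nat.mod_eq_of_lt hi, Nat.mod_eq_of_lt hj] at h

theorem sum_range_add_mul {R : Type} [AddCommMonoid R] (z l : ZMod p) (hl : l ≠ 0)
    (f : ZMod p → R) :
    ∑ i ∈ Finset.range p, f (z + (i : ZMod p) * l) = ∑ y, f y := by
  classical
  have hinj : Set.InjOn (fun i : ℕ => z + (i : ZMod p) * l) (Finset.range p : Set ℕ) := by
    intro i hi j hj h
    have h' : (i : ZMod p) * l = (j : ZMod p) * l := add_left_cancel h
    have h'' := mul_right_cancel₀ hl h'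
    exact cast_injOn_range (by simpa using hi) (by simpa using hj) h''
  have himg : (Finset.range p).image (fun i : ℕ => z + (i : ZMod p) * l) = Finset.univ := by
    apply Finset.eq_univ_of_card
    rw [Finset.card_image_of_injOn hinj, Finset.card_range, ZMod.card]
  rw [← himg, Finset.sum_image hinj]

theorem jc_rep_p {κ : ZMod p} (h2 : ∀ a, ∑ z, c a z = κ * α a) (u : List A) (hl : jd α u ≠ 0)
    (z : ZMod p) : jc α c z (rep u p) = κ * jd α u := by
  rw [jc_rep_sum, sum_range_add_mul z _ hl (fun y => jc α c y u), sum_jc h2]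

theorem jc_rep_p_mul {κ : ZMod p} (h2 : ∀ a, ∑ z, c a z = κ * α a) (u : List A)
    (hl : jd α u ≠ 0) (z : ZMod p) (j : ℕ) :
    jc α c z (rep u (p * j)) = (j : ZMod p) * (κ * jd α u) := by
  induction j with
  | zero => simp [rep]
  | succ j ih =>
    rw [Nat.mul_succ, rep_add, jc_append, ih, jd_rep]
    have hp0 : ((p * j : ℕ) : ZMod p) = 0 := by simp
    rw [hp0, zero_mul, add_zero, jc_rep_p h2 u hl]
    push_cast
    ring

theorem jc_rep_closed {u : List A} (hl : jd α u = 0) (z : ZMod p) (n : ℕ) :
    jc α c z (rep u n) = (n : ZMod p) * jc α c z u := by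
  rw [jc_rep_sum]
  simp [hl]

/-- If the weights along a word do not vanish, the word passes through `k`. -/
theorem exists_prefix (k : ZMod p) (h1 : ∀ a z, c a z ≠ 0 → z = k ∨ z + α a = k) (u : List A)
    (z : ZMod p) (h : jc α c z u ≠ 0) :
    ∃ w₁ w₂, u = w₁ ++ w₂ ∧ z + jd α w₁ = k := by
  induction u generalizing z with
  | nil => simp at h
  | cons a u ih =>
    rw [jc_cons] at h
    by_cases hc : c a z = 0
    · rw [hc, zero_add] at h
      obtain ⟨w₁, w₂, e, hw⟩ := ih _ h
      refine ⟨a :: w₁, w₂, by simp [e], ?_⟩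
      rw [jd_cons, ← add_assoc]
      exact hw
    · rcases h1 a z hc with hz | hz
      · exact ⟨[], a :: u, rfl, by simpa using hz⟩
      · exact ⟨[a], u, rfl, by simpa using hz⟩

/-- **Jump machines have a hub.** -/
theorem jmp_isHub {κ : ZMod p} (hκ : κ ≠ 0) (k t : ZMod p)
    (h1 : ∀ a z, c a z ≠ 0 → z = k ∨ z + α a = k) (h2 : ∀ a, ∑ z, c a z = κ * α a) :
    IsHub (jmpStep α c) (k, t) := by
  refine isHub_of_closed ?_
  rintro u ⟨z, T⟩ hx m hm hcl
  have hne := run_ne_of_closed hx hm hcl
  by_cases hl : jd α u = 0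
  · by_cases hf : jc α c z u = 0
    · rw [run_jmp, hl, hf]
      simp
    · exfalso
      obtain ⟨w₁, w₂, e, hw⟩ := exists_prefix k h1 u z hf
      let n : ℕ := ((t - T - jc α c z w₁) / jc α c z u).val
      have hn : (n : ZMod p) = (t - T - jc α c z w₁) / jc α c z u := ZMod.natCast_zmod_val _
      refine hne (n + 1) (rep u n ++ w₁) w₂ ?_ ?_
      · rw [rep_add, rep_one, List.append_assoc, ← e]
      · rw [run_jmp, jd_append, jd_rep, hl, jc_append, jc_rep_closed hl, jd_rep, hl, hn]
        simp only [mul_zero, add_zero, zero_add]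
        apply Prod.ext
        · exact hw
        · simp only []
          field_simp
          ring
  · exfalso
    let i₀ : ℕ := ((k - z) / jd α u).val
    have hi : (i₀ : ZMod p) = (k - z) / jd α u := ZMod.natCast_zmod_val _
    have hz : z + (i₀ : ZMod p) * jd α u = k := by
      rw [hi]
      field_simp
      ring
    have hκl : κ * jd α u ≠ 0 := mul_ne_zero hκ hl
    let j : ℕ := ((t - T - jc α c z (rep u i₀)) / (κ * jd α u)).val
    have hj : (j : ZMod p) = (t - T - jc α c z (rep u i₀)) / (κ * jd α u) :=
      ZMod.natCast_zmod_val _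
    refine hne (i₀ + p * j) (rep u (i₀ + p * j)) [] (by simp) ?_
    rw [run_jmp, rep_add, jd_append, jd_rep, jd_rep, jc_append, jd_rep, jc_rep_p_mul h2 u hl, hj]
    have hp0 : ((p * j : ℕ) : ZMod p) = 0 := by simp
    rw [hp0, zero_mul, add_zero, hz]
    apply Prod.ext
    · rfl
    · simp only []
      field_simp
      ring

theorem good_jc [Finite A] {κ : ZMod p} (hκ : κ ≠ 0) (k : ZMod p)
    (h1 : ∀ a z, c a z ≠ 0 → z = k ∨ z + α a = k) (h2 : ∀ a, ∑ z, c a z = κ * α a)
    (z : ZMod p) : Good (fun w : List A => jc α c z w) := by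
  have hv := jmp_isHub hκ k 0 h1 h2
  have h : Good (fun w : List A => run (jmpStep α c) (z, 0) w) := fun b => hub_path hv _ b
  have h3 := h.comp Prod.snd
  refine Good.of_factor h3 (fun w w' e => ?_)
  simpa [run_jmp] using e

end Jump

end Vale.Agent.Lib.P329
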