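import Vale.Agent.Lib.P329.Jump
import Vale.Agent.Lib.P329.FlowPoly

/-!
Modulo a prime `p`, flows of all polynomials of degree at most `p - 2` in the count vector are
good, through every letter.
-/

namespace Vale.Agent.Lib.P329

section JumpFlow

open Classical

variable {A : Type} [Fintype A] {p : ℕ} [Fact p.Prime]

/-- Sum of `P` over the positions of `x`, with start vector `k`, modulo `p`. -/
noncomputable def flowPFrom (x : A) (P : (A → ℕ) → ZMod p) : (A → ℕ) → List A → ZMod p
  | _, [] => 0
  | k, a :: w => (if a = x then P k else 0) + flowPFrom x P (bump k a) w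

/-- Sum of `P` over the positions of `x`, modulo `p`. -/
noncomputable def flowP (x : A) (P : (A → ℕ) → ZMod p) (w : List A) : ZMod p :=
  flowPFrom x P (fun _ => 0) w

/-- The flow of `P` through `x` modulo `p` is good. -/
def GP (x : A) (P : (A → ℕ) → ZMod p) : Prop := Good (flowP x P)

theorem flowPFrom_add (x : A) (P Q : (A → ℕ) → ZMod p) (k : A → ℕ) (w : List A) :
    flowPFrom x (fun k => P k + Q k) k w = flowPFrom x P k w + flowPFrom x Q k w := by
  induction w generalizing k with
  | nil => simp [flowPFrom]
  | cons a w ih =>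
    simp only [flowPFrom, ih]
    by_cases h : a = x
    · simp only [h, if_true]; ring
    · simp only [h, if_false]; ring

theorem flowPFrom_mul (x : A) (c : ZMod p) (P : (A → ℕ) → ZMod p) (k : A → ℕ) (w : List A) :
    flowPFrom x (fun k => c * P k) k w = c * flowPFrom x P k w := by
  induction w generalizing k with
  | nil => simp [flowPFrom]
  | cons a w ih =>
    simp only [flowPFrom, ih]
    by_cases h : a = x
    · simp only [h, if_true]; ring
    · simp only [h, if_false]; ring

theorem flowPFrom_zero (x : A) (k : A → ℕ) (w : List A) :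
    flowPFrom x (fun _ => (0 : ZMod p)) k w = 0 := by
  induction w generalizing k with
  | nil => rfl
  | cons a w ih => simp [flowPFrom, ih]

namespace GP

variable {x : A} {P Q : (A → ℕ) → ZMod p}

theorem congr (h : GP x P) (e : ∀ k, P k = Q k) : GP x Q := by
  have : P = Q := funext e
  rwa [← this]

theorem zero : GP x (fun _ => (0 : ZMod p)) := by
  have : flowP x (fun _ => (0 : ZMod p)) = fun _ => 0 := by
    funext w; exact flowPFrom_zero x _ w
  unfold GP
  rw [this]
  exact Good.const _

theorem add (hP : GP x P) (hQ : GP x Q) : GP x (fun k => P k + Q k) := by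
  have : flowP x (fun k => P k + Q k) = fun w => flowP x P w + flowP x Q w := by
    funext w; exact flowPFrom_add x P Q _ w
  unfold GP
  rw [this]
  exact Good.add hP hQ

theorem mul (c : ZMod p) (hP : GP x P) : GP x (fun k => c * P k) := by
  have : flowP x (fun k => c * P k) = fun w => c * flowP x P w := by
    funext w; exact flowPFrom_mul x c P _ w
  unfold GP
  rw [this]
  exact hP.comp (fun b => c * b)

theorem of_mul {c : ZMod p} (hc : c ≠ 0) (h : GP x (fun k => c * P k)) : GP x P :=
  (h.mul c⁻¹).congr (fun k => by rw [inv_mul_cancel_left₀ hc])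

theorem sub (hP : GP x P) (hQ : GP x Q) : GP x (fun k => P k - Q k) :=
  (hP.add (hQ.mul (-1))).congr (fun k => by ring)

theorem sum {ι : Type} (s : Finset ι) {F : ι → (A → ℕ) → ZMod p} (h : ∀ i ∈ s, GP x (F i)) :
    GP x (fun k => ∑ i ∈ s, F i k) := by
  induction s using Finset.induction_on with
  | empty => simpa using (zero : GP x (fun _ => (0 : ZMod p)))
  | insert a s ha ih =>
    have h1 := h a (Finset.mem_insert_self a s)
    have h2 := ih (fun i hi => h i (Finset.mem_insert_of_mem hi))
    refine (h1.add h2).congr (fun k => ?_)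
    rw [Finset.sum_insert ha]

end GP

/-- The linear form with coefficients `α` of the count vector. -/
noncomputable def zv (α : A → ZMod p) (k : A → ℕ) : ZMod p := ∑ y, α y * (k y : ZMod p)

theorem zv_bump (α : A → ZMod p) (k : A → ℕ) (a : A) : zv α (bump k a) = zv α k + α a := by
  unfold zv bump
  push_cast
  simp only [mul_add, Finset.sum_add_distrib]
  congr 1
  simp

theorem zv_add (α β : A → ZMod p) (k : A → ℕ) : zv (fun y => α y + β y) k = zv α k + zv β k := by
  simp [zv, add_mul, Finset.sum_add_distrib]

theorem zv_smul (t : ZMod p) (β : A → ZMod p) (k : A → ℕ) :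
    zv (fun y => t * β y) k = t * zv β k := by
  simp [zv, Finset.mul_sum, mul_assoc]

theorem zv_single (x : A) (k : A → ℕ) : zv (fun y => if y = x then 1 else 0) k = (k x : ZMod p) := by
  simp [zv]

/-- The weights counting arrivals at `k₀`, weighted by the step. -/
noncomputable def cArr (α : A → ZMod p) (k₀ : ZMod p) (a : A) (z : ZMod p) : ZMod p :=
  if z + α a = k₀ then α a else 0

/-- The weights where the letter `x` counts the passage through `k₀` at the departure. -/
noncomputable def cDep (α : A → ZMod p) (x : A) (k₀ : ZMod p) (a : A) (z : ZMod p) : ZMod p :=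
  cArr α k₀ a z + if a = x then (if z = k₀ then 1 else 0) - (if z + α a = k₀ then 1 else 0) else 0

theorem sum_ite_add (a k₀ v : ZMod p) :
    ∑ z : ZMod p, (if z + a = k₀ then v else 0) = v := by
  have : ∀ z : ZMod p, (z + a = k₀) ↔ z = k₀ - a := fun z => eq_sub_iff_add_eq.symm
  simp [this]

theorem cArr_h1 (α : A → ZMod p) (k₀ : ZMod p) (a : A) (z : ZMod p) (h : cArr α k₀ a z ≠ 0) :
    z = k₀ ∨ z + α a = k₀ := by
  unfold cArr at h
  by_cases h' : z + α a = k₀
  · exact Or.inr h'
  · simp [h'] at h

theorem cArr_h2 (α : A → ZMod p) (k₀ : ZMod p) (a : A) :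
    ∑ z, cArr α k₀ a z = 1 * α a := by
  unfold cArr
  rw [sum_ite_add, one_mul]

theorem cDep_h1 (α : A → ZMod p) (x : A) (k₀ : ZMod p) (a : A) (z : ZMod p)
    (h : cDep α x k₀ a z ≠ 0) : z = k₀ ∨ z + α a = k₀ := by
  by_contra hc
  push Not at hc
  apply h
  simp [cDep, cArr, hc.1, hc.2]

theorem cDep_h2 (α : A → ZMod p) (x : A) (k₀ : ZMod p) (a : A) :
    ∑ z, cDep α x k₀ a z = 1 * α a := by
  unfold cDep
  rw [Finset.sum_add_distrib, cArr_h2]
  by_cases h : a = x
  · simp only [h, if_true, Finset.sum_sub_distrib, sum_ite_add]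
    simp
  · simp [h]

/-- The difference of two jump machines is a flow through `x`. -/
theorem jc_sub_eq (α : A → ZMod p) (x : A) (k₀ : ZMod p) (k : A → ℕ) (w : List A) :
    jc α (cDep α x k₀) (zv α k) w - jc α (cArr α k₀) (zv α k) w =
      flowPFrom x (fun k => (if zv α k = k₀ then 1 else 0) -
        (if zv α k + α x = k₀ then 1 else 0)) k w := by
  induction w generalizing k with
  | nil => simp [flowPFrom]
  | cons a w ih =>
    simp only [jc_cons, flowPFrom]
    rw [← ih, zv_bump]
    by_cases h : a = x
    · subst h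
      simp only [cDep, if_true]
      ring
    · simp only [cDep, h, if_false]
      ring

/-- The basic flow. -/
theorem gp_basic (α : A → ZMod p) (x : A) (k₀ : ZMod p) :
    GP x (fun k => (if zv α k = k₀ then (1 : ZMod p) else 0) -
      (if zv α k + α x = k₀ then 1 else 0)) := by
  have h1 := good_jc (one_ne_zero) k₀ (cDep_h1 α x k₀) (cDep_h2 α x k₀) (zv α (fun _ => 0))
  have h2 := good_jc (one_ne_zero) k₀ (cArr_h1 α k₀) (cArr_h2 α k₀) (zv α (fun _ => 0))
  have h3 := h1.sub h2
  have e : flowP x (fun k => (if zv α k = k₀ then (1 : ZMod p) else 0) -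
      (if zv α k + α x = k₀ then 1 else 0)) = fun w =>
      jc α (cDep α x k₀) (zv α (fun _ => 0)) w - jc α (cArr α k₀) (zv α (fun _ => 0)) w := by
    funext w
    exact (jc_sub_eq α x k₀ _ w).symm
  unfold GP
  rw [e]
  exact h3

theorem gp_diff (α : A → ZMod p) (x : A) (l : ZMod p → ZMod p) :
    GP x (fun k => l (zv α k) - l (zv α k + α x)) := by
  have h := GP.sum (x := x) (Finset.univ : Finset (ZMod p))
    (F := fun k₀ k => l k₀ * ((if zv α k = k₀ then (1 : ZMod p) else 0) -
      (if zv α k + α x = k₀ then 1 else 0)))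
    (fun k₀ _ => (gp_basic α x k₀).mul (l k₀))
  refine h.congr (fun k => ?_)
  simp only [mul_sub, Finset.sum_sub_distrib]
  simp

/-- A function of sum zero is a difference along a nonzero step. -/
theorem exists_antidiff (a : ZMod p) (ha : a ≠ 0) (g : ZMod p → ZMod p) (hg : ∑ z, g z = 0) :
    ∃ l : ZMod p → ZMod p, ∀ z, g z = l z - l (z + a) := by
  let h : ℕ → ZMod p := fun n => ∑ i ∈ Finset.range n, g ((i : ZMod p) * a)
  have hp : h p = 0 := by
    have := sum_range_add_mul (0 : ZMod p) a ha g
    simp only [zero_add] at this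
    simp only [h]
    rw [this, hg]
  refine ⟨fun z => - h (z / a).val, fun z => ?_⟩
  set n := (z / a).val with hn
  have hn1 : (n : ZMod p) = z / a := ZMod.natCast_zmod_val _
  have hn2 : (n : ZMod p) * a = z := by
    rw [hn1]; field_simp
  have hlt : n < p := ZMod.val_lt _
  have e1 : (z + a) / a = ((n + 1 : ℕ) : ZMod p) := by
    push_cast
    rw [hn1]
    field_simp
  have e2 : h ((z + a) / a).val = h (n + 1) := by
    rw [e1, ZMod.val_natCast]
    by_cases hlt' : n + 1 < p
    · rw [Nat.mod_eq_of_lt hlt']
    · have : n + 1 = p := by omega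
      rw [this, Nat.mod_self, hp]
      simp [h]
  simp only []
  rw [e2]
  simp only [h, Finset.sum_range_succ]
  rw [hn2]
  ring

/-- Flows through a moving letter of functions of sum zero of the linear form. -/
theorem gp_zero_sum (α : A → ZMod p) (x : A) (hx : α x ≠ 0) (g : ZMod p → ZMod p)
    (hg : ∑ z, g z = 0) : GP x (fun k => g (zv α k)) := by
  obtain ⟨l, hl⟩ := exists_antidiff (α x) hx g hg
  exact (gp_diff α x l).congr (fun k => (hl _).symm)

/-! ### Power sums -/

theorem sum_pow_lt {m : ℕ} (h : m + 1 < p) : ∑ t : ZMod p, t ^ m = 0 := by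
  have := FiniteField.sum_pow_lt_card_sub_one (ZMod p) m (by rw [ZMod.card]; omega)
  exact this

theorem pow_pm1 (t : ZMod p) : t ^ (p - 1) = if t = 0 then 0 else 1 := by
  by_cases h : t = 0
  · have hp : p - 1 ≠ 0 := by
      have := (Fact.out : p.Prime).two_le
      omega
    simp [h, hp]
  · simp [h, ZMod.pow_card_sub_one_eq_one h]

theorem sum_pow_pm1 : ∑ t : ZMod p, t ^ (p - 1) = -1 := by
  simp only [pow_pm1]
  have : ∀ t : ZMod p, (if t = 0 then (0 : ZMod p) else 1) = 1 - if t = 0 then 1 else 0 := by
    intro t; by_cases h : t = 0 <;> simp [h]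
  simp only [this, Finset.sum_sub_distrib]
  simp

theorem sum_pow_shift {j : ℕ} (hj : 1 ≤ j) :
    ∑ t : ZMod p, t ^ (p - 1 + j) = ∑ t : ZMod p, t ^ j := by
  refine Finset.sum_congr rfl (fun t _ => ?_)
  rw [pow_add, pow_pm1]
  by_cases h : t = 0
  · have : j ≠ 0 := by omega
    simp [h, this]
  · simp [h]

/-- The expansion of the sum of the powers. -/
theorem sum_mul_add_pow (s n : ℕ) (X Y : ZMod p) :
    ∑ t : ZMod p, t ^ s * (X + t * Y) ^ n =
      ∑ j ∈ Finset.range (n + 1), (∑ t : ZMod p, t ^ (s + j)) *
        (Y ^ j * X ^ (n - j) * (n.choose j : ZMod p)) := by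
  have : ∀ t : ZMod p, t ^ s * (X + t * Y) ^ n =
      ∑ j ∈ Finset.range (n + 1), t ^ (s + j) * (Y ^ j * X ^ (n - j) * (n.choose j : ZMod p)) := by
    intro t
    rw [add_comm X, add_pow, Finset.mul_sum]
    refine Finset.sum_congr rfl (fun j _ => ?_)
    rw [mul_pow, pow_add]
    ring
  simp only [this]
  rw [Finset.sum_comm]
  refine Finset.sum_congr rfl (fun j _ => ?_)
  rw [Finset.sum_mul]

theorem sumt0 (X Y : ZMod p) {n : ℕ} (hn : n + 2 ≤ p) :
    ∑ t : ZMod p, t ^ (p - 1) * (X + t * Y) ^ n = - X ^ n := by
  rw [sum_mul_add_pow, Finset.sum_eq_single 0]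
  · simp only [add_zero, sum_pow_pm1]
    simp
  · intro j hj hj0
    have hj' : j ≤ n := by simpa [Nat.lt_succ_iff] using hj
    rw [sum_pow_shift (by omega), sum_pow_lt (by omega), zero_mul]
  · simp

theorem sumt1 (X Y : ZMod p) {e : ℕ} (he : e + 3 ≤ p) :
    ∑ t : ZMod p, t ^ (p - 2) * (X + t * Y) ^ (e + 1) = - ((e + 1 : ℕ) : ZMod p) * (X ^ e * Y) := by
  rw [sum_mul_add_pow, Finset.sum_eq_single 1]
  · have e1 : p - 2 + 1 = p - 1 := by omega
    rw [e1, sum_pow_pm1]
    simp
    ring
  · intro j hj hj1
    have hj' : j ≤ e + 1 := by simpa [Nat.lt_succ_iff] using hj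
    by_cases hj0 : j = 0
    · subst hj0
      rw [add_zero, sum_pow_lt (by omega), zero_mul]
    · have e1 : p - 2 + j = p - 1 + (j - 1) := by omega
      rw [e1, sum_pow_shift (by omega), sum_pow_lt (by omega), zero_mul]
  · intro h
    exact absurd (by simp) h

/-! ### Powers of linear forms and their products -/

/-- Powers of linear forms. -/
theorem gp_zpow (α : A → ZMod p) (x : A) {n : ℕ} (hn : n + 2 ≤ p) :
    GP x (fun k => zv α k ^ n) := by
  have hmov : ∀ β : A → ZMod p, β x ≠ 0 → GP x (fun k => zv β k ^ n) := by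
    intro β hβ
    refine gp_zero_sum β x hβ (fun z => z ^ n) ?_
    exact sum_pow_lt (by omega)
  by_cases hα : α x = 0
  · have h := GP.sum (x := x) (Finset.univ : Finset (ZMod p))
      (F := fun t k => t ^ (p - 1) * zv (fun y => α y + t * (if y = x then 1 else 0)) k ^ n)
      (fun t _ => by
        by_cases ht : t = 0
        · subst ht
          have hp : p - 1 ≠ 0 := by
            have := (Fact.out : p.Prime).two_le
            omega
          refine (GP.zero (x := x)).congr (fun k => ?_)
          simp [hp]
        · refine (hmov _ ?_).mul _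
          simp [hα, ht])
    refine (h.mul (-1)).congr (fun k => ?_)
    simp only [zv_add, zv_smul, zv_single]
    rw [sumt0 _ _ hn]
    ring
  · exact hmov α hα

/-- Products of powers of linear forms. -/
theorem gp_prod (x : A) (L : List (A → ZMod p)) : ∀ (α : A → ZMod p) (e : ℕ),
    L.length + e + 2 ≤ p →
    GP x (fun k => zv α k ^ e * (L.map fun β => zv β k).prod) := by
  induction L with
  | nil =>
    intro α e he
    refine (gp_zpow α x (by simpa using he)).congr (fun k => ?_)
    simp
  | cons β L ih =>
    intro α e he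
    have hlen : L.length + (e + 1) + 2 ≤ p := by
      simp only [List.length_cons] at he
      omega
    have h := GP.sum (x := x) (Finset.univ : Finset (ZMod p))
      (F := fun t k => t ^ (p - 2) * (zv (fun y => α y + t * β y) k ^ (e + 1) *
        (L.map fun β => zv β k).prod))
      (fun t _ => (ih _ (e + 1) hlen).mul _)
    have hunit : (- ((e + 1 : ℕ) : ZMod p)) ≠ 0 := by
      rw [neg_ne_zero]
      intro h0
      rw [ZMod.natCast_eq_zero_iff] at h0
      have := Nat.le_of_dvd (by omega) h0
      simp only [List.length_cons] at he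
      omega
    refine GP.of_mul hunit (h.congr (fun k => ?_))
    simp only [zv_add, zv_smul, List.map_cons, List.prod_cons]
    have h1 : ∑ t : ZMod p, t ^ (p - 2) * (zv α k + t * zv β k) ^ (e + 1) =
        - ((e + 1 : ℕ) : ZMod p) * (zv α k ^ e * zv β k) := by
      apply sumt1
      simp only [List.length_cons] at he
      omega
    calc ∑ t : ZMod p, t ^ (p - 2) * ((zv α k + t * zv β k) ^ (e + 1) *
            (L.map fun β => zv β k).prod)
        = (∑ t : ZMod p, t ^ (p - 2) * (zv α k + t * zv β k) ^ (e + 1)) *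
            (L.map fun β => zv β k).prod := by
          rw [Finset.sum_mul]
          refine Finset.sum_congr rfl (fun t _ => ?_)
          ring
      _ = _ := by
          rw [h1]
          ring

/-- Products of counts. -/
theorem gp_mon (x : A) (l : List A) (hl : l.length + 2 ≤ p) :
    GP x (fun k => ((mon l k : ℤ) : ZMod p)) := by
  have h := gp_prod (p := p) x (l.map fun y => fun z => if z = y then 1 else 0) (fun _ => 0) 0
    (by simpa using hl)
  refine h.congr (fun k => ?_)
  simp only [pow_zero, one_mul, List.map_map]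
  clear h hl
  induction l with
  | nil => simp [mon]
  | cons y l ih =>
    simp only [List.map_cons, List.prod_cons, mon, Int.cast_mul] at ih ⊢
    rw [ih]
    congr 1
    have := zv_single (p := p) y k
    simpa [K] using this

/-- Flows of polynomials of degree at most `p - 2`. -/
theorem gp_of_Pol (x : A) {d : ℕ} (hd : d + 2 ≤ p) {f : (A → ℕ) → ℤ} (hf : f ∈ Pol A d) :
    GP x (fun k => ((f k : ℤ) : ZMod p)) := by
  induction hf using Submodule.span_induction with
  | mem f hf =>
    obtain ⟨l, hl, rfl⟩ := hf
    exact gp_mon x l (by omega)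
  | zero => exact (GP.zero (x := x)).congr (fun k => by simp)
  | add f g _ _ hf hg => exact (hf.add hg).congr (fun k => by simp)
  | smul c f _ hf => exact (hf.mul (c : ZMod p)).congr (fun k => by simp)

/-- The flow modulo `p` of a monomial of binomials of weight at most `p - 2`. -/
theorem gp_ev (x : A) (m : List (A × ℕ)) (hm : wt m + 2 ≤ p) :
    GP x (fun k => (((ev m k : ℕ) : ℤ) : ZMod p)) := by
  have h := gp_of_Pol (p := p) x hm (denom_ev_mem_Pol m)
  have hunit : ((denom m : ℕ) : ZMod p) ≠ 0 := by
    have hle : ∀ e ∈ m, e.2 + 2 ≤ p → ((e.2.factorial : ℕ) : ZMod p) ≠ 0 := by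
      intro e _ he h0
      rw [ZMod.natCast_eq_zero_iff] at h0
      have := ((Fact.out : p.Prime).dvd_factorial).1 h0
      omega
    clear h
    induction m with
    | nil => simp [denom]
    | cons e m ih =>
      simp only [denom, List.map_cons, List.prod_cons]
      rw [Nat.cast_mul]
      have hw : wt (e :: m) = e.2 + wt m := by simp [wt]
      rw [hw] at hm
      have h1 := hle e List.mem_cons_self (by omega)
      have h2 := ih (by omega) (fun e' he' h' => hle e' (List.mem_cons_of_mem _ he') h')
      exact mul_ne_zero h1 h2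
  refine GP.of_mul hunit (h.congr (fun k => ?_))
  push_cast
  rfl

/-- Reducing the integer flow modulo `p`. -/
theorem flowFrom_cast (x : A) (P : (A → ℕ) → ℤ) (k : A → ℕ) (w : List A) :
    ((flowFrom x P k w : ℤ) : ZMod p) = flowPFrom x (fun k => ((P k : ℤ) : ZMod p)) k w := by
  induction w generalizing k with
  | nil => simp [flowFrom, flowPFrom]
  | cons a w ih =>
    simp only [flowFrom, flowPFrom, Int.cast_add, ih]
    by_cases h : a = x <;> simp [h]

/-- The integer flow of a monomial of binomials of weight at most `p - 2` is good modulo `p`. -/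
theorem good_flow_ev (x : A) (m : List (A × ℕ)) (hm : wt m + 2 ≤ p) :
    Good (fun w : List A => ((flow x (fun k => ((ev m k : ℕ) : ℤ)) w : ℤ) : ZMod p)) := by
  have h := gp_ev (p := p) x m hm
  have e : (fun w : List A => ((flow x (fun k => ((ev m k : ℕ) : ℤ)) w : ℤ) : ZMod p)) =
      flowP x (fun k => (((ev m k : ℕ) : ℤ) : ZMod p)) := by
    funext w
    exact flowFrom_cast x _ _ w
  rw [e]
  exact h

end JumpFlow

end Vale.Agent.Lib.P329
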