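import Vale.Agent.Lib.P329.JumpPoly
import Vale.Agent.Lib.P329.MetaFour

/-!
Nilpotent groups of bounded class whose commutator subgroup is abelian: expansion of the value of a
word into flows of polynomials in the count vector.  Only the flows of weight at least four need
a prime modulus.
-/

namespace Vale.Agent.Lib.P329

section Abstract

open Classical

variable {A G N : Type} [Fintype A] [Group G] [CommGroup N]

/-- The data for the expansion, for a class bound `cl`. -/
structure GenData (G N : Type) [Group G] [CommGroup N] where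
  cl : ℕ
  cj : G →* MulAut N
  lev : ℕ → N → Prop
  com : G → G → N
  ι : N →* G
  hO : ∀ g i v, lev i v → lev (i + 1) (cj g v * v⁻¹)
  hlev1 : ∀ v, lev 1 v
  hlevc : ∀ i v, cl ≤ i → lev i v → v = 1
  hcom : ∀ a b h, com (a * b) h = cj a (com b h) * com a h
  hιcj : ∀ g v, ι (cj g v) = g * ι v * g⁻¹
  hιcom : ∀ a b, ι (com a b) = a * b * a⁻¹ * b⁻¹

variable (D : GenData G N)

namespace GenData

open MetaData (sig sig_bump_of_notMem fp fpFrom fp_snoc fpFrom_one fpFrom_mul fpFrom_pow
  good_zpow_of_goodZ good_sig)

/-- The operator `g - 1`, in multiplicative form. -/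
def O (g : G) (v : N) : N := D.cj g v * v⁻¹

theorem cj_eq (g : G) (v : N) : D.cj g v = D.O g v * v := by
  simp [O]

theorem lev_iter (g : G) (j i : ℕ) (v : N) (h : D.lev i v) : D.lev (j + i) ((D.O g)^[j] v) := by
  induction j with
  | zero => simpa using h
  | succ j ih =>
    rw [Function.iterate_succ_apply', Nat.succ_add]
    exact D.hO g _ _ ih

theorem iter_top (g : G) (v : N) : (D.O g)^[D.cl + 1] v = 1 :=
  D.hlevc _ _ (by omega) (D.lev_iter g (D.cl + 1) 1 v (D.hlev1 v))

theorem cj_pow (g : G) (v : N) (i : ℕ) :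
    D.cj (g ^ i) v = ∏ j ∈ Finset.range (D.cl + 1), ((D.O g)^[j] v) ^ (i.choose j) := by
  induction i with
  | zero =>
    rw [Finset.prod_eq_single 0]
    · simp
    · intro j _ hj
      rw [Nat.choose_eq_zero_of_lt (Nat.pos_of_ne_zero hj), pow_zero]
    · simp
  | succ i ih =>
    rw [pow_succ', map_mul, MulAut.mul_apply, ih, map_prod]
    have h1 : ∀ j, D.cj g (((D.O g)^[j] v) ^ (i.choose j)) =
        ((D.O g)^[j + 1] v) ^ (i.choose j) * ((D.O g)^[j] v) ^ (i.choose j) := by
      intro j
      rw [map_pow, cj_eq, mul_pow, Function.iterate_succ_apply']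
    simp only [h1, Finset.prod_mul_distrib]
    rw [Finset.prod_range_succ (fun j => ((D.O g)^[j + 1] v) ^ (i.choose j)) D.cl, iter_top,
      one_pow, mul_one, Finset.prod_range_succ' (fun j => ((D.O g)^[j] v) ^ (i.choose j)) D.cl,
      Finset.prod_range_succ' (fun j => ((D.O g)^[j] v) ^ ((i + 1).choose j)) D.cl]
    simp only [Nat.choose_zero_right, pow_one, Function.iterate_zero, id_eq]
    rw [← mul_assoc, ← Finset.prod_mul_distrib]
    congr 1
    refine Finset.prod_congr rfl (fun j _ => ?_)
    rw [Nat.choose_succ_succ' i j, pow_add]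

theorem com_one (h : G) : D.com 1 h = 1 := by
  have := D.hcom 1 1 h
  simpa using this

theorem com_pow (g h : G) (i : ℕ) :
    D.com (g ^ i) h = ∏ j ∈ Finset.range (D.cl + 1), ((D.O g)^[j] (D.com g h)) ^ (i.choose (j + 1)) := by
  induction i with
  | zero => simp [com_one]
  | succ i ih =>
    rw [pow_succ', D.hcom, ih, map_prod]
    have h1 : ∀ j, D.cj g (((D.O g)^[j] (D.com g h)) ^ (i.choose (j + 1))) =
        ((D.O g)^[j + 1] (D.com g h)) ^ (i.choose (j + 1)) *
          ((D.O g)^[j] (D.com g h)) ^ (i.choose (j + 1)) := by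
      intro j
      rw [map_pow, cj_eq, mul_pow, Function.iterate_succ_apply']
    simp only [h1, Finset.prod_mul_distrib]
    have h2 : ∀ j, ((D.O g)^[j] (D.com g h)) ^ ((i + 1).choose (j + 1)) =
        ((D.O g)^[j] (D.com g h)) ^ (i.choose j) *
          ((D.O g)^[j] (D.com g h)) ^ (i.choose (j + 1)) := by
      intro j
      rw [Nat.choose_succ_succ' i j, pow_add]
    simp only [h2, Finset.prod_mul_distrib]
    rw [Finset.prod_range_succ (fun j => ((D.O g)^[j + 1] (D.com g h)) ^ (i.choose (j + 1))) D.cl,
      iter_top, one_pow, mul_one,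
      Finset.prod_range_succ' (fun j => ((D.O g)^[j] (D.com g h)) ^ (i.choose j)) D.cl]
    simp only [Nat.choose_zero_right, pow_one, Function.iterate_zero, id_eq]
    simp only [mul_comm, mul_left_comm]

/-- Functions of the count vector which are products of powers with binomial exponents, the base
having the level of the exponent. -/
def Rep : Submonoid ((A → ℕ) → N) :=
  Submonoid.closure {T | ∃ (c : N) (m : List (A × ℕ)), D.lev (wt m) c ∧ T = fun k => c ^ ev m k}

variable {D}

theorem Rep.gen {c : N} {m : List (A × ℕ)} (h : D.lev (wt m) c) :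
    (fun k : A → ℕ => c ^ ev m k) ∈ D.Rep :=
  Submonoid.subset_closure ⟨c, m, h, rfl⟩

/-- Conjugation by a power of the count of a letter. -/
theorem Rep.conj (y : A) (g : G) {T : (A → ℕ) → N} (h : T ∈ D.Rep) :
    (fun k => D.cj (g ^ k y) (T k)) ∈ D.Rep := by
  induction h using Submonoid.closure_induction with
  | mem T hT =>
    obtain ⟨c, m, hc, rfl⟩ := hT
    have e : (fun k : A → ℕ => D.cj (g ^ k y) (c ^ ev m k)) =
        ∏ j ∈ Finset.range (D.cl + 1), fun k => ((D.O g)^[j] c) ^ ev ((y, j) :: m) k := by
      funext k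
      rw [Finset.prod_apply, map_pow, cj_pow, ← Finset.prod_pow]
      refine Finset.prod_congr rfl (fun j _ => ?_)
      rw [← pow_mul]
      simp [ev]
    rw [e]
    refine Submonoid.prod_mem _ (fun j _ => Rep.gen ?_)
    have : wt ((y, j) :: m) = j + wt m := by simp [wt]
    rw [this]
    exact D.lev_iter g j _ c hc
  | one =>
    have e : (fun k : A → ℕ => D.cj (g ^ k y) ((1 : (A → ℕ) → N) k)) = 1 := by
      funext k; simp
    rw [e]
    exact Submonoid.one_mem _
  | mul T T' _ _ h1 h2 =>
    have e : (fun k : A → ℕ => D.cj (g ^ k y) ((T * T') k)) =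
        (fun k => D.cj (g ^ k y) (T k)) * (fun k => D.cj (g ^ k y) (T' k)) := by
      funext k; simp
    rw [e]
    exact Submonoid.mul_mem _ h1 h2

/-- The base case: commutator with a power. -/
theorem Rep.com_pow (y : A) (g h : G) : (fun k : A → ℕ => D.com (g ^ k y) h) ∈ D.Rep := by
  have e : (fun k : A → ℕ => D.com (g ^ k y) h) =
      ∏ j ∈ Finset.range (D.cl + 1),
        fun k => ((D.O g)^[j] (D.com g h)) ^ ev [(y, j + 1)] k := by
    funext k
    rw [Finset.prod_apply, GenData.com_pow]
    refine Finset.prod_congr rfl (fun j _ => ?_)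
    simp [ev]
  rw [e]
  refine Submonoid.prod_mem _ (fun j _ => Rep.gen ?_)
  have : wt [(y, j + 1)] = j + 1 := by simp [wt]
  rw [this]
  exact D.lev_iter g j 1 _ (D.hlev1 _)

variable (D)

variable (φ : A → G)

/-- The commutator of the ordered product with a letter. -/
def Aa (l : List A) (x : A) (k : A → ℕ) : N := D.com (sig φ l k) (φ x)

theorem rep_Aa (l : List A) (x : A) : D.Aa φ l x ∈ D.Rep := by
  induction l with
  | nil =>
    have e : D.Aa φ [] x = 1 := by
      funext k
      simp [Aa, sig, com_one]
    rw [e]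
    exact Submonoid.one_mem _
  | cons y l ih =>
    have e : D.Aa φ (y :: l) x = (fun k => D.cj (φ y ^ k y) (D.Aa φ l x k)) *
        (fun k => D.com (φ y ^ k y) (φ x)) := by
      funext k
      simp [Aa, sig, D.hcom]
    rw [e]
    exact Submonoid.mul_mem _ (Rep.conj y (φ y) ih) (Rep.com_pow y (φ y) (φ x))

/-- The correction term for moving a letter into the ordered product. -/
noncomputable def rho (x : A) : List A → (A → ℕ) → N
  | [], _ => 1
  | y :: l, k => if y = x then D.cj (φ x ^ k x) (D.Aa φ l x k) else D.cj (φ y ^ k y) (rho x l k)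

theorem rep_rho (x : A) (l : List A) : D.rho φ x l ∈ D.Rep := by
  induction l with
  | nil =>
    have e : D.rho φ x [] = 1 := rfl
    rw [e]
    exact Submonoid.one_mem _
  | cons y l ih =>
    by_cases h : y = x
    · subst h
      have e : D.rho φ y (y :: l) = fun k => D.cj (φ y ^ k y) (D.Aa φ l y k) := by
        funext k
        simp [rho]
      rw [e]
      exact Rep.conj y (φ y) (D.rep_Aa φ l y)
    · have e : D.rho φ x (y :: l) = fun k => D.cj (φ y ^ k y) (D.rho φ x l k) := by
        funext k
        simp [rho, h]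
      rw [e]
      exact Rep.conj y (φ y) ih

theorem rho_spec (x : A) (l : List A) (hnd : l.Nodup) (hx : x ∈ l) (k : A → ℕ) :
    D.ι (D.rho φ x l k) * sig φ l (bump k x) = sig φ l k * φ x := by
  induction l with
  | nil => simp at hx
  | cons y l ih =>
    have hnd' := List.nodup_cons.1 hnd
    by_cases h : y = x
    · subst h
      have e1 : sig φ (y :: l) (bump k y) = φ y ^ (k y + 1) * sig φ l k := by
        simp only [sig, List.map_cons, List.prod_cons]
        have := sig_bump_of_notMem φ y l hnd'.1 k
        simp only [sig] at this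
        rw [this]
        simp [bump]
      have e2 : sig φ (y :: l) k = φ y ^ k y * sig φ l k := by
        simp [sig]
      rw [e1, e2]
      simp only [rho, if_true, D.hιcj, Aa, D.hιcom]
      group
    · have hx' : x ∈ l := by
        rcases List.mem_cons.1 hx with e | e
        · exact absurd e.symm h
        · exact e
      have e1 : sig φ (y :: l) (bump k x) = φ y ^ k y * sig φ l (bump k x) := by
        simp [sig, bump, h]
      have e2 : sig φ (y :: l) k = φ y ^ k y * sig φ l k := by
        simp [sig]
      rw [e1, e2]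
      simp only [rho, h, if_false, D.hιcj]
      have ih' := ih hnd'.2 hx'
      calc φ y ^ k y * D.ι (D.rho φ x l k) * (φ y ^ k y)⁻¹ * (φ y ^ k y * sig φ l (bump k x))
          = φ y ^ k y * (D.ι (D.rho φ x l k) * sig φ l (bump k x)) := by group
        _ = φ y ^ k y * sig φ l k * φ x := by rw [ih', mul_assoc]

variable [Finite N]

variable {D}

/-- Products along the positions of a letter are good. -/
theorem Rep.good_fp {p : ℕ} [Fact p.Prime] (hp : D.cl + 1 ≤ p)
    (hexp : ∀ i v, 4 ≤ i → D.lev i v → v ^ p = 1) {T : (A → ℕ) → N} (h : T ∈ D.Rep) (x : A) :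
    Good (fp x T) := by
  induction h using Submonoid.closure_induction with
  | mem T hT =>
    obtain ⟨c, m, hc, rfl⟩ := hT
    have e : fp x (fun k : A → ℕ => c ^ ev m k) =
        fun w => c ^ flow x (fun k => ((ev m k : ℕ) : ℤ)) w := by
      funext w
      exact fpFrom_pow x c m _ w
    rw [e]
    by_cases hw : wt m ≤ 3
    · exact good_zpow_of_goodZ c (gf_ev x m hw)
    · by_cases hcl : D.cl ≤ wt m
      · have h1 : c = 1 := D.hlevc _ _ hcl hc
        simp only [h1, one_zpow]
        exact Good.const _
      · have hcp : c ^ p = 1 := hexp _ _ (by omega) hc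
        refine Good.of_factor (good_flow_ev (p := p) x m (by omega)) (fun w w' he => ?_)
        rw [ZMod.intCast_eq_intCast_iff_dvd_sub] at he
        obtain ⟨t, ht⟩ := he
        have : flow x (fun k => ((ev m k : ℕ) : ℤ)) w' =
            flow x (fun k => ((ev m k : ℕ) : ℤ)) w + (p : ℤ) * t := by linarith
        rw [this, zpow_add, zpow_mul, zpow_natCast, hcp]
        simp
  | one =>
    have e : fp x (1 : (A → ℕ) → N) = fun _ => 1 := by
      funext w
      exact fpFrom_one x _ w
    rw [e]
    exact Good.const _
  | mul T T' _ _ h1 h2 =>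
    have e : fp x (T * T') = fun w => fp x T w * fp x T' w := by
      funext w
      exact fpFrom_mul x T T' _ w
    rw [e]
    exact Good.mul h1 h2

variable (D)

/-- The element of the abelian part. -/
noncomputable def Psi (l : List A) (w : List A) : N := ∏ x, fp x (D.rho φ x l) w

omit [Finite N] in
theorem Psi_snoc (l : List A) (w : List A) (a : A) :
    D.Psi φ l (w ++ [a]) = D.Psi φ l w * D.rho φ a l (kv w) := by
  simp only [Psi, fp_snoc, Finset.prod_mul_distrib]
  congr 1
  rw [Finset.prod_ite_eq]
  simp

omit [Finite N] in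
theorem Psi_spec (l : List A) (hnd : l.Nodup) (hl : ∀ a, a ∈ l) (w : List A) :
    D.ι (D.Psi φ l w) * sig φ l (kv w) = (w.map φ).prod := by
  induction w using List.reverseRecOn with
  | nil =>
    have h1 : D.Psi φ l [] = 1 := by
      simp [Psi, fp, fpFrom]
    have h2 : sig φ l (kv []) = 1 := by
      simp [sig, kv, kvOf]
    simp [h1, h2]
  | append_singleton w a ih =>
    rw [Psi_snoc, map_mul, kv_snoc, mul_assoc, rho_spec D φ a l hnd (hl a), ← mul_assoc, ih]
    simp

include D in
/-- The main theorem for the abstract data. -/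
theorem good_prod [Finite G] {p : ℕ} [Fact p.Prime] (hp : D.cl + 1 ≤ p)
    (hexp : ∀ i v, 4 ≤ i → D.lev i v → v ^ p = 1) : Good (fun w : List A => (w.map φ).prod) := by
  have hl : ∀ a : A, a ∈ (Finset.univ : Finset A).toList := by simp
  have h1 : Good (fun w => D.ι (D.Psi φ (Finset.univ : Finset A).toList w)) := by
    have h2 : Good (fun w => D.Psi φ (Finset.univ : Finset A).toList w) := by
      unfold Psi
      refine Good.finset_prod _ (fun x _ => ?_)
      exact Rep.good_fp hp hexp (D.rep_rho φ x _) x
    exact h2.comp D.ι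
  have h3 := h1.mul (good_sig φ (Finset.univ : Finset A).toList)
  have e : (fun w : List A => (w.map φ).prod) = fun w =>
      D.ι (D.Psi φ (Finset.univ : Finset A).toList w) * sig φ (Finset.univ : Finset A).toList (kv w) := by
    funext w
    exact (D.Psi_spec φ _ (Finset.nodup_toList _) hl w).symm
  rw [e]
  exact h3

end GenData

end Abstract

section Concrete

open scoped commutatorElement

variable {G : Type} [Group G]

/-- The data of a group of class at most `c` with commuting commutators. -/
noncomputable def genDataOf (c : ℕ) (hG : (⊤ : Subgroup G).lowerCentralSeries c = ⊥)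
    (hN : ∀ x ∈ (⊤ : Subgroup G).lowerCentralSeries 1, ∀ y ∈ (⊤ : Subgroup G).lowerCentralSeries 1,
      x * y = y * x) :
    @GenData G ((⊤ : Subgroup G).lowerCentralSeries 1) _ (commOne hN) :=
  letI := commOne hN
  { cl := c
    cj := MulAut.conjNormal
    lev := fun i v => (v : G) ∈ (⊤ : Subgroup G).lowerCentralSeries i
    com := fun a b => ⟨a * b * a⁻¹ * b⁻¹, com_mem_one a b⟩
    ι := ((⊤ : Subgroup G).lowerCentralSeries 1).subtype
    hO := by
      intro g i v hv
      have := com_mem_succ g v hv
      have e : (((MulAut.conjNormal g v : ((⊤ : Subgroup G).lowerCentralSeries 1)) * v⁻¹ :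
          ((⊤ : Subgroup G).lowerCentralSeries 1)) : G) = g * v * g⁻¹ * (v : G)⁻¹ := by
        show ((MulAut.conjNormal g v : ((⊤ : Subgroup G).lowerCentralSeries 1)) : G) * (v : G)⁻¹ = _
        rw [MulAut.conjNormal_apply]
      show (((MulAut.conjNormal g v : ((⊤ : Subgroup G).lowerCentralSeries 1)) * v⁻¹ :
          ((⊤ : Subgroup G).lowerCentralSeries 1)) : G) ∈ _
      rw [e]
      exact this
    hlev1 := fun v => v.2
    hlevc := by
      intro i v hi hv
      have h4 : (v : G) ∈ (⊤ : Subgroup G).lowerCentralSeries c :=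
        Subgroup.lowerCentralSeries_antitone _ hi hv
      rw [hG, Subgroup.mem_bot] at h4
      exact Subtype.ext h4
    hcom := by
      intro a b h
      apply Subtype.ext
      simp only [MulAut.conjNormal_apply, Subgroup.coe_mul]
      group
    hιcj := by
      intro g v
      exact MulAut.conjNormal_apply g v
    hιcom := by
      intro a b
      rfl }

/-- **Metabelian nilpotent groups of class below a prime.** -/
theorem heightLE_of_meta_prime {A : Type} [Finite A] [Finite G] (p : ℕ) (hp : p.Prime)
    (hG : (⊤ : Subgroup G).lowerCentralSeries (p - 1) = ⊥)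
    (hN : ∀ x ∈ (⊤ : Subgroup G).lowerCentralSeries 1, ∀ y ∈ (⊤ : Subgroup G).lowerCentralSeries 1,
      x * y = y * x)
    (hexp : ∀ g ∈ (⊤ : Subgroup G).lowerCentralSeries 4, g ^ p = 1) (φ : A → G) (S : Set G) :
    HeightLE 1 {w : List A | (w.map φ).prod ∈ S} := by
  haveI : Fintype A := Fintype.ofFinite A
  haveI : Fact p.Prime := ⟨hp⟩
  letI := commOne hN
  refine (GenData.good_prod (genDataOf (p - 1) hG hN) φ (p := p) ?_ ?_).preimage S
  · have := hp.pos
    show p - 1 + 1 ≤ p
    omega
  · intro i v hi hv
    apply Subtype.ext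
    have h4 : (v : G) ∈ (⊤ : Subgroup G).lowerCentralSeries 4 :=
      Subgroup.lowerCentralSeries_antitone _ hi hv
    exact hexp _ h4

end Concrete

end Vale.Agent.Lib.P329
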