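import Vale.Agent.Lib.P329.TreeFour

/-!
Products of elements `1 + N a` of a ring of characteristic `p`, the products of `D + 1` of the `N a`
vanishing, expressed by subword counts of length at most `D`.
-/

namespace Vale.Agent.Lib.P329

section NilRing

open Classical

variable {A R : Type} [Fintype A] [Ring R] (N : A → R)

/-- The sum of `f (prefix) * N a` over the positions of a word, `a` the letter at the position. -/
noncomputable def pfN : (List A → R) → List A → R
  | _, [] => 0
  | f, a :: w => f [] * N a + pfN (fun v => f (a :: v)) w

@[simp] theorem pfN_nil (f : List A → R) : pfN N f [] = 0 := by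
  simp [pfN]

theorem pfN_cons (f : List A → R) (a : A) (w : List A) :
    pfN N f (a :: w) = f [] * N a + pfN N (fun v => f (a :: v)) w := by
  simp [pfN]

theorem pfN_snoc (f : List A → R) (w : List A) (a : A) :
    pfN N f (w ++ [a]) = pfN N f w + f w * N a := by
  induction w generalizing f with
  | nil => simp [pfN]
  | cons b w ih =>
    simp only [List.cons_append, pfN_cons, ih, add_assoc]

/-- The part of degree `d` of a product. -/
noncomputable def Td : ℕ → List A → R
  | 0 => fun _ => 1
  | d + 1 => pfN N (Td d)

/-- The product of the `N a` along a list, read backwards. -/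
def Nr : List A → R
  | [] => 1
  | y :: l => Nr l * N y

/-- Iterated sums over lists of length `d`. -/
noncomputable def Sm {X : Type} [AddCommMonoid X] : ℕ → (List A → X) → X
  | 0, F => F []
  | d + 1, F => Sm d (fun l => ∑ y : A, F (y :: l))

theorem Sm_add {X : Type} [AddCommMonoid X] (d : ℕ) (F G : List A → X) :
    Sm d (fun l => F l + G l) = Sm d F + Sm d G := by
  induction d generalizing F G with
  | zero => rfl
  | succ d ih =>
    simp only [Sm, Finset.sum_add_distrib]
    rw [ih]

theorem Sm_zero {X : Type} [AddCommMonoid X] (d : ℕ) : Sm (A := A) d (fun _ => (0 : X)) = 0 := by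
  induction d with
  | zero => rfl
  | succ d ih =>
    simp only [Sm, Finset.sum_const_zero]
    exact ih

theorem Sm_mul_right (d : ℕ) (F : List A → R) (x : R) :
    Sm d (fun l => F l * x) = Sm d F * x := by
  induction d generalizing F with
  | zero => rfl
  | succ d ih =>
    simp only [Sm, ← Finset.sum_mul]
    rw [ih]

theorem good_Sm {X : Type} [AddCommMonoid X] [Finite X] (d : ℕ) (G : List A → List A → X)
    (h : ∀ l, l.length = d → Good (G l)) : Good (fun w => Sm d (fun l => G l w)) := by
  induction d generalizing G with
  | zero => exact h [] rfl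
  | succ d ih =>
    refine ih (fun l w => ∑ y : A, G (y :: l) w) (fun l hl => ?_)
    exact Good.finset_sum _ (fun y _ => h (y :: l) (by simp [hl]))

variable {p : ℕ} [CharP R p]

/-- The expansion of the part of degree `d` by subword counts. -/
theorem Td_eq [Fact p.Prime] (d : ℕ) (w : List A) :
    Td N d w = Sm d (fun l => (ZMod.castHom (dvd_refl p) R) (Cw p l w) * Nr N l) := by
  induction d generalizing w with
  | zero => simp [Td, Sm, Cw, Nr]
  | succ d ih =>
    induction w using List.reverseRecOn with
    | nil =>
      have e : (fun l : List A => ∑ y : A, (ZMod.castHom (dvd_refl p) R) (Cw p (y :: l) []) * Nr N (y :: l))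
          = fun _ => 0 := by
        funext l
        simp [Cw]
      simp only [Td, pfN_nil, Sm]
      rw [e, Sm_zero]
    | append_singleton w a ihw =>
      have e : (fun l : List A =>
          ∑ y : A, (ZMod.castHom (dvd_refl p) R) (Cw p (y :: l) (w ++ [a])) * Nr N (y :: l)) =
          fun l => ∑ y : A, (ZMod.castHom (dvd_refl p) R) (Cw p (y :: l) w) * Nr N (y :: l) +
            (ZMod.castHom (dvd_refl p) R) (Cw p l w) * Nr N l * N a := by
        funext l
        have e1 : ∀ y : A, (ZMod.castHom (dvd_refl p) R) (Cw p (y :: l) (w ++ [a])) * Nr N (y :: l) =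
            (ZMod.castHom (dvd_refl p) R) (Cw p (y :: l) w) * Nr N (y :: l) +
              if y = a then (ZMod.castHom (dvd_refl p) R) (Cw p l w) * Nr N l * N y else 0 := by
          intro y
          change (ZMod.castHom (dvd_refl p) R) (pfp y (Cw p l) (w ++ [a])) * Nr N (y :: l) = _
          rw [pfp_snoc]
          by_cases h : y = a
          · subst h
            simp only [if_true, map_add, add_mul, Nr, mul_assoc]
            rfl
          · have h' : ¬ a = y := fun k => h k.symm
            simp only [h, h', if_false, map_add, map_zero, add_zero, zero_mul]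
            rfl
        simp only [e1, Finset.sum_add_distrib, Finset.sum_ite_eq', Finset.mem_univ, if_true]
      have h1 : Td N (d + 1) (w ++ [a]) = Td N (d + 1) w + Td N d w * N a := by
        simp only [Td, pfN_snoc]
      rw [h1, ihw, ih w]
      simp only [Sm]
      rw [e, Sm_add, Sm_mul_right]

/-- The products of `D + 1` letters vanish, so the part of degree `D` stops the product. -/
theorem Td_mul_eq_zero (D : ℕ)
    (hN : ∀ l : List A, l.length = D + 1 → (l.map N).prod = 0) (d : ℕ) (l : List A)
    (hl : d + l.length = D + 1) (w : List A) : Td N d w * (l.map N).prod = 0 := by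
  induction d generalizing l w with
  | zero =>
    have : l.length = D + 1 := by omega
    simp [Td, hN l this]
  | succ d ih =>
    induction w using List.reverseRecOn with
    | nil => simp [Td]
    | append_singleton w a ihw =>
      have h1 : Td N (d + 1) (w ++ [a]) = Td N (d + 1) w + Td N d w * N a := by
        simp only [Td, pfN_snoc]
      rw [h1, add_mul, ihw, zero_add, mul_assoc]
      have := ih (a :: l) (by simp; omega) w
      simpa using this

/-- The product is the sum of its parts. -/
theorem prod_eq_sum_Td (D : ℕ) (hN : ∀ l : List A, l.length = D + 1 → (l.map N).prod = 0)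
    (w : List A) :
    (w.map (fun a => 1 + N a)).prod = ∑ d ∈ Finset.range (D + 1), Td N d w := by
  induction w using List.reverseRecOn with
  | nil =>
    simp only [List.map_nil, List.prod_nil]
    rw [Finset.sum_range_succ']
    have : ∀ d ∈ Finset.range D, Td N (d + 1) [] = 0 := by
      intro d _
      simp [Td]
    rw [Finset.sum_eq_zero this, zero_add]
    rfl
  | append_singleton w a ih =>
    rw [List.map_append, List.prod_append, ih]
    simp only [List.map_cons, List.map_nil, List.prod_cons, List.prod_nil, mul_one]
    rw [mul_add, mul_one, Finset.sum_mul]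
    have hz : Td N D w * N a = 0 := by
      have := Td_mul_eq_zero N D hN D [a] (by simp) w
      simpa using this
    have e1 : ∀ d, Td N (d + 1) (w ++ [a]) = Td N (d + 1) w + Td N d w * N a := by
      intro d
      simp only [Td, pfN_snoc]
    rw [Finset.sum_range_succ (fun d => Td N d w * N a), hz, add_zero,
      Finset.sum_range_succ' (fun d => Td N d (w ++ [a])), Finset.sum_range_succ' (fun d => Td N d w)]
    simp only [e1, Finset.sum_add_distrib]
    have e0 : Td N 0 (w ++ [a]) = Td N 0 w := rfl
    rw [e0]
    abel

/-- All products are good as soon as the subword counts of length at most `D` are. -/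
theorem good_prod_of_Cw [Fact p.Prime] [Finite R] (D : ℕ)
    (hN : ∀ l : List A, l.length = D + 1 → (l.map N).prod = 0)
    (hC : ∀ v : List A, v.length ≤ D → Good (Cw p v)) :
    Good (fun w : List A => (w.map (fun a => 1 + N a)).prod) := by
  have h1 : ∀ d ∈ Finset.range (D + 1), Good (Td N d : List A → R) := by
    intro d hd
    have hd' : d ≤ D := by simpa [Nat.lt_succ_iff] using hd
    have h2 := good_Sm (A := A) d (fun l w => (ZMod.castHom (dvd_refl p) R) (Cw p l w) * Nr N l)
      (fun l hl => (hC l (by omega)).comp (fun c => (ZMod.castHom (dvd_refl p) R) c * Nr N l))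
    exact h2.congr' fun w => (Td_eq N d w).symm
  exact (Good.finset_sum _ h1).congr' fun w => (prod_eq_sum_Td N D hN w).symm

end NilRing

/-- Every word map into `1 + J`, `J` a ring ideal with `J ^ 5 = 0`, in characteristic an odd prime,
has generalized star height at most one. -/
theorem heightLE_of_nil_five {A R : Type} [Finite A] [Ring R] [Finite R] (p : ℕ) (hp : p.Prime)
    (hp2 : p ≠ 2) [CharP R p] (φ : A → R)
    (h : ∀ a b c d e : A, (φ a - 1) * (φ b - 1) * (φ c - 1) * (φ d - 1) * (φ e - 1) = 0)
    (S : Set R) : HeightLE 1 {w : List A | (w.map φ).prod ∈ S} := by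
  classical
  have : Fact p.Prime := ⟨hp⟩
  have : Fintype A := Fintype.ofFinite A
  have hp3 : 3 ≤ p := by
    have := hp.two_le
    omega
  have hN : ∀ l : List A, l.length = 4 + 1 → (l.map (fun a => φ a - 1)).prod = 0 := by
    intro l hl
    match l, hl with
    | [a, b, c, d, e], _ =>
      have := h a b c d e
      simp only [List.map_cons, List.map_nil, List.prod_cons, List.prod_nil, mul_one]
      simpa [mul_assoc] using this
  have hg := good_prod_of_Cw (p := p) (fun a => φ a - 1) 4 hN (fun v hv => good_Cw hp3 v hv)
  have e : ∀ w : List A, (w.map (fun a => 1 + (φ a - 1))).prod = (w.map φ).prod := by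
    intro w
    simp
  have := hg.preimage S
  simpa only [e] using this

end Vale.Agent.Lib.P329
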