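import Vale.Agent.Lib.P329.Counts

/-!
Languages recognized by finite nilpotent groups of class at most three have generalized star
height at most one.  The proof eliminates the letters one at a time with an explicit formula for
the value of a word, whose exponents are subsequence counts of length at most three.
-/

namespace Vale.Agent.Lib.P329

section Abstract

variable {A G V : Type} [Group G] [CommGroup V] [DecidableEq A] [Fintype A]

theorem prod_pow_ite {ι : Type} [DecidableEq ι] [Fintype ι] (v : ι → V) (x : ι) (m : ℕ) :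
    ∏ c, v c ^ (if c = x then m else 0) = v x ^ m := by
  rw [Finset.prod_eq_single x]
  · simp
  · intro b _ hb
    simp [hb]
  · intro h
    exact absurd (Finset.mem_univ x) h

/-- The abstract data for the elimination of one letter. -/
structure ElimData (A G V : Type) [Group G] [CommGroup V] where
  ι : V →* G
  hι : Function.Injective ι
  cz : G → V →* V
  T : Subgroup V
  hconj : ∀ y v, y⁻¹ * ι v * y = ι (v * cz y v)
  hT1 : ∀ y v, cz y v ∈ T
  hT2 : ∀ y t, t ∈ T → cz y t = 1
  g : G
  K : G → V
  hK : ∀ x, ι (K x) = x⁻¹ * g⁻¹ * x * g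
  φ' : A → G

variable (D : ElimData A G V)

namespace ElimData

/-- first level generators -/
def z (d : A) : V := D.K (D.φ' d)
/-- second level generators -/
def t (d c : A) : V := D.cz (D.φ' c) (D.z d)
/-- second level generators -/
def s (d : A) : V := D.cz D.g (D.z d)

theorem t_mem (d c : A) : D.t d c ∈ D.T := D.hT1 _ _
theorem s_mem (d : A) : D.s d ∈ D.T := D.hT1 _ _

theorem cz_one (v : V) : D.cz 1 v = 1 := by
  have h := D.hconj 1 v
  simp only [inv_one, one_mul, mul_one] at h
  have h2 : v = v * D.cz 1 v := D.hι h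
  exact (mul_eq_left.1 h2.symm)

theorem K_mul (x y : G) : D.K (x * y) = D.K x * D.cz y (D.K x) * D.K y := by
  apply D.hι
  rw [map_mul, ← D.hconj y (D.K x)]
  rw [D.hK, D.hK, D.hK]
  group

/-- Linear part. -/
def C1 (w : List A) : V := ∏ d, D.z d ^ subCount [d] w
/-- Quadratic part. -/
def C2 (w : List A) : V := ∏ d, ∏ c, D.t d c ^ subCount [d, c] w

theorem C2_mem (w : List A) : D.C2 w ∈ D.T :=
  Subgroup.prod_mem _ (fun d _ => Subgroup.prod_mem _ (fun c _ => Subgroup.pow_mem _ (D.t_mem d c) _))

theorem cz_C1 (y : G) (w : List A) :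
    D.cz y (D.C1 w) = ∏ d, D.cz y (D.z d) ^ subCount [d] w := by
  simp [C1, map_prod, map_pow]

theorem C1_snoc (w : List A) (x : A) : D.C1 (w ++ [x]) = D.C1 w * D.z x := by
  simp only [C1, subCount_snoc1, pow_add, Finset.prod_mul_distrib]
  congr 1
  have := prod_pow_ite D.z x 1
  simpa using this

theorem C2_snoc (w : List A) (x : A) :
    D.C2 (w ++ [x]) = D.C2 w * ∏ d, D.t d x ^ subCount [d] w := by
  simp only [C2, subCount_snoc2, pow_add, Finset.prod_mul_distrib]
  congr 1
  refine Finset.prod_congr rfl (fun d _ => ?_)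
  exact prod_pow_ite (fun c => D.t d c) x _

/-- The commutator of the value of a word with `g`. -/
theorem K_wval (w : List A) : D.K (wval D.φ' w) = D.C1 w * D.C2 w := by
  induction w using List.reverseRecOn with
  | nil =>
    have h1 : D.K 1 = 1 := by
      apply D.hι
      rw [D.hK]
      simp
    simp [C1, C2, subCount, h1, subCount_nil_right]
  | append_singleton w x ih =>
    rw [wval_append, wval_cons, wval_nil, mul_one, K_mul, ih, map_mul,
      D.hT2 _ _ (D.C2_mem w), mul_one, cz_C1, C1_snoc, C2_snoc]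
    have : (∏ d, D.cz (D.φ' x) (D.z d) ^ subCount [d] w) = ∏ d, D.t d x ^ subCount [d] w := rfl
    rw [this]
    change D.C1 w * D.C2 w * (∏ d, D.t d x ^ subCount [d] w) * D.z x = _
    simp only [mul_comm, mul_left_comm, mul_assoc]

/-- Main part: `X`. -/
def X (a : A) (w : List A) : V := ∏ d, D.z d ^ subCount [d, a] w
/-- Main part: `Y`. -/
def Y (a : A) (w : List A) : V :=
  ∏ d, ∏ c, D.t d c ^ (subCount [d, c, a] w + subCount [d, a, c] w)
/-- Main part: `U`. -/
def U (a : A) (w : List A) : V := ∏ d, D.s d ^ subCount [d, a, a] w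
/-- The correction term. -/
def P (a : A) (w : List A) : V := D.X a w * (D.Y a w * D.U a w)

theorem Y_mem (a : A) (w : List A) : D.Y a w ∈ D.T :=
  Subgroup.prod_mem _ (fun d _ => Subgroup.prod_mem _ (fun c _ => Subgroup.pow_mem _ (D.t_mem d c) _))

theorem U_mem (a : A) (w : List A) : D.U a w ∈ D.T :=
  Subgroup.prod_mem _ (fun d _ => Subgroup.pow_mem _ (D.s_mem d) _)

theorem cz_P (y : G) (a : A) (w : List A) :
    D.cz y (D.P a w) = ∏ d, D.cz y (D.z d) ^ subCount [d, a] w := by
  rw [P, map_mul, map_mul, D.hT2 _ _ (D.Y_mem a w), D.hT2 _ _ (D.U_mem a w)]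
  simp [X, map_prod, map_pow]

theorem X_snoc_ne {a x : A} (h : a ≠ x) (w : List A) : D.X a (w ++ [x]) = D.X a w := by
  simp [X, subCount_snoc2, h]

theorem X_snoc_eq (a : A) (w : List A) : D.X a (w ++ [a]) = D.X a w * D.C1 w := by
  simp [X, C1, subCount_snoc2, pow_add, Finset.prod_mul_distrib]

theorem U_snoc_ne {a x : A} (h : a ≠ x) (w : List A) : D.U a (w ++ [x]) = D.U a w := by
  simp [U, subCount_snoc3, h]

theorem U_snoc_eq (a : A) (w : List A) :
    D.U a (w ++ [a]) = D.U a w * ∏ d, D.s d ^ subCount [d, a] w := by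
  simp [U, subCount_snoc3, pow_add, Finset.prod_mul_distrib]

theorem Y_snoc_ne {a x : A} (h : a ≠ x) (w : List A) :
    D.Y a (w ++ [x]) = D.Y a w * ∏ d, D.t d x ^ subCount [d, a] w := by
  simp only [Y, subCount_snoc3, h, if_false, add_zero, ← add_assoc, pow_add,
    Finset.prod_mul_distrib]
  congr 1
  refine Finset.prod_congr rfl (fun d _ => ?_)
  exact prod_pow_ite (fun c => D.t d c) x _

theorem Y_snoc_eq (a : A) (ha : D.φ' a = 1) (w : List A) :
    D.Y a (w ++ [a]) = D.Y a w * D.C2 w := by
  have hta : ∀ d, D.t d a = 1 := by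
    intro d
    simp only [t, ha]
    exact D.cz_one _
  have key : ∀ d, (∏ c, D.t d c ^ (if c = a then subCount [d, a] w else 0)) = 1 := by
    intro d
    rw [prod_pow_ite (fun c => D.t d c) a _, hta, one_pow]
  simp only [Y, C2, subCount_snoc3, if_true, pow_add, Finset.prod_mul_distrib, key, mul_one]
  simp only [← Finset.prod_mul_distrib]
  refine Finset.prod_congr rfl (fun d _ => Finset.prod_congr rfl (fun c _ => ?_))
  exact mul_right_comm _ _ _

/-- The explicit formula for the value of a word. -/
theorem main_identity (a : A) (ha : D.φ' a = 1) (φ : A → G) (hφa : φ a = D.g)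
    (hφ : ∀ x, x ≠ a → φ x = D.φ' x) (w : List A) :
    wval φ w = D.g ^ subCount [a] w * wval D.φ' w * D.ι (D.P a w) := by
  induction w using List.reverseRecOn with
  | nil =>
    have : D.P a [] = 1 := by
      simp [P, X, Y, U, subCount, subCount_nil_right]
    simp [this, subCount]
  | append_singleton w x ih =>
    by_cases hx : x = a
    · subst hx
      rw [wval_append, wval_append, wval_cons, wval_nil, wval_cons, wval_nil, mul_one, mul_one, ha,
        mul_one, ih, hφa, subCount_snoc1]
      simp only [if_true, pow_add, pow_one]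
      have hP : D.P x (w ++ [x]) = D.K (wval D.φ' w) * (D.P x w * D.cz D.g (D.P x w)) := by
        rw [K_wval, cz_P]
        have : (∏ d, D.cz D.g (D.z d) ^ subCount [d, x] w) = ∏ d, D.s d ^ subCount [d, x] w := rfl
        rw [this]
        simp only [P]
        rw [X_snoc_eq, Y_snoc_eq _ _ ha, U_snoc_eq]
        simp only [mul_comm, mul_left_comm, mul_assoc]
      rw [hP, map_mul, ← D.hconj D.g (D.P x w), D.hK]
      group
    · have hne : a ≠ x := Ne.symm hx
      rw [wval_append, wval_append, wval_cons, wval_nil, wval_cons, wval_nil, mul_one, mul_one,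
        hφ x hx, ih, subCount_snoc1]
      simp only [hne, if_false, add_zero]
      have hP : D.P a (w ++ [x]) = D.P a w * D.cz (D.φ' x) (D.P a w) := by
        rw [cz_P]
        have : (∏ d, D.cz (D.φ' x) (D.z d) ^ subCount [d, a] w) =
            ∏ d, D.t d x ^ subCount [d, a] w := rfl
        rw [this]
        simp only [P]
        rw [X_snoc_ne _ hne, Y_snoc_ne _ hne, U_snoc_ne _ hne]
        simp only [mul_comm, mul_left_comm, mul_assoc]
      rw [hP, ← D.hconj (D.φ' x) (D.P a w)]
      group

end ElimData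

end Abstract

section Concrete

open scoped commutatorElement

variable {G : Type} [Group G]

theorem comm_mem_two (x y : G) : x⁻¹ * y⁻¹ * x * y ∈ (⊤ : Subgroup G).lowerCentralSeries 1 := by
  have h : ⁅x⁻¹, y⁻¹⁆ ∈ ⁅(⊤ : Subgroup G), (⊤ : Subgroup G)⁆ :=
    Subgroup.commutator_mem_commutator (Subgroup.mem_top _) (Subgroup.mem_top _)
  simpa [commutatorElement_def] using h

theorem comm_mem_three {x : G} (hx : x ∈ (⊤ : Subgroup G).lowerCentralSeries 1) (y : G) :
    x⁻¹ * y⁻¹ * x * y ∈ (⊤ : Subgroup G).lowerCentralSeries 2 := by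
  have h : ⁅x⁻¹, y⁻¹⁆ ∈ ⁅(⊤ : Subgroup G).lowerCentralSeries 1, (⊤ : Subgroup G)⁆ :=
    Subgroup.commutator_mem_commutator (((⊤ : Subgroup G).lowerCentralSeries 1).inv_mem hx) (Subgroup.mem_top _)
  simpa [commutatorElement_def] using h

theorem central_three (hG : (⊤ : Subgroup G).lowerCentralSeries 3 = ⊥) {x : G}
    (hx : x ∈ (⊤ : Subgroup G).lowerCentralSeries 2) (y : G) : x * y = y * x := by
  have h : ⁅x, y⁆ ∈ ⁅(⊤ : Subgroup G).lowerCentralSeries 2, (⊤ : Subgroup G)⁆ :=
    Subgroup.commutator_mem_commutator hx (Subgroup.mem_top _)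
  have h2 : ⁅(⊤ : Subgroup G).lowerCentralSeries 2, (⊤ : Subgroup G)⁆ = ⊥ := hG
  rw [h2, Subgroup.mem_bot] at h
  exact commutatorElement_eq_one_iff_mul_comm.1 h

theorem commute_two (hG : (⊤ : Subgroup G).lowerCentralSeries 3 = ⊥) {x y : G}
    (hx : x ∈ (⊤ : Subgroup G).lowerCentralSeries 1) (hy : y ∈ (⊤ : Subgroup G).lowerCentralSeries 1) : x * y = y * x := by
  have hbot : ⁅⁅(⊤ : Subgroup G), (⊤ : Subgroup G)⁆, (⊤ : Subgroup G).lowerCentralSeries 1⁆ = ⊥ := by
    apply Subgroup.commutator_commutator_eq_bot_of_rotate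
    · rw [Subgroup.commutator_comm ⊤ ((⊤ : Subgroup G).lowerCentralSeries 1)]
      exact hG
    · exact hG
  have h : ⁅x, y⁆ ∈ ⁅⁅(⊤ : Subgroup G), (⊤ : Subgroup G)⁆, (⊤ : Subgroup G).lowerCentralSeries 1⁆ :=
    Subgroup.commutator_mem_commutator hx hy
  rw [hbot, Subgroup.mem_bot] at h
  exact commutatorElement_eq_one_iff_mul_comm.1 h

/-- The commutator subgroup of a group of class at most three is commutative. -/
@[reducible] def commTwo (hG : (⊤ : Subgroup G).lowerCentralSeries 3 = ⊥) : CommGroup ((⊤ : Subgroup G).lowerCentralSeries 1) :=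
  { (inferInstance : Group ((⊤ : Subgroup G).lowerCentralSeries 1)) with
    mul_comm := fun a b => Subtype.ext (commute_two hG a.2 b.2) }

theorem two_le (x : G) (hx : x ∈ (⊤ : Subgroup G).lowerCentralSeries 2) : x ∈ (⊤ : Subgroup G).lowerCentralSeries 1 :=
  Subgroup.lowerCentralSeries_antitone _ (by norm_num : 1 ≤ 2) hx

/-- The elimination data of a group of class at most three. -/
def elimData {A : Type} (hG : (⊤ : Subgroup G).lowerCentralSeries 3 = ⊥) (g : G) (φ' : A → G) :
    @ElimData A G ((⊤ : Subgroup G).lowerCentralSeries 1) _ (commTwo hG) :=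
  letI := commTwo hG
  { ι := ((⊤ : Subgroup G).lowerCentralSeries 1).subtype
    hι := Subtype.val_injective
    cz := fun y =>
      { toFun := fun v => ⟨v.1⁻¹ * y⁻¹ * v.1 * y, two_le _ (comm_mem_three v.2 y)⟩
        map_one' := by
          apply Subtype.ext
          simp
        map_mul' := by
          intro v v'
          apply Subtype.ext
          change (v.1 * v'.1)⁻¹ * y⁻¹ * (v.1 * v'.1) * y =
            (v.1⁻¹ * y⁻¹ * v.1 * y) * (v'.1⁻¹ * y⁻¹ * v'.1 * y)
          have hc := central_three hG (comm_mem_three v.2 y) (v'.1⁻¹)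
          have hrw : (v.1⁻¹ * y⁻¹ * v.1 * y) * (v'.1⁻¹ * y⁻¹ * v'.1 * y) =
              (v.1⁻¹ * y⁻¹ * v.1 * y * v'.1⁻¹) * (y⁻¹ * v'.1 * y) := by group
          rw [hrw, hc]
          group }
    T := ((⊤ : Subgroup G).lowerCentralSeries 2).subgroupOf ((⊤ : Subgroup G).lowerCentralSeries 1)
    hconj := by
      intro y v
      change y⁻¹ * v.1 * y = v.1 * (v.1⁻¹ * y⁻¹ * v.1 * y)
      group
    hT1 := by
      intro y v
      exact Subgroup.mem_subgroupOf.2 (comm_mem_three v.2 y)
    hT2 := by
      intro y t ht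
      apply Subtype.ext
      have ht' : t.1 ∈ (⊤ : Subgroup G).lowerCentralSeries 2 := Subgroup.mem_subgroupOf.1 ht
      change t.1⁻¹ * y⁻¹ * t.1 * y = 1
      have hc := central_three hG ht' y⁻¹
      rw [mul_assoc t.1⁻¹, ← hc]
      group
    g := g
    K := fun x => ⟨x⁻¹ * g⁻¹ * x * g, comm_mem_two x g⟩
    hK := fun _ => rfl
    φ' := φ' }

/-- Powers with good exponents. -/
theorem good_pow {A H : Type} [Monoid H] [Finite H] (n : ℕ) [NeZero n] (hn : ∀ u : H, u ^ n = 1)
    (u : H) {E : List A → ℕ} (hE : Good (fun w => ((E w : ℕ) : ZMod n))) :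
    Good (fun w => u ^ E w) := by
  refine Good.of_factor hE (fun w w' e => ?_)
  have h1 : E w % n = E w' % n := (ZMod.natCast_eq_natCast_iff' _ _ _).1 e
  rw [← Nat.mod_add_div (E w) n, ← Nat.mod_add_div (E w') n, h1, pow_add, pow_add, pow_mul,
    pow_mul, hn]
  simp

theorem wval_eq_one {A : Type} {φ : A → G} (h : ∀ x, φ x = 1) (w : List A) : wval φ w = 1 := by
  induction w with
  | nil => rfl
  | cons a w ih => rw [wval_cons, h, ih, one_mul]

/-- Every letter assignment into a finite group of class at most three gives a good value map. -/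
theorem good_wval_class_three {A : Type} [Finite A] [Finite G] (hG : (⊤ : Subgroup G).lowerCentralSeries 3 = ⊥) :
    ∀ s : Set A, s.Finite → ∀ φ : A → G, (∀ x, x ∉ s → φ x = 1) → Good (wval φ) := by
  classical
  have : Fintype A := Fintype.ofFinite A
  intro s hs
  induction s, hs using Set.Finite.induction_on with
  | empty =>
    intro φ hφ
    have : wval φ = fun _ => (1 : G) := by
      funext w
      exact wval_eq_one (fun x => hφ x (by simp)) w
    rw [this]
    exact Good.const _
  | @insert a s _ _ ih =>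
    intro φ hφ
    let φ' : A → G := fun x => if x = a then 1 else φ x
    have hφ' : ∀ x, x ∉ s → φ' x = 1 := by
      intro x hx
      by_cases hxa : x = a
      · simp [φ', hxa]
      · simp only [φ', hxa, if_false]
        apply hφ x
        intro h
        rcases h with h | h
        · exact hxa h
        · exact hx h
    have hgood' := ih φ' hφ'
    let _ := commTwo hG
    let D := elimData hG (φ a) φ'
    have hmain := fun w => D.main_identity a (by simp [D, elimData, φ']) φ rfl
      (fun x hx => by simp [D, elimData, φ', hx]) w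
    have hfun : wval φ = fun w => D.g ^ subCount [a] w * wval D.φ' w * D.ι (D.P a w) := by
      funext w
      exact hmain w
    rw [hfun]
    -- the exponents
    have hnG : NeZero (Nat.card G) := ⟨Nat.card_pos.ne'⟩
    have hnV : NeZero (Nat.card ((⊤ : Subgroup G).lowerCentralSeries 1)) := ⟨Nat.card_pos.ne'⟩
    have hpowG : ∀ u : G, u ^ Nat.card G = 1 := fun u => pow_card_eq_one'
    have hpowV : ∀ u : (⊤ : Subgroup G).lowerCentralSeries 1, u ^ Nat.card ((⊤ : Subgroup G).lowerCentralSeries 1) = 1 :=
      fun u => pow_card_eq_one'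
    have h1 : Good (fun w : List A => D.g ^ subCount [a] w) :=
      good_pow _ hpowG _ (good_subCount [a] (by simp))
    have hX : Good (fun w : List A => D.X a w) :=
      Good.finset_prod _ (fun d _ => good_pow _ hpowV _ (good_subCount [d, a] (by simp)))
    have hY : Good (fun w : List A => D.Y a w) := by
      refine Good.finset_prod _ (fun d _ => Good.finset_prod _ (fun c _ => ?_))
      refine good_pow _ hpowV _ ?_
      simp only [Nat.cast_add]
      exact (good_subCount [d, c, a] (by simp)).add (good_subCount [d, a, c] (by simp))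
    have hU : Good (fun w : List A => D.U a w) :=
      Good.finset_prod _ (fun d _ => good_pow _ hpowV _ (good_subCount [d, a, a] (by simp)))
    have hP : Good (fun w : List A => D.P a w) := hX.mul (hY.mul hU)
    exact (h1.mul hgood').mul (hP.comp (fun v => D.ι v))

/-- **Nilpotent groups of class at most three.**  Every language over a finite alphabet recognized
by a finite group `G` with `γ₄(G) = 1` has generalized star height at most one. -/
theorem heightLE_of_class_three {A : Type} [Finite A] [Finite G]
    (hG : (⊤ : Subgroup G).lowerCentralSeries 3 = ⊥) (φ : A → G) (S : Set G) :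
    HeightLE 1 {w : List A | (w.map φ).prod ∈ S} := by
  have := good_wval_class_three hG Set.univ Set.finite_univ φ (fun x hx => absurd (Set.mem_univ x) hx)
  exact this.preimage S

end Concrete

end Vale.Agent.Lib.P329
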