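import Vale.Agent.Lib.P329.Charge

/-!
Walks on `ZMod p`, `p` prime, with arbitrary steps.  The number of occurrences of a letter at a
given position of the walk has good residues, for all moduli.
-/

namespace Vale.Agent.Lib.P329

section PairFlow

open Classical

variable {A : Type} {p : ℕ} [Fact p.Prime] (stp : A → ZMod p)

/-- The walk. -/
def wk (a : A) (z : ZMod p) : ZMod p := z + stp a

theorem run_wk (z : ZMod p) (w : List A) : run (wk stp) z w = z + jd stp w := by
  induction w generalizing z with
  | nil => simp
  | cons a w ih =>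
    rw [run_cons, wk, ih, jd_cons, add_assoc]

variable {stp}

/-- A word of nonzero displacement contains a moving letter. -/
theorem exists_moving {u : List A} (h : jd stp u ≠ 0) :
    ∃ w₁ b w₂, u = w₁ ++ b :: w₂ ∧ stp b ≠ 0 := by
  induction u with
  | nil => simp at h
  | cons a u ih =>
    by_cases ha : stp a = 0
    · have h' : jd stp u ≠ 0 := by
        rw [jd_cons, ha, zero_add] at h
        exact h
      obtain ⟨w₁, b, w₂, e, hb⟩ := ih h'
      exact ⟨a :: w₁, b, w₂, by simp [e], hb⟩
    · exact ⟨[], a, u, rfl, ha⟩

/-- The phase at which a given target is reached. -/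
theorem exists_phase (D t : ZMod p) (hD : D ≠ 0) : ∃ k : ℕ, (k : ZMod p) * D = t := by
  refine ⟨(t / D).val, ?_⟩
  rw [ZMod.natCast_zmod_val]
  field_simp

/-- The transitions of the arrival machine at `j`: moving letters arriving at `j`, and the letters
of `B` read at `j`. -/
def arrPF (B : A → Prop) (j : ZMod p) (b : A) (z : ZMod p) : Prop :=
  z + stp b = j ∧ (stp b ≠ 0 ∨ B b)

theorem arr_H (B : A → Prop) (j : ZMod p) (u : List A) (z : ZMod p) (m : ℕ) (hm : 0 < m)
    (hcl : run (wk stp) z (rep u m) = z) (h0 : fcc (wk stp) (arrPF (stp := stp) B j) z (rep u m) = 0) :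
    run (wk stp) z u = z := by
  rw [run_wk]
  by_cases hD : jd stp u = 0
  · rw [hD, add_zero]
  · exfalso
    obtain ⟨w₁, b, w₂, e, hb⟩ := exists_moving hD
    obtain ⟨k, hk⟩ := exists_phase (jd stp u) (j - z - jd stp w₁ - stp b) hD
    refine not_charged_of_rep hm hcl h0 k w₁ w₂ b e ⟨?_, Or.inl hb⟩
    rw [run_wk, jd_append, jd_rep, hk]
    ring

theorem arr_hC (B : A → Prop) (j : ZMod p) (b : A) (z : ZMod p)
    (h : arrPF (stp := stp) B j b z) : wk stp b z = j := h.1

variable (stp) in
/-- The position reached by the walk has good values. -/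
theorem good_jd [Finite A] (z : ZMod p) : Good (fun w : List A => z + jd stp w) := by
  have h := good_run_of_chg (arr_hC (stp := stp) (fun _ => False) 0)
    (fun u q m hm hcl h0 => arr_H _ _ u q m hm hcl h0) z
  simpa only [run_wk] using h

variable (stp) in
/-- The number of occurrences of the letter `a` at the position `j`. -/
noncomputable def occ (a : A) (j : ZMod p) (w : List A) : ℕ :=
  fcc (wk stp) (fun b z => b = a ∧ z = j) 0 w

/-- Occurrences of a stationary letter are good. -/
theorem goodZ_occ_stationary [Finite A] {a : A} (ha : stp a = 0) (j : ZMod p) :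
    GoodZ (fun w : List A => ((occ stp a j w : ℕ) : ℤ)) := by
  have h1 := goodZ_fcc (arr_hC (stp := stp) (fun b => b = a) j)
    (fun u q m hm hcl h0 => arr_H _ _ u q m hm hcl h0) 0
  have h2 := goodZ_fcc (arr_hC (stp := stp) (fun _ => False) j)
    (fun u q m hm hcl h0 => arr_H _ _ u q m hm hcl h0) 0
  refine (h1.sub h2).congr (fun w => ?_)
  suffices h : ∀ z : ZMod p, ((fcc (wk stp) (arrPF (stp := stp) (fun b => b = a) j) z w : ℕ) : ℤ) -
      ((fcc (wk stp) (arrPF (stp := stp) (fun _ => False) j) z w : ℕ) : ℤ) =
      ((fcc (wk stp) (fun b z => b = a ∧ z = j) z w : ℕ) : ℤ) from h 0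
  intro z
  induction w generalizing z with
  | nil => simp
  | cons b w ih =>
    simp only [fcc_cons]
    push_cast
    have := ih (wk stp b z)
    have e : (if arrPF (stp := stp) (fun b => b = a) j b z then (1 : ℤ) else 0) -
        (if arrPF (stp := stp) (fun _ => False) j b z then (1 : ℤ) else 0) =
        if b = a ∧ z = j then 1 else 0 := by
      by_cases hb : stp b = 0
      · by_cases hba : b = a
        · simp [arrPF, hba, ha]
        · simp [arrPF, hb, hba]
      · have hba : b ≠ a := fun e => hb (e ▸ ha)
        simp [arrPF, hb, hba]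
    linarith


variable (stp) in
/-- The pair machine: the position, and a flag which records that the last moving letter was `c`
and the position is not `e`. -/
noncomputable def prStep (c : A) (e : ZMod p) (b : A) (q : ZMod p × Bool) : ZMod p × Bool :=
  if stp b = 0 then q else (q.1 + stp b, decide (q.1 + stp b ≠ e ∧ b = c))

variable (stp) in
/-- Moving letters arriving at `e`. -/
def prA (e : ZMod p) (b : A) (q : ZMod p × Bool) : Prop := stp b ≠ 0 ∧ q.1 + stp b = e

variable (stp) in
/-- Moving letters arriving at `e`, apart from the letter `d` after the flag was set. -/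
def prB (d : A) (e : ZMod p) (b : A) (q : ZMod p × Bool) : Prop :=
  prA stp e b q ∧ ¬ (q.2 = true ∧ b = d)

theorem prStep_stationary {c : A} {e : ZMod p} {b : A} (hb : stp b = 0) (q : ZMod p × Bool) :
    prStep stp c e b q = q := by
  simp [prStep, hb]

theorem prStep_moving {c : A} {e : ZMod p} {b : A} (hb : stp b ≠ 0) (q : ZMod p × Bool) :
    prStep stp c e b q = (q.1 + stp b, decide (q.1 + stp b ≠ e ∧ b = c)) := by
  simp [prStep, hb]

theorem pr_fst (c : A) (e : ZMod p) (q : ZMod p × Bool) (w : List A) :
    (run (prStep stp c e) q w).1 = q.1 + jd stp w := by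
  induction w generalizing q with
  | nil => simp
  | cons b w ih =>
    rw [run_cons, ih, jd_cons]
    by_cases hb : stp b = 0
    · rw [prStep_stationary hb, hb, zero_add]
    · rw [prStep_moving hb, add_assoc]

theorem pr_fix {c : A} {e : ZMod p} {u : List A} (h : ∀ b ∈ u, stp b = 0) (q : ZMod p × Bool) :
    run (prStep stp c e) q u = q := by
  induction u with
  | nil => rfl
  | cons a u ih =>
    rw [run_cons, prStep_stationary (h a (by simp))]
    exact ih (fun b hb => h b (List.mem_cons_of_mem _ hb))

theorem pr_indep {c : A} {e : ZMod p} {u : List A} (h : ∃ b ∈ u, stp b ≠ 0) (z : ZMod p)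
    (f f' : Bool) : run (prStep stp c e) (z, f) u = run (prStep stp c e) (z, f') u := by
  induction u with
  | nil => simp at h
  | cons a u ih =>
    rw [run_cons, run_cons]
    by_cases ha : stp a = 0
    · rw [prStep_stationary ha, prStep_stationary ha]
      apply ih
      obtain ⟨b, hb, hb'⟩ := h
      rcases List.mem_cons.1 hb with rfl | hb
      · exact absurd ha hb'
      · exact ⟨b, hb, hb'⟩
    · rw [prStep_moving ha, prStep_moving ha]

theorem pr_flag_keep {c : A} {e : ZMod p} {T : List A} (h : ∀ b ∈ T, stp b ≠ 0 → b ≠ c)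
    (q : ZMod p × Bool) (hq : q.2 = false) : (run (prStep stp c e) q T).2 = false := by
  induction T generalizing q with
  | nil => exact hq
  | cons a T ih =>
    rw [run_cons]
    refine ih (fun b hb => h b (List.mem_cons_of_mem _ hb)) _ ?_
    by_cases ha : stp a = 0
    · rw [prStep_stationary ha]; exact hq
    · rw [prStep_moving ha]
      have := h a (by simp) ha
      simp [this]

/-- The hub condition of the pair machine. -/
theorem pr_H {c d : A} (hcd : c ≠ d) (e : ZMod p) (u : List A) (q : ZMod p × Bool) (m : ℕ)
    (hm : 0 < m) (hcl : run (prStep stp c e) q (rep u m) = q)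
    (h0 : fcc (prStep stp c e) (prB stp d e) q (rep u m) = 0) :
    run (prStep stp c e) q u = q := by
  obtain ⟨z, f⟩ := q
  by_cases hD : jd stp u = 0
  · by_cases hmv : ∃ b ∈ u, stp b ≠ 0
    · obtain ⟨f₁, hf₁⟩ : ∃ f₁, run (prStep stp c e) (z, f) u = (z, f₁) := by
        refine ⟨(run (prStep stp c e) (z, f) u).2, Prod.ext ?_ rfl⟩
        rw [pr_fst, hD, add_zero]
      have hfix : run (prStep stp c e) (z, f₁) u = (z, f₁) := by
        rw [pr_indep hmv z f₁ f, hf₁]
      have hrep : ∀ n, run (prStep stp c e) (z, f₁) (rep u n) = (z, f₁) := by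
        intro n
        induction n with
        | zero => rfl
        | succ n ih => rw [rep, run_append, hfix, ih]
      obtain ⟨m', rfl⟩ : ∃ m', m = m' + 1 := ⟨m - 1, by omega⟩
      rw [rep, run_append, hf₁, hrep] at hcl
      rw [hf₁, hcl]
    · push Not at hmv
      exact pr_fix hmv _
  · exfalso
    by_cases hall : ∀ b ∈ u, stp b ≠ 0 → b = d
    · obtain ⟨w₁, b, w₂, he, hb⟩ := exists_moving hD
      have hbd : b = d := hall b (by rw [he]; simp) hb
      subst hbd
      have hnc : ∀ x ∈ u, stp x ≠ 0 → x ≠ c := by
        intro x hx hxm hxc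
        exact hcd (hxc.symm.trans (hall x hx hxm))
      obtain ⟨k, hk⟩ := exists_phase (jd stp u) (e - z - jd stp w₁ - stp b - jd stp u) hD
      refine not_charged_of_rep hm hcl h0 (k + 1) w₁ w₂ b he ?_
      refine ⟨⟨hb, ?_⟩, ?_⟩
      · rw [pr_fst, jd_append, jd_rep]
        push_cast
        have : ((k : ZMod p) + 1) * jd stp u = (k : ZMod p) * jd stp u + jd stp u := by ring
        rw [this, hk]
        ring
      · rintro ⟨hf, -⟩
        have e1 : rep u (k + 1) ++ w₁ = (rep u k ++ w₁ ++ [b]) ++ (w₂ ++ w₁) := by
          rw [rep_add, rep_one]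
          have e2 : rep u k ++ u ++ w₁ = rep u k ++ (w₁ ++ b :: w₂) ++ w₁ := by rw [← he]
          rw [e2]
          simp
        rw [e1, run_append] at hf
        have h2 : (run (prStep stp c e) (run (prStep stp c e) (z, f) (rep u k ++ w₁ ++ [b]))
            (w₂ ++ w₁)).2 = false := by
          refine pr_flag_keep ?_ _ ?_
          · intro x hx hxm
            rcases List.mem_append.1 hx with hx | hx
            · exact hnc x (by rw [he]; simp [hx]) hxm
            · exact hnc x (by rw [he]; simp [hx]) hxm
          · rw [run_append]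
            simp only [run_cons, run_nil]
            rw [prStep_moving hb]
            simp [hnc b (by rw [he]; simp) hb]
        rw [h2] at hf
        exact absurd hf (by simp)
    · push Not at hall
      obtain ⟨b, hb, hbm, hbd⟩ := hall
      obtain ⟨w₁, w₂, he⟩ := List.append_of_mem hb
      obtain ⟨k, hk⟩ := exists_phase (jd stp u) (e - z - jd stp w₁ - stp b) hD
      refine not_charged_of_rep hm hcl h0 k w₁ w₂ b he ?_
      refine ⟨⟨hbm, ?_⟩, ?_⟩
      · rw [pr_fst, jd_append, jd_rep, hk]
        ring
      · rintro ⟨-, h⟩
        exact hbd h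

theorem pr_hC {c d : A} {e : ZMod p} (b : A) (q : ZMod p × Bool) (h : prB stp d e b q) :
    prStep stp c e b q = (e, false) := by
  rw [prStep_moving h.1.1, h.1.2]
  simp

theorem prA_hC {c : A} {e : ZMod p} (b : A) (q : ZMod p × Bool) (h : prA stp e b q) :
    prStep stp c e b q = (e, false) := by
  rw [prStep_moving h.1, h.2]
  simp

theorem goodZ_prB {c d : A} [Finite A] (hcd : c ≠ d) (e : ZMod p) (q : ZMod p × Bool) :
    GoodZ (fun w : List A => ((fcc (prStep stp c e) (prB stp d e) q w : ℕ) : ℤ)) :=
  goodZ_fcc (fun b q h => pr_hC (c := c) b q h)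
    (fun u q m hm hcl h0 => pr_H hcd e u q m hm hcl h0) q

theorem goodZ_prA {c d : A} [Finite A] (hcd : c ≠ d) (e : ZMod p) (q : ZMod p × Bool) :
    GoodZ (fun w : List A => ((fcc (prStep stp c e) (prA stp e) q w : ℕ) : ℤ)) :=
  goodZ_fcc (fun b q h => prA_hC (c := c) b q h)
    (fun u q m hm hcl h0 => by
      refine pr_H hcd e u q m hm hcl ?_
      have h1 := fcc_mono (δ := prStep stp c e) (C := prA stp e) (C' := prB stp d e)
        (fun a q h => h.1) q (rep u m)
      have h2 : fcc (prStep stp c e) (prA stp e) q (rep u m) = 0 := h0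
      omega) q

variable (stp) in
/-- The scanning automaton: the position of the walk, and the last moving letter. -/
noncomputable def scn (b : A) (s : ZMod p × Option A) : ZMod p × Option A :=
  (s.1 + stp b, if stp b = 0 then s.2 else some b)

variable (stp) in
/-- The number of consecutive moving letters `c`, `d` with `d` arriving at `e`. -/
noncomputable def rpr (c d : A) (e : ZMod p) (w : List A) : ℕ :=
  fcc (scn stp) (fun b s => b = d ∧ s.2 = some c ∧ s.1 + stp d = e) (0, none) w

theorem rpr_eq {c d : A} (hd : stp d ≠ 0) (e : ZMod p) (w : List A) :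
    ((rpr stp c d e w : ℕ) : ℤ) = ((fcc (prStep stp c e) (prA stp e) (0, false) w : ℕ) : ℤ) -
      ((fcc (prStep stp c e) (prB stp d e) (0, false) w : ℕ) : ℤ) := by
  suffices h : ∀ (q : ZMod p × Bool) (s : ZMod p × Option A), q.1 = s.1 →
      (q.2 = true ↔ s.2 = some c ∧ s.1 ≠ e) →
      ((fcc (scn stp) (fun b s => b = d ∧ s.2 = some c ∧ s.1 + stp d = e) s w : ℕ) : ℤ) =
        ((fcc (prStep stp c e) (prA stp e) q w : ℕ) : ℤ) -
          ((fcc (prStep stp c e) (prB stp d e) q w : ℕ) : ℤ) from
    h (0, false) (0, none) rfl (by simp)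
  induction w with
  | nil => simp
  | cons b w ih =>
    intro q s h1 h2
    simp only [fcc_cons]
    push_cast
    have h3 := ih (prStep stp c e b q) (scn stp b s) (by
        by_cases hb : stp b = 0
        · simp [prStep_stationary hb, scn, hb, h1]
        · simp [prStep_moving hb, scn, h1]) (by
        by_cases hb : stp b = 0
        · simpa [prStep_stationary hb, scn, hb] using h2
        · simp only [prStep_moving hb, scn, hb, if_false, h1]
          simp only [decide_eq_true_eq, Option.some.injEq]
          exact and_comm)
    rw [h3]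
    have h4 : (if b = d ∧ s.2 = some c ∧ s.1 + stp d = e then (1 : ℤ) else 0) =
        (if prA stp e b q then 1 else 0) - (if prB stp d e b q then 1 else 0) := by
      by_cases hbd : b = d
      · subst hbd
        by_cases he : s.1 + stp b = e
        · have hne : s.1 ≠ e := by
            intro hh
            apply hd
            rw [hh] at he
            exact add_eq_left.1 he
          have h5 : q.2 = true ↔ s.2 = some c := by
            rw [h2]
            exact ⟨fun h => h.1, fun h => ⟨h, hne⟩⟩
          by_cases h6 : s.2 = some c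
          · have h7 : q.2 = true := h5.2 h6
            simp [prA, prB, hd, h1, he, h6, h7]
          · have h7 : ¬ q.2 = true := fun hh => h6 (h5.1 hh)
            simp [prA, prB, hd, h1, he, h6, h7]
        · simp [prA, prB, h1, he]
      · by_cases ha : prA stp e b q
        · have : prB stp d e b q := ⟨ha, fun h => hbd h.2⟩
          simp [hbd, ha, this]
        · have : ¬ prB stp d e b q := fun h => ha h.1
          simp [hbd, ha, this]
    rw [h4]
    ring

theorem goodZ_rpr {c d : A} [Finite A] (hcd : c ≠ d) (hd : stp d ≠ 0) (e : ZMod p) :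
    GoodZ (fun w : List A => ((rpr stp c d e w : ℕ) : ℤ)) :=
  ((goodZ_prA hcd e _).sub (goodZ_prB hcd e _)).congr (fun w => (rpr_eq hd e w).symm)


theorem goodZ_of_good {β : Type} [Finite β] {h : List A → β} (hh : Good h) (g : β → ℤ) :
    GoodZ (fun w => g (h w)) := fun m _ => hh.comp (fun b => ((g b : ℤ) : ZMod m))

variable (stp) in
/-- The automaton which remembers the first moving letter. -/
noncomputable def fstL (b : A) (l : Option A) : Option A :=
  if l = none ∧ stp b ≠ 0 then some b else l

variable (stp) in
/-- The automaton which remembers the last moving letter. -/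
noncomputable def lstL (b : A) (l : Option A) : Option A :=
  if stp b = 0 then l else some b

theorem run_fstL_some (x : A) (w : List A) : run (fstL stp) (some x) w = some x := by
  induction w with
  | nil => rfl
  | cons b w ih =>
    rw [run_cons]
    have : fstL stp b (some x) = some x := by simp [fstL]
    rw [this, ih]

theorem fstL_isHub [Finite A] : IsHub (fstL stp) none := by
  refine isHub_of_closed ?_
  intro u x hx m _ _
  obtain ⟨y, rfl⟩ := Option.ne_none_iff_exists'.1 hx
  exact run_fstL_some y u

theorem good_fstL [Finite A] : Good (fun w : List A => run (fstL stp) none w) :=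
  fun b => hub_path fstL_isHub _ b

theorem lstL_indep {u : List A} (h : ∃ b ∈ u, stp b ≠ 0) (x y : Option A) :
    run (lstL stp) x u = run (lstL stp) y u := by
  induction u generalizing x y with
  | nil => simp at h
  | cons a u ih =>
    rw [run_cons, run_cons]
    by_cases ha : stp a = 0
    · simp only [lstL, ha, if_true]
      apply ih
      obtain ⟨b, hb, hb'⟩ := h
      rcases List.mem_cons.1 hb with rfl | hb
      · exact absurd ha hb'
      · exact ⟨b, hb, hb'⟩
    · simp only [lstL, ha, if_false]

theorem lstL_fix {u : List A} (h : ∀ b ∈ u, stp b = 0) (x : Option A) :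
    run (lstL stp) x u = x := by
  induction u with
  | nil => rfl
  | cons a u ih =>
    rw [run_cons]
    simp only [lstL, h a (by simp), if_true]
    exact ih (fun b hb => h b (List.mem_cons_of_mem _ hb))

theorem lstL_isHub [Finite A] : IsHub (lstL stp) none := by
  refine isHub_of_closed ?_
  intro u x hx m hm hcl
  by_cases hmv : ∃ b ∈ u, stp b ≠ 0
  · have h1 := run_eq_of_sink_ne (rep u m) x (by rw [hcl]; exact hx)
    rw [hcl] at h1
    obtain ⟨m', rfl⟩ : ∃ m', m = m' + 1 := ⟨m - 1, by omega⟩
    rw [rep_add, rep_one, run_append, lstL_indep hmv _ x] at h1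
    exact h1
  · push Not at hmv
    exact lstL_fix hmv x

theorem good_lstL [Finite A] : Good (fun w : List A => run (lstL stp) none w) :=
  fun b => hub_path lstL_isHub _ b

theorem run_scn (z : ZMod p) (l : Option A) (w : List A) :
    run (scn stp) (z, l) w = (z + jd stp w, run (lstL stp) l w) := by
  induction w generalizing z l with
  | nil => simp
  | cons b w ih =>
    rw [run_cons, run_cons]
    have : scn stp b (z, l) = (z + stp b, lstL stp b l) := rfl
    rw [this, ih, jd_cons, add_assoc]

theorem good_scn [Finite A] : Good (fun w : List A => run (scn stp) (0, none) w) := by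
  have := (good_jd stp (0 : ZMod p)).pair (good_lstL (stp := stp))
  refine this.of_factor (fun w w' e => ?_)
  simp only [run_scn]
  exact e

variable (stp) in
/-- The occurrences of `a` before any moving letter, at the position `j`. -/
noncomputable def frs (a : A) (j : ZMod p) (w : List A) : ℕ :=
  fcc (scn stp) (fun b s => b = a ∧ s.2 = none ∧ s.1 = j) (0, none) w

theorem fcc_frs_some (a : A) (j : ZMod p) (w : List A) (s : ZMod p × Option A) (hs : s.2 ≠ none) :
    fcc (scn stp) (fun b s => b = a ∧ s.2 = none ∧ s.1 = j) s w = 0 := by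
  induction w generalizing s with
  | nil => rfl
  | cons b w ih =>
    rw [fcc_cons, ih]
    · simp [hs]
    · by_cases hb : stp b = 0
      · simpa [scn, hb] using hs
      · simp [scn, hb]

theorem fcc_frs_none {a : A} (ha : stp a ≠ 0) (j : ZMod p) (w : List A) (z : ZMod p) :
    ((fcc (scn stp) (fun b s => b = a ∧ s.2 = none ∧ s.1 = j) (z, none) w : ℕ) : ℤ) =
      if run (fstL stp) none w = some a ∧ z = j then 1 else 0 := by
  induction w generalizing z with
  | nil => simp
  | cons b w ih =>
    rw [fcc_cons, run_cons]
    by_cases hb : stp b = 0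
    · have hba : b ≠ a := fun h => ha (h ▸ hb)
      have e1 : scn stp b (z, none) = (z, none) := by simp [scn, hb]
      have e2 : fstL stp b none = none := by simp [fstL, hb]
      rw [e1, e2]
      simp only [hba, false_and, if_false]
      push_cast
      rw [zero_add, ih]
    · have e1 : scn stp b (z, none) = (z + stp b, some b) := by simp [scn, hb]
      have e2 : fstL stp b none = some b := by simp [fstL, hb]
      rw [e1, e2, run_fstL_some, fcc_frs_some _ _ _ _ (by simp)]
      by_cases hba : b = a <;> by_cases hz : z = j <;> simp [hba, hz]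

theorem goodZ_frs [Finite A] {a : A} (ha : stp a ≠ 0) (j : ZMod p) :
    GoodZ (fun w : List A => ((frs stp a j w : ℕ) : ℤ)) :=
  (goodZ_of_good (good_fstL (stp := stp))
    (fun l => if l = some a ∧ (0 : ZMod p) = j then 1 else 0)).congr
    (fun w => (fcc_frs_none ha j w 0).symm)

/-- The indicator of: the last moving letter is `a` and the position is `t`. -/
noncomputable def lstI (a : A) (t : ZMod p) (s : ZMod p × Option A) : ℤ :=
  if s.2 = some a ∧ s.1 = t then 1 else 0

theorem sum_ite_some [Fintype A] (l : Option A) (a : A) (P : Prop)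
    [∀ c, Decidable (l = some c ∧ P)] [Decidable (P ∧ l ≠ none ∧ l ≠ some a)] :
    (∑ c ∈ Finset.univ.erase a, if l = some c ∧ P then (1 : ℤ) else 0) =
      if P ∧ l ≠ none ∧ l ≠ some a then 1 else 0 := by
  by_cases hP : P
  · cases l with
    | none => simp [hP]
    | some x =>
      by_cases hx : x = a
      · subst hx
        simp only [hP, and_true, Option.some.injEq]
        rw [Finset.sum_eq_zero]
        · simp
        · intro c hc
          have : x ≠ c := (Finset.ne_of_mem_erase hc).symm
          simp [this]
      · simp only [hP, and_true, Option.some.injEq]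
        rw [Finset.sum_eq_single x]
        · simp [hx]
        · intro c _ hc
          simp [hc.symm]
        · intro hn
          exact absurd (Finset.mem_erase.2 ⟨hx, Finset.mem_univ x⟩) hn
  · simp [hP]

/-- One step of the identity for the occurrences of a moving letter. -/
theorem occ_step [Fintype A] {a : A} (ha : stp a ≠ 0) (j : ZMod p) (b : A)
    (σ : ZMod p × Option A) :
    (if b = a ∧ σ.1 = j + stp a then (1 : ℤ) else 0) - (if b = a ∧ σ.1 = j then 1 else 0) =
      (∑ c ∈ Finset.univ.erase a,
        if b = a ∧ σ.2 = some c ∧ σ.1 + stp a = j + stp a + stp a then 1 else 0) +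
      (if b = a ∧ σ.2 = none ∧ σ.1 = j + stp a then 1 else 0) -
      (∑ d ∈ (Finset.univ.erase a).filter (fun d => stp d ≠ 0),
        if b = d ∧ σ.2 = some a ∧ σ.1 + stp d = j + stp a + stp d then 1 else 0) -
      (lstI a (j + stp a) (scn stp b σ) - lstI a (j + stp a) σ) := by
  obtain ⟨z, l⟩ := σ
  simp only [add_left_inj]
  by_cases hb : stp b = 0
  · have hba : b ≠ a := fun h => ha (h ▸ hb)
    have e1 : scn stp b (z, l) = (z, l) := by simp [scn, hb]
    rw [e1]
    simp only [hba, false_and, if_false, Finset.sum_const_zero]
    rw [Finset.sum_eq_zero]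
    · ring
    · intro d hd
      have : b ≠ d := fun h => (Finset.mem_filter.1 hd).2 (h ▸ hb)
      simp [this]
  · have e1 : scn stp b (z, l) = (z + stp b, some b) := by simp [scn, hb]
    rw [e1]
    by_cases hba : b = a
    · subst hba
      have h1 : (∑ d ∈ (Finset.univ.erase b).filter (fun d => stp d ≠ 0),
          if b = d ∧ l = some b ∧ z = j + stp b then (1 : ℤ) else 0) = 0 := by
        refine Finset.sum_eq_zero (fun d hd => ?_)
        have : b ≠ d := (Finset.ne_of_mem_erase (Finset.mem_filter.1 hd).1).symm
        simp [this]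
      simp only [true_and]
      rw [h1, sum_ite_some]
      simp only [lstI]
      by_cases hz : z = j + stp b
      · subst hz
        have hne : j + stp b ≠ j := by simpa using hb
        cases l with
        | none => simp [hb]
        | some x =>
          by_cases hx : x = b
          · simp [hx, hb]
          · simp [hx, hb]
      · by_cases hz' : z = j
        · subst hz'
          simp [hz]
        · simp [hz, hz']
    · have h1 : (∑ d ∈ (Finset.univ.erase a).filter (fun d => stp d ≠ 0),
          if b = d ∧ l = some a ∧ z = j + stp a then (1 : ℤ) else 0) =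
          if l = some a ∧ z = j + stp a then 1 else 0 := by
        rw [Finset.sum_eq_single b]
        · simp
        · intro d _ hd
          simp [hd.symm]
        · intro hn
          exact absurd (Finset.mem_filter.2 ⟨Finset.mem_erase.2 ⟨hba, Finset.mem_univ b⟩, hb⟩) hn
      simp only [hba, false_and, if_false, Finset.sum_const_zero, zero_add]
      rw [h1]
      simp only [lstI, Option.some.injEq, hba, false_and, if_false]
      ring

variable (stp) in
/-- The occurrences of `a` at the position `j`, through the scanning automaton. -/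
theorem occ_eq_scn (a : A) (j : ZMod p) (w : List A) :
    occ stp a j w = fcc (scn stp) (fun b s => b = a ∧ s.1 = j) (0, none) w :=
  (fcc_semiconj (δ := scn stp) (δ' := wk stp) (C := fun b s => b = a ∧ s.1 = j)
    (C' := fun b z => b = a ∧ z = j) Prod.fst (fun _ _ => rfl) (fun _ _ => Iff.rfl)
    (0, none) w).symm

/-- **The identity for the occurrences of a moving letter.** -/
theorem occ_identity [Fintype A] {a : A} (ha : stp a ≠ 0) (j : ZMod p) (w : List A) :
    ((occ stp a (j + stp a) w : ℕ) : ℤ) - ((occ stp a j w : ℕ) : ℤ) =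
      (∑ c ∈ Finset.univ.erase a, ((rpr stp c a (j + stp a + stp a) w : ℕ) : ℤ)) +
      ((frs stp a (j + stp a) w : ℕ) : ℤ) -
      (∑ d ∈ (Finset.univ.erase a).filter (fun d => stp d ≠ 0),
        ((rpr stp a d (j + stp a + stp d) w : ℕ) : ℤ)) -
      lstI a (j + stp a) (run (scn stp) (0, none) w) := by
  induction w using List.reverseRecOn with
  | nil =>
    simp [occ, rpr, frs, lstI]
  | append_singleton w b ih =>
    have hs := occ_step ha j b (run (scn stp) (0, none) w)
    rw [occ_eq_scn, occ_eq_scn] at ih ⊢
    simp only [rpr, frs] at ih ⊢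
    simp only [fcc_snoc, Nat.cast_add, Finset.sum_add_distrib, run_append, run_cons, run_nil]
    push_cast
    linarith

theorem goodZ_lstI [Finite A] (a : A) (t : ZMod p) :
    GoodZ (fun w : List A => lstI a t (run (scn stp) (0, none) w)) :=
  goodZ_of_good (good_scn (stp := stp)) (lstI a t)

theorem sum_fcc_eq_count [Fintype A] (a : A) (z : ZMod p) (w : List A) :
    (∑ j : ZMod p, ((fcc (wk stp) (fun b z => b = a ∧ z = j) z w : ℕ) : ℤ)) = (w.count a : ℤ) := by
  induction w generalizing z with
  | nil => simp
  | cons b w ih =>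
    simp only [fcc_cons]
    push_cast
    rw [Finset.sum_add_distrib, ih, List.count_cons]
    by_cases hb : b = a
    · subst hb
      simp
      ring
    · have : (b == a) = false := by simpa using hb
      simp [hb, this]

/-- **Occurrences of a moving letter are good.** -/
theorem goodZ_occ_moving [Fintype A] {a : A} (ha : stp a ≠ 0) (j : ZMod p) :
    GoodZ (fun w : List A => ((occ stp a j w : ℕ) : ℤ)) := by
  have h1 : ∀ j : ZMod p, GoodZ (fun w : List A =>
      ((occ stp a (j + stp a) w : ℕ) : ℤ) - ((occ stp a j w : ℕ) : ℤ)) := by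
    intro j
    refine ((((GoodZ.finset_sum _ (fun c hc => ?_)).add (goodZ_frs ha _)).sub
      (GoodZ.finset_sum _ (fun d hd => ?_))).sub (goodZ_lstI a _)).congr
      (fun w => (occ_identity ha j w).symm)
    · exact goodZ_rpr (Finset.ne_of_mem_erase hc) ha _
    · exact goodZ_rpr (Finset.ne_of_mem_erase (Finset.mem_filter.1 hd).1).symm
        (Finset.mem_filter.1 hd).2 _
  have h2 : ∀ (k : ℕ) (j : ZMod p), GoodZ (fun w : List A =>
      ((occ stp a (j + (k : ZMod p) * stp a) w : ℕ) : ℤ) - ((occ stp a j w : ℕ) : ℤ)) := by
    intro k j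
    induction k with
    | zero => exact (GoodZ.const 0).congr (fun w => by simp)
    | succ k ih =>
      refine (ih.add (h1 (j + (k : ZMod p) * stp a))).congr (fun w => ?_)
      have e : j + ((k + 1 : ℕ) : ZMod p) * stp a = j + (k : ZMod p) * stp a + stp a := by
        push_cast; ring
      rw [e]
      ring
  have h3 : ∀ j' : ZMod p, GoodZ (fun w : List A =>
      ((occ stp a j' w : ℕ) : ℤ) - ((occ stp a j w : ℕ) : ℤ)) := by
    intro j'
    obtain ⟨k, hk⟩ := exists_phase (stp a) (j' - j) ha
    have e : j + (k : ZMod p) * stp a = j' := by rw [hk]; ring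
    have := h2 k j
    rwa [e] at this
  have hp0 : ((p : ℕ) : ℤ) ≠ 0 := by
    exact_mod_cast (Fact.out : p.Prime).ne_zero
  refine GoodZ.of_mul hp0 ?_
  have h4 : GoodZ (fun w : List A => (w.count a : ℤ) -
      ∑ j' : ZMod p, (((occ stp a j' w : ℕ) : ℤ) - ((occ stp a j w : ℕ) : ℤ))) :=
    (goodZ_count a).sub (GoodZ.finset_sum _ (fun j' _ => h3 j'))
  refine h4.congr (fun w => ?_)
  rw [Finset.sum_sub_distrib, ← sum_fcc_eq_count (stp := stp) a 0 w]
  simp only [occ, Finset.sum_const, Finset.card_univ, ZMod.card, nsmul_eq_mul]
  ring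

/-- **Occurrences of any letter at any position are good.** -/
theorem goodZ_occ [Fintype A] (a : A) (j : ZMod p) :
    GoodZ (fun w : List A => ((occ stp a j w : ℕ) : ℤ)) := by
  by_cases ha : stp a = 0
  · exact goodZ_occ_stationary ha j
  · exact goodZ_occ_moving ha j

end PairFlow

end Vale.Agent.Lib.P329
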