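import Vale.Agent.Lib.P329.PowerTile
import Vale.Agent.Lib.P329.Class4

/-!
The double flows modulo every number.
-/

namespace Vale.Agent.Lib.P329

section PhiAll

open Classical

variable {A : Type}

/-- The sum of the counts of the letters of a list. -/
noncomputable def xN (L w : List A) : ℕ := (L.map fun f => rc [f] w).sum

/-- The sum of the counts of the pairs with last letter `z`. -/
noncomputable def tN (L : List A) (z : A) (w : List A) : ℕ := (L.map fun e => rc [z, e] w).sum

theorem phiZ_inner_snoc (L₂ : List A) (z e y : A) (w : List A) (a : A) :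
    rs (L₂.flatMap fun f => (infl [f] [z, e]).map (y :: ·)) (w ++ [a]) =
      rs (L₂.flatMap fun f => (infl [f] [z, e]).map (y :: ·)) w +
        if y = a then xN L₂ w * rc [z, e] w else 0 := by
  induction L₂ with
  | nil => simp [xN]
  | cons f L₂ ih =>
    simp only [List.flatMap_cons, rs_append, rs_map_cons_snoc, ih, xN, List.map_cons,
      List.sum_cons, ← rc_mul]
    by_cases h : y = a
    · simp only [h, if_true]
      ring
    · simp only [h, if_false]
      ring

theorem phiZ_snoc (L₁ L₂ : List A) (z y : A) (w : List A) (a : A) :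
    rs (phiG L₁ L₂ z y) (w ++ [a]) =
      rs (phiG L₁ L₂ z y) w + if y = a then xN L₂ w * tN L₁ z w else 0 := by
  induction L₁ with
  | nil => simp [phiG, tN]
  | cons e L₁ ih =>
    unfold phiG at ih ⊢
    simp only [List.flatMap_cons, rs_append, ih, phiZ_inner_snoc, tN, List.map_cons,
      List.sum_cons]
    by_cases h : y = a
    · simp only [h, if_true]
      ring
    · simp only [h, if_false]
      ring

theorem phiZ_nil (L₁ L₂ : List A) (z y : A) : rs (phiG L₁ L₂ z y) [] = 0 := by
  induction L₁ with
  | nil => simp [phiG]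
  | cons e L₁ ih =>
    unfold phiG at ih ⊢
    simp only [List.flatMap_cons, rs_append, ih, add_zero]
    clear ih
    induction L₂ with
    | nil => simp
    | cons f L₂ ih =>
      simp only [List.flatMap_cons, rs_append, ih, add_zero, rs_map_cons_nil]

theorem rz_phi_eq (L : List A) (z y : A) (w : List A) :
    rz (phiL L z y) w = sy y (fun u => ((xN L u : ℕ) : ℤ) * ((tN L z u : ℕ) : ℤ)) w := by
  induction w using List.reverseRecOn with
  | nil =>
    rw [rz, phiL, phiZ_nil]
    simp
  | append_singleton w a ih =>
    rw [sy_snoc, ← ih, rz, rz, phiL, phiZ_snoc]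
    push_cast
    by_cases h : y = a
    · subst h
      simp
    · have : ¬ a = y := fun e => h e.symm
      simp [h, this]

theorem xN_eq {mv : A → Prop} (L : List A) (hL : L.Nodup) (hmv : ∀ x, mv x ↔ x ∈ L) (w : List A) :
    xN L w = (w.filter mv).length := by
  induction w using List.reverseRecOn with
  | nil => simp [xN]
  | append_singleton w a ih =>
    rw [List.filter_append, List.length_append, ← ih]
    simp only [List.filter_cons, List.filter_nil]
    have e : ((if mv a then [a] else []) : List A).length = if a ∈ L then 1 else 0 := by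
      by_cases h : a ∈ L
      · have := (hmv a).2 h
        simp [h, this]
      · have : ¬ mv a := fun e => h ((hmv a).1 e)
        simp [h, this]
    have e' : xN L (w ++ [a]) = xN L w + if a ∈ L then 1 else 0 := by
      unfold xN
      clear ih e hmv
      induction L with
      | nil => simp
      | cons b L ih =>
        have hb := List.nodup_cons.1 hL
        simp only [List.map_cons, List.sum_cons]
        rw [rc_snoc, ih hb.2]
        by_cases h : b = a
        · subst h
          simp [hb.1]
          ring
        · have h' : ¬ a = b := fun e => h e.symm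
          simp [h, h']
          ring
    rw [e']
    congr 1
    simpa using e.symm

theorem tN_eq {mv : A → Prop} (L : List A) (hL : L.Nodup) (hmv : ∀ x, mv x ↔ x ∈ L) (z : A)
    (w : List A) :
    ((tN L z w : ℕ) : ℤ) = flo mv z (fun i => (i : ℤ)) 0 w := by
  induction w using List.reverseRecOn with
  | nil =>
    have h0 : ∀ e : A, rc [z, e] ([] : List A) = 0 := by simp
    simp [tN, h0]
  | append_singleton w a ih =>
    rw [flo_snoc, ← ih, zero_add, ← xN_eq L hL hmv]
    have : tN L z (w ++ [a]) = tN L z w + if z = a then xN L w else 0 := by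
      unfold tN xN
      clear ih hmv
      induction L with
      | nil => simp
      | cons b L ih =>
        have hb := List.nodup_cons.1 hL
        simp only [List.map_cons, List.sum_cons]
        rw [ih hb.2, rc_snoc]
        by_cases h : z = a
        · simp only [h, if_true]
          ring
        · simp only [h, if_false]
          ring
    rw [this]
    push_cast
    by_cases h : z = a
    · subst h
      simp
    · have : ¬ a = z := fun e => h e.symm
      simp [h, this]

/-- The shifted identity modulo `N`. -/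
noncomputable def gl (N l i : ℕ) : ℤ := (((i + N - l) % N : ℕ) : ℤ)

theorem gl_period (N l : ℕ) (hl : l < N) (i : ℕ) : gl N l (i + N) = gl N l i := by
  unfold gl
  have : i + N + N - l = (i + N - l) + N := by omega
  rw [this, Nat.add_mod_right]

theorem gl_cast (N l c : ℕ) (hl : l < N) : ((gl N l (l + c) : ℤ) : ZMod N) = ((c : ℕ) : ZMod N) := by
  unfold gl
  have : l + c + N - l = c + N := by omega
  rw [this]
  push_cast
  simp

theorem flo_gl_cast (mv : A → Prop) (N l : ℕ) (hl : l < N) (z : A) (c : ℕ) (v : List A) :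
    ((flo mv z (gl N l) (l + c) v : ℤ) : ZMod N) =
      ((flo mv z (fun i => (i : ℤ)) c v : ℤ) : ZMod N) := by
  induction v generalizing c with
  | nil => simp
  | cons b v ih =>
    simp only [flo_cons]
    push_cast
    have e : (if mv b then l + c + 1 else l + c) = l + (if mv b then c + 1 else c) := by
      by_cases h : mv b
      · simp only [h, if_true]
        omega
      · simp only [h, if_false]
    rw [e, ih]
    congr 1
    by_cases h : b = z
    · simp only [h, if_true]
      rw [gl_cast N l c hl]
    · simp [h]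

variable {mv : A → Prop}

/-- Memory consisting of `l` copies of a letter. -/
def qr (N : ℕ) (y : A) (l : Fin N) : TMem A N := ⟨List.replicate l.1 y, by simp⟩

theorem wsum_qr {N : ℕ} [NeZero N] {y z : A} (hyz : y ≠ z) (hz : mv z) (l : Fin N) (u : List A)
    (hu : run (tStep mv N) (qr N y l) u = tNil N) :
    wsum mv N (twt z (gl N l.1) 0) (qr N y l) u = flo mv z (gl N l.1) l.1 u := by
  have h := flo_wsum (mv := mv) z hz (gl_period N l.1 l.2) u (qr N y l)
  rw [hu] at h
  have h1 : (qr N y l).1 = List.replicate l.1 y := rfl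
  have h2 : ((tNil N : TMem A N)).1 = [] := rfl
  rw [h1, h2, twt_replicate hyz, List.length_replicate] at h
  simp only [twt_nil, add_zero] at h
  exact h.symm

/-- Products of the count of the moving letters with a flow of a linear function. -/
theorem sum_qr_cast {N : ℕ} [NeZero N] {y z : A} (hyz : y ≠ z) (hz : mv z) (u : List A) :
    ((∑ l : Fin N, (-(l.1 : ℤ)) * (if run (tStep mv N) (qr N y l) u = tNil N then
        wsum mv N (twt z (gl N l.1) 0) (qr N y l) u else 0) : ℤ) : ZMod N) =
      (((u.filter mv).length : ℕ) : ZMod N) *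
        ((flo mv z (fun i => (i : ℤ)) 0 u : ℤ) : ZMod N) := by
  have hN : 0 < N := Nat.pos_of_ne_zero (NeZero.ne N)
  set c := (u.filter mv).length with hc
  let l₀ : Fin N := ⟨(N - c % N) % N, Nat.mod_lt _ hN⟩
  have hc' : c % N < N := Nat.mod_lt _ hN
  have hl₀ : (l₀.1 + c) % N = 0 := by
    change ((N - c % N) % N + c) % N = 0
    rw [Nat.mod_add_mod]
    have e : N - c % N + c = N * (1 + c / N) := by
      have := Nat.div_add_mod c N
      rw [mul_add, mul_one]
      omega
    rw [e, Nat.mul_mod_right]
  have huniq : ∀ l : Fin N, (l.1 + c) % N = 0 → l = l₀ := by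
    intro l hl
    apply Fin.ext
    have h1 : l.1 + c ≡ l₀.1 + c [MOD N] := by
      unfold Nat.ModEq
      rw [hl, hl₀]
    have h2 : l.1 ≡ l₀.1 [MOD N] := Nat.ModEq.add_right_cancel' c h1
    exact Nat.ModEq.eq_of_lt_of_lt h2 l.2 l₀.2
  have hrun : ∀ l : Fin N, run (tStep mv N) (qr N y l) u = tNil N ↔ (l.1 + c) % N = 0 := by
    intro l
    rw [run_eq_nil_iff]
    have : (qr N y l).1.length = l.1 := by simp [qr]
    rw [this]
  rw [Finset.sum_eq_single l₀]
  · have h1 : run (tStep mv N) (qr N y l₀) u = tNil N := (hrun l₀).2 hl₀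
    rw [if_pos h1, wsum_qr hyz hz l₀ u h1]
    push_cast
    have h2 := flo_gl_cast mv N l₀.1 l₀.2 z 0 u
    rw [add_zero] at h2
    rw [h2]
    congr 1
    have h3 : ((l₀.1 + c : ℕ) : ZMod N) = 0 :=
      (ZMod.natCast_eq_zero_iff _ _).2 (Nat.dvd_of_mod_eq_zero hl₀)
    push_cast at h3
    exact neg_eq_of_add_eq_zero_right h3
  · intro l _ hl
    have h1 : ¬ run (tStep mv N) (qr N y l) u = tNil N := fun h => hl (huniq l ((hrun l).1 h))
    rw [if_neg h1, mul_zero]
  · intro h
    exact absurd (Finset.mem_univ _) h

section Atoms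

variable {p : ℕ} [hp : Fact p.Prime] [Fintype A]

/-- The double flow modulo a power of a prime, in the form of the machines. -/
theorem gi_phi_pow_aux (k : ℕ) (L : List A) (hL : L.Nodup) (hmv : ∀ x, mv x ↔ x ∈ L) {z : A}
    (hz : z ∈ L) {y : A} (hy : ¬ y ∈ L) : Gi (p ^ k) (rz (phiL L z y)) := by
  have hmz : mv z := (hmv z).2 hz
  have hmy : ¬ mv y := fun h => hy ((hmv y).1 h)
  have hyz : y ≠ z := fun e => hy (e ▸ hz)
  have h1 : Gi (p ^ k) (fun w => ∑ l : Fin (p ^ k), (-(l.1 : ℤ)) *
      hs mv y (qr (p ^ k) y l) (fun u => wsum mv (p ^ k) (twt z (gl (p ^ k) l.1) 0) (qr (p ^ k) y l) u) w) :=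
    gi_finset_sum _ (fun l _ => (gi_hs_wsum hmy k k _ _).smul _)
  refine Eq.mp (congrArg Good ?_) h1
  funext w
  simp only [← hs_const_mul]
  unfold hs
  rw [← sy_finset_sum, rz_phi_eq, sy_cast, sy_cast]
  refine sy_congr y (fun u => ?_) w
  have e : (∑ l : Fin (p ^ k), if run (tStep mv (p ^ k)) (qr (p ^ k) y l) u = tNil (p ^ k) then
        (-(l.1 : ℤ)) * wsum mv (p ^ k) (twt z (gl (p ^ k) l.1) 0) (qr (p ^ k) y l) u else 0) =
      ∑ l : Fin (p ^ k), (-(l.1 : ℤ)) * (if run (tStep mv (p ^ k)) (qr (p ^ k) y l) u = tNil (p ^ k) then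
        wsum mv (p ^ k) (twt z (gl (p ^ k) l.1) 0) (qr (p ^ k) y l) u else 0) :=
    Finset.sum_congr rfl (fun l _ => by rw [mul_ite, mul_zero])
  rw [e, sum_qr_cast hyz hmz u]
  push_cast
  rw [xN_eq L hL hmv u, ← tN_eq L hL hmv z u]
  push_cast
  rfl

end Atoms

theorem gi_of_prime_powers {f : List A → ℤ} (h : ∀ p k : ℕ, p.Prime → Gi (p ^ k) f) :
    ∀ m : ℕ, m ≠ 0 → Gi m f := by
  intro m
  induction m using Nat.recOnPosPrimePosCoprime with
  | prime_pow p n hp _ => exact fun _ => h p n hp
  | zero => exact fun h => absurd rfl h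
  | one =>
    intro _
    exact Good.of_factor (Good.const (A := A) (0 : ZMod 1)) (fun w w' _ => Subsingleton.elim _ _)
  | coprime a b ha hb hab iha ihb =>
    intro _
    haveI : NeZero a := ⟨by omega⟩
    haveI : NeZero b := ⟨by omega⟩
    exact Gi.mul_coprime hab (iha (by omega)) (ihb (by omega))

end PhiAll

/-- **The double flows are good modulo every number.** -/
theorem gi_phi_all {A : Type} [inst : DecidableEq A] [Fintype A] (m : ℕ) [hm : NeZero m] (L : List A)
    (hL : L.Nodup) {z : A} (hz : z ∈ L) {y : A} (hy : ¬ y ∈ L) : Gi m (rz (phiL L z y)) := by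
  obtain rfl : inst = (fun a b => Classical.propDecidable (a = b)) := Subsingleton.elim _ _
  refine gi_of_prime_powers (fun p k hp => ?_) m hm.out
  haveI : Fact p.Prime := ⟨hp⟩
  exact gi_phi_pow_aux (mv := fun x => x ∈ L) k L hL (fun _ => Iff.rfl) hz hy

end Vale.Agent.Lib.P329
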