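import Vale.Agent.Lib.P329.MetaFour
import Vale.Agent.Lib.P329.Charge

/-!
The wreath principle: if `V` is a commutative subgroup and the value of a word is, modulo `V`, read
off from a finite automaton, then the value of a word is determined by the numbers of occurrences
of letters at given states of the automaton.
-/

namespace Vale.Agent.Lib.P329

section Wreath

open Classical

variable {A G Q : Type} [Group G]

theorem Good.pi {ι β : Type} [Finite ι] {f : ι → List A → β} (h : ∀ i, Good (f i)) :
    Good (fun w i => f i w) := by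
  intro b
  have : {w | (fun i => f i w) = b} = ⋂ i, {w | f i w = b i} := by
    ext w
    simp [funext_iff]
  rw [this]
  exact HeightLE.iInter (fun i => h i (b i))

/-- **The wreath principle.** -/
theorem good_prod_of_wreath [Fintype A] [Fintype Q] [Finite G] (V : Subgroup G)
    (hV : ∀ x ∈ V, ∀ y ∈ V, x * y = y * x) (φ : A → G) (δ : A → Q → Q) (σ : Q → G) (q₀ : Q)
    (hσ : σ q₀ = 1) (hτ : ∀ a q, σ q * φ a * (σ (δ a q))⁻¹ ∈ V)
    (hrun : Good (fun w : List A => run δ q₀ w))
    (hn : ∀ a q, GoodZ (fun w : List A => ((fcc δ (fun b s => b = a ∧ s = q) q₀ w : ℕ) : ℤ))) :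
    Good (fun w : List A => (w.map φ).prod) := by
  letI : CommGroup V := { (inferInstance : Group V) with
    mul_comm := fun a b => Subtype.ext (hV a a.2 b b.2) }
  let τ : A × Q → V := fun x => ⟨σ x.2 * φ x.1 * (σ (δ x.1 x.2))⁻¹, hτ _ _⟩
  let Ψ : List A → V := fun w =>
    ∏ x : A × Q, (τ x) ^ (((fcc δ (fun b s => b = x.1 ∧ s = x.2) q₀ w : ℕ) : ℤ))
  have hΨ : Good Ψ := by
    refine Good.finset_prod _ (fun x _ => ?_)
    exact MetaData.good_zpow_of_goodZ (τ x) (hn x.1 x.2)
  have hsnoc : ∀ w b, Ψ (w ++ [b]) = Ψ w * τ (b, run δ q₀ w) := by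
    intro w b
    simp only [Ψ, fcc_snoc]
    push_cast
    simp only [zpow_add, Finset.prod_mul_distrib]
    congr 1
    rw [Finset.prod_eq_single (b, run δ q₀ w)]
    · simp
    · intro x _ hx
      have : ¬ (b = x.1 ∧ run δ q₀ w = x.2) := by
        rintro ⟨h1, h2⟩
        exact hx (Prod.ext h1.symm h2.symm)
      simp [this]
    · intro h
      exact absurd (Finset.mem_univ _) h
  have hspec : ∀ w : List A, (w.map φ).prod = (Ψ w : G) * σ (run δ q₀ w) := by
    intro w
    induction w using List.reverseRecOn with
    | nil => simp [Ψ, hσ]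
    | append_singleton w b ih =>
      rw [hsnoc, List.map_append, List.prod_append, ih]
      simp only [List.map_cons, List.map_nil, List.prod_cons, List.prod_nil, mul_one]
      rw [run_append]
      simp only [run_cons, run_nil, Subgroup.coe_mul]
      simp only [τ]
      group
  have h1 : Good (fun w => ((Ψ w : V) : G)) := hΨ.comp Subtype.val
  have h2 : Good (fun w : List A => σ (run δ q₀ w)) := by
    haveI : Finite Q := Finite.of_fintype Q
    exact hrun.comp σ
  have h3 := h1.mul h2
  have e : (fun w : List A => (w.map φ).prod) = fun w => ((Ψ w : V) : G) * σ (run δ q₀ w) :=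
    funext hspec
  rw [e]
  exact h3

end Wreath

end Vale.Agent.Lib.P329
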