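import Vale.Agent.Lib.P329.PairFlow
import Vale.Agent.Lib.P329.Wreath

/-!
Occurrences of a letter at a given count vector modulo a prime `p` are good.  All groups with a
commutative normal subgroup and elementary abelian `p`-quotient have generalized star height at
most one.
-/

namespace Vale.Agent.Lib.P329

section Ridge

open Classical

variable {A : Type} [Fintype A] {p : ℕ} [Fact p.Prime]

/-- The count vector automaton modulo `p`. -/
noncomputable def kst (b : A) (k : A → ZMod p) : A → ZMod p := fun y => k y + if y = b then 1 else 0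

/-- A linear form. -/
def lf (c k : A → ZMod p) : ZMod p := ∑ y, c y * k y

theorem lf_kst (c k : A → ZMod p) (b : A) : lf c (kst b k) = lf c k + c b := by
  simp only [lf, kst, mul_add, Finset.sum_add_distrib]
  congr 1
  simp

theorem occ_eq_kst (c : A → ZMod p) (a : A) (j : ZMod p) (w : List A) :
    occ c a j w = fcc kst (fun b k => b = a ∧ lf c k = j) 0 w := by
  have h := fcc_semiconj (δ := kst) (δ' := wk c) (C := fun b k => b = a ∧ lf c k = j)
    (C' := fun b z => b = a ∧ z = j) (lf c) (fun b k => lf_kst c k b) (fun _ _ => Iff.rfl) 0 w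
  have h0 : lf c (0 : A → ZMod p) = 0 := by simp [lf]
  rw [h0] at h
  exact h.symm

theorem lf_add_single (c x : A → ZMod p) (i : A) (s : ZMod p) :
    lf (c + Pi.single i s) x = lf c x + s * x i := by
  simp only [lf, Pi.add_apply, add_mul, Finset.sum_add_distrib]
  congr 1
  rw [Finset.sum_eq_single i]
  · simp
  · intro y _ hy
    simp [Pi.single_eq_of_ne hy]
  · intro h
    exact absurd (Finset.mem_univ _) h

/-- The number of linear forms vanishing at a nonzero vector. -/
theorem card_lf (x : A → ZMod p) (hx : x ≠ 0) :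
    p * (Finset.univ.filter (fun c : A → ZMod p => lf c x = 0)).card =
      Fintype.card (A → ZMod p) := by
  obtain ⟨i, hi⟩ : ∃ i, x i ≠ 0 := by
    by_contra h
    push Not at h
    exact hx (funext h)
  have h1 : ∀ t : ZMod p, (Finset.univ.filter (fun c : A → ZMod p => lf c x = t)).card =
      (Finset.univ.filter (fun c : A → ZMod p => lf c x = 0)).card := by
    intro t
    refine Finset.card_bij (fun c _ => c + Pi.single i (-t / x i)) ?_ ?_ ?_
    · intro c hc
      have hc' : lf c x = t := (Finset.mem_filter.1 hc).2
      refine Finset.mem_filter.2 ⟨Finset.mem_univ _, ?_⟩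
      rw [lf_add_single, hc']
      field_simp
      ring
    · intro c _ d _ h
      exact add_right_cancel h
    · intro d hd
      have hd' : lf d x = 0 := (Finset.mem_filter.1 hd).2
      refine ⟨d - Pi.single i (-t / x i), Finset.mem_filter.2 ⟨Finset.mem_univ _, ?_⟩, by simp⟩
      have e : d - Pi.single i (-t / x i) = d + Pi.single i (t / x i) := by
        rw [sub_eq_add_neg, ← Pi.single_neg]
        congr 2
        ring
      rw [e, lf_add_single, hd']
      field_simp
      ring
  have h2 := Finset.card_eq_sum_card_fiberwise (f := fun c : A → ZMod p => lf c x)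
    (s := Finset.univ) (t := Finset.univ) (fun _ _ => Finset.mem_coe.2 (Finset.mem_univ _))
  rw [Finset.card_univ] at h2
  rw [h2, Finset.sum_congr rfl (fun t _ => h1 t), Finset.sum_const, Finset.card_univ, ZMod.card,
    smul_eq_mul]

/-- The sum over all linear forms of the indicator that they agree at two vectors. -/
theorem sum_ind (k l : A → ZMod p) :
    ((p : ℕ) : ℤ) * (∑ c : A → ZMod p, if lf c k = lf c l then (1 : ℤ) else 0) =
      ((Fintype.card (A → ZMod p) : ℕ) : ℤ) +
        (((p : ℕ) : ℤ) * ((Fintype.card (A → ZMod p) : ℕ) : ℤ) -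
          ((Fintype.card (A → ZMod p) : ℕ) : ℤ)) * if k = l then 1 else 0 := by
  by_cases h : k = l
  · subst h
    simp [Finset.card_univ]
  · have hx : k - l ≠ 0 := sub_ne_zero.2 h
    have h1 := card_lf (p := p) (k - l) hx
    have e : ∀ c : A → ZMod p, (lf c k = lf c l) ↔ lf c (k - l) = 0 := by
      intro c
      have : lf c (k - l) = lf c k - lf c l := by
        simp [lf, mul_sub, Finset.sum_sub_distrib]
      rw [this, sub_eq_zero]
    simp only [e, h, if_false, mul_zero, add_zero]
    rw [Finset.sum_boole]
    exact_mod_cast h1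

/-- The sum over all linear forms of the occurrence counts. -/
theorem sum_occ (a : A) (l : A → ZMod p) (w : List A) (k : A → ZMod p) :
    ((p : ℕ) : ℤ) * (∑ c : A → ZMod p,
        ((fcc kst (fun b k => b = a ∧ lf c k = lf c l) k w : ℕ) : ℤ)) =
      ((Fintype.card (A → ZMod p) : ℕ) : ℤ) * (w.count a : ℤ) +
        (((p : ℕ) : ℤ) * ((Fintype.card (A → ZMod p) : ℕ) : ℤ) -
          ((Fintype.card (A → ZMod p) : ℕ) : ℤ)) *
          ((fcc kst (fun b s => b = a ∧ s = l) k w : ℕ) : ℤ) := by
  induction w generalizing k with
  | nil => simp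
  | cons b w ih =>
    simp only [fcc_cons]
    push_cast
    rw [Finset.sum_add_distrib, mul_add, ih, List.count_cons]
    by_cases hb : b = a
    · subst hb
      have := sum_ind k l
      simp only [true_and]
      rw [this]
      by_cases hkl : k = l
      · simp [hkl]
        ring
      · simp [hkl]
        ring
    · have : (b == a) = false := by simpa using hb
      simp [hb, this]

/-- **Occurrences of a letter at a given count vector modulo `p` are good.** -/
theorem goodZ_rdg (a : A) (l : A → ZMod p) :
    GoodZ (fun w : List A => ((fcc kst (fun b s => b = a ∧ s = l) 0 w : ℕ) : ℤ)) := by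
  have hM : (0 : ℤ) < ((Fintype.card (A → ZMod p) : ℕ) : ℤ) := by
    exact_mod_cast Fintype.card_pos
  have hp : (2 : ℤ) ≤ ((p : ℕ) : ℤ) := by
    exact_mod_cast (Fact.out : p.Prime).two_le
  have hc : (((p : ℕ) : ℤ) * ((Fintype.card (A → ZMod p) : ℕ) : ℤ) -
      ((Fintype.card (A → ZMod p) : ℕ) : ℤ)) ≠ 0 := by
    have : (0 : ℤ) < (((p : ℕ) : ℤ) - 1) * ((Fintype.card (A → ZMod p) : ℕ) : ℤ) :=
      mul_pos (by linarith) hM
    intro h
    rw [sub_mul, one_mul, h] at this
    exact lt_irrefl _ this
  refine GoodZ.of_mul hc ?_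
  have h1 : GoodZ (fun w : List A => ((p : ℕ) : ℤ) * (∑ c : A → ZMod p,
      ((fcc kst (fun b k => b = a ∧ lf c k = lf c l) 0 w : ℕ) : ℤ))) := by
    refine (GoodZ.const _).mul (GoodZ.finset_sum _ (fun c _ => ?_))
    refine (goodZ_occ (stp := c) a (lf c l)).congr (fun w => ?_)
    rw [occ_eq_kst]
  have h2 : GoodZ (fun w : List A =>
      ((Fintype.card (A → ZMod p) : ℕ) : ℤ) * (w.count a : ℤ)) :=
    (GoodZ.const _).mul (goodZ_count a)
  refine (h1.sub h2).congr (fun w => ?_)
  rw [sum_occ]
  ring

theorem run_kst (k : A → ZMod p) (w : List A) (y : A) :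
    run kst k w y = k y + (w.count y : ZMod p) := by
  induction w generalizing k with
  | nil => simp
  | cons b w ih =>
    rw [run_cons, ih, List.count_cons]
    by_cases h : y = b
    · subst h
      simp [kst]
      ring
    · have h' : b ≠ y := fun e => h e.symm
      simp [kst, h, h']

theorem good_run_kst : Good (fun w : List A => run kst (0 : A → ZMod p) w) := by
  have hp : NeZero p := ⟨(Fact.out : p.Prime).ne_zero⟩
  have h := Good.pi (ι := A) (f := fun y (w : List A) => (((w.count y : ℕ) : ℤ) : ZMod p))
    (fun y => goodZ_count y p)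
  refine h.of_factor (fun w w' e => ?_)
  funext y
  have := congrFun e y
  simp only [Int.cast_natCast] at this
  rw [run_kst, run_kst, this]

/-- **Groups with a commutative normal subgroup whose quotient is an elementary abelian
`p`-group.** -/
theorem good_prod_of_expPrime {G : Type} [Group G] [Finite G] (V : Subgroup G)
    (hV : ∀ x ∈ V, ∀ y ∈ V, x * y = y * x) (hcomm : ∀ g h : G, g * h * g⁻¹ * h⁻¹ ∈ V)
    (hpow : ∀ g : G, g ^ p ∈ V) (φ : A → G) : Good (fun w : List A => (w.map φ).prod) := by
  haveI hN : V.Normal := ⟨fun n hn g => by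
    have h := V.mul_mem (hcomm g n) hn
    simpa using h⟩
  letI : CommGroup (G ⧸ V) := { (inferInstance : Group (G ⧸ V)) with
    mul_comm := fun a b => by
      induction a using QuotientGroup.induction_on with
      | H x =>
        induction b using QuotientGroup.induction_on with
        | H y =>
          rw [← QuotientGroup.mk_mul, ← QuotientGroup.mk_mul, QuotientGroup.eq]
          have := hcomm y⁻¹ x⁻¹
          simpa [mul_assoc] using this }
  let f : G → G ⧸ V := fun x => (x : G ⧸ V)
  have fmul : ∀ x y, f (x * y) = f x * f y := fun _ _ => rfl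
  let σ : (A → ZMod p) → G := fun k =>
    ((Finset.univ : Finset A).toList.map (fun y => φ y ^ (k y).val)).prod
  have hf : ∀ k, f (σ k) = ∏ y, f (φ y) ^ (k y).val := by
    intro k
    have hl : ∀ l : List A, f ((l.map (fun y => φ y ^ (k y).val)).prod) =
        (l.map (fun y => f (φ y) ^ (k y).val)).prod := by
      intro l
      induction l with
      | nil => rfl
      | cons y l ih =>
        simp only [List.map_cons, List.prod_cons]
        rw [fmul, ih]
        rfl
    rw [hl, Finset.prod_map_toList]
  have hterm : ∀ (h : G ⧸ V) (x : ZMod p), h ^ p = 1 →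
      h ^ (x + 1).val = h ^ x.val * h := by
    intro h x hh
    have hone : (1 : ZMod p).val = 1 := by
      haveI : Fact (1 < p) := ⟨(Fact.out : p.Prime).one_lt⟩
      exact ZMod.val_one p
    rw [ZMod.val_add, hone, ← pow_eq_pow_mod _ hh, pow_succ]
  have hstep : ∀ (k : A → ZMod p) (a : A),
      f (σ (kst a k)) = f (σ k) * f (φ a) := by
    intro k a
    rw [hf, hf]
    have ht : ∀ y, f (φ y) ^ (kst a k y).val =
        f (φ y) ^ (k y).val * (if y = a then f (φ a) else 1) := by
      intro y
      by_cases hy : y = a
      · subst hy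
        have hpw : f (φ y) ^ p = 1 := by
          have : f ((φ y) ^ p) = 1 := (QuotientGroup.eq_one_iff _).2 (hpow _)
          rw [← this]
          rfl
        simp only [kst, if_true]
        exact hterm _ _ hpw
      · simp [kst, hy]
    simp only [ht, Finset.prod_mul_distrib, Finset.prod_ite_eq', Finset.mem_univ, if_true]
  have hσ0 : σ 0 = 1 := by
    simp only [σ, Pi.zero_apply, ZMod.val_zero, pow_zero]
    exact List.prod_eq_one (by simp)
  refine good_prod_of_wreath V hV φ kst σ 0 hσ0 ?_ good_run_kst goodZ_rdg
  intro a k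
  refine (QuotientGroup.eq_one_iff _).1 ?_
  have e : ((σ k * φ a * (σ (kst a k))⁻¹ : G) : G ⧸ V) =
      f (σ k) * f (φ a) * (f (σ (kst a k)))⁻¹ := rfl
  rw [e, hstep]
  simp

end Ridge

/-- **Groups with a commutative normal subgroup whose quotient is an elementary abelian
`p`-group have generalized star height at most one.** -/
theorem heightLE_of_expPrime {A G : Type} [Finite A] [Group G] [Finite G] (p : ℕ) (hp : p.Prime)
    (V : Subgroup G) (hV : ∀ x ∈ V, ∀ y ∈ V, x * y = y * x)
    (hcomm : ∀ g h : G, g * h * g⁻¹ * h⁻¹ ∈ V) (hpow : ∀ g : G, g ^ p ∈ V) (φ : A → G)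
    (S : Set G) : HeightLE 1 {w : List A | (w.map φ).prod ∈ S} := by
  haveI : Fintype A := Fintype.ofFinite A
  haveI : Fact p.Prime := ⟨hp⟩
  exact (good_prod_of_expPrime V hV hcomm hpow φ).preimage S

end Vale.Agent.Lib.P329
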