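import Vale.Agent.Lib.P329.ThreeState
import Vale.Agent.Lib.P329.Ridge

/-!
Flows modulo two over the symmetric group on three points, through all letters.  The group acts
linearly on the plane over the field with two elements, on which a family of affine automata has a
hub at the origin.  Differences of such automata give the flows through letters acting nontrivially;
counts at the hub give the flows through letters acting trivially.
-/

namespace Vale.Agent.Lib.P329

section Stay

variable {A Q : Type}

/-- A run without charge from a state other than the hub avoids the hub. -/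
theorem run_sink_of_fcc_zero [DecidableEq Q] {δ : A → Q → Q} {v : Q} {C : A → Q → Prop}
    (harr : ∀ a x, x ≠ v → δ a x = v → C a x) :
    ∀ (w : List A) (x : Q), x ≠ v → fcc δ C x w = 0 →
      run δ x w ≠ v ∧ run (sinkAt δ v) x w = run δ x w := by
  intro w
  induction w with
  | nil => intro x hx _; exact ⟨hx, rfl⟩
  | cons a w ih =>
    intro x hx h0
    rw [fcc_cons] at h0
    have hc : ¬ C a x := by
      intro hc
      simp [hc] at h0
    have hne : δ a x ≠ v := fun e => hc (harr a x hx e)
    have h1 : fcc δ C (δ a x) w = 0 := by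
      simpa [hc] using h0
    obtain ⟨h2, h3⟩ := ih _ hne h1
    refine ⟨by simpa using h2, ?_⟩
    simp only [run_cons]
    rw [sinkAt_of_ne hx, h3]

/-- Closed charge free runs from the hub stay at the hub. -/
theorem run_hub_prefix [DecidableEq Q] {δ : A → Q → Q} {v : Q} {C : A → Q → Prop}
    (harr : ∀ a x, x ≠ v → δ a x = v → C a x) :
    ∀ (w₁ w₂ : List A), run δ v (w₁ ++ w₂) = v → fcc δ C v (w₁ ++ w₂) = 0 → run δ v w₁ = v := by
  intro w₁
  induction w₁ with
  | nil => intro _ _ _; rfl
  | cons a w₁ ih =>
    intro w₂ h1 h0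
    simp only [List.cons_append, run_cons, fcc_cons] at h1 h0
    by_cases hs : δ a v = v
    · rw [hs] at h1 h0
      have h3 : fcc δ C v (w₁ ++ w₂) = 0 := by omega
      rw [run_cons, hs]
      exact ih w₂ h1 h3
    · have h3 : fcc δ C (δ a v) (w₁ ++ w₂) = 0 := by omega
      exact absurd h1 (run_sink_of_fcc_zero harr _ _ hs h3).1

/-- The condition of charged machines holds as soon as all arrivals at the hub from other states
are charged. -/
theorem charge_H_of_hub [DecidableEq Q] {δ : A → Q → Q} {v : Q} (hv : IsHub δ v) {C : A → Q → Prop}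
    (harr : ∀ a x, x ≠ v → δ a x = v → C a x) (u : List A) (q : Q) (m : ℕ) (hm : 0 < m)
    (hcl : run δ q (rep u m) = q) (h0 : fcc δ C q (rep u m) = 0) : run δ q u = q := by
  obtain ⟨m', rfl⟩ : ∃ m', m = m' + 1 := ⟨m - 1, by omega⟩
  have hrep : rep u (m' + 1) = u ++ rep u m' := rfl
  by_cases hq : q = v
  · subst hq
    rw [hrep] at hcl h0
    exact run_hub_prefix harr _ _ hcl h0
  · obtain ⟨n, hn⟩ := hv u
    set f : Q → Q := fun x => run (sinkAt δ v) x u with hf
    have h1 := (run_sink_of_fcc_zero harr (rep u (m' + 1)) q hq h0).2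
    have hfix : f^[m' + 1] q = q := by
      rw [← run_rep, h1]
      exact hcl
    have hN : ∀ k, f^[n + k] = f^[n + k + 1] := by
      intro k
      have e1 : f^[n + k] = f^[k] ∘ f^[n] := by
        rw [add_comm, Function.iterate_add]
      have e2 : f^[n + k + 1] = f^[k] ∘ f^[n + 1] := by
        rw [show n + k + 1 = k + (n + 1) by omega, Function.iterate_add]
      rw [e1, e2, hn]
    have hfix2 : f^[(m' + 1) * n] q = q := by
      rw [Function.iterate_mul]
      exact Function.iterate_fixed hfix n
    obtain ⟨k, hk⟩ : ∃ k, (m' + 1) * n = n + k := ⟨m' * n, by ring⟩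
    have hs : f q = q := by
      rw [hk] at hfix2
      have := congrFun (hN k) q
      rw [hfix2, Function.iterate_succ_apply', hfix2] at this
      exact this.symm
    have h2 : fcc δ C q u = 0 := by
      have := fcc_append δ C q u (rep u m')
      rw [← hrep, h0] at this
      omega
    rw [← (run_sink_of_fcc_zero harr u q hq h2).2]
    exact hs

/-- **Counts of a letter staying at a hub.** -/
theorem goodZ_stay [Finite A] [Finite Q] [DecidableEq Q] {δ : A → Q → Q} {v : Q} (hv : IsHub δ v)
    (c : A) (hc : δ c v = v) (q : Q) :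
    GoodZ (fun w : List A => ((fcc δ (fun a x => a = c ∧ x = v) q w : ℕ) : ℤ)) := by
  have h1 := goodZ_fcc (δ := δ) (C := fun a x => δ a x = v ∧ (x ≠ v ∨ a = c)) (q₀ := v)
    (fun a q h => h.1)
    (fun u q m hm hcl h0 => charge_H_of_hub hv (fun a x hx e => ⟨e, Or.inl hx⟩) u q m hm hcl h0) q
  have h2 := goodZ_fcc (δ := δ) (C := fun a x => δ a x = v ∧ x ≠ v) (q₀ := v)
    (fun a q h => h.1)
    (fun u q m hm hcl h0 => charge_H_of_hub hv (fun a x hx e => ⟨e, hx⟩) u q m hm hcl h0) q
  have key : ∀ (w : List A) (q : Q),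
      ((fcc δ (fun a x => δ a x = v ∧ (x ≠ v ∨ a = c)) q w : ℕ) : ℤ) -
        ((fcc δ (fun a x => δ a x = v ∧ x ≠ v) q w : ℕ) : ℤ) =
          ((fcc δ (fun a x => a = c ∧ x = v) q w : ℕ) : ℤ) := by
    intro w
    induction w with
    | nil => intro q; simp
    | cons a w ih =>
      intro q
      simp only [fcc_cons]
      push_cast
      have h3 := ih (δ a q)
      by_cases hcase : a = c ∧ q = v
      · obtain ⟨e1, e2⟩ := hcase
        have e3 : δ a q = v := by rw [e1, e2]; exact hc
        rw [if_pos (⟨e3, Or.inr e1⟩ : δ a q = v ∧ (q ≠ v ∨ a = c)),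
          if_neg (fun h : δ a q = v ∧ q ≠ v => h.2 e2), if_pos (⟨e1, e2⟩ : a = c ∧ q = v)]
        linarith
      · have e : (δ a q = v ∧ (q ≠ v ∨ a = c)) ↔ (δ a q = v ∧ q ≠ v) := by
          constructor
          · rintro ⟨h4, h5 | h5⟩
            · exact ⟨h4, h5⟩
            · exact ⟨h4, fun h6 => hcase ⟨h5, h6⟩⟩
          · rintro ⟨h4, h5⟩
            exact ⟨h4, Or.inl h5⟩
        rw [if_neg hcase]
        by_cases h6 : δ a q = v ∧ q ≠ v
        · rw [if_pos (e.2 h6), if_pos h6]
          linarith
        · rw [if_neg (fun h7 => h6 (e.1 h7)), if_neg h6]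
          linarith
  exact (h1.sub h2).congr (fun w => key w q)
end Stay

namespace Plane

/-- The symmetric group on three points, acting on the nonzero vectors of the plane. -/
abbrev S3 := Equiv.Perm (Fin 3)

/-- The linear action on the plane. -/
def lin (g : S3) : Fin 4 → Fin 4 := ![0, (g 0).succ, (g 1).succ, (g 2).succ]

theorem lin_xo : ∀ (g : S3) (x y : Fin 4), lin g (xo x y) = xo (lin g x) (lin g y) := by
  decide +kernel

theorem lin_mul : ∀ (g h : S3) (x : Fin 4), lin (g * h) x = lin g (lin h x) := by
  decide +kernel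

theorem lin_one : ∀ x : Fin 4, lin 1 x = x := by
  decide +kernel

theorem lin_inv : ∀ (g : S3) (x : Fin 4), lin g (lin g⁻¹ x) = x := by
  decide +kernel

/-- The affine letter with linear part `g` and translation `d`. -/
def mk (g : S3) (d x : Fin 4) : Fin 4 := xo (lin g x) d

/-- The code of a group element. -/
def idx (g : S3) : ℕ := (g 0).val * 9 + (g 1).val * 3 + (g 2).val

/-- A set of affine letters, coded by a bit mask. -/
def vsOf (mask : ℕ) (g : S3) (d : Fin 4) : Bool := Nat.testBit mask (idx g * 4 + d.val)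

/-- A set of partial maps, coded by a bit mask. -/
def okOf (mask : ℕ) (x y z : Fin 4) : Bool := Nat.testBit mask (x.val * 16 + y.val * 4 + z.val)

/-- `vs` is a valid set of affine letters: every automaton built from them has a hub at the
origin. -/
def ValidSet (vs : S3 → Fin 4 → Bool) : Prop :=
  ∀ (A : Type) (ω : A → S3) (β : A → Fin 4), (∀ a, vs (ω a) (β a) = true) →
    IsHub (fun a => mk (ω a) (β a)) 0

/-- The letter with a sink at the origin. -/
def skm (g : S3) (d x : Fin 4) : Fin 4 := if x = 0 then 0 else mk g d x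

theorem validSet_of_cert (vs : S3 → Fin 4 → Bool) (ok : Fin 4 → Fin 4 → Fin 4 → Bool)
    (h1 : ok 1 2 3 = true)
    (h2 : ∀ g d x y z, vs g d = true → ok x y z = true →
      ok (skm g d x) (skm g d y) (skm g d z) = true)
    (h3 : ∀ x y z, ok x y z = true → ∀ s, (pm x y z)^[4] s = (pm x y z)^[5] s) :
    ValidSet vs := by
  intro A ω β hβ
  refine isHub_of_cert _ ok h1 ?_ h3
  intro a x y z h
  exact h2 (ω a) (β a) x y z (hβ a) h

theorem valid_F1 : ValidSet (vsOf 232718229499434446275739648) :=
  validSet_of_cert _ (okOf 1407387920317279) (by decide +kernel) (by decide +kernel)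
    (by decide +kernel)

theorem valid_F2 : ValidSet (vsOf 78277958349508576273235968) :=
  validSet_of_cert _ (okOf 73464973636746015) (by decide +kernel) (by decide +kernel)
    (by decide +kernel)

theorem valid_F3 : ValidSet (vsOf 116510232783029653453406208) :=
  validSet_of_cert _ (okOf 76860299902785945) (by decide +kernel) (by decide +kernel)
    (by decide +kernel)

theorem valid_R1 : ValidSet (vsOf 38836744260998156361138176) :=
  validSet_of_cert _ (okOf 73482599896455437) (by decide +kernel) (by decide +kernel)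
    (by decide +kernel)

theorem valid_R1p : ValidSet (vsOf 155346972432236236659228672) :=
  validSet_of_cert _ (okOf 134233055) (by decide +kernel) (by decide +kernel)
    (by decide +kernel)

theorem valid_R2 : ValidSet (vsOf 38987862294328179130630144) :=
  validSet_of_cert _ (okOf 4802671487824287) (by decide +kernel) (by decide +kernel)
    (by decide +kernel)

theorem valid_R2p : ValidSet (vsOf 38836751178527185612832768) :=
  validSet_of_cert _ (okOf 1425014448787743) (by decide +kernel) (by decide +kernel)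
    (by decide +kernel)

theorem xo_comm : ∀ x y : Fin 4, xo x y = xo y x := by decide +kernel

theorem xo_assoc : ∀ x y z : Fin 4, xo (xo x y) z = xo x (xo y z) := by decide +kernel

theorem zero_xo : ∀ x : Fin 4, xo 0 x = x := by decide +kernel

theorem xo_self : ∀ x : Fin 4, xo x x = 0 := by decide +kernel

theorem xo_xo : ∀ x y s t : Fin 4, xo (xo x y) (xo s t) = xo (xo x s) (xo y t) := by decide +kernel

theorem lin_zero : ∀ g : S3, lin g 0 = 0 := by decide +kernel

/-- The symplectic form of the plane. -/
def bb (q x : Fin 4) : ZMod 2 := if q = 0 ∨ x = 0 ∨ q = x then 0 else 1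

theorem bb_xo : ∀ q x y : Fin 4, bb q (xo x y) = bb q x + bb q y := by decide +kernel

theorem bb_zero : ∀ q : Fin 4, bb q 0 = 0 := by decide +kernel

/-- A coefficient function of the action. -/
def cf (q t : Fin 4) (g : S3) : ZMod 2 := bb q (lin g t)

/-- The homomorphism onto the group of order two. -/
def sg (g : S3) : ZMod 2 := if g 0 = 0 ∧ g 1 = 1 ∨ g 0 = 1 ∧ g 1 = 2 ∨ g 0 = 2 ∧ g 1 = 0 then 0 else 1

theorem sg_mul : ∀ g h : S3, sg (g * h) = sg g + sg h := by decide +kernel

theorem sg_one : sg 1 = 0 := by decide +kernel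

section Flows

open Classical

variable {A : Type} (ψ : A → S3)

/-- The value of a word in the group. -/
def pv (w : List A) : S3 := run (fun a h => h * ψ a) 1 w

@[simp] theorem pv_nil : pv ψ [] = 1 := rfl

theorem pv_snoc (u : List A) (a : A) : pv ψ (u ++ [a]) = pv ψ u * ψ a := by
  simp [pv, run_append]

/-- The sum of `f` of the prefix values over the occurrences of the letter `b`, from a given
start. -/
noncomputable def flFrom (b : A) (f : S3 → ZMod 2) : S3 → List A → ZMod 2
  | _, [] => 0
  | h, a :: w => (if a = b then f h else 0) + flFrom b f (h * ψ a) w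

/-- The sum of `f` of the prefix values over the occurrences of the letter `b`. -/
noncomputable def fl (b : A) (f : S3 → ZMod 2) (w : List A) : ZMod 2 := flFrom ψ b f 1 w

@[simp] theorem fl_nil (b : A) (f : S3 → ZMod 2) : fl ψ b f [] = 0 := rfl

theorem flFrom_snoc (b : A) (f : S3 → ZMod 2) (h : S3) (u : List A) (a : A) :
    flFrom ψ b f h (u ++ [a]) = flFrom ψ b f h u +
      (if a = b then f (run (fun a h => h * ψ a) h u) else 0) := by
  induction u generalizing h with
  | nil => simp [flFrom]
  | cons c u ih =>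
    simp only [List.cons_append, flFrom, ih, run_cons, add_assoc]

theorem fl_snoc (b : A) (f : S3 → ZMod 2) (u : List A) (a : A) :
    fl ψ b f (u ++ [a]) = fl ψ b f u + (if a = b then f (pv ψ u) else 0) :=
  flFrom_snoc ψ b f 1 u a

theorem fl_add (b : A) (f f' : S3 → ZMod 2) (w : List A) :
    fl ψ b (fun g => f g + f' g) w = fl ψ b f w + fl ψ b f' w := by
  induction w using List.reverseRecOn with
  | nil => simp
  | append_singleton u a ih =>
    rw [fl_snoc, fl_snoc, fl_snoc, ih]
    by_cases h : a = b
    · simp only [h, if_true]; ring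
    · simp only [h, if_false]; ring

theorem fl_smul (b : A) (c : ZMod 2) (f : S3 → ZMod 2) (w : List A) :
    fl ψ b (fun g => c * f g) w = c * fl ψ b f w := by
  induction w using List.reverseRecOn with
  | nil => simp
  | append_singleton u a ih =>
    rw [fl_snoc, fl_snoc, ih]
    by_cases h : a = b
    · simp only [h, if_true]; ring
    · simp only [h, if_false]; ring

variable {ψ}

theorem good_fl_add {b : A} {f f' : S3 → ZMod 2} (h : Good (fl ψ b f)) (h' : Good (fl ψ b f')) :
    Good (fl ψ b (fun g => f g + f' g)) := by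
  have : fl ψ b (fun g => f g + f' g) = fun w => fl ψ b f w + fl ψ b f' w :=
    funext (fl_add ψ b f f')
  rw [this]
  exact h.add h'

theorem good_fl_smul {b : A} (c : ZMod 2) {f : S3 → ZMod 2} (h : Good (fl ψ b f)) :
    Good (fl ψ b (fun g => c * f g)) := by
  have : fl ψ b (fun g => c * f g) = fun w => c * fl ψ b f w :=
    funext (fl_smul ψ b c f)
  rw [this]
  exact (Good.const c).mul h

variable (ψ)

/-- The value of a word in the group is good. -/
theorem good_pv [Finite A] : Good (pv ψ) := by
  have hrun : ∀ (w : List A) (x : Fin 3), run (fun a i => (ψ a)⁻¹ i) x w = (pv ψ w)⁻¹ x := by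
    intro w x
    induction w using List.reverseRecOn with
    | nil => simp
    | append_singleton u a ih =>
      rw [run_append, pv_snoc, ih, mul_inv_rev]
      rfl
  have h := Good.pi (f := fun (x : Fin 3) (w : List A) => run (fun a i => (ψ a)⁻¹ i) x w)
    (fun x => Plane.good_run_three _ x)
  refine Good.of_factor h (fun w w' e => ?_)
  have : (pv ψ w)⁻¹ = (pv ψ w')⁻¹ := by
    ext x
    have := congrFun e x
    simp only [hrun] at this
    rw [this]
  exact inv_injective this

/-- The automaton of an assignment of translations. -/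
def am (β : A → Fin 4) (a : A) : Fin 4 → Fin 4 := mk (ψ a)⁻¹ (β a)

theorem run_am (β : A → Fin 4) (q : Fin 4) (u : List A) :
    run (am ψ β) q u = xo (lin (pv ψ u)⁻¹ q) (run (am ψ β) 0 u) := by
  induction u using List.reverseRecOn with
  | nil => simp [xo_zero, lin_one]
  | append_singleton u a ih =>
    rw [run_append, run_append, pv_snoc, mul_inv_rev, lin_mul, ih]
    simp only [run_cons, run_nil, am, mk]
    rw [lin_xo, xo_assoc]

theorem good_am {vs : S3 → Fin 4 → Bool} (hvs : ValidSet vs) [Finite A] (β : A → Fin 4)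
    (hβ : ∀ a, vs (ψ a)⁻¹ (β a) = true) (q r : Fin 4) : HeightLE 1 {w : List A | run (am ψ β) q w = r} :=
  hub_path (hvs A (fun a => (ψ a)⁻¹) β hβ) q r

theorem lin_step : ∀ (p h : S3) (x₁ x₂ b₁ b₂ : Fin 4),
    lin p (lin h (xo (xo (lin h⁻¹ x₁) b₁) (xo (lin h⁻¹ x₂) b₂))) =
      xo (lin p (xo x₁ x₂)) (lin p (lin h (xo b₁ b₂))) := by
  decide +kernel

variable {ψ} in
/-- **Flows through letters acting nontrivially**, from differences of two automata. -/
theorem good_moved {vs : S3 → Fin 4 → Bool} (hvs : ValidSet vs) [Finite A]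
    (hr : ∀ g, ∃ d, vs g d = true) (b : A) (d₁ d₂ : Fin 4) (h1 : vs (ψ b)⁻¹ d₁ = true)
    (h2 : vs (ψ b)⁻¹ d₂ = true) (q : Fin 4) :
    Good (fl ψ b (cf q (lin (ψ b) (xo d₁ d₂)))) := by
  choose r hr' using hr
  let β₁ : A → Fin 4 := fun a => if a = b then d₁ else r (ψ a)⁻¹
  let β₂ : A → Fin 4 := fun a => if a = b then d₂ else r (ψ a)⁻¹
  have hβ₁ : ∀ a, vs (ψ a)⁻¹ (β₁ a) = true := by
    intro a
    by_cases h : a = b
    · subst h; simpa [β₁] using h1
    · simpa [β₁, h] using hr' _
  have hβ₂ : ∀ a, vs (ψ a)⁻¹ (β₂ a) = true := by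
    intro a
    by_cases h : a = b
    · subst h; simpa [β₂] using h2
    · simpa [β₂, h] using hr' _
  have g1 : Good (fun w : List A => run (am ψ β₁) 0 w) := fun r => good_am ψ hvs β₁ hβ₁ 0 r
  have g2 : Good (fun w : List A => run (am ψ β₂) 0 w) := fun r => good_am ψ hvs β₂ hβ₂ 0 r
  have key : ∀ w : List A, fl ψ b (cf q (lin (ψ b) (xo d₁ d₂))) w =
      bb q (lin (pv ψ w) (xo (run (am ψ β₁) 0 w) (run (am ψ β₂) 0 w))) := by
    intro w
    induction w using List.reverseRecOn with
    | nil =>
      simp only [fl_nil, pv_nil, run_nil]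
      rw [xo_self, lin_zero, bb_zero]
    | append_singleton u a ih =>
      rw [fl_snoc, ih, run_append, run_append, pv_snoc, lin_mul]
      simp only [run_cons, run_nil, am, mk]
      rw [lin_step, bb_xo]
      congr 1
      by_cases h : a = b
      · subst h
        have e1 : β₁ a = d₁ := by simp [β₁]
        have e2 : β₂ a = d₂ := by simp [β₂]
        rw [e1, e2]
        simp [cf]
      · have e1 : β₁ a = β₂ a := by simp [β₁, β₂, h]
        rw [e1, xo_self, lin_zero, lin_zero, bb_zero]
        simp [h]
  rw [funext key]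
  exact ((good_pv ψ).pair (g1.pair g2)).comp
    (fun p => bb q (lin p.1 (xo p.2.1 p.2.2)))

/-- The indicator of the origin. -/
def ind (x : Fin 4) : ZMod 2 := if x = 0 then 1 else 0

theorem ind_identity : ∀ (g : S3) (y q v : Fin 4),
    bb q (lin g v) + bb q v = ind (xo (lin g⁻¹ q) y) + ind y +
      ind (xo (lin g⁻¹ q) (xo y (xo (lin g⁻¹ v) v))) + ind (xo y (xo (lin g⁻¹ v) v)) := by
  decide +kernel

theorem xo_cob : ∀ p s t b v : Fin 4,
    xo (xo p (xo s t)) (xo b (xo t v)) = xo (xo p b) (xo s v) := by
  decide +kernel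

/-- The coboundary shift of an assignment. -/
def shf (β : A → Fin 4) (v : Fin 4) (a : A) : Fin 4 := xo (β a) (xo (lin (ψ a)⁻¹ v) v)

theorem run_shf (β : A → Fin 4) (v : Fin 4) (u : List A) :
    run (am ψ (shf ψ β v)) 0 u = xo (run (am ψ β) 0 u) (xo (lin (pv ψ u)⁻¹ v) v) := by
  induction u using List.reverseRecOn with
  | nil => simp [lin_one, xo_self]
  | append_singleton u a ih =>
    rw [run_append, run_append, pv_snoc, mul_inv_rev, lin_mul, ih]
    simp only [run_cons, run_nil, am, mk, shf]
    rw [lin_xo, lin_xo, xo_cob]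

/-- Counting a letter at the origin. -/
noncomputable def tc (β : A → Fin 4) (b : A) (q : Fin 4) (w : List A) : ZMod 2 :=
  ((fcc (am ψ β) (fun a x => a = b ∧ x = 0) q w : ℕ) : ZMod 2)

theorem tc_snoc (β : A → Fin 4) (b : A) (q : Fin 4) (u : List A) (a : A) :
    tc ψ β b q (u ++ [a]) = tc ψ β b q u + if a = b then ind (run (am ψ β) q u) else 0 := by
  simp only [tc, fcc_snoc]
  push_cast
  congr 1
  by_cases h : a = b
  · by_cases h' : run (am ψ β) q u = 0
    · simp [h, h', ind]
    · simp [h, h', ind]
  · simp [h]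

theorem good_tc {vs : S3 → Fin 4 → Bool} (hvs : ValidSet vs) [Finite A] (β : A → Fin 4)
    (hβ : ∀ a, vs (ψ a)⁻¹ (β a) = true) (b : A) (hb : am ψ β b 0 = 0) (q : Fin 4) :
    Good (tc ψ β b q) := by
  have h := goodZ_stay (hvs A (fun a => (ψ a)⁻¹) β hβ) b hb q 2
  have e : tc ψ β b q = fun w => (((fcc (am ψ β) (fun a x => a = b ∧ x = 0) q w : ℕ) : ℤ) : ZMod 2) := by
    funext w
    simp [tc]
  rw [e]
  exact h

variable {ψ} in
/-- **Flows through letters acting trivially**, from counts at the hub. -/
theorem good_stat {vs vs' : S3 → Fin 4 → Bool} (hvs : ValidSet vs) (hvs' : ValidSet vs')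
    [Finite A] (v : Fin 4) (hr : ∀ g, ∃ d, vs g d = true)
    (hrel : ∀ g d, vs g d = true → vs' g (xo d (xo (lin g v) v)) = true)
    (hid : ∀ d, vs 1 d = true → d = 0) (b : A) (hb : ψ b = 1) (q : Fin 4) :
    Good (fl ψ b (fun g => cf q v g + bb q v)) := by
  choose r hr' using hr
  let β : A → Fin 4 := fun a => r (ψ a)⁻¹
  have hβ : ∀ a, vs (ψ a)⁻¹ (β a) = true := fun a => hr' _
  have hβ' : ∀ a, vs' (ψ a)⁻¹ (shf ψ β v a) = true := fun a => hrel _ _ (hβ a)
  have hb0 : β b = 0 := by
    apply hid
    have := hβ b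
    rwa [hb, inv_one] at this
  have h1 : am ψ β b 0 = 0 := by
    simp only [am, mk, hb, inv_one, lin_one]
    rw [hb0, xo_self]
  have h2 : am ψ (shf ψ β v) b 0 = 0 := by
    simp only [am, mk, shf, hb, inv_one, lin_one]
    rw [hb0, zero_xo, xo_self, xo_self]
  have key : ∀ w : List A, fl ψ b (fun g => cf q v g + bb q v) w =
      tc ψ β b q w + tc ψ β b 0 w + tc ψ (shf ψ β v) b q w + tc ψ (shf ψ β v) b 0 w := by
    intro w
    induction w using List.reverseRecOn with
    | nil => simp [tc]
    | append_singleton u a ih =>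
      rw [fl_snoc, tc_snoc, tc_snoc, tc_snoc, tc_snoc, ih]
      by_cases h : a = b
      · simp only [h, if_true]
        have e := ind_identity (pv ψ u) (run (am ψ β) 0 u) q v
        have e1 := run_am ψ β q u
        have e2 := run_am ψ (shf ψ β v) q u
        have e3 := run_shf ψ β v u
        rw [e1, e2, e3]
        simp only [cf]
        rw [e]
        ring
      · simp only [h, if_false]
        ring
  rw [funext key]
  exact (((good_tc ψ hvs β hβ b h1 q).add (good_tc ψ hvs β hβ b h1 0)).add
    (good_tc ψ hvs' _ hβ' b h2 q)).add (good_tc ψ hvs' _ hβ' b h2 0)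

theorem fl_const (b : A) (c : ZMod 2) (w : List A) :
    fl ψ b (fun _ => c) w = ((w.count b : ℕ) : ZMod 2) * c := by
  classical
  induction w using List.reverseRecOn with
  | nil => simp
  | append_singleton u a ih =>
    rw [fl_snoc, ih, List.count_append, List.count_singleton]
    by_cases h : a = b
    · simp [h]; ring
    · have : (a == b) = false := by simpa using h
      simp [h, this]

/-- Flows of constants are good. -/
theorem good_fl_const [Finite A] (b : A) (c : ZMod 2) : Good (fl ψ b (fun _ => c)) := by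
  have h := goodZ_count b 2
  have e : fl ψ b (fun _ => c) = fun w => (((w.count b : ℕ) : ℤ) : ZMod 2) * c := by
    funext w
    rw [fl_const]
    simp
  rw [e]
  exact h.mul (Good.const c)

theorem zmod2_ite (x : ZMod 2) [Decidable (x = 1)] : x = (if x = 1 then 1 else 0) := by
  split_ifs with h
  · exact h
  · have : ∀ x : ZMod 2, x ≠ 1 → x = 0 := by decide
    exact this x h

/-- Flows of the homomorphism onto the group of order two are good. -/
theorem good_fl_sg [Fintype A] (b : A) : Good (fl ψ b sg) := by
  have : Fact (Nat.Prime 2) := ⟨Nat.prime_two⟩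
  have h := goodZ_occ (p := 2) (stp := fun a => sg (ψ a)) b 1 2
  have hrun : ∀ u : List A, run (wk (p := 2) (fun a => sg (ψ a))) 0 u = sg (pv ψ u) := by
    intro u
    induction u using List.reverseRecOn with
    | nil => simp [sg_one]
    | append_singleton u a ih =>
      rw [run_append, pv_snoc, sg_mul, ih]
      rfl
  have e : fl ψ b sg = fun w => (((occ (p := 2) (fun a => sg (ψ a)) b 1 w : ℕ) : ℤ) : ZMod 2) := by
    funext w
    induction w using List.reverseRecOn with
    | nil => simp [occ]
    | append_singleton u a ih =>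
      rw [fl_snoc, ih]
      simp only [occ, fcc_snoc, hrun]
      push_cast
      congr 1
      by_cases h : a = b
      · subst h
        simp only [if_true, true_and]
        exact zmod2_ite _
      · simp [h]
  rw [e]
  exact h

theorem cf_xo (q s t : Fin 4) (g : S3) : cf q (xo s t) g = cf q s g + cf q t g := by
  simp only [cf, lin_xo, bb_xo]

/-- The valid sets of the family. -/
def vsF (i : Fin 3) : S3 → Fin 4 → Bool :=
  vsOf (if i = 0 then 232718229499434446275739648 else
    if i = 1 then 78277958349508576273235968 else 116510232783029653453406208)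

theorem valid_vsF : ∀ i, ValidSet (vsF i) := by
  intro i
  fin_cases i
  · exact valid_F1
  · exact valid_F2
  · exact valid_F3

theorem vsF_rep : ∀ (i : Fin 3) (g : S3), ∃ d, vsF i g d = true := by decide +kernel

theorem vsF_span : ∀ g : S3, g ≠ 1 → ∀ t : Fin 4, ∃ (i j : Fin 3) (d₁ d₂ d₃ d₄ : Fin 4),
    vsF i g d₁ = true ∧ vsF i g d₂ = true ∧ vsF j g d₃ = true ∧ vsF j g d₄ = true ∧
      t = xo (lin g⁻¹ (xo d₁ d₂)) (lin g⁻¹ (xo d₃ d₄)) := by
  decide +kernel

/-- Coefficient flows through letters acting nontrivially. -/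
theorem good_cf_moved [Finite A] (b : A) (hb : ψ b ≠ 1) (q t : Fin 4) :
    Good (fl ψ b (cf q t)) := by
  obtain ⟨i, j, d₁, d₂, d₃, d₄, h1, h2, h3, h4, e⟩ := vsF_span (ψ b)⁻¹ (by simpa using hb) t
  rw [inv_inv] at e
  have g1 := good_moved (ψ := ψ) (valid_vsF i) (vsF_rep i) b d₁ d₂ h1 h2 q
  have g2 := good_moved (ψ := ψ) (valid_vsF j) (vsF_rep j) b d₃ d₄ h3 h4 q
  have : cf q t = fun g => cf q (lin (ψ b) (xo d₁ d₂)) g + cf q (lin (ψ b) (xo d₃ d₄)) g := by
    funext g
    rw [e, cf_xo]
  rw [this]
  exact good_fl_add g1 g2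

theorem rel_R1 : ∀ g d, vsOf 38836744260998156361138176 g d = true →
    vsOf 155346972432236236659228672 g (xo d (xo (lin g 1) 1)) = true := by decide +kernel

theorem rel_R2 : ∀ g d, vsOf 38987862294328179130630144 g d = true →
    vsOf 38836751178527185612832768 g (xo d (xo (lin g 2) 2)) = true := by decide +kernel

theorem rep_R1 : ∀ g, ∃ d, vsOf 38836744260998156361138176 g d = true := by decide +kernel

theorem rep_R2 : ∀ g, ∃ d, vsOf 38987862294328179130630144 g d = true := by decide +kernel

theorem id_R1 : ∀ d, vsOf 38836744260998156361138176 1 d = true → d = 0 := by decide +kernel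

theorem id_R2 : ∀ d, vsOf 38987862294328179130630144 1 d = true → d = 0 := by decide +kernel

/-- Coefficient flows through letters acting trivially. -/
theorem good_cf_stat [Finite A] (b : A) (hb : ψ b = 1) (q t : Fin 4) :
    Good (fl ψ b (cf q t)) := by
  have fix : ∀ v, Good (fl ψ b (fun g => cf q v g + bb q v)) → Good (fl ψ b (cf q v)) := by
    intro v h
    have h1 := good_fl_add h (good_fl_const ψ b (bb q v))
    have : (fun g => cf q v g + bb q v + bb q v) = cf q v := by
      funext g
      rw [add_assoc, CharTwo.add_self_eq_zero, add_zero]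
    rwa [this] at h1
  have h1 : Good (fl ψ b (cf q 1)) :=
    fix 1 (good_stat valid_R1 valid_R1p 1 rep_R1 rel_R1 id_R1 b hb q)
  have h2 : Good (fl ψ b (cf q 2)) :=
    fix 2 (good_stat valid_R2 valid_R2p 2 rep_R2 rel_R2 id_R2 b hb q)
  have h3 : cf q 3 = fun g => cf q 1 g + cf q 2 g := by
    funext g
    have : (3 : Fin 4) = xo 1 2 := by decide
    rw [this, cf_xo]
  have h0 : cf q 0 = fun _ => (0 : ZMod 2) := by
    funext g
    simp only [cf, lin_zero, bb_zero]
  fin_cases t
  · change Good (fl ψ b (cf q 0))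
    rw [h0]
    exact good_fl_const ψ b 0
  · exact h1
  · exact h2
  · change Good (fl ψ b (cf q 3))
    rw [h3]
    exact good_fl_add h1 h2

/-- Coefficient flows through all letters. -/
theorem good_cf [Finite A] (b : A) (q t : Fin 4) : Good (fl ψ b (cf q t)) := by
  by_cases hb : ψ b = 1
  · exact good_cf_stat ψ b hb q t
  · exact good_cf_moved ψ b hb q t

theorem point_span : ∀ h : S3, ∃ c₀ c₁ c₂ c₃ c₄ c₅ : ZMod 2, ∀ g : S3,
    (if g = h then (1 : ZMod 2) else 0) = c₀ + c₁ * sg g + c₂ * cf 1 1 g + c₃ * cf 1 2 g +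
      c₄ * cf 2 1 g + c₅ * cf 2 2 g := by
  decide +kernel

/-- **Flows modulo two of point masses over the symmetric group on three points, through all
letters.** -/
theorem good_fl_point [Fintype A] (b : A) (h : S3) :
    Good (fl ψ b (fun g => if g = h then (1 : ZMod 2) else 0)) := by
  obtain ⟨c₀, c₁, c₂, c₃, c₄, c₅, e⟩ := point_span h
  rw [funext e]
  refine good_fl_add (good_fl_add (good_fl_add (good_fl_add (good_fl_add (good_fl_const ψ b c₀)
    (good_fl_smul c₁ (good_fl_sg ψ b))) (good_fl_smul c₂ (good_cf ψ b 1 1)))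
    (good_fl_smul c₃ (good_cf ψ b 1 2))) (good_fl_smul c₄ (good_cf ψ b 2 1)))
    (good_fl_smul c₅ (good_cf ψ b 2 2))

/-- Flows of point masses are counts. -/
theorem fl_point (b : A) (h : S3) (w : List A) :
    fl ψ b (fun g => if g = h then (1 : ZMod 2) else 0) w =
      ((fcc (fun a g => g * ψ a) (fun c s => c = b ∧ s = h) (1 : S3) w : ℕ) : ZMod 2) := by
  induction w using List.reverseRecOn with
  | nil => simp
  | append_singleton u a ih =>
    rw [fl_snoc, ih, fcc_snoc]
    push_cast
    congr 1
    by_cases h1 : a = b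
    · simp only [h1, if_true, true_and]
      rfl
    · simp [h1]

end Flows

end Plane

section WreathTwo

open Classical

variable {A G Q : Type} [Group G]

theorem pow_eq_of_zmod_two {H : Type} [Group H] (g : H) (hg : g * g = 1) (n n' : ℕ)
    (h : (n : ZMod 2) = (n' : ZMod 2)) : g ^ n = g ^ n' := by
  have h2 : g ^ 2 = 1 := by rw [pow_two, hg]
  rw [ZMod.natCast_eq_natCast_iff'] at h
  rw [pow_eq_pow_mod n h2, pow_eq_pow_mod n' h2, h]

/-- **The wreath principle for a normal subgroup of exponent two**: only the parities of the counts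
are needed. -/
theorem good_prod_of_wreath_two [Fintype A] [Fintype Q] [Finite G] (V : Subgroup G)
    (hV : ∀ x ∈ V, x * x = 1) (φ : A → G) (δ : A → Q → Q) (σ : Q → G) (q₀ : Q)
    (hσ : σ q₀ = 1) (hτ : ∀ a q, σ q * φ a * (σ (δ a q))⁻¹ ∈ V)
    (hrun : Good (fun w : List A => run δ q₀ w))
    (hn : ∀ a q, Good (fun w : List A =>
      ((fcc δ (fun b s => b = a ∧ s = q) q₀ w : ℕ) : ZMod 2))) :
    Good (fun w : List A => (w.map φ).prod) := by
  have hVc : ∀ x ∈ V, ∀ y ∈ V, x * y = y * x := by
    intro x hx y hy
    have h1 := hV _ (V.mul_mem hx hy)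
    have h2 := hV x hx
    have h3 := hV y hy
    calc x * y = x * (x * y * (x * y)) * y := by rw [h1, mul_one]
      _ = (x * x) * y * x * (y * y) := by group
      _ = y * x := by rw [h2, h3, one_mul, mul_one]
  letI : CommGroup V := { (inferInstance : Group V) with
    mul_comm := fun a b => Subtype.ext (hVc a a.2 b b.2) }
  let τ : A × Q → V := fun x => ⟨σ x.2 * φ x.1 * (σ (δ x.1 x.2))⁻¹, hτ _ _⟩
  let Ψ : List A → V := fun w =>
    ∏ x : A × Q, (τ x) ^ ((fcc δ (fun b s => b = x.1 ∧ s = x.2) q₀ w : ℕ))
  have hΨ : Good Ψ := by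
    refine Good.finset_prod _ (fun x _ => ?_)
    refine Good.of_factor (hn x.1 x.2) (fun w w' e => ?_)
    refine pow_eq_of_zmod_two (τ x) ?_ _ _ e
    exact Subtype.ext (hV _ (τ x).2)
  have hsnoc : ∀ w b, Ψ (w ++ [b]) = Ψ w * τ (b, run δ q₀ w) := by
    intro w b
    simp only [Ψ, fcc_snoc]
    simp only [pow_add, Finset.prod_mul_distrib]
    congr 1
    rw [Finset.prod_eq_single (b, run δ q₀ w)]
    · simp
    · intro x _ hx
      have : ¬ (b = x.1 ∧ run δ q₀ w = x.2) := by
        rintro ⟨h1, h2⟩
        exact hx (Prod.ext h1.symm h2.symm)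
      simp [this]
    · intro h
      exact absurd (Finset.mem_univ _) h
  have hspec : ∀ w : List A, (w.map φ).prod = (Ψ w : G) * σ (run δ q₀ w) := by
    intro w
    induction w using List.reverseRecOn with
    | nil => simp [Ψ, hσ]
    | append_singleton w b ih =>
      rw [hsnoc, List.map_append, List.prod_append, ih]
      simp only [List.map_cons, List.map_nil, List.prod_cons, List.prod_nil, mul_one]
      rw [run_append]
      simp only [run_cons, run_nil, Subgroup.coe_mul]
      simp only [τ]
      group
  have h1 : Good (fun w => ((Ψ w : V) : G)) := hΨ.comp Subtype.val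
  have h2 : Good (fun w : List A => σ (run δ q₀ w)) := by
    haveI : Finite Q := Finite.of_fintype Q
    exact hrun.comp σ
  have h3 := h1.mul h2
  have e : (fun w : List A => (w.map φ).prod) = fun w => ((Ψ w : V) : G) * σ (run δ q₀ w) :=
    funext hspec
  rw [e]
  exact h3

end WreathTwo

/-- **Groups with a map to the symmetric group on three points with kernel of exponent two.** -/
theorem good_prod_of_sThree {A G : Type} [Finite A] [Group G] [Finite G]
    (π : G →* Equiv.Perm (Fin 3)) (h2 : ∀ x, π x = 1 → x * x = 1) (φ : A → G) :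
    Good (fun w : List A => (w.map φ).prod) := by
  classical
  have : Fintype A := Fintype.ofFinite A
  let ψ : A → Plane.S3 := fun a => π (φ a)
  have : Fintype π.range := Fintype.ofFinite _
  let δ : A → π.range → π.range := fun a q => q * ⟨ψ a, ⟨φ a, rfl⟩⟩
  obtain ⟨σ, hσ1, hσ2⟩ : ∃ σ : π.range → G, σ 1 = 1 ∧ ∀ q, π (σ q) = q := by
    refine ⟨fun q => if q = 1 then 1 else Classical.choose q.2, by simp, ?_⟩
    intro q
    by_cases hq : q = 1
    · subst hq
      simp
    · simpa [hq] using Classical.choose_spec q.2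
  have hval : ∀ (w : List A) (q : π.range), ((run δ q w : π.range) : Plane.S3) =
      run (fun a g => g * ψ a) (q : Plane.S3) w := by
    intro w
    induction w with
    | nil => intro q; rfl
    | cons a w ih => intro q; simp only [run_cons]; rw [ih]; rfl
  refine good_prod_of_wreath_two π.ker (fun x hx => h2 x (MonoidHom.mem_ker.1 hx)) φ δ σ 1 hσ1
    ?_ ?_ ?_
  · intro a q
    rw [MonoidHom.mem_ker, map_mul, map_mul, map_inv, hσ2, hσ2]
    simp [δ, ψ]
  · refine Good.of_factor (Plane.good_pv ψ) (fun w w' e => ?_)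
    apply Subtype.ext
    rw [hval, hval]
    exact e
  · intro a q
    have h := Plane.good_fl_point ψ a (q : Plane.S3)
    refine Good.of_factor h (fun w w' e => ?_)
    rw [Plane.fl_point, Plane.fl_point] at e
    have key : ∀ w : List A, fcc δ (fun b s => b = a ∧ s = q) 1 w =
        fcc (fun a g => g * ψ a) (fun c s => c = a ∧ s = (q : Plane.S3)) (1 : Plane.S3) w := by
      intro w
      refine fcc_semiconj (δ' := fun a g => g * ψ a) (C' := fun c s => c = a ∧ s = (q : Plane.S3))
        (Subtype.val) (fun _ _ => rfl) ?_ 1 w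
      intro b s
      rw [Subtype.ext_iff]
    rw [key, key]
    exact e

end Vale.Agent.Lib.P329
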