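import Vale.Agent.Lib.P329.Tower2

/-!
Windows of prime power length: counts of windows at the empty memory, modulo all powers of the prime.
-/

namespace Vale.Agent.Lib.P329

section PowerTile

open Classical

variable {A : Type} {mv : A → Prop}

section Hs

variable {N : ℕ} [NeZero N]

/-- The sum over the positions of `y`, at the prefixes with empty memory, of a function of the
prefix. -/
noncomputable def hs (mv : A → Prop) (y : A) (q : TMem A N) (g : List A → ℤ) (w : List A) : ℤ :=
  sy y (fun u => if run (tStep mv N) q u = tNil N then g u else 0) w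

theorem hs_congr (y : A) (q : TMem A N) {g g' : List A → ℤ}
    (h : ∀ u, run (tStep mv N) q u = tNil N → g u = g' u) (w : List A) :
    hs mv y q g w = hs mv y q g' w := by
  refine sy_congr y (fun u => ?_) w
  by_cases hu : run (tStep mv N) q u = tNil N
  · rw [if_pos hu, if_pos hu, h u hu]
  · rw [if_neg hu, if_neg hu]

theorem hs_add (y : A) (q : TMem A N) (g g' : List A → ℤ) (w : List A) :
    hs mv y q (fun u => g u + g' u) w = hs mv y q g w + hs mv y q g' w := by
  unfold hs
  rw [← sy_add]
  refine sy_congr y (fun u => ?_) w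
  by_cases hu : run (tStep mv N) q u = tNil N
  · simp [hu]
  · simp [hu]

theorem sy_const_mul (y : A) (c : ℤ) (g : List A → ℤ) (w : List A) :
    sy y (fun u => c * g u) w = c * sy y g w := by
  induction w using List.reverseRecOn with
  | nil => simp
  | append_singleton w a ih =>
    simp only [sy_snoc, ih, mul_add]
    by_cases h : a = y <;> simp [h]

theorem hs_const_mul (y : A) (q : TMem A N) (c : ℤ) (g : List A → ℤ) (w : List A) :
    hs mv y q (fun u => c * g u) w = c * hs mv y q g w := by
  unfold hs
  rw [← sy_const_mul]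
  refine sy_congr y (fun u => ?_) w
  by_cases hu : run (tStep mv N) q u = tNil N
  · simp [hu]
  · simp [hu]

theorem hs_sub (y : A) (q : TMem A N) (g g' : List A → ℤ) (w : List A) :
    hs mv y q (fun u => g u - g' u) w = hs mv y q g w - hs mv y q g' w := by
  have e : (fun u => g u - g' u) = fun u => g u + (-1) * g' u := by
    funext u
    ring
  rw [e, hs_add, hs_const_mul]
  ring

theorem hs_finset_sum {ι : Type} (y : A) (q : TMem A N) (s : Finset ι) (g : ι → List A → ℤ)
    (w : List A) : hs mv y q (fun u => ∑ i ∈ s, g i u) w = ∑ i ∈ s, hs mv y q (g i) w := by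
  unfold hs
  rw [← sy_finset_sum]
  refine sy_congr y (fun u => ?_) w
  by_cases hu : run (tStep mv N) q u = tNil N
  · simp [hu]
  · simp [hu]

theorem sy_cast {m : ℕ} (y : A) (g : List A → ℤ) (w : List A) :
    ((sy y g w : ℤ) : ZMod m) = sy y (fun u => ((g u : ℤ) : ZMod m)) w := by
  induction w using List.reverseRecOn with
  | nil => simp
  | append_singleton w a ih =>
    simp only [sy_snoc, Int.cast_add, ih]
    by_cases h : a = y <;> simp [h]

variable [Fintype A]

/-- Flows at the empty memory of a function of a counter. -/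
theorem good_sy_chg {C : A → TMem A N → Prop}
    (hC : ∀ a q, C a q → tStep mv N a q = tNil N) (hCm : ∀ a q, C a q → mv a)
    (H : ∀ (u : List A) (q : TMem A N) (m : ℕ), 0 < m → run (tStep mv N) q (rep u m) = q →
      fcc (tStep mv N) C q (rep u m) = 0 → run (tStep mv N) q u = q)
    {n m : ℕ} [NeZero n] [NeZero m] (P : ZMod n → ZMod m) {y : A} (hy : ¬ mv y) (q : TMem A N) :
    Good (sy y (fun u : List A => if run (tStep mv N) q u = tNil N then
      P ((fcc (tStep mv N) C q u : ℕ) : ZMod n) else 0)) := by
  haveI : Fintype (ZMod n) := ZMod.fintype n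
  haveI : Fintype (TMem A N) := Fintype.ofFinite _
  have hhub : IsHub (chgStep (tStep mv N) C n) (tNil N, (0 : ZMod n)) := chg_isHub hC H
  have hst : ∀ a, ¬ mv a → ∀ s : TMem A N × ZMod n, chgStep (tStep mv N) C n a s = s := by
    intro a ha s
    obtain ⟨q', t⟩ := s
    have h1 : ¬ C a q' := fun h => ha (hCm _ _ h)
    simp [chgStep, tStep_stationary ha, h1]
  have e : (sy y (fun u : List A => if run (tStep mv N) q u = tNil N then
      P ((fcc (tStep mv N) C q u : ℕ) : ZMod n) else 0)) =
      fun w => ∑ k : ZMod n, P k * tf (chgStep (tStep mv N) C n) y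
        (fun x => if x = (tNil N, (0 : ZMod n)) then (1 : ZMod m) else 0) (q, -k) w := by
    funext w
    simp_rw [tf_eq_sy]
    have hmul : ∀ k : ZMod n, P k * sy y (fun u => if run (chgStep (tStep mv N) C n) (q, -k) u =
        (tNil N, (0 : ZMod n)) then (1 : ZMod m) else 0) w =
        sy y (fun u => P k * if run (chgStep (tStep mv N) C n) (q, -k) u =
        (tNil N, (0 : ZMod n)) then (1 : ZMod m) else 0) w := by
      intro k
      induction w using List.reverseRecOn with
      | nil => simp
      | append_singleton w a ih =>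
        simp only [sy_snoc, mul_add, ih]
        by_cases h : a = y <;> simp [h]
    simp_rw [hmul]
    rw [← sy_finset_sum]
    refine sy_congr y (fun u => ?_) w
    have hrun : ∀ k : ZMod n, run (chgStep (tStep mv N) C n) (q, -k) u = (run (tStep mv N) q u,
        -k + ((fcc (tStep mv N) C q u : ℕ) : ZMod n)) := by
      intro k
      exact run_chg _ _ _ _ _ _
    by_cases hm : run (tStep mv N) q u = tNil N
    · simp only [hm, if_true, hrun, Prod.mk.injEq, true_and]
      set c : ZMod n := ((fcc (tStep mv N) C q u : ℕ) : ZMod n) with hc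
      rw [Finset.sum_eq_single c]
      · simp
      · intro b _ hb
        have : ¬ (-b + c = 0) := by
          intro h0
          apply hb
          have : c = b := by
            have := eq_neg_of_add_eq_zero_left h0
            simpa using this.symm
          exact this.symm
        simp [this]
      · intro h
        exact absurd (Finset.mem_univ _) h
    · simp [hm, hrun]
  rw [e]
  refine Good.finset_sum _ (fun k _ => ?_)
  refine (good_tf_hub (S := mv) hhub hst hy _).comp (fun x => P k * x)

theorem gi_hs_fcc {C : A → TMem A N → Prop}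
    (hC : ∀ a q, C a q → tStep mv N a q = tNil N) (hCm : ∀ a q, C a q → mv a)
    (H : ∀ (u : List A) (q : TMem A N) (m : ℕ), 0 < m → run (tStep mv N) q (rep u m) = q →
      fcc (tStep mv N) C q (rep u m) = 0 → run (tStep mv N) q u = q)
    (m : ℕ) [NeZero m] {y : A} (hy : ¬ mv y) (q : TMem A N) :
    Gi m (hs mv y q (fun u => ((fcc (tStep mv N) C q u : ℕ) : ℤ))) := by
  have h := good_sy_chg hC hCm H (n := m) (m := m) (fun x => x) hy q
  refine Eq.mp (congrArg Good ?_) h
  funext w
  unfold hs
  rw [sy_cast]
  refine sy_congr y (fun u => ?_) w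
  by_cases hu : run (tStep mv N) q u = tNil N
  · simp [hu]
  · simp [hu]

theorem gi_hs_one (m : ℕ) [NeZero m] {y : A} (hy : ¬ mv y) (q : TMem A N) :
    Gi m (hs mv y q (fun _ => 1)) := by
  have h := good_sy_chg (C := cAll mv N) (fun _ _ h => tStep_of_cAll h) (fun _ _ h => h.1)
    (fun u q m hm hcl h0 => all_H u q m hm hcl h0) (n := 1) (m := m) (fun _ => 1) hy q
  refine Eq.mp (congrArg Good ?_) h
  funext w
  unfold hs
  rw [sy_cast]
  refine sy_congr y (fun u => ?_) w
  by_cases hu : run (tStep mv N) q u = tNil N
  · simp [hu]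
  · simp [hu]

/-- Atoms of primitive windows. -/
theorem gi_hs_prim (t : List A) (ht : t.length = N)
    (hprim : ∀ L, (∀ y, TFn t ht (y + L) = TFn t ht y) → N ∣ L)
    (m : ℕ) [NeZero m] {y : A} (hy : ¬ mv y) (q : TMem A N) :
    Gi m (hs mv y q (fun u => ((fcc (tStep mv N) (cEq mv N t) q u : ℕ) : ℤ))) := by
  have h1 := gi_hs_fcc (C := cAll mv N) (fun _ _ h => tStep_of_cAll h) (fun _ _ h => h.1)
    (fun u q m hm hcl h0 => all_H u q m hm hcl h0) m hy q
  have h2 := gi_hs_fcc (C := cNe mv N t) (fun _ _ h => tStep_of_cAll h.1) (fun _ _ h => h.1.1)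
    (fun u q m hm hcl h0 => tile_H t ht hprim u q m hm hcl h0) m hy q
  have h3 : Gi m (fun w => hs mv y q (fun u => ((fcc (tStep mv N) (cAll mv N) q u : ℕ) : ℤ)) w +
      (-1) * hs mv y q (fun u => ((fcc (tStep mv N) (cNe mv N t) q u : ℕ) : ℤ)) w) :=
    h1.add (h2.smul (-1))
  refine h3.congr (fun w => ?_)
  rw [← hs_const_mul, ← hs_add]
  refine hs_congr y q (fun u _ => ?_) w
  rw [fcc_cEq_eq]
  ring

end Hs

section Scale

variable {N : ℕ} [NeZero N]

@[simp] theorem wsum_nil (G : List A → ℤ) (q : TMem A N) : wsum mv N G q [] = 0 := rfl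

theorem wsum_cons (G : List A → ℤ) (q : TMem A N) (b : A) (w : List A) :
    wsum mv N G q (b :: w) =
      (if cAll mv N b q then G (q.1 ++ [b]) else 0) + wsum mv N G (tStep mv N b q) w := rfl

theorem wsum_append (G : List A → ℤ) (q : TMem A N) (u v : List A) :
    wsum mv N G q (u ++ v) = wsum mv N G q u + wsum mv N G (run (tStep mv N) q u) v := by
  induction u generalizing q with
  | nil => simp
  | cons a u ih =>
    simp only [List.cons_append, wsum_cons, ih, run_cons, add_assoc]

theorem wsum_eq_sum [Fintype A] (G : List A → ℤ) (q : TMem A N) (w : List A) :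
    wsum mv N G q w = ∑ t : List.Vector A N, G t.1 *
      ((fcc (tStep mv N) (cEq mv N t.1) q w : ℕ) : ℤ) := by
  induction w generalizing q with
  | nil => simp
  | cons b w ih =>
    rw [wsum_cons, ih]
    simp only [fcc_cons]
    push_cast
    simp only [mul_add, Finset.sum_add_distrib]
    congr 1
    by_cases hc : cAll mv N b q
    · let t₀ : List.Vector A N := ⟨q.1 ++ [b], by simp [hc.2]⟩
      rw [Finset.sum_eq_single t₀]
      · have : cEq mv N t₀.1 b q := ⟨hc, rfl⟩
        simp only [this, hc, if_true, mul_one]
        rfl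
      · intro t _ ht
        have : ¬ cEq mv N t.1 b q := fun h => ht (Subtype.ext h.2.symm)
        simp [this]
      · intro h
        exact absurd (Finset.mem_univ _) h
    · have : ∀ t : List.Vector A N, ¬ cEq mv N t.1 b q := fun t h => hc h.1
      simp [hc, this]

/-- The sum of `G` over the windows of length `N` of a list. -/
noncomputable def pt (N : ℕ) [NeZero N] (G : List A → ℤ) (l : List A) : ℤ :=
  wsum (fun _ => True) N G (tNil N) l

theorem run_top_lt (m : List A) (hm : m.length < N) :
    run (tStep (fun _ : A => True) N) (tNil N) m = ⟨m, hm⟩ := by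
  induction m using List.reverseRecOn with
  | nil => rfl
  | append_singleton m b ih =>
    have h1 : m.length < N := by
      simp at hm
      omega
    rw [run_append, ih h1]
    exact tStep_lt (mv := fun _ => True) trivial (⟨m, h1⟩ : TMem A N) (by simpa using hm)

theorem run_top_pre (pre : List A) (h : N ∣ pre.length) :
    run (tStep (fun _ : A => True) N) (tNil N) pre = tNil N := by
  have h1 := length_run (mv := fun _ : A => True) pre (fun _ _ => trivial) (tNil N)
  have h2 : ((tNil N : TMem A N).1).length = 0 := rfl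
  rw [h2, zero_add, Nat.mod_eq_zero_of_dvd h] at h1
  apply Subtype.ext
  exact List.length_eq_zero_iff.1 h1

theorem pt_snoc (G : List A → ℤ) (pre : List A) (m : TMem A N) (h : N ∣ pre.length) (b : A) :
    pt N G (pre ++ m.1 ++ [b]) =
      pt N G (pre ++ m.1) + if m.1.length + 1 = N then G (m.1 ++ [b]) else 0 := by
  unfold pt
  rw [wsum_append]
  have e : run (tStep (fun _ : A => True) N) (tNil N) (pre ++ m.1) = m := by
    rw [run_append, run_top_pre pre h, run_top_lt m.1 m.2]
    rfl
  rw [e, wsum_cons, wsum_nil, add_zero]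
  congr 1
  by_cases hm : m.1.length + 1 = N
  · have : cAll (fun _ : A => True) N b m := ⟨trivial, hm⟩
    simp [this, hm]
  · have : ¬ cAll (fun _ : A => True) N b m := fun h => hm h.2
    simp [this, hm]

theorem pt_nil (G : List A → ℤ) : pt N G [] = 0 := rfl

theorem pt_lt (G : List A → ℤ) (m : List A) (hm : m.length < N) : pt N G m = 0 := by
  induction m using List.reverseRecOn with
  | nil => rfl
  | append_singleton m b ih =>
    have h1 : m.length < N := by
      simp at hm
      omega
    have h2 := pt_snoc G [] ⟨m, h1⟩ (dvd_zero _) b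
    simp only [List.nil_append] at h2
    rw [h2, ih h1]
    have : ¬ m.length + 1 = N := by
      simp at hm
      omega
    simp [this]

theorem pt_window (G : List A → ℤ) (r l : List A) (hr : r.length = N) :
    pt N G (r ++ l) = G r + pt N G l := by
  have hN : 0 < N := Nat.pos_of_ne_zero (NeZero.ne N)
  have hr' : N ∣ r.length := by rw [hr]
  have h1 : pt N G (r ++ l) = pt N G r + pt N G l := by
    unfold pt
    rw [wsum_append, run_top_pre r hr']
  rw [h1]
  congr 1
  rcases List.eq_nil_or_concat r with rfl | ⟨m, b, rfl⟩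
  · simp at hr
    omega
  · have hm : m.length < N := by
      simp at hr
      omega
    have h2 := pt_snoc G [] ⟨m, hm⟩ (dvd_zero _) b
    simp only [List.nil_append] at h2
    have h3 : m.length + 1 = N := by
      simp at hr
      omega
    have e : m ++ [b] = m.concat b := by simp
    rw [← e, h2, pt_lt G m hm, if_pos h3, zero_add]

theorem pt_rep (G : List A → ℤ) (r : List A) (hr : r.length = N) (c : ℕ) :
    pt N G (rep r c) = c * G r := by
  induction c with
  | zero => simp [rep, pt_nil]
  | succ c ih =>
    rw [rep, pt_window G r _ hr, ih]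
    push_cast
    ring

/-- The change of scale. -/
theorem wsum_two_scale {N' : ℕ} [NeZero N'] (c : ℕ) (hN' : N' = c * N) (G : List A → ℤ) :
    ∀ (u : List A) (q : TMem A N) (q' : TMem A N') (pre : List A), q'.1 = pre ++ q.1 →
      N ∣ pre.length →
      wsum mv N G q u + pt N G q'.1 =
        wsum mv N' (pt N G) q' u + pt N G (run (tStep mv N') q' u).1 := by
  have hNpos : 0 < N := Nat.pos_of_ne_zero (NeZero.ne N)
  intro u
  induction u with
  | nil =>
    intro q q' pre _ _
    simp
  | cons b u ih =>
    intro q q' pre hq hpre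
    rw [wsum_cons, wsum_cons, run_cons]
    by_cases hb : mv b
    · have hlen : q'.1.length = pre.length + q.1.length := by rw [hq]; simp
      have hq'lt := q'.2
      by_cases hlt : q.1.length + 1 < N
      · have hlt' : q'.1.length + 1 < N' := by
          refine lt_of_le_of_ne (by omega) (fun he => ?_)
          have h1 : N ∣ pre.length + (q.1.length + 1) := by
            rw [show pre.length + (q.1.length + 1) = q'.1.length + 1 by omega, he, hN']
            exact Dvd.intro_left c rfl
          have h2 : N ∣ q.1.length + 1 := (Nat.dvd_add_right hpre).1 h1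
          have := Nat.le_of_dvd (by omega) h2
          omega
        have h1 : ¬ cAll mv N b q := fun h => by
          have := h.2
          omega
        have h2 : ¬ cAll mv N' b q' := fun h => by
          have := h.2
          omega
        simp only [h1, h2, if_false, zero_add]
        rw [tStep_lt hb q hlt, tStep_lt hb q' hlt']
        have h3 := ih ⟨q.1 ++ [b], by simpa using hlt⟩ ⟨q'.1 ++ [b], by simpa using hlt'⟩ pre
          (by simp [hq]) hpre
        have h4 := pt_snoc G pre q hpre b
        rw [← hq] at h4
        simp only [show ¬ q.1.length + 1 = N by omega, if_false, add_zero] at h4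
        simp only [h4] at h3
        exact h3
      · have hle : q.1.length + 1 = N := by
          have := q.2
          omega
        have h1 : cAll mv N b q := ⟨hb, hle⟩
        have h4 := pt_snoc G pre q hpre b
        rw [← hq] at h4
        simp only [hle, if_true] at h4
        rw [tStep_eq hb q hle]
        by_cases hlt' : q'.1.length + 1 < N'
        · have h2 : ¬ cAll mv N' b q' := fun h => by
            have := h.2
            omega
          simp only [h1, h2, if_true, if_false, zero_add]
          rw [tStep_lt hb q' hlt']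
          have hpre2 : N ∣ (q'.1 ++ [b]).length := by
            rw [List.length_append, hlen]
            simp only [List.length_cons, List.length_nil, zero_add]
            rw [add_assoc, hle]
            exact (Nat.dvd_add_right hpre).2 dvd_rfl
          have h3 := ih (tNil N) ⟨q'.1 ++ [b], by simpa using hlt'⟩ (q'.1 ++ [b])
            (by simp [tNil]) hpre2
          simp only [] at h3
          rw [h4] at h3
          linarith
        · have hle' : q'.1.length + 1 = N' := by omega
          have h2 : cAll mv N' b q' := ⟨hb, hle'⟩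
          simp only [h1, h2, if_true]
          rw [tStep_eq hb q' hle']
          have h3 := ih (tNil N) (tNil N') [] (by simp [tNil]) (dvd_zero _)
          have e1 : (tNil N' : TMem A N').1 = [] := rfl
          rw [e1, pt_nil] at h3
          rw [h4]
          linarith
    · have h1 : ¬ cAll mv N b q := fun h => hb h.1
      have h2 : ¬ cAll mv N' b q' := fun h => hb h.1
      simp only [h1, h2, if_false, zero_add]
      rw [tStep_stationary hb, tStep_stationary hb]
      exact ih q q' pre hq hpre

theorem run_eq_nil_iff (q : TMem A N) (u : List A) :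
    run (tStep mv N) q u = tNil N ↔ (q.1.length + (u.filter mv).length) % N = 0 := by
  have h1 : (run (tStep mv N) q u).1.length = (q.1.length + (u.filter mv).length) % N := by
    rw [run_filter, length_run _ mem_filter_mv]
  constructor
  · intro h
    rw [← h1, h]
    rfl
  · intro h
    rw [h] at h1
    apply Subtype.ext
    exact List.length_eq_zero_iff.1 h1

end Scale

theorem sum_ite_qi (c N s : ℕ) (hc : 0 < c) (hN : 0 < N) (x : ℤ) :
    ∑ i ∈ Finset.range c, (if (i * N + s) % (c * N) = 0 then x else 0) =
      if s % N = 0 then x else 0 := by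
  by_cases hs : s % N = 0
  · rw [if_pos hs]
    obtain ⟨e, rfl⟩ := Nat.dvd_of_mod_eq_zero hs
    have key : ∀ i, (i * N + N * e) % (c * N) = 0 ↔ c ∣ i + e := by
      intro i
      rw [show i * N + N * e = (i + e) * N by ring]
      rw [← Nat.dvd_iff_mod_eq_zero]
      exact Nat.mul_dvd_mul_iff_right hN
    set r := e % c with hr
    have hrlt : r < c := Nat.mod_lt _ hc
    have he : e = c * (e / c) + r := (Nat.div_add_mod e c).symm
    have key2 : ∀ i, c ∣ i + e ↔ c ∣ i + r := by
      intro i
      rw [he, show i + (c * (e / c) + r) = c * (e / c) + (i + r) by ring]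
      exact Nat.dvd_add_right (Dvd.intro _ rfl)
    set i0 := (c - r) % c with hi0
    have hi0lt : i0 < c := Nat.mod_lt _ hc
    have hi0d : c ∣ i0 + r := by
      by_cases h0 : r = 0
      · rw [hi0, h0]
        simp
      · have : (c - r) % c = c - r := Nat.mod_eq_of_lt (by omega)
        rw [hi0, this, show c - r + r = c by omega]
    rw [Finset.sum_eq_single i0]
    · rw [if_pos ((key i0).2 ((key2 i0).2 hi0d))]
    · intro i hi hne
      rw [if_neg]
      intro hd
      have h1 := (key2 i).1 ((key i).1 hd)
      have hilt := Finset.mem_range.1 hi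
      apply hne
      have h2 : (i + r) % c = 0 := Nat.mod_eq_zero_of_dvd h1
      have h3 : (i0 + r) % c = 0 := Nat.mod_eq_zero_of_dvd hi0d
      have h4 : i ≡ i0 [MOD c] := by
        have : i + r ≡ i0 + r [MOD c] := by
          unfold Nat.ModEq
          rw [h2, h3]
        exact Nat.ModEq.add_right_cancel' r this
      exact Nat.ModEq.eq_of_lt_of_lt h4 hilt hi0lt
    · intro h
      exact absurd (Finset.mem_range.2 hi0lt) h
  · rw [if_neg hs]
    refine Finset.sum_eq_zero (fun i _ => ?_)
    rw [if_neg]
    intro h
    apply hs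
    have h1 : c * N ∣ i * N + s := Nat.dvd_of_mod_eq_zero h
    have h2 : N ∣ i * N + s := dvd_trans (Dvd.intro_left c rfl) h1
    have h3 : N ∣ s := (Nat.dvd_add_right (Dvd.intro_left i rfl)).1 h2
    exact Nat.mod_eq_zero_of_dvd h3

section Split

variable {N N' : ℕ} [NeZero N] [NeZero N']

/-- The memory of the larger window, with a dummy letter. -/
def qi (c : ℕ) (hN' : N' = c * N) (d : A) (q : TMem A N) (i : Fin c) : TMem A N' :=
  ⟨List.replicate (i.1 * N) d ++ q.1, by
    have h1 := q.2
    have h2 := i.2
    have h3 : (i.1 + 1) * N ≤ c * N := Nat.mul_le_mul_right _ h2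
    have h4 : (i.1 + 1) * N = i.1 * N + N := by ring
    simp only [List.length_append, List.length_replicate]
    omega⟩

theorem hs_split (c : ℕ) (hN' : N' = c * N) (hc : 0 < c) (d y : A) (q : TMem A N)
    (g : List A → ℤ) (w : List A) :
    hs mv y q g w = ∑ i : Fin c, hs mv y (qi c hN' d q i) g w := by
  have hN : 0 < N := Nat.pos_of_ne_zero (NeZero.ne N)
  unfold hs
  rw [← sy_finset_sum]
  refine sy_congr y (fun u => ?_) w
  set s := q.1.length + (u.filter mv).length with hs
  have h1 : ∀ i : Fin c, run (tStep mv N') (qi c hN' d q i) u = tNil N' ↔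
      (i.1 * N + s) % (c * N) = 0 := by
    intro i
    rw [run_eq_nil_iff, ← hN']
    have e : (qi c hN' d q i : TMem A N').1.length = i.1 * N + q.1.length := by
      simp [qi]
    rw [e, hs, add_assoc]
  have h2 : ∀ i : Fin c, (if run (tStep mv N') (qi c hN' d q i) u = tNil N' then g u else 0) =
      if (i.1 * N + s) % (c * N) = 0 then g u else 0 := by
    intro i
    by_cases h : (i.1 * N + s) % (c * N) = 0
    · rw [if_pos h, if_pos ((h1 i).2 h)]
    · rw [if_neg h, if_neg (fun h' => h ((h1 i).1 h'))]
  rw [Finset.sum_congr rfl (fun i _ => h2 i),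
    Fin.sum_univ_eq_sum_range (fun i => if (i * N + s) % (c * N) = 0 then g u else 0) c,
    sum_ite_qi c N s hc hN]
  by_cases h : s % N = 0
  · rw [if_pos h, if_pos ((run_eq_nil_iff q u).2 h)]
  · rw [if_neg h, if_neg (fun h' => h ((run_eq_nil_iff q u).1 h'))]

/-- The atoms at the smaller scale in terms of the larger scale. -/
theorem hs_two_scale (c : ℕ) (hN' : N' = c * N) (d y : A) (q : TMem A N) (i : Fin c)
    (G g : List A → ℤ) (hg : ∀ u, g u = wsum mv N G q u) (w : List A) :
    hs mv y (qi c hN' d q i) g w =
      hs mv y (qi c hN' d q i) (fun u => wsum mv N' (pt N G) (qi c hN' d q i) u -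
        pt N G (qi c hN' d q i).1) w := by
  refine hs_congr y _ (fun u hu => ?_) w
  have hdv : N ∣ (List.replicate (i.1 * N) d).length := by
    simp
  have h := wsum_two_scale (mv := mv) c hN' G u q (qi c hN' d q i) _ rfl hdv
  rw [hu] at h
  have e1 : (tNil N' : TMem A N').1 = [] := rfl
  rw [e1, pt_nil, add_zero] at h
  rw [hg u]
  linarith

end Split

section Atoms

theorem rep_getElem? (r : List A) (hr : 0 < r.length) (c i : ℕ) :
    (rep r c)[i]? = if i < c * r.length then r[i % r.length]? else none := by
  induction c generalizing i with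
  | zero => simp [rep]
  | succ c ih =>
    rw [rep]
    by_cases hi : i < r.length
    · rw [List.getElem?_append_left hi, Nat.mod_eq_of_lt hi, if_pos]
      nlinarith
    · rw [List.getElem?_append_right (by omega), ih]
      have e : (i - r.length) % r.length = i % r.length :=
        (Nat.mod_eq_sub_mod (by omega)).symm
      rw [e]
      have e2 : (c + 1) * r.length = c * r.length + r.length := by ring
      by_cases h : i - r.length < c * r.length
      · rw [if_pos h, if_pos (by omega)]
      · rw [if_neg h, if_neg (by omega)]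

theorem eq_rep_of_period {N : ℕ} [NeZero N] (t : List A) (ht : t.length = N) (c d : ℕ)
    (hN : N = c * d) (hper : ∀ y, TFn t ht (y + d) = TFn t ht y) :
    t = rep (t.take d) c := by
  have hNpos : 0 < N := Nat.pos_of_ne_zero (NeZero.ne N)
  have hd : 0 < d := by
    rcases Nat.eq_zero_or_pos d with h | h
    · rw [h, mul_zero] at hN
      omega
    · exact h
  have hc : 0 < c := by
    rcases Nat.eq_zero_or_pos c with h | h
    · rw [h, zero_mul] at hN
      omega
    · exact h
  have hdN : d ≤ N := by
    rw [hN]
    exact Nat.le_mul_of_pos_left _ hc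
  have hlen : (t.take d).length = d := by
    simp [ht, hdN]
  have hmul : ∀ (r e : ℕ), TFn t ht (r + e * d) = TFn t ht r := by
    intro r e
    induction e with
    | zero => simp
    | succ e ih =>
      rw [Nat.succ_mul, ← add_assoc, hper, ih]
  apply List.ext_getElem?
  intro i
  rw [rep_getElem? _ (by omega), hlen, ← hN]
  by_cases hi : i < N
  · rw [if_pos hi, getElem?_of_lt t ht hi]
    have hlt : i % d < d := Nat.mod_lt _ hd
    rw [List.getElem?_take, if_pos hlt, getElem?_of_lt t ht (by omega)]
    congr 1
    have := hmul (i % d) (i / d)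
    rw [show i % d + i / d * d = i by rw [mul_comm]; exact Nat.mod_add_div i d] at this
    exact this
  · rw [if_neg hi]
    exact List.getElem?_eq_none (by omega)

variable {p : ℕ} [hp : Fact p.Prime]

instance neZero_prime_pow (b : ℕ) : NeZero (p ^ b) := ⟨pow_ne_zero _ hp.out.ne_zero⟩

theorem eq_rep_of_not_prim (b : ℕ) (t : List A) (ht : t.length = p ^ (b + 1))
    (hnp : ¬ ∀ L, (∀ y, TFn t ht (y + L) = TFn t ht y) → p ^ (b + 1) ∣ L) :
    t = rep (t.take (p ^ b)) p := by
  obtain ⟨q, hq, hqd, hper⟩ := exists_prime_period t ht hnp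
  have hqp : q = p := (Nat.prime_dvd_prime_iff_eq hq hp.out).1 (hq.dvd_of_dvd_pow hqd)
  subst hqp
  have e : q ^ (b + 1) / q = q ^ b := by
    rw [pow_succ]
    exact Nat.mul_div_cancel _ hq.pos
  rw [e] at hper
  exact eq_rep_of_period t ht q (q ^ b) (by rw [pow_succ]; ring) hper

theorem gi_mul_pow {k : ℕ} {f : List A → ℤ} (h : Gi (p ^ k) f) :
    Gi (p ^ (k + 1)) (fun w => (p : ℤ) * f w) := by
  refine Good.of_factor h (fun w w' e => ?_)
  rw [ZMod.intCast_eq_intCast_iff_dvd_sub] at e ⊢
  obtain ⟨c, hc⟩ := e
  refine ⟨c, ?_⟩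
  push_cast at hc ⊢
  rw [show (p : ℤ) * f w' - (p : ℤ) * f w = (p : ℤ) * (f w' - f w) by ring, hc]
  ring

theorem gi_finset_sum {ι : Type} {m : ℕ} [NeZero m] (s : Finset ι) {F : ι → List A → ℤ}
    (h : ∀ i ∈ s, Gi m (F i)) : Gi m (fun w => ∑ i ∈ s, F i w) := by
  unfold Gi at *
  simpa using Good.finset_sum s (fun i hi => h i hi)

theorem fcc_cEq_eq_wsum {N : ℕ} [NeZero N] (t : List A) (q : TMem A N) (u : List A) :
    ((fcc (tStep mv N) (cEq mv N t) q u : ℕ) : ℤ) =
      wsum mv N (fun W => if W = t then 1 else 0) q u := by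
  induction u generalizing q with
  | nil => simp
  | cons b u ih =>
    rw [fcc_cons, wsum_cons]
    push_cast
    rw [ih]
    congr 1
    by_cases h : cAll mv N b q
    · by_cases h2 : q.1 ++ [b] = t
      · have h3 : cEq mv N t b q := ⟨h, h2⟩
        simp [h, h2, h3]
      · have h3 : ¬ cEq mv N t b q := fun h' => h2 h'.2
        simp [h, h2, h3]
    · have h3 : ¬ cEq mv N t b q := fun h' => h h'.1
      simp [h, h3]

variable [Fintype A]

/-- **Atoms modulo all powers of the prime.** -/
theorem gi_atom {y : A} (hy : ¬ mv y) : ∀ (k b : ℕ) (t : List A) (_ : t.length = p ^ b)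
    (q : TMem A (p ^ b)),
    Gi (p ^ k) (hs mv y q (fun u => ((fcc (tStep mv (p ^ b)) (cEq mv (p ^ b) t) q u : ℕ) : ℤ))) := by
  intro k
  induction k with
  | zero =>
    intro b t _ q
    rw [pow_zero]
    exact Good.of_factor (Good.const (A := A) (0 : ZMod 1)) (fun w w' _ => Subsingleton.elim _ _)
  | succ k IH =>
    intro b t ht q
    have hN' : p ^ (b + 1) = p * p ^ b := by ring
    have hp0 : 0 < p := hp.out.pos
    set G : List A → ℤ := fun W => if W = t then 1 else 0 with hG
    have hW : ∀ (q' : TMem A (p ^ (b + 1))) (W : List.Vector A (p ^ (b + 1))),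
        Gi (p ^ (k + 1)) (fun w => pt (p ^ b) G W.1 *
          hs mv y q' (fun u => ((fcc (tStep mv (p ^ (b + 1))) (cEq mv (p ^ (b + 1)) W.1) q' u : ℕ) :
            ℤ)) w) := by
      intro q' W
      by_cases hprim : ∀ L, (∀ y, TFn W.1 W.2 (y + L) = TFn W.1 W.2 y) → p ^ (b + 1) ∣ L
      · exact (gi_hs_prim W.1 W.2 hprim _ hy q').smul _
      · have e1 := eq_rep_of_not_prim b W.1 W.2 hprim
        have hlen : (W.1.take (p ^ b)).length = p ^ b := by
          have : p ^ b ≤ p ^ (b + 1) := Nat.pow_le_pow_right hp0 (by omega)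
          simp [W.2, this]
        have e2 : pt (p ^ b) G W.1 = (p : ℤ) * G (W.1.take (p ^ b)) := by
          rw [e1, pt_rep G _ hlen, ← e1]
        have h1 := gi_mul_pow (IH (b + 1) W.1 W.2 q')
        refine (h1.smul (G (W.1.take (p ^ b)))).congr (fun w => ?_)
        rw [e2]
        ring
    have hi : ∀ i : Fin p, Gi (p ^ (k + 1)) (hs mv y (qi p hN' y q i)
        (fun u => ((fcc (tStep mv (p ^ b)) (cEq mv (p ^ b) t) q u : ℕ) : ℤ))) := by
      intro i
      set q' := qi p hN' y q i with hq'
      have h1 : Gi (p ^ (k + 1)) (fun w => ∑ W : List.Vector A (p ^ (b + 1)), pt (p ^ b) G W.1 *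
          hs mv y q' (fun u => ((fcc (tStep mv (p ^ (b + 1))) (cEq mv (p ^ (b + 1)) W.1) q' u : ℕ) :
            ℤ)) w) := gi_finset_sum _ (fun W _ => hW q' W)
      have h2 : Gi (p ^ (k + 1)) (fun w => (∑ W : List.Vector A (p ^ (b + 1)), pt (p ^ b) G W.1 *
          hs mv y q' (fun u => ((fcc (tStep mv (p ^ (b + 1))) (cEq mv (p ^ (b + 1)) W.1) q' u : ℕ) :
            ℤ)) w) + (-pt (p ^ b) G q'.1) * hs mv y q' (fun _ => 1) w) :=
        h1.add ((gi_hs_one _ hy q').smul _)
      refine h2.congr (fun w => ?_)
      rw [hs_two_scale p hN' y y q i G _ (fun u => fcc_cEq_eq_wsum t q u) w, ← hq', hs_sub]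
      have e3 : hs mv y q' (fun u => wsum mv (p ^ (b + 1)) (pt (p ^ b) G) q' u) w =
          ∑ W : List.Vector A (p ^ (b + 1)), pt (p ^ b) G W.1 *
          hs mv y q' (fun u => ((fcc (tStep mv (p ^ (b + 1))) (cEq mv (p ^ (b + 1)) W.1) q' u : ℕ) :
            ℤ)) w := by
        rw [← Finset.sum_congr rfl (fun W _ => hs_const_mul y q' (pt (p ^ b) G W.1) _ w),
          ← hs_finset_sum]
        exact hs_congr y q' (fun u _ => wsum_eq_sum _ q' u) w
      have e4 : hs mv y q' (fun _ => pt (p ^ b) G q'.1) w =
          pt (p ^ b) G q'.1 * hs mv y q' (fun _ => 1) w := by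
        rw [← hs_const_mul]
        exact hs_congr y q' (fun u _ => by ring) w
      rw [e3, e4]
      ring
    have h3 := gi_finset_sum (m := p ^ (k + 1)) Finset.univ (fun i _ => hi i)
    refine h3.congr (fun w => ?_)
    exact (hs_split p hN' hp0 y y q _ w).symm

/-- **Sums over windows of any weight, at the empty memory, modulo all powers of the prime.** -/
theorem gi_hs_wsum {y : A} (hy : ¬ mv y) (k b : ℕ) (G : List A → ℤ) (q : TMem A (p ^ b)) :
    Gi (p ^ k) (hs mv y q (fun u => wsum mv (p ^ b) G q u)) := by
  have h1 : Gi (p ^ k) (fun w => ∑ W : List.Vector A (p ^ b), G W.1 *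
      hs mv y q (fun u => ((fcc (tStep mv (p ^ b)) (cEq mv (p ^ b) W.1) q u : ℕ) : ℤ)) w) :=
    gi_finset_sum _ (fun W _ => (gi_atom hy k b W.1 W.2 q).smul _)
  refine h1.congr (fun w => ?_)
  rw [← Finset.sum_congr rfl (fun W _ => hs_const_mul y q (G W.1) _ w), ← hs_finset_sum]
  exact hs_congr y q (fun u _ => (wsum_eq_sum _ q u).symm) w

end Atoms

end PowerTile

end Vale.Agent.Lib.P329
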