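import Vale.Agent.Lib.P329.InnerForm

/-!
Subsequence counts, written with the last letter of the subsequence first, and their products.
-/

namespace Vale.Agent.Lib.P329

section Rc

variable {A : Type} [DecidableEq A]

/-- The number of occurrences of the reversal of `u` as a subsequence of `w`. -/
def rc (u w : List A) : ℕ := subCount u.reverse w

@[simp] theorem rc_nil_left (w : List A) : rc [] w = 1 := by simp [rc]

@[simp] theorem rc_cons_nil (b : A) (u : List A) : rc (b :: u) [] = 0 := by
  simp [rc, subCount_nil_right]

theorem rc_snoc (b : A) (u w : List A) (a : A) :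
    rc (b :: u) (w ++ [a]) = rc (b :: u) w + if b = a then rc u w else 0 := by
  simp only [rc, List.reverse_cons]
  exact subCount_snoc u.reverse b w a

/-- The infiltration of two words, as a list with repetitions (letters at the head). -/
def inflAux (a : A) (u : List A) (ih : List A → List (List A)) : List A → List (List A)
  | [] => [a :: u]
  | b :: v => (ih (b :: v)).map (a :: ·) ++ (inflAux a u ih v).map (b :: ·) ++
      (if a = b then (ih v).map (a :: ·) else [])

/-- The infiltration of two words. -/
def infl : List A → List A → List (List A)
  | [], v => [v]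
  | a :: u, v => inflAux a u (infl u) v

@[simp] theorem infl_nil_left (v : List A) : infl [] v = [v] := rfl

@[simp] theorem infl_nil_right (u : List A) : infl u [] = [u] := by
  cases u <;> rfl

theorem infl_cons_cons (a b : A) (u v : List A) :
    infl (a :: u) (b :: v) = (infl u (b :: v)).map (a :: ·) ++ (infl (a :: u) v).map (b :: ·) ++
      (if a = b then (infl u v).map (a :: ·) else []) := rfl

/-- The sum of the counts of a list of words. -/
def rs (l : List (List A)) (w : List A) : ℕ := (l.map fun s => rc s w).sum

@[simp] theorem rs_nil (w : List A) : rs [] w = 0 := rfl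

@[simp] theorem rs_cons (s : List A) (l : List (List A)) (w : List A) :
    rs (s :: l) w = rc s w + rs l w := by simp [rs]

@[simp] theorem rs_append (l l' : List (List A)) (w : List A) :
    rs (l ++ l') w = rs l w + rs l' w := by simp [rs]

theorem rs_map_cons_nil (a : A) (l : List (List A)) : rs (l.map (a :: ·)) [] = 0 := by
  induction l with
  | nil => rfl
  | cons s l ih => simp [ih]

theorem rs_map_cons_snoc (a : A) (l : List (List A)) (w : List A) (t : A) :
    rs (l.map (a :: ·)) (w ++ [t]) = rs (l.map (a :: ·)) w + if a = t then rs l w else 0 := by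
  induction l with
  | nil => simp
  | cons s l ih =>
    simp only [List.map_cons, rs_cons, ih, rc_snoc]
    by_cases h : a = t
    · simp only [h, if_true]; ring
    · simp only [h, if_false]; ring

/-- **The infiltration formula** for products of subsequence counts. -/
theorem rc_mul (u v w : List A) : rc u w * rc v w = rs (infl u v) w := by
  induction w using List.reverseRecOn generalizing u v with
  | nil =>
    cases u with
    | nil => simp
    | cons a u =>
      cases v with
      | nil => simp
      | cons b v =>
        rw [infl_cons_cons]
        simp only [rs_append, rs_map_cons_nil]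
        by_cases h : a = b
        · simp [h, rs_map_cons_nil]
        · simp [h]
  | append_singleton w t ih =>
    cases u with
    | nil => simp
    | cons a u =>
      cases v with
      | nil => simp
      | cons b v =>
        have h0 := ih (a :: u) (b :: v)
        rw [infl_cons_cons] at h0 ⊢
        simp only [rs_append, rs_map_cons_snoc] at h0 ⊢
        rw [← ih u (b :: v), ← ih (a :: u) v, rc_snoc, rc_snoc]
        by_cases hab : a = b
        · subst hab
          simp only [if_true, rs_map_cons_snoc] at h0 ⊢
          rw [← ih u v]
          by_cases hat : a = t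
          · simp only [if_pos hat]
            linarith [h0]
          · simp only [if_neg hat]
            linarith [h0]
        · simp only [hab, if_false, rs_nil, add_zero] at h0 ⊢
          by_cases hat : a = t
          · have hbt : ¬ b = t := fun e => hab (hat.trans e.symm)
            simp only [if_pos hat, if_neg hbt]
            linarith [h0]
          · by_cases hbt : b = t
            · simp only [if_neg hat, if_pos hbt]
              linarith [h0]
            · simp only [if_neg hat, if_neg hbt]
              linarith [h0]

/-- The count of a power of a letter is a binomial coefficient. -/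
theorem rc_replicate (a : A) (e : ℕ) (w : List A) :
    rc (List.replicate e a) w = (w.count a).choose e := by
  induction w using List.reverseRecOn generalizing e with
  | nil =>
    cases e with
    | zero => simp
    | succ e => simp [List.replicate_succ]
  | append_singleton w t ih =>
    cases e with
    | zero => simp
    | succ e =>
      have h1 := ih (e + 1)
      rw [List.replicate_succ] at h1
      rw [List.replicate_succ, rc_snoc, ih, h1, List.count_append]
      by_cases h : a = t
      · subst h
        simp [Nat.choose_succ_succ']
        ring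
      · have : ¬ t = a := fun e => h e.symm
        simp [h, List.count_cons, this]

theorem rc_one (a : A) (w : List A) : rc [a] w = w.count a := by
  have := rc_replicate a 1 w
  simpa using this

end Rc

end Vale.Agent.Lib.P329

namespace Vale.Agent.Lib.P329

section Gi

variable {A : Type} [DecidableEq A] {p : ℕ}

/-- The residues modulo `p` of an integer valued function are good. -/
def Gi (p : ℕ) (f : List A → ℤ) : Prop := Good (fun w => ((f w : ℤ) : ZMod p))

namespace Gi

variable {f g : List A → ℤ}

theorem add [NeZero p] (hf : Gi p f) (hg : Gi p g) : Gi p (fun w => f w + g w) := by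
  unfold Gi at *
  haveI : Finite (ZMod p) := inferInstance
  simpa using Good.add hf hg

theorem smul [NeZero p] (c : ℤ) (hf : Gi p f) : Gi p (fun w => c * f w) := by
  unfold Gi at *
  haveI : Finite (ZMod p) := inferInstance
  simpa using Good.mul (Good.const ((c : ℤ) : ZMod p)) hf

theorem mul [NeZero p] (hf : Gi p f) (hg : Gi p g) : Gi p (fun w => f w * g w) := by
  unfold Gi at *
  haveI : Finite (ZMod p) := inferInstance
  simpa using Good.mul hf hg

theorem congr (hf : Gi p f) (h : ∀ w, f w = g w) : Gi p g := by
  have : f = g := funext h
  rwa [← this]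

/-- Division by a constant prime to `p`. -/
theorem of_mul [NeZero p] {c : ℤ} (hc : IsCoprime c (p : ℤ))
    (hf : Gi p (fun w => c * f w)) : Gi p f := by
  unfold Gi at *
  haveI : Finite (ZMod p) := inferInstance
  refine Good.of_factor hf (fun w w' e => ?_)
  have hunit : IsUnit ((c : ℤ) : ZMod p) := by
    obtain ⟨a, b, hab⟩ := hc
    refine IsUnit.of_mul_eq_one ((a : ℤ) : ZMod p) ?_
    have := congrArg (fun x : ℤ => ((x : ℤ) : ZMod p)) hab
    simp only [Int.cast_add, Int.cast_mul, Int.cast_natCast, ZMod.natCast_self, mul_zero, add_zero,
      Int.cast_one] at this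
    rw [mul_comm]
    exact this
  simp only [Int.cast_mul] at e
  exact hunit.mul_left_cancel e

end Gi

variable [Finite A]

theorem gi_rc_three [NeZero p] (s : List A) (hs : s.length ≤ 3) :
    Gi p (fun w => ((rc s w : ℕ) : ℤ)) := by
  have h := good_subCount (n := p) s.reverse (by simpa using hs)
  unfold Gi
  simpa [rc] using h

/-- The sum of the counts of a list of words, as an integer. -/
def rz (l : List (List A)) (w : List A) : ℤ := ((rs l w : ℕ) : ℤ)

theorem rz_cons (s : List A) (l : List (List A)) (w : List A) :
    rz (s :: l) w = ((rc s w : ℕ) : ℤ) + rz l w := by simp [rz]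

@[simp] theorem rz_nil (w : List A) : rz [] w = 0 := by simp [rz]

theorem rz_append (l l' : List (List A)) (w : List A) : rz (l ++ l') w = rz l w + rz l' w := by
  simp [rz]

theorem rs_flatMap {ι : Type} (L : List ι) (g : ι → List (List A)) (w : List A) :
    rs (L.flatMap g) w = (L.map fun e => rs (g e) w).sum := by
  induction L with
  | nil => simp
  | cons e L ih => simp [List.flatMap_cons, ih]

/-- Products of two counts of length at most three. -/
theorem gi_prod [NeZero p] (s t : List A) (hs : s.length ≤ 3) (ht : t.length ≤ 3) :
    Gi p (rz (infl s t)) := by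
  refine ((gi_rc_three s hs).mul (gi_rc_three t ht)).congr (fun w => ?_)
  rw [rz, ← rc_mul]
  push_cast
  ring

/-- The list of words of a product of powers of letters. -/
def prodL : List (A × ℕ) → List (List A)
  | [] => [[]]
  | e :: m => (prodL m).flatMap (infl (List.replicate e.2 e.1))

theorem rs_mul_left (u : List A) (L : List (List A)) (w : List A) :
    rs (L.flatMap (infl u)) w = rc u w * rs L w := by
  rw [rs_flatMap]
  induction L with
  | nil => simp
  | cons s L ih =>
    simp only [List.map_cons, List.sum_cons]
    rw [ih, ← rc_mul, rs_cons]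
    ring

theorem rs_prodL (m : List (A × ℕ)) (w : List A) : rs (prodL m) w = ev m (kv w) := by
  induction m with
  | nil => simp [prodL, ev]
  | cons e m ih =>
    rw [prodL, rs_mul_left, ih, rc_replicate]
    simp [ev, kv_apply]

/-- The words of a flow of a product of powers of letters. -/
def flowL (x : A) (m : List (A × ℕ)) : List (List A) := (prodL m).map (x :: ·)

theorem rz_flowL (x : A) (m : List (A × ℕ)) (w : List A) :
    rz (flowL x m) w = flow x (fun k => ((ev m k : ℕ) : ℤ)) w := by
  induction w using List.reverseRecOn with
  | nil =>
    simp [rz, flowL, rs_map_cons_nil, flow, flowFrom]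
  | append_singleton w a ih =>
    rw [flow_snoc, ← ih]
    simp only [rz, flowL, rs_map_cons_snoc, rs_prodL]
    by_cases h : x = a
    · subst h
      simp
    · have : ¬ a = x := fun e => h e.symm
      simp [h, this]

theorem gi_flow [Fintype A] [NeZero p] (x : A) (m : List (A × ℕ)) (hm : wt m ≤ 3) :
    Gi p (rz (flowL x m)) := by
  have h := gf_ev x m hm
  have hs : (fun a b => Classical.propDecidable (a = b)) = (inferInstance : DecidableEq A) :=
    Subsingleton.elim _ _
  rw [hs] at h
  unfold GF GoodZ at h
  have h2 := h p
  unfold Gi
  have e : (fun w => ((rz (flowL x m) w : ℤ) : ZMod p)) =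
      fun w => ((flow x (fun k => ((ev m k : ℕ) : ℤ)) w : ℤ) : ZMod p) := by
    funext w
    rw [rz_flowL]
  rw [e]
  exact h2

end Gi

section Phi

variable {A : Type} [DecidableEq A] {p : ℕ} [Fact p.Prime]

theorem sum_zmod_self (hp : p ≠ 2) : ∑ z : ZMod p, z = 0 := by
  have h1 : ∑ z : ZMod p, z = ∑ z : ZMod p, -z :=
    (Equiv.sum_comp (Equiv.neg (ZMod p)) (fun z => z)).symm
  rw [Finset.sum_neg_distrib] at h1
  have h2 : (2 : ZMod p) * ∑ z : ZMod p, z = 0 := by
    rw [two_mul]
    nth_rewrite 1 [h1]
    simp
  have h3 : (2 : ZMod p) ≠ 0 := by
    intro h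
    have : ((2 : ℕ) : ZMod p) = 0 := by exact_mod_cast h
    rw [ZMod.natCast_eq_zero_iff] at this
    have hle := Nat.le_of_dvd (by norm_num) this
    have := (Fact.out : p.Prime).two_le
    omega
  exact (mul_eq_zero.1 h2).resolve_left h3

/-- The sum of the counts of the letters of a list. -/
def xs (L : List A) (w : List A) : ZMod p := (L.map fun f => ((rc [f] w : ℕ) : ZMod p)).sum

theorem al_eq_sum (L : List A) (hL : L.Nodup) (a : A) :
    (al L a : ZMod p) = (L.map fun f => if f = a then (1 : ZMod p) else 0).sum := by
  induction L with
  | nil => simp [al]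
  | cons b L ih =>
    have hb := List.nodup_cons.1 hL
    simp only [List.map_cons, List.sum_cons, ← ih hb.2]
    unfold al
    by_cases h : b = a
    · subst h
      simp [hb.1]
    · have : ¬ a = b := fun e => h e.symm
      simp [h, this]

theorem xpos_eq (L : List A) (hL : L.Nodup) (w : List A) : (xpos L w : ZMod p) = xs L w := by
  induction w using List.reverseRecOn with
  | nil =>
    have : ∀ f : A, ((rc [f] ([] : List A) : ℕ) : ZMod p) = 0 := by simp
    simp [xpos, xs, this]
  | append_singleton w a ih =>
    rw [xpos_snoc, ih, al_eq_sum L hL, xs, xs]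
    clear ih
    induction L with
    | nil => simp
    | cons b L ih =>
      have hb := List.nodup_cons.1 hL
      simp only [List.map_cons, List.sum_cons]
      rw [add_add_add_comm, ← ih hb.2, rc_snoc]
      by_cases h : b = a
      · simp [h]
      · simp [h]

/-- The function of zero sum for an inner letter. -/
def hz (z : A) (a : A) (x : ZMod p) : ZMod p := if a = z then x else 0

theorem sum_hz (hp : p ≠ 2) (z a : A) : ∑ x : ZMod p, hz z a x = 0 := by
  unfold hz
  by_cases h : a = z
  · simp [h, sum_zmod_self hp]
  · simp [h]

/-- The sum of the counts of the pairs with last letter `z`. -/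
def ts (L : List A) (z : A) (w : List A) : ZMod p :=
  (L.map fun e => ((rc [z, e] w : ℕ) : ZMod p)).sum

theorem ts_snoc (L : List A) (z : A) (w : List A) (a : A) :
    (ts L z (w ++ [a]) : ZMod p) = ts L z w + if z = a then xs L w else 0 := by
  induction L with
  | nil => simp [ts, xs]
  | cons b L ih =>
    unfold ts xs at *
    simp only [List.map_cons, List.sum_cons]
    rw [ih, rc_snoc]
    by_cases h : z = a
    · simp only [h, if_true]
      push_cast
      ring
    · simp only [h, if_false]
      push_cast
      ring

theorem inn_eq (L : List A) (hL : L.Nodup) {z : A} (hz' : z ∈ L) (w : List A) :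
    (inn L (hz z) w : ZMod p) = ts L z w := by
  induction w using List.reverseRecOn with
  | nil =>
    have h0 : ∀ e : A, ((rc [z, e] ([] : List A) : ℕ) : ZMod p) = 0 := by simp
    simp [inn, tcnt, ts, h0, jc]
  | append_singleton w a ih =>
    rw [inn_snoc, ih, xpos_eq L hL]
    have h1 : (if a ∈ L then hz z a (xs L w) else 0 : ZMod p) =
        if z = a then xs L w else 0 := by
      unfold hz
      by_cases h : a = z
      · subst h; simp [hz']
      · have : ¬ z = a := fun e => h e.symm
        simp [h, this]
    rw [h1, ts_snoc]

/-- The words of the double flow. -/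
def phiG (L₁ L₂ : List A) (z y : A) : List (List A) :=
  L₁.flatMap fun e => L₂.flatMap fun f => (infl [f] [z, e]).map (y :: ·)

/-- The words of the double flow for one list. -/
def phiL (L : List A) (z y : A) : List (List A) := phiG L L z y

theorem phi_inner_snoc (L₂ : List A) (z e y : A) (w : List A) (a : A) :
    ((rs (L₂.flatMap fun f => (infl [f] [z, e]).map (y :: ·)) (w ++ [a]) : ℕ) : ZMod p) =
      ((rs (L₂.flatMap fun f => (infl [f] [z, e]).map (y :: ·)) w : ℕ) : ZMod p) +
        if y = a then xs L₂ w * ((rc [z, e] w : ℕ) : ZMod p) else 0 := by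
  induction L₂ with
  | nil =>
    simp [xs]
  | cons f L₂ ih =>
    simp only [List.flatMap_cons, rs_append, rs_map_cons_snoc, Nat.cast_add, ih, xs, List.map_cons,
      List.sum_cons, ← rc_mul]
    by_cases h : y = a
    · simp only [h, if_true]
      push_cast
      ring
    · simp only [h, if_false]
      push_cast
      ring

theorem phiG_snoc (L₁ L₂ : List A) (z y : A) (w : List A) (a : A) :
    ((rs (phiG L₁ L₂ z y) (w ++ [a]) : ℕ) : ZMod p) =
      ((rs (phiG L₁ L₂ z y) w : ℕ) : ZMod p) + if y = a then xs L₂ w * ts L₁ z w else 0 := by
  induction L₁ with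
  | nil => simp [phiG, ts]
  | cons e L₁ ih =>
    unfold phiG at ih ⊢
    simp only [List.flatMap_cons, rs_append, Nat.cast_add, ih, phi_inner_snoc, ts, List.map_cons,
      List.sum_cons]
    by_cases h : y = a
    · simp only [h, if_true]
      ring
    · simp only [h, if_false]
      ring

theorem phiG_nil (L₁ L₂ : List A) (z y : A) :
    ((rs (phiG L₁ L₂ z y) [] : ℕ) : ZMod p) = 0 := by
  induction L₁ with
  | nil => simp [phiG]
  | cons e L₁ ih =>
    unfold phiG at ih ⊢
    simp only [List.flatMap_cons, rs_append, Nat.cast_add, ih, add_zero]
    clear ih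
    induction L₂ with
    | nil => simp
    | cons f L₂ ih =>
      simp only [List.flatMap_cons, rs_append, Nat.cast_add, ih, add_zero, rs_map_cons_nil,
        Nat.cast_zero]

theorem phiL_eq (hp : p ≠ 2) (L : List A) (hL : L.Nodup) {z : A} (hz' : z ∈ L) {y : A}
    (w : List A) : ((rs (phiL L z y) w : ℕ) : ZMod p) = dfl L y (hz z) (fun x => x) w := by
  induction w using List.reverseRecOn with
  | nil =>
    rw [phiL, phiG_nil]
    simp [dfl, tf]
  | append_singleton w a ih =>
    rw [phiL, phiG_snoc, ← phiL, ih, dfl_snoc, xpos_eq L hL, inn_eq L hL hz']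
    by_cases h : y = a
    · subst h
      simp
    · have : ¬ a = y := fun e => h e.symm
      simp [h, this]

/-- **The double flows are good modulo an odd prime.** -/
theorem gi_phi [Finite A] (hp : p ≠ 2) (L : List A) (hL : L.Nodup) {z : A} (hz' : z ∈ L) {y : A}
    (hy : ¬ y ∈ L) : Gi p (rz (phiL L z y)) := by
  have h := good_dfl (p := p) L hy (h := hz z) (sum_hz hp z) (fun x => x)
  unfold Gi
  have e : (fun w => ((rz (phiL L z y) w : ℤ) : ZMod p)) = dfl L y (hz z) (fun x => x) := by
    funext w
    rw [← phiL_eq hp L hL hz' w, rz]
    push_cast
    rfl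
  rw [e]
  exact h

end Phi

end Vale.Agent.Lib.P329
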