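import Mathlib

/-!
Products along the last-letter automaton and the Rees zero-matrix semigroup.
-/

namespace Vale.Agent.Lib.P329

section WP

variable {A M : Type} [Monoid M]

/-- The product along the last-letter automaton started at the letter `q`. -/
def wp (ψ : A → A → M) : A → List A → M
  | _, [] => 1
  | q, a :: w => ψ q a * wp ψ a w

end WP

section Rees

variable {A I L G : Type} [Group G]

/-- The multiplication of the Rees zero-matrix semigroup with sandwich matrix `P`, the entry `none`
of `P` and the element `none` being zero. -/
def rzMul (P : L → I → Option G) : Option (I × G × L) → Option (I × G × L) → Option (I × G × L)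
  | some (i, g, l), some (j, h, n) =>
      match P l j with
      | some p => some (i, g * p * h, n)
      | none => none
  | _, _ => none

/-- The value of a nonempty word in the Rees zero-matrix semigroup. -/
def rzEval (P : L → I → Option G) (φ : A → Option (I × G × L)) : List A → Option (I × G × L)
  | [] => none
  | a :: w => w.foldl (fun s b => rzMul P s (φ b)) (φ a)

end Rees

end Vale.Agent.Lib.P329
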