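import Vale.Agent.Lib.P329.ClassFourAll
import Vale.Agent.Lib.P329.ReesDefs

/-!
Substitution of star free prefix codes; products along the transitions of the last-letter automaton;
pair counts of transitions; Rees zero-matrix semigroups over groups of class two.
-/

namespace Vale.Agent.Lib.P329

section Subst

variable {A B : Type}

/-- Words parsed along a word of blocks. -/
def parseL (ξ : B → Set (List A)) : List B → Set (List A)
  | [] => {[]}
  | b :: x => cat (ξ b) (parseL ξ x)

/-- The image of a language of words of blocks. -/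
def substL (ξ : B → Set (List A)) (L : Set (List B)) : Set (List A) :=
  {w | ∃ x ∈ L, w ∈ parseL ξ x}

theorem parseL_append (ξ : B → Set (List A)) (x y : List B) :
    parseL ξ (x ++ y) = cat (parseL ξ x) (parseL ξ y) := by
  induction x with
  | nil =>
    ext w
    constructor
    · intro h
      exact ⟨[], rfl, w, h, rfl⟩
    · rintro ⟨u, hu, v, hv, rfl⟩
      have : u = [] := hu
      subst this
      exact hv
  | cons b x ih =>
    rw [List.cons_append]
    ext w
    constructor
    · intro h
      obtain ⟨u, hu, v, hv, rfl⟩ := h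
      rw [ih] at hv
      obtain ⟨v₁, hv₁, v₂, hv₂, rfl⟩ := hv
      exact ⟨u ++ v₁, ⟨u, hu, v₁, hv₁, rfl⟩, v₂, hv₂, by simp⟩
    · rintro ⟨u, ⟨u₁, hu₁, u₂, hu₂, rfl⟩, v, hv, rfl⟩
      refine ⟨u₁, hu₁, u₂ ++ v, ?_, by simp⟩
      rw [ih]
      exact ⟨u₂, hu₂, v, hv, rfl⟩

theorem parseL_flatten (ξ : B → Set (List A)) (L : Set (List B)) (l : List (List B))
    (hl : ∀ x ∈ l, x ∈ L) (w : List A) (hw : w ∈ parseL ξ l.flatten) :
    w ∈ kstarL (substL ξ L) := by
  induction l generalizing w with
  | nil =>
    have : w = [] := hw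
    subst this
    exact ⟨[], by simp, rfl⟩
  | cons x l ih =>
    rw [List.flatten_cons, parseL_append] at hw
    obtain ⟨u, hu, v, hv, rfl⟩ := hw
    obtain ⟨ws, hws, rfl⟩ := ih (fun y hy => hl y (List.mem_cons_of_mem _ hy)) v hv
    refine ⟨u :: ws, ?_, by simp⟩
    intro z hz
    rcases List.mem_cons.1 hz with rfl | hz
    · exact ⟨x, hl x List.mem_cons_self, hu⟩
    · exact hws z hz

/-- The substitution of star free languages with unique parsing preserves star height. -/
theorem heightLE_substL [Finite A] (ξ : B → Set (List A)) (hξ : ∀ b, HeightLE 0 (ξ b))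
    (hΞ : HeightLE 0 (substL ξ Set.univ))
    (huniq : ∀ x y w, w ∈ parseL ξ x → w ∈ parseL ξ y → x = y) (P : GRE B) :
    HeightLE P.height (substL ξ P.lang) := by
  induction P with
  | zero =>
    have : substL ξ (GRE.zero : GRE B).lang = ∅ := by
      ext w
      constructor
      · rintro ⟨x, hx, _⟩
        exact absurd hx (by simp [GRE.lang])
      · intro h
        exact absurd h (by simp)
    rw [this]
    exact HeightLE.empty
  | one =>
    have : substL ξ (GRE.one : GRE B).lang = {[]} := by
      ext w
      constructor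
      · rintro ⟨x, hx, hw⟩
        have : x = [] := hx
        subst this
        exact hw
      · intro h
        exact ⟨[], rfl, h⟩
    rw [this]
    exact HeightLE.nil
  | letter b =>
    have : substL ξ (GRE.letter b : GRE B).lang = ξ b := by
      ext w
      constructor
      · rintro ⟨x, hx, hw⟩
        have : x = [b] := hx
        subst this
        obtain ⟨u, hu, v, hv, rfl⟩ := hw
        have : v = [] := hv
        subst this
        simpa using hu
      · intro h
        exact ⟨[b], rfl, w, h, [], rfl, by simp⟩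
    rw [this]
    exact hξ b
  | add P Q ihP ihQ =>
    have : substL ξ (GRE.add P Q).lang = substL ξ P.lang ∪ substL ξ Q.lang := by
      ext w
      constructor
      · rintro ⟨x, hx | hx, hw⟩
        · exact Or.inl ⟨x, hx, hw⟩
        · exact Or.inr ⟨x, hx, hw⟩
      · rintro (⟨x, hx, hw⟩ | ⟨x, hx, hw⟩)
        · exact ⟨x, Or.inl hx, hw⟩
        · exact ⟨x, Or.inr hx, hw⟩
    rw [this]
    exact (ihP.mono (le_max_left _ _)).union (ihQ.mono (le_max_right _ _))
  | mul P Q ihP ihQ =>
    have : substL ξ (GRE.mul P Q).lang = cat (substL ξ P.lang) (substL ξ Q.lang) := by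
      ext w
      constructor
      · rintro ⟨x, ⟨x₁, hx₁, x₂, hx₂, rfl⟩, hw⟩
        rw [parseL_append] at hw
        obtain ⟨u, hu, v, hv, rfl⟩ := hw
        exact ⟨u, ⟨x₁, hx₁, hu⟩, v, ⟨x₂, hx₂, hv⟩, rfl⟩
      · rintro ⟨u, ⟨x₁, hx₁, hu⟩, v, ⟨x₂, hx₂, hv⟩, rfl⟩
        refine ⟨x₁ ++ x₂, ⟨x₁, hx₁, x₂, hx₂, rfl⟩, ?_⟩
        rw [parseL_append]
        exact ⟨u, hu, v, hv, rfl⟩
    rw [this]
    exact (ihP.mono (le_max_left _ _)).concat (ihQ.mono (le_max_right _ _))
  | compl P ih =>
    have : substL ξ (GRE.compl P).lang = substL ξ Set.univ \ substL ξ P.lang := by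
      ext w
      constructor
      · rintro ⟨x, hx, hw⟩
        refine ⟨⟨x, trivial, hw⟩, ?_⟩
        rintro ⟨y, hy, hw'⟩
        have := huniq x y w hw hw'
        subst this
        exact hx hy
      · rintro ⟨⟨x, _, hw⟩, hn⟩
        exact ⟨x, fun hx => hn ⟨x, hx, hw⟩, hw⟩
    rw [this]
    exact (hΞ.mono (Nat.zero_le _)).diff ih
  | star P ih =>
    have : substL ξ (GRE.star P).lang = kstarL (substL ξ P.lang) := by
      ext w
      constructor
      · rintro ⟨x, ⟨l, hl, rfl⟩, hw⟩
        exact parseL_flatten ξ P.lang l hl w hw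
      · rintro ⟨ws, hws, rfl⟩
        have key : ∃ l : List (List B), (∀ x ∈ l, x ∈ P.lang) ∧ ws.flatten ∈ parseL ξ l.flatten := by
          induction ws with
          | nil => exact ⟨[], by simp, rfl⟩
          | cons u ws ih' =>
            obtain ⟨l, hl, hw⟩ := ih' (fun z hz => hws z (List.mem_cons_of_mem _ hz))
            obtain ⟨x, hx, hu⟩ := hws u List.mem_cons_self
            refine ⟨x :: l, ?_, ?_⟩
            · intro y hy
              rcases List.mem_cons.1 hy with rfl | hy
              · exact hx
              · exact hl y hy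
            · rw [List.flatten_cons, List.flatten_cons, parseL_append]
              exact ⟨u, hu, ws.flatten, hw, rfl⟩
        obtain ⟨l, hl, hw⟩ := key
        exact ⟨l.flatten, ⟨l, hl, rfl⟩, hw⟩
    rw [this]
    exact ih.star

theorem HeightLE.substL [Finite A] {ξ : B → Set (List A)} (hξ : ∀ b, HeightLE 0 (ξ b))
    (hΞ : HeightLE 0 (substL ξ Set.univ))
    (huniq : ∀ x y w, w ∈ parseL ξ x → w ∈ parseL ξ y → x = y) {n : ℕ} {L : Set (List B)}
    (hL : HeightLE n L) : HeightLE n (substL ξ L) := by
  obtain ⟨P, hP, rfl⟩ := hL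
  exact (heightLE_substL ξ hξ hΞ huniq P).mono hP

end Subst

section Blocks

variable {A : Type} (E : Set A)

/-- The blocks: words ending with their only letter of `E`; the type of a block records its first
letter and its last letter before the end. -/
def blk : Option (A × A) × A → Set (List A)
  | (none, e) => {u | e ∈ E ∧ u = [e]}
  | (some (c, x), e) =>
      {u | e ∈ E ∧ ∃ y : List A, (∀ z ∈ y, z ∉ E) ∧ y.head? = some c ∧ y.getLast? = some x ∧ u = y ++ [e]}

variable {E}

theorem blk_heightLE [Finite A] (b : Option (A × A) × A) : HeightLE 0 (blk E b) := by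
  classical
  obtain ⟨o, e⟩ := b
  by_cases he : e ∈ E
  · cases o with
    | none =>
      have : blk E (none, e) = {[e]} := by
        ext u
        constructor
        · rintro ⟨_, rfl⟩
          rfl
        · intro h
          exact ⟨he, h⟩
      rw [this]
      exact HeightLE.letter e
    | some p =>
      obtain ⟨c, x⟩ := p
      have : blk E (some (c, x), e) =
          cat (({y : List A | ∀ z ∈ y, z ∈ Eᶜ} ∩ cat {[c]} Set.univ) ∩ cat Set.univ {[x]}) {[e]} := by
        ext u
        constructor
        · rintro ⟨_, y, hy, h1, h2, rfl⟩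
          refine ⟨y, ⟨⟨hy, ?_⟩, ?_⟩, [e], rfl, rfl⟩
          · obtain ⟨t, rfl⟩ := List.head?_eq_some_iff.1 h1
            exact ⟨[c], rfl, t, trivial, rfl⟩
          · obtain ⟨t, rfl⟩ := List.getLast?_eq_some_iff.1 h2
            exact ⟨t, trivial, [x], rfl, rfl⟩
        · rintro ⟨y, ⟨⟨hy, ⟨_, h1, t, _, rfl⟩⟩, ⟨t', _, _, h2, e2⟩⟩, _, h3, rfl⟩
          have h1' : _ = [c] := h1
          have h2' : _ = [x] := h2
          have h3' : _ = [e] := h3
          subst h1' h2' h3'
          refine ⟨he, _, hy, by simp, ?_, rfl⟩
          rw [e2]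
          simp
      rw [this]
      exact (((heightLE_wordsOver 0 _).inter ((HeightLE.letter c).concat HeightLE.univ)).inter
        (HeightLE.univ.concat (HeightLE.letter x))).concat (HeightLE.letter e)
  · have : blk E (o, e) = ∅ := by
      ext u
      cases o with
      | none =>
        constructor
        · rintro ⟨h, _⟩
          exact absurd h he
        · intro h
          exact absurd h (by simp)
      | some p =>
        obtain ⟨c, x⟩ := p
        constructor
        · rintro ⟨h, _⟩
          exact absurd h he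
        · intro h
          exact absurd h (by simp)
    rw [this]
    exact HeightLE.empty

/-- Every block is a word without letters of `E` followed by one letter of `E`. -/
theorem blk_form {b : Option (A × A) × A} {u : List A} (h : u ∈ blk E b) :
    b.2 ∈ E ∧ ∃ y : List A, (∀ z ∈ y, z ∉ E) ∧ u = y ++ [b.2] := by
  obtain ⟨o, e⟩ := b
  cases o with
  | none =>
    obtain ⟨he, rfl⟩ := h
    exact ⟨he, [], by simp, rfl⟩
  | some p =>
    obtain ⟨c, x⟩ := p
    obtain ⟨he, y, hy, _, _, rfl⟩ := h
    exact ⟨he, y, hy, rfl⟩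

/-- The prefix property. -/
theorem block_prefix {y y' v v' : List A} {e e' : A} (hy : ∀ z ∈ y, z ∉ E) (he : e ∈ E)
    (hy' : ∀ z ∈ y', z ∉ E) (he' : e' ∈ E) (h : (y ++ [e]) ++ v = (y' ++ [e']) ++ v') :
    y = y' ∧ e = e' ∧ v = v' := by
  induction y generalizing y' with
  | nil =>
    cases y' with
    | nil =>
      simp only [List.nil_append, List.singleton_append, List.cons.injEq] at h
      exact ⟨rfl, h.1, h.2⟩
    | cons a y' =>
      simp only [List.nil_append, List.singleton_append, List.cons_append, List.cons.injEq] at h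
      exact absurd (h.1 ▸ he) (hy' a List.mem_cons_self)
  | cons a y ih =>
    cases y' with
    | nil =>
      simp only [List.nil_append, List.singleton_append, List.cons_append, List.cons.injEq] at h
      exact absurd (h.1 ▸ he') (hy a List.mem_cons_self)
    | cons a' y' =>
      simp only [List.cons_append, List.cons.injEq] at h
      obtain ⟨rfl, h2⟩ := h
      obtain ⟨e1, e2, e3⟩ := ih (fun z hz => hy z (List.mem_cons_of_mem _ hz))
        (fun z hz => hy' z (List.mem_cons_of_mem _ hz)) h2
      exact ⟨by rw [e1], e2, e3⟩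

theorem blk_inj {b b' : Option (A × A) × A} {u : List A} (h : u ∈ blk E b) (h' : u ∈ blk E b') :
    b = b' := by
  obtain ⟨o, e⟩ := b
  obtain ⟨o', e'⟩ := b'
  cases o with
  | none =>
    obtain ⟨he, rfl⟩ := h
    cases o' with
    | none =>
      obtain ⟨_, h2⟩ := h'
      have : e = e' := by simpa using h2
      rw [this]
    | some p =>
      obtain ⟨c, x⟩ := p
      obtain ⟨he', y, hy, h1, _, h2⟩ := h'
      have := (block_prefix (E := E) (y := []) (y' := y) (v := []) (v' := []) (by simp) he hy he'
        (by simpa using h2)).1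
      subst this
      simp at h1
  | some p =>
    obtain ⟨c, x⟩ := p
    obtain ⟨he, y, hy, h1, h2, rfl⟩ := h
    cases o' with
    | none =>
      obtain ⟨he', h3⟩ := h'
      have := (block_prefix (E := E) (y := y) (y' := []) (v := []) (v' := []) hy he (by simp) he'
        (by simpa using h3)).1
      subst this
      simp at h1
    | some p' =>
      obtain ⟨c', x'⟩ := p'
      obtain ⟨he', y', hy', h1', h2', h3⟩ := h'
      obtain ⟨e1, e2, _⟩ := block_prefix (E := E) (v := []) (v' := []) hy he hy' he'
        (by simpa using h3)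
      subst e1 e2
      have ec : c = c' := by
        rw [h1] at h1'
        simpa using h1'
      have ex : x = x' := by
        rw [h2] at h2'
        simpa using h2'
      rw [ec, ex]

/-- Unique parsing. -/
theorem parse_unique (x y : List (Option (A × A) × A)) (w : List A)
    (hx : w ∈ parseL (blk E) x) (hy : w ∈ parseL (blk E) y) : x = y := by
  induction x generalizing y w with
  | nil =>
    cases y with
    | nil => rfl
    | cons b y =>
      have hw : w = [] := hx
      subst hw
      obtain ⟨u, hu, v, _, e⟩ := hy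
      obtain ⟨_, t, _, rfl⟩ := blk_form hu
      simp at e
  | cons b x ih =>
    cases y with
    | nil =>
      have hw : w = [] := hy
      subst hw
      obtain ⟨u, hu, v, _, e⟩ := hx
      obtain ⟨_, t, _, rfl⟩ := blk_form hu
      simp at e
    | cons b' y =>
      obtain ⟨u, hu, v, hv, rfl⟩ := hx
      obtain ⟨u', hu', v', hv', e⟩ := hy
      obtain ⟨he, t, ht, rfl⟩ := blk_form hu
      obtain ⟨he', t', ht', rfl⟩ := blk_form hu'
      obtain ⟨e1, e2, e3⟩ := block_prefix ht he ht' he' e
      subst e3
      have hb : b = b' := blk_inj hu (by rw [e1, e2]; exact hu')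
      rw [hb, ih y v hv hv']

/-- Decomposition of a word into blocks and a tail without letters of `E`. -/
theorem parse_decomp (w : List A) :
    ∃ (x : List (Option (A × A) × A)) (p t : List A), p ∈ parseL (blk E) x ∧
      (∀ z ∈ t, z ∉ E) ∧ w = p ++ t := by
  classical
  induction w using List.reverseRecOn with
  | nil => exact ⟨[], [], [], rfl, by simp, rfl⟩
  | append_singleton w a ih =>
    obtain ⟨x, p, t, hp, ht, rfl⟩ := ih
    by_cases ha : a ∈ E
    · cases t with
      | nil =>
        refine ⟨x ++ [(none, a)], p ++ [a], [], ?_, by simp, by simp⟩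
        rw [parseL_append]
        exact ⟨p, hp, [a], ⟨[a], ⟨ha, rfl⟩, [], rfl, by simp⟩, rfl⟩
      | cons c t =>
        have hlast : (c :: t).getLast? = some ((c :: t).getLast (by simp)) :=
          List.getLast?_eq_some_getLast (by simp)
        refine ⟨x ++ [(some (c, (c :: t).getLast (by simp)), a)], p ++ ((c :: t) ++ [a]), [], ?_,
          by simp, by simp⟩
        rw [parseL_append]
        exact ⟨p, hp, (c :: t) ++ [a], ⟨(c :: t) ++ [a], ⟨ha, c :: t, ht, rfl, hlast, rfl⟩, [], rfl,
          by simp⟩, rfl⟩
    · refine ⟨x, p, t ++ [a], hp, ?_, by simp⟩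
      intro z hz
      rcases List.mem_append.1 hz with hz | hz
      · exact ht z hz
      · have : z = a := by simpa using hz
        rw [this]
        exact ha

/-- The words parsed into blocks: the empty word and the words ending in `E`. -/
theorem parse_all [Finite A] : HeightLE 0 (substL (blk E) Set.univ) := by
  have : substL (blk E) Set.univ = {[]} ∪ cat Set.univ (⋃ e ∈ E, {[e]}) := by
    ext w
    constructor
    · rintro ⟨x, hx, hw⟩
      clear hx
      induction x generalizing w with
      | nil => exact Or.inl hw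
      | cons b x ih =>
        right
        obtain ⟨u, hu, v, hv, rfl⟩ := hw
        obtain ⟨he, y, _, rfl⟩ := blk_form hu
        rcases ih v hv with hv' | ⟨s, _, t, ht, rfl⟩
        · have : v = [] := hv'
          subst this
          refine ⟨y, trivial, [b.2], ?_, by simp⟩
          simp only [Set.mem_iUnion]
          exact ⟨b.2, he, rfl⟩
        · exact ⟨(y ++ [b.2]) ++ s, trivial, t, ht, by simp⟩
    · rintro (h | ⟨s, _, t, ht, rfl⟩)
      · have : w = [] := h
        subst this
        exact ⟨[], trivial, rfl⟩
      · obtain ⟨x, p, t', hp, ht', e⟩ := parse_decomp (E := E) (s ++ t)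
        simp only [Set.mem_iUnion] at ht
        obtain ⟨e₀, he₀, ht0⟩ := ht
        have ht1 : t = [e₀] := ht0
        subst ht1
        rcases List.eq_nil_or_concat t' with rfl | ⟨t0, l, rfl⟩
        · rw [List.append_nil] at e
          rw [e]
          exact ⟨x, trivial, hp⟩
        · have e' : s ++ [e₀] = (p ++ t0) ++ [l] := by simpa using e
          have hl : e₀ = l := (List.append_inj' e' rfl).2 |> fun h => by simpa using h
          exact absurd he₀ (hl ▸ ht' l (by simp))
  rw [this]
  refine HeightLE.nil.union (HeightLE.univ.concat (HeightLE.biUnion fun e _ => HeightLE.letter e))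

end Blocks

section WP

variable {A M : Type} [Monoid M]

@[simp] theorem wp_nil (ψ : A → A → M) (q : A) : wp ψ q [] = 1 := rfl

@[simp] theorem wp_cons (ψ : A → A → M) (q a : A) (w : List A) :
    wp ψ q (a :: w) = ψ q a * wp ψ a w := rfl

theorem wp_block_append (ψ : A → A → M) (q : A) (y v : List A) (e : A) :
    wp ψ q ((y ++ [e]) ++ v) = wp ψ q (y ++ [e]) * wp ψ e v := by
  induction y generalizing q with
  | nil => simp
  | cons a y ih =>
    simp only [List.cons_append, wp_cons]
    rw [ih, mul_assoc]

variable {E : Set A} {e₁ : A} {ψ : A → A → M}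

theorem wp_base (h2 : ∀ x x' y, x ∈ E → x' ∈ E → ψ x y = ψ x' y) {q q' : A} (hq : q ∈ E)
    (hq' : q' ∈ E) (v : List A) : wp ψ q v = wp ψ q' v := by
  cases v with
  | nil => rfl
  | cons a v => simp only [wp_cons, h2 q q' a hq hq']

theorem wp_out (h1 : ∀ x y, x ∉ E → y ∉ E → ψ x y = 1) {z : A} (hz : z ∉ E) (y : List A)
    (hy : ∀ t ∈ y, t ∉ E) : wp ψ z y = 1 := by
  induction y generalizing z with
  | nil => rfl
  | cons a y ih =>
    have ha := hy a List.mem_cons_self
    rw [wp_cons, h1 z a hz ha, one_mul]
    exact ih ha (fun t ht => hy t (List.mem_cons_of_mem _ ht))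

theorem wp_out_snoc (h1 : ∀ x y, x ∉ E → y ∉ E → ψ x y = 1) {z : A} (hz : z ∉ E) (y : List A)
    (hy : ∀ t ∈ y, t ∉ E) (e : A) : wp ψ z (y ++ [e]) = ψ (y.getLast?.getD z) e := by
  induction y generalizing z with
  | nil => simp
  | cons a y ih =>
    have ha := hy a List.mem_cons_self
    rw [List.cons_append, wp_cons, h1 z a hz ha, one_mul,
      ih ha (fun t ht => hy t (List.mem_cons_of_mem _ ht)), List.getLast?_cons]
    simp

/-- The value of a block. -/
def blkW (ψ : A → A → M) (e₁ : A) : Option (A × A) × A → M
  | (none, e) => ψ e₁ e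
  | (some (c, x), e) => ψ e₁ c * ψ x e

theorem blk_value (he₁ : e₁ ∈ E) (h1 : ∀ x y, x ∉ E → y ∉ E → ψ x y = 1)
    (h2 : ∀ x x' y, x ∈ E → x' ∈ E → ψ x y = ψ x' y) {b : Option (A × A) × A} {u : List A}
    (hu : u ∈ blk E b) {q : A} (hq : q ∈ E) : wp ψ q u = blkW ψ e₁ b := by
  obtain ⟨o, e⟩ := b
  cases o with
  | none =>
    obtain ⟨_, rfl⟩ := hu
    simp [blkW, h2 q e₁ e hq he₁]
  | some p =>
    obtain ⟨c, x⟩ := p
    obtain ⟨_, y, hy, hh, hl, rfl⟩ := hu
    obtain ⟨t, rfl⟩ := List.head?_eq_some_iff.1 hh
    have hc := hy c List.mem_cons_self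
    rw [List.cons_append, wp_cons, wp_out_snoc h1 hc t (fun z hz => hy z (List.mem_cons_of_mem _ hz)),
      h2 q e₁ c hq he₁]
    rw [List.getLast?_cons] at hl
    have : t.getLast?.getD c = x := by simpa using hl
    rw [this]
    rfl

theorem parse_value (he₁ : e₁ ∈ E) (h1 : ∀ x y, x ∉ E → y ∉ E → ψ x y = 1)
    (h2 : ∀ x x' y, x ∈ E → x' ∈ E → ψ x y = ψ x' y) (x : List (Option (A × A) × A)) {p : List A}
    (hp : p ∈ parseL (blk E) x) {q : A} (hq : q ∈ E) (v : List A) :
    wp ψ q (p ++ v) = (x.map (blkW ψ e₁)).prod * wp ψ e₁ v := by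
  induction x generalizing p q with
  | nil =>
    have : p = [] := hp
    subst this
    simp only [List.nil_append, List.map_nil, List.prod_nil, one_mul]
    exact wp_base h2 hq he₁ v
  | cons b x ih =>
    obtain ⟨u, hu, p', hp', rfl⟩ := hp
    obtain ⟨he, y, _, rfl⟩ := blk_form hu
    have hv := blk_value he₁ h1 h2 hu hq
    rw [List.append_assoc (y ++ [b.2]) p' v, wp_block_append, hv, ih hp' he]
    simp [mul_assoc]

/-- The value of the tail. -/
def tailW (ψ : A → A → M) (e₁ : A) : Option A → M
  | none => 1
  | some c => ψ e₁ c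

variable (E) in
/-- The tails. -/
def tailL : Option A → Set (List A)
  | none => {[]}
  | some c => {t | (∀ z ∈ t, z ∈ Eᶜ) ∧ t ∈ cat {[c]} Set.univ}

theorem tailL_heightLE [Finite A] (τ : Option A) : HeightLE 0 (tailL E τ) := by
  cases τ with
  | none => exact HeightLE.nil
  | some c =>
    exact (heightLE_wordsOver 0 _).inter ((HeightLE.letter c).concat HeightLE.univ)

theorem tail_value (h1 : ∀ x y, x ∉ E → y ∉ E → ψ x y = 1) {τ : Option A} {t : List A}
    (ht : t ∈ tailL E τ) : wp ψ e₁ t = tailW ψ e₁ τ := by
  cases τ with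
  | none =>
    have : t = [] := ht
    subst this
    rfl
  | some c =>
    obtain ⟨h, _, hu, r, _, rfl⟩ := ht
    have hu' : _ = [c] := hu
    subst hu'
    have hc : c ∉ E := h c (by simp)
    have hr : ∀ z ∈ r, z ∉ E := fun z hz => h z (by simp [hz])
    simp only [List.singleton_append, wp_cons, tailW]
    rw [wp_out h1 hc r hr, mul_one]

theorem first_split (E : Set A) (w : List A) :
    (∀ z ∈ w, z ∉ E) ∨ ∃ (y : List A) (e : A) (w' : List A), (∀ z ∈ y, z ∉ E) ∧ e ∈ E ∧
      w = y ++ e :: w' := by
  classical
  induction w with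
  | nil => exact Or.inl (by simp)
  | cons a w ih =>
    by_cases ha : a ∈ E
    · exact Or.inr ⟨[], a, w, by simp, ha, rfl⟩
    · rcases ih with h | ⟨y, e, w', hy, he, rfl⟩
      · left
        intro z hz
        rcases List.mem_cons.1 hz with rfl | hz
        · exact ha
        · exact h z hz
      · right
        refine ⟨a :: y, e, w', ?_, he, rfl⟩
        intro z hz
        rcases List.mem_cons.1 hz with rfl | hz
        · exact ha
        · exact hy z hz

variable [Finite A] [Finite M] (Sub : Submonoid M)
  (HM : ∀ (B : Type) [Finite B] (φ : B → M), (∀ b, φ b ∈ Sub) →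
    ∀ g, HeightLE 1 {x : List B | (x.map φ).prod = g})

include HM

/-- **Products along the last-letter automaton, started in `E`.** -/
theorem good_wp_in (he₁ : e₁ ∈ E) (hψ : ∀ x y, ψ x y ∈ Sub)
    (h1 : ∀ x y, x ∉ E → y ∉ E → ψ x y = 1)
    (h2 : ∀ x x' y, x ∈ E → x' ∈ E → ψ x y = ψ x' y) {q : A} (hq : q ∈ E) : Good (wp ψ q) := by
  intro g
  have hW : ∀ b, blkW ψ e₁ b ∈ Sub := by
    rintro ⟨o, e⟩
    cases o with
    | none => exact hψ _ _
    | some p => exact Sub.mul_mem (hψ _ _) (hψ _ _)
  have key : {w | wp ψ q w = g} = ⋃ τ : Option A, ⋃ g' ∈ {g' : M | g' * tailW ψ e₁ τ = g},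
      cat (substL (blk E) {x | (x.map (blkW ψ e₁)).prod = g'}) (tailL E τ) := by
    ext w
    simp only [Set.mem_iUnion]
    constructor
    · intro h
      obtain ⟨x, p, t, hp, ht, rfl⟩ := parse_decomp (E := E) w
      have hv := parse_value he₁ h1 h2 x hp hq t
      have h' : wp ψ q (p ++ t) = g := h
      rw [hv] at h'
      cases t with
      | nil =>
        refine ⟨none, _, ?_, ⟨p, ⟨x, rfl, hp⟩, [], rfl, rfl⟩⟩
        simpa [tailW] using h'
      | cons c r =>
        refine ⟨some c, _, ?_, ⟨p, ⟨x, rfl, hp⟩, c :: r, ⟨ht, [c], rfl, r, trivial, rfl⟩, rfl⟩⟩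
        have hc : c ∉ E := ht c List.mem_cons_self
        have hr : ∀ z ∈ r, z ∉ E := fun z hz => ht z (List.mem_cons_of_mem _ hz)
        rw [wp_cons, wp_out h1 hc r hr, mul_one] at h'
        exact h'
    · rintro ⟨τ, g', hg', u, ⟨x, hx, hu⟩, t, ht, rfl⟩
      have hv := parse_value he₁ h1 h2 x hu hq t
      show wp ψ q (u ++ t) = g
      rw [hv, tail_value h1 ht]
      have hx' : (x.map (blkW ψ e₁)).prod = g' := hx
      rw [hx']
      exact hg'
  rw [key]
  refine HeightLE.iUnion (fun τ => HeightLE.biUnion (fun g' _ => ?_))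
  refine HeightLE.concat ?_ ((tailL_heightLE τ).mono (Nat.zero_le _))
  exact HeightLE.substL blk_heightLE parse_all (fun x y w hx hy => parse_unique x y w hx hy)
    (HM _ (blkW ψ e₁) hW g')

/-- **Products along the last-letter automaton.** -/
theorem good_wp (he₁ : e₁ ∈ E) (hψ : ∀ x y, ψ x y ∈ Sub)
    (h1 : ∀ x y, x ∉ E → y ∉ E → ψ x y = 1)
    (h2 : ∀ x x' y, x ∈ E → x' ∈ E → ψ x y = ψ x' y) (q : A) : Good (wp ψ q) := by
  classical
  by_cases hq : q ∈ E
  · exact good_wp_in Sub HM he₁ hψ h1 h2 hq
  intro g
  have hin : Good (wp ψ e₁) := good_wp_in Sub HM he₁ hψ h1 h2 he₁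
  let Zq : A → Set (List A) := fun z =>
    {y | (∀ t ∈ y, t ∈ Eᶜ)} ∩ ((if z = q then {[]} else ∅) ∪ cat Set.univ {[z]})
  have hZ : ∀ z, HeightLE 1 (Zq z) := by
    intro z
    refine (heightLE_wordsOver 1 _).inter (HeightLE.union ?_ (HeightLE.univ.concat (HeightLE.letter z)))
    by_cases hz : z = q
    · simp only [hz, if_true]
      exact HeightLE.nil
    · simp only [hz, if_false]
      exact HeightLE.empty
  have hZv : ∀ y : List A, y ∈ {y : List A | (∀ t ∈ y, t ∈ Eᶜ)} → y ∈ Zq (y.getLast?.getD q) := by
    intro y hy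
    refine ⟨hy, ?_⟩
    rcases List.eq_nil_or_concat y with rfl | ⟨t, l, rfl⟩
    · left
      simp
    · right
      rw [List.concat_eq_append]
      have e : (t ++ [l]).getLast?.getD q = l := by simp
      rw [e]
      exact ⟨t, trivial, [l], rfl, rfl⟩
  have hZv' : ∀ z y, y ∈ Zq z → y.getLast?.getD q = z := by
    rintro z y ⟨_, h | h⟩
    · by_cases hz : z = q
      · simp only [hz, if_true] at h
        have : y = [] := h
        subst this
        simp [hz]
      · simp only [hz, if_false] at h
        exact absurd h (by simp)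
    · obtain ⟨t, _, r, hr, rfl⟩ := h
      have : r = [z] := hr
      subst this
      simp
  have key : {w | wp ψ q w = g} = ({w | ∀ z ∈ w, z ∈ Eᶜ} ∩ {w | (1 : M) = g}) ∪
      ⋃ z : A, ⋃ e ∈ E, ⋃ g' ∈ {g' : M | ψ z e * g' = g},
        cat (cat (Zq z) {[e]}) {w | wp ψ e₁ w = g'} := by
    ext w
    simp only [Set.mem_union, Set.mem_iUnion]
    constructor
    · intro h
      have h' : wp ψ q w = g := h
      rcases first_split E w with hw | ⟨y, e, w', hy, he, rfl⟩
      · left
        refine ⟨hw, ?_⟩
        rw [wp_out h1 hq w hw] at h'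
        exact h'
      · right
        refine ⟨y.getLast?.getD q, e, he, wp ψ e₁ w', ?_, (y ++ [e]), ⟨y, hZv y hy, [e], rfl, rfl⟩, w',
          rfl, by simp⟩
        have e2 : y ++ e :: w' = (y ++ [e]) ++ w' := by simp
        rw [e2, wp_block_append, wp_out_snoc h1 hq y hy, wp_base h2 he he₁] at h'
        exact h'
    · rintro (⟨hw, hg⟩ | ⟨z, e, he, g', hg', _, ⟨y, hy, _, hee, rfl⟩, w', hw', rfl⟩)
      · show wp ψ q w = g
        rw [wp_out h1 hq w hw]
        exact hg
      · have hee' : _ = [e] := hee
        subst hee'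
        show wp ψ q ((y ++ [e]) ++ w') = g
        have hw'' : wp ψ e₁ w' = g' := hw'
        rw [wp_block_append, wp_out_snoc h1 hq y hy.1, hZv' z y hy, wp_base h2 he he₁, hw'']
        exact hg'
  rw [key]
  refine ((heightLE_wordsOver 1 _).inter ?_).union ?_
  · by_cases hg : (1 : M) = g
    · have : {w : List A | (1 : M) = g} = Set.univ := by
        ext w
        simp [hg]
      rw [this]
      exact HeightLE.univ
    · have : {w : List A | (1 : M) = g} = ∅ := by
        ext w
        simp [hg]
      rw [this]
      exact HeightLE.empty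
  · refine HeightLE.iUnion (fun z => HeightLE.biUnion (fun e _ => HeightLE.biUnion (fun g' _ => ?_)))
    exact ((hZ z).concat (HeightLE.letter e)).concat (hin g')

end WP

section Pairs

variable {A : Type}

/-- The transitions of the last-letter automaton. -/
def tok : A → List A → List (A × A)
  | _, [] => []
  | q, a :: w => (q, a) :: tok a w

section Ring

variable {R : Type} [CommRing R]

/-- The sum of a function over a list of transitions. -/
def sumT (f : A × A → R) (x : List (A × A)) : R := (x.map f).sum

/-- The sum of `f s * g t` over the pairs `s` before `t` of a list of transitions. -/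
def pairT (f g : A × A → R) : List (A × A) → R
  | [] => 0
  | t :: x => f t * sumT g x + pairT f g x

@[simp] theorem sumT_nil (f : A × A → R) : sumT f [] = 0 := rfl

@[simp] theorem sumT_cons (f : A × A → R) (t : A × A) (x : List (A × A)) :
    sumT f (t :: x) = f t + sumT f x := by
  simp [sumT]

@[simp] theorem pairT_nil (f g : A × A → R) : pairT f g [] = 0 := rfl

@[simp] theorem pairT_cons (f g : A × A → R) (t : A × A) (x : List (A × A)) :
    pairT f g (t :: x) = f t * sumT g x + pairT f g x := rfl

theorem sumT_add (f f' : A × A → R) (x : List (A × A)) :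
    sumT (f + f') x = sumT f x + sumT f' x := by
  induction x with
  | nil => simp
  | cons t x ih =>
    simp only [sumT_cons, ih, Pi.add_apply]
    ring

theorem sumT_smul (c : R) (f : A × A → R) (x : List (A × A)) :
    sumT (c • f) x = c * sumT f x := by
  induction x with
  | nil => simp
  | cons t x ih =>
    simp only [sumT_cons, ih, Pi.smul_apply, smul_eq_mul]
    ring

theorem sumT_zero (x : List (A × A)) : sumT (0 : A × A → R) x = 0 := by
  induction x with
  | nil => simp
  | cons t x ih => simp [ih]

theorem pairT_add_left (f f' g : A × A → R) (x : List (A × A)) :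
    pairT (f + f') g x = pairT f g x + pairT f' g x := by
  induction x with
  | nil => simp
  | cons t x ih =>
    simp only [pairT_cons, ih, Pi.add_apply]
    ring

theorem pairT_add_right (f g g' : A × A → R) (x : List (A × A)) :
    pairT f (g + g') x = pairT f g x + pairT f g' x := by
  induction x with
  | nil => simp
  | cons t x ih =>
    simp only [pairT_cons, ih, sumT_add]
    ring

theorem pairT_smul_left (c : R) (f g : A × A → R) (x : List (A × A)) :
    pairT (c • f) g x = c * pairT f g x := by
  induction x with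
  | nil => simp
  | cons t x ih =>
    simp only [pairT_cons, ih, Pi.smul_apply, smul_eq_mul]
    ring

theorem pairT_smul_right (c : R) (f g : A × A → R) (x : List (A × A)) :
    pairT f (c • g) x = c * pairT f g x := by
  induction x with
  | nil => simp
  | cons t x ih =>
    simp only [pairT_cons, ih, sumT_smul]
    ring

theorem pairT_zero_left (g : A × A → R) (x : List (A × A)) : pairT 0 g x = 0 := by
  induction x with
  | nil => simp
  | cons t x ih => simp [ih]

theorem pairT_zero_right (f : A × A → R) (x : List (A × A)) : pairT f 0 x = 0 := by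
  induction x with
  | nil => simp
  | cons t x ih => simp [ih, sumT_zero]

/-- Upper unitriangular matrices of size three. -/
def mat3 (a b c : R) : Matrix (Fin 3) (Fin 3) R := !![1, a, c; 0, 1, b; 0, 0, 1]

theorem mat3_mul (a b c a' b' c' : R) :
    mat3 a b c * mat3 a' b' c' = mat3 (a + a') (b + b') (c + c' + a * b') := by
  ext i j
  fin_cases i <;> fin_cases j <;> simp [mat3, Matrix.mul_apply, Fin.sum_univ_three] <;> ring

theorem mat3_one : mat3 (0 : R) 0 0 = 1 := by
  ext i j
  fin_cases i <;> fin_cases j <;> simp [mat3]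

theorem mat3_entry (a b c : R) : mat3 a b c 0 2 = c := by
  simp [mat3]

theorem mat3_entry₁ (a b c : R) : mat3 a b c 0 1 = a := by
  simp [mat3]

theorem mat3_entry₂ (a b c : R) : mat3 a b c 1 2 = b := by
  simp [mat3]

theorem mat3_three (a b c a' b' c' a'' b'' c'' : R) :
    (mat3 a b c - 1) * (mat3 a' b' c' - 1) * (mat3 a'' b'' c'' - 1) = 0 := by
  ext i j
  fin_cases i <;> fin_cases j <;>
    simp [mat3, Matrix.mul_apply, Fin.sum_univ_three, Matrix.one_apply]

variable (R) in
/-- The unitriangular matrices as a submonoid. -/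
def uniSub : Submonoid (Matrix (Fin 3) (Fin 3) R) where
  carrier := {M | ∃ a b c : R, M = mat3 a b c}
  one_mem' := ⟨0, 0, 0, mat3_one.symm⟩
  mul_mem' := by
    rintro _ _ ⟨a, b, c, rfl⟩ ⟨a', b', c', rfl⟩
    exact ⟨_, _, _, mat3_mul a b c a' b' c'⟩

theorem wp_mat3 (f g : A × A → R) (q : A) (w : List A) :
    wp (fun x y => mat3 (f (x, y)) (g (x, y)) 0) q w =
      mat3 (sumT f (tok q w)) (sumT g (tok q w)) (pairT f g (tok q w)) := by
  induction w generalizing q with
  | nil =>
    simp only [wp_nil, tok, sumT_nil, pairT_nil, mat3_one]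
  | cons a w ih =>
    simp only [wp_cons, ih, tok, sumT_cons, pairT_cons, mat3_mul]
    congr 1
    ring

end Ring

section Good

variable {m : ℕ} [NeZero m]

theorem uni_HM (B : Type) [Finite B] (φ : B → Matrix (Fin 3) (Fin 3) (ZMod m))
    (hφ : ∀ b, φ b ∈ uniSub (ZMod m)) (g : Matrix (Fin 3) (Fin 3) (ZMod m)) :
    HeightLE 1 {x : List B | (x.map φ).prod = g} := by
  have h := heightLE_depthFive_all (m := m) φ (fun a b c d e => by
    obtain ⟨a₁, a₂, a₃, ha⟩ := hφ a
    obtain ⟨b₁, b₂, b₃, hb⟩ := hφ b
    obtain ⟨c₁, c₂, c₃, hc⟩ := hφ c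
    rw [ha, hb, hc, mat3_three]
    simp) {g}
  simpa using h

variable [Finite A]

/-- Pairs with a good set of letters. -/
def QQ (f g : A × A → ZMod m) : Prop :=
  ∀ q : A, Good (fun w : List A =>
    mat3 (sumT f (tok q w)) (sumT g (tok q w)) (pairT f g (tok q w)))

theorem QQ_of_set (f g : A × A → ZMod m) (E : Set A) {e₁ : A} (he₁ : e₁ ∈ E)
    (hf : ∀ x y, x ∉ E → y ∉ E → f (x, y) = 0) (hg : ∀ x y, x ∉ E → y ∉ E → g (x, y) = 0)
    (hf2 : ∀ x x' y, x ∈ E → x' ∈ E → f (x, y) = f (x', y))
    (hg2 : ∀ x x' y, x ∈ E → x' ∈ E → g (x, y) = g (x', y)) : QQ f g := by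
  intro q
  haveI : Finite (Matrix (Fin 3) (Fin 3) (ZMod m)) := by
    unfold Matrix
    infer_instance
  have h := good_wp (ψ := fun x y => mat3 (f (x, y)) (g (x, y)) 0) (uniSub (ZMod m)) uni_HM he₁
    (fun x y => ⟨_, _, _, rfl⟩)
    (fun x y hx hy => by simp only [hf x y hx hy, hg x y hx hy, mat3_one])
    (fun x x' y hx hx' => by simp only [hf2 x x' y hx hx', hg2 x x' y hx hx']) q
  have e : wp (fun x y => mat3 (f (x, y)) (g (x, y)) 0) q =
      fun w => mat3 (sumT f (tok q w)) (sumT g (tok q w)) (pairT f g (tok q w)) := by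
    funext w
    exact wp_mat3 f g q w
  rw [e] at h
  exact h

section Basis

open Classical

/-- The indicator of a transition. -/
noncomputable def dl (b a : A) : A × A → ZMod m := fun t => if t = (b, a) then 1 else 0

/-- The indicator of a target. -/
noncomputable def la (a : A) : A × A → ZMod m := fun t => if t.2 = a then 1 else 0

theorem dl_zero₁ {b a x y : A} (h : x ≠ b) : (dl b a (x, y) : ZMod m) = 0 := by
  simp [dl, h]

theorem dl_zero₂ {b a x y : A} (h : y ≠ a) : (dl b a (x, y) : ZMod m) = 0 := by
  simp [dl, h]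

theorem la_zero {a x y : A} (h : y ≠ a) : (la a (x, y) : ZMod m) = 0 := by
  simp [la, h]

theorem la_ind (a x x' y : A) : (la a (x, y) : ZMod m) = la a (x', y) := rfl

theorem QQ_dl_dl {b a d c : A} (hba : b ≠ a) (hdc : d ≠ c) : QQ (m := m) (dl b a) (dl d c) := by
  by_cases h1 : b = c
  · subst h1
    refine QQ_of_set _ _ {b} (Set.mem_singleton b) (fun x y hx _ => dl_zero₁ hx)
      (fun x y _ hy => dl_zero₂ hy) (fun x x' y hx hx' => ?_) (fun x x' y hx hx' => ?_)
    · rw [Set.mem_singleton_iff.1 hx, Set.mem_singleton_iff.1 hx']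
    · rw [Set.mem_singleton_iff.1 hx, Set.mem_singleton_iff.1 hx']
  by_cases h2 : d = a
  · subst h2
    refine QQ_of_set _ _ {d} (Set.mem_singleton d) (fun x y _ hy => dl_zero₂ hy)
      (fun x y hx _ => dl_zero₁ hx) (fun x x' y hx hx' => ?_) (fun x x' y hx hx' => ?_)
    · rw [Set.mem_singleton_iff.1 hx, Set.mem_singleton_iff.1 hx']
    · rw [Set.mem_singleton_iff.1 hx, Set.mem_singleton_iff.1 hx']
  refine QQ_of_set _ _ {a, c} (Set.mem_insert a _)
    (fun x y _ hy => dl_zero₂ (fun e => hy (by simp [e])))
    (fun x y _ hy => dl_zero₂ (fun e => hy (by simp [e])))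
    (fun x x' y hx hx' => ?_) (fun x x' y hx hx' => ?_)
  · have hb : ∀ z, z ∈ ({a, c} : Set A) → z ≠ b := by
      rintro z (rfl | hz) rfl
      · exact hba rfl
      · exact h1 hz
    rw [dl_zero₁ (hb x hx), dl_zero₁ (hb x' hx')]
  · have hb : ∀ z, z ∈ ({a, c} : Set A) → z ≠ d := by
      rintro z (rfl | hz) rfl
      · exact h2 rfl
      · exact hdc hz
    rw [dl_zero₁ (hb x hx), dl_zero₁ (hb x' hx')]

theorem QQ_la_dl (a : A) {d c : A} (hdc : d ≠ c) : QQ (m := m) (la a) (dl d c) := by
  by_cases h2 : d = a
  · subst h2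
    refine QQ_of_set _ _ {d} (Set.mem_singleton d) (fun x y _ hy => la_zero hy)
      (fun x y hx _ => dl_zero₁ hx) (fun x x' y _ _ => rfl) (fun x x' y hx hx' => ?_)
    rw [Set.mem_singleton_iff.1 hx, Set.mem_singleton_iff.1 hx']
  refine QQ_of_set _ _ {a, c} (Set.mem_insert a _)
    (fun x y _ hy => la_zero (fun e => hy (by simp [e])))
    (fun x y _ hy => dl_zero₂ (fun e => hy (by simp [e])))
    (fun x x' y _ _ => rfl) (fun x x' y hx hx' => ?_)
  have hb : ∀ z, z ∈ ({a, c} : Set A) → z ≠ d := by
    rintro z (rfl | hz) rfl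
    · exact h2 rfl
    · exact hdc hz
  rw [dl_zero₁ (hb x hx), dl_zero₁ (hb x' hx')]

theorem QQ_dl_la {b a : A} (hba : b ≠ a) (c : A) : QQ (m := m) (dl b a) (la c) := by
  by_cases h1 : b = c
  · subst h1
    refine QQ_of_set _ _ {b} (Set.mem_singleton b) (fun x y hx _ => dl_zero₁ hx)
      (fun x y _ hy => la_zero hy) (fun x x' y hx hx' => ?_) (fun x x' y _ _ => rfl)
    rw [Set.mem_singleton_iff.1 hx, Set.mem_singleton_iff.1 hx']
  refine QQ_of_set _ _ {a, c} (Set.mem_insert a _)
    (fun x y _ hy => dl_zero₂ (fun e => hy (by simp [e])))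
    (fun x y _ hy => la_zero (fun e => hy (by simp [e])))
    (fun x x' y hx hx' => ?_) (fun x x' y _ _ => rfl)
  have hb : ∀ z, z ∈ ({a, c} : Set A) → z ≠ b := by
    rintro z (rfl | hz) rfl
    · exact hba rfl
    · exact h1 hz
  rw [dl_zero₁ (hb x hx), dl_zero₁ (hb x' hx')]

theorem QQ_la_la (a c : A) : QQ (m := m) (la a) (la c) := by
  refine QQ_of_set _ _ {a, c} (Set.mem_insert a _)
    (fun x y _ hy => la_zero (fun e => hy (by simp [e])))
    (fun x y _ hy => la_zero (fun e => hy (by simp [e])))
    (fun x x' y _ _ => rfl) (fun x x' y _ _ => rfl)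

/-- The generators of all functions on transitions. -/
def gensT : Set (A × A → ZMod m) :=
  {f | (∃ b a : A, b ≠ a ∧ f = dl b a) ∨ ∃ a : A, f = la a}

theorem QQ_gens {f g : A × A → ZMod m} (hf : f ∈ gensT) (hg : g ∈ gensT) : QQ f g := by
  rcases hf with ⟨b, a, hba, rfl⟩ | ⟨a, rfl⟩ <;> rcases hg with ⟨d, c, hdc, rfl⟩ | ⟨c, rfl⟩
  · exact QQ_dl_dl hba hdc
  · exact QQ_dl_la hba c
  · exact QQ_la_dl a hdc
  · exact QQ_la_la a c

theorem dl_mem (x y : A) : dl x y ∈ Submodule.span (ZMod m) (gensT (A := A) (m := m)) := by
  haveI : Fintype A := Fintype.ofFinite A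
  by_cases hxy : x = y
  · subst hxy
    have e : dl x x = la (m := m) x - ∑ z ∈ (Finset.univ : Finset A).erase x, dl z x := by
      funext s
      obtain ⟨s₁, s₂⟩ := s
      simp only [Pi.sub_apply, Finset.sum_apply]
      by_cases h2 : s₂ = x
      · subst h2
        by_cases h1 : s₁ = s₂
        · subst h1
          have : ∑ z ∈ (Finset.univ : Finset A).erase s₁, (dl z s₁ (s₁, s₁) : ZMod m) = 0 := by
            refine Finset.sum_eq_zero (fun z hz => ?_)
            have hz' : z ≠ s₁ := Finset.ne_of_mem_erase hz
            exact dl_zero₁ (Ne.symm hz')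
          rw [this]
          simp [dl, la]
        · have : ∑ z ∈ (Finset.univ : Finset A).erase s₂, (dl z s₂ (s₁, s₂) : ZMod m) = 1 := by
            rw [Finset.sum_eq_single s₁]
            · simp [dl]
            · intro z _ hz
              exact dl_zero₁ (Ne.symm hz)
            · intro hn
              exact absurd (Finset.mem_erase.2 ⟨h1, Finset.mem_univ _⟩) hn
          rw [this]
          simp [dl, la, h1]
      · have : ∑ z ∈ (Finset.univ : Finset A).erase x, (dl z x (s₁, s₂) : ZMod m) = 0 :=
          Finset.sum_eq_zero (fun z _ => dl_zero₂ h2)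
        rw [this, dl_zero₂ h2, la_zero h2]
        simp
    rw [e]
    refine Submodule.sub_mem _ (Submodule.subset_span (Or.inr ⟨x, rfl⟩)) ?_
    refine Submodule.sum_mem _ (fun z hz => Submodule.subset_span (Or.inl ⟨z, x, ?_, rfl⟩))
    exact Finset.ne_of_mem_erase hz
  · exact Submodule.subset_span (Or.inl ⟨x, y, hxy, rfl⟩)

theorem all_span (f : A × A → ZMod m) : f ∈ Submodule.span (ZMod m) (gensT (A := A) (m := m)) := by
  haveI : Fintype A := Fintype.ofFinite A
  have e : f = ∑ t : A × A, f t • dl t.1 t.2 := by
    funext s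
    rw [Finset.sum_apply, Finset.sum_eq_single s]
    · simp [dl]
    · intro t _ ht
      have : s ≠ (t.1, t.2) := fun h => ht (by rw [h])
      simp [dl, this]
    · intro hn
      exact absurd (Finset.mem_univ s) hn
  rw [e]
  exact Submodule.sum_mem _ (fun t _ => Submodule.smul_mem _ _ (dl_mem _ _))

/-- All pair counts of transitions are good. -/
theorem good_pairT (f g : A × A → ZMod m) (q : A) :
    Good (fun w : List A => pairT f g (tok q w)) := by
  have hf := all_span f
  have hg := all_span g
  induction hf using Submodule.span_induction with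
  | mem f hf =>
    induction hg using Submodule.span_induction with
    | mem g hg =>
      have := (QQ_gens hf hg q).comp (fun M => M 0 2)
      simpa only [mat3_entry] using this
    | zero =>
      simp only [pairT_zero_right]
      exact Good.const 0
    | add g g' _ _ ih ih' =>
      simp only [pairT_add_right]
      exact ih.add ih'
    | smul c g _ ih =>
      simp only [pairT_smul_right]
      exact (Good.const c).mul ih
  | zero =>
    simp only [pairT_zero_left]
    exact Good.const 0
  | add f f' _ _ ih ih' =>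
    simp only [pairT_add_left]
    exact ih.add ih'
  | smul c f _ ih =>
    simp only [pairT_smul_left]
    exact (Good.const c).mul ih

/-- All counts of transitions are good. -/
theorem good_sumT (f : A × A → ZMod m) (q : A) :
    Good (fun w : List A => sumT f (tok q w)) := by
  have hf := all_span f
  induction hf using Submodule.span_induction with
  | mem f hf =>
    have := (QQ_gens hf hf q).comp (fun M => M 0 1)
    simpa only [mat3_entry₁] using this
  | zero =>
    simp only [sumT_zero]
    exact Good.const 0
  | add f f' _ _ ih ih' =>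
    simp only [sumT_add]
    exact ih.add ih'
  | smul c f _ ih =>
    simp only [sumT_smul]
    exact (Good.const c).mul ih

end Basis

end Good

end Pairs

section ClassTwo

variable {ι G : Type} [Group G] [DecidableEq ι] (c : ι → G)

/-- The number of occurrences. -/
def cn (s : ι) : List ι → ℕ
  | [] => 0
  | t :: x => (if t = s then 1 else 0) + cn s x

theorem cn_snoc (s : ι) (x : List ι) (a : ι) :
    cn s (x ++ [a]) = cn s x + if a = s then 1 else 0 := by
  induction x with
  | nil => simp [cn]
  | cons t x ih =>
    simp only [List.cons_append, cn, ih]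
    ring

/-- The number of pairs of positions with `p.2` before `p.1`. -/
def pcN (p : ι × ι) : List ι → ℕ
  | [] => 0
  | t :: x => (if t = p.2 then cn p.1 x else 0) + pcN p x

theorem pcN_snoc (p : ι × ι) (x : List ι) (a : ι) :
    pcN p (x ++ [a]) = pcN p x + cn p.2 x * (if a = p.1 then 1 else 0) := by
  induction x with
  | nil => simp [pcN, cn]
  | cons t x ih =>
    simp only [List.cons_append, pcN, ih, cn, cn_snoc]
    by_cases h1 : t = p.2 <;> by_cases h2 : a = p.1 <;> simp only [h1, h2, if_true, if_false] <;> ring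

theorem nf_single' (E : List ι) (hnd : E.Nodup) (a : ι) (ha : a ∈ E) :
    nf c E (fun s => if s = a then 1 else 0) = c a := by
  induction E with
  | nil => simp at ha
  | cons s E ih =>
    rw [nf_cons]
    have hs := List.nodup_cons.1 hnd
    by_cases hsa : s = a
    · subst hsa
      rw [nf_zero c E _ (fun t ht => ?_)]
      · simp
      · have : t ≠ s := fun e => hs.1 (e ▸ ht)
        simp [this]
    · have ha' : a ∈ E := by
        rcases List.mem_cons.1 ha with h | h
        · exact absurd h.symm hsa
        · exact h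
      rw [ih hs.2 ha']
      simp [hsa]

/-- The central part of a product. -/
noncomputable def Zt (E : List ι) (x : List ι) : Subgroup.center G :=
  ((prs E).map fun p => zt c p.2 p.1 ^ pcN p x).prod

theorem Zt_snoc (E : List ι) (x : List ι) (a : ι) :
    Zt c E (x ++ [a]) = Zt c E x * Zf c E (fun s => cn s x) (fun s => if s = a then 1 else 0) := by
  rw [Zf_eq]
  unfold Zt
  have key : ∀ l : List (ι × ι),
      (l.map fun p => zt c p.2 p.1 ^ pcN p (x ++ [a])).prod =
        (l.map fun p => zt c p.2 p.1 ^ pcN p x).prod *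
          (l.map fun p => zt c p.2 p.1 ^ (cn p.2 x * if p.1 = a then 1 else 0)).prod := by
    intro l
    induction l with
    | nil => simp
    | cons p l ih =>
      simp only [List.map_cons, List.prod_cons]
      rw [ih, pcN_snoc, pow_add]
      have e : (if a = p.1 then 1 else 0) = if p.1 = a then 1 else 0 := by
        by_cases h : a = p.1
        · simp [h]
        · have h' : ¬ p.1 = a := fun e => h e.symm
          simp [h, h']
      rw [e]
      exact center_mmmc _ _ _ _
  exact key _

/-- Products of elements with central commutators. -/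
theorem prod_tokens (E : List ι) (hnd : E.Nodup) (hmem : ∀ a, a ∈ E)
    (hE : ∀ t ∈ E, ∀ s ∈ E, co (c t) (c s) ∈ Subgroup.center G) (x : List ι) :
    (x.map c).prod = ((Zt c E x : Subgroup.center G) : G) * nf c E (fun s => cn s x) := by
  induction x using List.reverseRecOn with
  | nil =>
    have h1 : Zt c E ([] : List ι) = 1 := by
      unfold Zt
      have : ∀ l : List (ι × ι), (l.map fun p => zt c p.2 p.1 ^ pcN p ([] : List ι)).prod = 1 := by
        intro l
        induction l with
        | nil => rfl
        | cons a l ih => simp [pcN]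
      exact this _
    have h2 : nf c E (fun s => cn s ([] : List ι)) = 1 := nf_zero c E _ (fun s _ => rfl)
    rw [h1, h2]
    simp
  | append_singleton x a ih =>
    have h3 : (fun s => cn s (x ++ [a])) = fun s => cn s x + if s = a then 1 else 0 := by
      funext s
      rw [cn_snoc]
      by_cases h : s = a
      · simp [h]
      · have h' : ¬ a = s := fun e => h e.symm
        simp [h, h']
    have h4 : ((x ++ [a]).map c).prod = (x.map c).prod * c a := by simp
    rw [h4, ih, h3, Zt_snoc, mul_assoc, ← nf_single' c E hnd a (hmem a) , nf_mul E hE]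
    simp only [Subgroup.coe_mul, mul_assoc]

theorem pow_congr_cast {H : Type} [Group H] {m : ℕ} {g : H} (hg : g ^ m = 1) {n n' : ℕ}
    (h : ((n : ℕ) : ZMod m) = (n' : ZMod m)) : g ^ n = g ^ n' := by
  have h' := (ZMod.natCast_eq_natCast_iff _ _ _).1 h
  rw [← Nat.mod_add_div n m, ← Nat.mod_add_div n' m, pow_add, pow_add, pow_mul, pow_mul, hg, one_pow,
    one_pow, h']

end ClassTwo

section Window

open Classical

open scoped commutatorElement

variable {A G : Type} [Group G]

theorem co_central (hG : (⊤ : Subgroup G).lowerCentralSeries 2 = ⊥) (a b : G) :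
    co a b ∈ Subgroup.center G := by
  rw [Subgroup.mem_center_iff]
  intro g
  have h0 : co a b ∈ (⊤ : Subgroup G).lowerCentralSeries 1 := com_mem_one a b
  have h : ⁅co a b, g⁆ ∈ ⁅(⊤ : Subgroup G).lowerCentralSeries 1, (⊤ : Subgroup G)⁆ :=
    Subgroup.commutator_mem_commutator h0 (Subgroup.mem_top g)
  have h2 : ⁅(⊤ : Subgroup G).lowerCentralSeries 1, (⊤ : Subgroup G)⁆ =
      (⊤ : Subgroup G).lowerCentralSeries 2 := rfl
  rw [h2, hG, Subgroup.mem_bot] at h
  exact (commutatorElement_eq_one_iff_commute.1 h).symm.eq

theorem wp_eq_tok (e : A → A → G) (q : A) (w : List A) :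
    wp e q w = ((tok q w).map fun t => e t.1 t.2).prod := by
  induction w generalizing q with
  | nil => rfl
  | cons a w ih => simp [tok, ih]

variable {m : ℕ} [NeZero m]

theorem sumT_dl (s : A × A) (x : List (A × A)) :
    sumT (dl (m := m) s.1 s.2) x = ((cn s x : ℕ) : ZMod m) := by
  induction x with
  | nil => simp [cn]
  | cons t x ih =>
    rw [sumT_cons, ih]
    simp only [cn]
    by_cases h : t = s
    · subst h
      simp [dl]
    · have h' : ¬ t = (s.1, s.2) := h
      simp [dl, h', h]

theorem pairT_dl (p : (A × A) × (A × A)) (x : List (A × A)) :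
    pairT (dl (m := m) p.2.1 p.2.2) (dl p.1.1 p.1.2) x = ((pcN p x : ℕ) : ZMod m) := by
  induction x with
  | nil => simp [pcN]
  | cons t x ih =>
    rw [pairT_cons, ih, sumT_dl]
    simp only [pcN]
    by_cases h : t = p.2
    · subst h
      simp [dl]
    · have h' : ¬ t = (p.2.1, p.2.2) := h
      simp [dl, h', h]

end Window

section WindowGood

open Classical

variable {A G : Type} [Group G] [Finite A] [Finite G]

/-- **Products along the last-letter automaton in groups of class two.** -/
theorem good_wp_class_two (hG : (⊤ : Subgroup G).lowerCentralSeries 2 = ⊥) (e : A → A → G) (q : A) :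
    Good (wp e q) := by
  haveI : Fintype A := Fintype.ofFinite A
  set m := Nat.card G with hm
  haveI : NeZero m := ⟨Nat.card_pos.ne'⟩
  let E : List (A × A) := (Finset.univ : Finset (A × A)).toList
  have hnd : E.Nodup := Finset.nodup_toList _
  have hmem : ∀ a, a ∈ E := fun a => by simp [E]
  let c : A × A → G := fun t => e t.1 t.2
  have hE : ∀ t ∈ E, ∀ s ∈ E, co (c t) (c s) ∈ Subgroup.center G := fun t _ s _ => co_central hG _ _
  have g1 : Good (fun w : List A => fun s : A × A => sumT (dl (m := m) s.1 s.2) (tok q w)) := by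
    intro b
    exact HeightLE.pi (fun s b' => good_sumT _ q b') b
  have g2 : Good (fun w : List A => fun p : (A × A) × (A × A) =>
      pairT (dl (m := m) p.2.1 p.2.2) (dl p.1.1 p.1.2) (tok q w)) := by
    intro b
    exact HeightLE.pi (fun p b' => good_pairT _ _ q b') b
  haveI : Finite (ZMod m) := inferInstance
  refine (g1.pair g2).of_factor (fun w w' h => ?_)
  have h1 : ∀ s : A × A, ((cn s (tok q w) : ℕ) : ZMod m) = (cn s (tok q w') : ℕ) := by
    intro s
    have := congrFun (Prod.ext_iff.1 h).1 s
    simpa only [sumT_dl] using this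
  have h2 : ∀ p : (A × A) × (A × A), ((pcN p (tok q w) : ℕ) : ZMod m) = (pcN p (tok q w') : ℕ) := by
    intro p
    have := congrFun (Prod.ext_iff.1 h).2 p
    simpa only [pairT_dl] using this
  rw [wp_eq_tok, wp_eq_tok]
  change ((tok q w).map c).prod = ((tok q w').map c).prod
  rw [prod_tokens c E hnd hmem hE, prod_tokens c E hnd hmem hE]
  congr 1
  · congr 1
    unfold Zt
    congr 1
    refine List.map_congr_left (fun p _ => ?_)
    refine pow_congr_cast ?_ (h2 p)
    apply Subtype.ext
    simp only [Subgroup.coe_pow, Subgroup.coe_one]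
    exact pow_card_eq_one'
  · unfold nf
    congr 1
    refine List.map_congr_left (fun s _ => ?_)
    exact pow_congr_cast (n := cn s (tok q w)) (n' := cn s (tok q w')) pow_card_eq_one' (h1 s)

end WindowGood

section Rees

open Classical

theorem good_congr' {A β : Type} {f g : List A → β} (hf : Good f) (h : ∀ w, f w = g w) : Good g := by
  have : g = f := funext fun w => (h w).symm
  rw [this]
  exact hf

variable {A I L G : Type} [Group G]

variable (P : L → I → Option G) (φ : A → Option (I × G × L))

/-- The product of two letters is not zero. -/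
def rzComp (x y : A) : Prop :=
  ∃ (i : I) (g : G) (l : L) (j : I) (h : G) (n : L) (p : G),
    φ x = some (i, g, l) ∧ φ y = some (j, h, n) ∧ P l j = some p

/-- The value of a transition. -/
noncomputable def rzE (x y : A) : G :=
  match φ x, φ y with
  | some (_, _, l), some (j, h, _) =>
      match P l j with
      | some p => p * h
      | none => 1
  | _, _ => 1

/-- No product of two neighbours along the word is zero. -/
def okW : A → List A → Prop
  | _, [] => True
  | x, a :: w => rzComp P φ x a ∧ okW a w

/-- The last letter. -/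
def lastL (x : A) (w : List A) : A := w.getLast?.getD x

theorem foldl_none (w : List A) :
    w.foldl (fun s b => rzMul P s (φ b)) none = none := by
  induction w with
  | nil => rfl
  | cons a w ih =>
    rw [List.foldl_cons]
    have : rzMul P none (φ a) = none := rfl
    rw [this, ih]

theorem lastL_cons (x a : A) (w : List A) : lastL x (a :: w) = lastL a w := by
  simp [lastL, List.getLast?_cons]

/-- The value of a word when no neighbours multiply to zero. -/
theorem rz_foldl_some (w : List A) (x : A) (i i₀ : I) (g' g₀ : G) (l : L)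
    (hx : φ x = some (i₀, g₀, l)) (hok : okW P φ x w) :
    ∃ n, (φ (lastL x w)).map (fun t => t.2.2) = some n ∧
      w.foldl (fun s b => rzMul P s (φ b)) (some (i, g', l)) =
        some (i, g' * wp (rzE P φ) x w, n) := by
  induction w generalizing x i₀ g' g₀ l with
  | nil =>
    refine ⟨l, ?_, by simp⟩
    simp [lastL, hx]
  | cons a w ih =>
    obtain ⟨⟨i₁, g₁, l₁, j, h, n, p, h1, h2, h3⟩, hok'⟩ := hok
    rw [hx] at h1
    simp only [Option.some.injEq, Prod.mk.injEq] at h1
    obtain ⟨rfl, rfl, rfl⟩ := h1
    have e1 : rzMul P (some (i, g', l)) (φ a) = some (i, g' * p * h, n) := by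
      rw [h2]
      simp [rzMul, h3]
    have e2 : rzE P φ x a = p * h := by
      simp [rzE, hx, h2, h3]
    obtain ⟨n', hn', hf⟩ := ih a j (g' * p * h) h n h2 hok'
    refine ⟨n', by rw [lastL_cons]; exact hn', ?_⟩
    rw [List.foldl_cons, e1, hf, wp_cons, e2]
    simp [mul_assoc]

theorem rz_foldl_none (w : List A) (x : A) (i i₀ : I) (g' g₀ : G) (l : L)
    (hx : φ x = some (i₀, g₀, l)) (hok : ¬ okW P φ x w) :
    w.foldl (fun s b => rzMul P s (φ b)) (some (i, g', l)) = none := by
  induction w generalizing x i₀ g' g₀ l with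
  | nil => exact absurd trivial hok
  | cons a w ih =>
    rw [List.foldl_cons]
    by_cases hc : rzComp P φ x a
    · obtain ⟨i₁, g₁, l₁, j, h, n, p, h1, h2, h3⟩ := id hc
      rw [hx] at h1
      simp only [Option.some.injEq, Prod.mk.injEq] at h1
      obtain ⟨rfl, rfl, rfl⟩ := h1
      have e1 : rzMul P (some (i, g', l)) (φ a) = some (i, g' * p * h, n) := by
        rw [h2]
        simp [rzMul, h3]
      rw [e1]
      exact ih a j (g' * p * h) h n h2 (fun hk => hok ⟨hc, hk⟩)
    · have e1 : rzMul P (some (i, g', l)) (φ a) = none := by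
        rcases ha : φ a with _ | ⟨j, h, n⟩
        · simp [rzMul]
        · rcases hp : P l j with _ | p
          · simp [rzMul, hp]
          · exact absurd ⟨i₀, g₀, l, j, h, n, p, hx, ha, hp⟩ hc
      rw [e1]
      exact foldl_none P φ w

theorem okW_iff (x : A) (w : List A) :
    okW P φ x w ↔ (w = [] ∨ ∃ b t, w = b :: t ∧ rzComp P φ x b) ∧
      ∀ u y z v, w = u ++ y :: z :: v → rzComp P φ y z := by
  induction w generalizing x with
  | nil =>
    constructor
    · intro _
      refine ⟨Or.inl rfl, fun u y z v h => ?_⟩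
      simp at h
    · intro _
      trivial
  | cons a w ih =>
    constructor
    · rintro ⟨hc, hk⟩
      obtain ⟨h1, h2⟩ := (ih a).1 hk
      refine ⟨Or.inr ⟨a, w, rfl, hc⟩, fun u y z v h => ?_⟩
      cases u with
      | nil =>
        simp only [List.nil_append, List.cons.injEq] at h
        obtain ⟨rfl, rfl⟩ := h
        rcases h1 with h1 | ⟨b, t, hb, hc'⟩
        · simp at h1
        · simp only [List.cons.injEq] at hb
          rw [hb.1]
          exact hc'
      | cons c u =>
        simp only [List.cons_append, List.cons.injEq] at h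
        exact h2 u y z v h.2
    · rintro ⟨h1, h2⟩
      rcases h1 with h1 | ⟨b, t, hb, hc⟩
      · simp at h1
      · simp only [List.cons.injEq] at hb
        obtain ⟨rfl, rfl⟩ := hb
        refine ⟨hc, (ih a).2 ⟨?_, fun u y z v h => h2 (a :: u) y z v (by simp [h])⟩⟩
        cases w with
        | nil => exact Or.inl rfl
        | cons b w =>
          exact Or.inr ⟨b, w, rfl, h2 [] a b w rfl⟩

variable [Finite A]

theorem heightLE_okW (x : A) : HeightLE 1 {w | okW P φ x w} := by
  have key : {w | okW P φ x w} =
      ({[]} ∪ ⋃ b ∈ {b | rzComp P φ x b}, cat {[b]} Set.univ) ∩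
        (⋃ t ∈ {t : A × A | ¬ rzComp P φ t.1 t.2},
          cat (cat (cat Set.univ {[t.1]}) {[t.2]}) Set.univ)ᶜ := by
    ext w
    show okW P φ x w ↔ _
    rw [okW_iff]
    constructor
    · rintro ⟨h1, h2⟩
      refine ⟨?_, ?_⟩
      · rcases h1 with rfl | ⟨b, t, rfl, hc⟩
        · exact Or.inl rfl
        · right
          simp only [Set.mem_iUnion]
          exact ⟨b, hc, [b], rfl, t, trivial, rfl⟩
      · intro hb
        simp only [Set.mem_iUnion] at hb
        obtain ⟨t, ht, u, ⟨u', ⟨u'', _, _, hv, rfl⟩, _, hz, rfl⟩, v, _, rfl⟩ := hb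
        have hv' : _ = [t.1] := hv
        have hz' : _ = [t.2] := hz
        subst hv' hz'
        exact ht (h2 u'' t.1 t.2 v (by simp))
    · rintro ⟨h1, h2⟩
      refine ⟨?_, ?_⟩
      · rcases h1 with h1 | h1
        · exact Or.inl h1
        · simp only [Set.mem_iUnion] at h1
          obtain ⟨b, hc, u, hu, t, _, rfl⟩ := h1
          have hu' : u = [b] := hu
          subst hu'
          exact Or.inr ⟨b, t, rfl, hc⟩
      · intro u y z v e
        by_contra hc
        apply h2
        simp only [Set.mem_iUnion]
        refine ⟨(y, z), hc, (u ++ [y]) ++ [z], ⟨u ++ [y], ⟨u, trivial, [y], rfl, rfl⟩, [z], rfl, rfl⟩, v,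
          trivial, ?_⟩
        rw [e]
        simp
  rw [key]
  refine HeightLE.inter (HeightLE.nil.union (HeightLE.biUnion fun b _ =>
    (HeightLE.letter b).concat HeightLE.univ)) (HeightLE.compl (HeightLE.biUnion fun t _ => ?_))
  exact ((HeightLE.univ.concat (HeightLE.letter _)).concat (HeightLE.letter _)).concat HeightLE.univ

theorem heightLE_lastL (x z : A) : HeightLE 1 {w : List A | lastL x w = z} := by
  have key : {w : List A | lastL x w = z} = (if z = x then {[]} else ∅) ∪ cat Set.univ {[z]} := by
    ext w
    show lastL x w = z ↔ _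
    rcases List.eq_nil_or_concat w with rfl | ⟨t, l, rfl⟩
    · constructor
      · intro h
        have : x = z := h
        subst this
        simp
      · rintro (h | ⟨s, _, r, hr, e⟩)
        · by_cases hz : z = x
          · exact hz.symm
          · simp [hz] at h
        · have hr' : r = [z] := hr
          subst hr'
          simp at e
    · rw [List.concat_eq_append]
      have e : lastL x (t ++ [l]) = l := by simp [lastL]
      rw [e]
      constructor
      · rintro rfl
        exact Or.inr ⟨t, trivial, [l], rfl, rfl⟩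
      · rintro (h | ⟨s, _, r, hr, e'⟩)
        · by_cases hz : z = x
          · simp only [hz, if_true] at h
            have : t ++ [l] = [] := h
            simp at this
          · simp [hz] at h
        · have hr' : r = [z] := hr
          subst hr'
          exact (List.append_inj' e' rfl).2 |> fun h => by simpa using h
  rw [key]
  refine HeightLE.union ?_ (HeightLE.univ.concat (HeightLE.letter z))
  by_cases hz : z = x
  · simp only [hz, if_true]
    exact HeightLE.nil
  · simp only [hz, if_false]
    exact HeightLE.empty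

variable [Finite I] [Finite L] [Finite G]

/-- The words of a given nonzero value, for any function agreeing with the transitions on nonzero
products whose products are good. -/
theorem heightLE_rees_some_of (e : A → A → G) (he : ∀ x y, rzComp P φ x y → e x y = rzE P φ x y)
    (hgood : ∀ q, Good (wp e q)) (i : I) (g : G) (n : L) :
    HeightLE 1 {w : List A | w ≠ [] ∧ rzEval P φ w = some (i, g, n)} := by
  have hwp : ∀ (x : A) (w : List A), okW P φ x w → wp (rzE P φ) x w = wp e x w := by
    intro x w hok
    induction w generalizing x with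
    | nil => rfl
    | cons a w ih =>
      rw [wp_cons, wp_cons, ih a hok.2, he x a hok.1]
  have key : {w : List A | w ≠ [] ∧ rzEval P φ w = some (i, g, n)} =
      ⋃ t ∈ {t : A × G × L | φ t.1 = some (i, t.2.1, t.2.2)},
        cat {[t.1]} ({w | okW P φ t.1 w} ∩ {w | t.2.1 * wp e t.1 w = g} ∩
          ⋃ z ∈ {z : A | (φ z).map (fun t => t.2.2) = some n}, {w | lastL t.1 w = z}) := by
    ext w
    simp only [Set.mem_iUnion]
    constructor
    · rintro ⟨hne, h⟩
      cases w with
      | nil => exact absurd rfl hne
      | cons a w =>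
        have h' : w.foldl (fun s b => rzMul P s (φ b)) (φ a) = some (i, g, n) := h
        rcases ha : φ a with _ | ⟨i', g₀, l⟩
        · rw [ha, foldl_none] at h'
          simp at h'
        · rw [ha] at h'
          by_cases hok : okW P φ a w
          · obtain ⟨n', hn', hf⟩ := rz_foldl_some P φ w a i' i' g₀ g₀ l ha hok
            rw [hf] at h'
            simp only [Option.some.injEq, Prod.mk.injEq] at h'
            obtain ⟨rfl, rfl, rfl⟩ := h'
            refine ⟨(a, g₀, l), ha, [a], rfl, w, ⟨⟨hok, ?_⟩, ?_⟩, rfl⟩
            · show g₀ * wp e a w = _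
              rw [hwp a w hok]
            · simp only [Set.mem_iUnion]
              exact ⟨lastL a w, hn', rfl⟩
          · rw [rz_foldl_none P φ w a i' i' g₀ g₀ l ha hok] at h'
            simp at h'
    · rintro ⟨⟨a, g₀, l⟩, ha, u, hu, w', ⟨⟨hok, hg⟩, hl⟩, rfl⟩
      have hu' : u = [a] := hu
      subst hu'
      simp only [Set.mem_iUnion] at hl
      obtain ⟨z, hz, hlz⟩ := hl
      have hlz' : lastL a w' = z := hlz
      have ha' : φ a = some (i, g₀, l) := ha
      refine ⟨by simp, ?_⟩
      show w'.foldl (fun s b => rzMul P s (φ b)) (φ a) = some (i, g, n)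
      rw [ha']
      obtain ⟨n', hn', hf⟩ := rz_foldl_some P φ w' a i i g₀ g₀ l ha' hok
      rw [hf, hwp a w' hok]
      have hg' : g₀ * wp e a w' = g := hg
      rw [hg', hlz', hz] at *
      simp only [Option.some.injEq] at hn'
      rw [hn']
  rw [key]
  refine HeightLE.biUnion (fun t _ => ?_)
  refine HeightLE.concat ((HeightLE.letter _).mono (Nat.zero_le _)) ?_
  refine ((heightLE_okW P φ t.1).inter ?_).inter
    (HeightLE.biUnion (fun z _ => heightLE_lastL t.1 z))
  have hw := hgood t.1
  have := ((hw.comp (fun v => t.2.1 * v)) g)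
  exact this

/-- All languages of the Rees zero-matrix semigroup, for a function agreeing with the transitions on
nonzero products whose products are good. -/
theorem heightLE_rees_of (e : A → A → G) (he : ∀ x y, rzComp P φ x y → e x y = rzE P φ x y)
    (hgood : ∀ q, Good (wp e q)) (T : Set (Option (I × G × L))) :
    HeightLE 1 {w : List A | w ≠ [] ∧ rzEval P φ w ∈ T} := by
  have hsome : HeightLE 1 {w : List A | w ≠ [] ∧ ∃ s : I × G × L, rzEval P φ w = some s} := by
    have : {w : List A | w ≠ [] ∧ ∃ s : I × G × L, rzEval P φ w = some s} =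
        ⋃ s : I × G × L, {w : List A | w ≠ [] ∧ rzEval P φ w = some (s.1, s.2.1, s.2.2)} := by
      ext w
      simp only [Set.mem_iUnion]
      constructor
      · rintro ⟨hne, s, hs⟩
        exact ⟨s, hne, hs⟩
      · rintro ⟨s, hne, hs⟩
        exact ⟨hne, s, hs⟩
    rw [this]
    exact HeightLE.iUnion (fun s => heightLE_rees_some_of P φ e he hgood s.1 s.2.1 s.2.2)
  have hnone : HeightLE 1 {w : List A | w ≠ [] ∧ rzEval P φ w = none} := by
    have : {w : List A | w ≠ [] ∧ rzEval P φ w = none} =
        ({[]} : Set (List A))ᶜ \ {w : List A | w ≠ [] ∧ ∃ s : I × G × L, rzEval P φ w = some s} := by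
      ext w
      constructor
      · rintro ⟨hne, h⟩
        refine ⟨hne, ?_⟩
        rintro ⟨_, s, hs⟩
        rw [h] at hs
        simp at hs
      · rintro ⟨hne, h⟩
        refine ⟨hne, ?_⟩
        rcases hv : rzEval P φ w with _ | s
        · rfl
        · exact absurd ⟨hne, s, hv⟩ h
    rw [this]
    exact (HeightLE.nil.compl).diff hsome
  have key : {w : List A | w ≠ [] ∧ rzEval P φ w ∈ T} =
      ⋃ t ∈ T, {w : List A | w ≠ [] ∧ rzEval P φ w = t} := by
    ext w
    simp only [Set.mem_iUnion]
    constructor
    · rintro ⟨hne, h⟩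
      exact ⟨_, h, hne, rfl⟩
    · rintro ⟨t, ht, hne, rfl⟩
      exact ⟨hne, ht⟩
  rw [key]
  refine HeightLE.biUnion (fun t _ => ?_)
  rcases t with _ | ⟨i, g, n⟩
  · exact hnone
  · exact heightLE_rees_some_of P φ e he hgood i g n

/-- **Rees zero-matrix semigroups over finite groups of class at most two.** -/
theorem heightLE_rees (hG : (⊤ : Subgroup G).lowerCentralSeries 2 = ⊥)
    (T : Set (Option (I × G × L))) : HeightLE 1 {w : List A | w ≠ [] ∧ rzEval P φ w ∈ T} :=
  heightLE_rees_of P φ (rzE P φ) (fun _ _ _ => rfl) (good_wp_class_two hG _) T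

theorem lcs_two_of_comm {H : Type} [Group H] (hc : ∀ a b : H, a * b = b * a) :
    (⊤ : Subgroup H).lowerCentralSeries 2 = ⊥ := by
  have h1 : (⊤ : Subgroup H).lowerCentralSeries 1 = ⊥ := by
    show ⁅(⊤ : Subgroup H), (⊤ : Subgroup H)⁆ = ⊥
    rw [eq_bot_iff, Subgroup.commutator_le]
    intro a _ b _
    rw [commutatorElement_eq_one_iff_mul_comm.2 (hc a b)]
    exact Subgroup.one_mem _
  show ⁅(⊤ : Subgroup H).lowerCentralSeries 1, (⊤ : Subgroup H)⁆ = ⊥
  rw [h1]
  exact Subgroup.commutator_bot_left _

/-- **Central sandwich entries**: if all languages recognized by `G` have generalized star height at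
most one, so have all languages recognized by a Rees zero-matrix semigroup over `G` all of whose
nonzero sandwich entries are central. -/
theorem heightLE_rees_central
    (hG : ∀ (B : Type) [Finite B] (f : B → G) (S : Set G),
      HeightLE 1 {x : List B | (x.map f).prod ∈ S})
    (hP : ∀ l j p, P l j = some p → p ∈ Subgroup.center G)
    (T : Set (Option (I × G × L))) : HeightLE 1 {w : List A | w ≠ [] ∧ rzEval P φ w ∈ T} := by
  -- the values of the letters
  let h : A → G := fun y => match φ y with
    | some (_, g, _) => g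
    | none => 1
  -- the central entries
  let c : A → A → Subgroup.center G := fun x y =>
    if hc : rzComp P φ x y then
      ⟨rzE P φ x y * (h y)⁻¹, by
        obtain ⟨i, g, l, j, k, n, p, h1, h2, h3⟩ := hc
        have e1 : rzE P φ x y = p * k := by simp [rzE, h1, h2, h3]
        have e2 : h y = k := by simp [h, h2]
        rw [e1, e2, mul_inv_cancel_right]
        exact hP l j p h3⟩
    else 1
  let e : A → A → G := fun x y => (c x y : G) * h y
  have he : ∀ x y, rzComp P φ x y → e x y = rzE P φ x y := by
    intro x y hc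
    simp only [e, c, dif_pos hc]
    simp
  have hform : ∀ (q : A) (w : List A), wp e q w = ((wp c q w : Subgroup.center G) : G) * (w.map h).prod := by
    intro q w
    induction w generalizing q with
    | nil => simp
    | cons a w ih =>
      simp only [wp_cons, List.map_cons, List.prod_cons, Subgroup.coe_mul, ih, e]
      have hz : ∀ g : G, Commute ((wp c a w : Subgroup.center G) : G) g := fun g =>
        center_commute _ g
      rw [mul_assoc, mul_assoc, ← mul_assoc (h a), (hz (h a)).eq.symm, mul_assoc]
  have hgood : ∀ q, Good (wp e q) := by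
    intro q
    have g1 : Good (wp c q) := good_wp_class_two (lcs_two_of_comm (fun a b => by
      apply Subtype.ext
      exact (center_commute a b.1).eq)) c q
    have g2 : Good (fun w : List A => (w.map h).prod) := by
      intro b
      have := hG A h {b}
      simpa using this
    have := (g1.pair g2).comp (fun t => (t.1 : G) * t.2)
    refine good_congr' this (fun w => ?_)
    exact (hform q w).symm
  exact heightLE_rees_of P φ e he hgood T

end Rees

end Vale.Agent.Lib.P329
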