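import Vale.Agent.Lib.P329.Rees

/-!
Rees zero-matrix semigroups whose nonzero sandwich entries lie in the second centre.
-/

namespace Vale.Agent.Lib.P329

section SecondCenter

variable {G : Type} [Group G]

theorem z2_co {u : G} (hu : u ∈ Subgroup.upperCentralSeries G 2) (g : G) :
    co u g ∈ Subgroup.center G := by
  have h := Subgroup.mem_upperCentralSeries_succ_iff.1 hu g
  rw [Subgroup.upperCentralSeries_one] at h
  exact h

theorem z2_co' {u : G} (hu : u ∈ Subgroup.upperCentralSeries G 2) (g : G) :
    co g u ∈ Subgroup.center G := by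
  have h := Subgroup.inv_mem _ (z2_co hu g)
  have e : (co u g)⁻¹ = co g u := by
    unfold co
    group
  rwa [e] at h

theorem co_mul_right (g u v : G) (hv : co g v ∈ Subgroup.center G) :
    co g (u * v) = co g u * co g v := by
  have hz : ∀ x, co g v * x = x * co g v := fun x =>
    (Subgroup.mem_center_iff.1 hv x).symm
  have h1 : co g u * co g v = g * u * g⁻¹ * co g v * u⁻¹ := by
    have := hz u⁻¹
    unfold co at this ⊢
    simp only [mul_assoc] at this ⊢
    rw [this]
  rw [h1]
  unfold co
  group

variable {ι : Type}

/-- The central part of a product `c₁ h₁ c₂ h₂ ...`. -/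
def Zc (c h : ι → G) : List ι → G
  | [] => 1
  | t :: x => co (h t) ((x.map c).prod) * Zc c h x

theorem prod_mem_z2 {c : ι → G} (hc : ∀ s, c s ∈ Subgroup.upperCentralSeries G 2) (x : List ι) :
    (x.map c).prod ∈ Subgroup.upperCentralSeries G 2 := by
  apply Subgroup.list_prod_mem
  intro g hg
  obtain ⟨s, _, rfl⟩ := List.mem_map.1 hg
  exact hc s

theorem Zc_central {c : ι → G} (h : ι → G) (hc : ∀ s, c s ∈ Subgroup.upperCentralSeries G 2)
    (x : List ι) : Zc c h x ∈ Subgroup.center G := by
  induction x with
  | nil => exact Subgroup.one_mem _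
  | cons t x ih => exact Subgroup.mul_mem _ (z2_co' (prod_mem_z2 hc x) _) ih

theorem prod_split {c : ι → G} (h : ι → G) (hc : ∀ s, c s ∈ Subgroup.upperCentralSeries G 2)
    (x : List ι) :
    (x.map fun s => c s * h s).prod = (x.map c).prod * Zc c h x * (x.map h).prod := by
  induction x with
  | nil => simp [Zc]
  | cons t x ih =>
    simp only [List.map_cons, List.prod_cons, Zc, ih]
    have h1 : co (h t) ((x.map c).prod) ∈ Subgroup.center G := z2_co' (prod_mem_z2 hc x) _
    have h2 := Zc_central h hc x
    set C := (x.map c).prod with hC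
    set A := co (h t) C with hA
    set Z := Zc c h x with hZ
    set H := (x.map h).prod with hH
    have ha : ∀ g, A * g = g * A := fun g => (Subgroup.mem_center_iff.1 h1 g).symm
    have hz : ∀ g, Z * g = g * Z := fun g => (Subgroup.mem_center_iff.1 h2 g).symm
    have e : h t * C = A * C * h t := by
      rw [hA]
      unfold co
      group
    calc c t * h t * (C * Z * H) = c t * (h t * C) * Z * H := by group
      _ = c t * (A * C * h t) * Z * H := by rw [e]
      _ = c t * (A * (C * (h t * (Z * H)))) := by simp only [mul_assoc]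
      _ = c t * (C * (h t * (Z * H)) * A) := by rw [ha]
      _ = c t * (C * (Z * h t * H) * A) := by rw [← mul_assoc (h t), (hz (h t)).symm]
      _ = c t * C * ((Z * h t * H) * A) := by simp only [mul_assoc]
      _ = c t * C * (A * (Z * h t * H)) := by rw [ha]
      _ = c t * C * (A * Z * (h t * H)) := by simp only [mul_assoc]
      _ = c t * C * (A * Z) * (h t * H) := by simp only [mul_assoc]

/-- The commutator pairing as an element of the centre. -/
noncomputable def zC (c h : ι → G) (hc : ∀ s, c s ∈ Subgroup.upperCentralSeries G 2) (p : ι × ι) :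
    Subgroup.center G :=
  ⟨co (h p.2) (c p.1), z2_co' (hc _) _⟩

variable [DecidableEq ι]

theorem nf_add_center (z : ι × ι → Subgroup.center G) (L : List (ι × ι)) (n n' : ι × ι → ℕ) :
    nf z L (fun p => n p + n' p) = nf z L n * nf z L n' := by
  induction L with
  | nil => simp
  | cons p L ih =>
    simp only [nf_cons, ih, pow_add]
    exact center_mmmc _ _ _ _

theorem nf_counts {c : ι → G} (h : ι → G) (hc : ∀ s, c s ∈ Subgroup.upperCentralSeries G 2)
    (L : List (ι × ι)) (hnd : L.Nodup) (hmem : ∀ p, p ∈ L) (t : ι) (x : List ι) :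
    ((nf (zC c h hc) L (fun p => if t = p.2 then cn p.1 x else 0) : Subgroup.center G) : G) =
      co (h t) ((x.map c).prod) := by
  induction x with
  | nil =>
    rw [nf_zero _ L _ (fun p _ => by simp [cn])]
    simp [co]
  | cons a x ih =>
    have e : (fun p : ι × ι => if t = p.2 then cn p.1 (a :: x) else 0) =
        fun p => (if p = (a, t) then 1 else 0) + (if t = p.2 then cn p.1 x else 0) := by
      funext p
      obtain ⟨p1, p2⟩ := p
      simp only [cn, Prod.mk.injEq]
      by_cases h1 : t = p2
      · subst h1
        by_cases h2 : a = p1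
        · subst h2
          simp
        · have h2' : ¬ p1 = a := fun e => h2 e.symm
          simp [h2, h2']
      · have h1' : ¬ p2 = t := fun e => h1 e.symm
        simp [h1, h1']
    rw [e, nf_add_center, nf_single' _ L hnd _ (hmem _)]
    simp only [Subgroup.coe_mul, ih, List.map_cons, List.prod_cons]
    rw [co_mul_right _ _ _ (z2_co' (prod_mem_z2 hc x) _)]
    rfl

theorem Zc_eq {c : ι → G} (h : ι → G) (hc : ∀ s, c s ∈ Subgroup.upperCentralSeries G 2)
    (L : List (ι × ι)) (hnd : L.Nodup) (hmem : ∀ p, p ∈ L) (x : List ι) :
    Zc c h x = ((nf (zC c h hc) L (fun p => pcN p x) : Subgroup.center G) : G) := by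
  induction x with
  | nil =>
    have h0 : nf (zC c h hc) L (fun p => pcN p ([] : List ι)) = 1 := nf_zero _ L _ (fun p _ => rfl)
    rw [h0]
    rfl
  | cons t x ih =>
    have e : (fun p : ι × ι => pcN p (t :: x)) =
        fun p => (if t = p.2 then cn p.1 x else 0) + pcN p x := rfl
    rw [e, nf_add_center, Subgroup.coe_mul, nf_counts h hc L hnd hmem, ← ih]
    rfl

end SecondCenter

section Good

open Classical

variable {A G : Type} [Group G] [Finite A] [Finite G]

/-- Products along the last-letter automaton, with transition parts in the second centre. -/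
theorem good_wp_z2 (c : A × A → G) (h : A → G)
    (hc : ∀ s, c s ∈ Subgroup.upperCentralSeries G 2)
    (hh : Good (fun w : List A => (w.map h).prod)) (e : A → A → G)
    (he : ∀ x y, e x y = c (x, y) * h y) (q : A) : Good (wp e q) := by
  haveI : Fintype A := Fintype.ofFinite A
  set m := Nat.card G with hm
  haveI : NeZero m := ⟨Nat.card_pos.ne'⟩
  let E : List (A × A) := (Finset.univ : Finset (A × A)).toList
  have hnd : E.Nodup := Finset.nodup_toList _
  have hmem : ∀ a, a ∈ E := fun a => by simp [E]
  let L : List ((A × A) × (A × A)) := (Finset.univ : Finset ((A × A) × (A × A))).toList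
  have hndL : L.Nodup := Finset.nodup_toList _
  have hmemL : ∀ a, a ∈ L := fun a => by simp [L]
  have hE : ∀ t ∈ E, ∀ s ∈ E, co (c t) (c s) ∈ Subgroup.center G := fun t _ s _ => z2_co (hc t) _
  have g1 : Good (fun w : List A => fun s : A × A => sumT (dl (m := m) s.1 s.2) (tok q w)) := by
    intro b
    exact HeightLE.pi (fun s b' => good_sumT _ q b') b
  have g2 : Good (fun w : List A => fun p : (A × A) × (A × A) =>
      pairT (dl (m := m) p.2.1 p.2.2) (dl p.1.1 p.1.2) (tok q w)) := by
    intro b
    exact HeightLE.pi (fun p b' => good_pairT _ _ q b') b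
  haveI : Finite (ZMod m) := inferInstance
  have htok : ∀ (r : A) (w : List A), (tok r w).map (fun s => h s.2) = w.map h := by
    intro r w
    induction w generalizing r with
    | nil => rfl
    | cons a w ih => simp [tok, ih]
  refine ((g1.pair g2).pair hh).of_factor (fun w w' hw => ?_)
  have hw12 := (Prod.ext_iff.1 hw).1
  have hw3 : (w.map h).prod = (w'.map h).prod := (Prod.ext_iff.1 hw).2
  have h1 : ∀ s : A × A, ((cn s (tok q w) : ℕ) : ZMod m) = (cn s (tok q w') : ℕ) := by
    intro s
    have := congrFun (Prod.ext_iff.1 hw12).1 s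
    simpa only [sumT_dl] using this
  have h2 : ∀ p : (A × A) × (A × A), ((pcN p (tok q w) : ℕ) : ZMod m) = (pcN p (tok q w') : ℕ) := by
    intro p
    have := congrFun (Prod.ext_iff.1 hw12).2 p
    simpa only [pairT_dl] using this
  have hform : ∀ r, ((tok q r).map fun t => e t.1 t.2) = (tok q r).map fun t => c t * h t.2 := by
    intro r
    refine List.map_congr_left (fun t _ => ?_)
    exact he t.1 t.2
  rw [wp_eq_tok, wp_eq_tok, hform, hform, prod_split (fun t : A × A => h t.2) hc,
    prod_split (fun t : A × A => h t.2) hc, htok, htok, hw3,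
    Zc_eq _ hc L hndL hmemL, Zc_eq _ hc L hndL hmemL,
    prod_tokens c E hnd hmem hE, prod_tokens c E hnd hmem hE]
  congr 2
  · congr 1
    · congr 1
      unfold Zt
      congr 1
      refine List.map_congr_left (fun p _ => ?_)
      refine pow_congr_cast ?_ (h2 p)
      apply Subtype.ext
      simp only [Subgroup.coe_pow, Subgroup.coe_one]
      exact pow_card_eq_one'
    · unfold nf
      congr 1
      refine List.map_congr_left (fun s _ => ?_)
      exact pow_congr_cast (n := cn s (tok q w)) (n' := cn s (tok q w')) pow_card_eq_one' (h1 s)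
  · congr 1
    unfold nf
    congr 1
    refine List.map_congr_left (fun p _ => ?_)
    beta_reduce
    refine pow_congr_cast ?_ (h2 p)
    apply Subtype.ext
    simp only [Subgroup.coe_pow, Subgroup.coe_one]
    exact pow_card_eq_one'

end Good

section Rees

open Classical

variable {A I L G : Type} [Group G]
variable (P : L → I → Option G) (φ : A → Option (I × G × L))
variable [Finite A] [Finite I] [Finite L] [Finite G]

/-- **Sandwich entries in the second centre**: if all languages recognized by `G` have generalized
star height at most one and nonzero sandwich entries lie in the second centre, so have all languages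
recognized by the Rees zero-matrix semigroup. -/
theorem heightLE_rees_z2
    (hG : ∀ (B : Type) [Finite B] (f : B → G) (S : Set G),
      HeightLE 1 {x : List B | (x.map f).prod ∈ S})
    (hP : ∀ l j p, P l j = some p → p ∈ Subgroup.upperCentralSeries G 2)
    (T : Set (Option (I × G × L))) : HeightLE 1 {w : List A | w ≠ [] ∧ rzEval P φ w ∈ T} := by
  -- the values of the letters
  let h : A → G := fun y => match φ y with
    | some (_, g, _) => g
    | none => 1
  -- the parts in the second centre
  let c : A × A → G := fun t => if rzComp P φ t.1 t.2 then rzE P φ t.1 t.2 * (h t.2)⁻¹ else 1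
  have hc : ∀ s, c s ∈ Subgroup.upperCentralSeries G 2 := by
    intro s
    by_cases hs : rzComp P φ s.1 s.2
    · simp only [c, if_pos hs]
      obtain ⟨i, g, l, j, k, n, p, h1, h2, h3⟩ := hs
      have e1 : rzE P φ s.1 s.2 = p * k := by simp [rzE, h1, h2, h3]
      have e2 : h s.2 = k := by simp [h, h2]
      rw [e1, e2, mul_inv_cancel_right]
      exact hP l j p h3
    · simp only [c, if_neg hs]
      exact Subgroup.one_mem _
  let e : A → A → G := fun x y => c (x, y) * h y
  have he : ∀ x y, rzComp P φ x y → e x y = rzE P φ x y := by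
    intro x y hcomp
    simp only [e, c, if_pos hcomp]
    simp
  have hgood : ∀ q, Good (wp e q) := by
    intro q
    refine good_wp_z2 c h hc ?_ e (fun _ _ => rfl) q
    intro b
    have := hG A h {b}
    simpa using this
  exact heightLE_rees_of P φ e he hgood T

/-- The isomorphism between two Rees zero-matrix semigroups whose sandwich matrices differ by
multiplications on the left and on the right. -/
def rzNorm {I L G : Type} [Group G] (u : L → G) (v : I → G) (x : I × G × L) : I × G × L :=
  (x.1, v x.1 * x.2.1 * u x.2.2, x.2.2)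

omit [Finite A] [Finite I] [Finite L] [Finite G] in
theorem rzNorm_injective (u : L → G) (v : I → G) : Function.Injective (rzNorm u v) := by
  rintro ⟨i, g, l⟩ ⟨i', g', l'⟩ h
  simp only [rzNorm, Prod.mk.injEq] at h
  obtain ⟨rfl, h2, rfl⟩ := h
  have : g = g' := by simpa using h2
  rw [this]

omit [Finite A] [Finite I] [Finite L] [Finite G] in
theorem rzMul_norm (u : L → G) (v : I → G) (P Q : L → I → Option G)
    (hPQ : ∀ l j, Q l j = (P l j).map fun p => (u l)⁻¹ * p * (v j)⁻¹)
    (s t : Option (I × G × L)) :
    rzMul Q (s.map (rzNorm u v)) (t.map (rzNorm u v)) = (rzMul P s t).map (rzNorm u v) := by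
  rcases s with _ | ⟨i, g, l⟩
  · simp [rzMul]
  rcases t with _ | ⟨j, h, n⟩
  · simp [rzMul]
  have hQ := hPQ l j
  simp only [Option.map_some, rzNorm, rzMul, hQ]
  rcases P l j with _ | p
  · simp
  · simp [rzNorm, mul_assoc]

omit [Finite A] [Finite I] [Finite L] [Finite G] in
theorem rzEval_norm (u : L → G) (v : I → G) (P Q : L → I → Option G)
    (hPQ : ∀ l j, Q l j = (P l j).map fun p => (u l)⁻¹ * p * (v j)⁻¹)
    (φ : A → Option (I × G × L)) (w : List A) :
    rzEval Q (fun a => (φ a).map (rzNorm u v)) w = (rzEval P φ w).map (rzNorm u v) := by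
  cases w with
  | nil => rfl
  | cons a w =>
    simp only [rzEval]
    have key : ∀ (x : List A) (s : Option (I × G × L)),
        x.foldl (fun s b => rzMul Q s ((φ b).map (rzNorm u v))) (s.map (rzNorm u v)) =
          (x.foldl (fun s b => rzMul P s (φ b)) s).map (rzNorm u v) := by
      intro x
      induction x with
      | nil => intro s; rfl
      | cons b x ih =>
        intro s
        simp only [List.foldl_cons]
        rw [rzMul_norm u v P Q hPQ, ih]
    exact key w (φ a)

/-- The same for sandwich matrices which after the usual normalization have their nonzero entries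
in the second centre. -/
theorem heightLE_rees_z2_norm
    (hG : ∀ (B : Type) [Finite B] (f : B → G) (S : Set G),
      HeightLE 1 {x : List B | (x.map f).prod ∈ S})
    (u : L → G) (v : I → G)
    (hP : ∀ l j p, P l j = some p → (u l)⁻¹ * p * (v j)⁻¹ ∈ Subgroup.upperCentralSeries G 2)
    (T : Set (Option (I × G × L))) : HeightLE 1 {w : List A | w ≠ [] ∧ rzEval P φ w ∈ T} := by
  let Q : L → I → Option G := fun l j => (P l j).map fun p => (u l)⁻¹ * p * (v j)⁻¹
  have hQ : ∀ l j p, Q l j = some p → p ∈ Subgroup.upperCentralSeries G 2 := by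
    intro l j p h
    simp only [Q, Option.map_eq_some_iff] at h
    obtain ⟨a, ha, rfl⟩ := h
    exact hP l j a ha
  have h := heightLE_rees_z2 Q (fun a => (φ a).map (rzNorm u v)) hG hQ
    ((Option.map (rzNorm u v)) '' T)
  have e : {w : List A | w ≠ [] ∧ rzEval P φ w ∈ T} =
      {w : List A | w ≠ [] ∧ rzEval Q (fun a => (φ a).map (rzNorm u v)) w ∈
        (Option.map (rzNorm u v)) '' T} := by
    ext w
    simp only [Set.mem_setOf_eq]
    rw [rzEval_norm u v P Q (fun _ _ => rfl)]
    constructor
    · rintro ⟨h1, h2⟩
      exact ⟨h1, _, h2, rfl⟩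
    · rintro ⟨h1, t, h2, h3⟩
      refine ⟨h1, ?_⟩
      have := Option.map_injective (rzNorm_injective u v) h3
      rwa [← this]
  rw [e]
  exact h

end Rees

end Vale.Agent.Lib.P329
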