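import Vale.Agent.Lib.P329.Charge

/-!
Clock machines: a clock `X` in `ZMod N`, `N = p ^ (e + 1)`, counting the letters of a set `S`, and a
counter `T` in `ZMod p` which changes by `κ` when the clock wraps around and by `H a X` when a letter
`a` of `S` is read, `H a` periodic with period `p ^ e`.  Every state of this automaton is a hub.
-/

namespace Vale.Agent.Lib.P329

section SFlow

open Classical

variable {A : Type} (S : A → Prop)

/-- The number of letters of `S` in a word. -/
noncomputable def cnt : List A → ℕ
  | [] => 0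
  | a :: w => (if S a then 1 else 0) + cnt w

@[simp] theorem cnt_nil : cnt S ([] : List A) = 0 := rfl

theorem cnt_cons (a : A) (w : List A) : cnt S (a :: w) = (if S a then 1 else 0) + cnt S w := rfl

theorem cnt_append (u w : List A) : cnt S (u ++ w) = cnt S u + cnt S w := by
  induction u with
  | nil => simp
  | cons a u ih => simp only [List.cons_append, cnt_cons, ih, add_assoc]

theorem cnt_rep (u : List A) (n : ℕ) : cnt S (rep u n) = n * cnt S u := by
  induction n with
  | zero => simp [rep]
  | succ n ih =>
    rw [rep, cnt_append, ih]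
    ring

/-- Every value below the number of letters of `S` is attained by a prefix. -/
theorem exists_prefix_cnt (u : List A) (c : ℕ) (hc : c ≤ cnt S u) :
    ∃ w₁ w₂, u = w₁ ++ w₂ ∧ cnt S w₁ = c := by
  induction u generalizing c with
  | nil =>
    refine ⟨[], [], rfl, ?_⟩
    simpa using (Nat.le_zero.1 hc).symm
  | cons a u ih =>
    rcases Nat.eq_zero_or_pos c with h0 | h0
    · exact ⟨[], a :: u, rfl, by simp [h0]⟩
    · rw [cnt_cons] at hc
      by_cases ha : S a
      · simp only [ha, if_true] at hc
        obtain ⟨w₁, w₂, e, hw⟩ := ih (c - 1) (by omega)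
        refine ⟨a :: w₁, w₂, by simp [e], ?_⟩
        rw [cnt_cons]
        simp only [ha, if_true]
        omega
      · simp only [ha, if_false, zero_add] at hc
        obtain ⟨w₁, w₂, e, hw⟩ := ih c hc
        refine ⟨a :: w₁, w₂, by simp [e], ?_⟩
        rw [cnt_cons]
        simp only [ha, if_false, zero_add]
        exact hw

variable {N p : ℕ}

/-- The number of times the clock wraps around along a word. -/
noncomputable def cross : ZMod N → List A → ℕ
  | _, [] => 0
  | x, a :: w =>
      if S a then (if x + 1 = 0 then 1 else 0) + cross (x + 1) w else cross x w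

variable (H : A → ZMod N → ZMod p)

/-- The sum of the weights `H` along a word. -/
noncomputable def etaS : ZMod N → List A → ZMod p
  | _, [] => 0
  | x, a :: w => if S a then H a x + etaS (x + 1) w else etaS x w

variable (κ : ZMod p)

/-- The total change of the counter along a word. -/
noncomputable def tauS (x : ZMod N) (w : List A) : ZMod p :=
  κ * (cross S x w : ZMod p) + etaS S H x w

/-- The transition function of the clock machine. -/
noncomputable def sStep (a : A) (q : ZMod N × ZMod p) : ZMod N × ZMod p :=
  if S a then (q.1 + 1, q.2 + (κ * ((if q.1 + 1 = 0 then 1 else 0 : ℕ) : ZMod p) + H a q.1)) else q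

theorem cross_append (x : ZMod N) (u w : List A) :
    cross S x (u ++ w) = cross S x u + cross S (x + (cnt S u : ZMod N)) w := by
  induction u generalizing x with
  | nil => simp [cross]
  | cons a u ih =>
    by_cases ha : S a
    · simp only [List.cons_append, cross, ha, if_true, ih, cnt_cons]
      push_cast
      rw [show x + (1 + (cnt S u : ZMod N)) = x + 1 + (cnt S u : ZMod N) by ring]
      ring
    · simp only [List.cons_append, cross, ha, if_false, ih, cnt_cons]
      push_cast
      rw [zero_add]

theorem etaS_append (x : ZMod N) (u w : List A) :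
    etaS S H x (u ++ w) = etaS S H x u + etaS S H (x + (cnt S u : ZMod N)) w := by
  induction u generalizing x with
  | nil => simp [etaS]
  | cons a u ih =>
    by_cases ha : S a
    · simp only [List.cons_append, etaS, ha, if_true, ih, cnt_cons]
      push_cast
      rw [show x + (1 + (cnt S u : ZMod N)) = x + 1 + (cnt S u : ZMod N) by ring]
      ring
    · simp only [List.cons_append, etaS, ha, if_false, ih, cnt_cons]
      push_cast
      rw [zero_add]

theorem tauS_append (x : ZMod N) (u w : List A) :
    tauS S H κ x (u ++ w) = tauS S H κ x u + tauS S H κ (x + (cnt S u : ZMod N)) w := by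
  simp only [tauS, cross_append, etaS_append]
  push_cast
  ring

theorem run_sStep (x : ZMod N) (s : ZMod p) (w : List A) :
    run (sStep S H κ) (x, s) w = (x + (cnt S w : ZMod N), s + tauS S H κ x w) := by
  induction w generalizing x s with
  | nil => simp [tauS, cross, etaS]
  | cons a w ih =>
    rw [run_cons]
    by_cases ha : S a
    · have e : sStep S H κ a (x, s) =
          (x + 1, s + (κ * ((if x + 1 = 0 then 1 else 0 : ℕ) : ZMod p) + H a x)) := by
        simp [sStep, ha]
      rw [e, ih]
      have h1 : x + 1 + (cnt S w : ZMod N) = x + (cnt S (a :: w) : ZMod N) := by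
        rw [cnt_cons]
        simp only [ha, if_true]
        push_cast
        ring
      have h2 : tauS S H κ x (a :: w) =
          κ * ((if x + 1 = 0 then 1 else 0 : ℕ) : ZMod p) + H a x + tauS S H κ (x + 1) w := by
        simp only [tauS, cross, etaS, ha, if_true]
        push_cast
        ring
      rw [h1, h2]
      apply Prod.ext
      · rfl
      · simp only []
        ring
    · have e : sStep S H κ a (x, s) = (x, s) := by simp [sStep, ha]
      rw [e, ih]
      have h1 : cnt S (a :: w) = cnt S w := by
        rw [cnt_cons]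
        simp [ha]
      have h2 : tauS S H κ x (a :: w) = tauS S H κ x w := by
        simp only [tauS, cross, etaS, ha, if_false]
      rw [h1, h2]

theorem tauS_of_cnt_zero (x : ZMod N) (w : List A) (h : cnt S w = 0) : tauS S H κ x w = 0 := by
  induction w with
  | nil => simp [tauS, cross, etaS]
  | cons a w ih =>
    rw [cnt_cons] at h
    have ha : ¬ S a := by
      intro ha
      simp [ha] at h
    have hw : cnt S w = 0 := by
      simpa [ha] using h
    simpa only [tauS, cross, etaS, ha, if_false] using ih hw

/-- The closed form of the number of wraps. -/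
theorem cross_natCast [NeZero N] (n : ℕ) (w : List A) :
    n / N + cross S (n : ZMod N) w = (n + cnt S w) / N := by
  induction w generalizing n with
  | nil => simp [cross]
  | cons a w ih =>
    by_cases ha : S a
    · have e1 : ((n : ZMod N) + 1) = ((n + 1 : ℕ) : ZMod N) := by push_cast; ring
      simp only [cross, ha, if_true, cnt_cons]
      rw [e1]
      have e2 := ih (n + 1)
      have e3 : ((n + 1 : ℕ) : ZMod N) = 0 ↔ N ∣ n + 1 := ZMod.natCast_eq_zero_iff _ _
      have e4 : (n + 1) / N = n / N + if N ∣ n + 1 then 1 else 0 := Nat.succ_div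
      have e5 : n + (1 + cnt S w) = n + 1 + cnt S w := by ring
      rw [e5, ← e2, e4]
      by_cases hd : N ∣ n + 1
      · simp only [hd, if_true, e3.2 hd]
        ring
      · have : ¬ ((n + 1 : ℕ) : ZMod N) = 0 := fun h => hd (e3.1 h)
        simp only [hd, if_false, this]
        ring
    · simp only [cross, ha, if_false, cnt_cons, zero_add]
      exact ih n

theorem cross_of_closed [NeZero N] (x : ZMod N) (w : List A) (d : ℕ) (h : cnt S w = N * d) :
    cross S x w = d := by
  have h1 := cross_natCast (N := N) S x.val w
  rw [ZMod.natCast_zmod_val x, h, Nat.add_mul_div_left _ _ (Nat.pos_of_ne_zero (NeZero.ne N))] at h1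
  omega

variable {M : ℕ}

theorem H_periodic {H : A → ZMod N → ZMod p} (hH : ∀ a x, H a (x + (M : ZMod N)) = H a x) (a : A)
    (x : ZMod N) (r : ℕ) : H a (x + (r : ZMod N) * (M : ZMod N)) = H a x := by
  induction r with
  | zero => simp
  | succ r ih =>
    rw [← ih]
    push_cast
    rw [show x + ((r : ZMod N) + 1) * (M : ZMod N) = x + (r : ZMod N) * (M : ZMod N) + (M : ZMod N) by
      ring]
    exact hH _ _

theorem etaS_periodic {H : A → ZMod N → ZMod p} (hH : ∀ a x, H a (x + (M : ZMod N)) = H a x)
    (x : ZMod N) (r : ℕ) (w : List A) :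
    etaS S H (x + (r : ZMod N) * (M : ZMod N)) w = etaS S H x w := by
  induction w generalizing x with
  | nil => rfl
  | cons a w ih =>
    by_cases ha : S a
    · simp only [etaS, ha, if_true]
      rw [H_periodic hH, ← ih (x + 1)]
      rw [show x + (r : ZMod N) * (M : ZMod N) + 1 = x + 1 + (r : ZMod N) * (M : ZMod N) by ring]
    · simp only [etaS, ha, if_false]
      exact ih x

theorem etaS_rep_mul {H : A → ZMod N → ZMod p} (hH : ∀ a x, H a (x + (M : ZMod N)) = H a x)
    (x : ZMod N) (y : List A) (d : ℕ) (hy : cnt S y = M * d) (j : ℕ) :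
    etaS S H x (rep y j) = (j : ZMod p) * etaS S H x y := by
  induction j with
  | zero => simp [rep, etaS]
  | succ j ih =>
    rw [rep_add, rep_one, etaS_append, ih, cnt_rep, hy]
    have e : ((j * (M * d) : ℕ) : ZMod N) = ((j * d : ℕ) : ZMod N) * (M : ZMod N) := by
      push_cast
      ring
    rw [e, etaS_periodic S hH]
    push_cast
    ring

theorem tauS_rep_closed [NeZero N] (x : ZMod N) (y : List A) (hy : ((cnt S y : ℕ) : ZMod N) = 0)
    (j : ℕ) : tauS S H κ x (rep y j) = (j : ZMod p) * tauS S H κ x y := by
  induction j with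
  | zero => simp [rep, tauS, cross, etaS]
  | succ j ih =>
    rw [rep_add, rep_one, tauS_append, ih, cnt_rep]
    have e : ((j * cnt S y : ℕ) : ZMod N) = 0 := by
      push_cast
      rw [hy, mul_zero]
    rw [e, add_zero]
    push_cast
    ring

end SFlow

section Hub

open Classical

variable {A : Type} (S : A → Prop) {p e : ℕ} [Fact p.Prime]
  (H : A → ZMod (p ^ (e + 1)) → ZMod p) (κ : ZMod p)

/-- A closed repeated run of positive length which has nonzero net counter change meets the hub. -/
theorem sflow_hit (k x : ZMod (p ^ (e + 1))) (t s : ZMod p) (y : List A)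
    (hy : ((cnt S y : ℕ) : ZMod (p ^ (e + 1))) = 0) (hge : p ^ (e + 1) ≤ cnt S y)
    (hn : tauS S H κ x y ≠ 0) :
    ∃ j w₁ w₂, y = w₁ ++ w₂ ∧ run (sStep S H κ) (x, s) (rep y j ++ w₁) = (k, t) := by
  obtain ⟨w₁, w₂, ew, hw⟩ := exists_prefix_cnt S y (k - x).val (le_trans (le_of_lt (ZMod.val_lt _)) hge)
  let j : ℕ := ((t - s - tauS S H κ x w₁) / tauS S H κ x y).val
  have hj : (j : ZMod p) = (t - s - tauS S H κ x w₁) / tauS S H κ x y := ZMod.natCast_zmod_val _
  refine ⟨j, w₁, w₂, ew, ?_⟩
  have e1 : ((cnt S (rep y j) : ℕ) : ZMod (p ^ (e + 1))) = 0 := by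
    rw [cnt_rep]
    push_cast
    rw [hy, mul_zero]
  rw [run_sStep, cnt_append, tauS_append, tauS_rep_closed S H κ x y hy, hj, e1, add_zero]
  apply Prod.ext
  · simp only []
    push_cast
    rw [e1, hw, ZMod.natCast_zmod_val]
    ring
  · simp only []
    field_simp
    ring

/-- **Every state of a clock machine is a hub.** -/
theorem sflow_isHub (hκ : κ ≠ 0)
    (hH : ∀ a x, H a (x + ((p ^ e : ℕ) : ZMod (p ^ (e + 1)))) = H a x)
    (k : ZMod (p ^ (e + 1))) (t : ZMod p) : IsHub (sStep S H κ) (k, t) := by
  have hp : p.Prime := Fact.out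
  refine isHub_of_closed ?_
  rintro u ⟨x, s⟩ hx m hm hcl
  have hne := run_ne_of_closed hx hm hcl
  -- a closed block with nonzero net change gives a contradiction
  have key : ∀ L : ℕ, 0 < L → ((cnt S (rep u L) : ℕ) : ZMod (p ^ (e + 1))) = 0 →
      p ^ (e + 1) ≤ cnt S (rep u L) → tauS S H κ x (rep u L) ≠ 0 → False := by
    intro L hL h0 hge hn
    obtain ⟨j, w₁, w₂, ew, hrun⟩ := sflow_hit S H κ k x t s (rep u L) h0 hge hn
    refine hne (L * (j + 1)) (rep (rep u L) j ++ w₁) w₂ ?_ hrun
    rw [rep_mul, rep_add, rep_one, List.append_assoc, ← ew]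
  by_cases hd0 : cnt S u = 0
  · rw [run_sStep, hd0, tauS_of_cnt_zero S H κ x u hd0]
    simp
  by_cases hdvd : p ^ (e + 1) ∣ cnt S u
  · by_cases hf : tauS S H κ x u = 0
    · rw [run_sStep, hf, (ZMod.natCast_eq_zero_iff _ _).2 hdvd]
      simp
    · exfalso
      refine key 1 one_pos ?_ ?_ ?_
      · rw [rep_one]
        exact (ZMod.natCast_eq_zero_iff _ _).2 hdvd
      · rw [rep_one]
        exact Nat.le_of_dvd (Nat.pos_of_ne_zero hd0) hdvd
      · rw [rep_one]
        exact hf
  · exfalso
    obtain ⟨a, d, hd, hda⟩ := Nat.exists_eq_pow_mul_and_not_dvd hd0 p hp.ne_one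
    have hae : a ≤ e := by
      by_contra hlt
      apply hdvd
      rw [hda]
      exact Dvd.dvd.mul_right (pow_dvd_pow p (by omega)) _
    have hd0' : d ≠ 0 := by
      rintro rfl
      exact hd (dvd_zero p)
    let L' := p ^ (e - a)
    have h1 : L' * cnt S u = p ^ e * d := by
      rw [hda, ← mul_assoc, ← pow_add, Nat.sub_add_cancel hae]
    have h2 : (L' * p) * cnt S u = p ^ (e + 1) * d := by
      rw [mul_comm L' p, mul_assoc, h1, pow_succ]
      ring
    have hc : cnt S (rep u (L' * p)) = p ^ (e + 1) * d := by
      rw [cnt_rep, h2]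
    have hc' : cnt S (rep u L') = p ^ e * d := by
      rw [cnt_rep, h1]
    refine key (L' * p) (Nat.mul_pos (pow_pos hp.pos _) hp.pos) ?_ ?_ ?_
    · rw [hc]
      exact (ZMod.natCast_eq_zero_iff _ _).2 (Dvd.intro _ rfl)
    · rw [hc]
      exact Nat.le_mul_of_pos_right _ (Nat.pos_of_ne_zero hd0')
    · have hcr : cross S x (rep u (L' * p)) = d := cross_of_closed S x _ d hc
      have heta : etaS S H x (rep u (L' * p)) = 0 := by
        rw [rep_mul, etaS_rep_mul S hH x _ d hc']
        simp
      rw [tauS, hcr, heta, add_zero]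
      refine mul_ne_zero hκ ?_
      rw [Ne, ZMod.natCast_eq_zero_iff]
      exact hd

end Hub

end Vale.Agent.Lib.P329
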