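import Vale.Agent.Lib.P329.SFlow
import Vale.Agent.Lib.P329.FlowPoly

/-!
Sums over the positions of a letter of a function of the prefix; counters on visits to a hub; flows
through a stationary letter of functions of the state of a clock machine; removal of the wrap digit.
-/

namespace Vale.Agent.Lib.P329

section PF

open Classical

variable {A R : Type} [CommRing R]

/-- The sum of `f (prefix)` over the positions of the letter `y` in a word. -/
noncomputable def pfp (y : A) : (List A → R) → List A → R
  | _, [] => 0
  | f, a :: w => (if a = y then f [] else 0) + pfp y (fun v => f (a :: v)) w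

@[simp] theorem pfp_nil (y : A) (f : List A → R) : pfp y f [] = 0 := by
  simp [pfp]

theorem pfp_cons (y : A) (f : List A → R) (a : A) (w : List A) :
    pfp y f (a :: w) = (if a = y then f [] else 0) + pfp y (fun v => f (a :: v)) w := by
  simp [pfp]

theorem pfp_snoc (y : A) (f : List A → R) (w : List A) (a : A) :
    pfp y f (w ++ [a]) = pfp y f w + if a = y then f w else 0 := by
  induction w generalizing f with
  | nil => simp [pfp]
  | cons b w ih =>
    simp only [List.cons_append, pfp_cons, ih, add_assoc]

theorem pfp_add (y : A) (f g : List A → R) (w : List A) :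
    pfp y (fun v => f v + g v) w = pfp y f w + pfp y g w := by
  induction w using List.reverseRecOn with
  | nil => simp
  | append_singleton w a ih =>
    simp only [pfp_snoc, ih]
    by_cases h : a = y
    · simp only [h, if_true]; ring
    · simp only [h, if_false]; ring

theorem pfp_sub (y : A) (f g : List A → R) (w : List A) :
    pfp y (fun v => f v - g v) w = pfp y f w - pfp y g w := by
  induction w using List.reverseRecOn with
  | nil => simp
  | append_singleton w a ih =>
    simp only [pfp_snoc, ih]
    by_cases h : a = y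
    · simp only [h, if_true]; ring
    · simp only [h, if_false]; ring

theorem pfp_mul (y : A) (c : R) (f : List A → R) (w : List A) :
    pfp y (fun v => c * f v) w = c * pfp y f w := by
  induction w using List.reverseRecOn with
  | nil => simp
  | append_singleton w a ih =>
    simp only [pfp_snoc, ih]
    by_cases h : a = y
    · simp only [h, if_true]; ring
    · simp only [h, if_false]; ring

theorem pfp_zero (y : A) (w : List A) : pfp y (fun _ => (0 : R)) w = 0 := by
  have := pfp_mul y (0 : R) (fun _ => (0 : R)) w
  simpa using this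

theorem pfp_sum {ι : Type} (y : A) (s : Finset ι) (F : ι → List A → R) (w : List A) :
    pfp y (fun v => ∑ i ∈ s, F i v) w = ∑ i ∈ s, pfp y (F i) w := by
  classical
  induction s using Finset.induction_on with
  | empty => simpa using pfp_zero y w
  | insert i s hi ih =>
    simp only [Finset.sum_insert hi]
    rw [pfp_add, ih]

theorem pfp_map {R' : Type} [CommRing R'] (ψ : R →+* R') (y : A) (f : List A → R) (w : List A) :
    ψ (pfp y f w) = pfp y (fun v => ψ (f v)) w := by
  induction w using List.reverseRecOn with
  | nil => simp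
  | append_singleton w a ih =>
    simp only [pfp_snoc, map_add, ih]
    by_cases h : a = y
    · simp only [h, if_true]
    · simp only [h, if_false, map_zero]

/-- The product rule. -/
theorem prod_pfp (y y' : A) (g g' : List A → R) (w : List A) :
    pfp y g w * pfp y' g' w =
      pfp y (fun u => g u * pfp y' g' u) w + pfp y' (fun u => pfp y g u * g' u) w +
        if y = y' then pfp y (fun u => g u * g' u) w else 0 := by
  induction w using List.reverseRecOn with
  | nil => simp
  | append_singleton w a ih =>
    simp only [pfp_snoc]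
    by_cases h : a = y
    · subst h
      by_cases h' : a = y'
      · subst h'
        simp only [if_true] at ih ⊢
        linear_combination ih
      · have h'' : ¬ y' = a := fun e => h' e.symm
        simp only [if_true, h', if_false, add_zero] at ih ⊢
        linear_combination ih
    · by_cases h' : a = y'
      · subst h'
        have h'' : ¬ y = a := fun e => h e.symm
        simp only [if_true, h, h'', if_false, add_zero] at ih ⊢
        linear_combination ih
      · by_cases hy : y = y'
        · simp only [h', hy, if_true, if_false, add_zero] at ih ⊢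
          linear_combination ih
        · simp only [h, h', hy, if_false, add_zero] at ih ⊢
          linear_combination ih

end PF

section Visit

open Classical

variable {A Q : Type} [DecidableEq Q] {δ : A → Q → Q} {q₀ : Q}

/-- Charged transitions: arrivals at `q₀`, and letters of `B` read at `q₀` and staying there. -/
def arrC (δ : A → Q → Q) (q₀ : Q) (B : A → Prop) (a : A) (s : Q) : Prop :=
  δ a s = q₀ ∧ (s ≠ q₀ ∨ B a)

theorem arr_avoid (B : A → Prop) (W : List A) (s : Q) (hs : s ≠ q₀)
    (h : fcc δ (arrC δ q₀ B) s W = 0) :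
    run (sinkAt δ q₀) s W = run δ s W ∧ run δ s W ≠ q₀ := by
  induction W generalizing s with
  | nil => exact ⟨rfl, hs⟩
  | cons a W ih =>
    rw [fcc_cons] at h
    have hc : ¬ arrC δ q₀ B a s := by
      intro hc
      simp [hc] at h
    have h1 : δ a s ≠ q₀ := fun e => hc ⟨e, Or.inl hs⟩
    have h2 : fcc δ (arrC δ q₀ B) (δ a s) W = 0 := by
      simpa [hc] using h
    rw [run_cons, run_cons, sinkAt_of_ne hs]
    exact ih _ h1 h2

theorem arr_closed (hq : IsHub δ q₀) (B : A → Prop) (u : List A) (q : Q) (m : ℕ) (hm : 0 < m)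
    (hcl : run δ q (rep u m) = q) (h0 : fcc δ (arrC δ q₀ B) q (rep u m) = 0) : run δ q u = q := by
  obtain ⟨m', rfl⟩ : ∃ m', m = m' + 1 := ⟨m - 1, by omega⟩
  by_cases hqq : q = q₀
  · subst hqq
    by_contra hne
    have e : rep u (m' + 1) = u ++ rep u m' := rfl
    rw [e, fcc_append] at h0
    have h2 : fcc δ (arrC δ q B) (run δ q u) (rep u m') = 0 := by omega
    have h3 := (arr_avoid B (rep u m') (run δ q u) hne h2).2
    rw [e, run_append] at hcl
    exact h3 hcl
  · obtain ⟨h1, h2⟩ := arr_avoid B (rep u (m' + 1)) q hqq h0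
    obtain ⟨n, hn⟩ := hq u
    set f : Q → Q := fun x => run (sinkAt δ q₀) x u with hf
    have h3 : f^[m' + 1] q = q := by
      rw [← run_rep, h1, hcl]
    have h4 : f^[(m' + 1) * n] q = q := by
      rw [Function.iterate_mul]
      exact Function.iterate_fixed h3 n
    obtain ⟨j, hj⟩ : ∃ j, (m' + 1) * n = j + n := ⟨m' * n, by ring⟩
    have hn' : ∀ x, f^[n + 1] x = f^[n] x := fun x => (congrFun hn x).symm
    have h5 : f^[(m' + 1) * n + 1] q = f^[(m' + 1) * n] q := by
      rw [hj, add_assoc, Function.iterate_add_apply, hn', ← Function.iterate_add_apply]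
    have h6 : f q = q := by
      rw [Function.iterate_succ_apply', h4] at h5
      exact h5
    have h7 : run (sinkAt δ q₀) q u = q := h6
    have h8 := run_eq_of_sink_ne (δ := δ) (v := q₀) u q (by rw [h7]; exact hqq)
    rw [h8, h7]

theorem goodZ_arr [Finite A] [Finite Q] (hq : IsHub δ q₀) (B : A → Prop) (q : Q) :
    GoodZ (fun w : List A => ((fcc δ (arrC δ q₀ B) q w : ℕ) : ℤ)) :=
  goodZ_fcc (fun _ _ h => h.1) (fun u r m hm hcl h0 => arr_closed hq B u r m hm hcl h0) q

/-- Visits through a stationary letter are differences of two counters. -/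
theorem fcc_diff (y : A) (hy : ∀ s, δ y s = s) (q₀ q : Q) (w : List A) :
    ((fcc δ (arrC δ q₀ (fun a => a = y)) q w : ℕ) : ℤ) -
        ((fcc δ (arrC δ q₀ (fun _ => False)) q w : ℕ) : ℤ) =
      pfp y (fun v => if run δ q v = q₀ then (1 : ℤ) else 0) w := by
  induction w generalizing q with
  | nil => simp
  | cons a w ih =>
    rw [fcc_cons, fcc_cons, pfp_cons]
    have e : (fun v => if run δ q (a :: v) = q₀ then (1 : ℤ) else 0) =
        fun v => if run δ (δ a q) v = q₀ then (1 : ℤ) else 0 := rfl
    rw [e, ← ih (δ a q)]
    by_cases ha : a = y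
    · subst ha
      rw [hy q]
      by_cases hq : q = q₀
      · subst hq
        have h1 : arrC δ q (fun a' => a' = a) a q := ⟨hy q, Or.inr rfl⟩
        have h2 : ¬ arrC δ q (fun _ => False) a q := by
          rintro ⟨_, h | h⟩
          · exact h rfl
          · exact h
        simp only [h1, h2, if_true, if_false, run_nil]
        push_cast
        ring
      · have h1 : ¬ arrC δ q₀ (fun a' => a' = a) a q := by
          rintro ⟨e', _⟩
          exact hq ((hy q).symm.trans e')
        have h2 : ¬ arrC δ q₀ (fun _ => False) a q := by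
          rintro ⟨e', _⟩
          exact hq ((hy q).symm.trans e')
        simp only [h1, h2, if_false, run_nil, hq, if_true]
        push_cast
        ring
    · have h : arrC δ q₀ (fun a' => a' = y) a q ↔ arrC δ q₀ (fun _ => False) a q := by
        simp [arrC, ha]
      by_cases hc : arrC δ q₀ (fun _ => False) a q
      · simp only [h.2 hc, hc, if_true, ha, if_false]
        push_cast
        ring
      · have hc' : ¬ arrC δ q₀ (fun a' => a' = y) a q := fun k => hc (h.1 k)
        simp only [hc', hc, if_false, ha]
        push_cast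
        ring

/-- Flows through a stationary letter of functions of the state of an automaton all of whose states
are hubs. -/
theorem goodZ_pfp_run [Finite A] [Fintype Q] (hall : ∀ q₀ : Q, IsHub δ q₀) (y : A)
    (hy : ∀ s, δ y s = s) (G : Q → ℤ) (q : Q) :
    GoodZ (fun w => pfp y (fun v => G (run δ q v)) w) := by
  have h1 : ∀ q₀ : Q, GoodZ (fun w => G q₀ * pfp y (fun v => if run δ q v = q₀ then (1 : ℤ) else 0) w) := by
    intro q₀
    refine (GoodZ.const (G q₀)).mul ?_
    refine ((goodZ_arr (hall q₀) (fun a => a = y) q).sub (goodZ_arr (hall q₀) (fun _ => False) q)).congr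
      (fun w => fcc_diff y hy q₀ q w)
  refine (GoodZ.finset_sum Finset.univ (fun q₀ _ => h1 q₀)).congr (fun w => ?_)
  rw [← Finset.sum_congr rfl (fun q₀ _ => (pfp_mul y (G q₀) _ w)), ← pfp_sum]
  congr 1
  funext v
  have : ∀ q₀ ∈ (Finset.univ : Finset Q), G q₀ * (if run δ q v = q₀ then (1 : ℤ) else 0) =
      if q₀ = run δ q v then G q₀ else 0 := by
    intro q₀ _
    by_cases h : q₀ = run δ q v
    · simp [h]
    · have h' : ¬ run δ q v = q₀ := fun e => h e.symm
      simp [h, h']
  rw [Finset.sum_congr rfl this]
  simp

end Visit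

section Root

open Classical

variable {A : Type} [Finite A] {S : A → Prop} {p e : ℕ} [Fact p.Prime]

/-- The flow through a letter outside `S` of a function of the state of a clock machine. -/
theorem good_root {y : A} (hy : ¬ S y) {κ : ZMod p} (hκ : κ ≠ 0)
    {H : A → ZMod (p ^ (e + 1)) → ZMod p}
    (hH : ∀ a x, H a (x + ((p ^ e : ℕ) : ZMod (p ^ (e + 1)))) = H a x)
    (G : ZMod (p ^ (e + 1)) → ZMod p → ZMod p) :
    Good (fun w => pfp y (fun v => G (cnt S v : ZMod (p ^ (e + 1)))
      (κ * (cross S (0 : ZMod (p ^ (e + 1))) v : ZMod p) + etaS S H 0 v)) w) := by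
  have hst : ∀ s, sStep S H κ y s = s := fun s => by simp [sStep, hy]
  have h := goodZ_pfp_run (δ := sStep S H κ) (fun q₀ => sflow_isHub S H κ hκ hH q₀.1 q₀.2) y hst
    (fun q => ((G q.1 q.2).val : ℤ)) (0, 0) p
  refine Good.of_factor h (fun w w' hw => ?_)
  have key : ∀ w : List A, ((pfp y (fun v => (((G (run (sStep S H κ) (0, 0) v).1
      (run (sStep S H κ) (0, 0) v).2).val : ℕ) : ℤ)) w : ℤ) : ZMod p) =
      pfp y (fun v => G (cnt S v : ZMod (p ^ (e + 1)))
        (κ * (cross S (0 : ZMod (p ^ (e + 1))) v : ZMod p) + etaS S H 0 v)) w := by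
    intro w
    have := pfp_map (Int.castRingHom (ZMod p)) y (fun v => (((G (run (sStep S H κ) (0, 0) v).1
      (run (sStep S H κ) (0, 0) v).2).val : ℕ) : ℤ)) w
    simp only [eq_intCast] at this
    rw [this]
    congr 1
    funext v
    rw [run_sStep]
    simp [tauS]
  rw [← key w, ← key w']
  exact hw

theorem sum_erase_pow (r : ℕ) (hrp : r + 2 ≤ p) (F η : ZMod p) :
    ∑ κ ∈ (Finset.univ : Finset (ZMod p)).erase 0, (κ * F + η) ^ r = - η ^ r := by
  have hall : ∑ κ : ZMod p, (κ * F + η) ^ r = 0 := by
    by_cases hF : F = 0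
    · simp [hF, Finset.card_univ, ZMod.card]
    · have e1 : ∑ κ : ZMod p, (κ * F + η) ^ r = ∑ u : ZMod p, u ^ r := by
        refine Fintype.sum_equiv ((Equiv.mulRight₀ F hF).trans (Equiv.addRight η)) _ _ (fun κ => ?_)
        simp
      rw [e1]
      apply FiniteField.sum_pow_lt_card_sub_one
      rw [ZMod.card]
      omega
  have := Finset.add_sum_erase (Finset.univ : Finset (ZMod p)) (fun κ => (κ * F + η) ^ r)
    (Finset.mem_univ 0)
  simp only [zero_mul, zero_add] at this
  rw [hall] at this
  linear_combination this

/-- Removal of the wrap digit. -/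
theorem good_root_pow {y : A} (hy : ¬ S y) {H : A → ZMod (p ^ (e + 1)) → ZMod p}
    (hH : ∀ a x, H a (x + ((p ^ e : ℕ) : ZMod (p ^ (e + 1)))) = H a x)
    (g : ZMod (p ^ (e + 1)) → ZMod p) (r : ℕ) (hrp : r + 2 ≤ p) :
    Good (fun w => pfp y (fun v => g (cnt S v : ZMod (p ^ (e + 1))) * etaS S H 0 v ^ r) w) := by
  have h1 : ∀ κ ∈ (Finset.univ : Finset (ZMod p)).erase 0,
      Good (fun w => pfp y (fun v => g (cnt S v : ZMod (p ^ (e + 1))) *
        (κ * (cross S (0 : ZMod (p ^ (e + 1))) v : ZMod p) + etaS S H 0 v) ^ r) w) := by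
    intro κ hκ
    exact good_root hy (Finset.ne_of_mem_erase hκ) hH (fun x t => g x * t ^ r)
  have h2 := (Good.finset_sum _ h1).comp (fun c : ZMod p => -c)
  refine Good.of_factor h2 (fun w w' hw => ?_)
  have key : ∀ w : List A, - ∑ κ ∈ (Finset.univ : Finset (ZMod p)).erase 0,
      pfp y (fun v => g (cnt S v : ZMod (p ^ (e + 1))) *
        (κ * (cross S (0 : ZMod (p ^ (e + 1))) v : ZMod p) + etaS S H 0 v) ^ r) w =
      pfp y (fun v => g (cnt S v : ZMod (p ^ (e + 1))) * etaS S H 0 v ^ r) w := by
    intro w
    rw [← pfp_sum, ← neg_one_mul, ← pfp_mul]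
    congr 1
    funext v
    rw [← Finset.mul_sum, sum_erase_pow r hrp]
    ring
  rw [← key w, ← key w']
  exact hw

end Root

end Vale.Agent.Lib.P329
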