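import Vale.Agent.Lib.P329.Basic

/-!
Left quotients of generalized expressions, finiteness, and the pumping property.
-/

namespace Vale.Agent.Lib.P329
namespace Simple

variable {α : Type}

/-- Left quotient of a language by a word. -/
def lq (u : List α) (L : Set (List α)) : Set (List α) := {v | u ++ v ∈ L}

@[simp] theorem mem_lq {u v : List α} {L : Set (List α)} : v ∈ lq u L ↔ u ++ v ∈ L := Iff.rfl

@[simp] theorem lq_nil (L : Set (List α)) : lq [] L = L := by
  ext w; simp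

theorem lq_append (u v : List α) (L : Set (List α)) : lq (u ++ v) L = lq v (lq u L) := by
  ext w; simp [List.append_assoc]

theorem lq_mono {u : List α} {K L : Set (List α)} (h : K ⊆ L) : lq u K ⊆ lq u L :=
  fun _ hw => h hw

/-- A language with finitely many left quotients. -/
def QFin (L : Set (List α)) : Prop := (Set.range fun u : List α => lq u L).Finite

theorem nil_mem_kstar (K : Set (List α)) : [] ∈ kstarL K := ⟨[], by simp, rfl⟩

theorem kstar_append {K : Set (List α)} {u v : List α} (hu : u ∈ kstarL K) (hv : v ∈ kstarL K) :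
    u ++ v ∈ kstarL K := by
  obtain ⟨l, hl, rfl⟩ := hu
  obtain ⟨m, hm, rfl⟩ := hv
  refine ⟨l ++ m, ?_, by simp⟩
  intro x hx
  rcases List.mem_append.mp hx with h | h
  · exact hl x h
  · exact hm x h

theorem mem_kstar_of_mem {K : Set (List α)} {u : List α} (hu : u ∈ K) : u ∈ kstarL K :=
  ⟨[u], by simpa using hu, by simp⟩

/-! ### Finiteness -/

theorem lq_cat (u : List α) (K L : Set (List α)) :
    lq u (cat K L) =
      cat (lq u K) L ∪ ⋃₀ {q | ∃ u₁ u₂, u = u₁ ++ u₂ ∧ u₁ ∈ K ∧ q = lq u₂ L} := by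
  ext v
  constructor
  · rintro ⟨x, hx, y, hy, h⟩
    rcases List.append_eq_append_iff.mp h with ⟨a, rfl, rfl⟩ | ⟨c, rfl, rfl⟩
    · exact Or.inl ⟨a, hx, y, hy, rfl⟩
    · exact Or.inr ⟨lq c L, ⟨x, c, rfl, hx, rfl⟩, hy⟩
  · rintro (⟨x, hx, y, hy, rfl⟩ | ⟨q, ⟨u₁, u₂, rfl, h₁, rfl⟩, hv⟩)
    · exact ⟨u ++ x, hx, y, hy, by simp⟩
    · exact ⟨u₁, h₁, u₂ ++ v, hv, by simp⟩

theorem qfin_cat {K L : Set (List α)} (hK : QFin K) (hL : QFin L) : QFin (cat K L) := by
  let g : Set (List α) × Set (Set (List α)) → Set (List α) := fun p => cat p.1 L ∪ ⋃₀ p.2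
  have hfin := (hK.prod hL.finite_subsets).image g
  refine hfin.subset ?_
  rintro _ ⟨u, rfl⟩
  refine ⟨(lq u K, {q | ∃ u₁ u₂, u = u₁ ++ u₂ ∧ u₁ ∈ K ∧ q = lq u₂ L}), ⟨⟨u, rfl⟩, ?_⟩, ?_⟩
  · rintro q ⟨u₁, u₂, _, _, rfl⟩
    exact ⟨u₂, rfl⟩
  · exact (lq_cat u K L).symm

theorem kstar_split {K : Set (List α)} : ∀ (l : List (List α)) (u v : List α), u ≠ [] →
    (∀ x ∈ l, x ∈ K) → u ++ v = l.flatten →
    ∃ u₁ u₂ s t, u = u₁ ++ u₂ ∧ u₁ ∈ kstarL K ∧ u₂ ≠ [] ∧ u₂ ++ s ∈ K ∧ t ∈ kstarL K ∧ v = s ++ t := by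
  intro l
  induction l with
  | nil =>
    intro u v hu _ h
    simp at h
    exact absurd h.1 hu
  | cons x l ih =>
    intro u v hu hl h
    simp only [List.flatten_cons] at h
    have hx : x ∈ K := hl x (by simp)
    have hl' : ∀ y ∈ l, y ∈ K := fun y hy => hl y (by simp [hy])
    rcases List.append_eq_append_iff.mp h with ⟨a, rfl, rfl⟩ | ⟨c, rfl, hc⟩
    · exact ⟨[], u, a, l.flatten, by simp, nil_mem_kstar K, hu, hx, ⟨l, hl', rfl⟩, rfl⟩
    · by_cases hc0 : c = []
      · subst hc0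
        simp at hc
        have hx0 : x ≠ [] := by simpa using hu
        exact ⟨[], x, [], v, by simp, nil_mem_kstar K, hx0, by simpa using hx,
          ⟨l, hl', hc.symm⟩, rfl⟩
      · obtain ⟨u₁, u₂, s, t, rfl, h₁, h₂, h₃, h₄, rfl⟩ := ih c v hc0 hl' hc.symm
        exact ⟨x ++ u₁, u₂, s, t, by simp, kstar_append (mem_kstar_of_mem hx) h₁, h₂, h₃, h₄, rfl⟩

theorem lq_kstar {K : Set (List α)} {u : List α} (hu : u ≠ []) :
    lq u (kstarL K) =
      ⋃₀ ((fun q => cat q (kstarL K)) '' {q | ∃ u₁ u₂, u = u₁ ++ u₂ ∧ u₁ ∈ kstarL K ∧ u₂ ≠ [] ∧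
        q = lq u₂ K}) := by
  ext v
  constructor
  · rintro ⟨l, hl, h⟩
    obtain ⟨u₁, u₂, s, t, h₀, h₁, h₂, h₃, h₄, rfl⟩ := kstar_split l u v hu hl h
    exact ⟨_, ⟨lq u₂ K, ⟨u₁, u₂, h₀, h₁, h₂, rfl⟩, rfl⟩, s, h₃, t, h₄, rfl⟩
  · rintro ⟨_, ⟨_, ⟨u₁, u₂, rfl, h₁, _, rfl⟩, rfl⟩, s, hs, t, ht, rfl⟩
    have : u₁ ++ u₂ ++ (s ++ t) = u₁ ++ ((u₂ ++ s) ++ t) := by simp
    show u₁ ++ u₂ ++ (s ++ t) ∈ kstarL K
    rw [this]
    exact kstar_append h₁ (kstar_append (mem_kstar_of_mem hs) ht)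

theorem qfin_kstar {K : Set (List α)} (hK : QFin K) : QFin (kstarL K) := by
  let g : Set (Set (List α)) → Set (List α) := fun S => ⋃₀ ((fun q => cat q (kstarL K)) '' S)
  have hfin := (hK.finite_subsets.image g).union (Set.finite_singleton (kstarL K))
  refine hfin.subset ?_
  rintro _ ⟨u, rfl⟩
  by_cases hu : u = []
  · subst hu
    exact Or.inr (by simp)
  · refine Or.inl ⟨{q | ∃ u₁ u₂, u = u₁ ++ u₂ ∧ u₁ ∈ kstarL K ∧ u₂ ≠ [] ∧ q = lq u₂ K}, ?_, ?_⟩
    · rintro q ⟨u₁, u₂, _, _, _, rfl⟩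
      exact ⟨u₂, rfl⟩
    · exact (lq_kstar hu).symm

theorem qfin_lang : ∀ P : GRE α, QFin P.lang := by
  intro P
  induction P with
  | zero =>
    refine (Set.finite_singleton (∅ : Set (List α))).subset ?_
    rintro _ ⟨u, rfl⟩
    ext v
    simp [GRE.lang]
  | one =>
    refine (Set.toFinite {({[]} : Set (List α)), ∅}).subset ?_
    rintro _ ⟨u, rfl⟩
    by_cases hu : u = []
    · subst hu
      left
      ext v
      simp [GRE.lang]
    · right
      ext v
      simp [GRE.lang, hu]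
  | letter a =>
    refine (Set.toFinite {({[a]} : Set (List α)), ({[]} : Set (List α)), ∅}).subset ?_
    rintro _ ⟨u, rfl⟩
    by_cases hu : u = []
    · subst hu
      left
      ext v
      simp [GRE.lang]
    · by_cases hu' : u = [a]
      · subst hu'
        right; left
        ext v
        simp [GRE.lang]
      · right; right
        ext v
        simp only [GRE.lang, mem_lq, Set.mem_singleton_iff, Set.mem_empty_iff_false, iff_false]
        intro h
        cases u with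
        | nil => exact hu rfl
        | cons b u =>
          simp at h
          apply hu'
          simp [h.1, h.2.1]
  | add P Q hP hQ =>
    have := (hP.prod hQ).image (fun p : Set (List α) × Set (List α) => p.1 ∪ p.2)
    refine this.subset ?_
    rintro _ ⟨u, rfl⟩
    exact ⟨(lq u P.lang, lq u Q.lang), ⟨⟨u, rfl⟩, ⟨u, rfl⟩⟩, by ext v; simp [GRE.lang]⟩
  | mul P Q hP hQ => exact qfin_cat hP hQ
  | compl P hP =>
    have := hP.image (fun p : Set (List α) => pᶜ)
    refine this.subset ?_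
    rintro _ ⟨u, rfl⟩
    exact ⟨lq u P.lang, ⟨u, rfl⟩, by ext v; simp [GRE.lang]⟩
  | star P hP => exact qfin_kstar hP

/-! ### Powers of words -/

/-- The word `u` repeated `m` times. -/
def pw (u : List α) (m : ℕ) : List α := (List.replicate m u).flatten

@[simp] theorem pw_zero (u : List α) : pw u 0 = [] := rfl

theorem pw_succ (u : List α) (m : ℕ) : pw u (m + 1) = u ++ pw u m := by
  simp [pw, List.replicate_succ]

theorem pw_add (u : List α) (m n : ℕ) : pw u (m + n) = pw u m ++ pw u n := by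
  simp only [pw, List.replicate_add, List.flatten_append]

theorem pw_succ' (u : List α) (m : ℕ) : pw u (m + 1) = pw u m ++ u := by
  rw [pw_add]; simp [pw]

@[simp] theorem pw_nil (m : ℕ) : pw ([] : List α) m = [] := by
  simp [pw]

theorem pw_length (u : List α) (m : ℕ) : (pw u m).length = m * u.length := by
  induction m with
  | zero => simp
  | succ m ih => rw [pw_succ, List.length_append, ih]; ring

theorem pw_one (u : List α) : pw u 1 = u := by simp [pw]

theorem pw_mid {u u₁ u₂ : List α} (h : u = u₁ ++ u₂) (i j : ℕ) :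
    pw u (i + 1 + j) = pw u i ++ u₁ ++ u₂ ++ pw u j := by
  rw [pw_add, pw_succ']
  conv_lhs => rw [show pw u i ++ u ++ pw u j = pw u i ++ (u₁ ++ u₂) ++ pw u j by rw [← h]]
  simp

theorem split_pw (u : List α) : ∀ (m : ℕ) (c₁ c₂ : List α), c₁ ++ c₂ = pw u (m + 1) →
    ∃ i j u₁ u₂, u = u₁ ++ u₂ ∧ c₁ = pw u i ++ u₁ ∧ c₂ = u₂ ++ pw u j ∧ i + j = m := by
  intro m
  induction m with
  | zero =>
    intro c₁ c₂ h
    rw [pw_one] at h
    exact ⟨0, 0, c₁, c₂, h.symm, by simp, by simp, rfl⟩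
  | succ m ih =>
    intro c₁ c₂ h
    rw [pw_succ] at h
    rcases List.append_eq_append_iff.mp h with ⟨a, ha, hb⟩ | ⟨c, hc, hd⟩
    · -- u = c₁ ++ a, pw u (m+1) = a ++ c₂
      exact ⟨0, m + 1, c₁, a, ha.symm ▸ rfl, by simp, by rw [hb], by omega⟩
    · obtain ⟨i, j, u₁, u₂, h₀, h₁, h₂, h₃⟩ := ih c c₂ hd.symm
      refine ⟨i + 1, j, u₁, u₂, h₀, ?_, h₂, by omega⟩
      rw [hc, h₁, pw_succ]; simp

/-! ### Pumping -/

/-- One step pumping of the word `u` from the exponent `N` on. -/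
def Pump1 (u : List α) (F : Set (List α)) (N : ℕ) : Prop :=
  ∀ m, N ≤ m → ∀ a b : List α, a ++ pw u m ++ b ∈ F ↔ a ++ pw u (m + 1) ++ b ∈ F

theorem Pump1.mono {u : List α} {F : Set (List α)} {N N' : ℕ} (h : Pump1 u F N) (hN : N ≤ N') :
    Pump1 u F N' := fun m hm a b => h m (hN.trans hm) a b

theorem three_split {a c b x y : List α} (h : a ++ c ++ b = x ++ y) :
    (∃ a₂, a = x ++ a₂ ∧ y = a₂ ++ c ++ b) ∨ (∃ c₁ c₂, c = c₁ ++ c₂ ∧ x = a ++ c₁ ∧ y = c₂ ++ b) ∨
      (∃ b₁ b₂, b = b₁ ++ b₂ ∧ x = a ++ c ++ b₁ ∧ y = b₂) := by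
  rw [List.append_assoc] at h
  rcases List.append_eq_append_iff.mp h with ⟨a', ha, hb⟩ | ⟨c', hc, hd⟩
  · -- x = a ++ a', c ++ b = a' ++ y
    rcases List.append_eq_append_iff.mp hb with ⟨e, he, hf⟩ | ⟨g, hg, hk⟩
    · right; right
      exact ⟨e, y, hf, by rw [ha, he]; simp, rfl⟩
    · right; left
      exact ⟨a', g, hg, ha, hk⟩
  · left
    exact ⟨c', hc, by rw [hd]; simp⟩

theorem pump_cat {u : List α} {K L : Set (List α)} {N₁ N₂ : ℕ} (hK : Pump1 u K N₁)
    (hL : Pump1 u L N₂) : Pump1 u (cat K L) (N₁ + N₂ + 1) := by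
  intro m hm a b
  constructor
  · rintro ⟨x, hx, y, hy, h⟩
    rcases three_split h with ⟨a₂, rfl, rfl⟩ | ⟨c₁, c₂, hc, rfl, rfl⟩ | ⟨b₁, b₂, rfl, rfl, rfl⟩
    · refine ⟨x, hx, a₂ ++ pw u (m + 1) ++ b, (hL m (by omega) a₂ b).mp hy, by simp⟩
    · obtain ⟨m', rfl⟩ : ∃ m', m = m' + 1 := ⟨m - 1, by omega⟩
      obtain ⟨i, j, u₁, u₂, h₀, rfl, rfl, hij⟩ := split_pw u m' c₁ c₂ hc.symm
      by_cases hi : N₁ ≤ i
      · have h1 := (hK i hi a u₁).mp (by simpa [List.append_assoc] using hx)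
        refine ⟨_, h1, u₂ ++ pw u j ++ b, hy, ?_⟩
        have : pw u (m' + 1 + 1) = pw u (i + 1) ++ u₁ ++ u₂ ++ pw u j := by
          rw [← pw_mid h₀]; congr 1; omega
        rw [this]; simp
      · have hj : N₂ ≤ j := by omega
        have h1 := (hL j hj u₂ b).mp (by simpa [List.append_assoc] using hy)
        refine ⟨a ++ (pw u i ++ u₁), hx, _, h1, ?_⟩
        have : pw u (m' + 1 + 1) = pw u i ++ u₁ ++ u₂ ++ pw u (j + 1) := by
          rw [← pw_mid h₀]; congr 1; omega
        rw [this]; simp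
    · refine ⟨a ++ pw u (m + 1) ++ b₁, (hK m (by omega) a b₁).mp hx, y, hy, by simp⟩
  · rintro ⟨x, hx, y, hy, h⟩
    rcases three_split h with ⟨a₂, rfl, rfl⟩ | ⟨c₁, c₂, hc, rfl, rfl⟩ | ⟨b₁, b₂, rfl, rfl, rfl⟩
    · refine ⟨x, hx, a₂ ++ pw u m ++ b, (hL m (by omega) a₂ b).mpr hy, by simp⟩
    · obtain ⟨i, j, u₁, u₂, h₀, rfl, rfl, hij⟩ := split_pw u m c₁ c₂ hc.symm
      by_cases hi : N₁ + 1 ≤ i
      · obtain ⟨i', rfl⟩ : ∃ i', i = i' + 1 := ⟨i - 1, by omega⟩
        have h1 := (hK i' (by omega) a u₁).mpr (by simpa [List.append_assoc] using hx)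
        refine ⟨_, h1, u₂ ++ pw u j ++ b, hy, ?_⟩
        have : pw u m = pw u i' ++ u₁ ++ u₂ ++ pw u j := by
          rw [← pw_mid h₀, hij]
        rw [this]; simp
      · obtain ⟨j', rfl⟩ : ∃ j', j = j' + 1 := ⟨j - 1, by omega⟩
        have h1 := (hL j' (by omega) u₂ b).mpr (by simpa [List.append_assoc] using hy)
        refine ⟨a ++ (pw u i ++ u₁), hx, _, h1, ?_⟩
        have : pw u m = pw u i ++ u₁ ++ u₂ ++ pw u j' := by
          rw [← pw_mid h₀, ← hij]; congr 1; omega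
        rw [this]; simp
    · refine ⟨a ++ pw u m ++ b₁, (hK m (by omega) a b₁).mpr hx, y, hy, by simp⟩

/-- The bodies of the stars occurring in an expression. -/
def stars : GRE α → List (GRE α)
  | GRE.zero => []
  | GRE.one => []
  | GRE.letter _ => []
  | GRE.add P Q => stars P ++ stars Q
  | GRE.mul P Q => stars P ++ stars Q
  | GRE.compl P => stars P
  | GRE.star P => P :: stars P

theorem stars_eq_nil : ∀ P : GRE α, P.height = 0 → stars P = [] := by
  intro P
  induction P with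
  | zero => intro _; rfl
  | one => intro _; rfl
  | letter a => intro _; rfl
  | add P Q hP hQ =>
    intro h
    simp [GRE.height] at h
    simp [stars, hP h.1, hQ h.2]
  | mul P Q hP hQ =>
    intro h
    simp [GRE.height] at h
    simp [stars, hP h.1, hQ h.2]
  | compl P hP =>
    intro h
    exact hP h
  | star P _ =>
    intro h
    simp [GRE.height] at h

theorem stars_height : ∀ P : GRE α, P.height ≤ 1 → ∀ Q ∈ stars P, Q.height = 0 := by
  intro P
  induction P with
  | zero => intro _ Q hQ; simp [stars] at hQ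
  | one => intro _ Q hQ; simp [stars] at hQ
  | letter a => intro _ Q hQ; simp [stars] at hQ
  | add P Q' hP hQ' =>
    intro h Q hQ
    simp [GRE.height] at h
    rcases List.mem_append.mp hQ with h' | h'
    · exact hP h.1 Q h'
    · exact hQ' h.2 Q h'
  | mul P Q' hP hQ' =>
    intro h Q hQ
    simp [GRE.height] at h
    rcases List.mem_append.mp hQ with h' | h'
    · exact hP h.1 Q h'
    · exact hQ' h.2 Q h'
  | compl P hP =>
    intro h Q hQ
    exact hP h Q hQ
  | star P hP =>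
    intro h Q hQ
    simp [GRE.height] at h
    rcases List.mem_cons.mp hQ with rfl | h'
    · exact h
    · exact hP (by omega) Q h'

theorem pump_lang (u : List α) : ∀ P : GRE α,
    (∀ Q ∈ stars P, ∃ N, Pump1 u (kstarL Q.lang) N) → ∃ N, Pump1 u P.lang N := by
  by_cases hu : u = []
  · subst hu
    intro P _
    refine ⟨0, fun m _ a b => ?_⟩
    simp
  intro P
  have hlen : ∀ (m : ℕ) (a b : List α), m ≤ (a ++ pw u m ++ b).length := by
    intro m a b
    have h1 : 1 ≤ u.length := List.length_pos_iff.mpr hu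
    simp only [List.length_append, pw_length]
    nlinarith
  induction P with
  | zero =>
    intro _
    exact ⟨0, fun m _ a b => by simp [GRE.lang]⟩
  | one =>
    intro _
    refine ⟨1, fun m hm a b => ?_⟩
    have h1 := hlen m a b
    have h2 := hlen (m + 1) a b
    constructor
    · intro h
      have : a ++ pw u m ++ b = [] := h
      rw [this] at h1
      simp at h1
      omega
    · intro h
      have : a ++ pw u (m + 1) ++ b = [] := h
      rw [this] at h2
      simp at h2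
  | letter c =>
    intro _
    refine ⟨2, fun m hm a b => ?_⟩
    have h1 := hlen m a b
    have h2 := hlen (m + 1) a b
    constructor
    · intro h
      have : a ++ pw u m ++ b = [c] := h
      rw [this] at h1
      simp at h1
      omega
    · intro h
      have : a ++ pw u (m + 1) ++ b = [c] := h
      rw [this] at h2
      simp at h2
      omega
  | add P Q hP hQ =>
    intro h
    obtain ⟨N₁, h₁⟩ := hP (fun R hR => h R (by simp [stars, hR]))
    obtain ⟨N₂, h₂⟩ := hQ (fun R hR => h R (by simp [stars, hR]))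
    refine ⟨max N₁ N₂, fun m hm a b => ?_⟩
    have e₁ := (h₁.mono (le_max_left N₁ N₂)) m hm a b
    have e₂ := (h₂.mono (le_max_right N₁ N₂)) m hm a b
    simp only [GRE.lang, Set.mem_union]
    rw [e₁, e₂]
  | mul P Q hP hQ =>
    intro h
    obtain ⟨N₁, h₁⟩ := hP (fun R hR => h R (by simp [stars, hR]))
    obtain ⟨N₂, h₂⟩ := hQ (fun R hR => h R (by simp [stars, hR]))
    exact ⟨_, pump_cat h₁ h₂⟩
  | compl P hP =>
    intro h
    obtain ⟨N, hN⟩ := hP h
    refine ⟨N, fun m hm a b => ?_⟩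
    simp only [GRE.lang, Set.mem_compl_iff]
    rw [hN m hm a b]
  | star P _ =>
    intro h
    exact h P (by simp [stars])

/-- A star free expression pumps every word. -/
theorem pump_height0 (u : List α) {X : Set (List α)} (hX : HeightLE 0 X) : ∃ N, Pump1 u X N := by
  obtain ⟨P, hP, rfl⟩ := hX
  refine pump_lang u P (fun Q hQ => ?_)
  rw [stars_eq_nil P (by omega)] at hQ
  simp at hQ

/-! ### Cuts in a star -/

/-- In a factorisation of `p ++ c ++ w` over `X`, either some cut lies inside `c` (its two ends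
included), or a single factor covers all of `c`. -/
theorem cut_or_cover {X : Set (List α)} : ∀ (l : List (List α)) (p c w : List α),
    (∀ x ∈ l, x ∈ X) → p ++ c ++ w = l.flatten →
    (∃ c₁ c₂, c = c₁ ++ c₂ ∧ p ++ c₁ ∈ kstarL X ∧ c₂ ++ w ∈ kstarL X) ∨
      (∃ p₀ p₁ w₁ w₂, p = p₀ ++ p₁ ∧ w = w₁ ++ w₂ ∧ p₀ ∈ kstarL X ∧ w₂ ∈ kstarL X ∧
        p₁ ++ c ++ w₁ ∈ X) := by
  intro l
  induction l with
  | nil =>
    intro p c w _ h
    simp at h
    obtain ⟨rfl, rfl, rfl⟩ := h
    exact Or.inl ⟨[], [], rfl, nil_mem_kstar X, nil_mem_kstar X⟩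
  | cons x l ih =>
    intro p c w hl h
    simp only [List.flatten_cons] at h
    have hx : x ∈ X := hl x (by simp)
    have hl' : ∀ y ∈ l, y ∈ X := fun y hy => hl y (by simp [hy])
    rw [List.append_assoc] at h
    rcases List.append_eq_append_iff.mp h with ⟨a, ha, hb⟩ | ⟨d, hd, he⟩
    · -- x = p ++ a, c ++ w = a ++ flatten l
      rcases List.append_eq_append_iff.mp hb with ⟨e, he, hf⟩ | ⟨g, hg, hk⟩
      · -- a = c ++ e, w = e ++ flatten l
        right
        refine ⟨[], p, e, l.flatten, by simp, hf, nil_mem_kstar X, ⟨l, hl', rfl⟩, ?_⟩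
        have : p ++ c ++ e = x := by rw [ha, he]; simp
        rw [this]; exact hx
      · left
        refine ⟨a, g, hg, ha ▸ mem_kstar_of_mem hx, ?_⟩
        rw [← hk]
        exact ⟨l, hl', rfl⟩
    · -- p = x ++ d, flatten l = d ++ (c ++ w)
      have := ih d c w hl' (by rw [List.append_assoc]; exact he.symm)
      rcases this with ⟨c₁, c₂, hc, hk, hk2⟩ | ⟨p₀, p₁, w₁, w₂, hp, hw, h₀, h₂, h₃⟩
      · left
        refine ⟨c₁, c₂, hc, ?_, hk2⟩
        rw [hd, List.append_assoc]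
        exact kstar_append (mem_kstar_of_mem hx) hk
      · right
        refine ⟨x ++ p₀, p₁, w₁, w₂, by rw [hd, hp]; simp, hw,
          kstar_append (mem_kstar_of_mem hx) h₀, h₂, h₃⟩

end Simple
end Vale.Agent.Lib.P329
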