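import Vale.Agent.Lib.P329.Simple1

/-!
A finite family of languages closed under left quotients: minimal rank idempotent words, and
the commutator argument which isolates one language.
-/

namespace Vale.Agent.Lib.P329
namespace Simple

variable {A : Type}

section Family

variable (Fs : Set (Set (List A)))

/-- Two words act in the same way on the family `Fs`. -/
def TEq (u v : List A) : Prop := ∀ q ∈ Fs, lq u q = lq v q

/-- The rank of a word on the family. -/
noncomputable def rk (w : List A) : ℕ := (lq w '' Fs).ncard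

/-- Minimal rank. -/
def IsMin (z : List A) : Prop := ∀ w, rk Fs z ≤ rk Fs w

/-- A minimal rank word acting idempotently. -/
def Rich (z : List A) : Prop := IsMin Fs z ∧ TEq Fs (z ++ z) z

variable {Fs}

theorem TEq.refl (u : List A) : TEq Fs u u := fun _ _ => rfl
theorem TEq.symm {u v : List A} (h : TEq Fs u v) : TEq Fs v u := fun q hq => (h q hq).symm
theorem TEq.trans {u v w : List A} (h : TEq Fs u v) (h' : TEq Fs v w) : TEq Fs u w :=
  fun q hq => (h q hq).trans (h' q hq)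

theorem TEq.append_right {u v : List A} (h : TEq Fs u v) (c : List A) :
    TEq Fs (u ++ c) (v ++ c) := fun q hq => by
  rw [lq_append, lq_append, h q hq]

theorem TEq.append_left (hcl : ∀ q ∈ Fs, ∀ w : List A, lq w q ∈ Fs) {u v : List A}
    (h : TEq Fs u v) (c : List A) : TEq Fs (c ++ u) (c ++ v) := fun q hq => by
  rw [lq_append, lq_append, h _ (hcl q hq c)]

theorem rk_append_le_right (hF : Fs.Finite) (hcl : ∀ q ∈ Fs, ∀ w : List A, lq w q ∈ Fs)
    (u v : List A) : rk Fs (u ++ v) ≤ rk Fs v := by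
  apply Set.ncard_le_ncard _ (hF.image _)
  rintro _ ⟨q, hq, rfl⟩
  exact ⟨lq u q, hcl q hq u, by rw [lq_append]⟩

theorem rk_append_le_left (hF : Fs.Finite) (u v : List A) : rk Fs (u ++ v) ≤ rk Fs u := by
  have h : lq (u ++ v) '' Fs = lq v '' (lq u '' Fs) := by
    rw [Set.image_image]
    apply Set.image_congr
    intro q _
    exact lq_append u v q
  unfold rk
  rw [h]
  exact Set.ncard_image_le (hF.image _)

theorem IsMin.factor (hF : Fs.Finite) (hcl : ∀ q ∈ Fs, ∀ w : List A, lq w q ∈ Fs) {z : List A}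
    (h : IsMin Fs z) (a b : List A) : IsMin Fs (a ++ z ++ b) := by
  intro w
  refine le_trans ?_ (h w)
  calc rk Fs (a ++ z ++ b) ≤ rk Fs (a ++ z) := rk_append_le_left hF _ _
    _ ≤ rk Fs z := rk_append_le_right hF hcl _ _

/-- Every word has a power acting idempotently. -/
theorem exists_idem_pow (hF : Fs.Finite) (hcl : ∀ q ∈ Fs, ∀ w : List A, lq w q ∈ Fs)
    (w : List A) : ∃ m, 1 ≤ m ∧ TEq Fs (pw w (m + m)) (pw w m) := by
  classical
  haveI : Finite Fs := hF
  let G : ℕ → (Fs → Fs) := fun n q => ⟨lq (pw w n) q.1, hcl q.1 q.2 _⟩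
  obtain ⟨i, j, hij, hG⟩ := Finite.exists_ne_map_eq_of_infinite G
  wlog hlt : i < j generalizing i j
  · exact this j i hij.symm hG.symm (by omega)
  obtain ⟨p, rfl⟩ : ∃ p, j = i + (p + 1) := ⟨j - i - 1, by omega⟩
  have h0 : TEq Fs (pw w (i + (p + 1))) (pw w i) := by
    intro q hq
    have := congrFun hG ⟨q, hq⟩
    exact (congrArg Subtype.val this).symm
  have h1 : ∀ n, i ≤ n → TEq Fs (pw w (n + (p + 1))) (pw w n) := by
    intro n hn
    obtain ⟨e, rfl⟩ : ∃ e, n = i + e := ⟨n - i, by omega⟩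
    have e1 : pw w (i + e + (p + 1)) = pw w (i + (p + 1)) ++ pw w e := by
      rw [← pw_add]; congr 1; omega
    rw [e1, pw_add w i e]
    exact h0.append_right _
  have h2 : ∀ k n, i ≤ n → TEq Fs (pw w (n + k * (p + 1))) (pw w n) := by
    intro k
    induction k with
    | zero => intro n _; simpa using TEq.refl _
    | succ k ih =>
      intro n hn
      have e1 : n + (k + 1) * (p + 1) = (n + k * (p + 1)) + (p + 1) := by ring
      rw [e1]
      exact (h1 _ (by nlinarith [Nat.zero_le (k * (p + 1))])).trans (ih n hn)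
  refine ⟨(i + 1) * (p + 1), by nlinarith, ?_⟩
  exact h2 (i + 1) _ (by nlinarith)

theorem exists_rich (hF : Fs.Finite) (hcl : ∀ q ∈ Fs, ∀ w : List A, lq w q ∈ Fs) :
    ∃ z, Rich Fs z := by
  obtain ⟨w₀, hw₀⟩ : ∃ w₀ : List A, IsMin Fs w₀ :=
    ⟨Function.argmin (rk Fs), fun w => Function.argmin_le (rk Fs) w⟩
  obtain ⟨m, hm, hid⟩ := exists_idem_pow hF hcl w₀
  obtain ⟨m', rfl⟩ : ∃ m', m = m' + 1 := ⟨m - 1, by omega⟩
  refine ⟨pw w₀ (m' + 1), ?_, ?_⟩
  · rw [pw_succ]
    simpa using hw₀.factor hF hcl [] (pw w₀ m')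
  · rw [← pw_add]
    exact hid

/-- From a rich word, the power of a rich word again: a rich word containing a given factor. -/
theorem exists_rich_factor (hF : Fs.Finite) (hcl : ∀ q ∈ Fs, ∀ w : List A, lq w q ∈ Fs)
    {z : List A} (hz : IsMin Fs z) (a b : List A) :
    ∃ m, 1 ≤ m ∧ Rich Fs (pw (a ++ z ++ b) m) := by
  obtain ⟨m, hm, hid⟩ := exists_idem_pow hF hcl (a ++ z ++ b)
  obtain ⟨m', rfl⟩ : ∃ m', m = m' + 1 := ⟨m - 1, by omega⟩
  refine ⟨m' + 1, hm, ?_, ?_⟩
  · rw [pw_succ]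
    have := (hz.factor hF hcl a b).factor hF hcl [] (pw (a ++ z ++ b) m')
    simpa using this
  · rw [← pw_add]
    exact hid

theorem lq_pw_iterate (w : List A) (n : ℕ) (q : Set (List A)) :
    lq (pw w n) q = (lq w)^[n] q := by
  induction n with
  | zero => simp
  | succ n ih =>
    rw [pw_succ', lq_append, ih, Function.iterate_succ_apply']

/-- The group property: for a rich `z`, a power of `z u z` acts as `z`. -/
theorem exists_pow_eq (hF : Fs.Finite) (hcl : ∀ q ∈ Fs, ∀ w : List A, lq w q ∈ Fs) {z : List A}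
    (hz : Rich Fs z) (u : List A) : ∃ p, 1 ≤ p ∧ TEq Fs (pw (z ++ u ++ z) p) z := by
  classical
  obtain ⟨hmin, hid⟩ := hz
  set w := z ++ u ++ z with hw
  let g : Set (List A) → Set (List A) := lq w
  let Im : Set (Set (List A)) := lq z '' Fs
  have hImF : Im.Finite := hF.image _
  have h1 : ∀ q ∈ Fs, g q ∈ Im := by
    intro q hq
    refine ⟨lq (z ++ u) q, hcl q hq _, ?_⟩
    simp only [g, hw]
    rw [lq_append (z ++ u) z q]
  have h2 : ∀ q ∈ Fs, g (lq z q) = g q := by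
    intro q hq
    simp only [g, hw]
    rw [← lq_append]
    have e : z ++ (z ++ u ++ z) = (z ++ z) ++ (u ++ z) := by simp
    rw [e, lq_append, hid q hq, ← lq_append]
    simp
  have h3 : g '' Fs = Im := by
    apply Set.eq_of_subset_of_ncard_le _ _ hImF
    · rintro _ ⟨q, hq, rfl⟩
      exact h1 q hq
    · exact hmin w
  have h4 : g '' Im = Im := by
    have : g '' Im = g '' Fs := by
      simp only [Im, Set.image_image]
      exact Set.image_congr h2
    rw [this, h3]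
  haveI : Finite Im := hImF
  let g' : Im → Im := fun q => ⟨g q.1, by
    have : g q.1 ∈ g '' Im := ⟨q.1, q.2, rfl⟩
    rwa [h4] at this⟩
  have hsurj : Function.Surjective g' := by
    rintro ⟨y, hy⟩
    have hy' := hy
    rw [← h4] at hy'
    obtain ⟨x, hx, rfl⟩ := hy'
    exact ⟨⟨x, hx⟩, rfl⟩
  have hinj : Function.Injective g' := Finite.injective_iff_surjective.mpr hsurj
  let P : Equiv.Perm Im := Equiv.ofBijective g' ⟨hinj, hsurj⟩
  have h5 : ∀ (n : ℕ) (x : Im), ((P ^ n) x).1 = g^[n] x.1 := by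
    intro n
    induction n with
    | zero => intro x; simp
    | succ n ih =>
      intro x
      rw [pow_succ', Equiv.Perm.mul_apply, Function.iterate_succ_apply', ← ih]
      rfl
  have hp : 0 < orderOf P := orderOf_pos P
  have h6 : ∀ x ∈ Im, g^[orderOf P] x = x := by
    intro x hx
    have := h5 (orderOf P) ⟨x, hx⟩
    rw [pow_orderOf_eq_one] at this
    exact this.symm
  refine ⟨orderOf P, hp, fun q hq => ?_⟩
  rw [lq_pw_iterate]
  obtain ⟨p', hp'⟩ : ∃ p', orderOf P = p' + 1 := ⟨orderOf P - 1, by omega⟩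
  have h7 : g^[p' + 1] q = g^[p' + 1] (lq z q) := by
    rw [Function.iterate_succ_apply, Function.iterate_succ_apply, h2 q hq]
  show g^[orderOf P] q = lq z q
  rw [hp', h7, ← hp']
  exact h6 _ ⟨q, hq, rfl⟩

/-- Right inverses for the product `v ++ z ++ w`. -/
theorem exists_rinv (hF : Fs.Finite) (hcl : ∀ q ∈ Fs, ∀ w : List A, lq w q ∈ Fs) {z : List A}
    (hz : Rich Fs z) (u : List A) : ∃ u', TEq Fs (z ++ (u ++ z ++ u') ++ z) z := by
  obtain ⟨p, hp, h⟩ := exists_pow_eq hF hcl hz u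
  obtain ⟨p', rfl⟩ : ∃ p', p = p' + 1 := ⟨p - 1, by omega⟩
  refine ⟨pw (z ++ u ++ z) p', ?_⟩
  have e : z ++ (u ++ z ++ pw (z ++ u ++ z) p') ++ z = pw (z ++ u ++ z) (p' + 1) ++ z := by
    rw [pw_succ]; simp
  rw [e]
  exact (h.append_right z).trans hz.2

end Family

section Prime

variable {T : Type} [Group T] {ι : Type} (𝓛 : ι → Set (List A)) (val : List A → T)

/-- The family of all left quotients of the languages `𝓛 i`. -/
def FamOf : Set (Set (List A)) := ⋃ i, Set.range fun u : List A => lq u (𝓛 i)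

variable {𝓛 val}

theorem famOf_finite [Finite ι] (h : ∀ i, QFin (𝓛 i)) : (FamOf 𝓛).Finite :=
  Set.finite_iUnion h

theorem famOf_closed : ∀ q ∈ FamOf 𝓛, ∀ w : List A, lq w q ∈ FamOf 𝓛 := by
  intro q hq w
  obtain ⟨i, u, rfl⟩ := Set.mem_iUnion.mp hq
  exact Set.mem_iUnion.mpr ⟨i, u ++ w, lq_append u w _⟩

theorem lq_mem_famOf (i : ι) (u : List A) : lq u (𝓛 i) ∈ FamOf 𝓛 :=
  Set.mem_iUnion.mpr ⟨i, u, rfl⟩

/-- The action of `z v z` on the quotients of `𝓛 i`. -/
def Tf (𝓛 : ι → Set (List A)) (z : List A) (i : ι) (v : List A) : List A → Set (List A) :=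
  fun x => lq (x ++ z ++ v ++ z) (𝓛 i)

section Rich

variable {z : List A} (hz : Rich (FamOf 𝓛) z)

include hz

theorem Tf_star_congr {i : ι} {v v₂ w w₂ : List A} (hv : Tf 𝓛 z i v = Tf 𝓛 z i v₂)
    (hw : Tf 𝓛 z i w = Tf 𝓛 z i w₂) :
    Tf 𝓛 z i (v ++ z ++ w) = Tf 𝓛 z i (v₂ ++ z ++ w₂) := by
  funext x
  have e1 : x ++ z ++ (v ++ z ++ w) ++ z = (x ++ z ++ v) ++ z ++ w ++ z := by simp
  have h1 : Tf 𝓛 z i w (x ++ z ++ v) = Tf 𝓛 z i w₂ (x ++ z ++ v) := congrFun hw _
  have h2 : Tf 𝓛 z i v x = Tf 𝓛 z i v₂ x := congrFun hv _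
  simp only [Tf] at h1 h2 ⊢
  rw [e1, h1]
  have e3 : x ++ z ++ v ++ z ++ w₂ ++ z = (x ++ z ++ v ++ z) ++ (w₂ ++ z) := by simp
  have e4 : x ++ z ++ (v₂ ++ z ++ w₂) ++ z = (x ++ z ++ v₂ ++ z) ++ (w₂ ++ z) := by simp
  rw [e3, e4, lq_append (x ++ z ++ v ++ z), lq_append (x ++ z ++ v₂ ++ z), h2]

theorem Tf_nil_star (i : ι) (w : List A) : Tf 𝓛 z i ([] ++ z ++ w) = Tf 𝓛 z i w := by
  funext x
  have h := hz.2 (lq x (𝓛 i)) (lq_mem_famOf i x)
  have e1 : x ++ z ++ ([] ++ z ++ w) ++ z = x ++ (z ++ z) ++ (w ++ z) := by simp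
  have e2 : x ++ z ++ w ++ z = x ++ z ++ (w ++ z) := by simp
  simp only [Tf]
  rw [e1, e2, lq_append (x ++ (z ++ z)), lq_append (x ++ z), lq_append x (z ++ z), lq_append x z, h]

theorem Tf_star_nil (i : ι) (w : List A) : Tf 𝓛 z i (w ++ z ++ []) = Tf 𝓛 z i w := by
  funext x
  have h := hz.2 (lq (x ++ z ++ w) (𝓛 i)) (lq_mem_famOf i _)
  have e1 : x ++ z ++ (w ++ z ++ []) ++ z = (x ++ z ++ w) ++ (z ++ z) := by simp
  simp only [Tf]
  rw [e1, lq_append, h, ← lq_append]

theorem teq_of_Tf {v w : List A} (h : ∀ i, Tf 𝓛 z i v = Tf 𝓛 z i w) :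
    TEq (FamOf 𝓛) (z ++ v ++ z) (z ++ w ++ z) := by
  intro q hq
  obtain ⟨i, x, rfl⟩ := Set.mem_iUnion.mp hq
  have := congrFun (h i) x
  simp only [Tf] at this
  have e1 : x ++ z ++ v ++ z = x ++ (z ++ v ++ z) := by simp
  have e2 : x ++ z ++ w ++ z = x ++ (z ++ w ++ z) := by simp
  rw [e1, e2, lq_append x, lq_append x] at this
  exact this

theorem exists_Tf_rinv [Finite ι] (hfin : ∀ i, QFin (𝓛 i)) (u : List A) :
    ∃ u', ∀ i, Tf 𝓛 z i (u ++ z ++ u') = Tf 𝓛 z i [] := by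
  obtain ⟨u', hu'⟩ := exists_rinv (famOf_finite hfin) famOf_closed hz u
  refine ⟨u', fun i => ?_⟩
  funext x
  have h1 := hu' (lq x (𝓛 i)) (lq_mem_famOf i x)
  have h2 := hz.2 (lq x (𝓛 i)) (lq_mem_famOf i x)
  simp only [Tf]
  have e1 : x ++ z ++ (u ++ z ++ u') ++ z = x ++ (z ++ (u ++ z ++ u') ++ z) := by simp
  have e2 : x ++ z ++ [] ++ z = x ++ (z ++ z) := by simp
  rw [e1, e2, lq_append, lq_append x (z ++ z), h1, h2]

end Rich

/-- Same action implies same value, as soon as idempotent words have value one. -/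
theorem val_eq_of_teq [Finite ι] (hfin : ∀ i, QFin (𝓛 i))
    (hval : ∀ u v, val (u ++ v) = val u * val v)
    (hid : ∀ u, TEq (FamOf 𝓛) (u ++ u) u → val u = 1) {u v : List A}
    (h : TEq (FamOf 𝓛) u v) : val u = val v := by
  have hF := famOf_finite hfin (𝓛 := 𝓛)
  have hcl := famOf_closed (𝓛 := 𝓛)
  obtain ⟨m, hm, hm'⟩ := exists_idem_pow hF hcl v
  obtain ⟨n, rfl⟩ : ∃ n, m = n + 1 := ⟨m - 1, by omega⟩
  have hs : ∀ a : List A, TEq (FamOf 𝓛) a v → val (a ++ pw v (n + 1 + n)) = 1 := by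
    intro a ha
    apply hid
    have h1 : TEq (FamOf 𝓛) (a ++ pw v (n + 1 + n)) (pw v (n + 1 + (n + 1))) := by
      have e : pw v (n + 1 + (n + 1)) = v ++ pw v (n + 1 + n) := by
        rw [← pw_succ]; congr 1
      rw [e]
      exact ha.append_right _
    have h2 := h1.trans hm'
    have h3 : TEq (FamOf 𝓛) ((a ++ pw v (n + 1 + n)) ++ (a ++ pw v (n + 1 + n)))
        (pw v (n + 1) ++ pw v (n + 1)) :=
      (h2.append_right _).trans (h2.append_left hcl _)
    rw [← pw_add] at h3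
    exact (h3.trans hm').trans h2.symm
  have h1 := hs u h
  have h2 := hs v (TEq.refl v)
  rw [hval] at h1 h2
  exact mul_right_cancel (h1.trans h2.symm)

section Commutator

variable {z : List A} [Finite ι] [IsSimpleGroup T]

/-- The words acting trivially on the quotients of the `𝓛 i`, `i ∈ J`, have these values. -/
def NJ (𝓛 : ι → Set (List A)) (val : List A → T) (z : List A) (J : List ι) : Set T :=
  {g | ∃ v, (∀ i ∈ J, Tf 𝓛 z i v = Tf 𝓛 z i []) ∧ val v = g}

/-- The commutator argument: some language `𝓛 i` determines the value. -/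
theorem exists_single (hz : Rich (FamOf 𝓛) z) (hfin : ∀ i, QFin (𝓛 i))
    (hval : ∀ u v, val (u ++ v) = val u * val v) (hnil : val [] = 1)
    (hsurj : Function.Surjective val)
    (hid : ∀ u, TEq (FamOf 𝓛) (u ++ u) u → val u = 1)
    (hT : ∃ a b : T, a * b ≠ b * a) :
    ∃ i, ∀ v w, Tf 𝓛 z i v = Tf 𝓛 z i w → val v = val w := by
  classical
  have hz1 : val z = 1 := hid z hz.2
  have hsp : ∀ v w, val (v ++ z ++ w) = val v * val w := by
    intro v w; rw [hval, hval, hz1, mul_one]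
  have hjoint : ∀ v w, (∀ i, Tf 𝓛 z i v = Tf 𝓛 z i w) → val v = val w := by
    intro v w h
    have := val_eq_of_teq hfin hval hid (teq_of_Tf hz h)
    simpa [hval, hz1] using this
  have hinv : ∀ u, ∃ u', (∀ i, Tf 𝓛 z i (u ++ z ++ u') = Tf 𝓛 z i []) ∧ val u' = (val u)⁻¹ := by
    intro u
    obtain ⟨u', hu'⟩ := exists_Tf_rinv hz hfin u
    refine ⟨u', hu', ?_⟩
    have := hjoint _ _ hu'
    rw [hsp, hnil] at this
    exact eq_inv_of_mul_eq_one_right this
  have hcancel : ∀ {i : ι} {v v' : List A}, Tf 𝓛 z i v = Tf 𝓛 z i [] →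
      Tf 𝓛 z i (v ++ z ++ v') = Tf 𝓛 z i [] → Tf 𝓛 z i v' = Tf 𝓛 z i [] := by
    intro i v v' h1 h2
    have := Tf_star_congr hz h1 (rfl : Tf 𝓛 z i v' = Tf 𝓛 z i v')
    rw [Tf_nil_star hz, h2] at this
    exact this.symm
  -- the subgroups
  let N : List ι → Subgroup T := fun J =>
    { carrier := NJ 𝓛 val z J
      mul_mem' := by
        rintro _ _ ⟨v, hv, rfl⟩ ⟨w, hw, rfl⟩
        refine ⟨v ++ z ++ w, fun i hi => ?_, hsp v w⟩
        rw [Tf_star_congr hz (hv i hi) (hw i hi), Tf_nil_star hz]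
      one_mem' := ⟨[], fun _ _ => rfl, hnil⟩
      inv_mem' := by
        rintro _ ⟨v, hv, rfl⟩
        obtain ⟨v', h1, h2⟩ := hinv v
        exact ⟨v', fun i hi => hcancel (hv i hi) (h1 i), h2⟩ }
  have hN : ∀ J, (N J).Normal := by
    intro J
    refine ⟨?_⟩
    rintro _ ⟨v, hv, rfl⟩ g
    obtain ⟨u, rfl⟩ := hsurj g
    obtain ⟨u', h1, h2⟩ := hinv u
    refine ⟨(u ++ z ++ v) ++ z ++ u', fun i hi => ?_, ?_⟩
    · have a1 : Tf 𝓛 z i (u ++ z ++ v) = Tf 𝓛 z i u := by
        rw [Tf_star_congr hz (rfl : Tf 𝓛 z i u = Tf 𝓛 z i u) (hv i hi), Tf_star_nil hz]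
      rw [Tf_star_congr hz a1 (rfl : Tf 𝓛 z i u' = Tf 𝓛 z i u'), h1]
    · rw [hsp, hsp, h2]
  by_contra hno
  push Not at hno
  -- from failure: every single language has N = ⊤
  have htop1 : ∀ i, N [i] = ⊤ := by
    intro i
    obtain ⟨v, w, hvw, hne⟩ := hno i
    obtain ⟨w', h1, h2⟩ := hinv w
    rcases IsSimpleGroup.eq_bot_or_eq_top_of_normal (N [i]) (hN [i]) with hb | ht
    · exfalso
      have hm : val (v ++ z ++ w') ∈ N [i] := by
        refine ⟨v ++ z ++ w', ?_, rfl⟩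
        intro j hj
        obtain rfl : j = i := by simpa using hj
        rw [Tf_star_congr hz hvw (rfl : Tf 𝓛 z j w' = Tf 𝓛 z j w'), h1]
      rw [hb, Subgroup.mem_bot, hsp, h2] at hm
      exact hne (mul_inv_eq_one.mp hm)
    · exact ht
  obtain ⟨a, b, hab⟩ := hT
  have htop : ∀ J, N J = ⊤ := by
    intro J
    induction J with
    | nil =>
      rw [eq_top_iff]
      intro g _
      obtain ⟨v, rfl⟩ := hsurj g
      exact ⟨v, by simp, rfl⟩
    | cons i J ih =>
      rcases IsSimpleGroup.eq_bot_or_eq_top_of_normal (N (i :: J)) (hN _) with hb | ht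
      · exfalso
        have ha : a ∈ N J := by rw [ih]; trivial
        have hb' : b ∈ N [i] := by rw [htop1]; trivial
        obtain ⟨v, hv, rfl⟩ := ha
        obtain ⟨w, hw, rfl⟩ := hb'
        have hw0 : Tf 𝓛 z i w = Tf 𝓛 z i [] := hw i (by simp)
        obtain ⟨v', hv1, hv2⟩ := hinv v
        obtain ⟨w', hw1, hw2⟩ := hinv w
        have hm : val ((((v ++ z ++ w) ++ z ++ v') ++ z ++ w')) ∈ N (i :: J) := by
          refine ⟨_, ?_, rfl⟩
          intro j hj
          rcases List.mem_cons.mp hj with rfl | hj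
          · have hw'0 := hcancel hw0 (hw1 j)
            have s1 : Tf 𝓛 z j (v ++ z ++ w) = Tf 𝓛 z j v := by
              rw [Tf_star_congr hz (rfl : Tf 𝓛 z j v = Tf 𝓛 z j v) hw0, Tf_star_nil hz]
            have s2 : Tf 𝓛 z j ((v ++ z ++ w) ++ z ++ v') = Tf 𝓛 z j [] := by
              rw [Tf_star_congr hz s1 (rfl : Tf 𝓛 z j v' = Tf 𝓛 z j v'), hv1]
            rw [Tf_star_congr hz s2 hw'0, Tf_nil_star hz]
          · have hv0 := hv j hj
            have hv'0 := hcancel hv0 (hv1 j)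
            have s1 : Tf 𝓛 z j (v ++ z ++ w) = Tf 𝓛 z j w := by
              rw [Tf_star_congr hz hv0 (rfl : Tf 𝓛 z j w = Tf 𝓛 z j w), Tf_nil_star hz]
            have s2 : Tf 𝓛 z j ((v ++ z ++ w) ++ z ++ v') = Tf 𝓛 z j w := by
              rw [Tf_star_congr hz s1 hv'0, Tf_star_nil hz]
            rw [Tf_star_congr hz s2 (rfl : Tf 𝓛 z j w' = Tf 𝓛 z j w'), hw1]
        rw [hb, Subgroup.mem_bot, hsp, hsp, hsp, hv2, hw2] at hm
        apply hab
        have h3 : val v * val w * (val v)⁻¹ = val w := by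
          rw [mul_inv_eq_one] at hm
          exact hm
        rw [mul_inv_eq_iff_eq_mul] at h3
        exact h3
      · exact ht
  obtain ⟨l, hl⟩ := Finite.exists_univ_list ι
  have hall : ∀ g : T, g = 1 := by
    intro g
    have : g ∈ N l := by rw [htop]; trivial
    obtain ⟨v, hv, rfl⟩ := this
    have := hjoint v [] (fun i => hv i (hl.2 i))
    rw [this, hnil]
  exact hab (by rw [hall a, hall b])

end Commutator

end Prime

end Simple
end Vale.Agent.Lib.P329
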