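import Vale.Agent.Lib.P329.Simple2

/-!
The permutation group attached to a submonoid `L` of the free monoid and a minimal rank word
`z ∈ L`: the orbit of the state `z⁻¹ L`.
-/

namespace Vale.Agent.Lib.P329
namespace Simple

variable {A : Type}

/-- The data of a submonoid with a rich word in it. -/
structure StarData (L : Set (List A)) (z : List A) : Prop where
  zmem : z ∈ L
  one : [] ∈ L
  app : ∀ u v, u ∈ L → v ∈ L → u ++ v ∈ L
  fin : QFin L
  hzz : ∀ x, lq (x ++ z ++ z) L = lq (x ++ z) L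
  hinv : ∀ u, ∃ u', ∀ x, lq (x ++ z ++ (u ++ z ++ u') ++ z) L = lq (x ++ z ++ z) L

/-- The orbit of the state of `z`. -/
def Orb (L : Set (List A)) (z : List A) : Set (Set (List A)) :=
  Set.range fun u : List A => lq (z ++ u ++ z) L

/-- The action of a word on the orbit. -/
def act (z w : List A) (q : Set (List A)) : Set (List A) := lq (w ++ z) q

section Free

variable {L : Set (List A)} {z : List A}

theorem act_s0 (a : List A) : act z a (lq z L) = lq (z ++ a ++ z) L := by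
  simp only [act]
  rw [← lq_append]
  simp

theorem act_mem {q : Set (List A)} (hq : q ∈ Orb L z) (w : List A) : act z w q ∈ Orb L z := by
  obtain ⟨u, rfl⟩ := hq
  refine ⟨u ++ z ++ w, ?_⟩
  simp only [act]
  rw [← lq_append]
  simp

theorem act_mul (v w : List A) (q : Set (List A)) :
    act z (v ++ z ++ w) q = act z w (act z v q) := by
  simp only [act]
  rw [← lq_append]
  simp

theorem act_monotone (w : List A) {q₁ q₂ : Set (List A)} (h : q₁ ⊆ q₂) :
    act z w q₁ ⊆ act z w q₂ := lq_mono h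

end Free

namespace StarData

variable {L : Set (List A)} {z : List A} (hd : StarData L z)

include hd

theorem orb_finite : (Orb L z).Finite := by
  refine hd.fin.subset ?_
  rintro _ ⟨u, rfl⟩
  exact ⟨z ++ u ++ z, rfl⟩

theorem s0_mem : lq z L ∈ Orb L z := by
  refine ⟨[], ?_⟩
  have := hd.hzz []
  simpa using this

theorem act_nil {q : Set (List A)} (hq : q ∈ Orb L z) : act z [] q = q := by
  obtain ⟨u, rfl⟩ := hq
  simp only [act, List.nil_append]
  rw [← lq_append]
  have := hd.hzz (z ++ u)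
  simpa [List.append_assoc] using this

theorem act_inv {q : Set (List A)} (hq : q ∈ Orb L z) {u u' : List A}
    (h : ∀ x, lq (x ++ z ++ (u ++ z ++ u') ++ z) L = lq (x ++ z ++ z) L) :
    act z (u ++ z ++ u') q = q := by
  obtain ⟨a, rfl⟩ := hq
  simp only [act]
  rw [← lq_append]
  have h1 := h (z ++ a)
  have h2 := hd.hzz (z ++ a)
  calc lq (z ++ a ++ z ++ (u ++ z ++ u' ++ z)) L
      = lq (z ++ a ++ z ++ (u ++ z ++ u') ++ z) L := by simp
    _ = lq (z ++ a ++ z ++ z) L := h1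
    _ = lq (z ++ a ++ z) L := h2

/-- Every word acts as a permutation of the orbit. -/
noncomputable def Pm (w : List A) : Equiv.Perm (Orb L z) :=
  haveI : Finite (Orb L z) := hd.orb_finite
  Equiv.ofBijective (fun q => ⟨act z w q.1, act_mem q.2 w⟩) (by
    obtain ⟨w', hw'⟩ := hd.hinv w
    have hinj : Function.Injective (fun q : Orb L z => (⟨act z w q.1, act_mem q.2 w⟩ : Orb L z)) := by
      intro q₁ q₂ h
      have h1 : act z w q₁.1 = act z w q₂.1 := congrArg Subtype.val h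
      apply Subtype.ext
      rw [← hd.act_inv q₁.2 hw', ← hd.act_inv q₂.2 hw', act_mul, act_mul, h1]
    exact ⟨hinj, Finite.injective_iff_surjective.mp hinj⟩)

theorem Pm_val (w : List A) (q : Orb L z) : (hd.Pm w q).1 = act z w q.1 := rfl

theorem Pm_mul (v w : List A) : hd.Pm (v ++ z ++ w) = hd.Pm w * hd.Pm v := by
  ext1 q
  apply Subtype.ext
  simp only [Equiv.Perm.mul_apply, Pm_val, act_mul]

theorem Pm_nil : hd.Pm [] = 1 := by
  ext1 q
  apply Subtype.ext
  simp only [Pm_val, Equiv.Perm.one_apply]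
  exact hd.act_nil q.2

theorem Pm_inv {u u' : List A}
    (h : ∀ x, lq (x ++ z ++ (u ++ z ++ u') ++ z) L = lq (x ++ z ++ z) L) :
    hd.Pm u' * hd.Pm u = 1 := by
  rw [← Pm_mul]
  ext1 q
  apply Subtype.ext
  simp only [Pm_val, Equiv.Perm.one_apply]
  exact hd.act_inv q.2 h

/-- The base point of the orbit. -/
def S₀ : Orb L z := ⟨lq z L, hd.s0_mem⟩

theorem nil_mem_S₀ : ([] : List A) ∈ (hd.S₀).1 := by
  show z ++ [] ∈ L
  simpa using hd.zmem

theorem Pm_S₀ (a : List A) : (hd.Pm a hd.S₀).1 = lq (z ++ a ++ z) L := act_s0 a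

/-- Every point of the orbit is the image of the base point. -/
theorem exists_Pm_S₀ (q : Orb L z) : ∃ a, hd.Pm a hd.S₀ = q := by
  obtain ⟨q, a, rfl⟩ := q
  exact ⟨a, Subtype.ext (hd.Pm_S₀ a)⟩

/-- If `S₀ ⊆ S₀ g` then `S₀ = S₀ g`: a finite order argument. -/
theorem Pm_fix (w : List A) (h : (hd.S₀).1 ⊆ (hd.Pm w hd.S₀).1) : hd.Pm w hd.S₀ = hd.S₀ := by
  haveI : Finite (Orb L z) := hd.orb_finite
  set g := hd.Pm w with hg
  have hk : ∀ k : ℕ, ((g ^ k) hd.S₀).1 ⊆ ((g ^ (k + 1)) hd.S₀).1 := by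
    intro k
    induction k with
    | zero => simpa using h
    | succ k ih =>
      have e1 : (g ^ (k + 1)) hd.S₀ = g ((g ^ k) hd.S₀) := by rw [pow_succ']; rfl
      have e2 : (g ^ (k + 1 + 1)) hd.S₀ = g ((g ^ (k + 1)) hd.S₀) := by rw [pow_succ' g (k + 1)]; rfl
      calc ((g ^ (k + 1)) hd.S₀).1 = (g ((g ^ k) hd.S₀)).1 := by rw [e1]
        _ ⊆ (g ((g ^ (k + 1)) hd.S₀)).1 := act_monotone w ih
        _ = ((g ^ (k + 1 + 1)) hd.S₀).1 := by rw [e2]
  have hk2 : ∀ k : ℕ, (g hd.S₀).1 ⊆ ((g ^ (k + 1)) hd.S₀).1 := by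
    intro k
    induction k with
    | zero => simp
    | succ k ih => exact ih.trans (hk (k + 1))
  have hp : 0 < orderOf g := orderOf_pos g
  obtain ⟨n, hn⟩ : ∃ n, orderOf g = n + 1 := ⟨orderOf g - 1, by omega⟩
  have h1 := hk2 n
  rw [← hn, pow_orderOf_eq_one] at h1
  apply Subtype.ext
  exact Set.Subset.antisymm h1 h

/-- Distinct points of the orbit are incomparable. -/
theorem antichain {q₁ q₂ : Orb L z} (h : q₁.1 ⊆ q₂.1) : q₁ = q₂ := by
  obtain ⟨a, rfl⟩ := hd.exists_Pm_S₀ q₁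
  obtain ⟨b, rfl⟩ := hd.exists_Pm_S₀ q₂
  obtain ⟨a', ha'⟩ := hd.hinv a
  have h1 := hd.Pm_inv ha'
  have h2 : (hd.S₀).1 ⊆ (hd.Pm (b ++ z ++ a') hd.S₀).1 := by
    have e : hd.Pm a' (hd.Pm a hd.S₀) = hd.S₀ := by
      rw [← Equiv.Perm.mul_apply, h1]; rfl
    have h3 := act_monotone (z := z) a' h
    rw [← hd.Pm_val, ← hd.Pm_val, e] at h3
    rw [Pm_mul, Equiv.Perm.mul_apply]
    exact h3
  have h4 := hd.Pm_fix _ h2
  rw [Pm_mul, Equiv.Perm.mul_apply] at h4
  have e : hd.Pm a' (hd.Pm a hd.S₀) = hd.S₀ := by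
    rw [← Equiv.Perm.mul_apply, h1]; rfl
  exact (hd.Pm a').injective (e.trans h4.symm)

/-- If `r ∈ L`, then reading `z` after `r` leads to the base point. -/
theorem mem_lq_z {r : List A} (hr : r ∈ L) : lq z L ⊆ lq (r ++ z) L := by
  intro v hv
  have := hd.app r (z ++ v) hr hv
  simpa [List.append_assoc] using this

/-- Points of the orbit are not empty. -/
theorem orb_nonempty (q : Orb L z) : (q.1).Nonempty := by
  obtain ⟨a, rfl⟩ := hd.exists_Pm_S₀ q
  obtain ⟨a', ha'⟩ := hd.hinv a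
  have e : hd.Pm a' (hd.Pm a hd.S₀) = hd.S₀ := by
    rw [← Equiv.Perm.mul_apply, hd.Pm_inv ha']; rfl
  have h1 : ([] : List A) ∈ (hd.Pm a' (hd.Pm a hd.S₀)).1 := by
    rw [e]; exact hd.nil_mem_S₀
  rw [Pm_val] at h1
  by_contra hne
  rw [Set.not_nonempty_iff_eq_empty] at hne
  rw [hne] at h1
  simp [act, lq] at h1

/-- Removing a prefix starting with `z`, if some future exists: the state of `u z` is the state of
`z u z`. -/
theorem k2 {u : List A} (hne : (lq (u ++ z) L).Nonempty) : lq (u ++ z) L = lq (z ++ u ++ z) L := by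
  obtain ⟨v₀, hv₀⟩ := hne
  have hv₀' : u ++ z ++ v₀ ∈ L := hv₀
  obtain ⟨v', hv'⟩ := hd.hinv v₀
  -- p ⊆ p'
  have hsub : lq (u ++ z) L ⊆ lq (z ++ u ++ z) L := by
    intro v hv
    have := hd.app z (u ++ z ++ v) hd.zmem hv
    simpa [List.append_assoc] using this
  -- the images under `v₀`
  let p' : Orb L z := ⟨lq (z ++ u ++ z) L, u, rfl⟩
  have h1 : (hd.S₀).1 ⊆ act z v₀ (lq (u ++ z) L) := by
    have := hd.mem_lq_z hv₀'
    simp only [act]
    rw [← lq_append]
    simpa [S₀, List.append_assoc] using this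
  have h2 : act z v₀ (lq (u ++ z) L) ⊆ (hd.Pm v₀ p').1 := by
    rw [Pm_val]
    exact act_monotone (z := z) v₀ hsub
  have h3 : hd.Pm v₀ p' = hd.S₀ := by
    have := hd.antichain (h1.trans h2)
    exact this.symm
  have h4 : act z v₀ (lq (u ++ z) L) = act z v₀ (lq (z ++ u ++ z) L) := by
    apply Set.Subset.antisymm
    · exact act_monotone (z := z) v₀ hsub
    · have : (hd.Pm v₀ p').1 = act z v₀ (lq (z ++ u ++ z) L) := rfl
      rw [← this, h3]
      exact h1
  -- cancel `v₀` using the right inverse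
  have h5 : ∀ y, act z v' (act z v₀ (lq (y ++ z) L)) = lq (y ++ z) L := by
    intro y
    simp only [act]
    rw [← lq_append, ← lq_append]
    have h6 := hv' y
    have h7 := hd.hzz y
    calc lq (y ++ z ++ (v₀ ++ z ++ (v' ++ z))) L
        = lq (y ++ z ++ (v₀ ++ z ++ v') ++ z) L := by simp
      _ = lq (y ++ z ++ z) L := h6
      _ = lq (y ++ z) L := h7
  have h8 := h5 u
  have h9 := h5 (z ++ u)
  rw [← h8, h4]
  exact h9

/-- Hub property of the base point. -/
theorem hub (w : List A) : z ++ w ++ z ∈ L ↔ hd.Pm w hd.S₀ = hd.S₀ := by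
  constructor
  · intro h
    apply hd.Pm_fix
    have h1 := hd.mem_lq_z h
    rw [Pm_S₀]
    have h2 := hd.hzz (z ++ w)
    rw [h2] at h1
    exact h1
  · intro h
    have h1 : ([] : List A) ∈ (hd.Pm w hd.S₀).1 := by
      rw [h]; exact hd.nil_mem_S₀
    rw [Pm_S₀] at h1
    simpa using h1

/-- A cut resets the state. -/
theorem reset {r₁ s : List A} (hr : r₁ ∈ L) (hne : (lq (s ++ z) L).Nonempty) :
    lq (z ++ r₁ ++ s ++ z) L = lq (z ++ s ++ z) L := by
  have h1 := hd.k2 hne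
  let q₁ : Orb L z := ⟨lq (z ++ s ++ z) L, s, rfl⟩
  let q₂ : Orb L z := ⟨lq (z ++ (r₁ ++ s) ++ z) L, r₁ ++ s, rfl⟩
  have h2 : q₁.1 ⊆ q₂.1 := by
    intro v hv
    have hv1 : v ∈ lq (s ++ z) L := by
      rw [h1]; exact hv
    have := hd.app (z ++ r₁) (s ++ z ++ v) (hd.app z r₁ hd.zmem hr) hv1
    show z ++ (r₁ ++ s) ++ z ++ v ∈ L
    simpa [List.append_assoc] using this
  have h3 := hd.antichain h2
  have h4 : q₁.1 = q₂.1 := congrArg Subtype.val h3
  show _ = q₁.1
  rw [h4]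
  show _ = lq (z ++ (r₁ ++ s) ++ z) L
  simp

end StarData

end Simple
end Vale.Agent.Lib.P329
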