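import Vale.Agent.Lib.P329.Simple3

/-!
The permutation group of a star, the run dichotomy, and the reduction theorem for simple groups.
-/

namespace Vale.Agent.Lib.P329
namespace Simple

variable {A T : Type} [Group T]

namespace StarData

variable {L : Set (List A)} {z : List A} (hd : StarData L z)

/-- The permutation attached to a word (inverse of the right action). -/
noncomputable def tau0 (w : List A) : Equiv.Perm (Orb L z) := (hd.Pm w)⁻¹

theorem tau0_mul (v w : List A) : hd.tau0 (v ++ z ++ w) = hd.tau0 v * hd.tau0 w := by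
  simp only [tau0, Pm_mul, mul_inv_rev]

theorem tau0_nil : hd.tau0 [] = 1 := by
  simp only [tau0, Pm_nil, inv_one]

/-- The group of the star. -/
noncomputable def H : Subgroup (Equiv.Perm (Orb L z)) where
  carrier := Set.range hd.tau0
  mul_mem' := by
    rintro _ _ ⟨v, rfl⟩ ⟨w, rfl⟩
    exact ⟨v ++ z ++ w, hd.tau0_mul v w⟩
  one_mem' := ⟨[], hd.tau0_nil⟩
  inv_mem' := by
    rintro _ ⟨v, rfl⟩
    obtain ⟨v', hv'⟩ := hd.hinv v
    refine ⟨v', ?_⟩
    have h1 := hd.Pm_inv hv'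
    simp only [tau0, inv_inv]
    exact inv_eq_of_mul_eq_one_right h1

/-- The element of the group attached to a word. -/
noncomputable def tau (w : List A) : hd.H := ⟨hd.tau0 w, ⟨w, rfl⟩⟩

theorem tau_mul (v w : List A) : hd.tau (v ++ z ++ w) = hd.tau v * hd.tau w :=
  Subtype.ext (hd.tau0_mul v w)

theorem tau_nil : hd.tau [] = 1 := Subtype.ext hd.tau0_nil

theorem tau_surj (h : hd.H) : ∃ w, hd.tau w = h := by
  obtain ⟨h, w, rfl⟩ := h
  exact ⟨w, rfl⟩

theorem tau_inv_apply (w : List A) (q : Orb L z) : ((hd.tau w : Equiv.Perm (Orb L z))⁻¹) q = hd.Pm w q := by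
  simp [tau, tau0]

/-- Equal permutations give equal action on all the quotients of `L`. -/
theorem lq_eq_of_tau {v w : List A} (h : hd.tau0 v = hd.tau0 w) (x : List A) :
    lq (x ++ z ++ v ++ z) L = lq (x ++ z ++ w ++ z) L := by
  have hP : hd.Pm v = hd.Pm w := inv_injective h
  have e1 : ∀ y, lq (x ++ z ++ y ++ z) L = lq (y ++ z) (lq (x ++ z) L) := by
    intro y
    rw [← lq_append]; simp
  rw [e1, e1]
  by_cases hne : (lq (x ++ z) L).Nonempty
  · rw [hd.k2 hne]
    have := congrArg (fun g => (g (⟨lq (z ++ x ++ z) L, x, rfl⟩ : Orb L z)).1) hP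
    exact this
  · rw [Set.not_nonempty_iff_eq_empty] at hne
    rw [hne]
    ext u
    simp [lq]

/-- The run dichotomy. -/
theorem run_dichotomy {X : Set (List A)} (hL : L = kstarL X) (hX : HeightLE 0 X) (u : List A)
    (q : Orb L z) :
    ∃ N, ∀ j, N ≤ j → hd.Pm (pw u (j + 1)) q = hd.Pm (pw u j) q ∨
      ∃ i j' u₁ u₂, u = u₁ ++ u₂ ∧ i + j' + 1 = j ∧
        hd.Pm (pw u j) q = hd.Pm (u₂ ++ pw u j') hd.S₀ := by
  classical
  obtain ⟨N₀, hN₀⟩ := pump_height0 u hX
  refine ⟨N₀ + 1, fun j hj => ?_⟩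
  obtain ⟨m, rfl⟩ : ∃ m, j = m + 1 := ⟨j - 1, by omega⟩
  obtain ⟨q, a, rfl⟩ := q
  set r := z ++ a ++ z with hr
  have hval : ∀ c, (hd.Pm c ⟨lq r L, a, rfl⟩).1 = lq (r ++ c ++ z) L := by
    intro c
    rw [Pm_val]
    simp only [act]
    rw [← lq_append]; simp
  by_cases hcut : ∃ v c₁ c₂, pw u (m + 1) = c₁ ++ c₂ ∧ r ++ c₁ ∈ L ∧ c₂ ++ (z ++ v) ∈ L
  · obtain ⟨v, c₁, c₂, hc, h1, h2⟩ := hcut
    obtain ⟨i, j', u₁, u₂, hu, rfl, rfl, hij⟩ := split_pw u m c₁ c₂ hc.symm
    right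
    refine ⟨i, j', u₁, u₂, hu, by omega, ?_⟩
    apply Subtype.ext
    rw [hval, Pm_S₀]
    set s := u₂ ++ pw u j' with hs
    have e1 : r ++ pw u (m + 1) = (r ++ (pw u i ++ u₁)) ++ s := by
      rw [hc, hs]; simp
    have hne : (lq (s ++ z) L).Nonempty := ⟨v, by simpa [hs, List.append_assoc] using h2⟩
    have hne2 : (lq (r ++ pw u (m + 1) ++ z) L).Nonempty := by
      have : (lq (r ++ pw u (m + 1) ++ z) L) = (hd.Pm (pw u (m + 1)) ⟨lq r L, a, rfl⟩).1 :=
        (hval _).symm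
      rw [this]
      exact hd.orb_nonempty _
    have h3 := hd.k2 hne2
    have h4 := hd.reset h1 hne
    rw [h3, e1]
    rw [← h4]
    simp
  · left
    symm
    apply hd.antichain
    intro v hv
    have hv1 : r ++ pw u (m + 1) ++ z ++ v ∈ L := by
      have : v ∈ lq (r ++ pw u (m + 1) ++ z) L := by
        rw [← hval]; exact hv
      exact this
    rw [hL] at hv1
    obtain ⟨l, hl, hfl⟩ := hv1
    have hfl' : r ++ pw u (m + 1) ++ (z ++ v) = l.flatten := by
      rw [← hfl]; simp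
    rcases cut_or_cover l r (pw u (m + 1)) (z ++ v) hl hfl' with
      ⟨c₁, c₂, hc, h1, h2⟩ | ⟨p₀, p₁, w₁, w₂, hp, hw, h₀, h₂, h₃⟩
    · exact absurd ⟨v, c₁, c₂, hc, hL ▸ h1, hL ▸ h2⟩ hcut
    · have h4 := (hN₀ (m + 1) (by omega) p₁ w₁).mp h₃
      have : v ∈ lq (r ++ pw u (m + 1 + 1) ++ z) L := by
        show r ++ pw u (m + 1 + 1) ++ z ++ v ∈ L
        rw [hL]
        have e : r ++ pw u (m + 1 + 1) ++ z ++ v = p₀ ++ ((p₁ ++ pw u (m + 1 + 1) ++ w₁) ++ w₂) := by
          rw [hp]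
          have : p₀ ++ p₁ ++ pw u (m + 1 + 1) ++ z ++ v = p₀ ++ p₁ ++ pw u (m + 1 + 1) ++ (z ++ v) := by
            simp
          rw [this, hw]; simp
        rw [e]
        exact kstar_append h₀ (kstar_append (mem_kstar_of_mem h4) h₂)
      rw [hval]
      exact this

end StarData

end Simple
end Vale.Agent.Lib.P329
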