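import Vale.Agent.Lib.P329.Simple4

/-!
Values of words in a group, the coset alternative, and the group homomorphism of a star.
-/

namespace Vale.Agent.Lib.P329
namespace Simple

variable {A T : Type} [Group T]

/-- The value of a word in the group. -/
def wval (φ : A → T) (w : List A) : T := (w.map φ).prod

@[simp] theorem wval_nil (φ : A → T) : wval φ [] = 1 := rfl

theorem wval_append (φ : A → T) (u v : List A) : wval φ (u ++ v) = wval φ u * wval φ v := by
  simp [wval]

theorem wval_single (φ : A → T) (x : A) : wval φ [x] = φ x := by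
  simp [wval]

theorem wval_pw (φ : A → T) (u : List A) (m : ℕ) : wval φ (pw u m) = wval φ u ^ m := by
  induction m with
  | zero => simp [pw]
  | succ m ih => rw [pw_succ', wval_append, ih, pow_succ]

/-- A submonoid of a finite group is a subgroup. -/
noncomputable def subgroupOf [Finite T] (s : Set T) (h1 : (1 : T) ∈ s)
    (hm : ∀ a b, a ∈ s → b ∈ s → a * b ∈ s) : Subgroup T where
  carrier := s
  mul_mem' := fun {a b} ha hb => hm a b ha hb
  one_mem' := h1
  inv_mem' := by
    intro g hg
    have hp : ∀ n : ℕ, g ^ n ∈ s := by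
      intro n
      induction n with
      | zero => simpa using h1
      | succ n ih => rw [pow_succ]; exact hm _ _ ih hg
    have : g⁻¹ = g ^ (orderOf g - 1) := by
      apply inv_eq_of_mul_eq_one_right
      rw [← pow_succ', Nat.sub_add_cancel (orderOf_pos g), pow_orderOf_eq_one]
    rw [this]
    exact hp _

theorem wval_surj [Finite T] (φ : A → T) (hφ : Subgroup.closure (Set.range φ) = ⊤) :
    Function.Surjective (wval φ) := by
  let R : Subgroup T := subgroupOf (Set.range (wval φ)) ⟨[], rfl⟩ (by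
    rintro _ _ ⟨u, rfl⟩ ⟨v, rfl⟩
    exact ⟨u ++ v, wval_append φ u v⟩)
  have hR : Subgroup.closure (Set.range φ) ≤ R := by
    rw [Subgroup.closure_le]
    rintro _ ⟨x, rfl⟩
    exact ⟨[x], wval_single φ x⟩
  intro g
  have : g ∈ Subgroup.closure (Set.range φ) := by rw [hφ]; trivial
  exact hR this

/-- The sign argument: the coset alternative for an involution forces the whole group. -/
theorem top_of_involution [Finite T] [IsSimpleGroup T] (hT : ∃ a b : T, a * b ≠ b * a)
    (T₀ : Subgroup T) {t : T} (ht : t ≠ 1) (htt : t * t = 1)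
    (h : ∀ g : T, g * t * g⁻¹ ∈ T₀ ∨ ∃ i : ℕ, g * t ^ i ∈ T₀) : T₀ = ⊤ := by
  classical
  have hpow : ∀ i : ℕ, t ^ i = 1 ∨ t ^ i = t := by
    intro i
    induction i with
    | zero => left; simp
    | succ i ih =>
      rcases ih with e | e
      · right; rw [pow_succ, e, one_mul]
      · left; rw [pow_succ, e, htt]
  have htinv : t⁻¹ = t := inv_eq_of_mul_eq_one_left htt
  by_cases htT : t ∈ T₀
  · -- the normal closure of `t` lies in `T₀`
    have hc : ∀ g : T, g * t * g⁻¹ ∈ T₀ := by
      intro g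
      rcases h g with h1 | ⟨i, h1⟩
      · exact h1
      · have hgT : g ∈ T₀ := by
          rcases hpow i with e | e
          · rw [e, mul_one] at h1; exact h1
          · rw [e] at h1
            have := T₀.mul_mem h1 (T₀.inv_mem htT)
            simpa using this
        exact T₀.mul_mem (T₀.mul_mem hgT htT) (T₀.inv_mem hgT)
    have hle : Subgroup.normalClosure {t} ≤ T₀ := by
      unfold Subgroup.normalClosure
      rw [Subgroup.closure_le]
      intro y hy
      obtain ⟨a, ha, hay⟩ := Group.mem_conjugatesOfSet_iff.mp hy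
      obtain rfl : a = t := ha
      obtain ⟨c, rfl⟩ := isConj_iff.mp hay
      exact hc c
    have hN : (Subgroup.normalClosure {t}).Normal := Subgroup.normalClosure_normal
    rcases IsSimpleGroup.eq_bot_or_eq_top_of_normal _ hN with hb | ht'
    · exfalso
      have : t ∈ Subgroup.normalClosure {t} := Subgroup.subset_normalClosure rfl
      rw [hb, Subgroup.mem_bot] at this
      exact ht this
    · rw [eq_top_iff, ← ht']
      exact hle
  · exfalso
    haveI : Fintype (T ⧸ T₀) := Fintype.ofFinite _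
    let act : T →* Equiv.Perm (T ⧸ T₀) := MulAction.toPermHom T (T ⧸ T₀)
    let c₀ : T ⧸ T₀ := QuotientGroup.mk 1
    let c₁ : T ⧸ T₀ := QuotientGroup.mk t
    have hne : c₀ ≠ c₁ := by
      intro e
      apply htT
      have := QuotientGroup.eq.mp e
      simpa using this
    have hact : act t = Equiv.swap c₀ c₁ := by
      ext1 y
      induction y using QuotientGroup.induction_on with
      | H g =>
        by_cases h0 : (QuotientGroup.mk g : T ⧸ T₀) = c₀
        · rw [h0, Equiv.swap_apply_left]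
          show (QuotientGroup.mk (t * 1) : T ⧸ T₀) = _
          rw [mul_one]
        · by_cases h1 : (QuotientGroup.mk g : T ⧸ T₀) = c₁
          · rw [h1, Equiv.swap_apply_right]
            show (QuotientGroup.mk (t * t) : T ⧸ T₀) = _
            rw [htt]
          · rw [Equiv.swap_apply_of_ne_of_ne h0 h1]
            show (QuotientGroup.mk (t * g) : T ⧸ T₀) = _
            apply QuotientGroup.eq.mpr
            -- need `(t g)⁻¹ g ∈ T₀`
            have e : (t * g)⁻¹ * g = g⁻¹ * t * g⁻¹⁻¹ := by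
              simp [mul_inv_rev, htinv]
            rw [e]
            rcases h g⁻¹ with h2 | ⟨i, h2⟩
            · exact h2
            · exfalso
              rcases hpow i with e' | e'
              · rw [e', mul_one] at h2
                apply h0
                apply QuotientGroup.eq.mpr
                have := T₀.inv_mem h2
                simpa using this
              · rw [e'] at h2
                apply h1
                apply QuotientGroup.eq.mpr
                exact h2
    let sg : T →* ℤˣ := (Equiv.Perm.sign).comp act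
    have hsg : sg t = -1 := by
      show Equiv.Perm.sign (act t) = -1
      rw [hact, Equiv.Perm.sign_swap hne]
    obtain ⟨a, b, hab⟩ := hT
    rcases IsSimpleGroup.eq_bot_or_eq_top_of_normal sg.ker inferInstance with hb | ht'
    · apply hab
      have hinj : Function.Injective sg := (MonoidHom.ker_eq_bot_iff sg).mp hb
      apply hinj
      rw [map_mul, map_mul, mul_comm]
    · have : t ∈ sg.ker := by rw [ht']; trivial
      rw [MonoidHom.mem_ker, hsg] at this
      exact absurd this (by decide)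

namespace StarData

variable {L : Set (List A)} {z : List A} (hd : StarData L z) (φ : A → T)

/-- Left inverses with the inverse value. -/
theorem val_inv (hz1 : wval φ z = 1)
    (hdet : ∀ v w, (∀ x, lq (x ++ z ++ v ++ z) L = lq (x ++ z ++ w ++ z) L) → wval φ v = wval φ w)
    (u : List A) : ∃ u', hd.Pm u' * hd.Pm u = 1 ∧ wval φ u' = (wval φ u)⁻¹ := by
  obtain ⟨u', hu'⟩ := hd.hinv u
  refine ⟨u', hd.Pm_inv hu', ?_⟩
  have := hdet (u ++ z ++ u') [] (fun x => by simpa using hu' x)
  rw [wval_append, wval_append, hz1, mul_one, wval_nil] at this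
  exact eq_inv_of_mul_eq_one_right this

/-- The homomorphism to the group. -/
theorem exists_pi (hz1 : wval φ z = 1)
    (hdet : ∀ v w, (∀ x, lq (x ++ z ++ v ++ z) L = lq (x ++ z ++ w ++ z) L) → wval φ v = wval φ w) :
    ∃ π : hd.H →* T, ∀ w, π (hd.tau w) = wval φ w := by
  classical
  have key : ∀ v w, hd.tau v = hd.tau w → wval φ v = wval φ w := fun v w h =>
    hdet v w (fun x => hd.lq_eq_of_tau (congrArg Subtype.val h) x)
  let f : hd.H → T := fun h => wval φ (Classical.choose (hd.tau_surj h))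
  have hf : ∀ w, f (hd.tau w) = wval φ w := fun w =>
    key _ _ (Classical.choose_spec (hd.tau_surj (hd.tau w)))
  refine ⟨MonoidHom.mk' f ?_, hf⟩
  intro a b
  obtain ⟨v, rfl⟩ := hd.tau_surj a
  obtain ⟨w, rfl⟩ := hd.tau_surj b
  rw [← hd.tau_mul, hf, hf, hf, wval_append, wval_append, hz1, mul_one]

include hd in
/-- The coset alternative for words. -/
theorem coset_alt_word [Finite T] {X : Set (List A)} (hL : L = kstarL X) (hX : HeightLE 0 X)
    (hz1 : wval φ z = 1)
    (hdet : ∀ v w, (∀ x, lq (x ++ z ++ v ++ z) L = lq (x ++ z ++ w ++ z) L) → wval φ v = wval φ w)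
    (s r : List A) :
    (∃ y ∈ L, wval φ y = wval φ r * wval φ s * (wval φ r)⁻¹) ∨
      ∃ (i : ℕ) (u₁ u₂ : List A), s = u₁ ++ u₂ ∧
        ∃ y ∈ L, wval φ y = wval φ r * wval φ s ^ i * wval φ u₁ := by
  classical
  obtain ⟨N₀, hN₀⟩ := pump_height0 s hX
  set t := wval φ s with ht
  set M := (N₀ + 1) * orderOf t with hM
  have hpos : 0 < orderOf t := orderOf_pos t
  have hMN : N₀ ≤ M := by nlinarith
  have hM1 : 1 ≤ M := by nlinarith
  have htM : t ^ M = 1 := by rw [hM, mul_comm, pow_mul, pow_orderOf_eq_one, one_pow]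
  have hwx : ∀ m, wval φ (pw s m) = t ^ m := fun m => wval_pw φ s m
  set r' := z ++ r ++ z with hr'
  have hr'v : wval φ r' = wval φ r := by
    rw [hr', wval_append, wval_append, hz1, one_mul, mul_one]
  set u := r ++ z ++ pw s M with hu
  obtain ⟨v, hv1, hv2⟩ := hd.val_inv φ hz1 hdet u
  have hvv : wval φ v = (wval φ r)⁻¹ := by
    rw [hv2, hu, wval_append, wval_append, hz1, mul_one, hwx, htM, mul_one]
  have hW : z ++ (u ++ z ++ v) ++ z ∈ L := by
    rw [hd.hub, hd.Pm_mul, hv1]
    rfl
  have hW' : z ++ (u ++ z ++ v) ++ z ∈ kstarL X := hL ▸ hW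
  obtain ⟨l, hl, hfl⟩ := hW'
  have hfl' : r' ++ pw s M ++ (z ++ v ++ z) = l.flatten := by
    rw [← hfl, hr', hu]; simp
  rcases cut_or_cover l r' (pw s M) (z ++ v ++ z) hl hfl' with
    ⟨c₁, c₂, hc, h1, h2⟩ | ⟨p₀, p₁, w₁, w₂, hp, hw, h₀, h₂, h₃⟩
  · right
    obtain ⟨M', hM'⟩ : ∃ M', M = M' + 1 := ⟨M - 1, by omega⟩
    rw [hM'] at hc
    obtain ⟨i, j, u₁, u₂, hs, rfl, -, -⟩ := split_pw s M' c₁ c₂ hc.symm
    refine ⟨i, u₁, u₂, hs, r' ++ (pw s i ++ u₁), hL ▸ h1, ?_⟩
    rw [wval_append φ r', hr'v, wval_append, hwx, mul_assoc]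
  · left
    have h4 := (hN₀ M hMN p₁ w₁).mp h₃
    refine ⟨r' ++ pw s (M + 1) ++ (z ++ v ++ z), ?_, ?_⟩
    · rw [hL]
      have e : r' ++ pw s (M + 1) ++ (z ++ v ++ z) =
          p₀ ++ ((p₁ ++ pw s (M + 1) ++ w₁) ++ w₂) := by
        rw [hp, hw]; simp
      rw [e]
      exact kstar_append h₀ (kstar_append (mem_kstar_of_mem h4) h₂)
    · rw [wval_append, wval_append, hr'v, hwx, pow_succ, htM, one_mul, wval_append, wval_append,
        hz1, one_mul, mul_one, hvv]

include hd in
/-- The coset alternative for a letter. -/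
theorem coset_alt [Finite T] {X : Set (List A)} (hL : L = kstarL X) (hX : HeightLE 0 X)
    (hz1 : wval φ z = 1)
    (hdet : ∀ v w, (∀ x, lq (x ++ z ++ v ++ z) L = lq (x ++ z ++ w ++ z) L) → wval φ v = wval φ w)
    (x : A) (r : List A) :
    (∃ y ∈ L, wval φ y = wval φ r * φ x * (wval φ r)⁻¹) ∨
      ∃ i : ℕ, ∃ y ∈ L, wval φ y = wval φ r * φ x ^ i := by
  rcases hd.coset_alt_word φ hL hX hz1 hdet [x] r with h | ⟨i, u₁, u₂, hs, y, hy, hyv⟩
  · left
    rw [wval_single] at h
    exact h
  · right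
    rw [wval_single] at hyv
    cases u₁ with
    | nil =>
      exact ⟨i, y, hy, by simpa using hyv⟩
    | cons a u₁ =>
      have hs' : x = a ∧ [] = u₁ ++ u₂ := by simpa using hs
      obtain ⟨rfl, h3⟩ := hs'
      have h4 : u₁ = [] := (List.append_eq_nil_iff.mp h3.symm).1
      subst h4
      refine ⟨i + 1, y, hy, ?_⟩
      rw [hyv, wval_single, pow_succ, mul_assoc]

/-- The values of the star form a subgroup. -/
noncomputable def T0 [Finite T] : Subgroup T :=
  subgroupOf {g | ∃ y ∈ L, wval φ y = g} ⟨[], hd.one, rfl⟩ (by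
    rintro _ _ ⟨u, hu, rfl⟩ ⟨v, hv, rfl⟩
    exact ⟨u ++ v, hd.app u v hu hv, wval_append φ u v⟩)

theorem mem_T0 [Finite T] (g : T) : g ∈ hd.T0 φ ↔ ∃ y ∈ L, wval φ y = g := Iff.rfl

/-- With an involution letter, the star takes all values. -/
theorem T0_top [Finite T] [IsSimpleGroup T] (hT : ∃ a b : T, a * b ≠ b * a)
    (hφ : Subgroup.closure (Set.range φ) = ⊤) {X : Set (List A)} (hL : L = kstarL X)
    (hX : HeightLE 0 X) (hz1 : wval φ z = 1)
    (hdet : ∀ v w, (∀ x, lq (x ++ z ++ v ++ z) L = lq (x ++ z ++ w ++ z) L) → wval φ v = wval φ w)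
    (x : A) (h1 : φ x ≠ 1) (h2 : φ x * φ x = 1) : hd.T0 φ = ⊤ := by
  apply top_of_involution hT _ h1 h2
  intro g
  obtain ⟨r, rfl⟩ := wval_surj φ hφ g
  rcases hd.coset_alt φ hL hX hz1 hdet x r with h | ⟨i, h⟩
  · exact Or.inl h
  · exact Or.inr ⟨i, h⟩

/-- If the star takes all values, the kernel acts transitively on the orbit. -/
theorem ker_transitive [Finite T] (hz1 : wval φ z = 1)
    (hdet : ∀ v w, (∀ x, lq (x ++ z ++ v ++ z) L = lq (x ++ z ++ w ++ z) L) → wval φ v = wval φ w)
    (htop : hd.T0 φ = ⊤) (π : hd.H →* T)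
    (hπ : ∀ w, π (hd.tau w) = wval φ w) (q : Orb L z) :
    ∃ k : hd.H, π k = 1 ∧ ((k : Equiv.Perm (Orb L z))⁻¹) hd.S₀ = q := by
  obtain ⟨u, rfl⟩ := hd.exists_Pm_S₀ q
  have hm : wval φ u ∈ hd.T0 φ := by rw [htop]; trivial
  obtain ⟨y, hy, hyv⟩ := hm
  obtain ⟨y', hy'1, hy'2⟩ := hd.val_inv φ hz1 hdet y
  have hfix : hd.Pm y hd.S₀ = hd.S₀ := by
    rw [← hd.hub]
    exact hd.app _ _ (hd.app _ _ hd.zmem hy) hd.zmem
  have hfix' : hd.Pm y' hd.S₀ = hd.S₀ := by
    have : hd.Pm y' (hd.Pm y hd.S₀) = hd.S₀ := by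
      rw [← Equiv.Perm.mul_apply, hy'1]; rfl
    rwa [hfix] at this
  refine ⟨hd.tau (y' ++ z ++ u), ?_, ?_⟩
  · rw [hπ, wval_append, wval_append, hz1, mul_one, hy'2, hyv, inv_mul_cancel]
  · rw [hd.tau_inv_apply, hd.Pm_mul, Equiv.Perm.mul_apply, hfix']

end StarData

end Simple
end Vale.Agent.Lib.P329
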