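import Vale.Agent.Lib.P329.Simple5

/-!
Reduction theorem: a language recognized by a nonabelian simple group, of generalized star height
at most one, has a single star carrying the group.
-/

namespace Vale.Agent.Lib.P329
namespace Simple

variable {A T : Type} [Group T]

theorem pw_mem_kstar {K : Set (List A)} {u : List A} (hu : u ∈ kstarL K) (m : ℕ) :
    pw u m ∈ kstarL K := by
  induction m with
  | zero => simpa [pw] using nil_mem_kstar K
  | succ m ih => rw [pw_succ]; exact kstar_append hu ih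

/-- If a word pumps in the language of a subset, its value is trivial. -/
theorem val_one_of_pump [Finite T] [IsSimpleGroup T] (φ : A → T)
    (hsurj : Function.Surjective (wval φ)) (S : Set T) (hS1 : S.Nonempty) (hS2 : S ≠ Set.univ)
    {u : List A} {N : ℕ} (h : Pump1 u {w | wval φ w ∈ S} N) : wval φ u = 1 := by
  classical
  set t := wval φ u with ht
  by_contra hne
  let W : Subgroup T :=
    { carrier := {k | ∀ y, y ∈ S ↔ k * y ∈ S}
      mul_mem' := by
        intro a b ha hb y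
        rw [hb y, ha (b * y), mul_assoc]
      one_mem' := by intro y; simp
      inv_mem' := by
        intro a ha y
        have := ha (a⁻¹ * y)
        rw [mul_inv_cancel_left] at this
        exact this.symm }
  set M := (N + 1) * orderOf t with hM
  have hpos : 0 < orderOf t := orderOf_pos t
  have hMN : N ≤ M := by nlinarith
  have htM : t ^ M = 1 := by rw [hM, mul_comm, pow_mul, pow_orderOf_eq_one, one_pow]
  have hwx : ∀ m, wval φ (pw u m) = t ^ m := fun m => wval_pw φ u m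
  have hconj : ∀ g : T, g * t * g⁻¹ ∈ W := by
    intro g y
    obtain ⟨a, ha⟩ := hsurj g
    obtain ⟨b, hb⟩ := hsurj (g⁻¹ * y)
    have h1 := h M hMN a b
    simp only [Set.mem_ofPred_eq, wval_append, hwx, pow_succ, htM, mul_one, one_mul, ha, hb] at h1
    have e : g * t * (g⁻¹ * y) = g * t * g⁻¹ * y := by group
    have e2 : g * (g⁻¹ * y) = y := by group
    rw [e2, e] at h1
    exact h1
  have hle : Subgroup.normalClosure {t} ≤ W := by
    unfold Subgroup.normalClosure
    rw [Subgroup.closure_le]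
    intro y hy
    obtain ⟨a, ha, hay⟩ := Group.mem_conjugatesOfSet_iff.mp hy
    obtain rfl : a = t := ha
    obtain ⟨c, rfl⟩ := isConj_iff.mp hay
    exact hconj c
  have hN : (Subgroup.normalClosure {t}).Normal := Subgroup.normalClosure_normal
  rcases IsSimpleGroup.eq_bot_or_eq_top_of_normal _ hN with hb | ht'
  · have : t ∈ Subgroup.normalClosure {t} := Subgroup.subset_normalClosure rfl
    rw [hb, Subgroup.mem_bot] at this
    exact hne this
  · obtain ⟨s, hs⟩ := hS1
    apply hS2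
    rw [Set.eq_univ_iff_forall]
    intro g
    have hk : g * s⁻¹ ∈ W := hle (by rw [ht']; trivial)
    have := (hk s).mp hs
    simpa using this

/-- An idempotent action makes the word pump in every language of the family. -/
theorem pump_of_teq {Fs : Set (Set (List A))} {F : Set (List A)} (hF : ∀ a, lq a F ∈ Fs)
    {u : List A} (h : TEq Fs (u ++ u) u) : Pump1 u F 1 := by
  have hp : ∀ m, TEq Fs (pw u (m + 1)) u := by
    intro m
    induction m with
    | zero => rw [pw_one]; exact TEq.refl u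
    | succ m ih =>
      rw [pw_succ']
      exact (ih.append_right u).trans h
  intro m hm a b
  obtain ⟨m', rfl⟩ : ∃ m', m = m' + 1 := ⟨m - 1, by omega⟩
  have h1 := hp m' _ (hF a)
  have h2 := hp (m' + 1) _ (hF a)
  have e : lq (pw u (m' + 1)) (lq a F) = lq (pw u (m' + 1 + 1)) (lq a F) := h1.trans h2.symm
  have e' : b ∈ lq (pw u (m' + 1)) (lq a F) ↔ b ∈ lq (pw u (m' + 1 + 1)) (lq a F) := by rw [e]
  simpa using e'

/-- A word of minimal rank on two families at once: its powers are rich for both. -/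
theorem exists_rich_two {F₁ F₂ : Set (Set (List A))} (hF₁ : F₁.Finite) (hF₂ : F₂.Finite)
    (hc₁ : ∀ q ∈ F₁, ∀ w : List A, lq w q ∈ F₁) (hc₂ : ∀ q ∈ F₂, ∀ w : List A, lq w q ∈ F₂)
    {z : List A} (h₁ : IsMin F₁ z) (h₂ : IsMin F₂ z) (a b : List A) :
    ∃ m, 1 ≤ m ∧ Rich F₁ (pw (a ++ z ++ b) m) ∧ Rich F₂ (pw (a ++ z ++ b) m) := by
  have hF := hF₁.union hF₂
  have hc : ∀ q ∈ F₁ ∪ F₂, ∀ w : List A, lq w q ∈ F₁ ∪ F₂ := by
    rintro q (hq | hq) w
    · exact Or.inl (hc₁ q hq w)
    · exact Or.inr (hc₂ q hq w)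
  obtain ⟨m, hm, hid⟩ := exists_idem_pow hF hc (a ++ z ++ b)
  obtain ⟨m', rfl⟩ : ∃ m', m = m' + 1 := ⟨m - 1, by omega⟩
  refine ⟨m' + 1, hm, ⟨?_, ?_⟩, ⟨?_, ?_⟩⟩
  · rw [pw_succ]
    simpa using (h₁.factor hF₁ hc₁ a b).factor hF₁ hc₁ [] (pw (a ++ z ++ b) m')
  · rw [← pw_add]
    exact fun q hq => hid q (Or.inl hq)
  · rw [pw_succ]
    simpa using (h₂.factor hF₂ hc₂ a b).factor hF₂ hc₂ [] (pw (a ++ z ++ b) m')
  · rw [← pw_add]
    exact fun q hq => hid q (Or.inr hq)

/-- In a star free language, `z u z` acts as `z`, for `z` rich on its quotients. -/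
theorem rich_sandwich {X : Set (List A)} (hX : HeightLE 0 X) {Fs : Set (Set (List A))}
    (hF : Fs.Finite) (hcl : ∀ q ∈ Fs, ∀ w : List A, lq w q ∈ Fs) (hXF : ∀ a, lq a X ∈ Fs)
    {z : List A} (hz : Rich Fs z) (u a : List A) :
    lq (z ++ u ++ z) (lq a X) = lq z (lq a X) := by
  set w := z ++ u ++ z with hw
  obtain ⟨p, hp, hpe⟩ := exists_pow_eq hF hcl hz u
  obtain ⟨N, hN⟩ := pump_height0 w hX
  have h1 : ∀ k, TEq Fs (pw w (p * (k + 1))) z := by
    intro k
    induction k with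
    | zero =>
      rw [zero_add, mul_one]
      exact hpe
    | succ k ih =>
      have e : p * (k + 1 + 1) = p * (k + 1) + p := by ring
      rw [e, pw_add]
      exact ((ih.append_right _).trans (hpe.append_left hcl z)).trans hz.2
  set m := p * (N + 1) with hm
  have hmN : N ≤ m := by nlinarith
  have h2 : TEq Fs (pw w m) z := h1 N
  have hq := hXF a
  have h3 : lq (pw w m) (lq a X) = lq (pw w (m + 1)) (lq a X) := by
    ext b
    simpa using hN m hmN a b
  have h4 : TEq Fs (pw w (m + 1)) w := by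
    rw [pw_succ']
    have e : z ++ w = (z ++ z) ++ (u ++ z) := by rw [hw]; simp
    have e2 : w = z ++ (u ++ z) := by rw [hw]; simp
    refine (h2.append_right w).trans ?_
    rw [e]
    conv_rhs => rw [e2]
    exact hz.2.append_right _
  rw [← h4 _ hq, ← h3, h2 _ hq]

/-- The star carrying the group. -/
theorem exists_stardata [Finite T] [IsSimpleGroup T] (hT : ∃ a b : T, a * b ≠ b * a)
    (φ : A → T) (hφ : Subgroup.closure (Set.range φ) = ⊤) (S : Set T) (hS1 : S.Nonempty)
    (hS2 : S ≠ Set.univ) (h : HeightLE 1 {w : List A | (w.map φ).prod ∈ S}) :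
    ∃ (X : Set (List A)) (z : List A), HeightLE 0 X ∧ StarData (kstarL X) z ∧ wval φ z = 1 ∧
      (∀ v w, (∀ x, lq (x ++ z ++ v ++ z) (kstarL X) = lq (x ++ z ++ w ++ z) (kstarL X)) →
        wval φ v = wval φ w) ∧
      ∀ u a, lq (z ++ u ++ z) (lq a X) = lq z (lq a X) := by
  classical
  obtain ⟨E, hE, hElang⟩ := h
  have hsurj := wval_surj φ hφ
  let ι := {Q : GRE A // Q ∈ stars E}
  haveI : Finite ι := (List.finite_toSet (stars E)).to_subtype
  let 𝓛 : ι → Set (List A) := fun i => kstarL i.1.lang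
  let 𝓜 : ι → Set (List A) := fun i => i.1.lang
  have hfin : ∀ i, QFin (𝓛 i) := fun i => qfin_kstar (qfin_lang _)
  have hfinM : ∀ i, QFin (𝓜 i) := fun i => qfin_lang _
  have hF := famOf_finite hfin
  have hcl := famOf_closed (𝓛 := 𝓛)
  have hFM := famOf_finite hfinM
  have hclM := famOf_closed (𝓛 := 𝓜)
  have hid : ∀ u, TEq (FamOf 𝓛) (u ++ u) u → wval φ u = 1 := by
    intro u hu
    have hp : ∃ N, Pump1 u E.lang N :=
      pump_lang u E (fun Q hQ => ⟨1, pump_of_teq (fun a => lq_mem_famOf (𝓛 := 𝓛) ⟨Q, hQ⟩ a) hu⟩)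
    obtain ⟨N, hN⟩ := hp
    rw [hElang] at hN
    exact val_one_of_pump φ hsurj S hS1 hS2 hN
  obtain ⟨y₁, hy₁⟩ := exists_rich hF hcl
  obtain ⟨y₂, hy₂⟩ := exists_rich hFM hclM
  obtain ⟨m₀, -, hz₀, hz₀M⟩ := exists_rich_two hF hFM hcl hclM
    (by simpa using hy₁.1.factor hF hcl [] y₂)
    (by simpa using hy₂.1.factor hFM hclM y₁ []) [] ([] : List A)
  generalize pw ([] ++ (y₁ ++ y₂) ++ []) m₀ = z₀ at hz₀ hz₀M
  obtain ⟨i, hi⟩ := exists_single hz₀ hfin (wval_append φ) (wval_nil φ) hsurj hid hT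
  have hdense : ∃ a b, a ++ z₀ ++ b ∈ 𝓛 i := by
    by_contra hno
    push Not at hno
    have hempty : ∀ v, Tf 𝓛 z₀ i v = fun _ => ∅ := by
      intro v
      funext x
      ext y
      simp only [Tf, mem_lq, Set.mem_empty_iff_false, iff_false]
      intro hy
      apply hno x (v ++ z₀ ++ y)
      simpa [List.append_assoc] using hy
    have hall : ∀ v, wval φ v = 1 := fun v => hi v [] (by rw [hempty, hempty])
    obtain ⟨a, b, hab⟩ := hT
    apply hab
    obtain ⟨v, rfl⟩ := hsurj a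
    obtain ⟨w, rfl⟩ := hsurj b
    rw [hall v, hall w]
  obtain ⟨a, b, hab⟩ := hdense
  obtain ⟨m, hm, hrich, hrichM⟩ := exists_rich_two hF hFM hcl hclM hz₀.1 hz₀M.1 a b
  have hz₁mem : pw (a ++ z₀ ++ b) m ∈ 𝓛 i := pw_mem_kstar hab m
  have hz₁v : wval φ (pw (a ++ z₀ ++ b) m) = 1 := hid _ hrich.2
  generalize pw (a ++ z₀ ++ b) m = z₁ at hz₁mem hz₁v hrich hrichM
  have hXh0 : HeightLE 0 i.1.lang := ⟨i.1, by simp [stars_height E hE i.1 i.2], rfl⟩
  refine ⟨i.1.lang, z₁, hXh0, ?_, hz₁v, ?_, ?_⟩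
  · refine
      { zmem := hz₁mem
        one := nil_mem_kstar _
        app := fun u v hu hv => kstar_append hu hv
        fin := hfin i
        hzz := fun x => ?_
        hinv := fun u => ?_ }
    · have := hrich.2 (lq x (𝓛 i)) (lq_mem_famOf (𝓛 := 𝓛) i x)
      rw [← lq_append, ← lq_append] at this
      simpa [List.append_assoc] using this
    · obtain ⟨u', hu'⟩ := exists_Tf_rinv hrich hfin u
      refine ⟨u', fun x => ?_⟩
      have := congrFun (hu' i) x
      simpa [Tf] using this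
  · intro v w h
    have h1 := hi (z₁ ++ v ++ z₁) (z₁ ++ w ++ z₁) (by
      funext x
      have h2 := h (x ++ z₀)
      simp only [Tf]
      have e1 : ∀ y, x ++ z₀ ++ (z₁ ++ y ++ z₁) ++ z₀ = (x ++ z₀ ++ z₁ ++ y ++ z₁) ++ z₀ := by
        intro y; simp
      rw [e1, e1, lq_append, lq_append (x ++ z₀ ++ z₁ ++ w ++ z₁)]
      exact congrArg (lq z₀) h2)
    simpa [wval_append, hz₁v] using h1
  · intro u c
    exact rich_sandwich hXh0 hFM hclM (fun c => lq_mem_famOf (𝓛 := 𝓜) i c) hrichM u c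

namespace StarData

variable {L : Set (List A)} {z : List A} (hd : StarData L z)

include hd in
/-- No word of `X` contains the rich word `z` as a factor (the group being nontrivial). -/
theorem no_factor (φ : A → T) {X : Set (List A)} (hL : L = kstarL X)
    (hsand : ∀ u a, lq (z ++ u ++ z) (lq a X) = lq z (lq a X))
    (π : hd.H →* T) (hπ : ∀ w, π (hd.tau w) = wval φ w) (hne : ∃ w, wval φ w ≠ 1) (a b : List A) :
    a ++ z ++ b ∉ X := by
  intro hab
  have hb : b ∈ lq z (lq a X) := by simpa [mem_lq, List.append_assoc] using hab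
  have hfix : ∀ u, hd.Pm b (hd.Pm u (hd.Pm a hd.S₀)) = hd.S₀ := by
    intro u
    have h1 : b ∈ lq (z ++ u ++ z) (lq a X) := by rw [hsand]; exact hb
    have h2 : a ++ (z ++ u ++ z) ++ b ∈ X := by simpa [mem_lq, List.append_assoc] using h1
    have h3 : a ++ (z ++ u ++ z) ++ b ∈ L := by
      rw [hL]; exact mem_kstar_of_mem h2
    have h4 : z ++ (a ++ z ++ (u ++ z ++ b)) ++ z ∈ L := by
      have := hd.app _ _ (hd.app _ _ hd.zmem h3) hd.zmem
      simpa [List.append_assoc] using this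
    have h5 := (hd.hub _).mp h4
    rw [hd.Pm_mul, hd.Pm_mul, Equiv.Perm.mul_apply, Equiv.Perm.mul_apply] at h5
    exact h5
  have hfix' : ∀ u, hd.Pm u (hd.Pm a hd.S₀) = hd.Pm a hd.S₀ := by
    intro u
    have h1 := hfix u
    have h2 := hfix []
    rw [hd.Pm_nil, Equiv.Perm.one_apply] at h2
    exact (hd.Pm b).injective (h1.trans h2.symm)
  obtain ⟨a', ha'⟩ := hd.hinv a
  have h6 : hd.Pm a' (hd.Pm a hd.S₀) = hd.S₀ := by
    rw [← Equiv.Perm.mul_apply, hd.Pm_inv ha']; rfl
  have h7 : hd.Pm a hd.S₀ = hd.S₀ := (hfix' a').symm.trans h6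
  have h8 : ∀ u, hd.Pm u hd.S₀ = hd.S₀ := by
    intro u
    have := hfix' u
    rwa [h7] at this
  have h9 : ∀ q : Orb L z, q = hd.S₀ := by
    intro q
    obtain ⟨c, rfl⟩ := hd.exists_Pm_S₀ q
    exact h8 c
  obtain ⟨w, hw⟩ := hne
  apply hw
  have h10 : hd.Pm w = 1 := by
    ext1 q
    rw [h9 q, h8 w]
    rfl
  have h11 : hd.tau w = 1 := by
    apply Subtype.ext
    show (hd.Pm w)⁻¹ = 1
    rw [h10, inv_one]
  rw [← hπ, h11, map_one]

include hd in
/-- Every factorization of a word of the star has a cut inside every occurrence of `z`. -/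
theorem forced_cut {X : Set (List A)} (hL : L = kstarL X) (hno : ∀ a b, a ++ z ++ b ∉ X)
    (p w : List A) (h : p ++ z ++ w ∈ kstarL X) :
    ∃ z₁ z₂, z = z₁ ++ z₂ ∧ p ++ z₁ ∈ kstarL X ∧ z₂ ++ w ∈ kstarL X := by
  obtain ⟨l, hl, hfl⟩ := h
  rcases cut_or_cover l p z w hl hfl with h1 | ⟨p₀, p₁, w₁, w₂, -, -, -, -, h₃⟩
  · exact h1
  · exact absurd h₃ (hno p₁ w₁)

end StarData

end Simple
end Vale.Agent.Lib.P329
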