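import Mathlib

/-!
A normal subgroup with simple quotient which is transitive: elements outside the subgroup have large
support.
-/

namespace Vale.Agent.Lib.P329
namespace Simple

section Comm

variable {T : Type} [Group T] [IsSimpleGroup T]

/-- In a nonabelian simple group a nontrivial element does not commute with all its conjugates. -/
theorem exists_noncomm_conj (hT : ∃ a b : T, a * b ≠ b * a) {t : T} (ht : t ≠ 1) :
    ∃ b : T, t * (b * t * b⁻¹) ≠ (b * t * b⁻¹) * t := by
  by_contra hno
  push Not at hno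
  let C : Subgroup T :=
    { carrier := {x | ∀ b : T, x * (b * t * b⁻¹) = (b * t * b⁻¹) * x}
      mul_mem' := by
        intro x y hx hy b
        rw [mul_assoc, hy b, ← mul_assoc, hx b, mul_assoc]
      one_mem' := by intro b; simp
      inv_mem' := by
        intro x hx b
        have h := hx b
        show x⁻¹ * (b * t * b⁻¹) = (b * t * b⁻¹) * x⁻¹
        calc x⁻¹ * (b * t * b⁻¹) = x⁻¹ * ((b * t * b⁻¹) * x) * x⁻¹ := by group
          _ = x⁻¹ * (x * (b * t * b⁻¹)) * x⁻¹ := by rw [h]
          _ = (b * t * b⁻¹) * x⁻¹ := by group }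
  have hCn : C.Normal := by
    refine ⟨fun x hx g b => ?_⟩
    have h1 := hx (g⁻¹ * b)
    have e : g⁻¹ * b * t * (g⁻¹ * b)⁻¹ = g⁻¹ * (b * t * b⁻¹) * g := by group
    rw [e] at h1
    calc g * x * g⁻¹ * (b * t * b⁻¹) = g * (x * (g⁻¹ * (b * t * b⁻¹) * g)) * g⁻¹ := by group
      _ = g * ((g⁻¹ * (b * t * b⁻¹) * g) * x) * g⁻¹ := by rw [h1]
      _ = b * t * b⁻¹ * (g * x * g⁻¹) := by group
  have htC : t ∈ C := fun b => hno b
  have hCtop : C = ⊤ := by
    rcases IsSimpleGroup.eq_bot_or_eq_top_of_normal C hCn with hb | ht'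
    · exfalso
      rw [hb, Subgroup.mem_bot] at htC
      exact ht htC
    · exact ht'
  have hcen : t ∈ Subgroup.center T := by
    rw [Subgroup.mem_center_iff]
    intro x
    have hx : x ∈ C := by rw [hCtop]; trivial
    have := hx 1
    simpa using this
  rcases IsSimpleGroup.eq_bot_or_eq_top_of_normal (Subgroup.center T) inferInstance with hb | ht'
  · rw [hb, Subgroup.mem_bot] at hcen
    exact ht hcen
  · obtain ⟨a, b, hab⟩ := hT
    have : a ∈ Subgroup.center T := by rw [ht']; trivial
    rw [Subgroup.mem_center_iff] at this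
    exact hab (this b).symm

end Comm

section Supp

variable {O : Type}

/-- The support of a permutation. -/
def mvd (g : Equiv.Perm O) : Set O := {q | g q ≠ q}

theorem mvd_conj (g h : Equiv.Perm O) : mvd (h * g * h⁻¹) = h '' mvd g := by
  ext q
  constructor
  · intro hq
    refine ⟨h⁻¹ q, ?_, by simp⟩
    intro e
    apply hq
    rw [Equiv.Perm.mul_apply, Equiv.Perm.mul_apply, e]
    simp
  · rintro ⟨r, hr, rfl⟩
    intro e
    apply hr
    simpa [Equiv.Perm.mul_apply] using e

/-- The support of a commutator. -/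
theorem mvd_comm_subset (a b : Equiv.Perm O) :
    mvd (a * b * a⁻¹ * b⁻¹) ⊆ (mvd a ∩ mvd b) ∪ a '' (mvd a ∩ mvd b) ∪ b '' (mvd a ∩ mvd b) := by
  intro x hx
  by_contra hno
  simp only [Set.mem_union, not_or] at hno
  obtain ⟨⟨h1, h2⟩, h3⟩ := hno
  apply hx
  show (a * b * a⁻¹ * b⁻¹) x = x
  simp only [Equiv.Perm.mul_apply]
  by_cases hxb : x ∈ mvd b
  · -- then `x` is fixed by `a`
    have hxa : a x = x := by
      by_contra hne
      exact h1 ⟨hne, hxb⟩
    have hy : a⁻¹ (b⁻¹ x) = b⁻¹ x := by
      by_contra hne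
      apply h3
      refine ⟨b⁻¹ x, ⟨?_, ?_⟩, by simp⟩
      · intro e
        apply hne
        conv_lhs => rw [← e]
        simp
      · intro e
        apply hxb
        have e3 : b⁻¹ x = x := by
          have : b (b⁻¹ x) = x := by simp
          rw [e] at this
          exact this
        have e4 : b x = x := by
          conv_lhs => rw [← e3]
          simp
        exact e4
    rw [hy]
    simp [hxa]
  · have hxb' : b x = x := by
      by_contra hne
      exact hxb hne
    have hbinv : b⁻¹ x = x := by
      conv_lhs => rw [← hxb']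
      simp
    rw [hbinv]
    by_cases hxa : a x = x
    · have e4 : a⁻¹ x = x := by
        conv_lhs => rw [← hxa]
        simp
      rw [e4, hxb', hxa]
    · have hy : b (a⁻¹ x) = a⁻¹ x := by
        by_contra hne
        apply h2
        refine ⟨a⁻¹ x, ⟨?_, hne⟩, by simp⟩
        intro e
        apply hxa
        have e2 : a (a⁻¹ x) = x := by simp
        rw [e] at e2
        have e3 : a x = x := by
          conv_lhs => rw [← e2]
          simp
        exact e3
      rw [hy]
      simp

end Supp

section Main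

variable {O T : Type} [Finite O] [Group T] [IsSimpleGroup T]

/-- Transitive normal subgroup with nonabelian simple quotient: every element outside it moves at
least a third of the points. -/
theorem support_bound (hT : ∃ a b : T, a * b ≠ b * a) (H : Subgroup (Equiv.Perm O)) (π : H →* T)
    (hπ : Function.Surjective π)
    (htr : ∀ p r : O, ∃ k : H, π k = 1 ∧ (k : Equiv.Perm O) p = r) (h : H) (hh : π h ≠ 1) :
    Nat.card O ≤ 3 * (mvd (h : Equiv.Perm O)).ncard := by
  classical
  haveI : Fintype O := Fintype.ofFinite O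
  -- a minimal element
  let P : ℕ → Prop := fun n => ∃ g : H, π g ≠ 1 ∧ (mvd (g : Equiv.Perm O)).ncard = n
  have hP : ∃ n, P n := ⟨_, h, hh, rfl⟩
  obtain ⟨g, hg, hgn⟩ := Nat.find_spec hP
  have hmin : ∀ g' : H, π g' ≠ 1 → (mvd (g : Equiv.Perm O)).ncard ≤ (mvd (g' : Equiv.Perm O)).ncard := by
    intro g' hg'
    rw [hgn]
    exact Nat.find_min' hP ⟨g', hg', rfl⟩
  suffices hs : Nat.card O ≤ 3 * (mvd (g : Equiv.Perm O)).ncard from
    hs.trans (Nat.mul_le_mul_left 3 (hmin h hh))
  set S := mvd (g : Equiv.Perm O) with hS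
  set s := S.ncard with hs
  obtain ⟨b, hb⟩ := exists_noncomm_conj hT hg
  obtain ⟨h₀, hh₀⟩ := hπ b
  -- the kernel as a finite type
  let K : Subgroup H := π.ker
  haveI : Finite H := Subtype.finite
  haveI : Fintype K := Fintype.ofFinite K
  haveI : Fintype H := Fintype.ofFinite H
  let act : K → Equiv.Perm O := fun k => ((k : H) : Equiv.Perm O)
  have hactmul : ∀ k₁ k₂ : K, act (k₁ * k₂) = act k₁ * act k₂ := fun _ _ => rfl
  have hktr : ∀ p r : O, ∃ k : K, act k p = r := by
    intro p r
    obtain ⟨k, hk, hkr⟩ := htr p r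
    exact ⟨⟨k, hk⟩, hkr⟩
  -- fibres of the orbit maps have the same size
  let fib : O → O → Finset K := fun r y => Finset.univ.filter fun k => act k r = y
  have hfib : ∀ r y y', (fib r y).card = (fib r y').card := by
    intro r y y'
    obtain ⟨k₀, hk₀⟩ := hktr y y'
    obtain ⟨k₁, hk₁⟩ := hktr y' y
    refine le_antisymm ?_ ?_
    · refine Finset.card_le_card_of_injOn (fun k => k₀ * k) ?_ ?_
      · intro k hk
        have hk2 : act k r = y := (Finset.mem_filter.mp hk).2
        refine Finset.mem_filter.mpr ⟨Finset.mem_univ _, ?_⟩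
        rw [hactmul, Equiv.Perm.mul_apply, hk2, hk₀]
      · intro k _ k' _ e
        exact mul_left_cancel e
    · refine Finset.card_le_card_of_injOn (fun k => k₁ * k) ?_ ?_
      · intro k hk
        have hk2 : act k r = y' := (Finset.mem_filter.mp hk).2
        refine Finset.mem_filter.mpr ⟨Finset.mem_univ _, ?_⟩
        rw [hactmul, Equiv.Perm.mul_apply, hk2, hk₁]
      · intro k _ k' _ e
        exact mul_left_cancel e
  have hfibsum : ∀ r y, (fib r y).card * Fintype.card O = Fintype.card K := by
    intro r y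
    have h1 : Fintype.card K = ∑ y', (fib r y').card := by
      rw [← Finset.card_univ]
      exact Finset.card_eq_sum_card_fiberwise (fun k _ => Finset.mem_univ (act k r))
    rw [h1, Finset.sum_congr rfl (fun y' _ => hfib r y' y), Finset.sum_const, Finset.card_univ,
      smul_eq_mul, mul_comm]
  -- choose a conjugator with small overlap
  let h₀p : Equiv.Perm O := (h₀ : Equiv.Perm O)
  let Sf : Finset O := S.toFinite.toFinset
  have hSf : ∀ q, q ∈ Sf ↔ q ∈ S := fun q => by simp [Sf]
  have hSfcard : Sf.card = s := by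
    rw [hs, Set.ncard_eq_toFinset_card S S.toFinite]
  let ov : K → ℕ := fun k => (Sf.filter fun p => (h₀p * act k)⁻¹ p ∈ S).card
  have hsum : ∑ k : K, ov k * Fintype.card O = s * s * Fintype.card K := by
    have h1 : ∀ k : K, ov k = ∑ p ∈ Sf, ∑ r ∈ Sf, if (h₀p * act k) r = p then 1 else 0 := by
      intro k
      rw [show ov k = ∑ p ∈ Sf, if (h₀p * act k)⁻¹ p ∈ S then 1 else 0 from
        Finset.card_filter _ _]
      refine Finset.sum_congr rfl (fun p _ => ?_)
      by_cases hp : (h₀p * act k)⁻¹ p ∈ S
      · rw [if_pos hp]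
        rw [Finset.sum_eq_single ((h₀p * act k)⁻¹ p)]
        · simp
        · intro r _ hr
          rw [if_neg]
          intro e
          apply hr
          rw [← e]
          simp
        · intro hn
          exact absurd ((hSf _).mpr hp) hn
      · rw [if_neg hp]
        symm
        apply Finset.sum_eq_zero
        intro r hr
        rw [if_neg]
        intro e
        apply hp
        rw [← e]
        simpa using (hSf _).mp hr
    have h2 : ∑ k : K, ov k = ∑ p ∈ Sf, ∑ r ∈ Sf, (fib r (h₀p⁻¹ p)).card := by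
      simp_rw [h1]
      rw [Finset.sum_comm]
      refine Finset.sum_congr rfl (fun p _ => ?_)
      rw [Finset.sum_comm]
      refine Finset.sum_congr rfl (fun r _ => ?_)
      rw [show (fib r (h₀p⁻¹ p)).card = ∑ k : K, if act k r = h₀p⁻¹ p then 1 else 0 from
        Finset.card_filter _ _]
      refine Finset.sum_congr rfl (fun k _ => ?_)
      have : (h₀p * act k) r = p ↔ act k r = h₀p⁻¹ p := by
        rw [Equiv.Perm.mul_apply]
        constructor
        · intro e; rw [← e]; simp
        · intro e; rw [e]; simp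
      simp only [this]
    rw [← Finset.sum_mul, h2, Finset.sum_mul]
    have h3 : ∀ p ∈ Sf, (∑ r ∈ Sf, (fib r (h₀p⁻¹ p)).card) * Fintype.card O = s * Fintype.card K := by
      intro p _
      rw [Finset.sum_mul, Finset.sum_congr rfl (fun r _ => hfibsum r (h₀p⁻¹ p)), Finset.sum_const,
        hSfcard, smul_eq_mul]
    rw [Finset.sum_congr rfl h3, Finset.sum_const, hSfcard, smul_eq_mul, mul_assoc]
  haveI : Nonempty K := ⟨1⟩
  have hKpos : 0 < Fintype.card K := Fintype.card_pos
  obtain ⟨k, hk⟩ : ∃ k : K, ov k * Fintype.card O ≤ s * s := by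
    by_contra hno
    push Not at hno
    have h4 : ∑ k : K, (s * s + 1) ≤ ∑ k : K, ov k * Fintype.card O :=
      Finset.sum_le_sum (fun k _ => hno k)
    rw [hsum, Finset.sum_const, Finset.card_univ, smul_eq_mul] at h4
    nlinarith
  -- the commutator
  let c : H := h₀ * (k : H)
  have hc : π c = b := by
    show π (h₀ * (k : H)) = b
    have hk' : π (k : H) = 1 := k.2
    rw [map_mul, hh₀, hk', mul_one]
  let g₁ : H := c * g * c⁻¹
  let y : H := g * g₁ * g⁻¹ * g₁⁻¹
  have hy : π y ≠ 1 := by
    show π (g * g₁ * g⁻¹ * g₁⁻¹) ≠ 1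
    have e : π g₁ = b * π g * b⁻¹ := by
      show π (c * g * c⁻¹) = _
      rw [map_mul, map_mul, map_inv, hc]
    rw [map_mul, map_mul, map_mul, map_inv, map_inv, e]
    intro h5
    apply hb
    have h6 : π g * (b * π g * b⁻¹) * (π g)⁻¹ = b * π g * b⁻¹ := by
      rw [mul_inv_eq_one] at h5
      exact h5
    rw [mul_inv_eq_iff_eq_mul] at h6
    exact h6
  have hcperm : ((c : H) : Equiv.Perm O) = h₀p * act k := rfl
  have hg₁ : mvd (g₁ : Equiv.Perm O) = (h₀p * act k) '' S := by
    show mvd (((c : H) : Equiv.Perm O) * (g : Equiv.Perm O) * ((c : H) : Equiv.Perm O)⁻¹) = _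
    rw [mvd_conj, hcperm]
  -- the overlap
  set I := S ∩ mvd (g₁ : Equiv.Perm O) with hI
  have hIcard : I.ncard = ov k := by
    have : I = ↑(Sf.filter fun p => (h₀p * act k)⁻¹ p ∈ S) := by
      ext p
      simp only [hI, Set.mem_inter_iff, hg₁, Finset.coe_filter, Set.mem_ofPred_eq, hSf]
      constructor
      · rintro ⟨h1, r, hr, rfl⟩
        exact ⟨h1, by simpa using hr⟩
      · rintro ⟨h1, h2⟩
        exact ⟨h1, _, h2, by simp⟩
    rw [this, Set.ncard_coe_finset]
  have hysub : mvd (y : Equiv.Perm O) ⊆ I ∪ (g : Equiv.Perm O) '' I ∪ (g₁ : Equiv.Perm O) '' I :=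
    mvd_comm_subset (g : Equiv.Perm O) (g₁ : Equiv.Perm O)
  have hycard : (mvd (y : Equiv.Perm O)).ncard ≤ 3 * I.ncard := by
    have h7 := Set.ncard_le_ncard hysub (Set.toFinite _)
    have h8 := Set.ncard_union_le (I ∪ (g : Equiv.Perm O) '' I) ((g₁ : Equiv.Perm O) '' I)
    have h9 := Set.ncard_union_le I ((g : Equiv.Perm O) '' I)
    have h10 : ((g : Equiv.Perm O) '' I).ncard = I.ncard :=
      Set.ncard_image_of_injective _ (Equiv.injective _)
    have h11 : ((g₁ : Equiv.Perm O) '' I).ncard = I.ncard :=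
      Set.ncard_image_of_injective _ (Equiv.injective _)
    omega
  have hfinal := hmin y hy
  rw [Nat.card_eq_fintype_card]
  have hspos : 0 < s := by
    by_contra h0
    have hs0 : s = 0 := by omega
    have hSe : S = ∅ := by
      rw [hs] at hs0
      exact (Set.ncard_eq_zero S.toFinite).mp hs0
    apply hg
    have : (g : Equiv.Perm O) = 1 := by
      ext q
      by_contra hq
      have : q ∈ S := hq
      rw [hSe] at this
      exact this
    have hg1 : g = 1 := Subtype.ext this
    rw [hg1, map_one]
  rw [hIcard] at hycard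
  have h12 : s ≤ 3 * ov k := hfinal.trans hycard
  have h13 : s * Fintype.card O ≤ 3 * (s * s) := by
    calc s * Fintype.card O ≤ 3 * ov k * Fintype.card O := Nat.mul_le_mul_right _ h12
      _ = 3 * (ov k * Fintype.card O) := by ring
      _ ≤ 3 * (s * s) := Nat.mul_le_mul_left _ hk
  have h14 : s * Fintype.card O ≤ s * (3 * s) := by
    calc s * Fintype.card O ≤ 3 * (s * s) := h13
      _ = s * (3 * s) := by ring
  exact Nat.le_of_mul_le_mul_left h14 hspos

end Main

end Simple
end Vale.Agent.Lib.P329
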