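import Vale.Agent.Lib.P329.Simple6
import Vale.Agent.Lib.P329.SimpleSupp
import Vale.Agent.Lib.P329.Hub

/-!
The coset automaton of the values of the star has a hub; the reduction theorem for simple groups.
-/

namespace Vale.Agent.Lib.P329
namespace Simple

variable {A T : Type} [Group T]

section Sink

variable {Q : Type} [DecidableEq Q] (δ : A → Q → Q) (v : Q)

theorem run_sink_v (w : List A) : run (sinkAt δ v) v w = v := by
  induction w with
  | nil => rfl
  | cons x w ih =>
    rw [run_cons]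
    have : sinkAt δ v x v = v := by simp [sinkAt]
    rw [this, ih]

theorem run_sink_eq_or (w : List A) (c : Q) :
    run (sinkAt δ v) c w = run δ c w ∨ run (sinkAt δ v) c w = v := by
  induction w generalizing c with
  | nil => left; rfl
  | cons x w ih =>
    rw [run_cons, run_cons]
    by_cases hc : c = v
    · right
      subst hc
      have : sinkAt δ c x c = c := by simp [sinkAt]
      rw [this, run_sink_v]
    · have : sinkAt δ v x c = δ x c := by simp [sinkAt, hc]
      rw [this]
      exact ih _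

theorem iterate_run (u : List A) (k : ℕ) (c : Q) :
    (fun x => run δ x u)^[k] c = run δ c (pw u k) := by
  induction k with
  | zero => simp [pw]
  | succ k ih =>
    rw [Function.iterate_succ_apply', ih, pw_succ', run_append]

/-- A criterion for a hub: the repeated run of a word from any state is either fixed at once
or visits the hub. -/
theorem isHub_of_alt [Finite Q]
    (h : ∀ (u : List A) (c : Q), run δ c u = c ∨
      ∃ (i : ℕ) (u₁ u₂ : List A), u = u₁ ++ u₂ ∧ run δ c (pw u i ++ u₁) = v) : IsHub δ v := by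
  classical
  intro u
  set f : Q → Q := fun x => run (sinkAt δ v) x u with hf
  have hfv : f v = v := run_sink_v δ v u
  have key : ∀ c, ∃ k : ℕ, f c = c ∨ f^[k] c = v := by
    intro c
    rcases h u c with h1 | ⟨i, u₁, u₂, hs, h1⟩
    · rcases run_sink_eq_or δ v u c with h2 | h2
      · exact ⟨0, Or.inl (h2.trans h1)⟩
      · exact ⟨1, Or.inr h2⟩
    · have h2 : run (sinkAt δ v) c (pw u i ++ u₁) = v := by
        rcases run_sink_eq_or δ v (pw u i ++ u₁) c with h3 | h3
        · exact h3.trans h1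
        · exact h3
      refine ⟨i + 1, Or.inr ?_⟩
      rw [hf, iterate_run, pw_succ']
      conv_lhs => rw [show pw u i ++ u = (pw u i ++ u₁) ++ u₂ by
        rw [List.append_assoc, ← hs]]
      rw [run_append, h2, run_sink_v]
  choose k hk using key
  haveI : Fintype Q := Fintype.ofFinite Q
  refine ⟨Finset.univ.sup k, ?_⟩
  funext c
  have hle : k c ≤ Finset.univ.sup k := Finset.le_sup (Finset.mem_univ c)
  obtain ⟨e, he⟩ : ∃ e, Finset.univ.sup k = e + k c := ⟨Finset.univ.sup k - k c, by omega⟩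
  have hfix : ∀ m, f^[m] v = v := fun m => Function.iterate_fixed hfv m
  rcases hk c with h1 | h1
  · rw [Function.iterate_fixed h1, Function.iterate_fixed h1]
  · rw [he, Function.iterate_add_apply, h1, hfix,
      show e + k c + 1 = (e + 1) + k c by ring, Function.iterate_add_apply, h1, hfix]

end Sink

/-- The automaton on the cosets of a subgroup: reading the letter `x` multiplies by `(φ x)⁻¹` on the
left.  (Through `g T₀ ↦ T₀ g⁻¹` this is the right multiplication by `φ x` on the right cosets.) -/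
def cosetAut (φ : A → T) (T₀ : Subgroup T) : A → (T ⧸ T₀) → (T ⧸ T₀) := fun x c => (φ x)⁻¹ • c

/-- The coset of the subgroup itself. -/
def baseCoset (T₀ : Subgroup T) : T ⧸ T₀ := QuotientGroup.mk 1

/-- The coset automaton has the base coset as a hub: with the base coset turned into a sink,
the transition monoid is aperiodic. -/
def CosetHub (φ : A → T) (T₀ : Subgroup T) : Prop :=
  letI := Classical.decEq (T ⧸ T₀)
  IsHub (cosetAut φ T₀) (baseCoset T₀)

theorem cosetAut_run (φ : A → T) (T₀ : Subgroup T) (w : List A) (c : T ⧸ T₀) :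
    run (cosetAut φ T₀) c w = (wval φ w)⁻¹ • c := by
  induction w generalizing c with
  | nil => simp
  | cons x w ih =>
    rw [run_cons, ih]
    have : wval φ (x :: w) = φ x * wval φ w := by simp [wval]
    rw [this, mul_inv_rev, cosetAut, mul_smul]

/-- The coset alternative gives a hub. -/
theorem cosetHub_of_alt [Finite T] (φ : A → T) (T₀ : Subgroup T)
    (h : ∀ (g : T) (u : List A), g * wval φ u * g⁻¹ ∈ T₀ ∨
      ∃ (i : ℕ) (u₁ u₂ : List A), u = u₁ ++ u₂ ∧ g * wval φ u ^ i * wval φ u₁ ∈ T₀) :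
    CosetHub φ T₀ := by
  letI := Classical.decEq (T ⧸ T₀)
  show IsHub _ _
  apply isHub_of_alt
  intro u c
  induction c using QuotientGroup.induction_on with
  | H a =>
    rcases h a⁻¹ u with h1 | ⟨i, u₁, u₂, hs, h1⟩
    · left
      rw [cosetAut_run]
      show (QuotientGroup.mk ((wval φ u)⁻¹ * a) : T ⧸ T₀) = _
      apply QuotientGroup.eq.mpr
      have e : ((wval φ u)⁻¹ * a)⁻¹ * a = a⁻¹ * wval φ u * a⁻¹⁻¹ := by group
      rw [e]
      exact h1
    · right
      refine ⟨i, u₁, u₂, hs, ?_⟩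
      rw [cosetAut_run, wval_append, wval_pw]
      show (QuotientGroup.mk ((wval φ u ^ i * wval φ u₁)⁻¹ * a) : T ⧸ T₀) = QuotientGroup.mk 1
      apply QuotientGroup.eq.mpr
      have e : ((wval φ u ^ i * wval φ u₁)⁻¹ * a)⁻¹ * 1 = a⁻¹ * wval φ u ^ i * wval φ u₁ := by group
      rw [e]
      exact h1

/-- A hub on a proper coset automaton of a simple group: all languages of `φ` have height `≤ 1`. -/
theorem height_of_cosetHub [Finite A] [Finite T] [IsSimpleGroup T] (φ : A → T) (T₀ : Subgroup T)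
    (hne : T₀ ≠ ⊤) (hhub : CosetHub φ T₀) (S : Set T) :
    HeightLE 1 {w : List A | (w.map φ).prod ∈ S} := by
  classical
  letI dq := Classical.decEq (T ⧸ T₀)
  have hh : IsHub (cosetAut φ T₀) (baseCoset T₀) := hhub
  let F : T → (T ⧸ T₀) → (T ⧸ T₀) := fun g c => g⁻¹ • c
  have hFinj : Function.Injective F := by
    let act : T →* Equiv.Perm (T ⧸ T₀) := MulAction.toPermHom T (T ⧸ T₀)
    have hker : act.ker = ⊥ := by
      rcases IsSimpleGroup.eq_bot_or_eq_top_of_normal act.ker inferInstance with hb | ht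
      · exact hb
      · exfalso
        apply hne
        rw [eq_top_iff]
        intro g _
        have hg : g ∈ act.ker := by rw [ht]; trivial
        have h1 : act g = 1 := hg
        have h2 := congrFun (congrArg (fun p : Equiv.Perm (T ⧸ T₀) => (p : (T ⧸ T₀) → (T ⧸ T₀))) h1)
          (QuotientGroup.mk 1)
        have h3 : (QuotientGroup.mk (g * 1) : T ⧸ T₀) = QuotientGroup.mk 1 := h2
        have h4 := QuotientGroup.eq.mp h3
        have h5 := T₀.inv_mem h4
        simpa using h5
    have hinj : Function.Injective act := (MonoidHom.ker_eq_bot_iff act).mp hker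
    intro a b hab
    apply inv_injective
    apply hinj
    ext1 c
    exact congrFun hab c
  have hrun := hub_transformation hh (F '' S)
  convert hrun using 1
  ext w
  simp only [Set.mem_setOf_eq, Set.mem_image]
  have e : (fun x => run (cosetAut φ T₀) x w) = F (wval φ w) := by
    funext c
    exact cosetAut_run φ T₀ w c
  rw [e]
  constructor
  · intro h
    exact ⟨_, h, rfl⟩
  · rintro ⟨g, hg, hgF⟩
    have := hFinj hgF
    rw [this] at hg
    exact hg

/-- The structure carried by a star.  Here `X` is a language, `T₀` is the set of values of the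
words of the star of `X`, `O` is the orbit with base point `S₀`, `z` is a word of the star, `H`
a group of permutations of `O`, `π` a homomorphism from `H` to the group `T` and `τ` a map from words
to `H`. -/
structure StarCarrier (φ : A → T) (X : Set (List A)) (T₀ : Subgroup T) (O : Type) (S₀ : O)
    (z : List A) (H : Subgroup (Equiv.Perm O)) (π : H →* T) (τ : List A → H) : Prop where
  /-- `T₀` is exactly the set of values of the words of the star. -/
  values : ∀ g, g ∈ T₀ ↔ ∃ y ∈ kstarL X, (y.map φ).prod = g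
  /-- The word `z` lies in the star. -/
  z_mem : z ∈ kstarL X
  /-- `τ` sends the empty word to the identity. -/
  tau_nil : τ [] = 1
  /-- `τ` is multiplicative across the separator `z`. -/
  tau_mul : ∀ v w, τ (v ++ z ++ w) = τ v * τ w
  /-- `τ` is onto `H`. -/
  tau_surj : ∀ h, ∃ w, τ w = h
  /-- The value of a word is determined by its permutation, through `π`. -/
  pi_tau : ∀ w, π (τ w) = (w.map φ).prod
  /-- `π` is onto `T`. -/
  pi_surj : Function.Surjective π
  /-- `H` is transitive on `O`. -/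
  transitive : ∀ q : O, ∃ w, ((τ w : Equiv.Perm O)⁻¹) S₀ = q
  /-- Membership of `z w z` in the star is the stabilizer of the base point. -/
  hub : ∀ w, z ++ w ++ z ∈ kstarL X ↔ ((τ w : Equiv.Perm O)⁻¹) S₀ = S₀
  /-- Long runs of a power of a word are constant or start from a cut. -/
  runs : ∀ (u : List A) (q : O), ∃ N, ∀ j, N ≤ j →
    ((τ (pw u (j + 1)) : Equiv.Perm O)⁻¹) q = ((τ (pw u j) : Equiv.Perm O)⁻¹) q ∨
    ∃ i j' u₁ u₂, u = u₁ ++ u₂ ∧ i + j' + 1 = j ∧
      ((τ (pw u j) : Equiv.Perm O)⁻¹) q = ((τ (u₂ ++ pw u j') : Equiv.Perm O)⁻¹) S₀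
  /-- The coset automaton of `T₀` has its base coset as a hub. -/
  coset_hub : CosetHub φ T₀
  /-- If the star takes all values, the kernel of `π` is transitive on `O`. -/
  kernel : T₀ = ⊤ → ∀ q : O, ∃ k : H, π k = 1 ∧ ((k : Equiv.Perm O)⁻¹) S₀ = q
  /-- With an involution letter the star takes all values. -/
  involution : ∀ x, φ x ≠ 1 → φ x * φ x = 1 → T₀ = ⊤
  /-- Two words with the same syntactic class for the star have the same value: `φ` factors through
  the syntactic monoid of the star. -/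
  synt : ∀ u v, (∀ x y, x ++ u ++ y ∈ kstarL X ↔ x ++ v ++ y ∈ kstarL X) →
    (u.map φ).prod = (v.map φ).prod
  /-- Forced cuts: every factorization over `X` of a word of the star has a cut inside `z`. -/
  forced_cut : ∀ p w, p ++ z ++ w ∈ kstarL X →
    ∃ z₁ z₂, z = z₁ ++ z₂ ∧ p ++ z₁ ∈ kstarL X ∧ z₂ ++ w ∈ kstarL X
  /-- If the star takes all values, each permutation outside the kernel moves at least a third of
  the points of `O`. -/
  kernel_support : T₀ = ⊤ → ∀ h : H, π h ≠ 1 → Nat.card O ≤ 3 * (mvd (h : Equiv.Perm O)).ncard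
  /-- If the star takes all values, the run of the base point along the powers of a word `u` with
  nontrivial value, read from the cuts inside `u`, covers at least a third of the points of `O`. -/
  run_support : T₀ = ⊤ → ∀ u : List A, (u.map φ).prod ≠ 1 →
    Nat.card O ≤ 3 * {q : O | ∃ (j : ℕ) (u₁ u₂ : List A), u = u₁ ++ u₂ ∧
      q = ((τ (u₂ ++ pw u j) : Equiv.Perm O)⁻¹) S₀}.ncard

/-- The run of the base point covers a third of the points. -/
theorem run_support_aux {O : Type} [Finite O] {S₀ : O} {H : Subgroup (Equiv.Perm O)} {π : H →* T}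
    {τ : List A → H} {φ : A → T}
    (hπ : ∀ w, π (τ w) = (w.map φ).prod)
    (hsup : ∀ h : H, π h ≠ 1 → Nat.card O ≤ 3 * (mvd (h : Equiv.Perm O)).ncard)
    (hruns : ∀ (u : List A) (q : O), ∃ N, ∀ j, N ≤ j →
      ((τ (pw u (j + 1)) : Equiv.Perm O)⁻¹) q = ((τ (pw u j) : Equiv.Perm O)⁻¹) q ∨
      ∃ i j' u₁ u₂, u = u₁ ++ u₂ ∧ i + j' + 1 = j ∧
        ((τ (pw u j) : Equiv.Perm O)⁻¹) q = ((τ (u₂ ++ pw u j') : Equiv.Perm O)⁻¹) S₀)
    (u : List A) (hu : (u.map φ).prod ≠ 1) :
    Nat.card O ≤ 3 * {q : O | ∃ (j : ℕ) (u₁ u₂ : List A), u = u₁ ++ u₂ ∧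
      q = ((τ (u₂ ++ pw u j) : Equiv.Perm O)⁻¹) S₀}.ncard := by
  classical
  haveI : Fintype O := Fintype.ofFinite O
  choose N hN using hruns u
  set j := Finset.univ.sup N with hj
  have hle : ∀ q, N q ≤ j := fun q => Finset.le_sup (Finset.mem_univ q)
  let c : H := (τ (pw u (j + 1)))⁻¹ * τ (pw u j)
  have hc : π c ≠ 1 := by
    show π ((τ (pw u (j + 1)))⁻¹ * τ (pw u j)) ≠ 1
    rw [map_mul, map_inv, hπ, hπ]
    have e : ∀ m, ((pw u m).map φ).prod = wval φ (pw u m) := fun _ => rfl
    rw [e, e, wval_pw, wval_pw, pow_succ]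
    intro h1
    apply hu
    have h2 : (wval φ u ^ j * wval φ u)⁻¹ * wval φ u ^ j = (wval φ u)⁻¹ := by group
    rw [h2] at h1
    have h3 : wval φ u = 1 := by simpa using h1
    exact h3
  have hsub : mvd (c : Equiv.Perm O) ⊆ {q : O | ∃ (j : ℕ) (u₁ u₂ : List A), u = u₁ ++ u₂ ∧
      q = ((τ (u₂ ++ pw u j) : Equiv.Perm O)⁻¹) S₀} := by
    intro r hr
    have hr' : ((τ (pw u (j + 1)) : Equiv.Perm O)⁻¹) ((τ (pw u j) : Equiv.Perm O) r) ≠ r := hr
    set q := (τ (pw u j) : Equiv.Perm O) r with hq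
    have hqr : ((τ (pw u j) : Equiv.Perm O)⁻¹) q = r := by rw [hq]; simp
    rcases hN q j (hle q) with h1 | ⟨i, j', u₁, u₂, hs, _, h1⟩
    · exfalso
      apply hr'
      rw [h1, hqr]
    · exact ⟨j', u₁, u₂, hs, by rw [← h1, hqr]⟩
  calc Nat.card O ≤ 3 * (mvd (c : Equiv.Perm O)).ncard := hsup c hc
    _ ≤ _ := Nat.mul_le_mul_left 3 (Set.ncard_le_ncard hsub (Set.toFinite _))

/-- The reduction theorem. -/
theorem exists_carrier [Finite T] [IsSimpleGroup T] (hT : ∃ a b : T, a * b ≠ b * a)
    (φ : A → T) (hφ : Subgroup.closure (Set.range φ) = ⊤) (S : Set T) (hS1 : S.Nonempty)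
    (hS2 : S ≠ Set.univ) (h : HeightLE 1 {w : List A | (w.map φ).prod ∈ S}) :
    ∃ (X : Set (List A)) (T₀ : Subgroup T) (O : Type) (_ : Finite O) (S₀ : O) (z : List A)
      (H : Subgroup (Equiv.Perm O)) (π : H →* T) (τ : List A → H),
      HeightLE 0 X ∧ StarCarrier φ X T₀ O S₀ z H π τ := by
  classical
  obtain ⟨X, z, hX, hd, hz1, hdet, hsand⟩ := exists_stardata hT φ hφ S hS1 hS2 h
  haveI : Finite (Orb (kstarL X) z) := hd.orb_finite
  obtain ⟨π, hπ⟩ := hd.exists_pi φ hz1 hdet
  have hsurj := wval_surj φ hφ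
  have halt : ∀ (g : T) (u : List A), g * wval φ u * g⁻¹ ∈ hd.T0 φ ∨
      ∃ (i : ℕ) (u₁ u₂ : List A), u = u₁ ++ u₂ ∧ g * wval φ u ^ i * wval φ u₁ ∈ hd.T0 φ := by
    intro g u
    obtain ⟨r, rfl⟩ := hsurj g
    rcases hd.coset_alt_word φ rfl hX hz1 hdet u r with h1 | ⟨i, u₁, u₂, hs, h1⟩
    · exact Or.inl h1
    · exact Or.inr ⟨i, u₁, u₂, hs, h1⟩
  have hne : ∃ w, wval φ w ≠ 1 := by
    obtain ⟨a, b, hab⟩ := hT
    by_contra hno
    push Not at hno
    apply hab
    obtain ⟨v, rfl⟩ := hsurj a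
    obtain ⟨w, rfl⟩ := hsurj b
    rw [hno v, hno w]
  have hno := hd.no_factor φ rfl hsand π hπ hne
  have hpisurj : Function.Surjective π := fun g => by
    obtain ⟨w, rfl⟩ := hsurj g
    exact ⟨hd.tau w, hπ w⟩
  have hker := fun htop q => hd.ker_transitive φ hz1 hdet htop π hπ q
  have hsup : hd.T0 φ = ⊤ → ∀ h : hd.H, π h ≠ 1 → Nat.card (Orb (kstarL X) z) ≤
      3 * (mvd (h : Equiv.Perm (Orb (kstarL X) z))).ncard := by
    intro htop h hh
    refine support_bound hT hd.H π hpisurj ?_ h hh
    intro p r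
    obtain ⟨k₁, hk₁, hk₁'⟩ := hker htop p
    obtain ⟨k₂, hk₂, hk₂'⟩ := hker htop r
    refine ⟨k₂⁻¹ * k₁, by rw [map_mul, map_inv, hk₁, hk₂]; simp, ?_⟩
    have e1 : (k₁ : Equiv.Perm (Orb (kstarL X) z)) p = hd.S₀ := by
      rw [← hk₁']
      simp
    show ((k₂ : Equiv.Perm (Orb (kstarL X) z))⁻¹) ((k₁ : Equiv.Perm (Orb (kstarL X) z)) p) = r
    rw [e1, hk₂']
  have hrr : ∀ (u : List A) (q : Orb (kstarL X) z), ∃ N, ∀ j, N ≤ j →
      ((hd.tau (pw u (j + 1)) : Equiv.Perm (Orb (kstarL X) z))⁻¹) q =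
        ((hd.tau (pw u j) : Equiv.Perm (Orb (kstarL X) z))⁻¹) q ∨
      ∃ i j' u₁ u₂, u = u₁ ++ u₂ ∧ i + j' + 1 = j ∧
        ((hd.tau (pw u j) : Equiv.Perm (Orb (kstarL X) z))⁻¹) q =
          ((hd.tau (u₂ ++ pw u j') : Equiv.Perm (Orb (kstarL X) z))⁻¹) hd.S₀ := fun u q => by
    obtain ⟨N, hN⟩ := hd.run_dichotomy rfl hX u q
    refine ⟨N, fun j hj => ?_⟩
    simp only [hd.tau_inv_apply]
    exact hN j hj
  refine ⟨X, hd.T0 φ, Orb (kstarL X) z, inferInstance, hd.S₀, z, hd.H, π, hd.tau, hX, ?_⟩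
  exact
    { values := fun g => Iff.rfl
      z_mem := hd.zmem
      tau_nil := hd.tau_nil
      tau_mul := hd.tau_mul
      tau_surj := hd.tau_surj
      pi_tau := hπ
      pi_surj := hpisurj
      transitive := fun q => by
        obtain ⟨a, ha⟩ := hd.exists_Pm_S₀ q
        exact ⟨a, by rw [hd.tau_inv_apply, ha]⟩
      hub := fun w => by
        rw [hd.tau_inv_apply]
        exact hd.hub w
      runs := hrr
      coset_hub := cosetHub_of_alt φ _ halt
      kernel := hker
      involution := fun x h1 h2 => hd.T0_top φ hT hφ rfl hX hz1 hdet x h1 h2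
      synt := fun u v huv => hdet u v (fun x => by
        ext y
        have := huv (x ++ z) (z ++ y)
        simpa [mem_lq, List.append_assoc] using this)
      forced_cut := fun p w h => hd.forced_cut rfl hno p w h
      kernel_support := hsup
      run_support := fun htop u hu => run_support_aux hπ (hsup htop) hrr u hu }

end Simple
end Vale.Agent.Lib.P329
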