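import Vale.Agent.Lib.P329.Good

/-!
Every deterministic automaton with at most three states has languages of generalized star height
at most one.  The states are embedded as the three nonzero vectors of the plane over the field
with two elements; the run of the automaton is the sum of the values of two automata on the four
points of the plane, both with a hub at the origin.
-/

namespace Vale.Agent.Lib.P329

variable {A B Q : Type}

/-- Pulling a hub back along a map of letters. -/
theorem IsHub.comap [DecidableEq Q] {δ : A → Q → Q} {v : Q} (h : IsHub δ v) (tr : B → A) :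
    IsHub (fun b => δ (tr b)) v := by
  intro u
  have key : ∀ (u : List B) (x : Q),
      run (sinkAt (fun b => δ (tr b)) v) x u = run (sinkAt δ v) x (u.map tr) := by
    intro u
    induction u with
    | nil => intro x; rfl
    | cons a u ih => intro x; simp only [List.map_cons, run_cons]; rw [ih]; rfl
  obtain ⟨n, hn⟩ := h (u.map tr)
  refine ⟨n, ?_⟩
  have : (fun x => run (sinkAt (fun b => δ (tr b)) v) x u) =
      fun x => run (sinkAt δ v) x (u.map tr) := funext (key u)
  rw [this]
  exact hn

namespace Plane

/-- A finite certificate for a hub at `0` for an automaton on `Fin 4`: a set `ok` of partial maps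
(given by the images of `1, 2, 3`, with `0` meaning undefined) which contains the identity, is
closed under the letters and consists of aperiodic maps. -/
def sk (m : A → Fin 4 → Fin 4) (a : A) (x : Fin 4) : Fin 4 := if x = 0 then 0 else m a x

/-- The full map of a partial map. -/
def pm (x y z : Fin 4) : Fin 4 → Fin 4 := ![0, x, y, z]

theorem isHub_of_cert (m : A → Fin 4 → Fin 4) (ok : Fin 4 → Fin 4 → Fin 4 → Bool)
    (h1 : ok 1 2 3 = true)
    (h2 : ∀ a x y z, ok x y z = true → ok (sk m a x) (sk m a y) (sk m a z) = true)
    (h3 : ∀ x y z, ok x y z = true → ∀ s, (pm x y z)^[4] s = (pm x y z)^[5] s) :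
    IsHub m 0 := by
  have hstep : ∀ (u : List A) (a : A) (x : Fin 4), run (sinkAt m 0) x (u ++ [a]) =
      sk m a (run (sinkAt m 0) x u) := by
    intro u a x
    rw [run_append]
    rfl
  have hok : ∀ u : List A, ok (run (sinkAt m 0) 1 u) (run (sinkAt m 0) 2 u)
      (run (sinkAt m 0) 3 u) = true := by
    intro u
    induction u using List.reverseRecOn with
    | nil => exact h1
    | append_singleton u a ih =>
      rw [hstep, hstep, hstep]
      exact h2 a _ _ _ ih
  intro u
  refine ⟨4, ?_⟩
  have hfun : (fun x => run (sinkAt m 0) x u) =
      pm (run (sinkAt m 0) 1 u) (run (sinkAt m 0) 2 u) (run (sinkAt m 0) 3 u) := by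
    funext x
    fin_cases x
    · exact run_sink_hub u
    · rfl
    · rfl
    · rfl
  rw [hfun]
  funext s
  exact h3 _ _ _ (hok u) s

/-- Addition in the plane over the field with two elements, with points coded in `Fin 4`. -/
def xo (x y : Fin 4) : Fin 4 := ⟨(x.val ^^^ y.val) % 4, Nat.mod_lt _ (by norm_num)⟩

/-- A letter: the images of three points. -/
abbrev L3 := Fin 3 × Fin 3 × Fin 3

/-- The affine map of the plane extending the letter, where the three points are the nonzero
vectors. -/
def nat3 (l : L3) : Fin 4 → Fin 4 :=
  ![xo (xo l.1.succ l.2.1.succ) l.2.2.succ, l.1.succ, l.2.1.succ, l.2.2.succ]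

/-- The translation part of the first machine. -/
def b3 (l : L3) : Fin 4 :=
  Fin.ofNat 4 (([1, 2, 3, 2, 1, 0, 3, 1, 1, 1, 2, 3, 2, 1, 0, 3, 1, 1, 1, 3, 3, 2, 0, 0, 3, 1,
    1] : List ℕ).getD (l.1.val * 9 + l.2.1.val * 3 + l.2.2.val) 0)

/-- The first machine. -/
def m3a (l : L3) (x : Fin 4) : Fin 4 := xo (xo (nat3 l x) (nat3 l 0)) (b3 l)

/-- The second machine. -/
def m3b (l : L3) (x : Fin 4) : Fin 4 := xo (nat3 l x) (b3 l)

theorem m3_add : ∀ (l : L3) (x y : Fin 4), xo (m3a l x) (m3b l y) = nat3 l (xo x y) := by
  decide +kernel

theorem m3a_hub : IsHub m3a 0 :=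
  isHub_of_cert m3a
    (fun x y z => Nat.testBit 3221209087 (x.val * 16 + y.val * 4 + z.val))
    (by decide +kernel) (by decide +kernel) (by decide +kernel)

theorem m3b_hub : IsHub m3b 0 :=
  isHub_of_cert m3b
    (fun x y z => Nat.testBit 11316717996006678335 (x.val * 16 + y.val * 4 + z.val))
    (by decide +kernel) (by decide +kernel) (by decide +kernel)

/-- The letter of a transformation of three points. -/
def ltr (f : Fin 3 → Fin 3) : L3 := (f 0, f 1, f 2)

theorem nat3_succ (f : Fin 3 → Fin 3) (q : Fin 3) : nat3 (ltr f) q.succ = (f q).succ := by
  fin_cases q <;> rfl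

theorem xo_zero (x : Fin 4) : xo x 0 = x := by
  revert x; decide

/-- The run of an automaton on three points as a sum of two hub runs. -/
theorem run_three (δ : A → Fin 3 → Fin 3) (q : Fin 3) (w : List A) :
    (run δ q w).succ = xo (run (fun a => m3a (ltr (δ a))) q.succ w)
      (run (fun a => m3b (ltr (δ a))) 0 w) := by
  have key : ∀ (w : List A) (x y : Fin 4) (q : Fin 3), xo x y = q.succ →
      (run δ q w).succ = xo (run (fun a => m3a (ltr (δ a))) x w)
        (run (fun a => m3b (ltr (δ a))) y w) := by
    intro w
    induction w with
    | nil => intro x y q h; exact h.symm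
    | cons a w ih =>
      intro x y q h
      simp only [run_cons]
      refine ih _ _ _ ?_
      rw [m3_add, h, nat3_succ]
  exact key w _ _ _ (xo_zero _)

/-- Every run of an automaton on three points has fibres of generalized star height at most
one. -/
theorem good_run_three [Finite A] (δ : A → Fin 3 → Fin 3) (q : Fin 3) :
    Good (fun w : List A => run δ q w) := by
  have h1 : Good (fun w : List A => run (fun a => m3a (ltr (δ a))) q.succ w) :=
    fun r => hub_path (m3a_hub.comap (fun a => ltr (δ a))) _ r
  have h2 : Good (fun w : List A => run (fun a => m3b (ltr (δ a))) 0 w) :=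
    fun r => hub_path (m3b_hub.comap (fun a => ltr (δ a))) _ r
  refine Good.of_factor (h1.map₂ h2 xo) ?_
  intro w w' e
  apply Fin.succ_injective
  rw [run_three δ q w, run_three δ q w']
  exact e

end Plane

/-- **Every automaton with at most three states**: every language recognized by the transition
monoid of a deterministic automaton with at most three states has generalized star height at most
one. -/
theorem heightLE_card_le_three [Finite A] [Finite Q] (hQ : Nat.card Q ≤ 3) (δ : A → Q → Q)
    (S : Set (Q → Q)) : HeightLE 1 {w : List A | (fun x => run δ x w) ∈ S} := by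
  classical
  have : Fintype Q := Fintype.ofFinite Q
  have hcard : Fintype.card Q ≤ Fintype.card (Fin 3) := by
    rw [Fintype.card_fin, ← Nat.card_eq_fintype_card]; exact hQ
  obtain ⟨ι⟩ := Function.Embedding.nonempty_of_card_le hcard
  rcases isEmpty_or_nonempty Q with hE | hN
  · by_cases h : (fun x : Q => x) ∈ S
    · have : {w : List A | (fun x => run δ x w) ∈ S} = Set.univ := by
        ext w
        simp only [Set.mem_ofPred_eq, Set.mem_univ, iff_true]
        have hf : (fun x => run δ x w) = fun x : Q => x := by
          funext x
          exact hE.elim x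
        rw [hf]
        exact h
      rw [this]; exact HeightLE.univ
    · have : {w : List A | (fun x => run δ x w) ∈ S} = ∅ := by
        ext w
        simp only [Set.mem_ofPred_eq, Set.mem_empty_iff_false, iff_false]
        intro h'
        apply h
        have hf : (fun x => run δ x w) = fun x : Q => x := by
          funext x
          exact hE.elim x
        rw [hf] at h'
        exact h'
      rw [this]; exact HeightLE.empty
  · let ρ : Fin 3 → Q := Function.invFun ι
    have hρ : ∀ x, ρ (ι x) = x := Function.leftInverse_invFun ι.injective
    let δ' : A → Fin 3 → Fin 3 := fun a i => ι (δ a (ρ i))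
    have hrun : ∀ (w : List A) (x : Q), run δ' (ι x) w = ι (run δ x w) := by
      intro w
      induction w with
      | nil => intro x; rfl
      | cons a w ih =>
        intro x
        simp only [run_cons]
        have : δ' a (ι x) = ι (δ a x) := by simp [δ', hρ]
        rw [this, ih]
    have hgood : ∀ x r, HeightLE 1 {w : List A | run δ x w = r} := by
      intro x r
      have h := Plane.good_run_three δ' (ι x) (ι r)
      convert h using 2
      ext w
      change run δ x w = r ↔ run δ' (ι x) w = ι r
      rw [hrun]
      exact ι.injective.eq_iff.symm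
    refine HeightLE.preimage (g := fun w : List A => fun x => run δ x w) (fun f => ?_) S
    have : {w : List A | (fun x => run δ x w) = f} = ⋂ x, {w : List A | run δ x w = f x} := by
      ext w
      simp [funext_iff]
    rw [this]
    exact HeightLE.iInter (fun x => hgood x (f x))

end Vale.Agent.Lib.P329
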