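import Vale.Agent.Lib.P329.Ridge

/-!
Tile machines: the memory of the moving letters read since the last multiple of `N`, and a counter
of the completed windows which differ from a fixed primitive word.
-/

namespace Vale.Agent.Lib.P329

section Tile

open Classical

variable {A : Type} (mv : A → Prop) (N : ℕ) [NeZero N]

/-- The memory: the moving letters read since the last multiple of `N`. -/
def TMem (A : Type) (N : ℕ) : Type := {m : List A // m.length < N}

instance [Finite A] : Finite (TMem A N) := (List.finite_length_lt A N).to_subtype

/-- The empty memory. -/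
def tNil : TMem A N := ⟨[], Nat.pos_of_ne_zero (NeZero.ne N)⟩

/-- One step of the memory. -/
noncomputable def tStep (b : A) (m : TMem A N) : TMem A N :=
  if mv b then (if h : m.1.length + 1 < N then ⟨m.1 ++ [b], by simpa using h⟩ else tNil N) else m

/-- A window is completed. -/
def cAll (b : A) (m : TMem A N) : Prop := mv b ∧ m.1.length + 1 = N

/-- A window different from `t` is completed. -/
def cNe (t : List A) (b : A) (m : TMem A N) : Prop := cAll mv N b m ∧ m.1 ++ [b] ≠ t

/-- The window `t` is completed. -/
def cEq (t : List A) (b : A) (m : TMem A N) : Prop := cAll mv N b m ∧ m.1 ++ [b] = t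

variable {mv N}

theorem tStep_stationary {b : A} (hb : ¬ mv b) (m : TMem A N) : tStep mv N b m = m := by
  simp [tStep, hb]

theorem tStep_lt {b : A} (hb : mv b) (m : TMem A N) (h : m.1.length + 1 < N) :
    tStep mv N b m = ⟨m.1 ++ [b], by simpa using h⟩ := by
  unfold tStep
  rw [if_pos hb]
  exact dif_pos h

theorem tStep_eq {b : A} (hb : mv b) (m : TMem A N) (h : m.1.length + 1 = N) :
    tStep mv N b m = tNil N := by
  have : ¬ m.1.length + 1 < N := by omega
  simp [tStep, hb, this]

theorem tStep_of_cAll {b : A} {m : TMem A N} (h : cAll mv N b m) : tStep mv N b m = tNil N :=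
  tStep_eq h.1 m h.2

/-- The periodic sequence of a word of length `N`. -/
def TFn (t : List A) (ht : t.length = N) (i : ℕ) : A :=
  t[i % N]'(by rw [ht]; exact Nat.mod_lt _ (Nat.pos_of_ne_zero (NeZero.ne N)))

theorem TFn_add (t : List A) (ht : t.length = N) (i : ℕ) : TFn t ht (i + N) = TFn t ht i := by
  simp [TFn]

theorem TFn_add_mul (t : List A) (ht : t.length = N) (i k : ℕ) :
    TFn t ht (i + N * k) = TFn t ht i := by
  simp [TFn]

theorem getElem?_of_lt (t : List A) (ht : t.length = N) {i : ℕ} (hi : i < N) :
    t[i]? = some (TFn t ht i) := by
  rw [List.getElem?_eq_getElem (by omega)]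
  simp [TFn, Nat.mod_eq_of_lt hi]

/-- If no window different from `t` is completed, the word read is a power of `t`, up to the
letters after the last complete window. -/
theorem prefix_of_uncharged (t : List A) (ht : t.length = N) (W : List A) (hW : ∀ b ∈ W, mv b)
    (m : TMem A N) (h0 : fcc (tStep mv N) (cNe mv N t) m W = 0) :
    ∀ i, i < N * ((m.1.length + W.length) / N) → (m.1 ++ W)[i]? = some (TFn t ht i) := by
  have hN : 0 < N := Nat.pos_of_ne_zero (NeZero.ne N)
  induction W generalizing m with
  | nil =>
    intro i hi
    have : (m.1.length + ([] : List A).length) / N = 0 := by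
      simp only [List.length_nil, add_zero]
      exact Nat.div_eq_of_lt m.2
    rw [this] at hi
    omega
  | cons b W ih =>
    have hb : mv b := hW b (by simp)
    have hW' : ∀ x ∈ W, mv x := fun x hx => hW x (List.mem_cons_of_mem _ hx)
    rw [fcc_cons] at h0
    have h1 : ¬ cNe mv N t b m := by
      intro hc
      simp [hc] at h0
    have h2 : fcc (tStep mv N) (cNe mv N t) (tStep mv N b m) W = 0 := by
      rw [if_neg h1, zero_add] at h0
      exact h0
    by_cases hlt : m.1.length + 1 < N
    · rw [tStep_lt hb m hlt] at h2
      have := ih hW' _ h2
      simp only [List.length_append, List.length_cons, List.length_nil, zero_add] at this ⊢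
      intro i hi
      have e : m.1 ++ b :: W = m.1 ++ [b] ++ W := by simp
      rw [e]
      have e2 : m.1.length + 1 + W.length = m.1.length + (W.length + 1) := by omega
      exact this i (by rw [e2]; exact hi)
    · have hle : m.1.length + 1 = N := by
        have := m.2
        omega
      have h3 : m.1 ++ [b] = t := by
        by_contra hne
        exact h1 ⟨⟨hb, hle⟩, hne⟩
      rw [tStep_eq hb m hle] at h2
      have h4 := ih hW' _ h2
      simp only [tNil, List.length_nil, zero_add, List.nil_append] at h4
      intro i hi
      have e : m.1 ++ b :: W = t ++ W := by rw [← h3]; simp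
      rw [e]
      have hl : (m.1 ++ b :: W).length = N + W.length := by
        simp only [List.length_append, List.length_cons]
        omega
      have hdiv : (m.1.length + (b :: W).length) / N = W.length / N + 1 := by
        simp only [List.length_cons]
        rw [show m.1.length + (W.length + 1) = W.length + N by omega]
        exact Nat.add_div_right _ hN
      rw [hdiv, Nat.mul_succ] at hi
      by_cases hiN : i < N
      · rw [List.getElem?_append_left (by omega)]
        exact getElem?_of_lt t ht hiN
      · rw [List.getElem?_append_right (by omega), ht]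
        have h5 := h4 (i - N) (by omega)
        rw [h5]
        congr 1
        have e2 := TFn_add t ht (i - N)
        rw [Nat.sub_add_cancel (by omega)] at e2
        exact e2.symm

/-- The word read during an uncharged repeated run gives a period of `t`. -/
theorem period_of_uncharged (t : List A) (ht : t.length = N) (v : List A) (hv : ∀ b ∈ v, mv b)
    (hne : v ≠ []) (m : TMem A N)
    (h0 : ∀ n, fcc (tStep mv N) (cNe mv N t) m (rep v n) = 0) (y : ℕ) :
    TFn t ht (y + v.length) = TFn t ht y := by
  have hN : 0 < N := Nat.pos_of_ne_zero (NeZero.ne N)
  have hL : 0 < v.length := List.length_pos_iff.2 hne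
  have hrepv : ∀ n, ∀ b ∈ rep v n, mv b := by
    intro n
    induction n with
    | zero => simp [rep]
    | succ n ih =>
      intro b hb
      rcases List.mem_append.1 hb with hb | hb
      · exact hv b hb
      · exact ih b hb
  have hlen : ∀ n, (rep v n).length = n * v.length := by
    intro n
    induction n with
    | zero => simp [rep]
    | succ n ih =>
      simp only [rep, List.length_append, ih]
      ring
  set r := m.1.length with hr
  set L := v.length with hLdef
  have key : ∀ x, TFn t ht (x + r + L) = TFn t ht (x + r) := by
    intro x
    set n := N * (x + r + L + 1) with hn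
    have hb1 : ∀ n', n ≤ n' → x + r + L < N * ((r + (rep v n').length) / N) := by
      intro n' hn'
      rw [hlen]
      have h1 : x + r + L + 1 ≤ (r + n' * L) / N := by
        rw [Nat.le_div_iff_mul_le hN]
        calc (x + r + L + 1) * N = n := by rw [hn]; ring
          _ ≤ n' := hn'
          _ ≤ n' * L := Nat.le_mul_of_pos_right _ hL
          _ ≤ r + n' * L := by omega
      calc x + r + L < x + r + L + 1 := by omega
        _ ≤ N * (x + r + L + 1) := Nat.le_mul_of_pos_left _ hN
        _ ≤ N * ((r + n' * L) / N) := Nat.mul_le_mul_left _ h1
    have h1 := prefix_of_uncharged t ht (rep v n) (hrepv n) m (h0 n) (x + r)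
      (by
        show x + r < N * ((r + (rep v n).length) / N)
        have := hb1 n le_rfl
        omega)
    have h2 := prefix_of_uncharged t ht (rep v (n + 1)) (hrepv (n + 1)) m (h0 (n + 1)) (x + L + r)
      (by
        show x + L + r < N * ((r + (rep v (n + 1)).length) / N)
        have := hb1 (n + 1) (by omega)
        omega)
    rw [List.getElem?_append_right (by omega), show x + r - m.1.length = x by omega] at h1
    rw [List.getElem?_append_right (by omega), show x + L + r - m.1.length = x + L by omega] at h2
    have e : rep v (n + 1) = v ++ rep v n := rfl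
    rw [e, List.getElem?_append_right (by omega), show x + L - v.length = x by omega, h1] at h2
    have h3 := Option.some.inj h2
    rw [h3]
    congr 1
    ring
  have hy : y + N * r = (y + N * r - r) + r := by
    have : r ≤ N * r := Nat.le_mul_of_pos_left _ hN
    omega
  have e1 : TFn t ht y = TFn t ht (y + N * r) := (TFn_add_mul t ht y r).symm
  have e2 : TFn t ht (y + L) = TFn t ht (y + L + N * r) := (TFn_add_mul t ht (y + L) r).symm
  have e3 := key (y + N * r - r)
  rw [← hy] at e3
  rw [e1, e2, ← e3]
  congr 1
  omega

theorem run_filter (W : List A) (q : TMem A N) :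
    run (tStep mv N) q W = run (tStep mv N) q (W.filter mv) := by
  induction W generalizing q with
  | nil => rfl
  | cons a W ih =>
    rw [run_cons]
    by_cases ha : mv a
    · rw [List.filter_cons_of_pos (by simpa using ha), run_cons, ih]
    · rw [List.filter_cons_of_neg (by simpa using ha), tStep_stationary ha, ih]

theorem fcc_filter {C : A → TMem A N → Prop} (hC : ∀ b q, C b q → mv b) (W : List A)
    (q : TMem A N) :
    fcc (tStep mv N) C q W = fcc (tStep mv N) C q (W.filter mv) := by
  induction W generalizing q with
  | nil => rfl
  | cons a W ih =>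
    rw [fcc_cons]
    by_cases ha : mv a
    · rw [List.filter_cons_of_pos (by simpa using ha), fcc_cons, ih]
    · have : ¬ C a q := fun h => ha (hC a q h)
      rw [List.filter_cons_of_neg (by simpa using ha), tStep_stationary ha, ih, if_neg this,
        zero_add]

theorem filter_rep (u : List A) (n : ℕ) :
    (rep u n).filter mv = rep (u.filter mv) n := by
  induction n with
  | zero => rfl
  | succ n ih => simp only [rep, List.filter_append, ih]

theorem mem_filter_mv {W : List A} : ∀ b ∈ W.filter mv, mv b := by
  intro b hb
  simpa using (List.mem_filter.1 hb).2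

theorem length_run (W : List A) (hW : ∀ b ∈ W, mv b) (q : TMem A N) :
    (run (tStep mv N) q W).1.length = (q.1.length + W.length) % N := by
  have hN : 0 < N := Nat.pos_of_ne_zero (NeZero.ne N)
  induction W generalizing q with
  | nil =>
    simp only [run_nil, List.length_nil, add_zero]
    exact (Nat.mod_eq_of_lt q.2).symm
  | cons b W ih =>
    have hb : mv b := hW b (by simp)
    rw [run_cons, ih (fun x hx => hW x (List.mem_cons_of_mem _ hx))]
    by_cases hlt : q.1.length + 1 < N
    · rw [tStep_lt hb q hlt]
      simp only [List.length_append, List.length_cons, List.length_nil, zero_add]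
      congr 1
      omega
    · have hle : q.1.length + 1 = N := by
        have := q.2
        omega
      rw [tStep_eq hb q hle]
      simp only [tNil, List.length_nil, zero_add, List.length_cons]
      rw [show q.1.length + (W.length + 1) = W.length + N by omega, Nat.add_mod_right]

/-- A window is completed, so the memory before does not matter. -/
theorem run_indep (W : List A) (hW : ∀ b ∈ W, mv b) (q q' : TMem A N)
    (he : q.1.length = q'.1.length) (hl : N ≤ q.1.length + W.length) :
    run (tStep mv N) q W = run (tStep mv N) q' W := by
  induction W generalizing q q' with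
  | nil =>
    have := q.2
    simp at hl
    omega
  | cons b W ih =>
    have hb : mv b := hW b (by simp)
    rw [run_cons, run_cons]
    by_cases hlt : q.1.length + 1 < N
    · have hlt' : q'.1.length + 1 < N := by omega
      rw [tStep_lt hb q hlt, tStep_lt hb q' hlt']
      refine ih (fun x hx => hW x (List.mem_cons_of_mem _ hx)) _ _ ?_ ?_
      · simp [he]
      · simp only [List.length_append, List.length_cons, List.length_nil, zero_add] at hl ⊢
        omega
    · have hle : q.1.length + 1 = N := by
        have := q.2
        omega
      rw [tStep_eq hb q hle, tStep_eq hb q' (by omega)]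

/-- The hub condition of the tile machine. -/
theorem tile_H (t : List A) (ht : t.length = N)
    (hprim : ∀ L, (∀ y, TFn t ht (y + L) = TFn t ht y) → N ∣ L)
    (u : List A) (q : TMem A N) (m : ℕ) (hm : 0 < m)
    (hcl : run (tStep mv N) q (rep u m) = q)
    (h0 : fcc (tStep mv N) (cNe mv N t) q (rep u m) = 0) :
    run (tStep mv N) q u = q := by
  rw [run_filter]
  set v := u.filter mv with hv
  by_cases hne : v = []
  · rw [hne]; rfl
  · have hcl' : run (tStep mv N) q (rep v m) = q := by
      rw [hv, ← filter_rep, ← run_filter]
      exact hcl
    have hC : ∀ b q', cNe mv N t b q' → mv b := fun _ _ h => h.1.1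
    have h0' : fcc (tStep mv N) (cNe mv N t) q (rep v m) = 0 := by
      rw [hv, ← filter_rep, ← fcc_filter hC]
      exact h0
    have h1 := fcc_rep_eq_zero hm hcl' h0'
    have hvm : ∀ b ∈ v, mv b := mem_filter_mv
    have hper := period_of_uncharged t ht v hvm hne q h1
    have hdvd := hprim _ hper
    have hLpos : 0 < v.length := List.length_pos_iff.2 hne
    have hNL : N ≤ v.length := Nat.le_of_dvd hLpos hdvd
    set q₁ := run (tStep mv N) q v with hq₁
    have hlen : q₁.1.length = q.1.length := by
      rw [hq₁, length_run v hvm]
      obtain ⟨c, hc⟩ := hdvd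
      rw [hc, Nat.add_mul_mod_self_left]
      exact Nat.mod_eq_of_lt q.2
    have hfix : run (tStep mv N) q₁ v = q₁ := by
      rw [run_indep v hvm q₁ q hlen (by omega)]
    have hrep : ∀ n, run (tStep mv N) q₁ (rep v n) = q₁ := by
      intro n
      induction n with
      | zero => rfl
      | succ n ih => rw [rep, run_append, hfix, ih]
    obtain ⟨m', rfl⟩ : ∃ m', m = m' + 1 := ⟨m - 1, by omega⟩
    rw [rep, run_append, ← hq₁, hrep] at hcl'
    exact hcl'

/-- The hub condition for counting all completed windows. -/
theorem all_H (u : List A) (q : TMem A N) (m : ℕ) (hm : 0 < m)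
    (hcl : run (tStep mv N) q (rep u m) = q)
    (h0 : fcc (tStep mv N) (cAll mv N) q (rep u m) = 0) :
    run (tStep mv N) q u = q := by
  rw [run_filter]
  set v := u.filter mv with hv
  by_cases hne : v = []
  · rw [hne]; rfl
  · exfalso
    have hcl' : run (tStep mv N) q (rep v m) = q := by
      rw [hv, ← filter_rep, ← run_filter]
      exact hcl
    have hC : ∀ b q', cAll mv N b q' → mv b := fun _ _ h => h.1
    have h0' : fcc (tStep mv N) (cAll mv N) q (rep v m) = 0 := by
      rw [hv, ← filter_rep, ← fcc_filter hC]
      exact h0
    have h1 := fcc_rep_eq_zero hm hcl' h0'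
    have hvm : ∀ b ∈ v, mv b := mem_filter_mv
    have hpos : ∀ (W : List A), (∀ b ∈ W, mv b) → ∀ q' : TMem A N,
        fcc (tStep mv N) (cAll mv N) q' W = 0 → q'.1.length + W.length < N := by
      intro W
      induction W with
      | nil =>
        intro _ q' _
        simpa using q'.2
      | cons b W ih =>
        intro hW q' h
        have hb : mv b := hW b (by simp)
        rw [fcc_cons] at h
        by_cases hlt : q'.1.length + 1 < N
        · have h2 : ¬ cAll mv N b q' := fun hc => by
            have := hc.2
            omega
          rw [if_neg h2, zero_add, tStep_lt hb q' hlt] at h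
          have := ih (fun x hx => hW x (List.mem_cons_of_mem _ hx)) _ h
          simp only [List.length_append, List.length_cons, List.length_nil, zero_add] at this ⊢
          omega
        · have hle : q'.1.length + 1 = N := by
            have := q'.2
            omega
          have h2 : cAll mv N b q' := ⟨hb, hle⟩
          simp [h2] at h
    have hrepv : ∀ n, ∀ b ∈ rep v n, mv b := by
      intro n
      induction n with
      | zero => simp [rep]
      | succ n ih =>
        intro b hb
        rcases List.mem_append.1 hb with hb | hb
        · exact hvm b hb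
        · exact ih b hb
    have hlen : ∀ n, (rep v n).length = n * v.length := by
      intro n
      induction n with
      | zero => simp [rep]
      | succ n ih =>
        simp only [rep, List.length_append, ih]
        ring
    have h2 := hpos _ (hrepv N) q (h1 N)
    rw [hlen] at h2
    have hL : 0 < v.length := List.length_pos_iff.2 hne
    have : N ≤ N * v.length := Nat.le_mul_of_pos_right _ hL
    omega

theorem goodZ_cAll [Finite A] (q : TMem A N) :
    GoodZ (fun w : List A => ((fcc (tStep mv N) (cAll mv N) q w : ℕ) : ℤ)) :=
  goodZ_fcc (fun _ _ h => tStep_of_cAll h) (fun u q m hm hcl h0 => all_H u q m hm hcl h0) q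

theorem good_tStep [Finite A] (q : TMem A N) :
    Good (fun w : List A => run (tStep mv N) q w) :=
  good_run_of_chg (fun _ _ h => tStep_of_cAll h) (fun u q m hm hcl h0 => all_H u q m hm hcl h0) q

theorem fcc_cEq_eq (t : List A) (w : List A) (q : TMem A N) :
    ((fcc (tStep mv N) (cEq mv N t) q w : ℕ) : ℤ) =
      ((fcc (tStep mv N) (cAll mv N) q w : ℕ) : ℤ) -
        ((fcc (tStep mv N) (cNe mv N t) q w : ℕ) : ℤ) := by
  induction w generalizing q with
  | nil => simp
  | cons b w ih =>
    simp only [fcc_cons]
    push_cast
    rw [ih]
    have : (if cEq mv N t b q then (1 : ℤ) else 0) =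
        (if cAll mv N b q then 1 else 0) - (if cNe mv N t b q then 1 else 0) := by
      by_cases h1 : cAll mv N b q
      · by_cases h2 : q.1 ++ [b] = t
        · have h3 : cEq mv N t b q := ⟨h1, h2⟩
          have h4 : ¬ cNe mv N t b q := fun h => h.2 h2
          simp [h1, h3, h4]
        · have h3 : ¬ cEq mv N t b q := fun h => h2 h.2
          have h4 : cNe mv N t b q := ⟨h1, h2⟩
          simp [h1, h3, h4]
      · have h3 : ¬ cEq mv N t b q := fun h => h1 h.1
        have h4 : ¬ cNe mv N t b q := fun h => h1 h.1
        simp [h1, h3, h4]
    rw [this]
    ring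

/-- **Primitive windows are counted by hubs.** -/
theorem goodZ_cEq [Finite A] (t : List A) (ht : t.length = N)
    (hprim : ∀ L, (∀ y, TFn t ht (y + L) = TFn t ht y) → N ∣ L) (q : TMem A N) :
    GoodZ (fun w : List A => ((fcc (tStep mv N) (cEq mv N t) q w : ℕ) : ℤ)) := by
  have h1 : GoodZ (fun w : List A => ((fcc (tStep mv N) (cNe mv N t) q w : ℕ) : ℤ)) :=
    goodZ_fcc (fun _ _ h => tStep_of_cAll h.1)
      (fun u q m hm hcl h0 => tile_H t ht hprim u q m hm hcl h0) q
  exact ((goodZ_cAll q).sub h1).congr (fun w => (fcc_cEq_eq t w q).symm)

end Tile

end Vale.Agent.Lib.P329
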