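import Vale.Agent.Lib.P329.TileFlow
import Vale.Agent.Lib.P329.InnerForm

/-!
Tile machines modulo two: sets of windows of odd weight are pure, for a weight of period two and
windows of length four.
-/

namespace Vale.Agent.Lib.P329

section Tile2

open Classical

variable {A : Type} {mv : A → Prop} {N : ℕ} [NeZero N]

variable (mv N) in
/-- A window with the property `Z` is completed. -/
def cP (Z : List A → Prop) (b : A) (m : TMem A N) : Prop := cAll mv N b m ∧ Z (m.1 ++ [b])

variable (mv N) in
/-- The weights of the completed windows. -/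
noncomputable def wsum (G : List A → ℤ) : TMem A N → List A → ℤ
  | _, [] => 0
  | q, b :: w => (if cAll mv N b q then G (q.1 ++ [b]) else 0) + wsum G (tStep mv N b q) w

theorem flo_wsum (a : A) (ha : mv a) {f : ℕ → ℤ} (hf : ∀ i, f (i + N) = f i) (w : List A)
    (q : TMem A N) :
    flo mv a f q.1.length w + twt a f 0 q.1 =
      wsum mv N (twt a f 0) q w + twt a f 0 (run (tStep mv N) q w).1 := by
  induction w generalizing q with
  | nil => simp [wsum]
  | cons b w ih =>
    simp only [flo_cons, wsum, run_cons]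
    by_cases hb : mv b
    · by_cases hlt : q.1.length + 1 < N
      · have hnc : ¬ cAll mv N b q := fun h => by
          have := h.2
          omega
        have e1 := ih (tStep mv N b q)
        rw [tStep_lt hb q hlt] at e1 ⊢
        simp only [List.length_append, List.length_cons, List.length_nil, zero_add, hb, if_true]
          at e1 ⊢
        simp only [hnc, if_false, zero_add]
        rw [twt_snoc] at e1
        simp only [zero_add] at e1
        linarith
      · have hle : q.1.length + 1 = N := by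
          have := q.2
          omega
        have hc : cAll mv N b q := ⟨hb, hle⟩
        have e1 := ih (tStep mv N b q)
        rw [tStep_eq hb q hle] at e1 ⊢
        have hn1 : (tNil N : TMem A N).1 = [] := rfl
        rw [hn1] at e1
        simp only [List.length_nil, twt_nil, add_zero] at e1
        simp only [hc, if_true]
        rw [twt_snoc]
        simp only [hb, if_true, hle]
        have e2 : flo mv a f N w = flo mv a f 0 w := by
          have := flo_periodic (mv := mv) (a := a) hf 0 w
          rwa [zero_add] at this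
        rw [e2, e1]
        simp only [zero_add]
        ring
    · have hba : b ≠ a := fun h => hb (h ▸ ha)
      have hnc : ¬ cAll mv N b q := fun h => hb h.1
      rw [tStep_stationary hb]
      simp only [hba, hb, hnc, if_false, zero_add]
      exact ih q

theorem flo_append_mv (a : A) (f : ℕ → ℤ) (k : ℕ) (v w : List A) (hv : ∀ b ∈ v, mv b) :
    flo mv a f k (v ++ w) = flo mv a f k v + flo mv a f (k + v.length) w := by
  induction v generalizing k with
  | nil => simp
  | cons b v ih =>
    have hb : mv b := hv b (by simp)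
    simp only [List.cons_append, flo_cons, hb, if_true, List.length_cons]
    rw [ih _ (fun x hx => hv x (List.mem_cons_of_mem _ hx))]
    rw [show k + 1 + v.length = k + (v.length + 1) by omega]
    ring

theorem flo_periodic_mul {f : ℕ → ℤ} (hf : ∀ i, f (i + 2) = f i) (a : A) (v : List A) (k c : ℕ) :
    flo mv a f (k + 2 * c) v = flo mv a f k v := by
  induction c with
  | zero => rfl
  | succ c ih =>
    rw [show k + 2 * (c + 1) = k + 2 * c + 2 by ring, flo_periodic hf, ih]

/-- Four repetitions of a word of odd length have even flow. -/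
theorem flo_rep_four {f : ℕ → ℤ} (hf : ∀ i, f (i + 2) = f i) (a : A) (v : List A)
    (hv : ∀ b ∈ v, mv b) (k : ℕ) : Even (flo mv a f k (rep v 4)) := by
  have e : rep v 4 = v ++ (v ++ (v ++ v)) := by simp [rep]
  have hm : ∀ n, ∀ b ∈ (rep v n), mv b := by
    intro n
    induction n with
    | zero => simp [rep]
    | succ n ih =>
      intro b hb
      rcases List.mem_append.1 hb with hb | hb
      · exact hv b hb
      · exact ih b hb
  rw [e, flo_append_mv a f k v _ hv, flo_append_mv a f _ v _ hv, flo_append_mv a f _ v _ hv]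
  set L := v.length
  have e2 : flo mv a f (k + L + L) v = flo mv a f k v := by
    have := flo_periodic_mul (mv := mv) hf a v k L
    rwa [show k + 2 * L = k + L + L by ring] at this
  have e3 : flo mv a f (k + L + L + L) v = flo mv a f (k + L) v := by
    have := flo_periodic_mul (mv := mv) hf a v (k + L) L
    rwa [show k + L + 2 * L = k + L + L + L by ring] at this
  rw [e2, e3]
  exact ⟨flo mv a f k v + flo mv a f (k + L) v, by ring⟩

/-- Two repetitions of a word of even length have even flow. -/
theorem flo_rep_two {f : ℕ → ℤ} (hf : ∀ i, f (i + 2) = f i) (a : A) (v : List A)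
    (hv : ∀ b ∈ v, mv b) (hL : Even v.length) (k : ℕ) : Even (flo mv a f k (rep v 2)) := by
  have e : rep v 2 = v ++ v := by simp [rep]
  rw [e, flo_append_mv a f k v _ hv]
  obtain ⟨c, hc⟩ := hL
  have e2 : flo mv a f (k + v.length) v = flo mv a f k v := by
    have := flo_periodic_mul (mv := mv) hf a v k c
    rwa [show 2 * c = v.length by omega] at this
  rw [e2]
  exact ⟨flo mv a f k v, rfl⟩

/-- The number of completed windows. -/
theorem fcc_cAll_length (W : List A) (hW : ∀ b ∈ W, mv b) (q : TMem A N) :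
    fcc (tStep mv N) (cAll mv N) q W * N + (run (tStep mv N) q W).1.length =
      q.1.length + W.length := by
  induction W generalizing q with
  | nil => simp
  | cons b W ih =>
    have hb : mv b := hW b (by simp)
    have h1 := ih (fun x hx => hW x (List.mem_cons_of_mem _ hx)) (tStep mv N b q)
    rw [fcc_cons, run_cons]
    by_cases hlt : q.1.length + 1 < N
    · have hnc : ¬ cAll mv N b q := fun h => by
        have := h.2
        omega
      rw [tStep_lt hb q hlt] at h1 ⊢
      simp only [List.length_append, List.length_cons, List.length_nil, zero_add] at h1 ⊢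
      simp only [hnc, if_false, zero_add]
      omega
    · have hle : q.1.length + 1 = N := by
        have := q.2
        omega
      have hc : cAll mv N b q := ⟨hb, hle⟩
      rw [tStep_eq hb q hle] at h1 ⊢
      simp only [tNil, List.length_nil, zero_add] at h1
      simp only [hc, if_true, List.length_cons, add_mul, one_mul]
      simp only [tNil]
      omega

/-- If no window outside `Z` is completed then the weight has the parity of the number of windows,
when the weight is odd on `Z`. -/
theorem wsum_parity (G : List A → ℤ) (Z : List A → Prop) (hZ : ∀ t, Z t → Odd (G t)) (W : List A)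
    (q : TMem A N) (h0 : fcc (tStep mv N) (cP mv N (fun t => ¬ Z t)) q W = 0) :
    Even (wsum mv N G q W - ((fcc (tStep mv N) (cAll mv N) q W : ℕ) : ℤ)) := by
  induction W generalizing q with
  | nil => simp [wsum]
  | cons b W ih =>
    rw [fcc_cons] at h0
    have h1 : ¬ cP mv N (fun t => ¬ Z t) b q := by
      intro hc
      simp [hc] at h0
    have h2 : fcc (tStep mv N) (cP mv N (fun t => ¬ Z t)) (tStep mv N b q) W = 0 := by
      rw [if_neg h1, zero_add] at h0
      exact h0
    have h3 := ih _ h2
    simp only [wsum, fcc_cons]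
    by_cases hc : cAll mv N b q
    · have hz : Z (q.1 ++ [b]) := by
        by_contra hn
        exact h1 ⟨hc, hn⟩
      have hodd := hZ _ hz
      simp only [hc, if_true]
      push_cast
      have e : G (q.1 ++ [b]) + wsum mv N G (tStep mv N b q) W -
          (1 + ((fcc (tStep mv N) (cAll mv N) (tStep mv N b q) W : ℕ) : ℤ)) =
          (G (q.1 ++ [b]) - 1) + (wsum mv N G (tStep mv N b q) W -
            ((fcc (tStep mv N) (cAll mv N) (tStep mv N b q) W : ℕ) : ℤ)) := by ring
      rw [e]
      exact Even.add (Odd.sub_odd hodd odd_one) h3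
    · simp only [hc, if_false, zero_add]
      push_cast
      exact h3

/-- **Sets of windows of odd weight are pure.** -/
theorem tileZ_H (a₁ a₂ : A) (ha₁ : mv a₁) (ha₂ : mv a₂) (f₁ f₂ : ℕ → ℤ)
    (hf₁ : ∀ i, f₁ (i + 2) = f₁ i) (hf₂ : ∀ i, f₂ (i + 2) = f₂ i) (Z : List A → Prop)
    (hZ : ∀ t, Z t → Odd (twt a₁ f₁ 0 t + twt a₂ f₂ 0 t))
    (u : List A) (q : TMem A 4) (m : ℕ) (hm : 0 < m)
    (hcl : run (tStep mv 4) q (rep u m) = q)
    (h0 : fcc (tStep mv 4) (cP mv 4 (fun t => ¬ Z t)) q (rep u m) = 0) :
    run (tStep mv 4) q u = q := by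
  rw [run_filter]
  set v := u.filter mv with hv
  by_cases hne : v = []
  · rw [hne]; rfl
  · have hcl' : run (tStep mv 4) q (rep v m) = q := by
      rw [hv, ← filter_rep, ← run_filter]
      exact hcl
    have hC : ∀ b q', cP mv 4 (fun t => ¬ Z t) b q' → mv b := fun _ _ h => h.1.1
    have h0' : fcc (tStep mv 4) (cP mv 4 (fun t => ¬ Z t)) q (rep v m) = 0 := by
      rw [hv, ← filter_rep, ← fcc_filter hC]
      exact h0
    have h1 := fcc_rep_eq_zero hm hcl' h0'
    have hvm : ∀ b ∈ v, mv b := mem_filter_mv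
    have hrepm : ∀ n, ∀ b ∈ rep v n, mv b := by
      intro n
      induction n with
      | zero => simp [rep]
      | succ n ih =>
        intro b hb
        rcases List.mem_append.1 hb with hb | hb
        · exact hvm b hb
        · exact ih b hb
    have hlen : ∀ n, (rep v n).length = n * v.length := by
      intro n
      induction n with
      | zero => simp [rep]
      | succ n ih =>
        simp only [rep, List.length_append, ih]
        ring
    have hLpos : 0 < v.length := List.length_pos_iff.2 hne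
    have hdvd : 4 ∣ v.length := by
      by_contra hnd
      -- choose the number of repetitions
      obtain ⟨e, hecases⟩ : ∃ e : ℕ, (e = 4 ∧ Odd v.length) ∨ (e = 2 ∧ Even v.length) := by
        by_cases hodd : Odd v.length
        · exact ⟨4, Or.inl ⟨rfl, hodd⟩⟩
        · exact ⟨2, Or.inr ⟨rfl, Nat.not_odd_iff_even.1 hodd⟩⟩
      have he4 : 4 ∣ e * v.length := by
        rcases hecases with ⟨rfl, _⟩ | ⟨rfl, h⟩
        · exact Dvd.intro _ rfl
        · obtain ⟨c, hc⟩ := h
          exact ⟨c, by omega⟩
      have hepos : 0 < e := by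
        rcases hecases with ⟨rfl, _⟩ | ⟨rfl, _⟩ <;> omega
      set W := rep v e with hW
      have hWm : ∀ b ∈ W, mv b := hrepm e
      have hWlen : W.length = e * v.length := hlen e
      set q₁ := run (tStep mv 4) q W with hq₁
      have hq1len : q₁.1.length = q.1.length := by
        rw [hq₁, length_run W hWm, hWlen]
        obtain ⟨c, hc⟩ := he4
        rw [hc, Nat.add_mul_mod_self_left]
        exact Nat.mod_eq_of_lt q.2
      have hlong : 4 ≤ W.length := by
        rw [hWlen]
        exact Nat.le_of_dvd (Nat.mul_pos hepos hLpos) he4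
      have hfix : run (tStep mv 4) q₁ W = q₁ := by
        rw [run_indep W hWm q₁ q hq1len (by omega)]
      have hz1 : fcc (tStep mv 4) (cP mv 4 (fun t => ¬ Z t)) q₁ W = 0 := by
        have h2 := h1 (e + e)
        rw [rep_add, fcc_append, ← hW, ← hq₁] at h2
        omega
      have hpar := wsum_parity (fun t => twt a₁ f₁ 0 t + twt a₂ f₂ 0 t) Z hZ W q₁ hz1
      -- the two flow identities
      have hf₁4 : ∀ i, f₁ (i + 4) = f₁ i := fun i => by
        rw [show i + 4 = i + 2 + 2 by ring, hf₁, hf₁]
      have hf₂4 : ∀ i, f₂ (i + 4) = f₂ i := fun i => by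
        rw [show i + 4 = i + 2 + 2 by ring, hf₂, hf₂]
      have i1 := flo_wsum (mv := mv) a₁ ha₁ hf₁4 W q₁
      have i2 := flo_wsum (mv := mv) a₂ ha₂ hf₂4 W q₁
      rw [hfix] at i1 i2
      have hadd : ∀ (w : List A) (s : TMem A 4),
          wsum mv 4 (fun t => twt a₁ f₁ 0 t + twt a₂ f₂ 0 t) s w =
            wsum mv 4 (twt a₁ f₁ 0) s w + wsum mv 4 (twt a₂ f₂ 0) s w := by
        intro w
        induction w with
        | nil => simp [wsum]
        | cons b w ih =>
          intro s
          simp only [wsum, ih]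
          by_cases hc : cAll mv 4 b s
          · simp only [hc, if_true]; ring
          · simp only [hc, if_false]; ring
      have hev1 : Even (flo mv a₁ f₁ q₁.1.length W) := by
        rcases hecases with ⟨rfl, h⟩ | ⟨rfl, h⟩
        · exact flo_rep_four hf₁ a₁ v hvm _
        · exact flo_rep_two hf₁ a₁ v hvm h _
      have hev2 : Even (flo mv a₂ f₂ q₁.1.length W) := by
        rcases hecases with ⟨rfl, h⟩ | ⟨rfl, h⟩
        · exact flo_rep_four hf₂ a₂ v hvm _
        · exact flo_rep_two hf₂ a₂ v hvm h _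
      have hw1 : wsum mv 4 (twt a₁ f₁ 0) q₁ W = flo mv a₁ f₁ q₁.1.length W := by linarith
      have hw2 : wsum mv 4 (twt a₂ f₂ 0) q₁ W = flo mv a₂ f₂ q₁.1.length W := by linarith
      rw [hadd, hw1, hw2] at hpar
      have hcnt := fcc_cAll_length W hWm q₁
      rw [hfix, hWlen] at hcnt
      have hr : fcc (tStep mv 4) (cAll mv 4) q₁ W * 4 = e * v.length := by omega
      have hevr : Even ((fcc (tStep mv 4) (cAll mv 4) q₁ W : ℕ) : ℤ) := by
        have h5 := (hev1.add hev2).sub hpar
        have e6 : flo mv a₁ f₁ q₁.1.length W + flo mv a₂ f₂ q₁.1.length W -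
            (flo mv a₁ f₁ q₁.1.length W + flo mv a₂ f₂ q₁.1.length W -
              ((fcc (tStep mv 4) (cAll mv 4) q₁ W : ℕ) : ℤ)) =
            ((fcc (tStep mv 4) (cAll mv 4) q₁ W : ℕ) : ℤ) := by ring
        rw [e6] at h5
        exact h5
      have hevn : Even (fcc (tStep mv 4) (cAll mv 4) q₁ W) := by exact_mod_cast hevr
      obtain ⟨c, hc⟩ := hevn
      rcases hecases with ⟨rfl, h⟩ | ⟨rfl, h⟩
      · obtain ⟨d, hd⟩ := h
        omega
      · obtain ⟨d, hd⟩ := h
        omega
    have hNL : 4 ≤ v.length := Nat.le_of_dvd hLpos hdvd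
    set q₁ := run (tStep mv 4) q v with hq₁
    have hlen1 : q₁.1.length = q.1.length := by
      rw [hq₁, length_run v hvm]
      obtain ⟨c, hc⟩ := hdvd
      rw [hc, Nat.add_mul_mod_self_left]
      exact Nat.mod_eq_of_lt q.2
    have hfix : run (tStep mv 4) q₁ v = q₁ := by
      rw [run_indep v hvm q₁ q hlen1 (by omega)]
    have hrep : ∀ n, run (tStep mv 4) q₁ (rep v n) = q₁ := by
      intro n
      induction n with
      | zero => rfl
      | succ n ih => rw [rep, run_append, hfix, ih]
    obtain ⟨m', rfl⟩ : ∃ m', m = m' + 1 := ⟨m - 1, by omega⟩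
    rw [rep, run_append, ← hq₁, hrep] at hcl'
    exact hcl'

/-! ### Sums over the positions of a letter -/

section Sy

variable {B : Type} {R : Type} [AddCommMonoid R] [DecidableEq B]

/-- Sum of a function of the prefix over the positions of `y`, with a start word. -/
def syFrom (y : B) (g : List B → R) : List B → List B → R
  | _, [] => 0
  | acc, a :: w => (if a = y then g acc else 0) + syFrom y g (acc ++ [a]) w

/-- Sum of a function of the prefix over the positions of `y`. -/
def sy (y : B) (g : List B → R) (w : List B) : R := syFrom y g [] w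

theorem syFrom_snoc (y : B) (g : List B → R) (acc w : List B) (a : B) :
    syFrom y g acc (w ++ [a]) = syFrom y g acc w + if a = y then g (acc ++ w) else 0 := by
  induction w generalizing acc with
  | nil => simp [syFrom]
  | cons b w ih =>
    simp only [List.cons_append, syFrom, ih, List.append_assoc, add_assoc]
    simp

theorem sy_snoc (y : B) (g : List B → R) (w : List B) (a : B) :
    sy y g (w ++ [a]) = sy y g w + if a = y then g w else 0 := by
  simp [sy, syFrom_snoc]

@[simp] theorem sy_nil (y : B) (g : List B → R) : sy y g [] = 0 := rfl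

theorem sy_congr (y : B) {g g' : List B → R} (h : ∀ u, g u = g' u) (w : List B) :
    sy y g w = sy y g' w := by
  have : g = g' := funext h
  rw [this]

theorem sy_add (y : B) (g g' : List B → R) (w : List B) :
    sy y (fun u => g u + g' u) w = sy y g w + sy y g' w := by
  induction w using List.reverseRecOn with
  | nil => simp
  | append_singleton w a ih =>
    simp only [sy_snoc, ih]
    by_cases h : a = y
    · simp only [h, if_true]
      simp only [add_assoc, add_left_comm]
    · simp [h]

theorem sy_zero (y : B) (w : List B) : sy y (fun _ => (0 : R)) w = 0 := by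
  induction w using List.reverseRecOn with
  | nil => simp
  | append_singleton w a ih =>
    simp only [sy_snoc, ih]
    simp

theorem sy_finset_sum {ι : Type} (y : B) (s : Finset ι) (g : ι → List B → R) (w : List B) :
    sy y (fun u => ∑ i ∈ s, g i u) w = ∑ i ∈ s, sy y (g i) w := by
  induction s using Finset.induction_on with
  | empty => simpa using sy_zero y w
  | insert a s ha ih =>
    simp only [Finset.sum_insert ha]
    rw [sy_add, ih]

end Sy

theorem tf_eq_sy {Q R : Type} [AddCommMonoid R] (δ : A → Q → Q) (y : A) (h : Q → R)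
    (s : Q) (w : List A) : tf δ y h s w = sy y (fun u => h (run δ s u)) w := by
  induction w using List.reverseRecOn with
  | nil => rfl
  | append_singleton w a ih =>
    rw [tf_snoc, sy_snoc, ih]

/-! ### Flows at the empty memory of a function of a counter of windows -/

/-- The data of a pure set of windows. -/
def PureZ (mv : A → Prop) (Z : List A → Prop) : Prop :=
  ∀ (u : List A) (q : TMem A 4) (m : ℕ), 0 < m → run (tStep mv 4) q (rep u m) = q →
    fcc (tStep mv 4) (cP mv 4 (fun t => ¬ Z t)) q (rep u m) = 0 → run (tStep mv 4) q u = q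

theorem good_tf_hub {Q : Type} [DecidableEq Q] [Fintype Q] [Finite A] {n : ℕ} [NeZero n]
    {δ : A → Q → Q} {S : A → Prop} [DecidablePred S] {v : Q} (hv : IsHub δ v)
    (hS : ∀ a, ¬ S a → ∀ s, δ a s = s) {y : A} (hy : ¬ S y) (s : Q) :
    Good (tf δ y (fun x => if x = v then (1 : ZMod n) else 0) s) := by
  have e : tf δ y (fun x => if x = v then (1 : ZMod n) else 0) s = fun w =>
      ((vc δ (fun a => S a ∨ a = y) v s w : ℕ) : ZMod n) - ((vc δ S v s w : ℕ) : ZMod n) := by
    funext w
    rw [tf_eq_sum δ y hy]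
    rw [Finset.sum_eq_single v]
    · simp
    · intro b _ hb
      simp [hb]
    · intro h
      exact absurd (Finset.mem_univ _) h
  rw [e]
  refine Good.sub (good_vc hv (fun a ha => ?_) s) (good_vc hv hS s)
  exact hS a (fun h => ha (Or.inl h))

variable [Fintype A]

noncomputable instance tmemFintype : Fintype (TMem A 4) := Fintype.ofFinite _

/-- The machine with a counter of the windows outside `Z`. -/
noncomputable abbrev mZ (mv : A → Prop) (Z : List A → Prop) (n : ℕ) :
    A → TMem A 4 × ZMod n → TMem A 4 × ZMod n :=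
  chgStep (tStep mv 4) (cP mv 4 (fun t => ¬ Z t)) n

theorem mZ_isHub {Z : List A → Prop} (hZ : PureZ mv Z) {n : ℕ} [NeZero n] :
    IsHub (mZ mv Z n) (tNil 4, (0 : ZMod n)) :=
  chg_isHub (fun _ _ h => tStep_of_cAll h.1) hZ

theorem mZ_stationary (Z : List A → Prop) (n : ℕ) (a : A) (ha : ¬ mv a)
    (s : TMem A 4 × ZMod n) : mZ mv Z n a s = s := by
  obtain ⟨q, t⟩ := s
  have h1 : ¬ cP mv 4 (fun t => ¬ Z t) a q := fun h => ha h.1.1
  simp [mZ, chgStep, tStep_stationary ha, h1]

/-- **Flows at the empty memory of a function of a counter of windows are good.** -/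
theorem good_sy_P {Z : List A → Prop} (hZ : PureZ mv Z) {n m : ℕ} [NeZero n] [NeZero m]
    (P : ZMod n → ZMod m) {y : A} (hy : ¬ mv y) (q : TMem A 4) :
    Good (sy y (fun u : List A => if run (tStep mv 4) q u = tNil 4 then
      P ((fcc (tStep mv 4) (cP mv 4 (fun t => ¬ Z t)) q u : ℕ) : ZMod n) else 0)) := by
  haveI : Fintype (ZMod n) := ZMod.fintype n
  have e : (sy y (fun u : List A => if run (tStep mv 4) q u = tNil 4 then
      P ((fcc (tStep mv 4) (cP mv 4 (fun t => ¬ Z t)) q u : ℕ) : ZMod n) else 0)) =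
      fun w => ∑ k : ZMod n, P k * tf (mZ mv Z n) y
        (fun x => if x = (tNil 4, (0 : ZMod n)) then (1 : ZMod m) else 0) (q, -k) w := by
    funext w
    simp_rw [tf_eq_sy]
    have hmul : ∀ k : ZMod n, P k * sy y (fun u => if run (mZ mv Z n) (q, -k) u =
        (tNil 4, (0 : ZMod n)) then (1 : ZMod m) else 0) w =
        sy y (fun u => P k * if run (mZ mv Z n) (q, -k) u =
        (tNil 4, (0 : ZMod n)) then (1 : ZMod m) else 0) w := by
      intro k
      induction w using List.reverseRecOn with
      | nil => simp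
      | append_singleton w a ih =>
        simp only [sy_snoc, mul_add, ih]
        by_cases h : a = y <;> simp [h]
    simp_rw [hmul]
    rw [← sy_finset_sum]
    refine sy_congr y (fun u => ?_) w
    have hrun : ∀ k : ZMod n, run (mZ mv Z n) (q, -k) u = (run (tStep mv 4) q u,
        -k + ((fcc (tStep mv 4) (cP mv 4 (fun t => ¬ Z t)) q u : ℕ) : ZMod n)) := by
      intro k
      exact run_chg _ _ _ _ _ _
    by_cases hm : run (tStep mv 4) q u = tNil 4
    · simp only [hm, if_true, hrun, Prod.mk.injEq, true_and]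
      set c : ZMod n := ((fcc (tStep mv 4) (cP mv 4 (fun t => ¬ Z t)) q u : ℕ) : ZMod n) with hc
      rw [Finset.sum_eq_single c]
      · simp
      · intro b _ hb
        have : ¬ (-b + c = 0) := by
          intro h0
          apply hb
          have : c = b := by
            have := eq_neg_of_add_eq_zero_left h0
            simpa using this.symm
          exact this.symm
        simp [this]
      · intro h
        exact absurd (Finset.mem_univ _) h
    · simp [hm, hrun]
  rw [e]
  refine Good.finset_sum _ (fun k _ => ?_)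
  refine (good_tf_hub (S := mv) (mZ_isHub hZ) (fun a ha s => mZ_stationary Z n a ha s) hy _).comp
    (fun x => P k * x)

omit [Fintype A] in
theorem fcc_cP_compl (Z : List A → Prop) (w : List A) (q : TMem A N) :
    fcc (tStep mv N) (cP mv N Z) q w + fcc (tStep mv N) (cP mv N (fun t => ¬ Z t)) q w =
      fcc (tStep mv N) (cAll mv N) q w := by
  induction w generalizing q with
  | nil => simp
  | cons b w ih =>
    simp only [fcc_cons]
    have h := ih (tStep mv N b q)
    by_cases hc : cAll mv N b q
    · by_cases hz : Z (q.1 ++ [b])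
      · have h1 : cP mv N Z b q := ⟨hc, hz⟩
        have h2 : ¬ cP mv N (fun t => ¬ Z t) b q := fun h => h.2 hz
        simp only [h1, h2, hc, if_true, if_false]
        omega
      · have h1 : ¬ cP mv N Z b q := fun h => hz h.2
        have h2 : cP mv N (fun t => ¬ Z t) b q := ⟨hc, hz⟩
        simp only [h1, h2, hc, if_true, if_false]
        omega
    · have h1 : ¬ cP mv N Z b q := fun h => hc h.1
      have h2 : ¬ cP mv N (fun t => ¬ Z t) b q := fun h => hc h.1
      simp only [h1, h2, hc, if_false]
      omega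

omit [Fintype A] in
theorem wsum_cast (G : List A → ℤ) (w : List A) (q : TMem A N) :
    ((wsum mv N G q w : ℤ) : ZMod 2) =
      ((fcc (tStep mv N) (cP mv N (fun t => Odd (G t))) q w : ℕ) : ZMod 2) := by
  induction w generalizing q with
  | nil => simp [wsum]
  | cons b w ih =>
    simp only [wsum, fcc_cons]
    push_cast
    rw [ih]
    by_cases hc : cAll mv N b q
    · by_cases ho : Odd (G (q.1 ++ [b]))
      · have h1 : cP mv N (fun t => Odd (G t)) b q := ⟨hc, ho⟩
        simp only [hc, h1, if_true]
        have : ((G (q.1 ++ [b]) : ℤ) : ZMod 2) = 1 := by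
          rw [ZMod.intCast_eq_one_iff_odd]
          exact ho
        rw [this]
      · have h1 : ¬ cP mv N (fun t => Odd (G t)) b q := fun h => ho h.2
        simp only [hc, h1, if_true, if_false]
        have : ((G (q.1 ++ [b]) : ℤ) : ZMod 2) = 0 := by
          rw [ZMod.intCast_zmod_eq_zero_iff_dvd]
          exact even_iff_two_dvd.1 (Int.not_odd_iff_even.1 ho)
        rw [this]
    · have h1 : ¬ cP mv N (fun t => Odd (G t)) b q := fun h => hc h.1
      simp [hc, h1]

omit [Fintype A] in
theorem fcc_odd_add (G₁ G₂ : List A → ℤ) (w : List A) (q : TMem A N) :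
    fcc (tStep mv N) (cP mv N (fun t => Odd (G₁ t + G₂ t))) q w +
      2 * fcc (tStep mv N) (cP mv N (fun t => Odd (G₁ t) ∧ Odd (G₂ t))) q w =
    fcc (tStep mv N) (cP mv N (fun t => Odd (G₁ t))) q w +
      fcc (tStep mv N) (cP mv N (fun t => Odd (G₂ t))) q w := by
  induction w generalizing q with
  | nil => simp
  | cons b w ih =>
    simp only [fcc_cons]
    have h := ih (tStep mv N b q)
    by_cases hc : cAll mv N b q
    · have key : ∀ Z : List A → Prop, (cP mv N Z b q) ↔ Z (q.1 ++ [b]) :=
        fun Z => ⟨fun h => h.2, fun h => ⟨hc, h⟩⟩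
      simp only [key]
      by_cases h1 : Odd (G₁ (q.1 ++ [b])) <;> by_cases h2 : Odd (G₂ (q.1 ++ [b]))
      · have h3 : ¬ Odd (G₁ (q.1 ++ [b]) + G₂ (q.1 ++ [b])) :=
          Int.not_odd_iff_even.2 (h1.add_odd h2)
        simp only [h1, h2, h3, and_self, if_true, if_false]
        omega
      · have h3 : Odd (G₁ (q.1 ++ [b]) + G₂ (q.1 ++ [b])) :=
          h1.add_even (Int.not_odd_iff_even.1 h2)
        simp only [h1, h2, h3, and_false, if_true, if_false]
        omega
      · have h3 : Odd (G₁ (q.1 ++ [b]) + G₂ (q.1 ++ [b])) :=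
          (Int.not_odd_iff_even.1 h1).add_odd h2
        simp only [h1, h2, h3, and_true, if_true, if_false]
        omega
      · have h3 : ¬ Odd (G₁ (q.1 ++ [b]) + G₂ (q.1 ++ [b])) :=
          Int.not_odd_iff_even.2 ((Int.not_odd_iff_even.1 h1).add (Int.not_odd_iff_even.1 h2))
        simp only [h1, h2, h3, and_self, if_false]
        omega
    · have key : ∀ Z : List A → Prop, ¬ (cP mv N Z b q) := fun Z h => hc h.1
      simp only [key, if_false]
      omega

/-- The arithmetic of the products of counters. -/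
theorem arith_two (c₁ c₂ c₃ g e E₁ E₂ E₃ : ℕ) (h1 : c₁ + E₁ = e) (h2 : c₂ + E₂ = e)
    (h3 : c₃ + E₃ = e) (h4 : c₃ + 2 * g = c₁ + c₂) :
    ((c₁ * c₂ : ℕ) : ZMod 2) = ((E₃.choose 2 : ℕ) : ZMod 2) + ((E₁.choose 2 : ℕ) : ZMod 2) +
      ((E₂.choose 2 : ℕ) : ZMod 2) + ((e.choose 2 : ℕ) : ZMod 2) + (g : ZMod 2) := by
  have t : ∀ k : ℕ, 2 * ((k.choose 2 : ℕ) : ℤ) = (k : ℤ) * k - k := fun k => two_mul_choose_two k
  have key : ((c₁ : ℤ) * c₂) - (((E₃.choose 2 : ℕ) : ℤ) + ((E₁.choose 2 : ℕ) : ℤ) +
      ((E₂.choose 2 : ℕ) : ℤ) + ((e.choose 2 : ℕ) : ℤ) + (g : ℤ)) =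
      2 * (-(E₃ : ℤ) * g + (g : ℤ) * g - ((E₁.choose 2 : ℕ) : ℤ) - ((E₂.choose 2 : ℕ) : ℤ)) := by
    have h1' : (c₁ : ℤ) = e - E₁ := by omega
    have h2' : (c₂ : ℤ) = e - E₂ := by omega
    have h3' : (E₃ : ℤ) = e - c₁ - c₂ + 2 * g := by omega
    have t1 := t E₁
    have t2 := t E₂
    have t3 := t E₃
    have t4 := t e
    -- everything in terms of `c₁, c₂, g, e`
    have h5 : (E₁ : ℤ) = e - c₁ := by omega
    have h6 : (E₂ : ℤ) = e - c₂ := by omega
    rw [h5] at t1
    rw [h6] at t2
    rw [h3'] at t3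
    rw [h3']
    have h0 : 2 * (((c₁ : ℤ) * c₂) - (((E₃.choose 2 : ℕ) : ℤ) + ((E₁.choose 2 : ℕ) : ℤ) +
        ((E₂.choose 2 : ℕ) : ℤ) + ((e.choose 2 : ℕ) : ℤ) + (g : ℤ)) -
        2 * (-((e : ℤ) - c₁ - c₂ + 2 * g) * g + (g : ℤ) * g - ((E₁.choose 2 : ℕ) : ℤ) -
          ((E₂.choose 2 : ℕ) : ℤ))) = 0 := by
      linear_combination -t3 + t1 + t2 - t4
    linarith
  have e2 : (((c₁ : ℤ) * c₂ : ℤ) : ZMod 2) = ((((E₃.choose 2 : ℕ) : ℤ) + ((E₁.choose 2 : ℕ) : ℤ) +
      ((E₂.choose 2 : ℕ) : ℤ) + ((e.choose 2 : ℕ) : ℤ) + (g : ℤ) : ℤ) : ZMod 2) := by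
    rw [ZMod.intCast_eq_intCast_iff_dvd_sub]
    refine ⟨-(-(E₃ : ℤ) * g + (g : ℤ) * g - ((E₁.choose 2 : ℕ) : ℤ) - ((E₂.choose 2 : ℕ) : ℤ)), ?_⟩
    push_cast
    linarith
  push_cast at e2 ⊢
  exact e2

theorem good_sy_add {R : Type} [AddCommMonoid R] [Finite R] {y : A} {g g' : List A → R}
    (h : Good (sy y g)) (h' : Good (sy y g')) : Good (sy y (fun u => g u + g' u)) := by
  have e : sy y (fun u => g u + g' u) = fun w => sy y g w + sy y g' w :=
    funext (sy_add y g g')
  rw [e]
  exact h.add h'

omit [Fintype A] in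
theorem twt_zero_fn (a : A) (k : ℕ) (t : List A) : twt a (fun _ => (0 : ℤ)) k t = 0 := by
  induction t generalizing k with
  | nil => rfl
  | cons b t ih =>
    rw [twt_cons, ih]
    simp

/-- The residue modulo two of a binomial coefficient, as a function modulo four. -/
noncomputable def pc2 (x : ZMod 4) : ZMod 2 := ((x.val.choose 2 : ℕ) : ZMod 2)

theorem pc2_cast (k : ℕ) : pc2 ((k : ℕ) : ZMod 4) = ((k.choose 2 : ℕ) : ZMod 2) := by
  unfold pc2
  rw [ZMod.val_natCast]
  have h : ∀ c r : ℕ, (((4 * c + r).choose 2 : ℕ) : ZMod 2) = ((r.choose 2 : ℕ) : ZMod 2) := by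
    intro c r
    rw [choose_two_add]
    have h1 : (4 * c).choose 2 = 2 * (c * (4 * c - 1)) := by
      have := choose_two_mul (2 * c)
      rw [show 2 * (2 * c) = 4 * c by ring] at this
      rw [this]
      ring
    rw [h1]
    push_cast
    have h2 : (2 : ZMod 2) = 0 := rfl
    have h4 : (4 : ZMod 2) = 0 := rfl
    simp [h2, h4]
  have := h (k / 4) (k % 4)
  rw [Nat.div_add_mod] at this
  exact this.symm

omit [Fintype A] in
theorem pure_of_odd (a₁ a₂ : A) (ha₁ : mv a₁) (ha₂ : mv a₂) (f₁ f₂ : ℕ → ℤ)
    (hf₁ : ∀ i, f₁ (i + 2) = f₁ i) (hf₂ : ∀ i, f₂ (i + 2) = f₂ i) (Z : List A → Prop)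
    (hZ : ∀ t, Z t → Odd (twt a₁ f₁ 0 t + twt a₂ f₂ 0 t)) : PureZ mv Z :=
  fun u q m hm hcl h0 => tileZ_H a₁ a₂ ha₁ ha₂ f₁ f₂ hf₁ hf₂ Z hZ u q m hm hcl h0

/-- **Flows of products of two weights of period two at the empty memory are good modulo two.** -/
theorem good_sy_prod (a₁ a₂ : A) (ha₁ : mv a₁) (ha₂ : mv a₂) (f₁ f₂ : ℕ → ℤ)
    (hf₁ : ∀ i, f₁ (i + 2) = f₁ i) (hf₂ : ∀ i, f₂ (i + 2) = f₂ i) {y : A} (hy : ¬ mv y)
    (q : TMem A 4) :
    Good (sy y (fun u : List A => if run (tStep mv 4) q u = tNil 4 then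
      ((wsum mv 4 (twt a₁ f₁ 0) q u : ℤ) : ZMod 2) * ((wsum mv 4 (twt a₂ f₂ 0) q u : ℤ) : ZMod 2)
      else 0)) := by
  set G₁ := twt a₁ f₁ 0 with hG₁
  set G₂ := twt a₂ f₂ 0 with hG₂
  have hz0 : ∀ (a : A) (t : List A), twt a (fun _ => (0 : ℤ)) 0 t = 0 :=
    fun a t => twt_zero_fn a 0 t
  have hf0 : ∀ i : ℕ, (fun _ : ℕ => (0 : ℤ)) (i + 2) = (fun _ : ℕ => (0 : ℤ)) i := fun _ => rfl
  have p3 : PureZ mv (fun t => Odd (G₁ t + G₂ t)) :=
    pure_of_odd a₁ a₂ ha₁ ha₂ f₁ f₂ hf₁ hf₂ _ (fun t h => h)
  have p1 : PureZ mv (fun t => Odd (G₁ t)) :=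
    pure_of_odd a₁ a₂ ha₁ ha₂ f₁ (fun _ => 0) hf₁ hf0 _ (fun t h => by
      rw [hz0, add_zero]; exact h)
  have p2 : PureZ mv (fun t => Odd (G₂ t)) :=
    pure_of_odd a₁ a₂ ha₁ ha₂ (fun _ => 0) f₂ hf0 hf₂ _ (fun t h => by
      rw [hz0, zero_add]; exact h)
  have p4 : PureZ mv (fun t => Odd (G₁ t) ∧ Odd (G₂ t)) :=
    pure_of_odd a₁ a₂ ha₁ ha₂ f₁ (fun _ => 0) hf₁ hf0 _ (fun t h => by
      rw [hz0, add_zero]; exact h.1)
  have p0 : PureZ mv (fun _ => False) :=
    pure_of_odd a₁ a₂ ha₁ ha₂ f₁ f₂ hf₁ hf₂ _ (fun t h => h.elim)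
  have g3 := good_sy_P p3 (m := 2) pc2 hy q
  have g1 := good_sy_P p1 (m := 2) pc2 hy q
  have g2 := good_sy_P p2 (m := 2) pc2 hy q
  have g0 := good_sy_P p0 (m := 2) pc2 hy q
  have g0' := good_sy_P p0 (m := 2) (n := 2) id hy q
  have g4 := good_sy_P p4 (m := 2) (n := 2) id hy q
  have gall := good_sy_add (good_sy_add (good_sy_add (good_sy_add (good_sy_add g3 g1) g2) g0) g0') g4
  refine Eq.mp (congrArg Good ?_) gall
  refine funext (fun w => sy_congr y (fun u => ?_) w)
  · symm
    by_cases hm : run (tStep mv 4) q u = tNil 4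
    · simp only [hm, if_true, id]
      rw [wsum_cast, wsum_cast]
      simp only [pc2_cast]
      set c₁ := fcc (tStep mv 4) (cP mv 4 (fun t => Odd (G₁ t))) q u
      set c₂ := fcc (tStep mv 4) (cP mv 4 (fun t => Odd (G₂ t))) q u
      set c₃ := fcc (tStep mv 4) (cP mv 4 (fun t => Odd (G₁ t + G₂ t))) q u
      set g := fcc (tStep mv 4) (cP mv 4 (fun t => Odd (G₁ t) ∧ Odd (G₂ t))) q u
      set E₁ := fcc (tStep mv 4) (cP mv 4 (fun t => ¬ Odd (G₁ t))) q u
      set E₂ := fcc (tStep mv 4) (cP mv 4 (fun t => ¬ Odd (G₂ t))) q u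
      set E₃ := fcc (tStep mv 4) (cP mv 4 (fun t => ¬ Odd (G₁ t + G₂ t))) q u
      set E₄ := fcc (tStep mv 4) (cP mv 4 (fun t => ¬ (Odd (G₁ t) ∧ Odd (G₂ t)))) q u
      set E₀ := fcc (tStep mv 4) (cP mv 4 (fun _ => ¬ False)) q u
      set e := fcc (tStep mv 4) (cAll mv 4) q u
      have h1 : c₁ + E₁ = e := fcc_cP_compl _ u q
      have h2 : c₂ + E₂ = e := fcc_cP_compl _ u q
      have h3 : c₃ + E₃ = e := fcc_cP_compl _ u q
      have h4 : g + E₄ = e := fcc_cP_compl _ u q
      have h5 : c₃ + 2 * g = c₁ + c₂ := fcc_odd_add G₁ G₂ u q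
      have h0 : E₀ = e := by
        have := fcc_cP_compl (mv := mv) (N := 4) (fun _ => False) u q
        have hz : fcc (tStep mv 4) (cP mv 4 (fun _ => False)) q u = 0 := by
          have hm' : ∀ (w : List A) (s : TMem A 4),
              fcc (tStep mv 4) (cP mv 4 (fun _ => False)) s w = 0 := by
            intro w
            induction w with
            | nil => intro s; rfl
            | cons b w ih =>
              intro s
              rw [fcc_cons, ih]
              have : ¬ cP mv 4 (fun _ => False) b s := fun h => h.2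
              simp [this]
          exact hm' u q
        rw [hz, zero_add] at this
        exact this
      have ar := arith_two c₁ c₂ c₃ g e E₁ E₂ E₃ h1 h2 h3 h5
      have hg : (g : ZMod 2) = ((E₀ : ℕ) : ZMod 2) + ((E₄ : ℕ) : ZMod 2) := by
        rw [h0, ← h4]
        push_cast
        have h22 : ((E₄ : ℕ) : ZMod 2) + ((E₄ : ℕ) : ZMod 2) = 0 := CharTwo.add_self_eq_zero _
        rw [add_assoc, h22, add_zero]
      rw [← Nat.cast_mul, ar, hg, h0]
      ring
    · simp [hm]

/-! ### All alignments -/

/-- A memory filled with a dummy letter. -/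
def dum (b : A) (l : ℕ) (hl : l < 4) : TMem A 4 := ⟨List.replicate l b, by simpa using hl⟩

omit [Fintype A] in
theorem twt_replicate {a b : A} (hab : b ≠ a) (f : ℕ → ℤ) (k l : ℕ) :
    twt a f k (List.replicate l b) = 0 := by
  induction l generalizing k with
  | zero => rfl
  | succ l ih =>
    rw [List.replicate_succ, twt_cons, ih]
    simp [hab]

omit [Fintype A] in
theorem wsum_eq_flo {a b : A} (hab : b ≠ a) (ha : mv a) {f : ℕ → ℤ} (hf : ∀ i, f (i + 2) = f i)
    (l : ℕ) (hl : l < 4) (u : List A) (hu : run (tStep mv 4) (dum b l hl) u = tNil 4) :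
    wsum mv 4 (twt a f 0) (dum b l hl) u = flo mv a f l u := by
  have hf4 : ∀ i, f (i + 4) = f i := fun i => by
    rw [show i + 4 = i + 2 + 2 by ring, hf, hf]
  have h := flo_wsum (mv := mv) a ha hf4 u (dum b l hl)
  rw [hu] at h
  have h1 : (dum b l hl : TMem A 4).1 = List.replicate l b := rfl
  have h2 : (tNil 4 : TMem A 4).1 = [] := rfl
  rw [h1, h2, twt_replicate hab, List.length_replicate] at h
  simp only [twt_nil, add_zero] at h
  exact h.symm

omit [Fintype A] in
theorem run_dum_eq_nil (b : A) (l : ℕ) (hl : l < 4) (u : List A) :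
    run (tStep mv 4) (dum b l hl) u = tNil 4 ↔ (l + (u.filter mv).length) % 4 = 0 := by
  have h1 : (run (tStep mv 4) (dum b l hl) u).1.length = (l + (u.filter mv).length) % 4 := by
    rw [run_filter, length_run _ mem_filter_mv]
    simp [dum]
  constructor
  · intro h
    rw [← h1, h]
    rfl
  · intro h
    rw [h] at h1
    apply Subtype.ext
    exact List.length_eq_zero_iff.1 h1

omit [Fintype A] in
theorem flo_one (a : A) (k : ℕ) (u : List A) :
    flo mv a (fun _ => 1) k u = ((u.count a : ℕ) : ℤ) := by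
  induction u generalizing k with
  | nil => simp
  | cons b u ih =>
    rw [flo_cons, ih]
    by_cases h : b = a
    · subst h
      simp only [if_true, List.count_cons_self]
      push_cast
      ring
    · have h' : (b == a) = false := by simpa using h
      simp [h, List.count_cons, h']

/-- The parity of a number as an integer. -/
def par2 (i : ℕ) : ℤ := ((i % 2 : ℕ) : ℤ)

theorem par2_add (i : ℕ) : par2 (i + 2) = par2 i := by
  simp [par2]

theorem par2_cast (i : ℕ) : ((par2 i : ℤ) : ZMod 2) = (i : ZMod 2) := by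
  unfold par2
  push_cast
  have := ZMod.natCast_mod i 2
  exact_mod_cast this

omit [Fintype A] in
theorem flo_par (c : A) (k : ℕ) (u : List A) :
    ((flo mv c par2 k u : ℤ) : ZMod 2) =
      (k : ZMod 2) * ((u.count c : ℕ) : ZMod 2) + ((flo mv c par2 0 u : ℤ) : ZMod 2) := by
  induction u generalizing k with
  | nil => simp
  | cons b u ih =>
    have hcount : (((b :: u).count c : ℕ) : ZMod 2) =
        (if b = c then 1 else 0) + ((u.count c : ℕ) : ZMod 2) := by
      by_cases h : b = c
      · subst h
        simp only [if_true, List.count_cons_self]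
        push_cast
        ring
      · have h' : (b == c) = false := by simpa using h
        simp [h, List.count_cons, h']
    rw [hcount, flo_cons, flo_cons]
    push_cast
    by_cases hmv : mv b
    · simp only [hmv, if_true]
      rw [ih (k + 1), ih (0 + 1)]
      by_cases h : b = c
      · simp only [h, if_true, par2_cast]
        push_cast
        ring
      · simp only [h, if_false]
        push_cast
        ring
    · simp only [hmv, if_false]
      rw [ih k]
      by_cases h : b = c
      · simp only [h, if_true, par2_cast]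
        push_cast
        ring
      · simp only [h, if_false]
        push_cast
        ring

/-- **The form with all alignments.** -/
theorem good_sy_all {a b c y : A} (hmva : mv a) (hmvc : mv c) (hba : b ≠ a) (hbc : b ≠ c)
    (hy : ¬ mv y) :
    Good (sy y (fun u : List A => ((u.count a : ℕ) : ZMod 2) *
      (((u.filter mv).length : ZMod 2) * ((u.count c : ℕ) : ZMod 2) +
        ((flo mv c par2 0 u : ℤ) : ZMod 2)))) := by
  have h : ∀ l (hl : l < 4), Good (sy y (fun u : List A =>
      if (l + (u.filter mv).length) % 4 = 0 then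
        ((u.count a : ℕ) : ZMod 2) * ((l : ZMod 2) * ((u.count c : ℕ) : ZMod 2) +
          ((flo mv c par2 0 u : ℤ) : ZMod 2)) else 0)) := by
    intro l hl
    have h1 := good_sy_prod (mv := mv) a c hmva hmvc (fun _ => 1) par2 (fun _ => rfl) par2_add hy
      (dum b l hl)
    refine Eq.mp (congrArg Good ?_) h1
    refine funext (fun w => sy_congr y (fun u => ?_) w)
    by_cases hu : run (tStep mv 4) (dum b l hl) u = tNil 4
    · have hu' := (run_dum_eq_nil b l hl u).1 hu
      rw [if_pos hu, if_pos hu', wsum_eq_flo hba hmva (fun _ => rfl) l hl u hu,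
        wsum_eq_flo hbc hmvc par2_add l hl u hu, flo_one, flo_par]
      push_cast
      ring
    · have hu' : ¬ (l + (u.filter mv).length) % 4 = 0 := fun h => hu ((run_dum_eq_nil b l hl u).2 h)
      rw [if_neg hu, if_neg hu']
  have hs : Good (fun w => ∑ l : Fin 4, sy y (fun u : List A =>
      if (l.1 + (u.filter mv).length) % 4 = 0 then
        ((u.count a : ℕ) : ZMod 2) * ((l.1 : ZMod 2) * ((u.count c : ℕ) : ZMod 2) +
          ((flo mv c par2 0 u : ℤ) : ZMod 2)) else 0) w) :=
    Good.finset_sum _ (fun l _ => h l.1 l.2)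
  refine Eq.mp (congrArg Good ?_) hs
  funext w
  rw [← sy_finset_sum]
  refine sy_congr y (fun u => ?_) w
  set X := (u.filter mv).length with hX
  have hX4 : X % 4 < 4 := Nat.mod_lt _ (by norm_num)
  have key : ∀ F : ℕ → ZMod 2, (∑ l : Fin 4, if (l.1 + X) % 4 = 0 then F l.1 else 0) =
      F ((4 - X % 4) % 4) := by
    intro F
    rw [Fin.sum_univ_four]
    have h4 : X % 4 = 0 ∨ X % 4 = 1 ∨ X % 4 = 2 ∨ X % 4 = 3 := by omega
    rcases h4 with h4 | h4 | h4 | h4
    · have e0 : (0 + X) % 4 = 0 := by omega
      have e1 : ¬ (1 + X) % 4 = 0 := by omega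
      have e2 : ¬ (2 + X) % 4 = 0 := by omega
      have e3 : ¬ (3 + X) % 4 = 0 := by omega
      simp [e1, e2, e3, h4, e0]
    · have e0 : ¬ (0 + X) % 4 = 0 := by omega
      have e1 : ¬ (1 + X) % 4 = 0 := by omega
      have e2 : ¬ (2 + X) % 4 = 0 := by omega
      have e3 : (3 + X) % 4 = 0 := by omega
      simp [e1, e2, e3, h4, e0]
    · have e0 : ¬ (0 + X) % 4 = 0 := by omega
      have e1 : ¬ (1 + X) % 4 = 0 := by omega
      have e2 : (2 + X) % 4 = 0 := by omega
      have e3 : ¬ (3 + X) % 4 = 0 := by omega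
      simp [e1, e2, e3, h4, e0]
    · have e0 : ¬ (0 + X) % 4 = 0 := by omega
      have e1 : (1 + X) % 4 = 0 := by omega
      have e2 : ¬ (2 + X) % 4 = 0 := by omega
      have e3 : ¬ (3 + X) % 4 = 0 := by omega
      simp [e1, e2, e3, h4, e0]
  rw [key (fun l => ((u.count a : ℕ) : ZMod 2) * ((l : ZMod 2) * ((u.count c : ℕ) : ZMod 2) +
          ((flo mv c par2 0 u : ℤ) : ZMod 2)))]
  have hcast : (((4 - X % 4) % 4 : ℕ) : ZMod 2) = (X : ZMod 2) := by
    rw [ZMod.natCast_eq_natCast_iff]
    have h4 : X % 2 = (X % 4) % 2 := by omega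
    show ((4 - X % 4) % 4) % 2 = X % 2
    omega
  rw [hcast]

end Tile2

end Vale.Agent.Lib.P329
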