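import Vale.Agent.Lib.P329.Tile

/-!
Flows on `ZMod N`, all letters having step `0` or `1`: the number of occurrences of a letter at a
given position of the walk has good residues, for all `N`.
-/

namespace Vale.Agent.Lib.P329

section TileFlow

open Classical

variable {A : Type} (mv : A → Prop) (a : A)

/-- The sum over the occurrences of `a` of `f` of the number of moving letters before. -/
noncomputable def flo (f : ℕ → ℤ) : ℕ → List A → ℤ
  | _, [] => 0
  | k, b :: w => (if b = a then f k else 0) + flo f (if mv b then k + 1 else k) w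

/-- The weight of a window. -/
noncomputable def twt (f : ℕ → ℤ) : ℕ → List A → ℤ
  | _, [] => 0
  | k, b :: v => (if b = a then f k else 0) + twt f (k + 1) v

@[simp] theorem flo_nil (f : ℕ → ℤ) (k : ℕ) : flo mv a f k [] = 0 := rfl

theorem flo_cons (f : ℕ → ℤ) (k : ℕ) (b : A) (w : List A) :
    flo mv a f k (b :: w) = (if b = a then f k else 0) + flo mv a f (if mv b then k + 1 else k) w :=
  rfl

@[simp] theorem twt_nil (f : ℕ → ℤ) (k : ℕ) : twt a f k [] = 0 := rfl

theorem twt_cons (f : ℕ → ℤ) (k : ℕ) (b : A) (v : List A) :
    twt a f k (b :: v) = (if b = a then f k else 0) + twt a f (k + 1) v := rfl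

variable {mv a}

theorem flo_periodic {f : ℕ → ℤ} {N : ℕ} (hf : ∀ i, f (i + N) = f i) (k : ℕ) (w : List A) :
    flo mv a f (k + N) w = flo mv a f k w := by
  induction w generalizing k with
  | nil => rfl
  | cons b w ih =>
    rw [flo_cons, flo_cons, hf]
    by_cases hb : mv b
    · simp only [hb, if_true]
      rw [show k + N + 1 = k + 1 + N by omega, ih]
    · simp only [hb, if_false]
      rw [ih]

theorem flo_sub_smul (c : ℤ) (f g : ℕ → ℤ) (k : ℕ) (w : List A) :
    flo mv a (fun i => c * f i - g i) k w = c * flo mv a f k w - flo mv a g k w := by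
  induction w generalizing k with
  | nil => simp
  | cons b w ih =>
    simp only [flo_cons, ih]
    by_cases hb : b = a
    · simp only [hb, if_true]; ring
    · simp only [hb, if_false]; ring

theorem twt_snoc (f : ℕ → ℤ) (k : ℕ) (v : List A) (b : A) :
    twt a f k (v ++ [b]) = twt a f k v + (if b = a then f (k + v.length) else 0) := by
  induction v generalizing k with
  | nil => simp [twt_cons]
  | cons x v ih =>
    simp only [List.cons_append, twt_cons, ih, List.length_cons]
    rw [show k + 1 + v.length = k + (v.length + 1) by omega]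
    ring

theorem twt_eq_sum (f : ℕ → ℤ) (k : ℕ) (v : List A) :
    twt a f k v = ∑ i ∈ Finset.range v.length, if v[i]? = some a then f (k + i) else 0 := by
  induction v generalizing k with
  | nil => simp
  | cons b v ih =>
    rw [twt_cons, ih, List.length_cons, Finset.sum_range_succ']
    simp only [List.getElem?_cons_succ, List.getElem?_cons_zero, Option.some.injEq, add_zero]
    rw [add_comm]
    congr 1
    refine Finset.sum_congr rfl (fun i _ => ?_)
    rw [show k + 1 + i = k + (i + 1) by omega]

theorem sum_range_mul' (G : ℕ → ℤ) (d q : ℕ) :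
    ∑ i ∈ Finset.range (d * q), G i =
      ∑ r ∈ Finset.range d, ∑ k ∈ Finset.range q, G (r + k * d) := by
  induction q with
  | zero => simp
  | succ q ih =>
    rw [Nat.mul_succ, Finset.sum_range_add, ih, ← Finset.sum_add_distrib]
    refine Finset.sum_congr rfl (fun r _ => ?_)
    rw [Finset.sum_range_succ]
    congr 1
    rw [show d * q + r = r + q * d by ring]

section Main

variable {N : ℕ} [NeZero N]

/-- The main identity for the memory. -/
theorem flo_identity [Fintype A] (ha : mv a) {f : ℕ → ℤ} (hf : ∀ i, f (i + N) = f i) (w : List A)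
    (q : TMem A N) :
    flo mv a f q.1.length w + twt a f 0 q.1 =
      (∑ t : List.Vector A N, twt a f 0 t.1 * ((fcc (tStep mv N) (cEq mv N t.1) q w : ℕ) : ℤ)) +
        twt a f 0 (run (tStep mv N) q w).1 := by
  induction w generalizing q with
  | nil => simp
  | cons b w ih =>
    simp only [flo_cons, fcc_cons, run_cons]
    push_cast
    simp only [mul_add, Finset.sum_add_distrib]
    by_cases hb : mv b
    · by_cases hlt : q.1.length + 1 < N
      · have hnc : ∀ t : List.Vector A N, ¬ cEq mv N t.1 b q := fun t h => by
          have := h.1.2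
          omega
        have e1 := ih (tStep mv N b q)
        rw [tStep_lt hb q hlt] at e1 ⊢
        simp only [List.length_append, List.length_cons, List.length_nil, zero_add, hb, if_true]
          at e1 ⊢
        simp only [hnc, if_false, mul_zero, Finset.sum_const_zero, zero_add]
        rw [twt_snoc] at e1
        simp only [zero_add] at e1
        linarith
      · have hle : q.1.length + 1 = N := by
          have := q.2
          omega
        let t₀ : List.Vector A N := ⟨q.1 ++ [b], by simp [hle]⟩
        have h1 : (∑ t : List.Vector A N, twt a f 0 t.1 * (if cEq mv N t.1 b q then (1 : ℤ) else 0)) =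
            twt a f 0 (q.1 ++ [b]) := by
          rw [Finset.sum_eq_single t₀]
          · have : cEq mv N t₀.1 b q := ⟨⟨hb, hle⟩, rfl⟩
            simp only [this, if_true, mul_one]
            rfl
          · intro t _ ht
            have : ¬ cEq mv N t.1 b q := fun h => ht (Subtype.ext h.2.symm)
            simp [this]
          · intro h
            exact absurd (Finset.mem_univ _) h
        have e1 := ih (tStep mv N b q)
        rw [tStep_eq hb q hle] at e1 ⊢
        have hn1 : (tNil N : TMem A N).1 = [] := rfl
        rw [hn1] at e1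
        simp only [List.length_nil, twt_nil, add_zero] at e1
        rw [h1, twt_snoc]
        simp only [hb, if_true, hle]
        have e2 : flo mv a f N w = flo mv a f 0 w := by
          have := flo_periodic (mv := mv) (a := a) hf 0 w
          rwa [zero_add] at this
        rw [e2, e1]
        simp only [zero_add]
        ring
    · have hba : b ≠ a := fun h => hb (h ▸ ha)
      have hnc : ∀ t : List.Vector A N, ¬ cEq mv N t.1 b q := fun t h => hb h.1.1
      rw [tStep_stationary hb]
      simp only [hba, hb, hnc, if_false, mul_zero, Finset.sum_const_zero, zero_add]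
      exact ih q

/-- A period of a window which is not a multiple of `N` gives a period `N / q`, `q` prime. -/
theorem exists_prime_period (t : List A) (ht : t.length = N)
    (hprim : ¬ ∀ L, (∀ y, TFn t ht (y + L) = TFn t ht y) → N ∣ L) :
    ∃ q, q.Prime ∧ q ∣ N ∧ ∀ y, TFn t ht (y + N / q) = TFn t ht y := by
  have hN : 0 < N := Nat.pos_of_ne_zero (NeZero.ne N)
  push Not at hprim
  obtain ⟨L, hL, hnd⟩ := hprim
  have hmul : ∀ (P c : ℕ), (∀ y, TFn t ht (y + P) = TFn t ht y) →
      ∀ y, TFn t ht (y + P * c) = TFn t ht y := by
    intro P c hP y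
    induction c with
    | zero => simp
    | succ c ih =>
      rw [Nat.mul_succ, ← add_assoc, hP, ih]
  set g := Nat.gcd L N with hg
  have hgN : g ∣ N := Nat.gcd_dvd_right _ _
  have hglt : g < N := by
    refine lt_of_le_of_ne (Nat.le_of_dvd hN hgN) ?_
    intro he
    apply hnd
    rw [← he]
    exact Nat.gcd_dvd_left _ _
  have hgpos : 0 < g := Nat.gcd_pos_of_pos_right _ hN
  obtain ⟨u, -, hu⟩ := Nat.exists_mul_mod_eq_gcd (k := N) (n := L) hglt
  have hperg : ∀ y, TFn t ht (y + g) = TFn t ht y := by
    intro y
    have h1 := hmul L u hL y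
    have h2 : L * u = N * (L * u / N) + g := by
      have := Nat.div_add_mod (L * u) N
      rw [hu] at this
      exact this.symm
    rw [h2, show y + (N * (L * u / N) + g) = y + g + N * (L * u / N) by ring, TFn_add_mul] at h1
    exact h1
  obtain ⟨c, hc⟩ := hgN
  have hc1 : c ≠ 1 := by
    rintro rfl
    omega
  refine ⟨c.minFac, Nat.minFac_prime hc1, ?_, ?_⟩
  · rw [hc]
    exact Dvd.dvd.mul_left (Nat.minFac_dvd c) g
  · obtain ⟨e, he⟩ := Nat.minFac_dvd c
    have hqpos : 0 < c.minFac := Nat.minFac_pos c
    have hdiv : N / c.minFac = g * e := by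
      rw [hc]
      nth_rw 1 [he]
      rw [show g * (c.minFac * e) = c.minFac * (g * e) by ring,
        Nat.mul_div_cancel_left _ hqpos]
    rw [hdiv]
    exact hmul g e hperg

/-- Windows which are not primitive have zero weight. -/
theorem twt_eq_zero_of_period {f : ℕ → ℤ} (t : List A) (ht : t.length = N) {q : ℕ}
    (hq : q ∣ N) (hper : ∀ y, TFn t ht (y + N / q) = TFn t ht y)
    (hz : ∀ r, ∑ k ∈ Finset.range q, f (r + k * (N / q)) = 0) : twt a f 0 t = 0 := by
  have hmul : ∀ (r c : ℕ), TFn t ht (r + c * (N / q)) = TFn t ht r := by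
    intro r c
    induction c with
    | zero => simp
    | succ c ih =>
      rw [Nat.succ_mul, ← add_assoc, hper, ih]
  rw [twt_eq_sum, ht]
  have e : ∑ i ∈ Finset.range N, (if t[i]? = some a then f (0 + i) else 0) =
      ∑ i ∈ Finset.range N, (if TFn t ht i = a then f i else 0) := by
    refine Finset.sum_congr rfl (fun i hi => ?_)
    rw [getElem?_of_lt t ht (Finset.mem_range.1 hi), zero_add]
    simp
  rw [e]
  have hs := sum_range_mul' (fun i => if TFn t ht i = a then f i else 0) (N / q) q
  rw [Nat.div_mul_cancel hq] at hs
  rw [hs]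
  refine Finset.sum_eq_zero (fun r _ => ?_)
  simp only [hmul]
  by_cases h : TFn t ht r = a
  · simp only [h, if_true]
    exact hz r
  · simp [h]

/-- **The tile theorem.** -/
theorem goodZ_flo_zero [Fintype A] (ha : mv a) {f : ℕ → ℤ} (hf : ∀ i, f (i + N) = f i)
    (hz : ∀ q, q.Prime → q ∣ N → ∀ r, ∑ k ∈ Finset.range q, f (r + k * (N / q)) = 0) :
    GoodZ (fun w : List A => flo mv a f 0 w) := by
  have h1 : GoodZ (fun w : List A =>
      (∑ t : List.Vector A N, twt a f 0 t.1 *
        ((fcc (tStep mv N) (cEq mv N t.1) (tNil N) w : ℕ) : ℤ)) +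
        twt a f 0 (run (tStep mv N) (tNil N) w).1) := by
    refine (GoodZ.finset_sum _ (fun t _ => ?_)).add
      (goodZ_of_good (good_tStep (tNil N)) (fun m => twt a f 0 m.1))
    by_cases hp : ∀ L, (∀ y, TFn t.1 t.2 (y + L) = TFn t.1 t.2 y) → N ∣ L
    · exact (GoodZ.const _).mul (goodZ_cEq t.1 t.2 hp _)
    · obtain ⟨q, hq, hqN, hper⟩ := exists_prime_period t.1 t.2 hp
      have h0 := twt_eq_zero_of_period (a := a) t.1 t.2 hqN hper (hz q hq hqN)
      simp only [h0, zero_mul]
      exact GoodZ.const 0
  refine h1.congr (fun w => ?_)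
  have := flo_identity ha hf w (tNil N)
  have hn1 : (tNil N : TMem A N).1 = [] := rfl
  rw [hn1] at this
  simp only [List.length_nil, twt_nil, add_zero] at this
  exact this.symm

end Main

/-- **Flows of periodic functions through a moving letter are good.** -/
theorem goodZ_flo [Fintype A] (ha : mv a) : ∀ N : ℕ, 0 < N → ∀ f : ℕ → ℤ, (∀ i, f (i + N) = f i) →
    GoodZ (fun w : List A => flo mv a f 0 w) := by
  intro N
  induction N using Nat.strong_induction_on with
  | _ N IH =>
    intro hN
    haveI : NeZero N := ⟨hN.ne'⟩
    -- the statement for a list of primes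
    let P : List ℕ → Prop := fun l => ∀ f : ℕ → ℤ, (∀ i, f (i + N) = f i) →
      (∀ q ∈ l, ∀ r, ∑ k ∈ Finset.range q, f (r + k * (N / q)) = 0) →
      GoodZ (fun w : List A => flo mv a f 0 w)
    have hstep : ∀ (q : ℕ) (l : List ℕ), q.Prime → q ∣ N → P (q :: l) → P l := by
      intro q l hq hqN hP f hf hl
      set d := N / q with hd
      have hdq : d * q = N := Nat.div_mul_cancel hqN
      have hdpos : 0 < d := Nat.pos_of_ne_zero (by
        rintro h0
        rw [h0, zero_mul] at hdq
        omega)
      have hdlt : d < N := by
        have := hq.two_le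
        nlinarith
      let Pq : ℕ → ℤ := fun i => ∑ k ∈ Finset.range q, f (i + k * d)
      have hPd : ∀ i, Pq (i + d) = Pq i := by
        intro i
        have e1 : Pq (i + d) = ∑ k ∈ Finset.range q, f (i + (k + 1) * d) := by
          refine Finset.sum_congr rfl (fun k _ => ?_)
          congr 1
          ring
        have e2 := Finset.sum_range_succ' (fun k => f (i + k * d)) q
        have e3 := Finset.sum_range_succ (fun k => f (i + k * d)) q
        have e4 : f (i + q * d) = f (i + 0 * d) := by
          rw [show q * d = N by rw [mul_comm]; exact hdq, zero_mul, add_zero, hf]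
        rw [e1]
        change _ = ∑ k ∈ Finset.range q, f (i + k * d)
        linarith
      have hPm : ∀ (i c : ℕ), Pq (i + c * d) = Pq i := by
        intro i c
        induction c with
        | zero => simp
        | succ c ih =>
          rw [Nat.succ_mul, ← add_assoc, hPd, ih]
      have hq0 : ((q : ℕ) : ℤ) ≠ 0 := by
        exact_mod_cast hq.ne_zero
      refine GoodZ.of_mul hq0 ?_
      have h1 : GoodZ (fun w : List A => flo mv a (fun i => (q : ℤ) * f i - Pq i) 0 w) := by
        refine hP _ ?_ ?_
        · intro i
          have : Pq (i + N) = Pq i := by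
            have := hPm i q
            rwa [show q * d = N by rw [mul_comm]; exact hdq] at this
          simp only [hf, this]
        · intro q' hq' r
          rw [Finset.sum_sub_distrib, ← Finset.mul_sum]
          rcases List.mem_cons.1 hq' with rfl | hq'
          · have : ∑ k ∈ Finset.range q', Pq (r + k * (N / q')) = (q' : ℤ) * Pq r := by
              rw [← hd]
              simp only [hPm, Finset.sum_const, Finset.card_range, nsmul_eq_mul]
            rw [this, ← hd]
            ring
          · have h3 : ∑ k ∈ Finset.range q', Pq (r + k * (N / q')) = 0 := by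
              simp only [Pq]
              rw [Finset.sum_comm]
              refine Finset.sum_eq_zero (fun k _ => ?_)
              have := hl q' hq' (r + k * d)
              rw [← this]
              refine Finset.sum_congr rfl (fun x _ => ?_)
              congr 1
              ring
            rw [h3, hl q' hq' r]
            ring
      have h2 : GoodZ (fun w : List A => flo mv a Pq 0 w) := IH d hdlt hdpos Pq hPd
      refine (h1.add h2).congr (fun w => ?_)
      rw [flo_sub_smul]
      ring
    have hall : ∀ (l₁ l₂ : List ℕ), (∀ q ∈ l₁, q.Prime ∧ q ∣ N) → P (l₁ ++ l₂) → P l₂ := by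
      intro l₁
      induction l₁ with
      | nil => intro l₂ _ h; exact h
      | cons q l₁ ih =>
        intro l₂ h1 h2
        refine ih l₂ (fun x hx => h1 x (List.mem_cons_of_mem _ hx)) ?_
        have hq := h1 q (by simp)
        exact hstep q _ hq.1 hq.2 h2
    have hbase : P (N.primeFactorsList ++ []) := by
      intro f hf hz
      refine goodZ_flo_zero ha hf (fun q hq hqN r => hz q ?_ r)
      rw [List.append_nil, Nat.mem_primeFactorsList hN.ne']
      exact ⟨hq, hqN⟩
    intro f hf
    refine hall _ [] (fun q hq => ?_) hbase f hf (by simp)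
    have := (Nat.mem_primeFactorsList hN.ne').1 hq
    exact this


section Position

variable (mv) {N : ℕ}

/-- The walk on `ZMod N` of the moving letters. -/
noncomputable def wn (b : A) (z : ZMod N) : ZMod N := if mv b then z + 1 else z

/-- Moving letters arriving at `j`, and the letters in `B` read at `j`. -/
def arrN (B : A → Prop) (j : ZMod N) (b : A) (z : ZMod N) : Prop :=
  (mv b ∧ z + 1 = j) ∨ (¬ mv b ∧ B b ∧ z = j)

variable {mv}

theorem arrN_hC {B : A → Prop} {j : ZMod N} (b : A) (z : ZMod N) (h : arrN mv B j b z) :
    wn mv b z = j := by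
  rcases h with ⟨h1, h2⟩ | ⟨h1, -, h2⟩
  · simp [wn, h1, h2]
  · simp [wn, h1, h2]

variable [NeZero N]

theorem length_filter_le {B : A → Prop} {j : ZMod N} (W : List A) (z : ZMod N)
    (h : fcc (wn mv) (arrN mv B j) z W = 0) :
    ((W.filter mv).length : ℤ) ≤ ((j - z - 1).val : ℤ) := by
  induction W generalizing z with
  | nil =>
    have e : ((([] : List A).filter mv).length : ℤ) = 0 := by simp
    rw [e]
    exact Int.natCast_nonneg _
  | cons b W ih =>
    rw [fcc_cons] at h
    have h1 : ¬ arrN mv B j b z := by
      intro hc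
      simp [hc] at h
    have h2 : fcc (wn mv) (arrN mv B j) (wn mv b z) W = 0 := by
      rw [if_neg h1, zero_add] at h
      exact h
    by_cases hb : mv b
    · rw [List.filter_cons_of_pos (by simpa using hb), List.length_cons]
      have hne : j - z - 1 ≠ 0 := by
        intro he
        apply h1
        left
        refine ⟨hb, ?_⟩
        have : j - z = 1 := sub_eq_zero.1 he
        rw [← this]
        ring
      have e : wn mv b z = z + 1 := by simp [wn, hb]
      rw [e] at h2
      have h3 := ih _ h2
      have e2 : j - (z + 1) - 1 = j - z - 1 - 1 := by ring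
      rw [e2, zmod_val_pred _ hne] at h3
      push_cast
      linarith
    · rw [List.filter_cons_of_neg (by simpa using hb)]
      have e : wn mv b z = z := by simp [wn, hb]
      rw [e] at h2
      exact ih _ h2

theorem wn_fix {u : List A} (h : u.filter mv = []) (z : ZMod N) : run (wn mv) z u = z := by
  induction u with
  | nil => rfl
  | cons a u ih =>
    by_cases ha : mv a
    · rw [List.filter_cons_of_pos (by simpa using ha)] at h
      simp at h
    · rw [List.filter_cons_of_neg (by simpa using ha)] at h
      rw [run_cons]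
      have e : wn mv a z = z := by simp [wn, ha]
      rw [e]
      exact ih h

theorem arrN_H (B : A → Prop) (j : ZMod N) (u : List A) (z : ZMod N) (m : ℕ) (hm : 0 < m)
    (hcl : run (wn mv) z (rep u m) = z) (h0 : fcc (wn mv) (arrN mv B j) z (rep u m) = 0) :
    run (wn mv) z u = z := by
  by_cases hne : u.filter mv = []
  · exact wn_fix hne z
  · exfalso
    have h1 := fcc_rep_eq_zero hm hcl h0 N
    have h2 := length_filter_le _ _ h1
    rw [filter_rep] at h2
    have hlen : ∀ (v : List A) (n : ℕ), (rep v n).length = n * v.length := by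
      intro v n
      induction n with
      | zero => simp [rep]
      | succ n ih =>
        simp only [rep, List.length_append, ih]
        ring
    rw [hlen] at h2
    have hL : 0 < (u.filter mv).length := List.length_pos_iff.2 hne
    have h3 : N ≤ N * (u.filter mv).length := Nat.le_mul_of_pos_right _ hL
    have h4 : (j - z - 1).val < N := ZMod.val_lt _
    have h5 : N * (u.filter mv).length ≤ (j - z - 1).val := by exact_mod_cast h2
    omega

theorem good_wn [Finite A] : Good (fun w : List A => run (wn mv) (0 : ZMod N) w) :=
  good_run_of_chg (arrN_hC (B := fun _ => False) (j := 0))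
    (fun u q m hm hcl h0 => arrN_H _ _ u q m hm hcl h0) 0

/-- Occurrences of a stationary letter on the walk of the moving letters are good. -/
theorem goodZ_occN_stationary [Finite A] {a : A} (ha : ¬ mv a) (j : ZMod N) :
    GoodZ (fun w : List A =>
      ((fcc (wn mv) (fun b s => b = a ∧ s = j) (0 : ZMod N) w : ℕ) : ℤ)) := by
  have h1 := goodZ_fcc (arrN_hC (mv := mv) (B := fun b => b = a) (j := j))
    (fun u q m hm hcl h0 => arrN_H _ _ u q m hm hcl h0) 0
  have h2 := goodZ_fcc (arrN_hC (mv := mv) (B := fun _ => False) (j := j))
    (fun u q m hm hcl h0 => arrN_H _ _ u q m hm hcl h0) 0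
  refine (h1.sub h2).congr (fun w => ?_)
  suffices h : ∀ z : ZMod N, ((fcc (wn mv) (arrN mv (fun b => b = a) j) z w : ℕ) : ℤ) -
      ((fcc (wn mv) (arrN mv (fun _ => False) j) z w : ℕ) : ℤ) =
      ((fcc (wn mv) (fun b s => b = a ∧ s = j) z w : ℕ) : ℤ) from h 0
  intro z
  induction w generalizing z with
  | nil => simp
  | cons b w ih =>
    simp only [fcc_cons]
    push_cast
    have := ih (wn mv b z)
    have e : (if arrN mv (fun b => b = a) j b z then (1 : ℤ) else 0) -
        (if arrN mv (fun _ => False) j b z then (1 : ℤ) else 0) =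
        if b = a ∧ z = j then 1 else 0 := by
      by_cases hb : mv b
      · have hba : b ≠ a := fun e => ha (e ▸ hb)
        simp [arrN, hb, hba]
      · by_cases hba : b = a
        · simp [arrN, hba, ha]
        · simp [arrN, hb, hba]
    linarith

/-- Occurrences of a moving letter on the walk of the moving letters are good. -/
theorem goodZ_occN_moving [Fintype A] {a : A} (ha : mv a) (j : ZMod N) :
    GoodZ (fun w : List A =>
      ((fcc (wn mv) (fun b s => b = a ∧ s = j) (0 : ZMod N) w : ℕ) : ℤ)) := by
  have hN : 0 < N := Nat.pos_of_ne_zero (NeZero.ne N)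
  let f : ℕ → ℤ := fun i => if ((i : ℕ) : ZMod N) = j then 1 else 0
  have hf : ∀ i, f (i + N) = f i := by
    intro i
    simp [f]
  refine (goodZ_flo ha N hN f hf).congr (fun w => ?_)
  suffices h : ∀ k : ℕ, flo mv a f k w =
      ((fcc (wn mv) (fun b s => b = a ∧ s = j) ((k : ℕ) : ZMod N) w : ℕ) : ℤ) by
    have := h 0
    simpa using this
  intro k
  induction w generalizing k with
  | nil => simp
  | cons b w ih =>
    rw [flo_cons, fcc_cons, ih]
    have e : wn mv b ((k : ℕ) : ZMod N) = (((if mv b then k + 1 else k) : ℕ) : ZMod N) := by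
      by_cases hb : mv b
      · simp [wn, hb]
      · simp [wn, hb]
    rw [e]
    push_cast
    congr 1
    by_cases hba : b = a
    · simp [hba, f]
    · simp [hba]

theorem goodZ_occN [Fintype A] (a : A) (j : ZMod N) :
    GoodZ (fun w : List A =>
      ((fcc (wn mv) (fun b s => b = a ∧ s = j) (0 : ZMod N) w : ℕ) : ℤ)) := by
  by_cases ha : mv a
  · exact goodZ_occN_moving ha j
  · exact goodZ_occN_stationary ha j

end Position

/-- **Groups with a commutative normal subgroup, all letters in the subgroup or in one coset.** -/
theorem good_prod_of_singleCoset {G : Type} [Fintype A] [Group G] [Finite G] (V : Subgroup G)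
    (hV : ∀ x ∈ V, ∀ y ∈ V, x * y = y * x) (hN : V.Normal) (g : G) (φ : A → G)
    (hφ : ∀ a, φ a ∈ V ∨ ∃ v ∈ V, φ a = v * g) : Good (fun w : List A => (w.map φ).prod) := by
  set N := orderOf g with hNdef
  have hNpos : 0 < N := orderOf_pos g
  haveI : NeZero N := ⟨hNpos.ne'⟩
  let mv : A → Prop := fun a => φ a ∉ V
  let σ : ZMod N → G := fun z => g ^ z.val
  have hσ0 : σ 0 = 1 := by simp [σ]
  have hgN : g ^ N = 1 := pow_orderOf_eq_one g
  have hσ1 : ∀ z : ZMod N, σ (z + 1) = σ z * g := by
    intro z
    simp only [σ]
    rw [ZMod.val_add, ← pow_eq_pow_mod _ hgN, pow_add, ZMod.val_one_eq_one_mod,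
      ← pow_eq_pow_mod _ hgN, pow_one]
  refine good_prod_of_wreath V hV φ (wn mv) σ 0 hσ0 ?_ good_wn goodZ_occN
  intro a z
  by_cases ha : φ a ∈ V
  · have e : wn mv a z = z := by simp [wn, mv, ha]
    rw [e]
    exact hN.conj_mem _ ha _
  · obtain ⟨v, hv, he⟩ := (hφ a).resolve_left ha
    have e : wn mv a z = z + 1 := by simp [wn, mv, ha]
    rw [e, hσ1, he]
    have := hN.conj_mem _ hv (σ z)
    have e2 : σ z * (v * g) * (σ z * g)⁻¹ = σ z * v * (σ z)⁻¹ := by group
    rw [e2]
    exact this

/-- **Groups with a commutative normal subgroup, all letters in the subgroup or in one coset, have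
generalized star height at most one.** -/
theorem heightLE_of_singleCoset {G : Type} [Finite A] [Group G] [Finite G] (V : Subgroup G)
    (hV : ∀ x ∈ V, ∀ y ∈ V, x * y = y * x) (hN : V.Normal) (g : G) (φ : A → G)
    (hφ : ∀ a, φ a ∈ V ∨ ∃ v ∈ V, φ a = v * g) (S : Set G) :
    HeightLE 1 {w : List A | (w.map φ).prod ∈ S} := by
  haveI : Fintype A := Fintype.ofFinite A
  exact (good_prod_of_singleCoset V hV hN g φ hφ).preimage S

end TileFlow

end Vale.Agent.Lib.P329
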