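import Vale.Agent.Lib.P329.Tile2
import Vale.Agent.Lib.P329.Deg4

/-!
Modulo two: towers of counters, and the form of the tile machine, in terms of subsequence counts.
-/

namespace Vale.Agent.Lib.P329

section Tower

variable {A : Type} [DecidableEq A]

/-- The sum over the positions of the letters of a list. -/
def syL {R : Type} [AddCommMonoid R] (l : List A) (g : List A → R) (w : List A) : R :=
  (l.map fun t => sy t g w).sum

theorem syL_cons {R : Type} [AddCommMonoid R] (t : A) (l : List A) (g : List A → R) (w : List A) :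
    syL (t :: l) g w = sy t g w + syL l g w := by
  simp [syL]

theorem syL_nil {R : Type} [AddCommMonoid R] (l : List A) (g : List A → R) :
    syL l g [] = 0 := by
  induction l with
  | nil => simp [syL]
  | cons t l ih => rw [syL_cons, ih, sy_nil, add_zero]

theorem syL_snoc {R : Type} [AddCommMonoid R] (l : List A) (hl : l.Nodup) (g : List A → R)
    (w : List A) (a : A) :
    syL l g (w ++ [a]) = syL l g w + if a ∈ l then g w else 0 := by
  induction l with
  | nil => simp [syL]
  | cons t l ih =>
    have hl' := List.nodup_cons.1 hl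
    rw [syL_cons, syL_cons, ih hl'.2, sy_snoc]
    by_cases h : a = t
    · subst h
      rw [if_pos rfl, if_neg hl'.1, if_pos List.mem_cons_self]
      simp only [add_zero, zero_add, add_assoc, add_comm, add_left_comm]
    · rw [if_neg h, add_zero, add_assoc]
      congr 2
      by_cases h2 : a ∈ l
      · simp [h2]
      · simp [h, h2]

/-- An indicator computed by a hub machine whose moving letters lie in `S`. -/
def HF (S : A → Prop) (ι : List A → ZMod 2) : Prop :=
  ∃ (Q : Type) (_ : Fintype Q) (_ : DecidableEq Q) (δ : A → Q → Q) (v s : Q), IsHub δ v ∧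
    (∀ a, ¬ S a → ∀ x, δ a x = x) ∧ ∀ u, ι u = if run δ s u = v then 1 else 0

theorem isHub_unit (δ : A → Unit → Unit) : IsHub δ () := by
  intro u
  refine ⟨0, ?_⟩
  funext x
  exact Subsingleton.elim _ _

theorem HF.base : HF (A := A) (fun _ => False) (fun _ => 1) :=
  ⟨Unit, inferInstance, inferInstance, fun _ _ => (), (), (), isHub_unit _, fun _ _ x => rfl,
    fun _ => by simp⟩

theorem vc_eq_syL {Q : Type} [DecidableEq Q] (δ : A → Q → Q) (l : List A) (hl : l.Nodup) (v s : Q)
    (ι : List A → ZMod 2) (hι : ∀ u, ι u = if run δ s u = v then 1 else 0) (u : List A) :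
    ((vc δ (fun a => a ∈ l) v s u : ℕ) : ZMod 2) = syL l ι u := by
  induction u using List.reverseRecOn with
  | nil => simp [syL_nil]
  | append_singleton u a ih =>
    rw [syL_snoc l hl, ← ih, vc_append, vc_cons, vc_nil, hι]
    push_cast
    by_cases h1 : a ∈ l
    · by_cases h2 : run δ s u = v
      · simp [h1, h2]
      · simp [h1, h2]
    · simp [h1]

variable [Finite A]

theorem HF.step {S : A → Prop} {ι : List A → ZMod 2} (h : HF S ι) (l : List A) (hl : l.Nodup)
    (hS : ∀ a, S a → a ∈ l) (s₂ : ZMod 2) :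
    HF (fun a => a ∈ l) (fun u => ι u * (1 + s₂ + syL l ι u)) := by
  obtain ⟨Q, _, _, δ, v, s, hv, hfix, hι⟩ := h
  have hY : ∀ a, ¬ a ∈ l → ∀ x, δ a x = x := fun a ha x => hfix a (fun h => ha (hS a h)) x
  refine ⟨Q × ZMod 2, inferInstance, inferInstance, cntStep δ (fun a => a ∈ l) v 2, (v, 0), (s, s₂),
    cnt_isHub 2 hv hY, ?_, ?_⟩
  · intro a ha x
    obtain ⟨q, t⟩ := x
    have : ¬ (a ∈ l ∧ q = v) := fun h => ha h.1
    simp [cntStep, hY a ha, this]
  · intro u
    show ι u * (1 + s₂ + syL l ι u) = _
    rw [run_cnt, vc_eq_syL δ l hl v s ι hι u, hι]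
    by_cases h1 : run δ s u = v
    · simp only [h1, if_true, one_mul, Prod.mk.injEq, true_and]
      generalize syL l ι u = T
      revert s₂ T
      decide
    · simp [h1]

theorem HF.good_syL {S : A → Prop} {ι : List A → ZMod 2} (h : HF S ι) (l : List A) (hl : l.Nodup)
    (hS : ∀ a, S a → a ∈ l) : Good (syL l ι) := by
  obtain ⟨Q, _, _, δ, v, s, hv, hfix, hι⟩ := h
  have hY : ∀ a, ¬ a ∈ l → ∀ x, δ a x = x := fun a ha x => hfix a (fun h => ha (hS a h)) x
  have := good_vc (n := 2) hv hY s
  refine Eq.mp (congrArg Good ?_) this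
  funext u
  exact vc_eq_syL δ l hl v s ι hι u

/-- The indicator of the second level of the tower. -/
def ioT (L : List A) (z : A) (u : List A) : ZMod 2 :=
  syL L (fun _ => 1) u * syL (z :: L) (fun u => syL L (fun _ => 1) u) u

theorem hf_ioT (L : List A) (hL : L.Nodup) (z : A) (hz : z ∉ L) :
    HF (fun a => a ∈ z :: L) (ioT L z) := by
  have h1 := HF.base.step (A := A) L hL (fun a h => h.elim) 1
  have e1 : (fun u : List A => (1 : ZMod 2) * (1 + 1 + syL L (fun _ => (1 : ZMod 2)) u)) =
      fun u => syL L (fun _ => (1 : ZMod 2)) u := by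
    funext u
    generalize syL L (fun _ => (1 : ZMod 2)) u = T
    revert T
    decide
  rw [e1] at h1
  have h2 := h1.step (z :: L) (List.nodup_cons.2 ⟨hz, hL⟩)
    (fun a ha => List.mem_cons_of_mem _ ha) 1
  refine Eq.mp (congrArg (HF _) ?_) h2
  funext u
  unfold ioT
  generalize syL L (fun _ => (1 : ZMod 2)) u = T
  generalize syL (z :: L) (fun u => syL L (fun _ => (1 : ZMod 2)) u) u = T'
  revert T T'
  decide

theorem good_E_total (L : List A) (hL : L.Nodup) (z : A) (hz : z ∉ L) :
    Good (syL (z :: L) (ioT L z)) :=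
  (hf_ioT L hL z hz).good_syL _ (List.nodup_cons.2 ⟨hz, hL⟩) (fun a h => h)

theorem good_E (L : List A) (hL : L.Nodup) (z : A) (hz : z ∉ L) (y : A) (hy : y ∉ z :: L) :
    Good (sy y (ioT L z)) := by
  have hnd : (z :: L).Nodup := List.nodup_cons.2 ⟨hz, hL⟩
  have h1 := (hf_ioT L hL z hz).good_syL (y :: z :: L) (List.nodup_cons.2 ⟨hy, hnd⟩)
    (fun a h => List.mem_cons_of_mem _ h)
  have h2 := good_E_total L hL z hz
  refine Eq.mp (congrArg Good ?_) (h1.sub h2)
  funext w
  simp [syL]

end Tower

section Forms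

variable {A : Type} [DecidableEq A]

/-- The words of a product of two sums of counts. -/
def mulL (l l' : List (List A)) : List (List A) := l.flatMap (fun u => l'.flatMap (infl u))

theorem rs_flatMap_infl (u : List A) (l' : List (List A)) (w : List A) :
    rs (l'.flatMap (infl u)) w = rc u w * rs l' w := by
  induction l' with
  | nil => simp
  | cons v l' ih =>
    rw [List.flatMap_cons, rs_append, ih, ← rc_mul, rs_cons]
    ring

theorem rs_mulL (l l' : List (List A)) (w : List A) : rs (mulL l l') w = rs l w * rs l' w := by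
  induction l with
  | nil => simp [mulL]
  | cons u l ih =>
    have e : mulL (u :: l) l' = l'.flatMap (infl u) ++ mulL l l' := by simp [mulL]
    rw [e, rs_append, rs_flatMap_infl, ih, rs_cons]
    ring

/-- The residue modulo two of a sum of counts. -/
def z2 (l : List (List A)) (w : List A) : ZMod 2 := ((rs l w : ℕ) : ZMod 2)

theorem gi_of_z2 {l : List (List A)} (h : Good (z2 l)) : Gi 2 (rz l) := by
  refine Eq.mp (congrArg Good ?_) h
  funext w
  simp [z2, rz]

theorem z2_of_gi {l : List (List A)} (h : Gi 2 (rz l)) : Good (z2 l) := by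
  refine Eq.mp (congrArg Good ?_) h
  funext w
  simp [z2, rz]

theorem z2_map_cons (y : A) (l : List (List A)) (w : List A) :
    z2 (l.map (y :: ·)) w = sy y (z2 l) w := by
  induction w using List.reverseRecOn with
  | nil => simp [z2, rs_map_cons_nil]
  | append_singleton w t ih =>
    rw [sy_snoc, ← ih]
    unfold z2
    rw [rs_map_cons_snoc]
    by_cases h : y = t
    · subst h
      simp
    · have h' : ¬ t = y := fun e => h e.symm
      simp [h, h']

theorem z2_flatMap (K : List A) (l : List (List A)) (w : List A) :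
    z2 (K.flatMap (fun t => l.map (t :: ·))) w = syL K (z2 l) w := by
  induction K with
  | nil => simp [z2, syL]
  | cons t K ih =>
    rw [syL_cons, List.flatMap_cons, ← ih, ← z2_map_cons]
    simp [z2]

/-- The words of the letters of a list. -/
def nl (L : List A) : List (List A) := L.map (fun a => [a])

theorem z2_nl (L : List A) (w : List A) : z2 (nl L) w = syL L (fun _ => 1) w := by
  have e : nl L = L.flatMap (fun t => ([[]] : List (List A)).map (t :: ·)) := by
    induction L with
    | nil => rfl
    | cons a L ih =>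
      have e0 : nl (a :: L) = [a] :: nl L := rfl
      rw [e0, ih]
      rfl
  have e1 : z2 ([[]] : List (List A)) = fun _ => 1 := by
    funext u
    simp [z2]
  rw [e, z2_flatMap, e1]

/-- The words of the total of the first level of the tower. -/
def tl (L : List A) (z : A) : List (List A) := (z :: L).flatMap (fun t => (nl L).map (t :: ·))

theorem ioT_eq (L : List A) (z : A) (u : List A) : ioT L z u = z2 (mulL (nl L) (tl L z)) u := by
  have e : (fun u => syL L (fun _ => (1 : ZMod 2)) u) = z2 (nl L) := by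
    funext v
    rw [z2_nl]
  unfold ioT
  rw [e]
  have h1 : z2 (mulL (nl L) (tl L z)) u = z2 (nl L) u * z2 (tl L z) u := by
    simp [z2, rs_mulL]
  rw [h1, ← z2_nl, tl, z2_flatMap]

variable [Finite A]

theorem gi2_E (L : List A) (hL : L.Nodup) (z : A) (hz : z ∉ L) (y : A) (hy : y ∉ z :: L) :
    Gi 2 (rz ((mulL (nl L) (tl L z)).map (y :: ·))) := by
  refine gi_of_z2 ?_
  refine Eq.mp (congrArg Good ?_) (good_E L hL z hz y hy)
  funext w
  rw [z2_map_cons]
  exact sy_congr y (fun u => ioT_eq L z u) w

theorem gi2_EY (L : List A) (hL : L.Nodup) (z : A) (hz : z ∉ L) :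
    Gi 2 (rz ((z :: L).flatMap (fun t => (mulL (nl L) (tl L z)).map (t :: ·)))) := by
  refine gi_of_z2 ?_
  refine Eq.mp (congrArg Good ?_) (good_E_total L hL z hz)
  funext w
  rw [z2_flatMap]
  have e : ioT L z = z2 (mulL (nl L) (tl L z)) := funext (ioT_eq L z)
  rw [e]

end Forms

section TileForm

open Classical

variable {A : Type}

theorem flo_snoc (mv : A → Prop) (c : A) (f : ℕ → ℤ) (k : ℕ) (w : List A) (t : A) :
    flo mv c f k (w ++ [t]) =
      flo mv c f k w + if t = c then f (k + (w.filter mv).length) else 0 := by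
  induction w generalizing k with
  | nil => simp [flo_cons]
  | cons b w ih =>
    simp only [List.cons_append, flo_cons, ih, List.filter_cons]
    by_cases hb : mv b
    · simp only [hb, if_true, decide_true, List.length_cons]
      have : k + 1 + (w.filter mv).length = k + ((w.filter mv).length + 1) := by omega
      rw [this, add_assoc]
    · simp only [hb, if_false, decide_false, Bool.false_eq_true]
      rw [add_assoc]

theorem flo_par_eq (mv : A → Prop) (c : A) (u : List A) :
    ((flo mv c par2 0 u : ℤ) : ZMod 2) = sy c (fun v => (((v.filter mv).length : ℕ) : ZMod 2)) u := by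
  induction u using List.reverseRecOn with
  | nil => simp
  | append_singleton w t ih =>
    rw [flo_snoc, sy_snoc, ← ih]
    by_cases h : t = c
    · simp only [h, if_true, zero_add]
      push_cast
      rw [par2_cast]
    · simp [h]

theorem filter_three {a b c : A} (hab : a ≠ b) (hac : a ≠ c) (hbc : b ≠ c) (mv : A → Prop)
    (hmv : ∀ x, mv x ↔ (x = a ∨ x = b ∨ x = c)) (u : List A) :
    (((u.filter mv).length : ℕ) : ZMod 2) = z2 (nl [a, b, c]) u := by
  rw [z2_nl]
  induction u using List.reverseRecOn with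
  | nil => simp [syL_nil]
  | append_singleton w t ih =>
    rw [syL_snoc _ (by simp [hab, hac, hbc]), ← ih, List.filter_append, List.length_append]
    simp only [List.filter_cons, List.filter_nil]
    by_cases h : mv t
    · have h' := (hmv t).1 h
      simp [h, h']
    · have h' : ¬ (t = a ∨ t = b ∨ t = c) := fun e => h ((hmv t).2 e)
      simp [h, h']

theorem z2_single (a : A) (u : List A) : z2 [[a]] u = ((u.count a : ℕ) : ZMod 2) := by
  simp [z2, rc_one]

variable [Fintype A]

theorem good_tile_aux0 {a b c y : A} (hab : a ≠ b) (hac : a ≠ c) (hbc : b ≠ c) (hya : y ≠ a)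
    (hyb : y ≠ b) (hyc : y ≠ c) (mv : A → Prop) (hmv : ∀ x, mv x ↔ (x = a ∨ x = b ∨ x = c)) :
    Good (z2 ((infl [a] [c, a] ++ infl [a] [c, b] ++ infl [a] [c, c]).map (y :: ·))) := by
  have h1 := good_sy_all (mv := mv) (a := a) (b := b) (c := c) (y := y) ((hmv a).2 (Or.inl rfl))
    ((hmv c).2 (Or.inr (Or.inr rfl))) hab.symm hbc (by
      rw [hmv]
      simp [hya, hyb, hyc])
  have h2 : Good (z2 (flowL y [(a, 1), (b, 1), (c, 1)])) :=
    z2_of_gi (gi_flow y [(a, 1), (b, 1), (c, 1)] (by simp [wt]))
  refine Eq.mp (congrArg Good ?_) (h1.add h2)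
  funext w
  rw [z2_map_cons, flowL, z2_map_cons, ← sy_add]
  refine sy_congr y (fun u => ?_) w
  have e0 : ((u.filter mv).length : ZMod 2) = z2 (nl [a, b, c]) u :=
    filter_three hab hac hbc mv hmv u
  have e1 : ((flo mv c par2 0 u : ℤ) : ZMod 2) = sy c (z2 (nl [a, b, c])) u := by
    rw [flo_par_eq]
    exact sy_congr c (fun v => filter_three hab hac hbc mv hmv v) u
  have e2 : sy c (z2 (nl [a, b, c])) u =
      z2 ([[a], [b], [c]].map (c :: ·)) u := by
    rw [z2_map_cons]
    rfl
  have e3 : z2 (prodL [(a, 1), (b, 1), (c, 1)]) u =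
      z2 [[a]] u * (z2 [[b]] u * z2 [[c]] u) := by
    simp only [z2, prodL, List.replicate, rs_flatMap_infl, rs_cons, rs_nil, rc_nil_left]
    push_cast
    ring
  have e4 : z2 (nl [a, b, c]) u = z2 [[a]] u + z2 [[b]] u + z2 [[c]] u := by
    simp only [z2, nl, List.map_cons, List.map_nil, rs_cons, rs_nil]
    push_cast
    ring
  have e5' : rs (infl [a] [c, a] ++ infl [a] [c, b] ++ infl [a] [c, c]) u =
      rc [a] u * rs ([[a], [b], [c]].map (c :: ·)) u := by
    rw [rs_append, rs_append, ← rc_mul, ← rc_mul, ← rc_mul]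
    simp only [List.map_cons, List.map_nil, rs_cons, rs_nil]
    ring
  have e5 : z2 (infl [a] [c, a] ++ infl [a] [c, b] ++ infl [a] [c, c]) u =
      z2 [[a]] u * z2 ([[a], [b], [c]].map (c :: ·)) u := by
    unfold z2
    rw [e5']
    simp only [rs_cons, rs_nil]
    push_cast
    ring
  rw [e0, e1, e2, e3, e5, e4]
  rw [← z2_single, ← z2_single]
  generalize z2 ([[a], [b], [c]].map (c :: ·)) u = S
  generalize z2 [[a]] u = x
  generalize z2 [[b]] u = y'
  generalize z2 [[c]] u = z
  revert S x y' z
  decide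

theorem good_tile_aux {a b c y : A} (hab : a ≠ b) (hac : a ≠ c) (hbc : b ≠ c) (hya : y ≠ a)
    (hyb : y ≠ b) (hyc : y ≠ c) :
    Good (z2 ((infl [a] [c, a] ++ infl [a] [c, b] ++ infl [a] [c, c]).map (y :: ·))) :=
  good_tile_aux0 hab hac hbc hya hyb hyc (fun x => x = a ∨ x = b ∨ x = c) (fun _ => Iff.rfl)

end TileForm

theorem gi2_tile {A : Type} [inst : DecidableEq A] [Fintype A] {a b c y : A} (hab : a ≠ b)
    (hac : a ≠ c) (hbc : b ≠ c) (hya : y ≠ a) (hyb : y ≠ b) (hyc : y ≠ c) :
    Gi 2 (rz ((infl [a] [c, a] ++ infl [a] [c, b] ++ infl [a] [c, c]).map (y :: ·))) := by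
  obtain rfl : inst = (fun a b => Classical.propDecidable (a = b)) := Subsingleton.elim _ _
  exact @gi_of_z2 A (fun a b => Classical.propDecidable (a = b)) _
    (good_tile_aux hab hac hbc hya hyb hyc)

/-- Congruence modulo two. -/
theorem Gi.of_two {A : Type} [DecidableEq A] {f g : List A → ℤ} (hf : Gi 2 f) (c : List A → ℤ)
    (h : ∀ w, g w = f w + 2 * c w) : Gi 2 g := by
  refine Eq.mp (congrArg Good ?_) hf
  funext w
  rw [h w]
  push_cast
  have : (2 : ZMod 2) = 0 := by decide
  rw [this]
  ring

end Vale.Agent.Lib.P329
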