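import Vale.Agent.Lib.P329.Good

/-!
Visit machines: a walk on `ZMod M` with steps in `{0, 1, -1}`, and a counter in `ZMod n` which
increases when the walk arrives at `0`, or when a chosen letter is read at `0`.  The pair `(0, 0)`
is a hub of this automaton.
-/

namespace Vale.Agent.Lib.P329

section Criterion

variable {A Q : Type}

/-- The `m`-fold repetition of a word. -/
def rep (u : List A) : ℕ → List A
  | 0 => []
  | m + 1 => u ++ rep u m

theorem run_rep (τ : A → Q → Q) (u : List A) (m : ℕ) (x : Q) :
    run τ x (rep u m) = (fun y => run τ y u)^[m] x := by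
  induction m generalizing x with
  | zero => rfl
  | succ m ih =>
    rw [rep, run_append, ih, Function.iterate_succ_apply]

variable [DecidableEq Q] [Finite Q] {δ : A → Q → Q} {v : Q}

/-- A criterion for hubs: every closed repeated run off the hub is already closed after one
repetition. -/
theorem isHub_of_closed
    (h : ∀ (u : List A) (x : Q), x ≠ v → ∀ m, 0 < m → run (sinkAt δ v) x (rep u m) = x →
      run δ x u = x) : IsHub δ v := by
  classical
  have : Fintype Q := Fintype.ofFinite Q
  intro u
  let f : Q → Q := fun x => run (sinkAt δ v) x u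
  have hfv : f v = v := run_sink_hub u
  have hstep : ∀ x, ∃ i, f^[i + 1] x = f^[i] x := by
    intro x
    obtain ⟨i, j, hij, he⟩ := Finite.exists_ne_map_eq_of_infinite (fun n : ℕ => f^[n] x)
    wlog hlt : i < j generalizing i j
    · exact this j i hij.symm he.symm (lt_of_le_of_ne (not_lt.1 hlt) hij.symm)
    refine ⟨i, ?_⟩
    obtain ⟨d, rfl⟩ : ∃ d, j = i + (d + 1) := ⟨j - i - 1, by omega⟩
    set z := f^[i] x with hz
    have hcl : f^[d + 1] z = z := by
      have e : f^[i + (d + 1)] x = f^[d + 1] (f^[i] x) := by
        rw [add_comm, Function.iterate_add_apply]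
      rw [hz, ← e]
      exact he.symm
    have hfz : f z = z := by
      by_cases hzv : z = v
      · rw [hzv]; exact hfv
      · have hrun : run (sinkAt δ v) z (rep u (d + 1)) = z := by
          rw [run_rep]; exact hcl
        have hne : run (sinkAt δ v) z u ≠ v := by
          intro hv
          rw [rep, run_append, hv, run_sink_hub] at hrun
          exact hzv hrun.symm
        have h1 := h u z hzv (d + 1) (Nat.succ_pos _) hrun
        have h2 := run_eq_of_sink_ne u z hne
        change run (sinkAt δ v) z u = z
        rw [← h2]; exact h1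
    rw [Function.iterate_succ_apply']
    exact hfz
  choose i hi using hstep
  have hfix : ∀ (x : Q) (m : ℕ), f^[i x + m] x = f^[i x] x := by
    intro x m
    induction m with
    | zero => rfl
    | succ m ih =>
      rw [← add_assoc, Function.iterate_succ_apply', ih]
      exact (Function.iterate_succ_apply' f (i x) x).symm.trans (hi x)
  let n := Finset.univ.sup i
  refine ⟨n, ?_⟩
  funext x
  have hle : i x ≤ n := Finset.le_sup (Finset.mem_univ x)
  obtain ⟨m, hm⟩ : ∃ m, n = i x + m := ⟨n - i x, by omega⟩
  change f^[n] x = f^[n + 1] x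
  rw [hm, hfix x m, show i x + m + 1 = i x + (m + 1) by omega, hfix x (m + 1)]

end Criterion

section ZModVal

variable {M : ℕ} [NeZero M]

theorem zmod_val_succ (r : ZMod M) (h : r + 1 ≠ 0) : (r + 1).val = r.val + 1 := by
  have hM : 0 < M := Nat.pos_of_ne_zero (NeZero.ne M)
  rcases Nat.lt_or_ge 1 M with h1 | h1
  · have hr : r.val < M := ZMod.val_lt r
    have hone : (1 : ZMod M).val = 1 := by
      rw [ZMod.val_one_eq_one_mod, Nat.mod_eq_of_lt h1]
    have hv : (r + 1).val = (r.val + 1) % M := by
      rw [ZMod.val_add, hone]
    by_cases he : r.val + 1 = M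
    · exfalso
      rw [he, Nat.mod_self] at hv
      exact h ((ZMod.val_eq_zero _).1 hv)
    · rw [hv, Nat.mod_eq_of_lt (by omega)]
  · exfalso
    have hM1 : M = 1 := by omega
    subst hM1
    exact h (Subsingleton.elim _ _)

theorem zmod_val_pred (r : ZMod M) (h : r ≠ 0) : ((r - 1).val : ℤ) = (r.val : ℤ) - 1 := by
  have h' : (r - 1) + 1 ≠ 0 := by simpa using h
  have := zmod_val_succ (r - 1) h'
  rw [sub_add_cancel] at this
  rw [this]
  push_cast
  ring

end ZModVal

section Vis

open Classical

variable {A : Type} (stp : A → ℤ) (B : A → Prop) {M n : ℕ}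

/-- The letters which are counted on arrival at `0`. -/
def visArr (a : A) : Prop := stp a ≠ 0 ∨ B a

/-- The transition function of the visit machine. -/
noncomputable def visStep (M n : ℕ) (a : A) (q : ZMod M × ZMod n) : ZMod M × ZMod n :=
  (q.1 + (stp a : ZMod M),
    if q.1 + (stp a : ZMod M) = 0 ∧ visArr stp B a then q.2 + 1 else q.2)

/-- The number of counted arrivals at `0` along a word. -/
noncomputable def fc (r : ZMod M) : List A → ℕ
  | [] => 0
  | a :: w => (if r + (stp a : ZMod M) = 0 ∧ visArr stp B a then 1 else 0) +
      fc (r + (stp a : ZMod M)) w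

/-- The displacement of a word. -/
def disp (w : List A) : ℤ := (w.map stp).sum

@[simp] theorem disp_nil : disp stp ([] : List A) = 0 := rfl
@[simp] theorem disp_cons (a : A) (w : List A) : disp stp (a :: w) = stp a + disp stp w := by
  simp [disp]

theorem disp_append (u w : List A) : disp stp (u ++ w) = disp stp u + disp stp w := by
  simp [disp]

theorem disp_rep (u : List A) (m : ℕ) : disp stp (rep u m) = m * disp stp u := by
  induction m with
  | zero => simp [rep]
  | succ m ih =>
    rw [rep, disp_append, ih]
    push_cast
    ring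

theorem fc_append (r : ZMod M) (u w : List A) :
    fc stp B r (u ++ w) = fc stp B r u + fc stp B (r + (disp stp u : ZMod M)) w := by
  induction u generalizing r with
  | nil => simp [fc]
  | cons a u ih =>
    simp only [List.cons_append, fc, ih, disp_cons]
    push_cast
    rw [add_assoc, add_assoc]

theorem fc_rep_of_closed (r : ZMod M) (y : List A) (h : r + (disp stp y : ZMod M) = r) (j : ℕ) :
    fc stp B r (rep y j) = j * fc stp B r y := by
  induction j with
  | zero => simp [rep, fc]
  | succ j ih =>
    rw [rep, fc_append, h, ih]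
    ring

theorem run_visStep (r : ZMod M) (s : ZMod n) (w : List A) :
    run (visStep stp B M n) (r, s) w =
      (r + (disp stp w : ZMod M), s + (fc stp B r w : ZMod n)) := by
  induction w generalizing r s with
  | nil => simp [fc]
  | cons a w ih =>
    rw [run_cons]
    have e : visStep stp B M n a (r, s) = (r + (stp a : ZMod M),
        if r + (stp a : ZMod M) = 0 ∧ visArr stp B a then s + 1 else s) := rfl
    rw [e, ih]
    simp only [disp_cons, fc]
    apply Prod.ext
    · simp only [Int.cast_add]
      ring
    · by_cases hc : r + (stp a : ZMod M) = 0 ∧ visArr stp B a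
      · simp only [hc, and_self, if_true, Nat.cast_add, Nat.cast_one]
        ring
      · simp only [hc, if_false, zero_add]

/-- If the number of counted arrivals is large, the run in the sink automaton ends in the hub. -/
theorem run_sink_of_fc_ge (W : List A) (r : ZMod M) (s : ZMod n) (k : ℕ) (hk1 : 1 ≤ k)
    (hk0 : s + (k : ZMod n) = 0) (hk : k ≤ fc stp B r W) :
    run (sinkAt (visStep stp B M n) ((0 : ZMod M), (0 : ZMod n))) (r, s) W = (0, 0) := by
  induction W generalizing r s k with
  | nil => simp [fc] at hk; omega
  | cons a W ih =>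
    rw [run_cons]
    by_cases hv : (r, s) = ((0 : ZMod M), (0 : ZMod n))
    · rw [hv]
      have : sinkAt (visStep stp B M n) ((0 : ZMod M), (0 : ZMod n)) a
          ((0 : ZMod M), (0 : ZMod n)) = (0, 0) := by simp [sinkAt]
      rw [this]
      exact run_sink_hub W
    · rw [sinkAt_of_ne hv]
      have e : visStep stp B M n a (r, s) = (r + (stp a : ZMod M),
          if r + (stp a : ZMod M) = 0 ∧ visArr stp B a then s + 1 else s) := rfl
      rw [e]
      simp only [fc] at hk
      by_cases hc : r + (stp a : ZMod M) = 0 ∧ visArr stp B a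
      · simp only [hc, and_self, if_true] at hk ⊢
        by_cases hk1' : k = 1
        · subst hk1'
          have h0 : s + 1 = 0 := by simpa using hk0
          rw [h0]
          exact run_sink_hub W
        · obtain ⟨k', rfl⟩ : ∃ k', k = k' + 1 := ⟨k - 1, by omega⟩
          refine ih _ _ k' (by omega) ?_ (by omega)
          rw [← hk0]
          push_cast
          ring
      · simp only [hc, if_false, zero_add] at hk ⊢
        exact ih _ _ k hk1 hk0 hk

variable [NeZero M] [NeZero n]

theorem exists_k_of_zmod (s : ZMod n) : ∃ k : ℕ, 1 ≤ k ∧ k ≤ n ∧ s + (k : ZMod n) = 0 := by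
  refine ⟨n - s.val, ?_, ?_, ?_⟩
  · have := ZMod.val_lt s; omega
  · omega
  · have hle : s.val ≤ n := (ZMod.val_lt s).le
    rw [Nat.cast_sub hle]
    simp

variable {stp B}

/-- Fire-free runs off `0` do not wrap around. -/
theorem val_of_fc_zero (hstp : ∀ a, stp a = 0 ∨ stp a = 1 ∨ stp a = -1) (W : List A) (r : ZMod M)
    (hr : r ≠ 0) (h0 : fc stp B r W = 0) :
    r + (disp stp W : ZMod M) ≠ 0 ∧
      (((r + (disp stp W : ZMod M)).val : ℕ) : ℤ) = (r.val : ℤ) + disp stp W := by
  induction W generalizing r with
  | nil => simpa using hr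
  | cons a W ih =>
    simp only [fc] at h0
    have h1 : ¬ (r + (stp a : ZMod M) = 0 ∧ visArr stp B a) := by
      intro hc
      simp [hc] at h0
    have h2 : fc stp B (r + (stp a : ZMod M)) W = 0 := by
      rw [if_neg h1, zero_add] at h0
      exact h0
    have hre : r + (disp stp (a :: W) : ZMod M) =
        (r + (stp a : ZMod M)) + (disp stp W : ZMod M) := by
      simp only [disp_cons, Int.cast_add]
      ring
    rcases hstp a with hs | hs | hs
    · have hcast : (stp a : ZMod M) = 0 := by simp [hs]
      have hr' : r + (stp a : ZMod M) = r := by rw [hcast, add_zero]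
      rw [hr'] at h2
      obtain ⟨i1, i2⟩ := ih r hr h2
      rw [hre, hr']
      refine ⟨i1, ?_⟩
      rw [i2, disp_cons, hs]
      ring
    · have hcast : (stp a : ZMod M) = 1 := by simp [hs]
      have hne : r + 1 ≠ 0 := by
        intro he
        apply h1
        rw [hcast]
        exact ⟨he, Or.inl (by simp [hs])⟩
      rw [hcast] at h2
      obtain ⟨i1, i2⟩ := ih (r + 1) hne h2
      rw [hre, hcast]
      refine ⟨i1, ?_⟩
      rw [i2, disp_cons, hs, zmod_val_succ r hne]
      push_cast
      ring
    · have hcast : (stp a : ZMod M) = -1 := by simp [hs]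
      have hne : r + -1 ≠ 0 := by
        intro he
        apply h1
        rw [hcast]
        exact ⟨he, Or.inl (by simp [hs])⟩
      rw [hcast] at h2
      obtain ⟨i1, i2⟩ := ih (r + -1) hne h2
      rw [hre, hcast]
      refine ⟨i1, ?_⟩
      rw [i2, disp_cons, hs]
      have := zmod_val_pred r hr
      rw [← sub_eq_add_neg, this]
      ring

/-- A fire-free closed run from `0` consists of letters of step `0`. -/
theorem stp_zero_of_fc_zero (hstp : ∀ a, stp a = 0 ∨ stp a = 1 ∨ stp a = -1) (W : List A)
    (h0 : fc stp B (0 : ZMod M) W = 0) (hcl : (disp stp W : ZMod M) = 0) :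
    ∀ a ∈ W, stp a = 0 := by
  induction W with
  | nil => simp
  | cons a W ih =>
    simp only [fc] at h0
    have h1 : ¬ ((0 : ZMod M) + (stp a : ZMod M) = 0 ∧ visArr stp B a) := by
      intro hc
      simp [hc] at h0
    have h2 : fc stp B ((0 : ZMod M) + (stp a : ZMod M)) W = 0 := by
      rw [if_neg h1, zero_add] at h0
      exact h0
    have hsa : stp a = 0 := by
      by_contra hne
      have hne0 : (0 : ZMod M) + (stp a : ZMod M) ≠ 0 := fun he => h1 ⟨he, Or.inl hne⟩
      have := (val_of_fc_zero hstp W _ hne0 h2).1
      apply this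
      rw [disp_cons] at hcl
      push_cast at hcl
      rw [zero_add]
      exact hcl
    have hcast : (stp a : ZMod M) = 0 := by simp [hsa]
    rw [hcast, zero_add] at h2
    have hcl' : (disp stp W : ZMod M) = 0 := by
      rw [disp_cons] at hcl
      push_cast at hcl
      rw [hcast, zero_add] at hcl
      exact hcl
    intro b hb
    rcases List.mem_cons.1 hb with rfl | hb
    · exact hsa
    · exact ih h2 hcl' b hb

/-- **Visit machines have a hub.** -/
theorem visStep_isHub (hstp : ∀ a, stp a = 0 ∨ stp a = 1 ∨ stp a = -1) :
    IsHub (visStep stp B M n) ((0 : ZMod M), (0 : ZMod n)) := by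
  refine isHub_of_closed ?_
  rintro u ⟨r, s⟩ hx m hm hcl
  obtain ⟨m', rfl⟩ : ∃ m', m = m' + 1 := ⟨m - 1, by omega⟩
  set y := rep u (m' + 1) with hy
  have hne : run (sinkAt (visStep stp B M n) ((0 : ZMod M), (0 : ZMod n))) (r, s) y ≠ (0, 0) := by
    rw [hcl]; exact hx
  have hrun := run_eq_of_sink_ne y (r, s) hne
  rw [hcl, run_visStep] at hrun
  have hr1 : r + (disp stp y : ZMod M) = r := congrArg Prod.fst hrun
  -- no arrivals
  have hf0 : fc stp B r y = 0 := by
    by_contra hpos
    obtain ⟨k, hk1, hkn, hk0⟩ := exists_k_of_zmod s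
    have hfc : fc stp B r (rep y n) = n * fc stp B r y := fc_rep_of_closed stp B r y hr1 n
    have hge : k ≤ fc stp B r (rep y n) := by
      rw [hfc]
      calc k ≤ n := hkn
        _ = n * 1 := (mul_one n).symm
        _ ≤ n * fc stp B r y := Nat.mul_le_mul_left _ (Nat.pos_of_ne_zero hpos)
    have hsink := run_sink_of_fc_ge (M := M) (stp := stp) (B := B) (rep y n) r s k hk1 hk0 hge
    have hiter : run (sinkAt (visStep stp B M n) ((0 : ZMod M), (0 : ZMod n))) (r, s) (rep y n) =
        (r, s) := by
      rw [run_rep]
      exact Function.iterate_fixed hcl n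
    rw [hiter] at hsink
    exact hx hsink
  have hyu : y = u ++ rep u m' := rfl
  have hfu : fc stp B r u = 0 := by
    have := fc_append (M := M) stp B r u (rep u m')
    rw [← hyu, hf0] at this
    omega
  -- the displacement of `u` vanishes
  have hd0 : (disp stp u : ZMod M) = 0 := by
    by_cases hr0 : r = 0
    · subst hr0
      have hcl0 : (disp stp y : ZMod M) = 0 := by simpa using hr1
      have hall := stp_zero_of_fc_zero hstp y hf0 hcl0
      have : disp stp u = 0 := by
        unfold disp
        apply List.sum_eq_zero
        intro z hz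
        obtain ⟨a, ha, rfl⟩ := List.mem_map.1 hz
        exact hall a (List.mem_append_left _ ha)
      simp [this]
    · have h2 := (val_of_fc_zero hstp y r hr0 hf0).2
      rw [hr1] at h2
      have h3 : disp stp y = 0 := by linarith
      rw [hy, disp_rep] at h3
      have h4 : disp stp u = 0 := by
        rcases mul_eq_zero.1 h3 with h | h
        · exfalso
          have : ((m' + 1 : ℕ) : ℤ) ≠ 0 := by positivity
          exact this h
        · exact h
      simp [h4]
  rw [run_visStep, hd0, hfu]
  simp

/-- The counted arrivals are good. -/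
theorem good_fc [Finite A] (hstp : ∀ a, stp a = 0 ∨ stp a = 1 ∨ stp a = -1) (r : ZMod M) :
    Good (fun w : List A => ((fc stp B r w : ℕ) : ZMod n)) := by
  have h : Good (fun w : List A => run (visStep stp B M n) (r, (0 : ZMod n)) w) :=
    fun b => hub_path (visStep_isHub hstp) _ b
  have h2 := h.comp Prod.snd
  refine Good.of_factor h2 (fun w w' e => ?_)
  simp only [run_visStep, zero_add] at e
  exact e

variable (stp B)

/-- The sum of `h` over the counted arrivals. -/
noncomputable def vs {R : Type} [AddMonoid R] (h : ZMod M → R) (z : ZMod M) : List A → R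
  | [] => 0
  | a :: w => (if visArr stp B a then h (z + (stp a : ZMod M)) else 0) +
      vs h (z + (stp a : ZMod M)) w

theorem vs_eq_sum [Fintype (ZMod M)] (h : ZMod M → ZMod n) (z : ZMod M) (w : List A) :
    vs stp B h z w = ∑ r : ZMod M, h r * ((fc stp B (z - r) w : ℕ) : ZMod n) := by
  induction w generalizing z with
  | nil => simp [vs, fc]
  | cons a w ih =>
    simp only [vs, fc, ih, Nat.cast_add, mul_add, Finset.sum_add_distrib]
    have e1 : ∀ r : ZMod M, z - r + (stp a : ZMod M) = z + (stp a : ZMod M) - r := by
      intro r; ring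
    simp only [e1]
    congr 1
    by_cases harr : visArr stp B a
    · simp only [harr, if_true, and_true]
      rw [Finset.sum_eq_single (z + (stp a : ZMod M))]
      · simp
      · intro b _ hb
        have : z + (stp a : ZMod M) - b ≠ 0 := fun he => hb (sub_eq_zero.1 he).symm
        simp [this]
      · intro hc
        exact absurd (Finset.mem_univ _) hc
    · simp [harr]

variable {stp B}

/-- Sums over counted arrivals are good. -/
theorem good_vs [Finite A] (hstp : ∀ a, stp a = 0 ∨ stp a = 1 ∨ stp a = -1) (h : ZMod M → ZMod n)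
    (z : ZMod M) : Good (fun w : List A => vs stp B h z w) := by
  haveI : Fintype (ZMod M) := ZMod.fintype M
  have : (fun w : List A => vs stp B h z w) =
      fun w => ∑ r : ZMod M, h r * ((fc stp B (z - r) w : ℕ) : ZMod n) := by
    funext w
    exact vs_eq_sum stp B h z w
  rw [this]
  haveI : Finite (ZMod n) := Finite.of_fintype _
  refine Good.finset_sum _ (fun r _ => ?_)
  exact (good_fc hstp (z - r)).comp (fun b => h r * b)

end Vis

end Vale.Agent.Lib.P329
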